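import Mathlib

/-!
# P217 / ArcA: points of Noetherian local rings in complete algebraically closed fields

`exists_point_noetherian`: `R` Noetherian local, `I` radical, `a ∉ I`: there is a complete algebraically
closed ultrametric field `C` and `χ : R → C` with `χ(I) = 0`, `χ(a) ≠ 0`, `‖χ f‖ ≤ 1`, and
`‖χ f‖ ≤ ρ^j` for `f ∈ 𝔪^j` (`ρ < 1`).
-/

namespace Chai

section Dense

open Polynomial Filter Topology

theorem arc_norm_sub_le_max {L : Type*} [NormedField L] [IsUltrametricDist L] (x y : L) :
    ‖x - y‖ ≤ max ‖x‖ ‖y‖ := by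
  rw [sub_eq_add_neg]
  exact (IsUltrametricDist.norm_add_le_max _ _).trans (by rw [norm_neg])

/-- a root of a monic polynomial which is a limit of split monic polynomials -/
theorem exists_root_of_approx {L : Type*} [NormedField L] [CompleteSpace L] [IsUltrametricDist L]
    (f : L[X]) (hd : f.natDegree ≠ 0)
    (happ : ∀ ε : ℝ, 0 < ε → ∃ g : L[X], g.Monic ∧ g.natDegree = f.natDegree ∧ g.Splits ∧
      ∀ n, ‖g.coeff n - f.coeff n‖ < ε) : ∃ x, f.eval x = 0 := by
  set d := f.natDegree with hdd
  let ε : ℕ → ℝ := fun n => ((1 / 2 : ℝ) ^ n) ^ d / (d + 1)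
  have hεpos : ∀ n, 0 < ε n := fun n => by positivity
  have hεanti : ∀ n, ε (n + 1) ≤ ε n := by
    intro n
    simp only [ε]
    gcongr ?_ ^ d / _
    exact pow_le_pow_of_le_one (by norm_num) (by norm_num) (Nat.le_succ n)
  choose g hgm hgd hgs hgc using fun n => happ (ε n) (hεpos n)
  -- the recursion step
  have hstep : ∀ n (x : L), (g n).eval x = 0 → ∃ y, (g (n + 1)).eval y = 0 ∧
      ‖x - y‖ ≤ (1 / 2 : ℝ) ^ n * max ‖x‖ 1 := by
    intro n x hx
    have hc : ∀ i, ‖(g (n + 1)).coeff i - (g n).coeff i‖ < ε n := by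
      intro i
      have h1 : (g (n + 1)).coeff i - (g n).coeff i
          = ((g (n + 1)).coeff i - f.coeff i) - ((g n).coeff i - f.coeff i) := by ring
      rw [h1]
      refine (arc_norm_sub_le_max _ _).trans_lt ?_
      exact max_lt ((hgc (n + 1) i).trans_le (hεanti n)) (hgc n i)
    obtain ⟨y, hy, hxy⟩ := Polynomial.exists_roots_norm_sub_lt_of_norm_coeff_sub_lt (hεpos n) hx
      (hgm n) (hgm (n + 1)) (by rw [hgd, hgd]) hc (hgs (n + 1))
    refine ⟨y, ?_, ?_⟩
    · exact ((Polynomial.mem_roots (hgm (n + 1)).ne_zero).1 hy)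
    · refine hxy.le.trans (le_of_eq ?_)
      rw [hgd]
      congr 1
      simp only [ε]
      rw [mul_div_cancel₀ _ (by positivity)]
      rw [← Real.rpow_natCast ((1 / 2 : ℝ) ^ n) d, ← Real.rpow_mul (by positivity),
        mul_inv_cancel₀ (by exact_mod_cast hd), Real.rpow_one]
  have h0 : ∃ x, (g 0).eval x = 0 := by
    obtain ⟨x, hx⟩ := (hgs 0).exists_eval_eq_zero (by
      rw [Polynomial.degree_eq_natDegree (hgm 0).ne_zero, hgd]
      exact_mod_cast hd)
    exact ⟨x, hx⟩
  obtain ⟨x0, hx0⟩ := h0
  let b : (n : ℕ) → {x : L // (g n).eval x = 0} := fun n => Nat.rec (motive := fun n => {x : L // (g n).eval x = 0})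
    ⟨x0, hx0⟩ (fun n x => ⟨(hstep n x.1 x.2).choose, (hstep n x.1 x.2).choose_spec.1⟩) n
  have hb : ∀ n, ‖(b n).1 - (b (n + 1)).1‖ ≤ (1 / 2 : ℝ) ^ n * max ‖(b n).1‖ 1 := by
    intro n
    exact (hstep n (b n).1 (b n).2).choose_spec.2
  set M := max ‖x0‖ 1 with hM
  have hM1 : 1 ≤ M := le_max_right _ _
  have hbM : ∀ n, ‖(b n).1‖ ≤ M := by
    intro n
    induction n with
    | zero => exact le_max_left _ _
    | succ n ih =>
      have h1 : (b (n + 1)).1 = (b n).1 - ((b n).1 - (b (n + 1)).1) := by ring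
      rw [h1]
      refine (arc_norm_sub_le_max _ _).trans (max_le ih ?_)
      refine (hb n).trans ?_
      calc (1 / 2 : ℝ) ^ n * max ‖(b n).1‖ 1 ≤ 1 * M := by
            gcongr
            · exact pow_le_one₀ (by norm_num) (by norm_num)
            · exact max_le ih hM1
        _ = M := one_mul M
  have hcs : CauchySeq fun n => (b n).1 := by
    refine cauchySeq_of_le_geometric (1 / 2) M (by norm_num) ?_
    intro n
    rw [dist_eq_norm, mul_comm]
    refine (hb n).trans ?_
    gcongr
    exact max_le (hbM n) hM1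
  obtain ⟨x, hx⟩ := cauchySeq_tendsto_of_complete hcs
  refine ⟨x, ?_⟩
  have h1 : Tendsto (fun n => f.eval (b n).1) atTop (𝓝 (f.eval x)) :=
    (f.continuous.tendsto x).comp hx
  have h2 : Tendsto (fun n => f.eval (b n).1) atTop (𝓝 0) := by
    have hle : ∀ n, ‖f.eval (b n).1‖ ≤ ε n * M ^ d := by
      intro n
      have h3 : f.eval (b n).1 = (f - g n).eval (b n).1 := by
        rw [eval_sub, (b n).2, sub_zero]
      rw [h3, Polynomial.eval_eq_sum_range' (n := d + 1)
        (Nat.lt_succ_of_le ((natDegree_sub_le _ _).trans (by rw [hgd n, ← hdd, max_self])))]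
      refine IsUltrametricDist.norm_sum_le_of_forall_le_of_nonneg (by positivity) ?_
      intro i hi
      rw [norm_mul, norm_pow, coeff_sub, norm_sub_rev]
      have hi' : i ≤ d := Nat.lt_succ_iff.1 (Finset.mem_range.1 hi)
      gcongr
      · exact (hgc n i).le
      · calc ‖(b n).1‖ ^ i ≤ M ^ i := by gcongr; exact hbM n
          _ ≤ M ^ d := pow_le_pow_right₀ hM1 hi'
    have hε0 : Tendsto (fun n => ε n * M ^ d) atTop (𝓝 0) := by
      have h4 : Tendsto (fun n => ((1 / 2 : ℝ) ^ n) ^ d / (d + 1) * M ^ d) atTop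
          (𝓝 (0 ^ d / (d + 1) * M ^ d)) := by
        have h5 : Tendsto (fun n : ℕ => (1 / 2 : ℝ) ^ n) atTop (𝓝 0) :=
          tendsto_pow_atTop_nhds_zero_of_lt_one (by norm_num) (by norm_num)
        exact ((h5.pow d).div_const _).mul_const _
      have h6 : ((0 : ℝ) ^ d / (d + 1) * M ^ d) = 0 := by simp [hd]
      rw [h6] at h4
      exact h4
    exact squeeze_zero_norm hle hε0
  exact tendsto_nhds_unique h1 h2

theorem isAlgClosed_of_denseRange {K L : Type*} [Field K] [IsAlgClosed K] [NormedField L]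
    [CompleteSpace L] [IsUltrametricDist L] [Algebra K L] (hd : DenseRange (algebraMap K L)) :
    IsAlgClosed L := by
  refine IsAlgClosed.of_exists_root L fun f hf hirr => ?_
  obtain ⟨x, hx⟩ := exists_root_of_approx f (Irreducible.natDegree_pos hirr).ne' (by
    intro ε hε
    obtain ⟨g, hg, hgd, hgc⟩ :=
      Polynomial.exists_monic_and_natDegree_eq_and_norm_map_algebraMap_coeff_sub_lt hd hf hε
    exact ⟨g.map (algebraMap K L), hg.map _, by rw [natDegree_map, hgd],
      (IsAlgClosed.splits g).map _, hgc⟩)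
  exact ⟨x, hx⟩

end Dense

section Points

open IsLocalRing

universe u

theorem exists_completion (A : Type u) [NormedField A] [IsUltrametricDist A]
    (hnt : ∃ x : A, 1 < ‖x‖) :
    ∃ (C : Type u) (_ : NontriviallyNormedField C) (_ : IsUltrametricDist C) (_ : CompleteSpace C)
      (φ : A →+* C), (∀ x, ‖φ x‖ = ‖x‖) ∧ DenseRange φ := by
  let C := UniformSpace.Completion A
  let iN : NormedField C := inferInstance
  have hφ : ∀ x : A, ‖(UniformSpace.Completion.coeRingHom (α := A)) x‖ = ‖x‖ := fun x =>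
    UniformSpace.Completion.norm_coe x
  have hdense : DenseRange (UniformSpace.Completion.coeRingHom (α := A)) :=
    UniformSpace.Completion.denseRange_coe
  let iNN : NontriviallyNormedField C :=
    { iN with
      non_trivial := by
        obtain ⟨x, hx⟩ := hnt
        exact ⟨UniformSpace.Completion.coeRingHom x, by rw [hφ]; exact hx⟩ }
  have hU : IsUltrametricDist C := by
    refine IsUltrametricDist.isUltrametricDist_of_forall_norm_add_le_max_norm ?_
    intro x y
    refine UniformSpace.Completion.induction_on₂ x y ?_ ?_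
    · exact isClosed_le (continuous_norm.comp continuous_add)
        ((continuous_norm.comp continuous_fst).max (continuous_norm.comp continuous_snd))
    · intro a b
      rw [← UniformSpace.Completion.coe_add, UniformSpace.Completion.norm_coe,
        UniformSpace.Completion.norm_coe, UniformSpace.Completion.norm_coe]
      exact IsUltrametricDist.norm_add_le_max a b
  exact ⟨C, iNN, hU, inferInstance, UniformSpace.Completion.coeRingHom, hφ, hdense⟩

theorem exists_algClosed_extension (K : Type u) [NontriviallyNormedField K] [IsUltrametricDist K]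
    [CompleteSpace K] :
    ∃ (C : Type u) (_ : NontriviallyNormedField C) (_ : IsUltrametricDist C) (_ : CompleteSpace C)
      (_ : IsAlgClosed C) (φ : K →+* C), ∀ x, ‖φ x‖ = ‖x‖ := by
  let A := AlgebraicClosure K
  let iA : NormedField A := spectralNorm.normedField K A
  have hext : ∀ x : K, ‖algebraMap K A x‖ = ‖x‖ := fun x => spectralNorm_extends x
  have hUA : IsUltrametricDist A :=
    IsUltrametricDist.isUltrametricDist_of_forall_norm_add_le_max_norm
      (isNonarchimedean_spectralNorm (K := K) (L := A))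
  have hnt : ∃ x : A, 1 < ‖x‖ := by
    obtain ⟨x, hx⟩ := NontriviallyNormedField.non_trivial (α := K)
    exact ⟨algebraMap K A x, by rw [hext]; exact hx⟩
  obtain ⟨C, i1, i2, i3, φ, hφ, hd⟩ := exists_completion A hnt
  let : Algebra A C := φ.toAlgebra
  have hC : IsAlgClosed C := isAlgClosed_of_denseRange (K := A) (L := C) hd
  exact ⟨C, i1, i2, i3, hC, φ.comp (algebraMap K A), fun x => by
    rw [RingHom.comp_apply, hφ, hext]⟩

theorem exists_algClosed_of_absoluteValue {F : Type u} [Field F] (v : AbsoluteValue F ℝ)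
    (hv : ∀ x y, v (x + y) ≤ max (v x) (v y)) (a : F) (ha0 : a ≠ 0) (ha : v a < 1) :
    ∃ (C : Type u) (_ : NontriviallyNormedField C) (_ : IsUltrametricDist C) (_ : CompleteSpace C)
      (_ : IsAlgClosed C) (φ : F →+* C), ∀ x, ‖φ x‖ = v x := by
  let : NormedField F := v.toNormedField
  have hn : ∀ x : F, ‖x‖ = v x := fun x => rfl
  have hU : IsUltrametricDist F :=
    IsUltrametricDist.isUltrametricDist_of_forall_norm_add_le_max_norm hv
  have hnt : ∃ x : F, 1 < ‖x‖ := by
    refine ⟨a⁻¹, ?_⟩
    rw [norm_inv]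
    exact (one_lt_inv₀ (by rw [norm_pos_iff]; exact ha0)).2 (by rw [hn]; exact ha)
  obtain ⟨K, i1, i2, i3, φ, hφ, -⟩ := exists_completion F hnt
  obtain ⟨C, j1, j2, j3, j4, ψ, hψ⟩ := exists_algClosed_extension K
  exact ⟨C, j1, j2, j3, j4, ψ.comp φ, fun x => by rw [RingHom.comp_apply, hψ, hφ, hn]⟩

/-- an absolute value from a valuation ring `V` and `a ∈ 𝔪_V` whose powers are cofinal -/
theorem exists_absoluteValue {F : Type*} [Field F] (V : ValuationSubring F) (a : F) (ha0 : a ≠ 0)
    (ha : V.valuation a < 1)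
    (harch : ∀ y : F, y ≠ 0 → ∃ n : ℕ, V.valuation a ^ n ≤ V.valuation y) :
    ∃ v : AbsoluteValue F ℝ, (∀ x y, v (x + y) ≤ max (v x) (v y)) ∧ (∀ x ∈ V, v x ≤ 1) ∧
      v a < 1 := by
  classical
  have hva0 : V.valuation a ≠ 0 := by simpa using ha0
  have hpow : ∀ x y : F, V.valuation x ≤ V.valuation y →
      (∀ n : ℕ, V.valuation y ^ n * V.valuation a ≤ 1) →
      ∀ n : ℕ, V.valuation x ^ n * V.valuation a ≤ 1 := by
    intro x y hxy h n
    refine le_trans ?_ (h n)
    gcongr
  let S : Subring F :=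
    { carrier := {y | ∀ n : ℕ, V.valuation y ^ n * V.valuation a ≤ 1}
      mul_mem' := by
        intro x y hx hy n
        rcases le_total (V.valuation x) (V.valuation y) with h | h
        · have : V.valuation (x * y) ^ n * V.valuation a
              ≤ V.valuation y ^ (2 * n) * V.valuation a := by
            rw [map_mul, pow_mul, pow_two]
            gcongr
          exact this.trans (hy _)
        · have : V.valuation (x * y) ^ n * V.valuation a
              ≤ V.valuation x ^ (2 * n) * V.valuation a := by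
            rw [map_mul, pow_mul, pow_two]
            gcongr
          exact this.trans (hx _)
      one_mem' := by
        intro n
        simpa using ha.le
      add_mem' := by
        intro x y hx hy n
        rcases le_total (V.valuation x) (V.valuation y) with h | h
        · have h1 : V.valuation (x + y) ≤ V.valuation y :=
            (V.valuation.map_add x y).trans (by simp [h])
          exact hpow _ _ h1 hy n
        · have h1 : V.valuation (x + y) ≤ V.valuation x :=
            (V.valuation.map_add x y).trans (by simp [h])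
          exact hpow _ _ h1 hx n
      zero_mem' := by
        intro n
        rcases Nat.eq_zero_or_pos n with rfl | hn
        · simpa using ha.le
        · simp [hn.ne']
      neg_mem' := by
        intro x hx n
        rw [Valuation.map_neg]
        exact hx n }
  have hVS : V.toSubring ≤ S := by
    intro x hx n
    have h1 : V.valuation x ≤ 1 := (V.valuation_le_one_iff x).2 hx
    calc V.valuation x ^ n * V.valuation a ≤ 1 * 1 := by
          gcongr
          exact pow_le_one' h1 n
      _ = 1 := one_mul 1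
  let W : ValuationSubring F := V.ofLE S hVS
  have hmemW : ∀ x, x ∈ W ↔ ∀ n : ℕ, V.valuation x ^ n * V.valuation a ≤ 1 := fun x => Iff.rfl
  have hVW : ∀ x, V.valuation x ≤ 1 → W.valuation x ≤ 1 := by
    intro x hx
    rw [W.valuation_le_one_iff]
    exact hVS ((V.valuation_le_one_iff x).1 hx)
  have haW : W.valuation a < 1 := by
    by_contra hcon
    have h1 : W.valuation a⁻¹ ≤ 1 := by
      rw [map_inv₀]
      exact inv_le_one_of_one_le₀ (not_lt.1 hcon)
    rw [W.valuation_le_one_iff, hmemW] at h1
    have h2 := h1 2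
    rw [map_inv₀, pow_two, mul_assoc, inv_mul_cancel₀ hva0, mul_one] at h2
    have h3 : 1 < (V.valuation a)⁻¹ := (one_lt_inv₀ (zero_lt_iff.2 hva0)).2 ha
    exact absurd h2 (not_le.2 h3)
  have harchW : MulArchimedean W.ValueGroup := by
    constructor
    intro x y hy
    obtain ⟨z, rfl⟩ := W.valuation_surjective x
    obtain ⟨w, rfl⟩ := W.valuation_surjective y
    by_cases hz : z = 0
    · exact ⟨0, by simp [hz]⟩
    have hw : w ∉ W := fun h => absurd ((W.valuation_le_one_iff w).2 h) (not_le.2 hy)
    rw [hmemW] at hw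
    push Not at hw
    obtain ⟨n, hn⟩ := hw
    obtain ⟨m, hm⟩ := harch z⁻¹ (inv_ne_zero hz)
    refine ⟨n * m, ?_⟩
    have hw0 : w ≠ 0 := by
      rintro rfl
      simp at hy
    have h1 : V.valuation (z * (w ^ (n * m))⁻¹) ≤ 1 := by
      have h2 : V.valuation z ≤ V.valuation w ^ (n * m) := by
        have h3 : V.valuation a ^ m * V.valuation z ≤ 1 := by
          rw [map_inv₀] at hm
          calc V.valuation a ^ m * V.valuation z ≤ (V.valuation z)⁻¹ * V.valuation z := by gcongr
            _ = 1 := inv_mul_cancel₀ (by simpa using hz)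
        have h4 : 1 ≤ V.valuation w ^ (n * m) * V.valuation a ^ m := by
          rw [pow_mul, ← mul_pow]
          exact one_le_pow_of_one_le' hn.le m
        calc V.valuation z = 1 * V.valuation z := (one_mul _).symm
          _ ≤ (V.valuation w ^ (n * m) * V.valuation a ^ m) * V.valuation z := by gcongr
          _ = V.valuation w ^ (n * m) * (V.valuation a ^ m * V.valuation z) := mul_assoc _ _ _
          _ ≤ V.valuation w ^ (n * m) * 1 := by gcongr
          _ = _ := mul_one _
      rw [map_mul, map_inv₀, map_pow]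
      rw [← div_eq_mul_inv]
      exact (div_le_one₀ (by
        rw [zero_lt_iff]
        exact pow_ne_zero _ (by simpa using hw0))).2 h2
    have h5 := hVW _ h1
    rw [map_mul, map_inv₀, map_pow, ← div_eq_mul_inv] at h5
    exact (div_le_one₀ (by
        rw [zero_lt_iff]
        exact pow_ne_zero _ (by simpa using hw0))).1 h5
  have hnt : W.valuation.IsNontrivial := ⟨a, by simpa using ha0, haW.ne⟩
  have hM : MulArchimedean (MonoidWithZeroHom.ValueGroup₀ (.ofClass W.valuation)) :=
    MulArchimedean.comap (MonoidWithZeroHom.ValueGroup₀.embedding (f := .ofClass W.valuation)).toMonoidHom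
      MonoidWithZeroHom.ValueGroup₀.embedding_strictMono
  obtain ⟨hr⟩ := (Valuation.nonempty_rankOne_iff_mulArchimedean (v := W.valuation)).2 hM
  have hmono : ∀ x y, W.valuation x ≤ W.valuation y → W.valuation.norm x ≤ W.valuation.norm y := by
    intro x y hxy
    rw [Valuation.norm_def, Valuation.norm_def, NNReal.coe_le_coe,
      (Valuation.RankOne.strictMono W.valuation).le_iff_le]
    exact (W.valuation.restrict_le_iff).2 hxy
  have hmono' : ∀ x y, W.valuation x < W.valuation y → W.valuation.norm x < W.valuation.norm y := by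
    intro x y hxy
    rw [Valuation.norm_def, Valuation.norm_def, NNReal.coe_lt_coe,
      (Valuation.RankOne.strictMono W.valuation).lt_iff_lt]
    exact (W.valuation.restrict_lt_iff).2 hxy
  have hone : W.valuation.norm 1 = 1 := by
    simp [Valuation.norm_def]
  refine ⟨⟨⟨W.valuation.norm, ?_⟩, ?_, ?_, ?_⟩, ?_, ?_, ?_⟩
  · intro x y
    simp only [Valuation.norm, ← NNReal.coe_mul, map_mul]
  · intro x
    exact W.valuation.norm_nonneg x
  · intro x
    refine ⟨fun h => W.valuation.norm_eq_zero h, ?_⟩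
    rintro rfl
    simp [Valuation.norm_def]
  · intro x y
    exact (W.valuation.norm_add_le x y).trans
      (max_le_add_of_nonneg (W.valuation.norm_nonneg _) (W.valuation.norm_nonneg _))
  · intro x y
    exact W.valuation.norm_add_le x y
  · intro x hx
    have := hmono x 1 (by
      rw [map_one]
      exact hVW x ((V.valuation_le_one_iff x).2 hx))
    rw [hone] at this
    exact this
  · have := hmono' a 1 (by rwa [map_one])
    rw [hone] at this
    exact this

/-- if all nonzero primes contain `a ∈ 𝔪`, then `𝔪^N ⊆ (a)` -/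
theorem exists_pow_le_span {S : Type*} [CommRing S] [IsDomain S] [IsNoetherianRing S]
    [IsLocalRing S] (a : S) (ha : a ∈ maximalIdeal S) (ha0 : a ≠ 0)
    (hP : ∀ P : Ideal S, P.IsPrime → P ≠ ⊥ → a ∈ P) :
    ∃ N : ℕ, maximalIdeal S ^ N ≤ Ideal.span {a} := by
  have hne : Ideal.span {a} ≠ ⊤ := by
    intro h
    have : Ideal.span {a} ≤ maximalIdeal S := by
      rw [Ideal.span_singleton_le_iff_mem]; exact ha
    rw [h, top_le_iff] at this
    exact (Ideal.IsPrime.ne_top inferInstance) this
  have hmem : maximalIdeal S ∈ (Ideal.span {a}).minimalPrimes := by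
    rw [← Ideal.subset_iUnion_iff_mem_of_isMaximal_of_finite
      (Ideal.finite_minimalPrimes_of_isNoetherianRing S (Ideal.span {a})) ⊥ ⊥
      (fun I hI _ _ => hI.1.1) bot_ne_top bot_ne_top]
    intro y hy
    rw [Set.mem_iUnion₂]
    by_cases hy0 : y = 0
    · obtain ⟨p, hp⟩ := (Ideal.nonempty_minimalPrimes (I := Ideal.span {a}) hne)
      exact ⟨p, hp, by rw [hy0]; exact p.zero_mem⟩
    · have hyt : Ideal.span {y} ≠ ⊤ := by
        intro h
        have : Ideal.span {y} ≤ maximalIdeal S := by
          rw [Ideal.span_singleton_le_iff_mem]; exact hy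
        rw [h, top_le_iff] at this
        exact (Ideal.IsPrime.ne_top inferInstance) this
      obtain ⟨p, hp⟩ := (Ideal.nonempty_minimalPrimes (I := Ideal.span {y}) hyt)
      have hyp : y ∈ p := hp.1.2 (Ideal.mem_span_singleton_self y)
      have hpp : p.IsPrime := hp.1.1
      have hap : a ∈ p := hP p hpp (by rintro rfl; exact hy0 (by simpa using hyp))
      have hh : p.height ≤ 1 :=
        Ideal.height_le_one_of_isPrincipal_of_mem_minimalPrimes (Ideal.span {y}) p hp
      have hh' : 1 ≤ (Ideal.span {a}).height :=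
        Ideal.one_le_height_span_singleton_of_mem_nonZeroDivisors (mem_nonZeroDivisors_of_ne_zero ha0)
      exact ⟨p, Ideal.mem_minimalPrimes_of_height_le
        (by rw [Ideal.span_singleton_le_iff_mem]; exact hap) (hh.trans hh'), hyp⟩
  have hrad : maximalIdeal S ≤ (Ideal.span {a}).radical := by
    rw [Ideal.radical_eq_sInf]
    refine le_sInf ?_
    rintro J ⟨hJ1, hJ2⟩
    exact hmem.2 ⟨hJ2, hJ1⟩ (le_maximalIdeal hJ2.ne_top)
  obtain ⟨N, hN⟩ := (Ideal.span {a}).exists_radical_pow_le_of_fg (IsNoetherian.noetherian _)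
  exact ⟨N, (Ideal.pow_right_mono hrad N).trans hN⟩

/-- a valuation ring dominating a local domain -/
theorem exists_dominating {S : Type*} [CommRing S] [IsDomain S] [IsLocalRing S] (F : Type*)
    [Field F] [Algebra S F] [IsFractionRing S F] :
    ∃ V : ValuationSubring F, (∀ s : S, algebraMap S F s ∈ V) ∧
      ∀ s ∈ maximalIdeal S, V.valuation (algebraMap S F s) < 1 := by
  have hinj : Function.Injective (algebraMap S F) := IsFractionRing.injective S F
  let e : S ≃+* (algebraMap S F).range :=
    RingEquiv.ofBijective (algebraMap S F).rangeRestrict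
      ⟨fun x y h => hinj (congrArg Subtype.val h), (algebraMap S F).rangeRestrict_surjective⟩
  let I : Ideal (algebraMap S F).range := (maximalIdeal S).comap (e.symm : _ →+* S)
  have hI : I ≠ ⊤ := Ideal.comap_ne_top _ (Ideal.IsPrime.ne_top inferInstance)
  obtain ⟨V, hV1, hV2⟩ := Ideal.image_subset_nonunits_valuationSubring I hI
  refine ⟨V, fun s => hV1 ⟨s, rfl⟩, fun s hs => ?_⟩
  have h1 : e s ∈ I := by
    change e.symm (e s) ∈ maximalIdeal S
    rw [RingEquiv.symm_apply_apply]
    exact hs
  have h2 : algebraMap S F s ∈ V.nonunits := hV2 ⟨e s, h1, rfl⟩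
  exact (ValuationSubring.mem_nonunits_iff V).1 h2

theorem exists_point_domain {S : Type u} [CommRing S] [IsDomain S] [IsNoetherianRing S]
    [IsLocalRing S] (a : S) (ha : a ∈ maximalIdeal S) (ha0 : a ≠ 0)
    (hP : ∀ P : Ideal S, P.IsPrime → P ≠ ⊥ → a ∈ P) :
    ∃ (C : Type u) (_ : NontriviallyNormedField C) (_ : IsUltrametricDist C) (_ : CompleteSpace C)
      (_ : IsAlgClosed C) (χ : S →+* C), (∀ f, ‖χ f‖ ≤ 1) ∧
      (∃ ρ : ℝ, 0 ≤ ρ ∧ ρ < 1 ∧ ∀ j, ∀ f ∈ maximalIdeal S ^ j, ‖χ f‖ ≤ ρ ^ j) ∧ χ a ≠ 0 := by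
  obtain ⟨N, hN⟩ := exists_pow_le_span a ha ha0 hP
  let F := FractionRing S
  obtain ⟨V, hV1, hV2⟩ := exists_dominating (S := S) F
  have hinj : Function.Injective (algebraMap S F) := IsFractionRing.injective S F
  have hF0 : algebraMap S F a ≠ 0 := by
    rw [Ne, map_eq_zero_iff _ hinj]; exact ha0
  have hva : V.valuation (algebraMap S F a) < 1 := hV2 a ha
  have hva0 : 0 < V.valuation (algebraMap S F a) := by
    rw [zero_lt_iff]; simpa using ha0
  have hle1 : ∀ s : S, V.valuation (algebraMap S F s) ≤ 1 := fun s =>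
    (V.valuation_le_one_iff _).2 (hV1 s)
  -- cofinality
  have hS : ∀ s : S, s ≠ 0 → ∃ n : ℕ, V.valuation (algebraMap S F a) ^ n
      ≤ V.valuation (algebraMap S F s) := by
    let P : Ideal S :=
      { carrier := {s | ∀ n : ℕ, V.valuation (algebraMap S F s)
          ≤ V.valuation (algebraMap S F a) ^ n}
        add_mem' := by
          intro x y hx hy n
          rw [map_add]
          exact (V.valuation.map_add _ _).trans (max_le (hx n) (hy n))
        zero_mem' := by
          intro n
          simp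
        smul_mem' := by
          intro c x hx n
          rw [smul_eq_mul, map_mul, map_mul]
          calc _ ≤ 1 * V.valuation (algebraMap S F a) ^ n := by
                gcongr
                · exact hle1 c
                · exact hx n
            _ = _ := one_mul _ }
    have hPmem : ∀ s, s ∈ P ↔ ∀ n : ℕ, V.valuation (algebraMap S F s)
          ≤ V.valuation (algebraMap S F a) ^ n := fun s => Iff.rfl
    have haP : a ∉ P := by
      intro h
      have h2 := (hPmem a).1 h 2
      rw [pow_two] at h2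
      have h3 : V.valuation (algebraMap S F a) * V.valuation (algebraMap S F a)
          < V.valuation (algebraMap S F a) * 1 := by
        gcongr
      rw [mul_one] at h3
      exact absurd h2 (not_le.2 h3)
    have hPp : P.IsPrime := by
      refine ⟨fun h => haP (h ▸ Submodule.mem_top), ?_⟩
      intro x y hxy
      by_contra hcon
      push Not at hcon
      obtain ⟨hx, hy⟩ := hcon
      rw [hPmem] at hx hy hxy
      push Not at hx hy
      obtain ⟨n, hn⟩ := hx
      obtain ⟨m, hm⟩ := hy
      have h1 := hxy (n + m)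
      rw [map_mul, map_mul, pow_add] at h1
      have h2 : V.valuation (algebraMap S F a) ^ n * V.valuation (algebraMap S F a) ^ m
          < V.valuation (algebraMap S F x) * V.valuation (algebraMap S F y) :=
        mul_lt_mul'' hn hm zero_le zero_le
      exact absurd h1 (not_le.2 h2)
    have hbot : P = ⊥ := by
      by_contra hne
      exact haP (hP P hPp hne)
    intro s hs
    have hsP : s ∉ P := by
      rw [hbot]; simpa using hs
    rw [hPmem] at hsP
    push Not at hsP
    obtain ⟨n, hn⟩ := hsP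
    exact ⟨n, hn.le⟩
  have harch : ∀ y : F, y ≠ 0 → ∃ n : ℕ, V.valuation (algebraMap S F a) ^ n ≤ V.valuation y := by
    intro y hy
    obtain ⟨s, t, ht, rfl⟩ := IsFractionRing.div_surjective (A := S) y
    have ht0 : t ≠ 0 := nonZeroDivisors.ne_zero ht
    have hs0 : s ≠ 0 := by
      rintro rfl
      simp at hy
    obtain ⟨n, hn⟩ := hS s hs0
    refine ⟨n, hn.trans ?_⟩
    rw [map_div₀]
    have h1 : 0 < V.valuation (algebraMap S F t) := by
      rw [zero_lt_iff]; simpa using ht0
    rw [le_div_iff₀ h1]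
    calc _ ≤ V.valuation (algebraMap S F s) * 1 := by
          gcongr
          exact hle1 t
      _ = _ := mul_one _
  obtain ⟨v, hv1, hv2, hv3⟩ := exists_absoluteValue V (algebraMap S F a) hF0 hva harch
  obtain ⟨C, i1, i2, i3, i4, φ, hφ⟩ := exists_algClosed_of_absoluteValue v hv1 _ hF0 hv3
  have hle : ∀ f : S, ‖φ (algebraMap S F f)‖ ≤ 1 := fun f => by
    rw [hφ]; exact hv2 _ (hV1 f)
  set r := v (algebraMap S F a) with hr
  have hr0 : 0 ≤ r := v.nonneg _
  have hρ : r ^ ((N + 1 : ℕ) : ℝ)⁻¹ < 1 := Real.rpow_lt_one hr0 hv3 (by positivity)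
  refine ⟨C, i1, i2, i3, i4, φ.comp (algebraMap S F), hle, ⟨r ^ ((N + 1 : ℕ) : ℝ)⁻¹,
    by positivity, hρ, ?_⟩, ?_⟩
  · have hm : ∀ f ∈ maximalIdeal S, ‖φ (algebraMap S F f)‖ ≤ r ^ ((N + 1 : ℕ) : ℝ)⁻¹ := by
      intro f hf
      have h1 : f ^ (N + 1) ∈ Ideal.span {a} := by
        rw [pow_succ]
        exact Ideal.mul_mem_right _ _ (hN (Ideal.pow_mem_pow hf N))
      obtain ⟨c, hc⟩ := Ideal.mem_span_singleton'.1 h1
      have h2 : ‖φ (algebraMap S F f)‖ ^ (N + 1) ≤ r := by
        rw [← norm_pow, ← map_pow, ← map_pow, ← hc, map_mul, map_mul, norm_mul]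
        calc _ ≤ 1 * ‖φ (algebraMap S F a)‖ := by
              gcongr
              exact hle c
          _ = r := by rw [one_mul, hφ]
      calc ‖φ (algebraMap S F f)‖ = (‖φ (algebraMap S F f)‖ ^ (N + 1)) ^ ((N + 1 : ℕ) : ℝ)⁻¹ := by
            rw [Real.pow_rpow_inv_natCast (norm_nonneg _) (Nat.succ_ne_zero N)]
        _ ≤ _ := Real.rpow_le_rpow (by positivity) h2 (by positivity)
    intro j
    induction j with
    | zero =>
      intro f _
      simpa using hle f
    | succ j ih =>
      intro f hf
      rw [pow_succ] at hf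
      refine Submodule.mul_induction_on hf ?_ ?_
      · intro x hx y hy
        rw [map_mul, norm_mul, pow_succ]
        exact mul_le_mul (ih x hx) (hm y hy) (norm_nonneg _) (by positivity)
      · intro x y hx hy
        rw [map_add]
        exact (IsUltrametricDist.norm_add_le_max _ _).trans (max_le hx hy)
  · rw [RingHom.comp_apply]
    exact (map_ne_zero φ).2 hF0

theorem map_maximalIdeal_le_of_surjective {A B : Type*} [CommRing A] [IsLocalRing A] [CommRing B]
    [IsLocalRing B] (f : A →+* B) (hf : Function.Surjective f) :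
    (maximalIdeal A).map f ≤ maximalIdeal B := by
  rw [Ideal.map_le_iff_le_comap]
  intro x hx
  rw [Ideal.mem_comap, mem_maximalIdeal, mem_nonunits_iff]
  intro hu
  obtain ⟨y, hy⟩ := hu.exists_right_inv
  obtain ⟨z, rfl⟩ := hf y
  have h1 : f (1 - x * z) = 0 := by
    rw [map_sub, map_mul, hy, map_one, sub_self]
  have h2 : IsUnit (1 - x * z) := by
    by_contra hcon
    have h3 : 1 - x * z ∈ maximalIdeal A := hcon
    have h4 : x * z ∈ maximalIdeal A := Ideal.mul_mem_right _ _ hx
    have h5 : (1 : A) ∈ maximalIdeal A := by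
      have h6 := Ideal.add_mem _ h3 h4
      rwa [sub_add_cancel] at h6
    exact (Ideal.IsPrime.ne_top inferInstance) ((Ideal.eq_top_iff_one _).2 h5)
  have h3 := h2.map f
  rw [h1] at h3
  exact not_isUnit_zero h3

/-- points of a Noetherian local ring with values in complete algebraically closed fields detect
radical ideals -/
theorem exists_point_noetherian {R : Type u} [CommRing R] [IsNoetherianRing R] [IsLocalRing R]
    (I : Ideal R) (hI : I.IsRadical) (a : R) (ha : a ∉ I) :
    ∃ (C : Type u) (_ : NontriviallyNormedField C) (_ : IsUltrametricDist C) (_ : CompleteSpace C)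
      (_ : IsAlgClosed C) (χ : R →+* C), (∀ f, ‖χ f‖ ≤ 1) ∧
      (∃ ρ : ℝ, 0 ≤ ρ ∧ ρ < 1 ∧ ∀ j, ∀ f ∈ maximalIdeal R ^ j, ‖χ f‖ ≤ ρ ^ j) ∧
      (∀ f ∈ I, χ f = 0) ∧ χ a ≠ 0 := by
  -- a prime containing `I` but not `a`
  have h1 : ∃ Q : Ideal R, Q.IsPrime ∧ I ≤ Q ∧ a ∉ Q := by
    by_contra hcon
    push Not at hcon
    apply ha
    rw [← hI.radical, Ideal.radical_eq_sInf, Ideal.mem_sInf]
    intro J hJ
    exact hcon J hJ.2 hJ.1
  obtain ⟨Q0, hQ0, hIQ, haQ⟩ := h1
  let R0 := R ⧸ Q0
  have : IsLocalRing R0 := IsLocalRing.of_surjective' (Ideal.Quotient.mk Q0)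
    Ideal.Quotient.mk_surjective
  let R' := PowerSeries R0
  have hR'l : IsLocalRing R' := inferInstance
  have hR'n : IsNoetherianRing R' := inferInstance
  have hR'd : IsDomain R' := inferInstance
  let π0 : R →+* R' := (PowerSeries.C (R := R0)).comp (Ideal.Quotient.mk Q0)
  let a' : R' := π0 a * PowerSeries.X
  have ha0 : Ideal.Quotient.mk Q0 a ≠ 0 := by
    rw [Ne, Ideal.Quotient.eq_zero_iff_mem]; exact haQ
  have ha'0 : a' ≠ 0 := by
    refine mul_ne_zero ?_ PowerSeries.X_ne_zero
    intro h
    have h2 := congrArg PowerSeries.constantCoeff h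
    simp only [π0, RingHom.comp_apply, PowerSeries.constantCoeff_C, map_zero] at h2
    exact ha0 h2
  have ha'm : a' ∈ maximalIdeal R' := by
    refine Ideal.mul_mem_left _ _ ?_
    rw [mem_maximalIdeal, mem_nonunits_iff, PowerSeries.isUnit_iff_constantCoeff]
    simp
  have hm0 : (maximalIdeal R).map π0 ≤ maximalIdeal R' := by
    rw [Ideal.map_le_iff_le_comap]
    intro x hx
    rw [Ideal.mem_comap, mem_maximalIdeal, mem_nonunits_iff, PowerSeries.isUnit_iff_constantCoeff]
    have h2 := map_maximalIdeal_le_of_surjective (Ideal.Quotient.mk Q0)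
      Ideal.Quotient.mk_surjective (Ideal.mem_map_of_mem _ hx)
    simpa [π0] using h2
  -- a maximal prime not containing `a'`
  obtain ⟨Q, hQ1, hQ2⟩ := set_has_maximal_iff_noetherian.2 (inferInstance : IsNoetherian R' R')
    {Q : Ideal R' | Q.IsPrime ∧ a' ∉ Q} ⟨⊥, inferInstance, by simpa using ha'0⟩
  obtain ⟨hQp, hQa⟩ := hQ1
  let S := R' ⧸ Q
  have : IsLocalRing S := IsLocalRing.of_surjective' (Ideal.Quotient.mk Q)
    Ideal.Quotient.mk_surjective
  have hPS : ∀ P : Ideal S, P.IsPrime → P ≠ ⊥ → Ideal.Quotient.mk Q a' ∈ P := by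
    intro P hP hne
    by_contra hcon
    have h2 : P.comap (Ideal.Quotient.mk Q) ∈ {Q : Ideal R' | Q.IsPrime ∧ a' ∉ Q} :=
      ⟨Ideal.IsPrime.comap _, hcon⟩
    have h3 := hQ2 _ h2
    apply h3
    refine lt_of_le_of_ne ?_ ?_
    · intro x hx
      rw [Ideal.mem_comap, Ideal.Quotient.eq_zero_iff_mem.2 hx]
      exact P.zero_mem
    · intro heq
      apply hne
      rw [eq_bot_iff]
      intro y hy
      obtain ⟨x, rfl⟩ := Ideal.Quotient.mk_surjective y
      have h4 : x ∈ Q := by rw [heq]; exact hy
      rw [Ideal.Quotient.eq_zero_iff_mem.2 h4]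
      exact Submodule.zero_mem _
  have hm1 := map_maximalIdeal_le_of_surjective (Ideal.Quotient.mk Q) Ideal.Quotient.mk_surjective
  have haS : Ideal.Quotient.mk Q a' ∈ maximalIdeal S := hm1 (Ideal.mem_map_of_mem _ ha'm)
  have haS0 : Ideal.Quotient.mk Q a' ≠ 0 := by
    rw [Ne, Ideal.Quotient.eq_zero_iff_mem]; exact hQa
  obtain ⟨C, i1, i2, i3, i4, χ, hχ1, ⟨ρ, hρ0, hρ1, hρ⟩, hχa⟩ :=
    exists_point_domain (S := S) _ haS haS0 hPS
  refine ⟨C, i1, i2, i3, i4, (χ.comp (Ideal.Quotient.mk Q)).comp π0, fun f => hχ1 _,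
    ⟨ρ, hρ0, hρ1, ?_⟩, ?_, ?_⟩
  · intro j f hf
    refine hρ j _ ?_
    have h2 : (maximalIdeal R).map ((Ideal.Quotient.mk Q).comp π0) ≤ maximalIdeal S := by
      rw [← Ideal.map_map]
      exact (Ideal.map_mono hm0).trans hm1
    have h3 := Ideal.mem_map_of_mem ((Ideal.Quotient.mk Q).comp π0) hf
    rw [Ideal.map_pow] at h3
    exact Ideal.pow_right_mono h2 j h3
  · intro f hf
    have h2 : π0 f = 0 := by
      simp only [π0, RingHom.comp_apply]
      rw [Ideal.Quotient.eq_zero_iff_mem.2 (hIQ hf), map_zero]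
    rw [RingHom.comp_apply, h2, map_zero]
  · intro h
    apply hχa
    rw [map_mul, map_mul]
    rw [RingHom.comp_apply, RingHom.comp_apply] at h
    rw [h, zero_mul]

end Points

end Chai
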