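import Vale.Agent.Chai.LTDefs
import Vale.Agent.Chai.ArcA

/-!
# P217 / Arc: a radical ideal is detected by points in complete algebraically closed fields

OWNER: helper27 (done; the general theorem is `exists_point_noetherian`)

`E = E_0 = W(k)[[u_1..u_{n-1}]]`, `k = 𝔽_{p^n}`, `I` radical, `a ∉ I`.
CLAIM: there is a complete algebraically closed ultrametric field `C` and a ring homomorphism
`χ : E → C` with `χ(I) = 0`, `χ(a) ≠ 0`, `‖χ(f)‖ ≤ 1`, and `‖χ(f)‖ ≤ ρ^j` for `f ∈ 𝔪^j`, `ρ < 1`.
(Char `p` if `p ∈ I`; for `a = p` char 0 with `‖p‖ < 1`.)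

PROOF.  `E` is Noetherian, local, complete.  Choose a prime `Q ⊇ I`, `a ∉ Q`, maximal with these
properties.  `S = E/Q`: every nonzero prime of `S` contains `a`.  If `a` is a unit of `S`... (then `S` is a
field, i.e. `Q = 𝔪`, `S = k`: take any `C ⊇ k`, e.g. handle separately: `χ : E → k → C`).
Otherwise: every nonzero non-unit `y ∈ S` lies in a minimal prime over `(y)`, of height one (Krull), which
contains `a` and is therefore minimal over `(a)`; there are finitely many minimal primes over `(a)`;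
by prime avoidance the maximal ideal is one of them, so `𝔪_S` is the only nonzero prime and
`𝔪_S^N ⊆ (a)`.  Let `B = k[[T]]` (if `p ∈ I`; `T ↦ a`) or `B = W(k)` (if `a = p`; in general if `p ∉ Q`
replace `a` by `p`: then every nonzero prime contains `p` too, `𝔪_S^N ⊆ (p)`).  `S/(a)` is a finite
`B/(T)`-module and `S` is `(a)`-adically complete/separated, so `S` is a finite `B`-module (complete
Nakayama), `B → S` injective.  `K = Frac B` with its absolute value is complete; embed `Frac S` (a finite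
extension of `K`) into `K̄ = AlgebraicClosure K` with the spectral norm and take `C` = the completion
(`IsAlgClosed.of_denseRange` shows `C` algebraically closed; compare Mathlib's
`NumberTheory/Padics/Complex.lean`).  Elements of `S` are integral over `B`, so have norm `≤ 1`;
`y ∈ 𝔪_S`: `y^N ∈ (a)`, so `‖y‖^N ≤ ‖a‖ < 1`; `ρ := ‖a‖^{1/N}`.
(Simplification allowed: instead of `K` itself one may use any complete discretely valued field.)
-/

namespace Chai

open MvPowerSeries Filter IsLocalRing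

/-- data of a point of `Spf E_0` in a complete algebraically closed field -/
structure IsPoint (p : ℕ) [Fact p.Prime] (n : ℕ) {C : Type*} [NontriviallyNormedField C]
    (χ : E0 p n →+* C) : Prop where
  norm_le : ∀ f, ‖χ f‖ ≤ 1
  cont : ∃ ρ : ℝ, 0 ≤ ρ ∧ ρ < 1 ∧ ∀ j, ∀ f ∈ mE p n ^ j, ‖χ f‖ ≤ ρ ^ j

instance isLocalRing_E0 (p : ℕ) [Fact p.Prime] (n : ℕ) : IsLocalRing (E0 p n) := inferInstance
instance isNoetherianRing_E0 (p : ℕ) [Fact p.Prime] (n : ℕ) : IsNoetherianRing (E0 p n) := inferInstance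

theorem mE_le (p : ℕ) [Fact p.Prime] (n : ℕ) : mE p n ≤ maximalIdeal (E0 p n) := by
  intro x hx
  rw [mem_maximalIdeal, mem_nonunits_iff]
  intro hu
  have h1 := hu.map (resE p n)
  rw [mE, RingHom.mem_ker] at hx
  rw [hx] at h1
  exact not_isUnit_zero h1

theorem p_mem_mE (p : ℕ) [Fact p.Prime] (n : ℕ) : (p : E0 p n) ∈ mE p n := by
  rw [mE, RingHom.mem_ker, map_natCast]
  exact CharP.cast_eq_zero _ _

theorem exists_point_charP (p : ℕ) [Fact p.Prime] (n : ℕ) (hn : 1 ≤ n) (I : Ideal (E0 p n))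
    (hI : I.IsRadical) (hp : (p : E0 p n) ∈ I) (a : E0 p n) (ha : a ∉ I) :
    ∃ (C : Type) (_ : NontriviallyNormedField C) (_ : IsUltrametricDist C) (_ : CompleteSpace C)
      (_ : IsAlgClosed C) (_ : CharP C p) (χ : E0 p n →+* C),
      IsPoint p n χ ∧ (∀ f ∈ I, χ f = 0) ∧ χ a ≠ 0 := by
  obtain ⟨C, i1, i2, i3, i4, χ, h1, ⟨ρ, hρ0, hρ1, hρ⟩, h2, h3⟩ := exists_point_noetherian I hI a ha
  have hC : CharP C p := by
    rw [CharP.charP_iff_prime_eq_zero (Fact.out : p.Prime), ← map_natCast χ]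
    exact h2 _ hp
  exact ⟨C, i1, i2, i3, i4, hC, χ, ⟨h1, ρ, hρ0, hρ1, fun j f hf =>
    hρ j f (Ideal.pow_right_mono (mE_le p n) j hf)⟩, h2, h3⟩

theorem exists_point_char0 (p : ℕ) [Fact p.Prime] (n : ℕ) (hn : 1 ≤ n) (I : Ideal (E0 p n))
    (hI : I.IsRadical) (hp : (p : E0 p n) ∉ I) :
    ∃ (C : Type) (_ : NontriviallyNormedField C) (_ : IsUltrametricDist C) (_ : CompleteSpace C)
      (_ : IsAlgClosed C) (_ : CharZero C) (χ : E0 p n →+* C),
      IsPoint p n χ ∧ (∀ f ∈ I, χ f = 0) := by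
  obtain ⟨C, i1, i2, i3, i4, χ, h1, ⟨ρ, hρ0, hρ1, hρ⟩, h2, h3⟩ := exists_point_noetherian I hI _ hp
  have hC : CharZero C := by
    rw [CharZero.charZero_iff_forall_prime_ne_zero]
    intro q hq h0
    by_cases hqp : q = p
    · subst hqp
      rw [map_natCast] at h3
      exact h3 h0
    · have hcop : Nat.Coprime q p := (Nat.coprime_primes hq Fact.out).2 hqp
      have hunit : IsUnit (q : E0 p n) := by
        by_contra hcon
        have hq' : (q : E0 p n) ∈ maximalIdeal (E0 p n) := hcon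
        have hp' : (p : E0 p n) ∈ maximalIdeal (E0 p n) := mE_le p n (p_mem_mE p n)
        have hone : (1 : E0 p n) ∈ maximalIdeal (E0 p n) := by
          have hb := Nat.gcd_eq_gcd_ab q p
          rw [hcop.gcd_eq_one] at hb
          have hb' : (1 : E0 p n) = (q : E0 p n) * ((q.gcdA p : ℤ) : E0 p n)
              + (p : E0 p n) * ((q.gcdB p : ℤ) : E0 p n) := by
            exact_mod_cast congrArg (Int.cast : ℤ → E0 p n) hb
          rw [hb']
          exact Ideal.add_mem _ (Ideal.mul_mem_right _ _ hq') (Ideal.mul_mem_right _ _ hp')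
        exact (Ideal.IsPrime.ne_top inferInstance) ((Ideal.eq_top_iff_one _).2 hone)
      have h4 := hunit.map χ
      rw [map_natCast, h0] at h4
      exact not_isUnit_zero h4
  exact ⟨C, i1, i2, i3, i4, hC, χ, ⟨h1, ρ, hρ0, hρ1, fun j f hf =>
    hρ j f (Ideal.pow_right_mono (mE_le p n) j hf)⟩, h2⟩

end Chai
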