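import Vale.Agent.Chai.AsymB

/-!
# P217 / Asym: asymptotic expansions along a sequence and the formal relation `f̂`

OWNER: helper19

All in char `p`, `q = p^h`, `ι` finite.  FORMAL DATA: `Q i` (`i ∈ ι`, bounded, `Q_i(0) = 0`, invertible
Jacobian at `0`), `Vt k` (bounded; `V_δ(Y) = ∑_k (Vt k)(δ) Y^k`, `Vt 0 = 0`, `(Vt 1)(0) ≠ 0`),
`b0 : ℕ → C` (`b0 0 = 0`, `b0 1 ≠ 0`), `ft` bounded, nonzero.
SEQUENCE DATA: `δ_m → 0` in `C^ι`, bounded series `β_m` with `β_m(0) = 0`, `coeff N β_m → b0 N`,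
`β_m ∘ V_{δ_m} = β_m^{(q)}` (coefficients raised to the power `q`), `β_m(Q_i(δ_m)) = w_i^{q^m}`,
`ft(δ_m) = 0`.
CLAIM: there is `fh ≠ 0` depending only on the formal data with
`‖∑_{|d|≤N} fh_d (w^{q^m})^d‖ ≤ K_N (‖w‖^{q^m})^{N+1}`, `m` large.

PROOF.  Say `(a_m) ~ A` (`A ∈ C[[δ]]`) if for all `N`: `‖a_m - evN N δ_m A‖ = O(‖δ_m‖^{N+1})`.
`~` is compatible with `+, *`, contains constants, `(δ_m)_i ~ X_i`, `(A(δ_m)) ~ A` for bounded `A`,
and inverses of sequences with `A(0) ≠ 0`.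
(1) `N`-th coefficient of `β_m ∘ V = β_m^{(q)}`, `N ≥ 1`: `b_N^q - (V_1)^N b_N = ∑_{i<N} b_i coeff_N(V^i)`.
    By induction on `N`: `b_i(m) ~ b̂_i` for `i < N`, so the right side `R_m ~ R̂`, `y_m = V_1(δ_m)^N ~ ŷ`,
    `ŷ(0) ≠ 0`.  Formal solution: the unique `b̂ ∈ C[[δ]]` with `b̂(0) = b0 N` and
    `b̂ = (b̂^q - R̂)/ŷ` (exists: `b0 N^q - y(0) b0 N = R(0)` by continuity; coefficients of degree `d>0` of
    `b̂^q` only involve coefficients of degree `≤ d/q < d`; NOTE if `b0` does not satisfy this equation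
    then no sequence data exist and the claim is empty — define `b̂_N` by the recursion anyway).
    `b_N(m) ~ b̂_N`: with `η = b_N(m) - b0 N → 0`, `η^q - y_m η = O(‖δ_m‖)` gives `η = O(‖δ_m‖)`; and if
    `b_N(m) = B(δ_m) + O(‖δ_m‖^{s+1})` then `b_N(m) = (b_N^q - R)/y = (B^q - R̂)/ŷ + O(‖δ_m‖^{s+2})`.
(2) `P_i := ∑_N b̂_N Q_i^N` (formal); `w_i^{q^m} ~ P_i` (tail: `‖b_N‖ ≤ 1`, `‖Q_i(δ_m)‖ ≤ ‖δ_m‖`).
    Linear part of `P_i` = `b0 1 ·` (linear part of `Q_i`): invertible Jacobian.  Hence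
    `‖δ_m‖ ≤ K ‖w‖^{q^m}` for large `m` (if infinitely many `δ_m = 0` then `w = 0`… the claim is then
    `fh_0 = 0`, fine).
(3) Formal inverse: substitution `C[[w]] → C[[δ]], w_i ↦ P_i` is bijective: after a linear change of
    coordinates `T = subst P` satisfies `T f - f ∈ (order > ord f)`, so `fh := ∑_k (1 - T)^k ft`.
    `fh ≠ 0`, `fh(P) = ft`.
(4) `evN N (w^{q^m}) fh ~ (truncation of fh)(P) ≡ ft` in degrees `≤ N`, and `ft(δ_m) = 0`.
-/

namespace Chai

open MvPowerSeries Filter Topology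

variable {C : Type*} [NontriviallyNormedField C] [IsUltrametricDist C] [CompleteSpace C]

/-- formal data -/
structure FData (ι C : Type*) [NontriviallyNormedField C] [Fintype ι] [DecidableEq ι] where
  Q : ι → MvPowerSeries ι C
  Qbdd : ∀ i, Bdd (Q i)
  Q0 : ∀ i, constantCoeff (Q i) = 0
  det : IsUnit (Matrix.of fun i j => coeff (Finsupp.single j 1) (Q i)).det
  V : ℕ → MvPowerSeries ι C
  Vbdd : ∀ k, Bdd (V k)
  V0 : V 0 = 0
  V1 : constantCoeff (V 1) ≠ 0
  b0 : ℕ → C
  b00 : b0 0 = 0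
  b01 : b0 1 ≠ 0
  ft : MvPowerSeries ι C
  ftbdd : Bdd ft
  ft0 : ft ≠ 0

/-- sequence data -/
structure SData {ι C : Type*} [NontriviallyNormedField C] [Fintype ι] [DecidableEq ι]
    (p h : ℕ) [Fact p.Prime] [CharP C p] (D : FData ι C) where
  δ : ℕ → ι → C
  δlt : ∀ m i, ‖δ m i‖ < 1
  δ0 : Tendsto δ atTop (𝓝 0)
  b : ℕ → PowerSeries C
  bbdd : ∀ m, Bdd (b m)
  bc : ∀ m, PowerSeries.constantCoeff (b m) = 0
  blim : ∀ N, Tendsto (fun m => PowerSeries.coeff N (b m)) atTop (𝓝 (D.b0 N))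
  root : ∀ m, (b m).subst (PowerSeries.mk fun k => ev (δ m) (D.V k) : PowerSeries C) =
    (b m).map (iterateFrobenius C p h)
  w : ι → C
  wlt : ∀ i, ‖w i‖ < 1
  hw : ∀ m i, ev1 (ev (δ m) (D.Q i)) (b m) = w i ^ (p ^ h) ^ m
  hf : ∀ m, ev (δ m) D.ft = 0


section Main

open Asymptotics

variable {ι : Type*} [Fintype ι] [DecidableEq ι]

/-- the formal series `V` -/
noncomputable def FData.Vf (D : FData ι C) : PowerSeries (MvPowerSeries ι C) := PowerSeries.mk D.V

open Classical in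
/-- the formal coefficients of `β` -/
noncomputable def FData.bh (D : FData ι C) (q : ℕ) : ℕ → MvPowerSeries ι C
  | 0 => 0
  | N + 1 =>
    if h : ∃ B : MvPowerSeries ι C, constantCoeff B = D.b0 (N + 1) ∧
        B ^ q = PowerSeries.coeff (N + 1) (D.Vf ^ (N + 1)) * B +
          ∑ i : Fin (N + 1), FData.bh D q i * PowerSeries.coeff (N + 1) (D.Vf ^ (i : ℕ))
    then h.choose else 0
decreasing_by exact i.2

omit [IsUltrametricDist C] [CompleteSpace C] in
theorem FData.bh_zero (D : FData ι C) (q : ℕ) : D.bh q 0 = 0 := by rw [FData.bh]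

omit [IsUltrametricDist C] [CompleteSpace C] in
theorem FData.bh_succ (D : FData ι C) (q N : ℕ)
    (h : ∃ B : MvPowerSeries ι C, constantCoeff B = D.b0 (N + 1) ∧
        B ^ q = PowerSeries.coeff (N + 1) (D.Vf ^ (N + 1)) * B +
          ∑ i : Fin (N + 1), D.bh q i * PowerSeries.coeff (N + 1) (D.Vf ^ (i : ℕ))) :
    constantCoeff (D.bh q (N + 1)) = D.b0 (N + 1) ∧
      D.bh q (N + 1) ^ q = PowerSeries.coeff (N + 1) (D.Vf ^ (N + 1)) * D.bh q (N + 1) +
          ∑ i : Fin (N + 1), D.bh q i * PowerSeries.coeff (N + 1) (D.Vf ^ (i : ℕ)) := by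
  have h1 : D.bh q (N + 1) = h.choose := by
    rw [FData.bh, dif_pos h]
  rw [h1]
  exact h.choose_spec

theorem ord_prod {κ R : Type*} [CommRing R] (s : Finset κ) {n : κ → ℕ} {A : κ → MvPowerSeries ι R}
    (h : ∀ i ∈ s, (n i : ℕ∞) ≤ (A i).order) :
    ((∑ i ∈ s, n i : ℕ) : ℕ∞) ≤ (∏ i ∈ s, A i).order := by
  classical
  induction s using Finset.induction_on with
  | empty => simp
  | insert x s hx ih =>
    rw [Finset.sum_insert hx, Finset.prod_insert hx]
    exact ord_mul (h _ (Finset.mem_insert_self _ _)) (ih fun i hi => h i (Finset.mem_insert_of_mem hi))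

theorem ord_finsupp {R : Type*} [CommRing R] {P : ι → MvPowerSeries ι R}
    (h : ∀ i, ((1 : ℕ) : ℕ∞) ≤ (P i).order) (d : ι →₀ ℕ) :
    (d.degree : ℕ∞) ≤ (d.prod fun i e => P i ^ e).order := by
  rw [Finsupp.degree_apply, Finsupp.prod]
  apply ord_prod
  intro i _
  simpa using ord_pow (h i) (d i)

theorem coeff_pow_eq_zero_of_lt {R : Type*} [CommRing R] {V : PowerSeries R}
    (hV : PowerSeries.constantCoeff V = 0) {N i : ℕ} (h : N < i) : PowerSeries.coeff N (V ^ i) = 0 := by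
  obtain ⟨U, hU⟩ := PowerSeries.X_dvd_iff.2 hV
  rw [hU, mul_pow, PowerSeries.coeff_X_pow_mul', if_neg (by omega)]

theorem coeff_pow_self {R : Type*} [CommRing R] {V : PowerSeries R}
    (hV : PowerSeries.constantCoeff V = 0) (N : ℕ) :
    PowerSeries.coeff N (V ^ N) = (PowerSeries.coeff 1 V) ^ N := by
  obtain ⟨U, hU⟩ := PowerSeries.X_dvd_iff.2 hV
  have h1 : PowerSeries.coeff 1 V = PowerSeries.constantCoeff U := by
    rw [hU]
    have := PowerSeries.coeff_succ_X_mul 0 U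
    simpa using this
  rw [h1]
  nth_rw 1 [hU]
  rw [mul_pow, PowerSeries.coeff_X_pow_mul', if_pos le_rfl, Nat.sub_self]
  simp

section S

variable {p h : ℕ} [Fact p.Prime] [CharP C p] {D : FData ι C} (S : SData p h D)

/-- the series `V_{δ_m}` -/
noncomputable def SData.Vm (m : ℕ) : PowerSeries C := PowerSeries.mk fun k => ev (S.δ m) (D.V k)

theorem SData.norm_le (m : ℕ) : ‖S.δ m‖ ≤ 1 :=
  (pi_norm_le_iff_of_nonneg zero_le_one).2 fun i => (S.δlt m i).le

theorem SData.asy_Vm (i N k : ℕ) :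
    Asy S.δ k (fun m => PowerSeries.coeff N (S.Vm m ^ i)) (PowerSeries.coeff N (D.Vf ^ i)) := by
  induction i generalizing N with
  | zero =>
    simp only [pow_zero, PowerSeries.coeff_one]
    split_ifs
    · have := Asy.const (δ := S.δ) k (1 : C)
      simpa using this
    · exact Asy.zero k
  | succ i ih =>
    simp only [pow_succ, PowerSeries.coeff_mul]
    apply Asy.sum
    intro x _
    apply (ih x.1).mul S.norm_le
    simp only [SData.Vm, FData.Vf, PowerSeries.coeff_mk]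
    exact asy_ev S.δlt (D.Vbdd _) k

theorem SData.Vm_zero (m : ℕ) : PowerSeries.constantCoeff (S.Vm m) = 0 := by
  rw [← PowerSeries.coeff_zero_eq_constantCoeff_apply, SData.Vm, PowerSeries.coeff_mk, D.V0, ev_zero]

theorem SData.root_coeff (m N : ℕ) :
    PowerSeries.coeff N (S.b m) ^ p ^ h = PowerSeries.coeff N (S.Vm m ^ N) * PowerSeries.coeff N (S.b m) +
      ∑ i : Fin N, PowerSeries.coeff i (S.b m) * PowerSeries.coeff N (S.Vm m ^ (i : ℕ)) := by
  have h1 := congrArg (PowerSeries.coeff N) (S.root m)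
  have h2 : PowerSeries.HasSubst (S.Vm m) := PowerSeries.HasSubst.of_constantCoeff_zero' (S.Vm_zero m)
  change PowerSeries.coeff N ((S.b m).subst (S.Vm m)) = _ at h1
  rw [PowerSeries.coeff_subst' h2, PowerSeries.coeff_map, iterateFrobenius_def] at h1
  rw [← h1, finsum_eq_sum_of_support_subset (s := Finset.range (N + 1))]
  · rw [Finset.sum_range_succ, Finset.sum_range]
    simp only [smul_eq_mul]
    ring
  · intro d hd
    rw [Function.mem_support] at hd
    by_contra hcon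
    apply hd
    rw [Finset.mem_coe, Finset.mem_range, not_lt] at hcon
    rw [coeff_pow_eq_zero_of_lt (S.Vm_zero m) (by omega), smul_zero]

theorem charP_mv : CharP (MvPowerSeries ι C) p :=
  charP_of_injective_ringHom (MvPowerSeries.C_injective (σ := ι) (R := C)) p

theorem SData.main (h1 : 1 ≤ h) (N : ℕ) : constantCoeff (D.bh (p ^ h) N) = D.b0 N ∧
    ∀ k, Asy S.δ k (fun m => PowerSeries.coeff N (S.b m)) (D.bh (p ^ h) N) := by
  induction N using Nat.strong_induction_on with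
  | _ N ih =>
    rcases N with _ | N
    · refine ⟨by rw [D.bh_zero, D.b00, map_zero], fun k => ?_⟩
      rw [D.bh_zero]
      have h2 : (fun m => PowerSeries.coeff 0 (S.b m)) = fun _ => 0 := by
        funext m
        rw [PowerSeries.coeff_zero_eq_constantCoeff_apply]
        exact S.bc m
      rw [h2]
      exact Asy.zero k
    · haveI : CharP (MvPowerSeries ι C) p := charP_mv
      have hq : 2 ≤ p ^ h := by
        calc 2 ≤ p := (Fact.out : p.Prime).two_le
          _ = p ^ 1 := (pow_one p).symm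
          _ ≤ p ^ h := Nat.pow_le_pow_right (Fact.out : p.Prime).pos h1
      have hqC : ∀ x y : C, (x - y) ^ p ^ h = x ^ p ^ h - y ^ p ^ h := fun x y =>
        sub_pow_char_pow x y h
      have hqM : ∀ x y : MvPowerSeries ι C, (x - y) ^ p ^ h = x ^ p ^ h - y ^ p ^ h := fun x y =>
        sub_pow_char_pow x y h
      have hy : ∀ k, Asy S.δ k (fun m => PowerSeries.coeff (N + 1) (S.Vm m ^ (N + 1)))
          (PowerSeries.coeff (N + 1) (D.Vf ^ (N + 1))) := S.asy_Vm (N + 1) (N + 1)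
      have hR : ∀ k, Asy S.δ k (fun m => ∑ i : Fin (N + 1), PowerSeries.coeff i (S.b m) *
          PowerSeries.coeff (N + 1) (S.Vm m ^ (i : ℕ)))
          (∑ i : Fin (N + 1), D.bh (p ^ h) i * PowerSeries.coeff (N + 1) (D.Vf ^ (i : ℕ))) := by
        intro k
        apply Asy.sum
        intro i _
        exact ((ih i i.2).2 k).mul S.norm_le (S.asy_Vm i (N + 1) k)
      have hY : constantCoeff (PowerSeries.coeff (N + 1) (D.Vf ^ (N + 1))) ≠ 0 := by
        have h2 : PowerSeries.constantCoeff D.Vf = 0 := by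
          rw [← PowerSeries.coeff_zero_eq_constantCoeff_apply, FData.Vf, PowerSeries.coeff_mk, D.V0]
        rw [coeff_pow_self h2, map_pow, FData.Vf, PowerSeries.coeff_mk]
        exact pow_ne_zero _ D.V1
      have heq := fun m => S.root_coeff m (N + 1)
      have hb := S.blim (N + 1)
      have h0 : D.b0 (N + 1) ^ p ^ h = constantCoeff (PowerSeries.coeff (N + 1) (D.Vf ^ (N + 1))) *
          D.b0 (N + 1) + constantCoeff
            (∑ i : Fin (N + 1), D.bh (p ^ h) i * PowerSeries.coeff (N + 1) (D.Vf ^ (i : ℕ))) := by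
        have h2 := hb.pow (p ^ h)
        have h3 := (((hy 1).tendsto S.norm_le S.δ0).mul hb).add ((hR 1).tendsto S.norm_le S.δ0)
        refine tendsto_nhds_unique h2 (h3.congr fun m => ?_)
        exact (heq m).symm
      obtain ⟨hB0, hB⟩ := D.bh_succ (p ^ h) N (exists_formal_root hq hqM hY h0)
      exact ⟨hB0, asy_root S.norm_le hq hqC hqM S.δ0 hb hy hR heq hY hB0 hB⟩

end S

/-- the formal series `P_i = ∑ b̂_N Q_i^N` -/
noncomputable def FData.Ph (D : FData ι C) (q : ℕ) (i : ι) : MvPowerSeries ι C :=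
  fun d => ∑ N ∈ Finset.range (d.degree + 1), coeff d (D.bh q N * D.Q i ^ N)

omit [IsUltrametricDist C] [CompleteSpace C] in
theorem FData.ordQ (D : FData ι C) (i : ι) (N : ℕ) : (N : ℕ∞) ≤ (D.Q i ^ N).order := by
  have h1 : ((1 : ℕ) : ℕ∞) ≤ (D.Q i).order := by
    have := D.Q0 i
    rw [← one_le_order_iff_constCoeff_eq_zero] at this
    exact_mod_cast this
  simpa using ord_pow h1 N

omit [IsUltrametricDist C] [CompleteSpace C] in
theorem FData.Ph_sub (D : FData ι C) (q : ℕ) (i : ι) (k : ℕ) :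
    (k : ℕ∞) ≤ (∑ N ∈ Finset.range k, D.bh q N * D.Q i ^ N - D.Ph q i).order := by
  apply nat_le_order
  intro d hd
  have h1 : coeff d (D.Ph q i) =
      ∑ N ∈ Finset.range (d.degree + 1), coeff d (D.bh q N * D.Q i ^ N) := rfl
  rw [map_sub, h1, map_sum, sub_eq_zero]
  symm
  apply Finset.sum_subset
  · intro x hx
    rw [Finset.mem_range] at hx ⊢
    omega
  · intro N _ hN
    rw [Finset.mem_range, not_lt] at hN
    apply coeff_of_lt_order
    refine lt_of_lt_of_le ?_ (ord_mul_left _ (D.ordQ i N))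
    exact_mod_cast hN

theorem ev1_trunc {f : PowerSeries C} (hf : Bdd f) {a : C} (ha : ‖a‖ < 1) (k : ℕ) :
    ‖ev1 a f - ∑ n ∈ Finset.range k, PowerSeries.coeff n f * a ^ n‖ ≤ ‖a‖ ^ k := by
  induction k generalizing f with
  | zero =>
    simp only [Finset.range_zero, Finset.sum_empty, sub_zero, pow_zero]
    exact norm_ev_le_one (fun _ => ha) hf
  | succ k ih =>
    obtain ⟨g, hg⟩ : ∃ g : PowerSeries C, g = PowerSeries.mk fun n => PowerSeries.coeff (n + 1) f :=
      ⟨_, rfl⟩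
    have hgb : Bdd g := by
      intro d
      have h1 : (coeff d g : C) = PowerSeries.coeff (d ()) g := by
        rw [PowerSeries.coeff, ← Finsupp.unique_single d]
      rw [h1, hg, PowerSeries.coeff_mk]
      exact hf _
    have hfg : f = (MvPowerSeries.X () : MvPowerSeries Unit C) * g +
        MvPowerSeries.C (PowerSeries.constantCoeff f) := by
      rw [hg]
      exact PowerSeries.eq_X_mul_shift_add_const f
    have hfb : ‖PowerSeries.constantCoeff f‖ ≤ 1 := hf 0
    have h2 : ev1 a f = a * ev1 a g + PowerSeries.constantCoeff f := by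
      unfold ev1
      conv_lhs => rw [hfg]
      rw [ev_add (fun _ => ha) ((Bdd.X _).mul hgb) (Bdd.C_iff.2 hfb), ev_mul (fun _ => ha) (Bdd.X _) hgb,
        ev_X, ev_C]
    rw [h2, Finset.sum_range_succ']
    have h3 : ∀ n, PowerSeries.coeff (n + 1) f * a ^ (n + 1) = a * (PowerSeries.coeff n g * a ^ n) := by
      intro n
      rw [hg, PowerSeries.coeff_mk]; ring
    simp only [h3, pow_zero, mul_one, PowerSeries.coeff_zero_eq_constantCoeff_apply]
    rw [← Finset.mul_sum]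
    have h4 : a * ev1 a g + PowerSeries.constantCoeff f -
        (a * ∑ n ∈ Finset.range k, PowerSeries.coeff n g * a ^ n + PowerSeries.constantCoeff f) =
        a * (ev1 a g - ∑ n ∈ Finset.range k, PowerSeries.coeff n g * a ^ n) := by ring
    rw [h4, norm_mul, pow_succ']
    exact mul_le_mul_of_nonneg_left (ih hgb) (norm_nonneg _)

section S2

variable {p h : ℕ} [Fact p.Prime] [CharP C p] {D : FData ι C} (S : SData p h D)

theorem SData.norm_Q_lt (m : ℕ) (i : ι) : ‖ev (S.δ m) (D.Q i)‖ < 1 :=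
  norm_ev_lt_one (S.δlt m) (D.Qbdd i) (by rw [D.Q0 i]; simp)

theorem SData.norm_Q_le (m : ℕ) (i : ι) : ‖ev (S.δ m) (D.Q i)‖ ≤ ‖S.δ m‖ := by
  have := norm_ev_le_pow (S.δlt m) (D.Qbdd i) (ρ := ‖S.δ m‖) (norm_le_pi_norm _) (norm_nonneg _)
    (N := 1) (by
      intro d hd
      have : d = 0 := by rw [← Finsupp.degree_eq_zero_iff]; omega
      rw [this]
      exact D.Q0 i)
  simpa using this

theorem SData.asy_w (h1 : 1 ≤ h) (i : ι) (k : ℕ) :
    Asy S.δ k (fun m => S.w i ^ (p ^ h) ^ m) (D.Ph (p ^ h) i) := by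
  refine Asy.congr_ser ?_ (D.Ph_sub (p ^ h) i k)
  have h2 : Asy S.δ k (fun m => ∑ N ∈ Finset.range k, PowerSeries.coeff N (S.b m) *
      ev (S.δ m) (D.Q i) ^ N) (∑ N ∈ Finset.range k, D.bh (p ^ h) N * D.Q i ^ N) := by
    apply Asy.sum
    intro N _
    exact ((S.main h1 N).2 k).mul S.norm_le ((asy_ev S.δlt (D.Qbdd i) k).pow S.norm_le N)
  have h3 : Asy S.δ k (fun m => S.w i ^ (p ^ h) ^ m - ∑ N ∈ Finset.range k,
      PowerSeries.coeff N (S.b m) * ev (S.δ m) (D.Q i) ^ N) 0 := by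
    refine ⟨0, by simp, ?_⟩
    apply IsBigO.of_bound 1
    filter_upwards with m
    rw [map_zero, sub_zero, one_mul, norm_pow, norm_norm, ← S.hw m i]
    refine (ev1_trunc (S.bbdd m) (S.norm_Q_lt m i) k).trans ?_
    exact pow_le_pow_left₀ (norm_nonneg _) (S.norm_Q_le m i) k
  have h4 := h3.add h2
  rw [zero_add] at h4
  refine h4.congr_fun ?_
  filter_upwards with m
  ring

theorem SData.Ph_zero (i : ι) : constantCoeff (D.Ph (p ^ h) i) = 0 := by
  have h1 : coeff 0 (D.Ph (p ^ h) i) =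
      ∑ N ∈ Finset.range ((0 : ι →₀ ℕ).degree + 1), coeff 0 (D.bh (p ^ h) N * D.Q i ^ N) := rfl
  rw [← coeff_zero_eq_constantCoeff_apply, h1]
  simp [D.bh_zero]

include S in
theorem SData.det_Ph (h1 : 1 ≤ h) :
    IsUnit (Matrix.of fun i j => coeff (Finsupp.single j 1) (D.Ph (p ^ h) i)).det := by
  have h2 : (Matrix.of fun i j => coeff (Finsupp.single j 1) (D.Ph (p ^ h) i)) =
      D.b0 1 • (Matrix.of fun i j => coeff (Finsupp.single j 1) (D.Q i)) := by
    ext i j
    rw [Matrix.smul_apply, Matrix.of_apply, Matrix.of_apply]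
    have h3 : ((2 : ℕ) : ℕ∞) ≤ (D.Ph (p ^ h) i - MvPowerSeries.C (D.b0 1) * D.Q i).order := by
      have h4 := ord_sub_comm (D.Ph_sub (p ^ h) i 2)
      refine ord_sub_trans h4 ?_
      rw [Finset.sum_range_succ, Finset.sum_range_one, D.bh_zero, zero_mul, zero_add, pow_one,
        ← sub_mul]
      have h5 : ((1 : ℕ) : ℕ∞) ≤ (D.bh (p ^ h) 1 - MvPowerSeries.C (D.b0 1)).order := by
        have : constantCoeff (D.bh (p ^ h) 1 - MvPowerSeries.C (D.b0 1)) = 0 := by
          rw [map_sub, constantCoeff_C, (S.main h1 1).1, sub_self]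
        rw [← one_le_order_iff_constCoeff_eq_zero] at this
        exact_mod_cast this
      have h6 := D.ordQ i 1
      rw [pow_one] at h6
      exact ord_mul h5 h6
    rw [coeff_eq_of_ord h3 (by simp), coeff_C_mul, smul_eq_mul]
  rw [h2, Matrix.det_smul]
  exact IsUnit.mul (IsUnit.pow _ (isUnit_iff_ne_zero.2 D.b01)) D.det

theorem SData.asy_evN (h1 : 1 ≤ h) (g : MvPowerSeries ι C) (N : ℕ) :
    Asy S.δ (N + 1) (fun m => evN N (fun i => S.w i ^ (p ^ h) ^ m) g) (g.subst (D.Ph (p ^ h))) := by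
  have hs : HasSubst (D.Ph (p ^ h)) := hasSubst_of_constantCoeff_zero SData.Ph_zero
  have h2 : Asy S.δ (N + 1) (fun m => evN N (fun i => S.w i ^ (p ^ h) ^ m) g)
      (∑ d ∈ degLE ι N, MvPowerSeries.C (coeff d g) * d.prod fun i e => D.Ph (p ^ h) i ^ e) := by
    simp only [evN]
    apply Asy.sum
    intro d _
    apply (Asy.const (N + 1) (coeff d g)).mul S.norm_le
    simp only [Finsupp.prod]
    apply Asy.prod S.norm_le
    intro i _
    exact (S.asy_w h1 i (N + 1)).pow S.norm_le (d i)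
  refine h2.congr_ser ?_
  apply nat_le_order
  intro e he
  rw [map_sub, map_sum, coeff_subst hs, sub_eq_zero, finsum_eq_sum_of_support_subset (s := degLE ι N)]
  · apply Finset.sum_congr rfl
    intro d _
    rw [coeff_C_mul, smul_eq_mul]
  · intro d hd
    rw [Function.mem_support] at hd
    by_contra hcon
    apply hd
    rw [Finset.mem_coe, mem_degLE, not_le] at hcon
    have h3 : (d.degree : ℕ∞) ≤ (d.prod fun i e => D.Ph (p ^ h) i ^ e).order := by
      apply ord_finsupp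
      intro i
      have := SData.Ph_zero (p := p) (h := h) (D := D) i
      rw [← one_le_order_iff_constCoeff_eq_zero] at this
      exact_mod_cast this
    rw [coeff_of_lt_order (lt_of_lt_of_le (by exact_mod_cast (by omega : e.degree < d.degree)) h3),
      smul_zero]

theorem SData.delta_le (h1 : 1 ≤ h) :
    (fun m => ‖S.δ m‖) =O[atTop] fun m => ‖S.w‖ ^ (p ^ h) ^ m := by
  have hW : ∀ m, ‖fun i => S.w i ^ (p ^ h) ^ m‖ ≤ ‖S.w‖ ^ (p ^ h) ^ m := by
    intro m
    rw [pi_norm_le_iff_of_nonneg (by positivity)]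
    intro i
    rw [norm_pow]
    exact pow_le_pow_left₀ (norm_nonneg _) (norm_le_pi_norm _ i) _
  have hw1 : ‖S.w‖ ≤ 1 := (pi_norm_le_iff_of_nonneg zero_le_one).2 fun i => (S.wlt i).le
  have hW1 : ∀ m, ‖fun i => S.w i ^ (p ^ h) ^ m‖ ≤ 1 := fun m =>
    (hW m).trans (pow_le_one₀ (norm_nonneg _) hw1)
  -- the coordinates
  have hi : ∀ i : ι, ∃ K : ℝ, ∀ᶠ m in atTop,
      ‖S.δ m i‖ ≤ K * ‖S.w‖ ^ (p ^ h) ^ m + K * ‖S.δ m‖ ^ 2 := by
    intro i
    obtain ⟨g, hg⟩ := exists_subst_eq SData.Ph_zero (S.det_Ph h1) (MvPowerSeries.X i)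
    have hg0 : constantCoeff g = 0 := by
      have hs : HasSubst (D.Ph (p ^ h)) := hasSubst_of_constantCoeff_zero SData.Ph_zero
      have h2 : constantCoeff ((g - MvPowerSeries.C (constantCoeff g)).subst (D.Ph (p ^ h))) = 0 :=
        constantCoeff_subst_eq_zero hs SData.Ph_zero (by simp)
      rw [subst_sub hs, subst_C, hg, map_sub, constantCoeff_C] at h2
      simpa using h2
    have h2 := S.asy_evN h1 g 1
    rw [hg] at h2
    have h3 := ((Asy.X (δ := S.δ) 2 i).sub h2)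
    rw [sub_self] at h3
    have h4 := h3.isBigO_zero S.norm_le
    rw [isBigO_iff] at h4
    obtain ⟨K1, hK1⟩ := h4
    obtain ⟨K2, hK2⟩ := eval_small (∑ d ∈ degLE ι 1, MvPolynomial.monomial d (coeff d g)) (k := 1) (by
      apply nat_le_order
      intro d hd
      have hd0 : d = 0 := by rw [← Finsupp.degree_eq_zero_iff]; omega
      rw [MvPolynomial.coeff_coe, MvPolynomial.coeff_sum]
      simp only [MvPolynomial.coeff_monomial]
      rw [Finset.sum_ite_eq', hd0]
      simp [hg0])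
    refine ⟨max |K2| K1, ?_⟩
    filter_upwards [hK1] with m hm
    have h5 : MvPolynomial.eval (fun i => S.w i ^ (p ^ h) ^ m)
        (∑ d ∈ degLE ι 1, MvPolynomial.monomial d (coeff d g)) =
        evN 1 (fun i => S.w i ^ (p ^ h) ^ m) g := by
      rw [map_sum]
      simp only [MvPolynomial.eval_monomial, evN]
    have h6 := hK2 _ (hW1 m)
    rw [h5, pow_one] at h6
    have h7 : S.δ m i = evN 1 (fun i => S.w i ^ (p ^ h) ^ m) g +
        (S.δ m i - evN 1 (fun i => S.w i ^ (p ^ h) ^ m) g) := by ring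
    rw [h7]
    refine (norm_add_le _ _).trans (add_le_add ?_ ?_)
    · calc _ ≤ _ := h6
        _ ≤ |K2| * ‖S.w‖ ^ (p ^ h) ^ m :=
          mul_le_mul (le_abs_self _) (hW m) (norm_nonneg _) (abs_nonneg _)
        _ ≤ _ := mul_le_mul_of_nonneg_right (le_max_left _ _) (by positivity)
    · refine hm.trans ?_
      rw [norm_pow, norm_norm]
      exact mul_le_mul_of_nonneg_right (le_max_right _ _) (by positivity)
  choose K hK using hi
  obtain ⟨K0, hK0, hK0'⟩ : ∃ K0 : ℝ, 0 ≤ K0 ∧ ∀ i, K i ≤ K0 := by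
    refine ⟨∑ i, |K i|, Finset.sum_nonneg fun i _ => abs_nonneg _, fun i => ?_⟩
    exact (le_abs_self _).trans (Finset.single_le_sum (fun i _ => abs_nonneg (K i)) (Finset.mem_univ i))
  have h8 : ∀ᶠ m in atTop, ‖S.δ m‖ ≤ K0 * ‖S.w‖ ^ (p ^ h) ^ m + K0 * ‖S.δ m‖ ^ 2 := by
    have h9 : ∀ᶠ m in atTop, ∀ i, ‖S.δ m i‖ ≤ K i * ‖S.w‖ ^ (p ^ h) ^ m + K i * ‖S.δ m‖ ^ 2 :=
      eventually_all.2 hK
    filter_upwards [h9] with m hm
    rw [pi_norm_le_iff_of_nonneg (by positivity)]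
    intro i
    refine (hm i).trans (add_le_add ?_ ?_)
    · exact mul_le_mul_of_nonneg_right (hK0' i) (by positivity)
    · exact mul_le_mul_of_nonneg_right (hK0' i) (by positivity)
  have h10 : ∀ᶠ m in atTop, K0 * ‖S.δ m‖ < 1 / 2 := by
    have h11 : Tendsto (fun m => K0 * ‖S.δ m‖) atTop (𝓝 (K0 * 0)) := by
      have := S.δ0.norm
      rw [norm_zero] at this
      exact this.const_mul K0
    rw [mul_zero] at h11
    exact h11.eventually_lt_const (by norm_num)
  apply IsBigO.of_bound (2 * K0)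
  filter_upwards [h8, h10] with m hm1 hm2
  rw [norm_norm, Real.norm_of_nonneg (by positivity)]
  nlinarith [norm_nonneg (S.δ m)]

end S2

end Main

theorem exists_fhat {ι : Type*} [Fintype ι] [DecidableEq ι] (p h : ℕ) [Fact p.Prime] [CharP C p]
    (h1 : 1 ≤ h) (D : FData ι C) :
    ∃ fh : MvPowerSeries ι C, fh ≠ 0 ∧ ∀ S : SData p h D, ∀ N : ℕ, ∃ K : ℝ, ∀ᶠ m : ℕ in atTop,
      ‖evN N (fun i => S.w i ^ (p ^ h) ^ m) fh‖ ≤ K * (‖S.w‖ ^ (p ^ h) ^ m) ^ (N + 1) := by
  classical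
  by_cases hex : ∃ g : MvPowerSeries ι C, g.subst (D.Ph (p ^ h)) = D.ft
  swap
  · refine ⟨1, one_ne_zero, fun S => ?_⟩
    exact absurd (exists_subst_eq SData.Ph_zero (S.det_Ph h1) D.ft) hex
  obtain ⟨fh, hfh⟩ := hex
  refine ⟨fh, ?_, ?_⟩
  · rintro rfl
    apply D.ft0
    rw [← hfh, ← coe_substAlgHom (hasSubst_of_constantCoeff_zero SData.Ph_zero), map_zero]
  intro S N
  have hδw := S.delta_le h1
  have h2 := S.asy_evN h1 fh N
  rw [hfh] at h2
  have h3 := h2.sub (asy_ev S.δlt D.ftbdd (N + 1))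
  rw [sub_self] at h3
  have h4 := h3.isBigO_zero S.norm_le
  simp only [S.hf, sub_zero] at h4
  have h5 := h4.trans (hδw.pow (N + 1))
  rw [Asymptotics.isBigO_iff] at h5
  obtain ⟨K, hK⟩ := h5
  refine ⟨K, ?_⟩
  filter_upwards [hK] with m hm
  refine hm.trans_eq ?_
  rw [Real.norm_of_nonneg (by positivity)]

end Chai
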