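import Vale.Agent.Chai.Trunc

/-!
# P217 / AsymA: formal lemmas on orders and the formal inverse function theorem
-/

namespace Chai

open MvPowerSeries Filter Topology

section Ord

variable {ι : Type*} {R : Type*} [CommRing R]

theorem ord_add {k : ℕ} {f g : MvPowerSeries ι R} (hf : (k : ℕ∞) ≤ f.order)
    (hg : (k : ℕ∞) ≤ g.order) : (k : ℕ∞) ≤ (f + g).order :=
  le_trans (le_min hf hg) min_order_le_add

theorem ord_neg {k : ℕ} {f : MvPowerSeries ι R} (hf : (k : ℕ∞) ≤ f.order) :
    (k : ℕ∞) ≤ (-f).order := by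
  rw [order_neg]; exact hf

theorem ord_sub {k : ℕ} {f g : MvPowerSeries ι R} (hf : (k : ℕ∞) ≤ f.order)
    (hg : (k : ℕ∞) ≤ g.order) : (k : ℕ∞) ≤ (f - g).order := by
  rw [sub_eq_add_neg]; exact ord_add hf (ord_neg hg)

theorem ord_mul {k l : ℕ} {f g : MvPowerSeries ι R} (hf : (k : ℕ∞) ≤ f.order)
    (hg : (l : ℕ∞) ≤ g.order) : ((k + l : ℕ) : ℕ∞) ≤ (f * g).order := by
  push_cast
  exact le_trans (add_le_add hf hg) le_order_mul

theorem ord_mul_right {k : ℕ} {f : MvPowerSeries ι R} (g : MvPowerSeries ι R)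
    (hf : (k : ℕ∞) ≤ f.order) : (k : ℕ∞) ≤ (f * g).order := by
  have := ord_mul (l := 0) hf (by simp : ((0 : ℕ) : ℕ∞) ≤ g.order)
  simpa using this

theorem ord_mul_left {k : ℕ} {f : MvPowerSeries ι R} (g : MvPowerSeries ι R)
    (hf : (k : ℕ∞) ≤ f.order) : (k : ℕ∞) ≤ (g * f).order := by
  rw [mul_comm]; exact ord_mul_right g hf

theorem ord_mono {k l : ℕ} (h : l ≤ k) {f : MvPowerSeries ι R} (hf : (k : ℕ∞) ≤ f.order) :
    (l : ℕ∞) ≤ f.order := le_trans (by exact_mod_cast h) hf

theorem ord_pow {k : ℕ} {f : MvPowerSeries ι R} (hf : (k : ℕ∞) ≤ f.order) (n : ℕ) :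
    ((n * k : ℕ) : ℕ∞) ≤ (f ^ n).order := by
  induction n with
  | zero => simp
  | succ n ih =>
    rw [pow_succ, add_mul, one_mul]
    exact ord_mul ih hf

theorem ord_sum {κ : Type*} {k : ℕ} (s : Finset κ) {f : κ → MvPowerSeries ι R}
    (hf : ∀ i ∈ s, (k : ℕ∞) ≤ (f i).order) : (k : ℕ∞) ≤ (∑ i ∈ s, f i).order := by
  classical
  induction s using Finset.induction_on with
  | empty => simp
  | insert a s ha ih =>
    rw [Finset.sum_insert ha]
    exact ord_add (hf _ (Finset.mem_insert_self _ _))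
      (ih fun i hi => hf i (Finset.mem_insert_of_mem hi))

theorem ord_sub_trans {k : ℕ} {f g h : MvPowerSeries ι R} (hf : (k : ℕ∞) ≤ (f - g).order)
    (hg : (k : ℕ∞) ≤ (g - h).order) : (k : ℕ∞) ≤ (f - h).order := by
  have : f - h = (f - g) + (g - h) := by ring
  rw [this]; exact ord_add hf hg

theorem ord_sub_comm {k : ℕ} {f g : MvPowerSeries ι R} (hf : (k : ℕ∞) ≤ (f - g).order) :
    (k : ℕ∞) ≤ (g - f).order := by
  have : g - f = -(f - g) := by ring
  rw [this]; exact ord_neg hf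

theorem ord_mul_sub_mul {k : ℕ} {f f' g g' : MvPowerSeries ι R} (hf : (k : ℕ∞) ≤ (f - f').order)
    (hg : (k : ℕ∞) ≤ (g - g').order) : (k : ℕ∞) ≤ (f * g - f' * g').order := by
  have : f * g - f' * g' = f * (g - g') + (f - f') * g' := by ring
  rw [this]
  exact ord_add (ord_mul_left _ hg) (ord_mul_right _ hf)

theorem eq_zero_of_ord {f : MvPowerSeries ι R} (h : ∀ k : ℕ, (k : ℕ∞) ≤ f.order) : f = 0 := by
  ext d
  rw [map_zero]
  apply coeff_of_lt_order
  refine lt_of_lt_of_le ?_ (h (d.degree + 1))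
  exact_mod_cast Nat.lt_succ_self _

theorem coeff_eq_of_ord {k : ℕ} {f g : MvPowerSeries ι R} (hf : (k : ℕ∞) ≤ (f - g).order)
    {d : ι →₀ ℕ} (hd : d.degree < k) : coeff d f = coeff d g := by
  have h1 : coeff d (f - g) = 0 := by
    apply coeff_of_lt_order
    exact lt_of_lt_of_le (by exact_mod_cast hd) hf
  rw [map_sub, sub_eq_zero] at h1
  exact h1

/-- contraction principle -/
theorem asym_exists_fixed (Ψ : MvPowerSeries ι R → MvPowerSeries ι R) (k0 : ℕ)
    (hΨ : ∀ f g, ∀ k : ℕ, k0 ≤ k → (k : ℕ∞) ≤ (f - g).order → ((k + 1 : ℕ) : ℕ∞) ≤ (Ψ f - Ψ g).order)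
    (f0 : MvPowerSeries ι R) (h0 : (k0 : ℕ∞) ≤ (Ψ f0 - f0).order) :
    ∃ f, Ψ f = f ∧ (k0 : ℕ∞) ≤ (f - f0).order := by
  obtain ⟨F, hF0, hF⟩ : ∃ F : ℕ → MvPowerSeries ι R, F 0 = f0 ∧ ∀ s, F (s + 1) = Ψ (F s) :=
    ⟨fun s => Nat.rec f0 (fun _ g => Ψ g) s, rfl, fun s => rfl⟩
  have h1 : ∀ s, ((k0 + s : ℕ) : ℕ∞) ≤ (F (s + 1) - F s).order := by
    intro s
    induction s with
    | zero => rw [hF, hF0]; exact h0
    | succ s ih =>
      rw [hF (s + 1), hF s] at *
      exact hΨ _ _ _ (Nat.le_add_right _ _) ih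
  have h2 : ∀ s t, s ≤ t → ((k0 + s : ℕ) : ℕ∞) ≤ (F t - F s).order := by
    intro s t hst
    induction t, hst using Nat.le_induction with
    | base => simp
    | succ t hst ih =>
      exact ord_sub_trans (ord_mono (by omega) (h1 t)) ih
  let f : MvPowerSeries ι R := fun d => coeff d (F (d.degree + 1))
  have hf : ∀ s, ((k0 + s : ℕ) : ℕ∞) ≤ (f - F s).order := by
    intro s
    apply nat_le_order
    intro d hd
    rw [map_sub, sub_eq_zero]
    have h3 : coeff d f = coeff d (F (d.degree + 1)) := rfl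
    rw [h3]
    rcases le_total s (d.degree + 1) with h | h
    · exact coeff_eq_of_ord (h2 s _ h) hd
    · exact (coeff_eq_of_ord (h2 _ s h) (by omega)).symm
  refine ⟨f, ?_, ?_⟩
  · rw [← sub_eq_zero]
    apply eq_zero_of_ord
    intro k
    have h3 : ((k0 + k + 1 : ℕ) : ℕ∞) ≤ (Ψ f - Ψ (F k)).order := hΨ _ _ _ (Nat.le_add_right _ _) (hf k)
    have h4 := hf (k + 1)
    rw [hF k] at h4
    exact ord_mono (by omega) (ord_sub_trans h3 (ord_sub_comm (ord_mono (by omega) h4)))
  · have := hf 0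
    rw [hF0] at this
    exact this

/-- `A` has the leading form `a` of degree `n` -/
def Cl (n : ℕ) (A a : MvPowerSeries ι R) : Prop :=
  (n : ℕ∞) ≤ a.order ∧ ((n + 1 : ℕ) : ℕ∞) ≤ (A - a).order

theorem Cl.ord {n : ℕ} {A a : MvPowerSeries ι R} (h : Cl n A a) : (n : ℕ∞) ≤ A.order := by
  have : A = (A - a) + a := by ring
  rw [this]
  exact ord_add (ord_mono (Nat.le_succ n) h.2) h.1

theorem Cl.one : Cl 0 (1 : MvPowerSeries ι R) 1 := by
  constructor <;> simp

theorem Cl.mul {n m : ℕ} {A a B b : MvPowerSeries ι R} (h : Cl n A a) (h' : Cl m B b) :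
    Cl (n + m) (A * B) (a * b) := by
  refine ⟨ord_mul h.1 h'.1, ?_⟩
  have : A * B - a * b = A * (B - b) + (A - a) * b := by ring
  rw [this]
  apply ord_add
  · exact ord_mono (by omega) (ord_mul h.ord h'.2)
  · exact ord_mono (by omega) (ord_mul h.2 h'.1)

theorem Cl.pow {n : ℕ} {A a : MvPowerSeries ι R} (h : Cl n A a) (k : ℕ) :
    Cl (k * n) (A ^ k) (a ^ k) := by
  induction k with
  | zero => simpa using Cl.one
  | succ k ih =>
    rw [pow_succ, pow_succ, add_mul, one_mul]
    exact ih.mul h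

theorem Cl.prod {κ : Type*} (s : Finset κ) {n : κ → ℕ} {A a : κ → MvPowerSeries ι R}
    (h : ∀ i ∈ s, Cl (n i) (A i) (a i)) : Cl (∑ i ∈ s, n i) (∏ i ∈ s, A i) (∏ i ∈ s, a i) := by
  classical
  induction s using Finset.induction_on with
  | empty => simpa using Cl.one
  | insert x s hx ih =>
    rw [Finset.sum_insert hx, Finset.prod_insert hx, Finset.prod_insert hx]
    exact (h _ (Finset.mem_insert_self _ _)).mul (ih fun i hi => h i (Finset.mem_insert_of_mem hi))

theorem Cl.finsupp {P : ι → MvPowerSeries ι R} (h : ∀ i, Cl 1 (P i) (X i)) (d : ι →₀ ℕ) :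
    Cl d.degree (d.prod fun i e => P i ^ e) (monomial d 1) := by
  have h1 : (monomial d (1 : R)) = d.prod fun i e => (X i : MvPowerSeries ι R) ^ e := by
    rw [MvPowerSeries.monomial_eq']
    simp
  rw [h1]
  have := Cl.prod d.support (n := fun i => d i * 1) (A := fun i => P i ^ d i) (a := fun i => X i ^ d i)
    (fun i _ => (h i).pow (d i))
  rw [Finsupp.degree_apply, Finsupp.prod, Finsupp.prod]
  simpa using this

end Ord

section Inv

variable {ι : Type*} [Fintype ι] {R : Type*} [CommRing R]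

theorem ord_subst_sub {P : ι → MvPowerSeries ι R} (hP : ∀ i, Cl 1 (P i) (X i))
    {u : MvPowerSeries ι R} {k : ℕ} (hu : (k : ℕ∞) ≤ u.order) :
    ((k + 1 : ℕ) : ℕ∞) ≤ (u - u.subst P).order := by
  have hs : HasSubst P := by
    apply hasSubst_of_constantCoeff_zero
    intro i
    rw [← one_le_order_iff_constCoeff_eq_zero]
    exact_mod_cast (hP i).ord
  apply nat_le_order
  intro e he
  rw [map_sub, coeff_subst hs]
  have hcl := fun d => Cl.finsupp hP d
  have key : ∀ d : ι →₀ ℕ, d ≠ e → coeff d u • coeff e (d.prod fun s e => P s ^ e) = 0 := by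
    intro d hde
    by_cases h1 : d.degree < k
    · rw [coeff_of_lt_order (lt_of_lt_of_le (by exact_mod_cast h1) hu), zero_smul]
    · by_cases h2 : e.degree < d.degree
      · rw [coeff_of_lt_order (lt_of_lt_of_le (by exact_mod_cast h2) (hcl d).ord), smul_zero]
      · have h3 : coeff e (d.prod fun s e => P s ^ e) = coeff e (monomial d (1 : R)) :=
          coeff_eq_of_ord (hcl d).2 (by omega)
        rw [h3, coeff_monomial_ne (Ne.symm hde), smul_zero]
  rw [finsum_eq_single _ e key]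
  by_cases h1 : e.degree < k
  · rw [coeff_of_lt_order (lt_of_lt_of_le (by exact_mod_cast h1) hu), zero_smul, sub_zero]
  · have h3 : coeff e (e.prod fun s e => P s ^ e) = coeff e (monomial e (1 : R)) :=
      coeff_eq_of_ord (hcl e).2 (by omega)
    rw [h3, coeff_monomial_same]
    simp

theorem exists_subst_eq_of_unipotent {P : ι → MvPowerSeries ι R} (hP : ∀ i, Cl 1 (P i) (X i))
    (f : MvPowerSeries ι R) : ∃ g : MvPowerSeries ι R, g.subst P = f := by
  have hs : HasSubst P := by
    apply hasSubst_of_constantCoeff_zero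
    intro i
    rw [← one_le_order_iff_constCoeff_eq_zero]
    exact_mod_cast (hP i).ord
  obtain ⟨g, hg, -⟩ := asym_exists_fixed (fun g => f + (g - g.subst P)) 0 (by
    intro g g' k _ hk
    have : f + (g - g.subst P) - (f + (g' - g'.subst P)) = (g - g') - (g - g').subst P := by
      rw [subst_sub hs]; ring
    simp only [this]
    exact ord_subst_sub hP hk) 0 (by simp)
  refine ⟨g, ?_⟩
  have h1 : f + (g - g.subst P) = g := hg
  linear_combination -h1

/-- formal inverse function theorem -/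
theorem exists_subst_eq [DecidableEq ι] {P : ι → MvPowerSeries ι R} (h0 : ∀ i, constantCoeff (P i) = 0)
    (hdet : IsUnit (Matrix.of fun i j => coeff (Finsupp.single j 1) (P i)).det)
    (f : MvPowerSeries ι R) : ∃ g : MvPowerSeries ι R, g.subst P = f := by
  obtain ⟨J, hJ⟩ : ∃ J : Matrix ι ι R, J = Matrix.of fun i j => coeff (Finsupp.single j 1) (P i) := ⟨_, rfl⟩
  rw [← hJ] at hdet
  have hM : J⁻¹ * J = 1 := Matrix.nonsing_inv_mul J hdet
  obtain ⟨M, hM'⟩ : ∃ M : Matrix ι ι R, M = J⁻¹ := ⟨_, rfl⟩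
  rw [← hM'] at hM
  have hs : HasSubst P := hasSubst_of_constantCoeff_zero h0
  obtain ⟨g', hg'⟩ := exists_subst_eq_of_unipotent (P := fun i => ∑ j, C (M i j) * P j) (by
    intro i
    refine ⟨?_, ?_⟩
    · have : constantCoeff (X i : MvPowerSeries ι R) = 0 := by simp
      rw [← one_le_order_iff_constCoeff_eq_zero] at this
      exact_mod_cast this
    · apply nat_le_order
      intro d hd
      rw [map_sub, map_sum]
      simp only [coeff_C_mul]
      rcases Nat.lt_or_ge d.degree 1 with h1 | h1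
      · have hd0 : d = 0 := by
          rw [← Finsupp.degree_eq_zero_iff]; omega
        rw [hd0]
        simp [h0]
      · have h2 : d.degree = 1 := by omega
        obtain ⟨j, rfl⟩ : ∃ j, d = Finsupp.single j 1 := by
          exact (Finsupp.sum_eq_one_iff d).1 h2
        have h3 : ∑ x, M i x * coeff (Finsupp.single j 1) (P x) = (1 : Matrix ι ι R) i j := by
          rw [← hM, Matrix.mul_apply]
          simp [hJ]
        rw [h3, coeff_X, Matrix.one_apply]
        have h4 : (Finsupp.single j 1 = Finsupp.single i (1 : ℕ)) ↔ i = j := by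
          rw [Finsupp.single_left_inj one_ne_zero]
          exact eq_comm
        simp only [h4, sub_self]) f
  refine ⟨g'.subst (fun i => ∑ j, C (M i j) * X j), ?_⟩
  have hL : HasSubst (fun i => ∑ j, C (M i j) * (X j : MvPowerSeries ι R)) := by
    apply hasSubst_of_constantCoeff_zero
    intro i
    simp
  rw [subst_comp_subst_apply hL hs, ← hg']
  congr 1
  funext i
  rw [← coe_substAlgHom hs, map_sum]
  apply Finset.sum_congr rfl
  intro j _
  rw [map_mul, coe_substAlgHom hs, subst_C, subst_X hs]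

end Inv

end Chai
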