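import Vale.Agent.Chai.AsymA

/-!
# P217 / AsymB: asymptotic expansions along a sequence
-/

namespace Chai

open MvPowerSeries Filter Topology Asymptotics

section Asy

variable {C : Type*} [NontriviallyNormedField C]
variable {ι : Type*} [Fintype ι]

/-- asymptotic expansion modulo degree `k` -/
def Asy (δ : ℕ → ι → C) (k : ℕ) (a : ℕ → C) (A : MvPowerSeries ι C) : Prop :=
  ∃ P : MvPolynomial ι C, (k : ℕ∞) ≤ ((P : MvPowerSeries ι C) - A).order ∧
    (fun m => a m - MvPolynomial.eval (δ m) P) =O[atTop] fun m => ‖δ m‖ ^ k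

theorem eval_small (P : MvPolynomial ι C) {k : ℕ} (h : (k : ℕ∞) ≤ (P : MvPowerSeries ι C).order) :
    ∃ K : ℝ, ∀ a : ι → C, ‖a‖ ≤ 1 → ‖MvPolynomial.eval a P‖ ≤ K * ‖a‖ ^ k := by
  refine ⟨∑ d ∈ P.support, ‖P.coeff d‖, fun a ha => ?_⟩
  rw [MvPolynomial.eval_eq', Finset.sum_mul]
  refine (norm_sum_le _ _).trans (Finset.sum_le_sum fun d hd => ?_)
  rw [norm_mul]
  apply mul_le_mul_of_nonneg_left _ (norm_nonneg _)
  rw [norm_prod]
  have hk : k ≤ ∑ i, d i := by
    have h1 : coeff d (P : MvPowerSeries ι C) ≠ 0 := by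
      rw [MvPolynomial.coeff_coe]
      exact MvPolynomial.mem_support_iff.1 hd
    have h2 := h.trans (order_le h1)
    rw [Finsupp.degree_eq_sum] at h2
    exact_mod_cast h2
  calc ∏ i, ‖a i ^ d i‖ ≤ ∏ i, ‖a‖ ^ d i := by
        apply Finset.prod_le_prod (fun i _ => norm_nonneg _)
        intro i _
        rw [norm_pow]
        exact pow_le_pow_left₀ (norm_nonneg _) (norm_le_pi_norm a i) _
    _ = ‖a‖ ^ (∑ i, d i) := Finset.prod_pow_eq_pow_sum _ _ _
    _ ≤ ‖a‖ ^ k := pow_le_pow_of_le_one (norm_nonneg _) ha hk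

theorem exists_poly (A : MvPowerSeries ι C) (k : ℕ) :
    ∃ P : MvPolynomial ι C, (k : ℕ∞) ≤ ((P : MvPowerSeries ι C) - A).order := by
  classical
  refine ⟨∑ d ∈ degLE ι k, MvPolynomial.monomial d (coeff d A), ?_⟩
  apply nat_le_order
  intro d hd
  rw [map_sub, MvPolynomial.coeff_coe, MvPolynomial.coeff_sum]
  simp only [MvPolynomial.coeff_monomial]
  rw [Finset.sum_ite_eq', if_pos (mem_degLE.2 hd.le), sub_self]

section
variable {δ : ℕ → ι → C} (hδ : ∀ m, ‖δ m‖ ≤ 1)
include hδ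

theorem powO {k l : ℕ} (h : l ≤ k) : (fun m => ‖δ m‖ ^ k) =O[atTop] fun m => ‖δ m‖ ^ l := by
  apply IsBigO.of_bound 1
  filter_upwards with m
  rw [one_mul, norm_pow, norm_pow, norm_norm]
  exact pow_le_pow_of_le_one (norm_nonneg _) (hδ m) h

theorem evalO {P : MvPolynomial ι C} {k : ℕ} (h : (k : ℕ∞) ≤ (P : MvPowerSeries ι C).order) :
    (fun m => MvPolynomial.eval (δ m) P) =O[atTop] fun m => ‖δ m‖ ^ k := by
  obtain ⟨K, hK⟩ := eval_small P h
  apply IsBigO.of_bound K
  filter_upwards with m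
  rw [norm_pow, norm_norm]
  exact hK _ (hδ m)

theorem Asy.isBigO_of {k : ℕ} {a : ℕ → C} {A : MvPowerSeries ι C} (h : Asy δ k a A)
    {Q : MvPolynomial ι C} (hQ : (k : ℕ∞) ≤ ((Q : MvPowerSeries ι C) - A).order) :
    (fun m => a m - MvPolynomial.eval (δ m) Q) =O[atTop] fun m => ‖δ m‖ ^ k := by
  obtain ⟨P, hP, hO⟩ := h
  have h1 : (k : ℕ∞) ≤ ((P - Q : MvPolynomial ι C) : MvPowerSeries ι C).order := by
    have : ((P - Q : MvPolynomial ι C) : MvPowerSeries ι C) =
        ((P : MvPowerSeries ι C) - A) - ((Q : MvPowerSeries ι C) - A) := by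
      rw [← MvPolynomial.coeToMvPowerSeries.ringHom_apply, map_sub]
      simp
    rw [this]
    exact ord_sub hP hQ
  have h2 := hO.add (evalO hδ h1)
  refine h2.congr_left fun m => ?_
  rw [map_sub]
  ring

theorem Asy.isBigO_zero {k : ℕ} {a : ℕ → C} (h : Asy δ k a 0) :
    a =O[atTop] fun m => ‖δ m‖ ^ k := by
  have := h.isBigO_of hδ (Q := 0) (by simp)
  simpa using this

theorem Asy.bddO {k : ℕ} {a : ℕ → C} {A : MvPowerSeries ι C} (h : Asy δ k a A) :
    a =O[atTop] fun _ => (1 : ℝ) := by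
  obtain ⟨P, hP, hO⟩ := h
  have h1 : (fun m => MvPolynomial.eval (δ m) P) =O[atTop] fun m => ‖δ m‖ ^ 0 :=
    evalO hδ (by simp)
  have h2 := (hO.trans (powO hδ (Nat.zero_le k))).add h1
  simpa using h2

omit hδ in
theorem Asy.congr_fun {k : ℕ} {a b : ℕ → C} {A : MvPowerSeries ι C} (h : Asy δ k a A)
    (hab : a =ᶠ[atTop] b) : Asy δ k b A := by
  obtain ⟨P, hP, hO⟩ := h
  refine ⟨P, hP, hO.congr' ?_ EventuallyEq.rfl⟩
  filter_upwards [hab] with m hm
  rw [hm]

omit hδ in
theorem Asy.congr_ser {k : ℕ} {a : ℕ → C} {A B : MvPowerSeries ι C} (h : Asy δ k a A)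
    (hAB : (k : ℕ∞) ≤ (A - B).order) : Asy δ k a B := by
  obtain ⟨P, hP, hO⟩ := h
  exact ⟨P, ord_sub_trans hP hAB, hO⟩

theorem Asy.mono {k l : ℕ} (hl : l ≤ k) {a : ℕ → C} {A : MvPowerSeries ι C} (h : Asy δ k a A) :
    Asy δ l a A := by
  obtain ⟨P, hP, hO⟩ := h
  exact ⟨P, ord_mono hl hP, hO.trans (powO hδ hl)⟩

omit hδ in
theorem Asy.poly (k : ℕ) (P : MvPolynomial ι C) :
    Asy δ k (fun m => MvPolynomial.eval (δ m) P) P :=
  ⟨P, by simp, by simpa using _root_.Asymptotics.isBigO_zero _ _⟩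

omit hδ in
theorem Asy.const (k : ℕ) (c : C) : Asy δ k (fun _ => c) (MvPowerSeries.C c) := by
  have := Asy.poly (δ := δ) k (MvPolynomial.C c)
  simpa using this

omit hδ in
theorem Asy.X (k : ℕ) (i : ι) : Asy δ k (fun m => δ m i) (MvPowerSeries.X i) := by
  have := Asy.poly (δ := δ) k (MvPolynomial.X i)
  simpa using this

omit hδ in
theorem Asy.add {k : ℕ} {a b : ℕ → C} {A B : MvPowerSeries ι C} (h : Asy δ k a A)
    (h' : Asy δ k b B) : Asy δ k (fun m => a m + b m) (A + B) := by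
  obtain ⟨P, hP, hO⟩ := h
  obtain ⟨Q, hQ, hO'⟩ := h'
  refine ⟨P + Q, ?_, ?_⟩
  · have : ((P + Q : MvPolynomial ι C) : MvPowerSeries ι C) - (A + B) =
        ((P : MvPowerSeries ι C) - A) + ((Q : MvPowerSeries ι C) - B) := by
      rw [MvPolynomial.coe_add]; ring
    rw [this]
    exact ord_add hP hQ
  · refine (hO.add hO').congr_left fun m => ?_
    rw [map_add]; ring

omit hδ in
theorem Asy.neg {k : ℕ} {a : ℕ → C} {A : MvPowerSeries ι C} (h : Asy δ k a A) :
    Asy δ k (fun m => -a m) (-A) := by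
  obtain ⟨P, hP, hO⟩ := h
  refine ⟨-P, ?_, ?_⟩
  · have : ((-P : MvPolynomial ι C) : MvPowerSeries ι C) - (-A) = -((P : MvPowerSeries ι C) - A) := by
      rw [← MvPolynomial.coeToMvPowerSeries.ringHom_apply, map_neg]
      simp only [MvPolynomial.coeToMvPowerSeries.ringHom_apply]
      ring
    rw [this]
    exact ord_neg hP
  · refine hO.neg_left.congr_left fun m => ?_
    rw [map_neg]; ring

omit hδ in
theorem Asy.sub {k : ℕ} {a b : ℕ → C} {A B : MvPowerSeries ι C} (h : Asy δ k a A)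
    (h' : Asy δ k b B) : Asy δ k (fun m => a m - b m) (A - B) := by
  have := h.add h'.neg
  simpa [sub_eq_add_neg] using this

theorem Asy.mul {k : ℕ} {a b : ℕ → C} {A B : MvPowerSeries ι C} (h : Asy δ k a A)
    (h' : Asy δ k b B) : Asy δ k (fun m => a m * b m) (A * B) := by
  have ha := h.bddO hδ
  obtain ⟨P, hP, hO⟩ := h
  obtain ⟨Q, hQ, hO'⟩ := h'
  have hQb : (fun m => MvPolynomial.eval (δ m) Q) =O[atTop] fun _ => (1 : ℝ) := by
    have : (fun m => MvPolynomial.eval (δ m) Q) =O[atTop] fun m => ‖δ m‖ ^ 0 :=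
      evalO hδ (by simp)
    simpa using this
  refine ⟨P * Q, ?_, ?_⟩
  · rw [MvPolynomial.coe_mul]
    exact ord_mul_sub_mul hP hQ
  · have h1 := ha.mul hO'
    have h2 := hO.mul hQb
    simp only [one_mul] at h1
    simp only [mul_one] at h2
    refine (h1.add h2).congr_left fun m => ?_
    rw [map_mul]; ring

theorem Asy.pow {k : ℕ} {a : ℕ → C} {A : MvPowerSeries ι C} (h : Asy δ k a A) (n : ℕ) :
    Asy δ k (fun m => a m ^ n) (A ^ n) := by
  induction n with
  | zero =>
    have := Asy.const (δ := δ) k (1 : C)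
    simpa using this
  | succ n ih =>
    have := ih.mul hδ h
    simpa [pow_succ] using this

omit hδ in
theorem Asy.zero (k : ℕ) : Asy δ k (fun _ => (0 : C)) 0 := by
  have := Asy.const (δ := δ) k (0 : C)
  simpa using this

omit hδ in
theorem Asy.sum {κ : Type*} (s : Finset κ) {k : ℕ} {a : κ → ℕ → C} {A : κ → MvPowerSeries ι C}
    (h : ∀ i ∈ s, Asy δ k (a i) (A i)) : Asy δ k (fun m => ∑ i ∈ s, a i m) (∑ i ∈ s, A i) := by
  classical
  induction s using Finset.induction_on with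
  | empty => simpa using Asy.zero (δ := δ) k
  | insert x s hx ih =>
    have := (h _ (Finset.mem_insert_self _ _)).add (ih fun i hi => h i (Finset.mem_insert_of_mem hi))
    simpa only [Finset.sum_insert hx] using this

theorem Asy.prod {κ : Type*} (s : Finset κ) {k : ℕ} {a : κ → ℕ → C} {A : κ → MvPowerSeries ι C}
    (h : ∀ i ∈ s, Asy δ k (a i) (A i)) : Asy δ k (fun m => ∏ i ∈ s, a i m) (∏ i ∈ s, A i) := by
  classical
  induction s using Finset.induction_on with
  | empty =>
    have := Asy.const (δ := δ) k (1 : C)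
    simpa using this
  | insert x s hx ih =>
    have := (h _ (Finset.mem_insert_self _ _)).mul hδ
      (ih fun i hi => h i (Finset.mem_insert_of_mem hi))
    simpa only [Finset.prod_insert hx] using this

theorem Asy.tendsto (hδ0 : Tendsto δ atTop (𝓝 0)) {a : ℕ → C} {A : MvPowerSeries ι C}
    (h : Asy δ 1 a A) : Tendsto a atTop (𝓝 (constantCoeff A)) := by
  have h1 := h.isBigO_of hδ (Q := MvPolynomial.C (constantCoeff A)) (by
    rw [MvPolynomial.coe_C]
    have : constantCoeff (MvPowerSeries.C (constantCoeff A) - A : MvPowerSeries ι C) = 0 := by simp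
    rw [← one_le_order_iff_constCoeff_eq_zero] at this
    exact_mod_cast this)
  have h2 : Tendsto (fun m => ‖δ m‖ ^ 1) atTop (𝓝 0) := by
    have := (hδ0.norm)
    simpa using this
  have h3 := h1.trans_tendsto h2
  simp only [MvPolynomial.eval_C] at h3
  have h4 := h3.add_const (constantCoeff A)
  simpa using h4

theorem Asy.inv (hδ0 : Tendsto δ atTop (𝓝 0)) {y : ℕ → C} {Y : MvPowerSeries ι C}
    (hy : ∀ k, Asy δ k y Y) (hY : constantCoeff Y ≠ 0) (k : ℕ) :
    Asy δ k (fun m => (y m)⁻¹) Y⁻¹ := by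
  have ht := (hy 1).tendsto hδ hδ0
  have hti : Tendsto (fun m => (y m)⁻¹) atTop (𝓝 (constantCoeff Y)⁻¹) := ht.inv₀ hY
  have hbi : (fun m => (y m)⁻¹) =O[atTop] fun _ => (1 : ℝ) := hti.isBigO_one ℝ
  obtain ⟨Q, hQ⟩ := exists_poly Y⁻¹ k
  refine ⟨Q, hQ, ?_⟩
  have h1 : Asy δ k (fun m => y m * MvPolynomial.eval (δ m) Q) (1 : MvPowerSeries ι C) := by
    have h2 := (hy k).mul hδ ((Asy.poly (δ := δ) k Q).congr_ser hQ)
    rw [MvPowerSeries.mul_inv_cancel Y hY] at h2
    exact h2
  have h3 := h1.isBigO_of hδ (Q := 1) (by simp)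
  have h4 := hbi.mul h3.neg_left
  simp only [one_mul] at h4
  refine h4.congr' ?_ EventuallyEq.rfl
  filter_upwards [ht.eventually_ne hY] with m hm
  rw [map_one]
  field_simp
  ring

theorem Asy.of_mul (hδ0 : Tendsto δ atTop (𝓝 0)) {y : ℕ → C} {Y : MvPowerSeries ι C}
    (hy : ∀ k, Asy δ k y Y) (hY : constantCoeff Y ≠ 0) {k : ℕ} {a : ℕ → C} {A : MvPowerSeries ι C}
    (h : Asy δ k (fun m => y m * a m) (Y * A)) : Asy δ k a A := by
  have h1 := (Asy.inv hδ hδ0 hy hY k).mul hδ h
  rw [← mul_assoc, MvPowerSeries.inv_mul_cancel Y hY, one_mul] at h1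
  apply h1.congr_fun
  filter_upwards [((hy 1).tendsto hδ hδ0).eventually_ne hY] with m hm
  field_simp

/-- the key step: solutions of `b^q = y b + R` -/
theorem asy_root {q : ℕ} (hq : 2 ≤ q) (hqC : ∀ x y : C, (x - y) ^ q = x ^ q - y ^ q)
    (hqM : ∀ x y : MvPowerSeries ι C, (x - y) ^ q = x ^ q - y ^ q)
    (hδ0 : Tendsto δ atTop (𝓝 0)) {b y R : ℕ → C} {b0 : C} {B Y Rh : MvPowerSeries ι C}
    (hb : Tendsto b atTop (𝓝 b0)) (hy : ∀ k, Asy δ k y Y) (hR : ∀ k, Asy δ k R Rh)
    (heq : ∀ m, b m ^ q = y m * b m + R m) (hY : constantCoeff Y ≠ 0)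
    (hB0 : constantCoeff B = b0) (hB : B ^ q = Y * B + Rh) (k : ℕ) : Asy δ k b B := by
  have h0 : b0 ^ q = constantCoeff Y * b0 + constantCoeff Rh := by
    have := congrArg constantCoeff hB
    rw [map_pow, map_add, map_mul, hB0] at this
    exact this
  have hbO : b =O[atTop] fun _ => (1 : ℝ) := hb.isBigO_one ℝ
  have base : Asy δ 1 b B := by
    refine ⟨MvPolynomial.C b0, ?_, ?_⟩
    · rw [MvPolynomial.coe_C]
      have : constantCoeff (MvPowerSeries.C b0 - B : MvPowerSeries ι C) = 0 := by simp [hB0]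
      rw [← one_le_order_iff_constCoeff_eq_zero] at this
      exact_mod_cast this
    · simp only [MvPolynomial.eval_C]
      have hq' : q = (q - 1) + 1 := by omega
      have h1 : Tendsto (fun m => (b m - b0) ^ (q - 1) - y m) atTop (𝓝 (-constantCoeff Y)) := by
        have h2 : Tendsto (fun m => b m - b0) atTop (𝓝 0) := by
          have := hb.sub_const b0
          simpa using this
        have h3 := (h2.pow (q - 1)).sub ((hy 1).tendsto hδ hδ0)
        rw [zero_pow (by omega), zero_sub] at h3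
        exact h3
      have hY' : -constantCoeff Y ≠ 0 := neg_ne_zero.2 hY
      have h2 : (fun m => ((b m - b0) ^ (q - 1) - y m)⁻¹) =O[atTop] fun _ => (1 : ℝ) :=
        (h1.inv₀ hY').isBigO_one ℝ
      have h3 : (fun m => (R m - constantCoeff Rh) + b0 * (y m - constantCoeff Y)) =O[atTop]
          fun m => ‖δ m‖ ^ 1 := by
        have hc : ∀ (a : ℕ → C) (A : MvPowerSeries ι C), Asy δ 1 a A →
            (fun m => a m - constantCoeff A) =O[atTop] fun m => ‖δ m‖ ^ 1 := by
          intro a A hA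
          have := hA.isBigO_of hδ (Q := MvPolynomial.C (constantCoeff A)) (by
            rw [MvPolynomial.coe_C]
            have : constantCoeff (MvPowerSeries.C (constantCoeff A) - A : MvPowerSeries ι C) = 0 := by
              simp
            rw [← one_le_order_iff_constCoeff_eq_zero] at this
            exact_mod_cast this)
          simpa using this
        exact (hc _ _ (hR 1)).add ((hc _ _ (hy 1)).const_mul_left b0)
      have h4 := h2.mul h3
      simp only [one_mul] at h4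
      refine h4.congr' ?_ EventuallyEq.rfl
      filter_upwards [h1.eventually_ne hY'] with m hm
      have h5 : (b m - b0) * ((b m - b0) ^ (q - 1) - y m) =
          (R m - constantCoeff Rh) + b0 * (y m - constantCoeff Y) := by
        have h6 : (b m - b0) * (b m - b0) ^ (q - 1) = b m ^ q - b0 ^ q := by
          rw [← hqC, ← pow_succ', ← hq']
        rw [mul_sub, h6, heq, h0]
        ring
      rw [← h5]
      field_simp
  have step : ∀ k, 1 ≤ k → Asy δ k b B → Asy δ (k + 1) b B := by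
    intro k hk h
    have hbq : Asy δ (k + 1) (fun m => b m ^ q) (B ^ q) := by
      obtain ⟨P, hP, hO⟩ := h
      have hkq : k + 1 ≤ q * k := by nlinarith
      refine ⟨P ^ q, ?_, ?_⟩
      · rw [MvPolynomial.coe_pow, ← hqM]
        exact ord_mono hkq (ord_pow hP q)
      · have h1 := hO.pow q
        have h2 : (fun m => (‖δ m‖ ^ k) ^ q) = fun m => ‖δ m‖ ^ (q * k) := by
          funext m
          rw [← pow_mul, mul_comm]
        rw [h2] at h1
        refine (h1.congr_left fun m => ?_).trans (powO hδ hkq)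
        rw [map_pow, hqC]
    have h2 : Asy δ (k + 1) (fun m => y m * b m) (Y * B) := by
      have h3 := hbq.sub (hR (k + 1))
      have h4 : B ^ q - Rh = Y * B := by rw [hB]; ring
      rw [h4] at h3
      apply h3.congr_fun
      filter_upwards with m
      rw [heq]; ring
    exact Asy.of_mul hδ hδ0 hy hY h2
  have all : ∀ k, Asy δ (k + 1) b B := by
    intro k
    induction k with
    | zero => exact base
    | succ k ih => exact step (k + 1) (by omega) ih
  exact (all k).mono hδ (Nat.le_succ k)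

end

theorem exists_formal_root {q : ℕ} (hq : 2 ≤ q)
    (hqM : ∀ x y : MvPowerSeries ι C, (x - y) ^ q = x ^ q - y ^ q) {b0 : C}
    {Y Rh : MvPowerSeries ι C} (hY : constantCoeff Y ≠ 0)
    (h0 : b0 ^ q = constantCoeff Y * b0 + constantCoeff Rh) :
    ∃ B : MvPowerSeries ι C, constantCoeff B = b0 ∧ B ^ q = Y * B + Rh := by
  obtain ⟨B, hB1, hB2⟩ := asym_exists_fixed (fun B => Y⁻¹ * (B ^ q - Rh)) 1 (by
    intro f g k hk hfg
    have h1 : Y⁻¹ * (f ^ q - Rh) - Y⁻¹ * (g ^ q - Rh) = Y⁻¹ * (f - g) ^ q := by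
      rw [hqM]; ring
    simp only [h1]
    apply ord_mul_left
    exact ord_mono (by nlinarith) (ord_pow hfg q)) (MvPowerSeries.C b0) (by
    have h1 : constantCoeff (Y⁻¹ * ((MvPowerSeries.C b0) ^ q - Rh) - MvPowerSeries.C b0 :
        MvPowerSeries ι C) = 0 := by
      rw [map_sub, map_mul, map_sub, map_pow, constantCoeff_C, h0, constantCoeff_inv]
      field_simp
      ring
    rw [← one_le_order_iff_constCoeff_eq_zero] at h1
    exact_mod_cast h1)
  refine ⟨B, ?_, ?_⟩
  · have h1 : constantCoeff (B - MvPowerSeries.C b0) = 0 := by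
      rw [← one_le_order_iff_constCoeff_eq_zero]
      exact_mod_cast hB2
    rw [map_sub, constantCoeff_C, sub_eq_zero] at h1
    exact h1
  · have h1 : Y⁻¹ * (B ^ q - Rh) = B := hB1
    have h2 : Y * (Y⁻¹ * (B ^ q - Rh)) = Y * B := by rw [h1]
    rw [← mul_assoc, MvPowerSeries.mul_inv_cancel Y hY, one_mul] at h2
    rw [← h2]; ring

theorem asy_ev [IsUltrametricDist C] [CompleteSpace C] {δ : ℕ → ι → C} (hδ : ∀ m i, ‖δ m i‖ < 1)
    {f : MvPowerSeries ι C} (hf : Bdd f) (k : ℕ) : Asy δ k (fun m => ev (δ m) f) f := by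
  classical
  have hδ' : ∀ m, ‖δ m‖ ≤ 1 := fun m => (pi_norm_le_iff_of_nonneg zero_le_one).2 fun i => (hδ m i).le
  suffices h : Asy δ (k + 1) (fun m => ev (δ m) f) f from h.mono hδ' (Nat.le_succ k)
  refine ⟨∑ d ∈ degLE ι k, MvPolynomial.monomial d (coeff d f), ?_, ?_⟩
  · apply nat_le_order
    intro d hd
    rw [map_sub, MvPolynomial.coeff_coe, MvPolynomial.coeff_sum]
    simp only [MvPolynomial.coeff_monomial]
    rw [Finset.sum_ite_eq', if_pos (mem_degLE.2 (by omega)), sub_self]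
  · apply IsBigO.of_bound 1
    filter_upwards with m
    have h1 : MvPolynomial.eval (δ m) (∑ d ∈ degLE ι k, MvPolynomial.monomial d (coeff d f)) =
        evN k (δ m) f := by
      rw [map_sum]
      simp only [MvPolynomial.eval_monomial, evN]
    rw [h1, one_mul, norm_pow, norm_norm]
    exact norm_ev_sub_evN_le hf (hδ m) k

end Asy

end Chai
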