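import Vale.Agent.Chai.BetaB

/-!
# P217 / BetaC: the Witt vector data and the recursion

OWNER: helper2
-/

namespace Chai

namespace Beta

open Finset

/-! ### recursive sequences -/

section Seq

variable {α : Type*} [Inhabited α]

/-- the sequence defined by strong recursion -/
noncomputable def seqOf (Φ : ℕ → (ℕ → α) → α) : ℕ → α
  | N => Φ N (fun i => if _h : i < N then seqOf Φ i else default)

theorem seqOf_eq (Φ : ℕ → (ℕ → α) → α) (N : ℕ) :
    seqOf Φ N = Φ N (fun i => if _h : i < N then seqOf Φ i else default) := by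
  conv_lhs => unfold seqOf

theorem exists_seq (P : ℕ → (ℕ → α) → α → Prop) (hex : ∀ N s, ∃ a, P N s a)
    (hloc : ∀ N s s' a, (∀ i < N, s i = s' i) → P N s a → P N s' a) :
    ∃ s : ℕ → α, ∀ N, P N s (s N) := by
  choose Φ hΦ using hex
  refine ⟨seqOf Φ, fun N => ?_⟩
  have h := hΦ N (fun i => if _h : i < N then seqOf Φ i else default)
  rw [← seqOf_eq Φ N] at h
  exact hloc N _ _ _ (fun i hi => dif_pos hi) h

end Seq

variable {p : ℕ} [hp : Fact p.Prime] {O : Type*} [CommRing O] [IsDomain O] [CharP O p]

theorem perfect_of_root (hroot : ∀ f : Polynomial O, f.Monic → f.natDegree ≠ 0 → ∃ a, f.eval a = 0) :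
    haveI : ExpChar O p := ExpChar.prime hp.out
    PerfectRing O p := by
  have : ExpChar O p := ExpChar.prime hp.out
  refine PerfectRing.ofSurjective O p fun a => ?_
  obtain ⟨b, hb⟩ := hroot (Polynomial.X ^ p - Polynomial.C a)
    (Polynomial.monic_X_pow_sub_C a hp.out.ne_zero)
    (by rw [Polynomial.natDegree_X_pow_sub_C]; exact hp.out.ne_zero)
  refine ⟨b, ?_⟩
  rw [Polynomial.eval_sub, Polynomial.eval_pow, Polynomial.eval_X, Polynomial.eval_C] at hb
  rw [frobenius_def]
  exact sub_eq_zero.1 hb

theorem charZero_witt : CharZero (WittVector p O) := by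
  have hinj : ∀ n : ℕ, (n : WittVector p O) = 0 → n = 0 := by
    intro n
    induction n using Nat.strong_induction_on with
    | _ n ih =>
      intro hn
      by_contra h0
      have h1 : ((n : ℕ) : O) = 0 := by
        have := congrArg (WittVector.constantCoeff : WittVector p O →+* O) hn
        rwa [map_natCast, map_zero] at this
      obtain ⟨m, rfl⟩ := (CharP.cast_eq_zero_iff O p n).1 h1
      rw [Nat.cast_mul, mul_eq_zero] at hn
      rcases hn with hn | hn
      · exact WittVector.p_nonzero p O hn
      · have hm0 : m ≠ 0 := fun h => h0 (by rw [h, mul_zero])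
        have hlt : m < p * m := by
          have := hp.out.two_le
          nlinarith [Nat.pos_of_ne_zero hm0]
        exact hm0 (ih m hlt hn)
  exact charZero_of_inj_zero hinj

section Perfect

variable [ExpChar O p] [PerfectRing O p]

theorem dvd_of_constantCoeff {z : WittVector p O} (hz : WittVector.constantCoeff z = 0) :
    (p : WittVector p O) ∣ z := by
  rw [← Ideal.mem_span_singleton, WittVector.mem_span_p_iff_coeff_zero_eq_zero]
  exact hz

theorem frob_lift (b : WittVector p O) :
    (p : WittVector p O) ∣ WittVector.frobenius b - b ^ p := by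
  apply dvd_of_constantCoeff
  rw [map_sub, map_pow, sub_eq_zero]
  exact WittVector.coeff_frobenius_charP p b 0

end Perfect

theorem frobenius_teichmuller (a : O) :
    WittVector.frobenius (WittVector.teichmuller p a) = WittVector.teichmuller p a ^ p := by
  rw [WittVector.frobenius_eq_map_frobenius, WittVector.map_teichmuller, frobenius_def, map_pow]

theorem constantCoeff_teichmuller (a : O) :
    WittVector.constantCoeff (WittVector.teichmuller p a) = a :=
  WittVector.teichmuller_coeff_zero p a

theorem constantCoeff_frobenius_iter (z : WittVector p O) (i : ℕ) :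
    WittVector.constantCoeff (WittVector.frobenius^[i] z) = WittVector.constantCoeff z ^ p ^ i := by
  induction i with
  | zero => simp
  | succ i ih =>
    rw [Function.iterate_succ_apply']
    have : WittVector.constantCoeff (WittVector.frobenius (WittVector.frobenius^[i] z)) =
        WittVector.constantCoeff (WittVector.frobenius^[i] z) ^ p :=
      WittVector.coeff_frobenius_charP p _ 0
    rw [this, ih, ← pow_mul, pow_succ]

/-- solving `y^q = u y + b` -/
theorem exists_root_affine
    (hroot : ∀ f : Polynomial O, f.Monic → f.natDegree ≠ 0 → ∃ a, f.eval a = 0)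
    {q : ℕ} (hq : 2 ≤ q) (u b : O) : ∃ y : O, y ^ q = u * y + b := by
  have hdeg : (-(Polynomial.C u * Polynomial.X + Polynomial.C b) : Polynomial O).degree <
      (q : ℕ) := by
    rw [Polynomial.degree_neg]
    refine lt_of_le_of_lt Polynomial.degree_linear_le ?_
    exact_mod_cast (by omega : 1 < q)
  obtain ⟨y, hy⟩ := hroot (Polynomial.X ^ q + -(Polynomial.C u * Polynomial.X + Polynomial.C b))
    (Polynomial.monic_X_pow_add hdeg)
    (by
      have h1 : (-(Polynomial.C u * Polynomial.X + Polynomial.C b) : Polynomial O).degree <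
          (Polynomial.X ^ q : Polynomial O).degree := by rwa [Polynomial.degree_X_pow]
      rw [Polynomial.natDegree_add_eq_left_of_degree_lt h1, Polynomial.natDegree_X_pow]
      omega)
  refine ⟨y, ?_⟩
  simp only [Polynomial.eval_add, Polynomial.eval_neg, Polynomial.eval_mul, Polynomial.eval_C,
    Polynomial.eval_X, Polynomial.eval_pow] at hy
  linear_combination hy

theorem exists_root_ne_zero
    (hroot : ∀ f : Polynomial O, f.Monic → f.natDegree ≠ 0 → ∃ a, f.eval a = 0)
    {q : ℕ} (hq : 2 ≤ q) {u : O} (hu : u ≠ 0) : ∃ y : O, y ≠ 0 ∧ y ^ q = u * y := by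
  obtain ⟨y, hy⟩ := hroot (Polynomial.X ^ (q - 1) - Polynomial.C u)
    (Polynomial.monic_X_pow_sub_C u (by omega))
    (by rw [Polynomial.natDegree_X_pow_sub_C]; omega)
  rw [Polynomial.eval_sub, Polynomial.eval_pow, Polynomial.eval_X, Polynomial.eval_C,
    sub_eq_zero] at hy
  refine ⟨y, ?_, ?_⟩
  · rintro rfl
    rw [zero_pow (by omega)] at hy
    exact hu hy.symm
  · have : q = (q - 1) + 1 := by omega
    rw [this, pow_succ, hy]

/-- the recursion -/
theorem exists_w (hroot : ∀ f : Polynomial O, f.Monic → f.natDegree ≠ 0 → ∃ a, f.eval a = 0)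
    {h : ℕ} (h1 : 1 ≤ h) (v : ℕ → O) (hv0 : ∀ j, 1 ≤ j → j < h → v j = 0) (hvh : v h ≠ 0) :
    ∃ w w' : ℕ → WittVector p O, WittVector.constantCoeff (w 0) ≠ 0 ∧
      ∀ N, (p : WittVector p O) * w N -
        (if h ≤ N then WittVector.frobenius^[h] (w (N - h)) else 0) =
        p * w' N - ∑ i ∈ range N, w' i * WittVector.teichmuller p (v (N - i)) ^ p ^ i := by
  have hE : ExpChar O p := ExpChar.prime hp.out
  have hP : PerfectRing O p := perfect_of_root hroot
  have hq : 2 ≤ p ^ h := hp.out.two_le.trans (Nat.le_self_pow (by omega) p)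
  let cc : WittVector p O →+* O := WittVector.constantCoeff
  let Bn : ℕ → (ℕ → WittVector p O × WittVector p O) → WittVector p O := fun N s =>
    if h ≤ N then WittVector.frobenius^[h] (s (N - h)).1 else 0
  let An : ℕ → (ℕ → WittVector p O × WittVector p O) → WittVector p O := fun N s =>
    ∑ i ∈ range N, (s i).2 * WittVector.teichmuller p (v (N - i)) ^ p ^ i
  obtain ⟨s, hs⟩ := exists_seq (α := WittVector p O × WittVector p O)
    (fun N s a => (N = 0 → cc a.1 ≠ 0) ∧
      (cc a.1 ^ p ^ h = v h ^ p ^ N * cc a.2 +
        ∑ i ∈ range N, cc (s i).2 * v (N + h - i) ^ p ^ i) ∧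
      ((p : WittVector p O) ∣ Bn N s - An N s → p * a.1 - Bn N s = p * a.2 - An N s))
    (by
      intro N s
      obtain ⟨D, hD0, hD⟩ : ∃ D : WittVector p O, (N = 0 → D = 0) ∧
          ((p : WittVector p O) ∣ Bn N s - An N s → Bn N s - An N s = p * D) := by
        rcases Nat.eq_zero_or_pos N with rfl | hN
        · refine ⟨0, fun _ => rfl, fun _ => ?_⟩
          change (if h ≤ 0 then WittVector.frobenius^[h] (s (0 - h)).1 else 0) -
            ∑ i ∈ range 0, (s i).2 * WittVector.teichmuller p (v (0 - i)) ^ p ^ i = _
          rw [if_neg (by omega), Finset.sum_range_zero, mul_zero, sub_zero]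
        · by_cases hd : (p : WittVector p O) ∣ Bn N s - An N s
          · obtain ⟨D, hD⟩ := hd
            exact ⟨D, fun h => by omega, fun _ => hD⟩
          · exact ⟨0, fun _ => rfl, fun h => absurd h hd⟩
      obtain ⟨y, hy0, hy⟩ : ∃ y : O, (N = 0 → y ≠ 0) ∧
          y ^ p ^ h = v h ^ p ^ N * (y - cc D) +
            ∑ i ∈ range N, cc (s i).2 * v (N + h - i) ^ p ^ i := by
        rcases Nat.eq_zero_or_pos N with rfl | hN
        · obtain ⟨y, hy0, hy⟩ := exists_root_ne_zero hroot hq hvh
          refine ⟨y, fun _ => hy0, ?_⟩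
          rw [hD0 rfl, map_zero, sub_zero, pow_zero, pow_one, Finset.sum_range_zero, add_zero, hy]
        · obtain ⟨y, hy⟩ := exists_root_affine hroot hq (v h ^ p ^ N)
            (-(v h ^ p ^ N * cc D) + ∑ i ∈ range N, cc (s i).2 * v (N + h - i) ^ p ^ i)
          refine ⟨y, fun h => by omega, ?_⟩
          rw [hy]
          ring
      refine ⟨(WittVector.teichmuller p y, WittVector.teichmuller p y - D), ?_, ?_, ?_⟩
      · intro hN
        change WittVector.constantCoeff (WittVector.teichmuller p y) ≠ 0
        rw [constantCoeff_teichmuller]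
        exact hy0 hN
      · change WittVector.constantCoeff (WittVector.teichmuller p y) ^ p ^ h = v h ^ p ^ N *
          WittVector.constantCoeff (WittVector.teichmuller p y - D) + _
        rw [map_sub, constantCoeff_teichmuller]
        exact hy
      · intro hd
        have := hD hd
        change (p : WittVector p O) * WittVector.teichmuller p y - Bn N s =
          p * (WittVector.teichmuller p y - D) - An N s
        linear_combination -this)
    (by
      intro N s s' a hss' ⟨ha1, ha2, ha3⟩
      have hB : Bn N s = Bn N s' := by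
        change (if h ≤ N then WittVector.frobenius^[h] (s (N - h)).1 else 0) =
          (if h ≤ N then WittVector.frobenius^[h] (s' (N - h)).1 else 0)
        split_ifs with hN
        · rw [hss' (N - h) (by omega)]
        · rfl
      have hA : An N s = An N s' :=
        Finset.sum_congr rfl fun i hi => by rw [hss' i (Finset.mem_range.1 hi)]
      have hS : ∑ i ∈ range N, cc (s i).2 * v (N + h - i) ^ p ^ i =
          ∑ i ∈ range N, cc (s' i).2 * v (N + h - i) ^ p ^ i :=
        Finset.sum_congr rfl fun i hi => by rw [hss' i (Finset.mem_range.1 hi)]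
      refine ⟨ha1, ?_, ?_⟩
      · rw [← hS]; exact ha2
      · rw [← hB, ← hA]; exact ha3)
  have hdiv : ∀ N, (p : WittVector p O) ∣ Bn N s - An N s := by
    intro N
    apply dvd_of_constantCoeff
    have hccA : ∀ i, WittVector.constantCoeff
        ((s i).2 * WittVector.teichmuller p (v (N - i)) ^ p ^ i) =
        cc (s i).2 * v (N - i) ^ p ^ i := by
      intro i
      rw [map_mul, map_pow, constantCoeff_teichmuller]
    rw [map_sub]
    change WittVector.constantCoeff (if h ≤ N then WittVector.frobenius^[h] (s (N - h)).1 else 0) -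
      WittVector.constantCoeff (∑ i ∈ range N, (s i).2 *
        WittVector.teichmuller p (v (N - i)) ^ p ^ i) = 0
    rw [map_sum, Finset.sum_congr rfl fun i _ => hccA i]
    rcases Nat.lt_or_ge N h with hN | hN
    · rw [if_neg (by omega), map_zero, Finset.sum_eq_zero, sub_zero]
      intro i hi
      have hi' := Finset.mem_range.1 hi
      rw [hv0 (N - i) (by omega) (by omega), zero_pow (pow_ne_zero _ hp.out.ne_zero), mul_zero]
    · obtain ⟨M, rfl⟩ : ∃ M, N = M + h := ⟨N - h, by omega⟩
      rw [if_pos hN, show M + h - h = M by omega, constantCoeff_frobenius_iter]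
      have h2 := (hs M).2.1
      have h3 : ∑ i ∈ range (M + h), cc (s i).2 * v (M + h - i) ^ p ^ i =
          ∑ i ∈ range (M + 1), cc (s i).2 * v (M + h - i) ^ p ^ i := by
        symm
        apply Finset.sum_subset
        · intro i hi; rw [Finset.mem_range] at hi ⊢; omega
        · intro i hi hi'
          rw [Finset.mem_range] at hi hi'
          rw [hv0 (M + h - i) (by omega) (by omega), zero_pow (pow_ne_zero _ hp.out.ne_zero),
            mul_zero]
      rw [h3, Finset.sum_range_succ, show M + h - M = h by omega]
      change cc (s M).1 ^ p ^ h - _ = 0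
      rw [h2]
      ring
  exact ⟨fun N => (s N).1, fun N => (s N).2, (hs 0).1 rfl, fun N => (hs N).2.2 (hdiv N)⟩

end Beta

end Chai
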