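import Vale.Agent.Chai.Setup
import Vale.Agent.Chai.BetaC

/-!
# P217 / Beta: trivialisation `β : F_x → Γ_h` of a height `h` formal group over `O_C`

OWNER: helper2 (done)

`O` a domain of char `p` in which every monic polynomial of positive degree has a root (so `O` is
perfect).  `x_j = 0` for `1 ≤ j < h`, `x_h ≠ 0`, `v = prm n x` (`v_n = 1`, `v_j = 0` for `j > n`).
CLAIM: there is `β ∈ O[[X]]`, a homomorphism from `F = hazF p v` to the Honda group `Γ_h` with
`β'(0) ≠ 0`.

PROOF.  `W = W(O)` (`WittVector p O`), Frobenius `φ`, `K = W[1/p]` (fraction field), `F_W = hazF p [v]`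
with Teichmüller parameters `[v_j] ∈ W`, reduction `F`.  `f_i := hlog p (j ↦ [v_j]^{p^i}) (X^{p^i})`
(`= φ^i_* f_0 (X^{p^i})`), so by `hlog_feq`
   (1)  `p f_i = p X^{p^i} + ∑_{j=h}^{n} [v_j]^{p^i} f_{i+j}`.
Construct `w, w' : ℕ → W` such that for all `N`
   (2)  `p w_N - φ^h(w_{N-h}) = p w'_N - ∑_{j=h}^{n} w'_{N-j} [v_j]^{p^{N-j}}`  (terms of negative index = 0).
Recursion: `D_N := (φ^h(w_{N-h}) - ∑_{j=h}^n w'_{N-j}[v_j^{p^{N-j}}]) / p` (`D_N = 0` for `N < h`),
`w'_N := w_N - D_N`, `w_N := [y]` where `y ∈ O` is a root of the monic polynomial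
   `Y^{p^h} - v_h^{p^N} (Y - D̄_N) - ∑_{j=h+1}^{n} w̄'_{N+h-j} v_j^{p^{N+h-j}} = 0`
(for `N = 0` take a nonzero root: `Y^{p^h} = v_h Y`, i.e. a root of `Y^{p^h - 1} = v_h`); this is exactly
the condition that the numerator of `D_{N+h}` is divisible by `p` (in `W(O)`, `O` perfect, an element is
divisible by `p` iff its reduction is `0`).
`G := ∑_i w_i f_i ∈ K[[X]]`.  By (1),(2): `p G - φ^h_*G(X^{p^h}) = p ∑ w'_N X^{p^N} ∈ p W[[X]]`
(`φ^h_* f_i (X^{p^h}) = f_{i+h}`).
By the functional equation lemma for `log_h = ∑ X^{p^{hi}}/p^i` (see Haz.lean, (1)), the series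
`β̂ = log_h^{-1}(G)` lies in `W[[X]]`.  `β := β̂ mod p`.  `β'(0) = w̄_0 ≠ 0`.
Homomorphism: `G(F_W(X,Y)) - G(X) - G(Y) = ∑ w_i (g_i(F_W(X,Y)^{p^i}) - g_i(F_W^{φ^i}(X^{p^i},Y^{p^i})))`
with `g_i = hlog([v]^{p^i})`, and the arguments are congruent mod `p`, so this is `≡ 0 mod p`
(`a ≡ b mod p ⇒ g(a) ≡ g(b) mod p`).  Finally `log_h(a) ≡ log_h(b) mod p ⇒ a ≡ b mod p` for integral
`a, b` (constant terms 0), applied to `a = β̂(F_W(X,Y))`, `b = Γ_h(β̂(X), β̂(Y))`.
-/

namespace Chai

open MvPowerSeries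

theorem Beta.prm_zero_eq {R : Type*} [Zero R] [One R] (h j : ℕ) (hj : 1 ≤ j) :
    prm h (0 : ℕ → R) j = if j = h then 1 else 0 := by
  unfold prm
  by_cases hjh : j = h
  · rw [if_neg (by omega), if_pos hjh]
  · rw [if_neg hjh, Pi.zero_apply, ite_self]

theorem exists_beta (p : ℕ) [Fact p.Prime] {O : Type*} [CommRing O] [IsDomain O] [CharP O p]
    (hroot : ∀ f : Polynomial O, f.Monic → f.natDegree ≠ 0 → ∃ a, f.eval a = 0)
    {h n : ℕ} (h1 : 1 ≤ h) (hn : h < n) (x : ℕ → O) (hx : ∀ j, 1 ≤ j → j < h → x j = 0)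
    (hxh : x h ≠ 0) :
    ∃ β : PowerSeries O, IsHom β (hazF p (prm n x)) (hazF p (prm h 0)) ∧
      PowerSeries.coeff 1 β ≠ 0 := by
  have hp : p.Prime := Fact.out
  have hE : ExpChar O p := ExpChar.prime hp
  have hP : PerfectRing O p := Beta.perfect_of_root hroot
  have hch : CharZero (WittVector p O) := Beta.charZero_witt
  let W := WittVector p O
  let K := FractionRing W
  have hinj : Function.Injective (algebraMap W K) := IsFractionRing.injective W K
  have hch2 : CharZero K := charZero_of_injective_algebraMap hinj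
  let cc : W →+* O := WittVector.constantCoeff
  have hfi : Function.Injective (WittVector.frobenius : W →+* W) :=
    (WittVector.frobenius_bijective p O).injective
  let σ : K →+* K := IsFractionRing.map hfi
  have hcomm : ∀ b : W, σ (algebraMap W K b) = algebraMap W K (WittVector.frobenius b) :=
    fun b => IsLocalization.map_eq _ b
  let V : ℕ → W := fun j => WittVector.teichmuller p (prm n x j)
  let D' : Fel.Data p W K := Fel.ofHaz p (algebraMap W K) hinj WittVector.frobenius σ hcomm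
    Beta.frob_lift V (fun j _ => Beta.frobenius_teichmuller _)
  let D : Fel.Data p W K := Fel.ofHaz p (algebraMap W K) hinj WittVector.frobenius σ hcomm
    Beta.frob_lift (prm h 0) (by
      intro j _
      simp only [prm]
      split_ifs
      · rw [Pi.zero_apply, map_zero, zero_pow hp.ne_zero]
      · rw [map_one, one_pow]
      · rw [map_zero, zero_pow hp.ne_zero])
  have hv0 : ∀ j, 1 ≤ j → j < h → prm n x j = 0 := by
    intro j hj hjh
    rw [prm, if_pos ⟨hj, by omega⟩, hx j hj hjh]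
  have hvh : prm n x h ≠ 0 := by
    rw [prm, if_pos ⟨h1, hn⟩]
    exact hxh
  obtain ⟨w, w', hw0, hw⟩ := Beta.exists_w hroot h1 (prm n x) hv0 hvh
  have hDv : ∀ j, 1 ≤ j → D.v j = if j = h then 1 else 0 := by
    intro j hj
    exact Beta.prm_zero_eq h j hj
  obtain ⟨β, hβ0, hβ1, hβ⟩ := D.exists_beta_int D' (w := w) (w' := w') (h := h) rfl rfl h1 hDv
    (fun j _ => Beta.frobenius_teichmuller _) hw
  -- the two formal groups over `W`
  have hF : (Fel.Lp p D'.m).subst ((hazF p V).toPowerSeries.map D'.ι) =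
      (Fel.Lp p D'.m).subst (X 0 : MvPowerSeries (Fin 2) K) +
      (Fel.Lp p D'.m).subst (X 1 : MvPowerSeries (Fin 2) K) := by
    have h := hlog_hazF p (fun j => algebraMap W K (V j))
    rw [← hazF_map, hlog_eq] at h
    exact h
  have hG : (Fel.Lp p D.m).subst ((hazF p (prm h (0 : ℕ → W))).toPowerSeries.map D.ι) =
      (Fel.Lp p D.m).subst (X 0 : MvPowerSeries (Fin 2) K) +
      (Fel.Lp p D.m).subst (X 1 : MvPowerSeries (Fin 2) K) := by
    have h := hlog_hazF p (fun j => algebraMap W K (prm h (0 : ℕ → W) j))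
    rw [← hazF_map, hlog_eq] at h
    exact h
  have hdvd := D.beta_hom D' rfl hβ0 hβ (FormalGroup.zero_constantCoeff _) hF
    (FormalGroup.zero_constantCoeff _) hG
  -- reduction
  have hFr : (hazF p V).map cc = hazF p (prm n x) := by
    rw [hazF_map]
    exact congrArg (hazF p) (funext fun j => Beta.constantCoeff_teichmuller _)
  have hGr : (hazF p (prm h (0 : ℕ → W))).map cc = hazF p (prm h 0) := by
    rw [hazF_map, map_prm]
  have hβr0 : PowerSeries.constantCoeff (PowerSeries.map cc β) = 0 := by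
    rw [← PowerSeries.coeff_zero_eq_constantCoeff_apply, PowerSeries.coeff_map,
      PowerSeries.coeff_zero_eq_constantCoeff_apply, hβ0, map_zero]
  refine ⟨PowerSeries.map cc β, ⟨hβr0, ?_⟩, ?_⟩
  · obtain ⟨g, hg⟩ := hdvd
    have hg2 := congrArg (MvPowerSeries.map cc) hg
    have hc : ∀ {a : MvPowerSeries (Fin 2) W}, constantCoeff a = 0 →
        constantCoeff (β.subst a) = 0 := fun ha =>
      PowerSeries.constantCoeff_subst_eq_zero ha _ hβ0
    have hX : ∀ i : Fin 2, constantCoeff (X i : MvPowerSeries (Fin 2) W) = 0 :=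
      fun i => constantCoeff_X _
    have hp0 : (p : MvPowerSeries (Fin 2) O) = 0 := by
      have : (p : MvPowerSeries (Fin 2) O) = MvPowerSeries.C (p : O) :=
        (map_natCast MvPowerSeries.C p).symm
      rw [this, CharP.cast_eq_zero, map_zero]
    rw [map_mul, map_natCast, hp0, zero_mul, map_sub,
      PowerSeries.map_subst (Fel.hasSubst0 (FormalGroup.zero_constantCoeff _)),
      Fel.map_subst_pair (hc (hX 0)) (hc (hX 1)),
      PowerSeries.map_subst (Fel.hasSubst0 (hX 0)), PowerSeries.map_subst (Fel.hasSubst0 (hX 1)),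
      map_X, map_X, sub_eq_zero] at hg2
    rw [← hFr, ← hGr]
    exact hg2
  · rw [PowerSeries.coeff_map, hβ1]
    exact hw0

variable (p : ℕ) [Fact p.Prime]
variable {C : Type*} [NontriviallyNormedField C] [IsUltrametricDist C] [CompleteSpace C]

variable (C) in
/-- the closed unit ball -/
def Beta.OC : Subring C where
  carrier := {x | ‖x‖ ≤ 1}
  mul_mem' {a b} ha hb := by
    simp only [Set.mem_ofPred_eq, norm_mul] at *
    exact mul_le_one₀ ha (norm_nonneg _) hb
  one_mem' := by simp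
  add_mem' {a b} ha hb := (IsUltrametricDist.norm_add_le_max a b).trans (max_le ha hb)
  zero_mem' := by simp
  neg_mem' {a} ha := by simpa using ha

omit [CompleteSpace C] in
theorem Beta.norm_root_le {P : Polynomial C} (hm : P.Monic) (hN : P.natDegree ≠ 0)
    (hl : ∀ i, ‖P.coeff i‖ ≤ 1) {z : C} (hz : P.eval z = 0) : ‖z‖ ≤ 1 := by
  by_contra hcon
  rw [not_le] at hcon
  have h1 := hz
  rw [Polynomial.eval_eq_sum_range, Finset.sum_range_succ, hm.coeff_natDegree, one_mul] at h1
  have h2 : ‖∑ i ∈ Finset.range P.natDegree, P.coeff i * z ^ i‖ < ‖z‖ ^ P.natDegree := by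
    have hne : (Finset.range P.natDegree).Nonempty := Finset.nonempty_range_iff.2 hN
    refine (hne.norm_sum_le_sup'_norm _).trans_lt ?_
    rw [Finset.sup'_lt_iff]
    intro i hi
    rw [Finset.mem_range] at hi
    rw [norm_mul, norm_pow]
    calc ‖P.coeff i‖ * ‖z‖ ^ i ≤ 1 * ‖z‖ ^ i :=
          mul_le_mul_of_nonneg_right (hl i) (pow_nonneg (norm_nonneg _) _)
      _ = ‖z‖ ^ i := one_mul _
      _ < ‖z‖ ^ P.natDegree := pow_lt_pow_right₀ hcon hi
  have h3 : z ^ P.natDegree = -∑ i ∈ Finset.range P.natDegree, P.coeff i * z ^ i := by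
    rw [eq_neg_iff_add_eq_zero, add_comm]
    exact h1
  have h4 : ‖z‖ ^ P.natDegree = ‖∑ i ∈ Finset.range P.natDegree, P.coeff i * z ^ i‖ := by
    rw [← norm_pow, h3, norm_neg]
  linarith

omit [CompleteSpace C] in
theorem Beta.exists_root_OC [IsAlgClosed C] (f : Polynomial (Beta.OC C)) (hf : f.Monic)
    (hN : f.natDegree ≠ 0) : ∃ a, f.eval a = 0 := by
  have hinj : Function.Injective (Beta.OC C).subtype := Subtype.coe_injective
  set g := f.map (Beta.OC C).subtype with hg
  have hgm : g.Monic := hf.map _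
  have hgN : g.natDegree ≠ 0 := by rwa [hg, hf.natDegree_map]
  obtain ⟨z, hz⟩ := IsAlgClosed.exists_root g (fun h0 => hgN (Polynomial.natDegree_eq_of_degree_eq_some h0))
  have hz1 : ‖z‖ ≤ 1 := Beta.norm_root_le hgm hgN (fun i => by
    rw [hg, Polynomial.coeff_map]
    exact (f.coeff i).2) hz
  refine ⟨⟨z, hz1⟩, hinj ?_⟩
  rw [map_zero, ← Polynomial.eval_map_apply]
  exact hz

theorem exists_beta_C [IsAlgClosed C] [CharP C p] {h n : ℕ} {x : Ball C} (hx : HasHeight h n x) :
    ∃ β : CHom (FC p n x) (FC p h 0), PowerSeries.coeff 1 β.ps ≠ 0 := by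
  have hinj : Function.Injective (Beta.OC C).subtype := Subtype.coe_injective
  have hch : CharP (Beta.OC C) p := (Beta.OC C).subtype.charP hinj p
  let x' : ℕ → Beta.OC C := fun j => ⟨x.1 j, (x.2 j).le⟩
  obtain ⟨β, hβ, hβ1⟩ := exists_beta p (fun f => Beta.exists_root_OC f) hx.one_le hx.lt x'
    (fun j hj hjh => Subtype.ext (hx.zero j hj hjh)) (fun h0 => hx.ne (congrArg Subtype.val h0))
  have hmap := hβ.map (Beta.OC C).subtype
  have e1 : (hazF p (prm n x')).map (Beta.OC C).subtype = (FC p n x).toFormalGroup := by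
    rw [hazF_map]
    change _ = hazF p (prm n x.1)
    congr 1
    funext j
    simp only [prm]
    split_ifs
    · rfl
    · exact map_one _
    · exact map_zero _
  have e2 : (hazF p (prm h (0 : ℕ → Beta.OC C))).map (Beta.OC C).subtype =
      (FC p h (0 : Ball C)).toFormalGroup := by
    rw [hazF_map, map_prm]
    rfl
  rw [e1, e2] at hmap
  refine ⟨⟨PowerSeries.map (Beta.OC C).subtype β, ?_, hmap⟩, ?_⟩
  · intro d
    change ‖MvPowerSeries.coeff d (MvPowerSeries.map (Beta.OC C).subtype β)‖ ≤ 1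
    rw [MvPowerSeries.coeff_map]
    exact (MvPowerSeries.coeff d β).2
  · change PowerSeries.coeff 1 (PowerSeries.map (Beta.OC C).subtype β) ≠ 0
    rw [PowerSeries.coeff_map]
    intro h0
    exact hβ1 (hinj (by rw [h0, map_zero]))

end Chai
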