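import Vale.Agent.Chai.Haz

/-!
# P217 / BetaA: abstract construction of homomorphisms to the Honda group

OWNER: helper2

`D'` is functional equation data for `F`, `D` the data of the Honda group of height `h` (same ring,
same Frobenius lift).  Given `w, w'` with
`p w_N - σ^h(w_{N-h}) = p w'_N - ∑_{i<N} w'_i v_{N-i}^{p^i}` there is `β` with
`log_h(β) = ∑_i w_i (σ^i log_F)(X^{p^i})`, a homomorphism mod `p`.
-/

namespace Chai

namespace Fel

open MvPowerSeries Finset

variable {p : ℕ} [hp : Fact p.Prime] {B K : Type*} [CommRing B] [CommRing K] {τ : Type*}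

theorem coeff_Lp_subst_le_one {m : ℕ → K} (hm : m 0 = 1) {a : MvPowerSeries τ K}
    (ha : constantCoeff a = 0) {e : τ →₀ ℕ} (he : e.degree ≤ 1) :
    coeff e ((Lp p m).subst a) = coeff e a := by
  have hag : Agree 1 a (0 : MvPowerSeries τ K) := by
    intro e he
    rw [(Finsupp.degree_eq_zero_iff _).1 (by omega : e.degree = 0),
      coeff_zero_eq_constantCoeff_apply, ha, coeff_zero]
  have h1 := coeff_Lp_subst_sub (p := p) hm ha (map_zero _) hag he
  have h2 : coeff e ((Lp p m).subst (0 : MvPowerSeries τ K)) = 0 := by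
    rw [coeff_Lp_subst _ (map_zero _) _ _ le_rfl]
    apply Finset.sum_eq_zero
    intro k _
    rw [zero_pow (pow_ne_zero k hp.out.ne_zero), coeff_zero, mul_zero]
  rwa [h2, sub_zero, coeff_zero, sub_zero] at h1

theorem E_iter_X (σ : K →+* K) (s : τ) (j : ℕ) :
    (E p σ)^[j] (X s : MvPowerSeries τ K) = X s ^ p ^ j := by
  induction j with
  | zero => simp
  | succ j ih =>
    rw [Function.iterate_succ_apply', ih, map_pow, E_apply, map_X, expand_X, ← pow_mul,
      _root_.pow_succ']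

theorem E_iter_add (σ : K →+* K) (a b : MvPowerSeries τ K) (j : ℕ) :
    (E p σ)^[j] (a + b) = (E p σ)^[j] a + (E p σ)^[j] b := iterate_map_add _ _ _ _

namespace Data

variable (S : Data p B K)

omit hp in
theorem σ_iter_v (hv : ∀ j, 1 ≤ j → S.σB (S.v j) = S.v j ^ p) {j : ℕ} (hj : 1 ≤ j) (i : ℕ) :
    S.σ^[i] (S.ι (S.v j)) = S.ι (S.v j) ^ p ^ i := by
  induction i with
  | zero => simp
  | succ i ih =>
    rw [Function.iterate_succ_apply', ih, map_pow, S.comm, hv j hj, map_pow, ← pow_mul,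
      pow_succ' p i]

omit hp in
theorem σ_iter_sum {α : Type*} (s : Finset α) (f : α → K) (i : ℕ) :
    S.σ^[i] (∑ x ∈ s, f x) = ∑ x ∈ s, S.σ^[i] (f x) := by
  induction i with
  | zero => rfl
  | succ i ih => simp only [Function.iterate_succ_apply', ih, map_sum]

omit hp in
theorem σ_iter_one (i : ℕ) : S.σ^[i] (1 : K) = 1 := by
  have := S.σ_iter_natCast 1 i
  rwa [Nat.cast_one] at this

omit hp in
theorem m_succ_iter (hv : ∀ j, 1 ≤ j → S.σB (S.v j) = S.v j ^ p) (i k : ℕ) :
    (p : K) * S.σ^[i] (S.m (k + 1)) = ∑ j ∈ range (k + 1), S.ι (S.v (j + 1)) ^ p ^ i *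
      S.σ^[i + j + 1] (S.m (k - j)) := by
  rw [← S.σ_iter_natCast p i, ← S.σ_iter_mul, S.m_succ, S.σ_iter_sum]
  refine Finset.sum_congr rfl fun j _ => ?_
  rw [S.σ_iter_mul, S.σ_iter_v hv (by omega), ← Function.iterate_add_apply]
  rfl

/-- the sequence `g_t = ∑_{i ≤ t} w_i σ^i(m_{t-i})` -/
noncomputable def gseq (w : ℕ → B) (t : ℕ) : K :=
  ∑ i ∈ range (t + 1), S.ι (w i) * S.σ^[i] (S.m (t - i))

variable {w w' : ℕ → B} {h : ℕ}

omit hp in
theorem gseq_eq (hv : ∀ j, 1 ≤ j → S.σB (S.v j) = S.v j ^ p)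
    (hw : ∀ N, (p : B) * w N - (if h ≤ N then S.σB^[h] (w (N - h)) else 0) =
      p * w' N - ∑ i ∈ range N, w' i * S.v (N - i) ^ p ^ i) (t : ℕ) :
    (p : K) * S.gseq w t - (if h ≤ t then S.σ^[h] (S.gseq w (t - h)) else 0) =
      p * S.ι (w' t) := by
  have h1 : ∑ l ∈ range (t + 1), S.ι ((p : B) * w l -
      (if h ≤ l then S.σB^[h] (w (l - h)) else 0)) * S.σ^[l] (S.m (t - l)) =
      (p : K) * S.gseq w t - (if h ≤ t then S.σ^[h] (S.gseq w (t - h)) else 0) := by
    simp only [map_sub, sub_mul]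
    rw [Finset.sum_sub_distrib]
    congr 1
    · rw [gseq, Finset.mul_sum]
      refine Finset.sum_congr rfl fun l _ => ?_
      rw [map_mul, map_natCast, mul_assoc]
    · split_ifs with ht
      · have e : t + 1 = h + (t - h + 1) := by omega
        rw [e, Finset.sum_range_add, Finset.sum_eq_zero, zero_add, gseq, S.σ_iter_sum]
        · refine Finset.sum_congr rfl fun i hi => ?_
          have hi' := Finset.mem_range.1 hi
          rw [if_pos (by omega), S.σ_iter_mul, ← Function.iterate_add_apply,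
            show h + i - h = i by omega, show t - (h + i) = t - h - i by omega, S.σ_iter_ι]
        · intro i hi
          have hi' := Finset.mem_range.1 hi
          rw [if_neg (by omega), map_zero, zero_mul]
      · apply Finset.sum_eq_zero
        intro l hl
        have hl' := Finset.mem_range.1 hl
        rw [if_neg (by omega), map_zero, zero_mul]
  have h2 : ∑ l ∈ range (t + 1), S.ι ((p : B) * w' l - ∑ i ∈ range l, w' i * S.v (l - i) ^ p ^ i) *
      S.σ^[l] (S.m (t - l)) = p * S.ι (w' t) := by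
    simp only [map_sub, sub_mul]
    rw [Finset.sum_sub_distrib, Finset.sum_range_succ, Finset.sum_range_succ']
    have e1 : ∑ l ∈ range t, S.ι ((p : B) * w' l) * S.σ^[l] (S.m (t - l)) =
        ∑ l ∈ range t, ∑ j ∈ range (t - l), S.ι (w' l) * S.ι (S.v (j + 1)) ^ p ^ l *
          S.σ^[l + j + 1] (S.m (t - (l + j) - 1)) := by
      refine Finset.sum_congr rfl fun l hl => ?_
      have hl' := Finset.mem_range.1 hl
      obtain ⟨k, hk⟩ : ∃ k, t - l = k + 1 := ⟨t - l - 1, by omega⟩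
      rw [map_mul, map_natCast, mul_comm (p : K), mul_assoc, hk, S.m_succ_iter hv, Finset.mul_sum]
      refine Finset.sum_congr rfl fun j hj => ?_
      rw [mul_assoc, show t - (l + j) - 1 = k - j by omega]
    have e2 : ∑ l ∈ range t, S.ι (∑ i ∈ range (l + 1), w' i * S.v (l + 1 - i) ^ p ^ i) *
        S.σ^[l + 1] (S.m (t - (l + 1))) =
        ∑ l ∈ range t, ∑ i ∈ range (l + 1), S.ι (w' i) * S.ι (S.v (l - i + 1)) ^ p ^ i *
          S.σ^[i + (l - i) + 1] (S.m (t - (i + (l - i)) - 1)) := by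
      refine Finset.sum_congr rfl fun l hl => ?_
      rw [map_sum, Finset.sum_mul]
      refine Finset.sum_congr rfl fun i hi => ?_
      have hi' := Finset.mem_range.1 hi
      rw [map_mul, map_pow, show l + 1 - i = l - i + 1 by omega, show i + (l - i) = l by omega,
        show t - (l + 1) = t - l - 1 by omega]
    rw [e1, e2, Finset.sum_range_diag_flip t (fun i j => S.ι (w' i) * S.ι (S.v (j + 1)) ^ p ^ i *
          S.σ^[i + j + 1] (S.m (t - (i + j) - 1))), Finset.sum_range_zero, map_zero, zero_mul,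
      add_zero, Nat.sub_self, S.m_zero, S.σ_iter_one, mul_one, add_sub_cancel_left, map_mul,
      map_natCast]
  rw [← h1, ← h2]
  refine Finset.sum_congr rfl fun l _ => ?_
  rw [hw]

theorem coeff_gseq_subst (w : ℕ → B) {Z : MvPowerSeries τ K} (hZ : constantCoeff Z = 0)
    (e : τ →₀ ℕ) (N : ℕ) (hN : e.degree ≤ N) :
    coeff e ((Lp p (S.gseq w)).subst Z) = ∑ i ∈ range (N + 1), S.ι (w i) *
      coeff e ((Lp p (fun k => S.σ^[i] (S.m k))).subst (Z ^ p ^ i)) := by
  rw [coeff_Lp_subst _ hZ e N hN]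
  have h1 : ∀ t ∈ range (N + 1), S.gseq w t * coeff e (Z ^ p ^ t) =
      ∑ i ∈ range (t + 1), S.ι (w i) * (S.σ^[i] (S.m (t - i)) *
        coeff e ((Z ^ p ^ i) ^ p ^ (t - i))) := by
    intro t _
    rw [gseq, Finset.sum_mul]
    refine Finset.sum_congr rfl fun i hi => ?_
    have hi' := Finset.mem_range.1 hi
    rw [← pow_mul, ← pow_add, show i + (t - i) = t by omega, mul_assoc]
  rw [Finset.sum_congr rfl h1, Finset.sum_range_diag_flip (N + 1) (fun i k =>
    S.ι (w i) * (S.σ^[i] (S.m k) * coeff e ((Z ^ p ^ i) ^ p ^ k)))]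
  refine Finset.sum_congr rfl fun i _ => ?_
  rw [coeff_Lp_subst _ (constantCoeff_pow0 hZ (pow_ne_zero _ hp.out.ne_zero)) e N hN,
    ← Finset.mul_sum]
  congr 1
  refine Finset.sum_subset (fun l hl => ?_) (fun l hl hl' => ?_)
  · rw [Finset.mem_range] at hl ⊢; omega
  · rw [← pow_mul, ← pow_add, coeff_pow_eq_zero hZ, mul_zero]
    have : i + l < p ^ (i + l) := Nat.lt_pow_self hp.out.one_lt
    rw [Finset.mem_range] at hl hl'
    omega

/-- the congruence `ℓ_i(F^{p^i}) ≡ ℓ_i(X^{p^i}) + ℓ_i(Y^{p^i})` -/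
theorem gseq_add {F : MvPowerSeries (Fin 2) B} (hF0 : constantCoeff F = 0)
    (hF : (Lp p S.m).subst (F.map S.ι) = (Lp p S.m).subst (X 0 : MvPowerSeries (Fin 2) K) +
      (Lp p S.m).subst (X 1 : MvPowerSeries (Fin 2) K)) (e : Fin 2 →₀ ℕ) :
    ∃ c : B, coeff e ((Lp p (S.gseq w)).subst (F.map S.ι)) -
      (coeff e ((Lp p (S.gseq w)).subst (X 0 : MvPowerSeries (Fin 2) K)) +
        coeff e ((Lp p (S.gseq w)).subst (X 1 : MvPowerSeries (Fin 2) K))) = p * S.ι c := by
  have hF0' : constantCoeff (F.map S.ι) = 0 := by rw [constantCoeff_map, hF0, map_zero]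
  have hX0 : constantCoeff (X 0 : MvPowerSeries (Fin 2) K) = 0 := constantCoeff_X _
  have hX1 : constantCoeff (X 1 : MvPowerSeries (Fin 2) K) = 0 := constantCoeff_X _
  have key : ∀ i, ∃ c : B, coeff e ((Lp p (fun k => S.σ^[i] (S.m k))).subst
      ((F.map S.ι) ^ p ^ i)) - (coeff e ((Lp p (fun k => S.σ^[i] (S.m k))).subst
        ((X 0 : MvPowerSeries (Fin 2) K) ^ p ^ i)) +
      coeff e ((Lp p (fun k => S.σ^[i] (S.m k))).subst
        ((X 1 : MvPowerSeries (Fin 2) K) ^ p ^ i))) = p * S.ι c := by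
    intro i
    obtain ⟨c, hc⟩ := S.Lp_congr (S.isInt_iter S.isInt_m i)
      (constantCoeff_pow0 hF0 (pow_ne_zero i hp.out.ne_zero))
      (constantCoeff_E_iter S.σB hF0 i) (by
        have := E_iter_congr S.σB S.frob F i
        rw [← neg_sub, dvd_neg]
        exact this) e
    refine ⟨c, ?_⟩
    rw [← hc, map_pow, map_E_iter S.ι S.σB S.σ S.comm, ← E_iter_Lp_subst S.σ _ hF0', hF,
      E_iter_add, E_iter_Lp_subst S.σ _ hX0, E_iter_Lp_subst S.σ _ hX1, E_iter_X, E_iter_X,
      map_add]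
  choose c hc using key
  refine ⟨∑ i ∈ range (e.degree + 1), w i * c i, ?_⟩
  rw [S.coeff_gseq_subst w hF0' e _ le_rfl, S.coeff_gseq_subst w hX0 e _ le_rfl,
    S.coeff_gseq_subst w hX1 e _ le_rfl, ← Finset.sum_add_distrib, ← Finset.sum_sub_distrib,
    map_sum, Finset.mul_sum]
  refine Finset.sum_congr rfl fun i _ => ?_
  rw [← mul_add, ← mul_sub, hc i, map_mul]
  ring

end Data

end Fel

end Chai
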