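import Vale.Agent.Chai.BetaA

/-!
# P217 / BetaB: the integral series `β` and the homomorphism congruence

OWNER: helper2
-/

namespace Chai

namespace Fel

open MvPowerSeries Finset

variable {p : ℕ} [hp : Fact p.Prime] {B K : Type*} [CommRing B] [CommRing K]

theorem coeff_unit (G : PowerSeries K) (e : Unit →₀ ℕ) :
    MvPowerSeries.coeff e G = PowerSeries.coeff (e ()) G := by
  have : e = Finsupp.single () (e ()) := Finsupp.ext fun i => by simp
  change MvPowerSeries.coeff e G = MvPowerSeries.coeff (Finsupp.single () (e ())) G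
  rw [← this]

theorem subst_X_self (f : PowerSeries K) : f.subst (PowerSeries.X : PowerSeries K) = f := by
  have := MvPowerSeries.subst_self (R := K) (σ := Unit)
  exact congrFun this f

namespace Data

variable (D S : Data p B K) {w w' : ℕ → B} {h : ℕ}

theorem exists_beta_int (hι : D.ι = S.ι) (hσ : D.σ = S.σ) (hh : 1 ≤ h)
    (hDv : ∀ j, 1 ≤ j → D.v j = if j = h then 1 else 0)
    (hv : ∀ j, 1 ≤ j → S.σB (S.v j) = S.v j ^ p)
    (hw : ∀ N, (p : B) * w N - (if h ≤ N then S.σB^[h] (w (N - h)) else 0) =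
      p * w' N - ∑ i ∈ range N, w' i * S.v (N - i) ^ p ^ i) :
    ∃ β : PowerSeries B, PowerSeries.constantCoeff β = 0 ∧ PowerSeries.coeff 1 β = w 0 ∧
      (Lp p D.m).subst (MvPowerSeries.map (σ := Unit) D.ι β) = Lp p (S.gseq w) := by
  have hcong : ∀ e : Unit →₀ ℕ, ∃ N, e.degree ≤ N ∧ D.Cong (Lp p (S.gseq w)) e N := by
    intro e
    refine ⟨max e.degree h, le_max_left _ _, ?_⟩
    have hX0 : constantCoeff (PowerSeries.X : PowerSeries K) = 0 := PowerSeries.constantCoeff_X
    have h1 : ∑ j ∈ range (max e.degree h), D.ι (D.v (j + 1)) *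
        MvPowerSeries.coeff e ((E p D.σ)^[j + 1] (Lp p (S.gseq w))) =
        MvPowerSeries.coeff e ((E p D.σ)^[h] (Lp p (S.gseq w))) := by
      rw [Finset.sum_eq_single (h - 1)]
      · rw [show h - 1 + 1 = h by omega, hDv h hh, if_pos rfl, map_one, one_mul]
      · intro j _ hj
        rw [hDv (j + 1) (by omega), if_neg (by omega), map_zero, zero_mul]
      · intro hj
        exfalso
        apply hj
        rw [Finset.mem_range]
        have := le_max_right e.degree h
        omega
    have h2 : (E p D.σ)^[h] (Lp p (S.gseq w)) =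
        (Lp p (fun k => D.σ^[h] (S.gseq w k))).subst (PowerSeries.C (1 : K) *
          (PowerSeries.X : PowerSeries K) ^ p ^ h) := by
      have e1 := E_iter_Lp_subst (p := p) D.σ (S.gseq w) hX0 h
      rw [subst_X_self] at e1
      have e2 : (E p D.σ)^[h] (PowerSeries.X : PowerSeries K) =
          (PowerSeries.X : PowerSeries K) ^ p ^ h := E_iter_X D.σ () h
      rw [e2] at e1
      rw [← X_pow_eq]
      exact e1
    unfold Cong
    rw [h1, h2, coeff_unit, coeff_unit]
    by_cases hi : ∃ t, e () = p ^ t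
    · obtain ⟨t, ht⟩ := hi
      refine ⟨w' t, ?_⟩
      rw [ht, coeff_Lp_pow, coeff_Lp_subst_CX_pow, one_pow, mul_one, hι, hσ]
      exact S.gseq_eq hv hw t
    · push Not at hi
      refine ⟨0, ?_⟩
      rw [coeff_Lp_of_ne _ hi, coeff_Lp_subst_CX_ne _ _ _ hi]
      simp
  have hG0 : MvPowerSeries.constantCoeff (Lp p (S.gseq w)) = 0 := constantCoeff_Lp _
  obtain ⟨β, hβ0, hβ⟩ := D.exists_int hG0 hcong
  refine ⟨β, hβ0, ?_, hβ⟩
  apply D.inj
  have hβ0' : MvPowerSeries.constantCoeff (MvPowerSeries.map (σ := Unit) D.ι β) = 0 := by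
    rw [constantCoeff_map, hβ0, map_zero]
  have h1 := coeff_Lp_subst_le_one (p := p) D.m_zero hβ0' (e := Finsupp.single () 1) (by simp)
  rw [hβ, coeff_map] at h1
  have h2 : MvPowerSeries.coeff (Finsupp.single () 1) (Lp p (S.gseq w)) = S.gseq w 0 := by
    have := coeff_Lp_pow (p := p) (S.gseq w) 0
    rw [pow_zero] at this
    exact this
  rw [h2] at h1
  refine h1.symm.trans ?_
  rw [gseq, zero_add, Finset.sum_range_one, Nat.sub_zero, S.m_zero, S.σ_iter_one, mul_one, hι]

theorem beta_hom (hι : D.ι = S.ι) {β : PowerSeries B} (hβ0 : PowerSeries.constantCoeff β = 0)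
    (hβ : (Lp p D.m).subst (MvPowerSeries.map (σ := Unit) D.ι β) = Lp p (S.gseq w))
    {F G : MvPowerSeries (Fin 2) B} (hF0 : constantCoeff F = 0)
    (hF : (Lp p S.m).subst (F.map S.ι) = (Lp p S.m).subst (X 0 : MvPowerSeries (Fin 2) K) +
      (Lp p S.m).subst (X 1 : MvPowerSeries (Fin 2) K)) (hG0 : constantCoeff G = 0)
    (hG : (Lp p D.m).subst (G.map D.ι) = (Lp p D.m).subst (X 0 : MvPowerSeries (Fin 2) K) +
      (Lp p D.m).subst (X 1 : MvPowerSeries (Fin 2) K)) :
    (p : MvPowerSeries (Fin 2) B) ∣ β.subst F -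
      G.subst ![β.subst (X 0 : MvPowerSeries (Fin 2) B), β.subst (X 1 : MvPowerSeries (Fin 2) B)]
    := by
  have hβ0' : MvPowerSeries.constantCoeff (MvPowerSeries.map (σ := Unit) D.ι β) = 0 := by
    rw [constantCoeff_map]
    exact (congrArg D.ι hβ0).trans (map_zero _)
  have hc : ∀ {a : MvPowerSeries (Fin 2) B}, constantCoeff a = 0 →
      constantCoeff (β.subst a) = 0 := fun ha =>
    PowerSeries.constantCoeff_subst_eq_zero ha _ hβ0
  have hX : ∀ i : Fin 2, constantCoeff (X i : MvPowerSeries (Fin 2) B) = 0 :=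
    fun i => constantCoeff_X _
  have key : ∀ {a : MvPowerSeries (Fin 2) B}, constantCoeff a = 0 →
      (Lp p D.m).subst ((β.subst a).map D.ι) = (Lp p (S.gseq w)).subst (a.map D.ι) := by
    intro a ha
    have ha' : constantCoeff (a.map D.ι) = 0 := by rw [constantCoeff_map, ha, map_zero]
    rw [PowerSeries.map_subst (hasSubst0 ha), ← hβ]
    exact (PowerSeries.subst_comp_subst_apply (hasSubst0 hβ0') (hasSubst0 ha') _).symm
  apply D.dvd_of_log (hc hF0) (constantCoeff_subst_pair hG0 (hc (hX 0)) (hc (hX 1)))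
  intro e
  obtain ⟨c, hc'⟩ := S.gseq_add (w := w) hF0 hF e
  refine ⟨c, ?_⟩
  rw [D.log_pair hG0 hG (hc (hX 0)) (hc (hX 1)), key hF0, key (hX 0), key (hX 1), map_X, map_X,
    map_add, hι]
  exact hc'

end Data

end Fel

end Chai
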