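import Vale.Agent.Chai.Setup

/-!
# P217 / Char0A: logarithms over a complete field of mixed characteristic `(0,p)`

OWNER: helper10 (done)

`C` complete ultrametric, char `0`, `‖p‖ < 1`.  `hlog p v = ∑_k m_k X^{p^k}`, `m_k = mC p v k`.

PROOFS.
* recursion: evaluate the definition of `hazM` (reindex `j ↦ k - j`; only `1 ≤ j ≤ n` contribute).
* `‖m_k‖ ≤ ‖p‖^{-k}`: induction with the recursion.
* `hlog_congr`: if `a ≡ b` modulo `δ ≤ 1` then `a^p ≡ b^p` modulo `max (δ^p) (‖p‖ δ)`; hence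
  `a^{p^k} ≡ b^{p^k}` modulo `K ‖p‖^k`.
-/

namespace Chai

open MvPowerSeries Filter Topology

section Bd

variable {C : Type*} [NontriviallyNormedField C] [IsUltrametricDist C]
variable {σ τ : Type*}

/-- bounded coefficients -/
def IsBd (f : MvPowerSeries σ C) : Prop := ∃ K : ℝ, ∀ d, ‖coeff d f‖ ≤ K

omit [IsUltrametricDist C] in
theorem IsBd.zero : IsBd (0 : MvPowerSeries σ C) := ⟨0, fun d => by simp⟩

omit [IsUltrametricDist C] in
theorem Bdd.isBd {f : MvPowerSeries σ C} (hf : Bdd f) : IsBd f := ⟨1, hf⟩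

theorem IsBd.add {f g : MvPowerSeries σ C} (hf : IsBd f) (hg : IsBd g) : IsBd (f + g) := by
  obtain ⟨K, hK⟩ := hf
  obtain ⟨L, hL⟩ := hg
  refine ⟨max K L, fun d => ?_⟩
  rw [map_add]
  exact (IsUltrametricDist.norm_add_le_max _ _).trans (max_le_max (hK d) (hL d))

omit [IsUltrametricDist C] in
theorem IsBd.neg {f : MvPowerSeries σ C} (hf : IsBd f) : IsBd (-f) := by
  obtain ⟨K, hK⟩ := hf
  refine ⟨K, fun d => ?_⟩
  rw [map_neg, norm_neg]
  exact hK d

theorem IsBd.sub {f g : MvPowerSeries σ C} (hf : IsBd f) (hg : IsBd g) : IsBd (f - g) := by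
  rw [sub_eq_add_neg]
  exact hf.add hg.neg

omit [IsUltrametricDist C] in
theorem IsBd.smul {f : MvPowerSeries σ C} (hf : IsBd f) (c : C) : IsBd (c • f) := by
  obtain ⟨K, hK⟩ := hf
  refine ⟨‖c‖ * K, fun d => ?_⟩
  rw [coeff_smul, norm_mul]
  exact mul_le_mul_of_nonneg_left (hK d) (norm_nonneg _)

theorem IsBd.sum {ι : Type*} (s : Finset ι) {f : ι → MvPowerSeries σ C} (hf : ∀ i ∈ s, IsBd (f i)) :
    IsBd (∑ i ∈ s, f i) := by
  classical
  induction s using Finset.induction_on with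
  | empty => simpa using IsBd.zero
  | insert i s hi ih =>
    rw [Finset.sum_insert hi]
    exact (hf i (Finset.mem_insert_self i s)).add
      (ih fun j hj => hf j (Finset.mem_insert_of_mem hj))

/-- coefficients bounded by `r` -/
def BddBy (r : ℝ) (f : MvPowerSeries σ C) : Prop := ∀ d, ‖coeff d f‖ ≤ r

theorem BddBy.add {r : ℝ} {f g : MvPowerSeries σ C} (hf : BddBy r f) (hg : BddBy r g) :
    BddBy r (f + g) := fun d => by
  rw [map_add]
  exact (IsUltrametricDist.norm_add_le_max _ _).trans (max_le (hf d) (hg d))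

omit [IsUltrametricDist C] in
theorem BddBy.mono {r s : ℝ} {f : MvPowerSeries σ C} (hf : BddBy r f) (h : r ≤ s) : BddBy s f :=
  fun d => (hf d).trans h

theorem BddBy.mul {r s : ℝ} {f g : MvPowerSeries σ C} (hf : BddBy r f) (hg : BddBy s g) :
    BddBy (r * s) (f * g) := fun d => by
  classical
  have hr : 0 ≤ r := (norm_nonneg _).trans (hf 0)
  have hs : 0 ≤ s := (norm_nonneg _).trans (hg 0)
  rw [coeff_mul]
  refine IsUltrametricDist.norm_sum_le_of_forall_le_of_nonneg (mul_nonneg hr hs) fun x _ => ?_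
  rw [norm_mul]
  exact mul_le_mul (hf _) (hg _) (norm_nonneg _) hr

omit [IsUltrametricDist C] in
theorem bddBy_one : BddBy 1 (1 : MvPowerSeries σ C) := fun d => by
  classical
  rw [coeff_one]
  split_ifs
  · exact norm_one.le
  · rw [norm_zero]; exact zero_le_one

theorem BddBy.pow {r : ℝ} {f : MvPowerSeries σ C} (hf : BddBy r f) (n : ℕ) :
    BddBy (r ^ n) (f ^ n) := by
  induction n with
  | zero =>
    rw [pow_zero, pow_zero]
    exact bddBy_one
  | succ n ih =>
    rw [pow_succ, pow_succ]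
    exact ih.mul hf

theorem bdd_pow' {f : MvPowerSeries σ C} (hf : Bdd f) (n : ℕ) : Bdd (f ^ n) := by
  have := BddBy.pow (r := 1) hf n
  rwa [one_pow] at this

theorem IsBd.subst {f : PowerSeries C} {a : MvPowerSeries σ C} (hf : IsBd f) (ha : Bdd a)
    (h0 : constantCoeff a = 0) : IsBd (f.subst a) := by
  obtain ⟨K, hK⟩ := hf
  have hK0 : 0 ≤ K := (norm_nonneg _).trans (hK 0)
  refine ⟨K, fun d => ?_⟩
  rw [PowerSeries.coeff_subst (PowerSeries.HasSubst.of_constantCoeff_zero h0)]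
  have hfin : (Function.support fun i => PowerSeries.coeff i f • coeff d (a ^ i)).Finite := by
    refine (Set.finite_Iic d.degree).subset fun i hi => ?_
    by_contra hlt
    rw [Set.mem_Iic, not_le] at hlt
    exact hi (by dsimp only; rw [Fel.coeff_pow_eq_zero h0 hlt, smul_zero])
  rw [finsum_eq_sum _ hfin]
  refine IsUltrametricDist.norm_sum_le_of_forall_le_of_nonneg hK0 fun i _ => ?_
  rw [smul_eq_mul, norm_mul]
  calc ‖PowerSeries.coeff i f‖ * ‖coeff d (a ^ i)‖ ≤ K * 1 :=
        mul_le_mul (hK _) (bdd_pow' ha i d) (norm_nonneg _) hK0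
    _ = K := mul_one K

end Bd

section Congr

variable {C : Type*} [NontriviallyNormedField C] [IsUltrametricDist C]
variable {σ : Type*}

theorem BddBy.sum {ι : Type*} (s : Finset ι) {r : ℝ} (hr : 0 ≤ r) {f : ι → MvPowerSeries σ C}
    (hf : ∀ i ∈ s, BddBy r (f i)) : BddBy r (∑ i ∈ s, f i) := fun d => by
  rw [map_sum]
  exact IsUltrametricDist.norm_sum_le_of_forall_le_of_nonneg hr fun i hi => hf i hi d

omit [IsUltrametricDist C] in
theorem bddBy_natCast (n : ℕ) : BddBy ‖(n : C)‖ (n : MvPowerSeries σ C) := fun d => by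
  classical
  have h : (n : MvPowerSeries σ C) = MvPowerSeries.C (n : C) := by simp
  rw [h, coeff_C]
  split_ifs
  · exact le_rfl
  · rw [norm_zero]; exact norm_nonneg _

theorem bdd_natCast (n : ℕ) : Bdd (n : MvPowerSeries σ C) := fun d =>
  (bddBy_natCast n d).trans (by exact_mod_cast IsUltrametricDist.norm_natCast_le_one C n)

/-- `a ≡ b` modulo `δ` implies `a^p ≡ b^p` modulo `max (δ^p) (‖p‖ δ)` -/
theorem bddBy_pow_prime_sub (p : ℕ) [Fact p.Prime] {a b : MvPowerSeries σ C} (ha : Bdd a)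
    (hb : Bdd b) {δ : ℝ} (h : BddBy δ (a - b)) :
    BddBy (max (δ ^ p) (‖(p : C)‖ * δ)) (a ^ p - b ^ p) := by
  have hδ : 0 ≤ δ := (norm_nonneg _).trans (h 0)
  have e1 : a ^ p - b ^ p = (a - b) ^ p + (p : MvPowerSeries σ C) * (b * (a - b) *
      ∑ k ∈ Finset.Ioo 0 p, b ^ (k - 1) * (a - b) ^ (p - k - 1) * ((p.choose k / p : ℕ) :
        MvPowerSeries σ C)) := by
    have := add_pow_prime_eq (Fact.out : p.Prime) b (a - b)
    rw [add_sub_cancel] at this
    rw [this, add_assoc, add_sub_cancel_left, mul_assoc, mul_assoc, mul_assoc]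
  have h1 : BddBy 1 (a - b) := fun d => by
    rw [map_sub, sub_eq_add_neg]
    exact (IsUltrametricDist.norm_add_le_max _ _).trans
      (max_le (ha d) ((norm_neg _).le.trans (hb d)))
  rw [e1]
  refine ((h.pow p).mono (le_max_left _ _)).add (BddBy.mono ?_ (le_max_right _ _))
  refine (bddBy_natCast p).mul ?_
  have h2 : BddBy (1 * δ * 1) (b * (a - b) *
      ∑ k ∈ Finset.Ioo 0 p, b ^ (k - 1) * (a - b) ^ (p - k - 1) * ((p.choose k / p : ℕ) :
        MvPowerSeries σ C)) := by
    refine (BddBy.mul hb h).mul (BddBy.sum _ zero_le_one fun k _ => ?_)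
    have h3 : BddBy (1 * 1 * 1) (b ^ (k - 1) * (a - b) ^ (p - k - 1) * ((p.choose k / p : ℕ) :
        MvPowerSeries σ C)) :=
      ((BddBy.mul (bdd_pow' hb _) (bdd_pow' h1 _)).mul (bdd_natCast _))
    simpa using h3
  simpa using h2

/-- `a^{p^k} ≡ b^{p^k}` modulo `K ‖p‖^k` -/
theorem exists_bddBy_pow_sub (p : ℕ) [Fact p.Prime] [CharZero C] (hp : ‖(p : C)‖ < 1)
    {a b : MvPowerSeries σ C} (ha : Bdd a) (hb : Bdd b) {ρ : ℝ} (hρ : ρ < 1)
    (h : BddBy ρ (a - b)) :
    ∃ K : ℝ, 0 ≤ K ∧ ∀ k : ℕ, BddBy (K * ‖(p : C)‖ ^ k) (a ^ p ^ k - b ^ p ^ k) := by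
  have hp0 : 0 < ‖(p : C)‖ := norm_pos_iff.2 (Nat.cast_ne_zero.2 (Fact.out : p.Prime).ne_zero)
  have hp2 : 2 ≤ p := (Fact.out : p.Prime).two_le
  set θ : ℝ := max ρ ‖(p : C)‖ with hθ
  have hθ1 : θ < 1 := max_lt hρ hp
  have hθ0 : 0 < θ := hp0.trans_le (le_max_right _ _)
  have hpow : ∀ k : ℕ, a ^ p ^ (k + 1) - b ^ p ^ (k + 1) = (a ^ p ^ k) ^ p - (b ^ p ^ k) ^ p := by
    intro k
    rw [← pow_mul, ← pow_mul, pow_succ]
  have step1 : ∀ k : ℕ, BddBy (θ ^ (k + 1)) (a ^ p ^ k - b ^ p ^ k) := by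
    intro k
    induction k with
    | zero =>
      simpa using h.mono (le_max_left ρ ‖(p : C)‖)
    | succ k ih =>
      rw [hpow]
      refine (bddBy_pow_prime_sub p (bdd_pow' ha _) (bdd_pow' hb _) ih).mono (max_le ?_ ?_)
      · rw [← pow_mul]
        refine pow_le_pow_of_le_one hθ0.le hθ1.le ?_
        nlinarith
      · rw [pow_succ θ (k + 1), mul_comm]
        exact mul_le_mul_of_nonneg_left (le_max_right _ _) (pow_nonneg hθ0.le _)
  obtain ⟨k0, hk0⟩ : ∃ k0 : ℕ, θ ^ (k0 + 1) ≤ ‖(p : C)‖ := by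
    obtain ⟨k0, hk0⟩ := exists_pow_lt_of_lt_one hp0 hθ1
    exact ⟨k0, (pow_le_pow_of_le_one hθ0.le hθ1.le (Nat.le_succ _)).trans hk0.le⟩
  have step2 : ∀ j : ℕ, BddBy (‖(p : C)‖ ^ (j + 1)) (a ^ p ^ (k0 + j) - b ^ p ^ (k0 + j)) := by
    intro j
    induction j with
    | zero =>
      rw [add_zero, zero_add, pow_one]
      exact (step1 k0).mono hk0
    | succ j ih =>
      rw [← add_assoc, hpow]
      refine (bddBy_pow_prime_sub p (bdd_pow' ha _) (bdd_pow' hb _) ih).mono (max_le ?_ ?_)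
      · rw [← pow_mul]
        refine pow_le_pow_of_le_one hp0.le hp.le ?_
        nlinarith
      · rw [pow_succ' ‖(p : C)‖ (j + 1)]
  refine ⟨‖(p : C)‖⁻¹ ^ k0, by positivity, fun k => ?_⟩
  have hinv : 1 ≤ ‖(p : C)‖⁻¹ := (one_le_inv₀ hp0).2 hp.le
  rcases le_total k0 k with hk | hk
  · obtain ⟨j, rfl⟩ := Nat.exists_eq_add_of_le hk
    refine (step2 j).mono ?_
    rw [pow_add ‖(p : C)‖ k0 j, ← mul_assoc, ← mul_pow, inv_mul_cancel₀ hp0.ne', one_pow, one_mul]
    exact pow_le_pow_of_le_one hp0.le hp.le (Nat.le_succ _)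
  · have h1 : BddBy 1 (a ^ p ^ k - b ^ p ^ k) := fun d => by
      rw [map_sub, sub_eq_add_neg]
      exact (IsUltrametricDist.norm_add_le_max _ _).trans
        (max_le (bdd_pow' ha _ d) ((norm_neg _).le.trans (bdd_pow' hb _ d)))
    refine h1.mono ?_
    obtain ⟨j, rfl⟩ := Nat.exists_eq_add_of_le hk
    rw [pow_add, mul_right_comm, ← mul_pow, inv_mul_cancel₀ hp0.ne', one_pow, one_mul]
    exact one_le_pow₀ hinv

end Congr

variable (p : ℕ) [Fact p.Prime]
variable {C : Type*} [NontriviallyNormedField C] [IsUltrametricDist C] [CharZero C]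

/-- coefficients of `hlog p v` -/
noncomputable def mC (v : ℕ → C) (k : ℕ) : C :=
  MvPolynomial.eval₂Hom (algebraMap ℚ C) v (hazM p k)

omit [IsUltrametricDist C] [Fact p.Prime] in
theorem mC_zero (v : ℕ → C) : mC p v 0 = 1 := Fel.hm_zero p v

omit [IsUltrametricDist C] in
theorem mC_rec {n : ℕ} {v : ℕ → C} (hv : ∀ j, n < j → v j = 0) {k : ℕ} (hk : 1 ≤ k) :
    (p : C) * mC p v k =
      ∑ j ∈ (Finset.Icc 1 n).filter (· ≤ k), mC p v (k - j) * v j ^ p ^ (k - j) := by
  have hp0 : p ≠ 0 := (Fact.out : p.Prime).ne_zero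
  obtain ⟨k, rfl⟩ := Nat.exists_eq_add_of_le' hk
  have h1 : (p : C) * mC p v (k + 1) = ∑ j ∈ Finset.range (k + 1), mC p v j *
      v (k + 1 - j) ^ p ^ j := Fel.hm_succ p v k
  rw [h1]
  have h2 : ∑ j ∈ Finset.range (k + 1), mC p v j * v (k + 1 - j) ^ p ^ j =
      ∑ j ∈ Finset.Icc 1 (k + 1), mC p v (k + 1 - j) * v j ^ p ^ (k + 1 - j) := by
    refine Finset.sum_nbij' (fun j => k + 1 - j) (fun j => k + 1 - j) ?_ ?_ ?_ ?_ ?_
    · intro j hj
      rw [Finset.mem_range] at hj
      rw [Finset.mem_Icc]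
      omega
    · intro j hj
      rw [Finset.mem_Icc] at hj
      rw [Finset.mem_range]
      omega
    · intro j hj
      rw [Finset.mem_range] at hj
      omega
    · intro j hj
      rw [Finset.mem_Icc] at hj
      omega
    · intro j hj
      rw [Finset.mem_range] at hj
      have : k + 1 - (k + 1 - j) = j := by omega
      rw [this]
  rw [h2]
  symm
  refine Finset.sum_subset (fun j hj => ?_) fun j hj hj' => ?_
  · rw [Finset.mem_filter, Finset.mem_Icc] at hj
    rw [Finset.mem_Icc]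
    exact ⟨hj.1.1, hj.2⟩
  · rw [Finset.mem_Icc] at hj
    rw [Finset.mem_filter, Finset.mem_Icc] at hj'
    have hjn : n < j := by
      by_contra hcon
      exact hj' ⟨⟨hj.1, not_lt.1 hcon⟩, hj.2⟩
    rw [hv j hjn, zero_pow (pow_ne_zero _ hp0), mul_zero]

omit [IsUltrametricDist C] in
theorem coeff_hlog (v : ℕ → C) (i : ℕ) : PowerSeries.coeff i (hlog p v) =
    if i = p ^ Nat.log p i then mC p v (Nat.log p i) else 0 := by
  rw [hlog_eq, Fel.Lp, PowerSeries.coeff_mk]
  rfl

omit [IsUltrametricDist C] in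
theorem hlog_eq_mC (v : ℕ → C) : hlog p v = Fel.Lp p (mC p v) := hlog_eq p v

theorem norm_mC_le (hp : ‖(p : C)‖ < 1) {v : ℕ → C} (hv : ∀ j, ‖v j‖ ≤ 1) (k : ℕ) :
    ‖mC p v k‖ ≤ ‖(p : C)‖⁻¹ ^ k := by
  have hp0 : 0 < ‖(p : C)‖ := norm_pos_iff.2 (Nat.cast_ne_zero.2 (Fact.out : p.Prime).ne_zero)
  have hinv : 1 ≤ ‖(p : C)‖⁻¹ := (one_le_inv₀ hp0).2 hp.le
  induction k using Nat.strong_induction_on with
  | _ k ih =>
    rcases k with _ | k
    · rw [mC_zero, norm_one, pow_zero]
    · have h1 : (p : C) * mC p v (k + 1) = ∑ j ∈ Finset.range (k + 1), mC p v j *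
          v (k + 1 - j) ^ p ^ j := Fel.hm_succ p v k
      have h2 : ‖(p : C) * mC p v (k + 1)‖ ≤ ‖(p : C)‖⁻¹ ^ k := by
        rw [h1]
        refine IsUltrametricDist.norm_sum_le_of_forall_le_of_nonneg (by positivity) fun j hj => ?_
        rw [Finset.mem_range] at hj
        rw [norm_mul, norm_pow]
        calc ‖mC p v j‖ * ‖v (k + 1 - j)‖ ^ p ^ j ≤ ‖(p : C)‖⁻¹ ^ j * 1 :=
              mul_le_mul (ih j hj) (pow_le_one₀ (norm_nonneg _) (hv _)) (by positivity)
                (by positivity)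
          _ = ‖(p : C)‖⁻¹ ^ j := mul_one _
          _ ≤ ‖(p : C)‖⁻¹ ^ k := pow_le_pow_right₀ hinv (by omega)
      rw [norm_mul] at h2
      rw [pow_succ, ← div_eq_mul_inv, le_div_iff₀ hp0, mul_comm]
      exact h2

/-- congruent arguments have congruent logarithms, up to a bounded series -/
theorem hlog_congr (hp : ‖(p : C)‖ < 1) {v : ℕ → C} (hv : ∀ j, ‖v j‖ ≤ 1) {σ : Type*} [Finite σ]
    {a b : MvPowerSeries σ C} (ha : Bdd a) (hb : Bdd b) (ha0 : constantCoeff a = 0)
    (hb0 : constantCoeff b = 0) {ρ : ℝ} (hρ : ρ < 1) (h : ∀ d, ‖coeff d (a - b)‖ ≤ ρ) :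
    IsBd ((hlog p v).subst a - (hlog p v).subst b : MvPowerSeries σ C) := by
  have hp0 : 0 < ‖(p : C)‖ := norm_pos_iff.2 (Nat.cast_ne_zero.2 (Fact.out : p.Prime).ne_zero)
  obtain ⟨K, hK0, hK⟩ := exists_bddBy_pow_sub p hp ha hb hρ h
  refine ⟨K, fun e => ?_⟩
  rw [map_sub, hlog_eq_mC, Fel.coeff_Lp_subst _ ha0 e _ le_rfl, Fel.coeff_Lp_subst _ hb0 e _ le_rfl,
    ← Finset.sum_sub_distrib]
  refine IsUltrametricDist.norm_sum_le_of_forall_le_of_nonneg hK0 fun k _ => ?_
  rw [← mul_sub, norm_mul, ← map_sub]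
  calc ‖mC p v k‖ * ‖coeff e (a ^ p ^ k - b ^ p ^ k)‖
      ≤ ‖(p : C)‖⁻¹ ^ k * (K * ‖(p : C)‖ ^ k) :=
        mul_le_mul (norm_mC_le p hp hv k) (hK k e) (norm_nonneg _) (by positivity)
    _ = K := by
        rw [mul_left_comm, ← mul_pow, inv_mul_cancel₀ hp0.ne', one_pow, mul_one]

omit [IsUltrametricDist C] in
/-- a series `h` with `h(0) = 0`, `h'(0) = 0` and `h(u) = 2h` for some `u = 2X + ⋯` is zero -/
theorem eq_zero_of_subst_two {h u : PowerSeries C} (h0 : PowerSeries.constantCoeff h = 0)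
    (h1 : PowerSeries.coeff 1 h = 0) (u0 : PowerSeries.constantCoeff u = 0)
    (u1 : PowerSeries.coeff 1 u = 2) (hu : h.subst u = (2 : C) • h) : h = 0 := by
  have key : ∀ N, ∀ i, i < N → PowerSeries.coeff i h = 0 := by
    intro N
    induction N with
    | zero => intro i hi; exact absurd hi (Nat.not_lt_zero _)
    | succ N ih =>
      intro i hi
      rcases Nat.lt_succ_iff_lt_or_eq.1 hi with hi | rfl
      · exact ih i hi
      · by_cases hi0 : i = 0
        · rw [hi0, PowerSeries.coeff_zero_eq_constantCoeff_apply]; exact h0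
        by_cases hi1 : i = 1
        · rw [hi1]; exact h1
        have hi2 : 2 ≤ i := by omega
        obtain ⟨w, hw⟩ := PowerSeries.X_dvd_iff.2 u0
        have hw0 : PowerSeries.constantCoeff w = 2 := by
          have := u1
          rw [hw] at this
          have h6 := PowerSeries.coeff_succ_X_mul 0 w
          rw [zero_add, PowerSeries.coeff_zero_eq_constantCoeff_apply] at h6
          rw [← h6, this]
        have e1 : PowerSeries.coeff i (h.subst u) = PowerSeries.coeff i h * 2 ^ i := by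
          rw [PowerSeries.coeff_subst' (PowerSeries.HasSubst.of_constantCoeff_zero u0)]
          rw [finsum_eq_single _ i]
          · rw [smul_eq_mul]
            congr 1
            have : u ^ i = PowerSeries.X ^ i * w ^ i := by rw [hw, mul_pow]
            rw [this]
            have h5 := PowerSeries.coeff_X_pow_mul (w ^ i) i 0
            rw [zero_add] at h5
            rw [h5, PowerSeries.coeff_zero_eq_constantCoeff_apply, map_pow, hw0]
          · intro j hj
            rcases lt_or_gt_of_ne hj with hj | hj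
            · rw [ih j hj, zero_smul]
            · have : u ^ j = PowerSeries.X ^ j * w ^ j := by rw [hw, mul_pow]
              rw [this, PowerSeries.coeff_X_pow_mul', if_neg (by omega), smul_zero]
        have e2 : PowerSeries.coeff i h * 2 ^ i = 2 * PowerSeries.coeff i h := by
          rw [← e1, hu, PowerSeries.coeff_smul, smul_eq_mul]
        have e3 : PowerSeries.coeff i h * ((2 : C) ^ i - 2) = 0 := by
          rw [mul_sub, e2]; ring
        rcases mul_eq_zero.1 e3 with e3 | e3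
        · exact e3
        · exfalso
          have e4 : ((2 ^ i : ℕ) : C) = ((2 : ℕ) : C) := by
            push_cast
            exact sub_eq_zero.1 e3
          have e5 : 2 ^ i = 2 := Nat.cast_injective e4
          have e6 : 2 ^ 2 ≤ 2 ^ i := Nat.pow_le_pow_right (by norm_num) hi2
          omega
  ext i
  rw [key (i + 1) i (Nat.lt_succ_self i), map_zero]

omit [IsUltrametricDist C] in
/-- uniqueness of the logarithm: an additive series is a multiple of it -/
theorem eq_smul_hlog {v : ℕ → C} {g : PowerSeries C} (h0 : PowerSeries.constantCoeff g = 0)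
    (hg : g.subst (hazF p v).toPowerSeries = g.subst (X 0 : MvPowerSeries (Fin 2) C) +
      g.subst (X 1 : MvPowerSeries (Fin 2) C)) :
    g = PowerSeries.coeff 1 g • hlog p v := by
  -- `u = F(X, X)`
  obtain ⟨u, hu⟩ : ∃ u : PowerSeries C, u = (hazF p v).toPowerSeries.subst
    (![PowerSeries.X, PowerSeries.X] : Fin 2 → PowerSeries C) := ⟨_, rfl⟩
  have hX0 : constantCoeff (PowerSeries.X : PowerSeries C) = 0 := PowerSeries.constantCoeff_X
  have hcc : ∀ i, constantCoeff ((![PowerSeries.X, PowerSeries.X] : Fin 2 → PowerSeries C) i) = 0 := by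
    intro i; fin_cases i
    · exact hX0
    · exact hX0
  have hsub : HasSubst (![PowerSeries.X, PowerSeries.X] : Fin 2 → PowerSeries C) :=
    hasSubst_of_constantCoeff_zero hcc
  have u0 : constantCoeff u = 0 := by
    rw [hu]
    exact constantCoeff_subst_eq_zero hsub hcc (FormalGroup.zero_constantCoeff _)
  have double : ∀ k : PowerSeries C, k.subst (hazF p v).toPowerSeries =
      k.subst (X 0 : MvPowerSeries (Fin 2) C) + k.subst (X 1 : MvPowerSeries (Fin 2) C) →
      k.subst u = (2 : C) • k := by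
    intro k hk
    have h1 := Fel.ps_subst_pair (FormalGroup.zero_constantCoeff (hazF p v)) hX0 hX0 hk
    rw [← hu] at h1
    rw [h1, ← two_smul C]
    congr 1
    exact PowerSeries.X_subst k
  have hf := double _ (hlog_hazF p v)
  have hg' := double _ hg
  have f1 : PowerSeries.coeff 1 (hlog p v) = 1 := by
    rw [hlog_eq_mC, Fel.coeff_one_Lp, mC_zero]
  have f0 : PowerSeries.constantCoeff (hlog p v) = 0 := by
    rw [hlog_eq_mC, Fel.constantCoeff_Lp]
  have hus : PowerSeries.HasSubst u := PowerSeries.HasSubst.of_constantCoeff_zero u0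
  have u1 : PowerSeries.coeff 1 u = 2 := by
    have h1 : PowerSeries.coeff 1 ((hlog p v).subst u) = PowerSeries.coeff 1 u := by
      rw [PowerSeries.coeff_subst' hus, finsum_eq_single _ 1]
      · rw [f1, one_smul, pow_one]
      · intro j hj
        by_cases hj0 : j = 0
        · rw [hj0, PowerSeries.coeff_zero_eq_constantCoeff_apply, f0, zero_smul]
        · obtain ⟨w, hw⟩ := PowerSeries.X_dvd_iff.2 u0
          have : u ^ j = PowerSeries.X ^ j * w ^ j := by rw [hw, mul_pow]
          rw [this, PowerSeries.coeff_X_pow_mul', if_neg (by omega), smul_zero]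
    rw [← h1, hf, PowerSeries.coeff_smul, f1, smul_eq_mul, mul_one]
  have key : g - PowerSeries.coeff 1 g • hlog p v = 0 := by
    refine eq_zero_of_subst_two (u := u) ?_ ?_ u0 u1 ?_
    · rw [map_sub, h0, ← PowerSeries.coeff_zero_eq_constantCoeff_apply, PowerSeries.coeff_smul,
        PowerSeries.coeff_zero_eq_constantCoeff_apply, f0, smul_zero, sub_zero]
    · rw [map_sub, PowerSeries.coeff_smul, f1, smul_eq_mul, mul_one, sub_self]
    · rw [PowerSeries.subst_sub hus, PowerSeries.subst_smul hus, hg', hf, smul_sub, smul_comm]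
  exact sub_eq_zero.1 key

end Chai
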