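import Vale.Agent.Chai.Char0A
import Vale.Agent.Chai.BetaB

/-!
# P217 / Char0B: coordinates of quasi-logarithms

OWNER: helper2

`Γ = hazF p (prm n 0)` (integral Honda group), `log_n = hlog p (prm n 0) = ∑_i X^{p^{ni}}/p^i`,
`L_k = LL p n k = log_n(X^{p^k})`.  `HasCoord g c`: `g - ∑_{k<n} c_k L_k` has bounded coefficients.
`HasMat b M`: `L_k ∘ b` has coordinates `M k`.

PROOFS.
* unique: the coefficient of `∑ c_k L_k` at `X^{p^{k+ni}}` is `c_k p^{-i}`, unbounded in `i` unless `c_k = 0`.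
* `LL_add`: `log_n(Y) = Y + log_n(Y^{p^n})/p`.
* `congr`: `hlog_congr` for `L_k(a) = log_n(a^{p^k})` (`a ≡ b mod ρ ⇒ a^{p^k} ≡ b^{p^k} mod ρ`), `IsBd.subst` for
  the bounded part.
* `quasi`: `L_k(Γ(a,b)) = log_n(Γ(a,b)^{p^k})`, `Γ(a,b)^{p^k} ≡ Γ(a^{p^k}, b^{p^k}) mod p` (`Γ` has coefficients
  in the image of `ℤ`), `hlog_congr` with `ρ = ‖p‖`, and `hlog_hazF`.
* `HasMat.pow`: `L_k ∘ a^{p^{nm}} = L_{k+nm} ∘ a`, and `LL_add`.
* `HasMat.monomial`: `L_k(ζ X^{p^l}) = ζ^{p^k} L_{k+l}` if `ζ^{p^n} = ζ`, and `LL_add` (only needed for `l < n`).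
-/

namespace Chai

open MvPowerSeries Filter Topology

variable (p : ℕ) [Fact p.Prime]
variable {C : Type*} [NontriviallyNormedField C] [IsUltrametricDist C] [CharZero C]

/-- `L_k = log_n(X^{p^k})` -/
noncomputable def LL (n k : ℕ) : PowerSeries C :=
  (hlog p (prm n (0 : ℕ → C))).subst ((PowerSeries.X : PowerSeries C) ^ p ^ k)

/-- `g ≡ ∑_{k<n} c_k L_k` modulo bounded series -/
def HasCoord (n : ℕ) (g : PowerSeries C) (c : Fin n → C) : Prop :=
  IsBd (g - ∑ k : Fin n, c k • (LL p n k : PowerSeries C) : PowerSeries C)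

/-- `L_k ∘ b ≡ ∑_j M_{kj} L_j` modulo bounded series -/
def HasMat (n : ℕ) (b : PowerSeries C) (M : Matrix (Fin n) (Fin n) C) : Prop :=
  ∀ k : Fin n, HasCoord p n ((LL p n k : PowerSeries C).subst b) (M k)

/-- the matrix of `ζ X^{p^l}`: `L_k(ζ X^{p^l}) = ζ^{p^k} L_{k+l}`, `L_{j+n} ≡ p L_j` -/
noncomputable def monMat (n : ℕ) (ζ : C) (l : ℕ) : Matrix (Fin n) (Fin n) C :=
  Matrix.of fun k j => if (j : ℕ) = (k + l) % n then ζ ^ p ^ (k : ℕ) * (p : C) ^ ((k + l) / n) else 0

/-! ### preliminaries -/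

namespace C0B

section Aux

variable {C : Type*} [NontriviallyNormedField C] [IsUltrametricDist C] [CompleteSpace C]
variable {σ : Type*}

theorem norm_coeff_mul_le {f g : MvPowerSeries σ C} {ρ : ℝ} (hρ : 0 ≤ ρ)
    (hf : ∀ d, ‖coeff d f‖ ≤ ρ) (hg : Bdd g) (d : σ →₀ ℕ) : ‖coeff d (f * g)‖ ≤ ρ := by
  classical
  rw [coeff_mul]
  refine IsUltrametricDist.norm_sum_le_of_forall_le_of_nonneg hρ fun x _ => ?_
  rw [norm_mul]
  calc ‖coeff x.1 f‖ * ‖coeff x.2 g‖ ≤ ρ * 1 :=
        mul_le_mul (hf _) (hg _) (norm_nonneg _) hρ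
    _ = ρ := mul_one _

theorem norm_coeff_pow_sub_le {a b : MvPowerSeries σ C} {ρ : ℝ} (ha : Bdd a) (hb : Bdd b)
    (h : ∀ d, ‖coeff d (a - b)‖ ≤ ρ) (m : ℕ) (d : σ →₀ ℕ) :
    ‖coeff d (a ^ m - b ^ m)‖ ≤ ρ := by
  have hρ : 0 ≤ ρ := (norm_nonneg _).trans (h 0)
  have e : a ^ m - b ^ m = (a - b) * ∑ i ∈ Finset.range m, a ^ i * b ^ (m - 1 - i) := by
    rw [mul_comm, (Commute.all a b).geom_sum₂_mul]
  rw [e]
  exact norm_coeff_mul_le hρ h (Bdd.sum _ fun i _ => (ha.pow _).mul (hb.pow _)) d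

theorem bdd_honda (n : ℕ) : Bdd (hazF p (prm n (0 : ℕ → C))).toPowerSeries := by
  intro d
  rw [coeff_honda]
  exact IsUltrametricDist.norm_intCast_le_one C _

theorem norm_prm0_le (n j : ℕ) : ‖prm n (0 : ℕ → C) j‖ ≤ 1 := by
  unfold prm
  split_ifs
  · simp
  · simp
  · simp

/-- substitution commutes with `E` for the trivial Frobenius lift -/
theorem subst_E_iter_id (F : MvPowerSeries (Fin 2) C) {a b : MvPowerSeries σ C}
    (ha : constantCoeff a = 0) (hb : constantCoeff b = 0) (k : ℕ) :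
    ((Fel.E p (RingHom.id C))^[k] F).subst ![a, b] = F.subst ![a ^ p ^ k, b ^ p ^ k] := by
  have hp0 : p ≠ 0 := (Fact.out : p.Prime).ne_zero
  have one : ∀ (F : MvPowerSeries (Fin 2) C) {a b : MvPowerSeries σ C},
      constantCoeff a = 0 → constantCoeff b = 0 →
      (Fel.E p (RingHom.id C) F).subst ![a, b] = F.subst ![a ^ p, b ^ p] := by
    intro F a b ha hb
    rw [Fel.E_apply, MvPowerSeries.map_id, RingHom.id_apply, expand, coe_substAlgHom,
      subst_comp_subst_apply (HasSubst.X_pow hp0) (Fel.hasSubst_pair ha hb)]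
    congr 1
    funext i
    rw [← coe_substAlgHom (Fel.hasSubst_pair ha hb), map_pow, coe_substAlgHom,
      subst_X (Fel.hasSubst_pair ha hb)]
    fin_cases i <;> rfl
  induction k generalizing F with
  | zero => simp
  | succ k ih =>
    rw [Function.iterate_succ_apply, ih (Fel.E p (RingHom.id C) F),
      one F (Fel.constantCoeff_pow0 ha (pow_ne_zero _ hp0))
        (Fel.constantCoeff_pow0 hb (pow_ne_zero _ hp0)), ← pow_mul, ← pow_mul, ← pow_succ]

/-- `Γ(a,b)^{p^k} ≡ Γ(a^{p^k}, b^{p^k}) mod p` -/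
theorem honda_pow_congr [Finite σ] (n k : ℕ) {a b : MvPowerSeries σ C} (ha : Bdd a) (hb : Bdd b)
    (ha0 : constantCoeff a = 0) (hb0 : constantCoeff b = 0) (d : σ →₀ ℕ) :
    ‖coeff d (((hazF p (prm n (0 : ℕ → C))).toPowerSeries.subst ![a, b]) ^ p ^ k -
      (hazF p (prm n (0 : ℕ → C))).toPowerSeries.subst ![a ^ p ^ k, b ^ p ^ k])‖ ≤ ‖(p : C)‖ := by
  have hp' : p.Prime := Fact.out
  -- over `ℤ`
  have hZ : (p : MvPowerSeries (Fin 2) ℤ) ∣
      (Fel.E p (RingHom.id ℤ))^[k] (hazF p (prm n (0 : ℕ → ℤ))).toPowerSeries -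
        (hazF p (prm n (0 : ℕ → ℤ))).toPowerSeries ^ p ^ k := by
    apply Fel.E_iter_congr
    intro b
    rw [RingHom.id_apply, ← Int.modEq_iff_dvd, ← ZMod.intCast_eq_intCast_iff]
    push_cast
    exact ZMod.pow_card _
  obtain ⟨H, hH⟩ := hZ
  have hF : (hazF p (prm n (0 : ℕ → ℤ))).toPowerSeries.map (Int.castRingHom C) =
      (hazF p (prm n (0 : ℕ → C))).toPowerSeries := by
    have h := hazF_map p (Int.castRingHom C) (prm n (0 : ℕ → ℤ))
    rw [map_prm] at h
    rw [← h]
    rfl
  have hC := congrArg (MvPowerSeries.map (Int.castRingHom C)) hH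
  rw [map_sub, map_pow, Fel.map_E_iter (Int.castRingHom C) (RingHom.id ℤ) (RingHom.id C)
    (fun _ => rfl), hF, map_mul, map_natCast] at hC
  have hs := Fel.hasSubst_pair ha0 hb0
  have hC2 := congrArg (fun z => z.subst ![a, b]) hC
  have e1 : (hazF p (prm n (0 : ℕ → C))).toPowerSeries.subst ![a ^ p ^ k, b ^ p ^ k] -
      ((hazF p (prm n (0 : ℕ → C))).toPowerSeries.subst ![a, b]) ^ p ^ k =
      MvPowerSeries.C (p : C) * (H.map (Int.castRingHom C)).subst ![a, b] := by
    have h1 : ((p : MvPowerSeries (Fin 2) C) * H.map (Int.castRingHom C)).subst ![a, b] =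
        MvPowerSeries.C (p : C) * (H.map (Int.castRingHom C)).subst ![a, b] := by
      rw [← coe_substAlgHom hs, map_mul, map_natCast]
      congr 1
    rw [← h1, ← hC2, ← subst_E_iter_id p _ ha0 hb0]
    simp only [← coe_substAlgHom hs, map_sub, map_pow]
  have hHb : Bdd (H.map (Int.castRingHom C)) := by
    intro d
    rw [coeff_map]
    exact IsUltrametricDist.norm_intCast_le_one C _
  rw [← neg_sub, e1, map_neg, norm_neg, coeff_C_mul, norm_mul]
  have h2 : Bdd ((H.map (Int.castRingHom C)).subst ![a, b]) := by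
    refine hHb.subst (fun i => ?_) (fun i => ?_)
    · fin_cases i
      · exact ha
      · exact hb
    · fin_cases i
      · exact ha0
      · exact hb0
  calc ‖(p : C)‖ * ‖coeff d ((H.map (Int.castRingHom C)).subst ![a, b])‖ ≤ ‖(p : C)‖ * 1 :=
        mul_le_mul_of_nonneg_left (h2 d) (norm_nonneg _)
    _ = ‖(p : C)‖ := mul_one _

end Aux

end C0B

namespace C0B

/-! ### the series `L_k` -/

variable {n : ℕ}

theorem hm_rec (hn : 1 ≤ n) {t : ℕ} (ht : 1 ≤ t) :
    (p : C) * Fel.hm p (prm n (0 : ℕ → C)) t =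
      if n ≤ t then Fel.hm p (prm n (0 : ℕ → C)) (t - n) else 0 := by
  have hp0 : p ≠ 0 := (Fact.out : p.Prime).ne_zero
  obtain ⟨k, rfl⟩ : ∃ k, t = k + 1 := ⟨t - 1, by omega⟩
  rw [Fel.hm_succ]
  split_ifs with hnt
  · rw [Finset.sum_eq_single (k + 1 - n)]
    · have : prm n (0 : ℕ → C) (k + 1 - (k + 1 - n)) = 1 := by
        rw [show k + 1 - (k + 1 - n) = n by omega, prm, if_neg (by omega), if_pos rfl]
      rw [this, one_pow, mul_one]
    · intro j hj hjn
      rw [Finset.mem_range] at hj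
      have : prm n (0 : ℕ → C) (k + 1 - j) = 0 := by
        simp only [prm, Pi.zero_apply]
        rw [if_neg (by omega : ¬ k + 1 - j = n), ite_self]
      rw [this, zero_pow (pow_ne_zero _ hp0), mul_zero]
    · intro h
      exfalso
      apply h
      rw [Finset.mem_range]
      omega
  · apply Finset.sum_eq_zero
    intro j hj
    rw [Finset.mem_range] at hj
    have : prm n (0 : ℕ → C) (k + 1 - j) = 0 := by
      simp only [prm, Pi.zero_apply]
      rw [if_neg (by omega : ¬ k + 1 - j = n), ite_self]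
    rw [this, zero_pow (pow_ne_zero _ hp0), mul_zero]

theorem natCast_p_ne : (p : C) ≠ 0 := Nat.cast_ne_zero.2 (Fact.out : p.Prime).ne_zero

theorem hm_mul (hn : 1 ≤ n) (i : ℕ) :
    Fel.hm p (prm n (0 : ℕ → C)) (n * i) = ((p : C) ^ i)⁻¹ := by
  have hp0 := natCast_p_ne p (C := C)
  induction i with
  | zero => rw [mul_zero, Fel.hm_zero, pow_zero, inv_one]
  | succ i ih =>
    have h := hm_rec p (C := C) hn (t := n * (i + 1)) (by nlinarith)
    have e : n * (i + 1) - n = n * i := by rw [Nat.mul_succ, Nat.add_sub_cancel]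
    rw [if_pos (by nlinarith), e, ih] at h
    rw [pow_succ, mul_inv, ← h]
    field_simp

theorem hm_not_dvd (hn : 1 ≤ n) {t : ℕ} (ht : ¬ n ∣ t) :
    Fel.hm p (prm n (0 : ℕ → C)) t = 0 := by
  have hp0 := natCast_p_ne p (C := C)
  induction t using Nat.strong_induction_on with
  | _ t ih =>
    have ht1 : 1 ≤ t := by
      by_contra h
      apply ht
      have : t = 0 := by omega
      rw [this]
      exact dvd_zero _
    have h := hm_rec p (C := C) hn ht1
    split_ifs at h with hnt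
    · have hdvd : ¬ n ∣ t - n := by
        intro hd
        apply ht
        have := dvd_add hd (dvd_refl n)
        rwa [Nat.sub_add_cancel hnt] at this
      rw [ih (t - n) (by omega) hdvd] at h
      exact (mul_eq_zero.1 h).resolve_left hp0
    · exact (mul_eq_zero.1 h).resolve_left hp0

theorem LL_eq (k : ℕ) : (LL p n k : PowerSeries C) =
    (Fel.Lp p (Fel.hm p (prm n (0 : ℕ → C)))).subst
      (PowerSeries.C 1 * (PowerSeries.X : PowerSeries C) ^ p ^ k) := by
  rw [LL, hlog_eq, ← Fel.X_pow_eq]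

theorem coeff_LL_pow (k t : ℕ) : PowerSeries.coeff (p ^ t) (LL p n k : PowerSeries C) =
    if k ≤ t then Fel.hm p (prm n (0 : ℕ → C)) (t - k) else 0 := by
  rw [LL_eq, Fel.coeff_Lp_subst_CX_pow, one_pow, mul_one]

theorem coeff_LL_ne (k : ℕ) {i : ℕ} (h : ∀ t, i ≠ p ^ t) :
    PowerSeries.coeff i (LL p n k : PowerSeries C) = 0 := by
  rw [LL_eq, Fel.coeff_Lp_subst_CX_ne _ _ _ h]

theorem LL_subst {σ : Type*} (k : ℕ) {a : MvPowerSeries σ C} (ha0 : constantCoeff a = 0) :
    (LL p n k : PowerSeries C).subst a = (hlog p (prm n (0 : ℕ → C))).subst (a ^ p ^ k) := by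
  have hp0 : p ≠ 0 := (Fact.out : p.Prime).ne_zero
  have hX : constantCoeff ((PowerSeries.X : PowerSeries C) ^ p ^ k) = 0 :=
    Fel.constantCoeff_pow0 PowerSeries.constantCoeff_X (pow_ne_zero _ hp0)
  rw [LL, PowerSeries.subst_comp_subst_apply (Fel.hasSubst0 hX) (Fel.hasSubst0 ha0),
    PowerSeries.subst_pow (Fel.hasSubst0 ha0), PowerSeries.subst_X (Fel.hasSubst0 ha0)]

theorem constantCoeff_LL (k : ℕ) : PowerSeries.constantCoeff (LL p n k : PowerSeries C) = 0 := by
  rw [← PowerSeries.coeff_zero_eq_constantCoeff_apply]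
  exact coeff_LL_ne p k fun t => (pow_ne_zero t (Fact.out : p.Prime).ne_zero).symm

end C0B

variable [CompleteSpace C] {n : ℕ} (hp : ‖(p : C)‖ < 1) (hn : 1 ≤ n)

theorem LL_add (k : ℕ) (hn : 1 ≤ n) : (LL p n (k + n) : PowerSeries C) =
    (p : C) • LL p n k - (p : C) • (PowerSeries.X : PowerSeries C) ^ p ^ k := by
  have hinj : Function.Injective (fun k : ℕ => p ^ k) :=
    Nat.pow_right_injective (Fact.out : p.Prime).two_le
  ext i
  rw [map_sub, PowerSeries.coeff_smul, PowerSeries.coeff_smul, PowerSeries.coeff_X_pow]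
  by_cases hi : ∃ t, i = p ^ t
  · obtain ⟨t, rfl⟩ := hi
    rw [C0B.coeff_LL_pow, C0B.coeff_LL_pow]
    rcases lt_trichotomy t k with h | h | h
    · rw [if_neg (by omega), if_neg (by omega), if_neg (fun e => by have := hinj e; omega)]
      simp
    · subst h
      rw [if_neg (by omega), if_pos le_rfl, if_pos rfl, Nat.sub_self, Fel.hm_zero, sub_self]
    · have hne : ¬ p ^ t = p ^ k := fun e => by have := hinj e; omega
      rw [if_pos h.le, if_neg hne, smul_zero, sub_zero,
        smul_eq_mul, C0B.hm_rec p hn (by omega)]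
      by_cases hn2 : k + n ≤ t
      · rw [if_pos hn2, if_pos (by omega), Nat.sub_add_eq]
      · rw [if_neg hn2, if_neg (by omega)]
  · push Not at hi
    rw [C0B.coeff_LL_ne p _ hi, C0B.coeff_LL_ne p _ hi, if_neg (hi k), smul_zero, sub_zero]

theorem C0B.LL_add_mul (k m : ℕ) (hn : 1 ≤ n) :
    IsBd ((LL p n (k + n * m) : PowerSeries C) - (p : C) ^ m • LL p n k : PowerSeries C) := by
  induction m with
  | zero =>
    rw [mul_zero, add_zero, pow_zero, one_smul, sub_self]
    exact IsBd.zero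
  | succ m ih =>
    have h1 := LL_add p (C := C) (k + n * m) hn
    have e : k + n * (m + 1) = k + n * m + n := by ring
    have hX : IsBd ((PowerSeries.X : PowerSeries C) ^ p ^ (k + n * m) : PowerSeries C) :=
      Bdd.isBd ((Bdd.X ()).pow _)
    have h2 : (LL p n (k + n * (m + 1)) : PowerSeries C) - (p : C) ^ (m + 1) • LL p n k =
        (p : C) • ((LL p n (k + n * m) : PowerSeries C) - (p : C) ^ m • LL p n k) -
        (p : C) • (PowerSeries.X : PowerSeries C) ^ p ^ (k + n * m) := by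
      rw [e, h1, pow_succ', mul_smul, smul_sub]
      abel
    rw [h2]
    exact (ih.smul _).sub (hX.smul _)

section
include hp hn

theorem HasCoord.unique {g : PowerSeries C} {c c' : Fin n → C} (h : HasCoord p n g c)
    (h' : HasCoord p n g c') : c = c' := by
  have hp0 := C0B.natCast_p_ne p (C := C)
  have hpn : 0 < ‖(p : C)‖ := norm_pos_iff.2 hp0
  have h1 : IsBd (∑ k : Fin n, (c' k - c k) • (LL p n k : PowerSeries C) : PowerSeries C) := by
    have e : (∑ k : Fin n, (c' k - c k) • (LL p n k : PowerSeries C) : PowerSeries C) =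
        (g - ∑ k : Fin n, c k • (LL p n k : PowerSeries C)) -
          (g - ∑ k : Fin n, c' k • (LL p n k : PowerSeries C)) := by
      simp only [sub_smul, Finset.sum_sub_distrib]
      abel
    rw [e]
    exact h.sub h'
  obtain ⟨K, hK⟩ := h1
  funext k0
  by_contra hne
  have hd : 0 < ‖c' k0 - c k0‖ := norm_pos_iff.2 (sub_ne_zero.2 (Ne.symm hne))
  have h2 : ∀ i : ℕ, ‖c' k0 - c k0‖ * (‖(p : C)‖⁻¹) ^ i ≤ K := by
    intro i
    have h3 := hK (Finsupp.single () (p ^ (k0 + n * i)))
    have h4 : MvPowerSeries.coeff (Finsupp.single () (p ^ (k0 + n * i)))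
        (∑ k : Fin n, (c' k - c k) • (LL p n k : PowerSeries C) : PowerSeries C) =
        (c' k0 - c k0) * ((p : C) ^ i)⁻¹ := by
      change PowerSeries.coeff (p ^ ((k0 : ℕ) + n * i)) _ = _
      rw [map_sum, Finset.sum_eq_single k0]
      · rw [PowerSeries.coeff_smul, C0B.coeff_LL_pow, if_pos (by omega), Nat.add_sub_cancel_left,
          C0B.hm_mul p hn, smul_eq_mul]
      · intro k _ hk
        rw [PowerSeries.coeff_smul, C0B.coeff_LL_pow]
        split_ifs with hle
        · rw [C0B.hm_not_dvd p hn, smul_zero]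
          intro hdvd
          apply hk
          obtain ⟨q, hq⟩ := hdvd
          have hk1 := k.2
          have hk0 := k0.2
          have e1 : ((k0 : ℕ) + n * i) % n = k0 := by
            rw [Nat.add_mul_mod_self_left, Nat.mod_eq_of_lt hk0]
          have e2 : ((k : ℕ) + n * q) % n = k := by
            rw [Nat.add_mul_mod_self_left, Nat.mod_eq_of_lt hk1]
          have e3 : (k0 : ℕ) + n * i = k + n * q := by omega
          rw [e3, e2] at e1
          exact Fin.ext e1
        · rw [smul_zero]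
      · intro h; exact absurd (Finset.mem_univ _) h
    rw [h4, norm_mul, norm_inv, norm_pow] at h3
    rwa [inv_pow]
  have h5 : 1 < ‖(p : C)‖⁻¹ := (one_lt_inv₀ hpn).2 hp
  obtain ⟨i, hi⟩ := pow_unbounded_of_one_lt (K / ‖c' k0 - c k0‖) h5
  have h6 := h2 i
  rw [div_lt_iff₀ hd] at hi
  linarith

omit hn in
theorem C0B.LL_congr (k : ℕ) {σ : Type*}
    [Finite σ] {a b : MvPowerSeries σ C} (ha : Bdd a) (hb : Bdd b) (ha0 : constantCoeff a = 0)
    (hb0 : constantCoeff b = 0) {ρ : ℝ} (hρ : ρ < 1) (h : ∀ d, ‖coeff d (a - b)‖ ≤ ρ) :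
    IsBd ((LL p n k : PowerSeries C).subst a - (LL p n k : PowerSeries C).subst b :
      MvPowerSeries σ C) := by
  have hp0 : p ≠ 0 := (Fact.out : p.Prime).ne_zero
  rw [C0B.LL_subst p k ha0, C0B.LL_subst p k hb0]
  exact hlog_congr p hp (C0B.norm_prm0_le n) (ha.pow _) (hb.pow _)
    (Fel.constantCoeff_pow0 ha0 (pow_ne_zero _ hp0))
    (Fel.constantCoeff_pow0 hb0 (pow_ne_zero _ hp0)) hρ
    (C0B.norm_coeff_pow_sub_le ha hb h _)

omit hn in
theorem C0B.LL_quasi (k : ℕ) {σ : Type*}
    [Finite σ] {a b : MvPowerSeries σ C} (ha : Bdd a) (hb : Bdd b) (ha0 : constantCoeff a = 0)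
    (hb0 : constantCoeff b = 0) :
    IsBd ((LL p n k : PowerSeries C).subst
        ((hazF p (prm n (0 : ℕ → C))).toPowerSeries.subst ![a, b]) -
      (LL p n k : PowerSeries C).subst a - (LL p n k : PowerSeries C).subst b :
      MvPowerSeries σ C) := by
  have hp0 : p ≠ 0 := (Fact.out : p.Prime).ne_zero
  have hFab0 := Fel.constantCoeff_subst_pair
    (FormalGroup.zero_constantCoeff (hazF p (prm n (0 : ℕ → C)))) ha0 hb0
  have ha1 := Fel.constantCoeff_pow0 ha0 (pow_ne_zero k hp0)
  have hb1 := Fel.constantCoeff_pow0 hb0 (pow_ne_zero k hp0)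
  have hF1 := Fel.constantCoeff_subst_pair
    (FormalGroup.zero_constantCoeff (hazF p (prm n (0 : ℕ → C)))) ha1 hb1
  have hbdd : ∀ {a b : MvPowerSeries σ C}, Bdd a → Bdd b → constantCoeff a = 0 →
      constantCoeff b = 0 →
      Bdd ((hazF p (prm n (0 : ℕ → C))).toPowerSeries.subst ![a, b]) := by
    intro a b ha hb ha0 hb0
    refine (C0B.bdd_honda p n).subst (fun i => ?_) (fun i => ?_)
    · fin_cases i
      · exact ha
      · exact hb
    · fin_cases i
      · exact ha0
      · exact hb0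
  rw [C0B.LL_subst p k ha0, C0B.LL_subst p k hb0, C0B.LL_subst p k hFab0]
  have h1 := Fel.ps_subst_pair (FormalGroup.zero_constantCoeff (hazF p (prm n (0 : ℕ → C))))
    ha1 hb1 (hlog_hazF p (prm n (0 : ℕ → C)))
  rw [sub_sub, ← h1]
  exact hlog_congr p hp (C0B.norm_prm0_le n) ((hbdd ha hb ha0 hb0).pow _)
    (hbdd (ha.pow _) (hb.pow _) ha1 hb1)
    (Fel.constantCoeff_pow0 hFab0 (pow_ne_zero _ hp0)) hF1 hp
    (C0B.honda_pow_congr p n k ha hb ha0 hb0)

omit hp hn in
theorem C0B.subst_expand {g : PowerSeries C} (c : Fin n → C) {σ : Type*} {a : MvPowerSeries σ C}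
    (ha0 : constantCoeff a = 0) :
    g.subst a = ∑ k : Fin n, c k • (LL p n k : PowerSeries C).subst a +
      (g - ∑ k : Fin n, c k • (LL p n k : PowerSeries C) : PowerSeries C).subst a := by
  have hs := Fel.hasSubst0 ha0
  have e : ∀ (x : PowerSeries C), x.subst a = PowerSeries.substAlgHom hs x := fun x => by
    rw [PowerSeries.coe_substAlgHom]
  simp only [e, map_sub, map_sum, map_smul]
  abel

theorem HasCoord.congr {g : PowerSeries C} {c : Fin n → C} (hg : HasCoord p n g c) {σ : Type*}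
    [Finite σ] {a b : MvPowerSeries σ C} (ha : Bdd a) (hb : Bdd b) (ha0 : constantCoeff a = 0)
    (hb0 : constantCoeff b = 0) {ρ : ℝ} (hρ : ρ < 1) (h : ∀ d, ‖coeff d (a - b)‖ ≤ ρ) :
    IsBd (g.subst a - g.subst b : MvPowerSeries σ C) := by
  have e : (g.subst a - g.subst b : MvPowerSeries σ C) =
      ∑ k : Fin n, c k • ((LL p n k : PowerSeries C).subst a -
        (LL p n k : PowerSeries C).subst b : MvPowerSeries σ C) +
      ((g - ∑ k : Fin n, c k • (LL p n k : PowerSeries C) : PowerSeries C).subst a -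
      (g - ∑ k : Fin n, c k • (LL p n k : PowerSeries C) : PowerSeries C).subst b) := by
    rw [C0B.subst_expand p c ha0, C0B.subst_expand p (g := g) c hb0]
    simp only [smul_sub, Finset.sum_sub_distrib]
    abel
  rw [e]
  refine (IsBd.sum _ fun k _ => IsBd.smul ?_ _).add
    ((IsBd.subst hg ha ha0).sub (IsBd.subst hg hb hb0))
  exact C0B.LL_congr p hp k ha hb ha0 hb0 hρ h

theorem HasCoord.quasi {g : PowerSeries C} {c : Fin n → C} (hg : HasCoord p n g c) {σ : Type*}
    [Finite σ] {a b : MvPowerSeries σ C} (ha : Bdd a) (hb : Bdd b) (ha0 : constantCoeff a = 0)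
    (hb0 : constantCoeff b = 0) :
    IsBd (g.subst ((hazF p (prm n (0 : ℕ → C))).toPowerSeries.subst ![a, b]) -
      g.subst a - g.subst b : MvPowerSeries σ C) := by
  have hFab0 := Fel.constantCoeff_subst_pair
    (FormalGroup.zero_constantCoeff (hazF p (prm n (0 : ℕ → C)))) ha0 hb0
  have hFab : Bdd ((hazF p (prm n (0 : ℕ → C))).toPowerSeries.subst ![a, b]) := by
    refine (C0B.bdd_honda p n).subst (fun i => ?_) (fun i => ?_)
    · fin_cases i
      · exact ha
      · exact hb
    · fin_cases i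
      · exact ha0
      · exact hb0
  have e : (g.subst ((hazF p (prm n (0 : ℕ → C))).toPowerSeries.subst ![a, b]) -
      g.subst a - g.subst b : MvPowerSeries σ C) =
      ∑ k : Fin n, c k • ((LL p n k : PowerSeries C).subst
        ((hazF p (prm n (0 : ℕ → C))).toPowerSeries.subst ![a, b]) -
        (LL p n k : PowerSeries C).subst a -
        (LL p n k : PowerSeries C).subst b : MvPowerSeries σ C) +
      ((g - ∑ k : Fin n, c k • (LL p n k : PowerSeries C) : PowerSeries C).subst
        ((hazF p (prm n (0 : ℕ → C))).toPowerSeries.subst ![a, b]) -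
      (g - ∑ k : Fin n, c k • (LL p n k : PowerSeries C) : PowerSeries C).subst a -
      (g - ∑ k : Fin n, c k • (LL p n k : PowerSeries C) : PowerSeries C).subst b) := by
    rw [C0B.subst_expand p c hFab0, C0B.subst_expand p (g := g) c ha0,
      C0B.subst_expand p (g := g) c hb0]
    simp only [smul_sub, Finset.sum_sub_distrib]
    abel
  rw [e]
  refine (IsBd.sum _ fun k _ => IsBd.smul ?_ _).add
    (((IsBd.subst hg hFab hFab0).sub (IsBd.subst hg ha ha0)).sub (IsBd.subst hg hb hb0))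
  exact C0B.LL_quasi p hp k ha hb ha0 hb0

/-- composition with an endomorphism -/
theorem HasCoord.comp {g b : PowerSeries C} {c : Fin n → C} {M : Matrix (Fin n) (Fin n) C}
    (hg : HasCoord p n g c) (hb : Bdd b) (hb0 : PowerSeries.constantCoeff b = 0)
    (hM : HasMat p n b M) : HasCoord p n (g.subst b) (Matrix.vecMul c M) := by
  have e : (g.subst b - ∑ j : Fin n, Matrix.vecMul c M j • (LL p n j : PowerSeries C) :
      PowerSeries C) = ∑ k : Fin n, c k • ((LL p n k : PowerSeries C).subst b -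
        ∑ j : Fin n, M k j • (LL p n j : PowerSeries C) : PowerSeries C) +
      (g - ∑ k : Fin n, c k • (LL p n k : PowerSeries C) : PowerSeries C).subst b := by
    have h1 : (g.subst b : PowerSeries C) = _ := C0B.subst_expand p (g := g) c hb0
    have h2 : ∑ j : Fin n, Matrix.vecMul c M j • (LL p n j : PowerSeries C) =
        ∑ k : Fin n, c k • ∑ j : Fin n, M k j • (LL p n j : PowerSeries C) := by
      simp only [Matrix.vecMul, dotProduct, Finset.sum_smul, Finset.smul_sum, smul_smul]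
      rw [Finset.sum_comm]
    rw [h1, h2]
    simp only [smul_sub, Finset.sum_sub_distrib]
    abel
  unfold HasCoord
  rw [e]
  exact (IsBd.sum _ fun k _ => (hM k).smul _).add (IsBd.subst hg hb hb0)

theorem HasMat.congr {a b : PowerSeries C} {M : Matrix (Fin n) (Fin n) C} (hM : HasMat p n a M)
    (ha : Bdd a) (hb : Bdd b) (ha0 : PowerSeries.constantCoeff a = 0)
    (hb0 : PowerSeries.constantCoeff b = 0) {ρ : ℝ} (hρ : ρ < 1)
    (h : ∀ i, ‖PowerSeries.coeff i (a - b)‖ ≤ ρ) : HasMat p n b M := by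
  intro k
  have h1 := C0B.LL_congr p hp (n := n) k (σ := Unit) ha hb ha0 hb0 hρ (fun d => by
    rw [Fel.coeff_unit]
    exact h _)
  have e : ((LL p n k : PowerSeries C).subst b -
      ∑ j : Fin n, M k j • (LL p n j : PowerSeries C) : PowerSeries C) =
      ((LL p n k : PowerSeries C).subst a -
        ∑ j : Fin n, M k j • (LL p n j : PowerSeries C) : PowerSeries C) -
      ((LL p n k : PowerSeries C).subst a - (LL p n k : PowerSeries C).subst b) := by
    abel
  unfold HasCoord
  rw [e]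
  exact IsBd.sub (hM k) h1

theorem HasMat.add {a b : PowerSeries C} {M N : Matrix (Fin n) (Fin n) C} (hM : HasMat p n a M)
    (hN : HasMat p n b N) (ha : Bdd a) (hb : Bdd b) (ha0 : PowerSeries.constantCoeff a = 0)
    (hb0 : PowerSeries.constantCoeff b = 0) :
    HasMat p n ((hazF p (prm n (0 : ℕ → C))).toPowerSeries.subst ![a, b] : PowerSeries C)
      (M + N) := by
  intro k
  have h1 := C0B.LL_quasi p hp (n := n) k (σ := Unit) ha hb ha0 hb0
  have e : ((LL p n k : PowerSeries C).subst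
        ((hazF p (prm n (0 : ℕ → C))).toPowerSeries.subst ![a, b] : PowerSeries C) -
      ∑ j : Fin n, (M + N) k j • (LL p n j : PowerSeries C) : PowerSeries C) =
      ((LL p n k : PowerSeries C).subst
        ((hazF p (prm n (0 : ℕ → C))).toPowerSeries.subst ![a, b] : PowerSeries C) -
        (LL p n k : PowerSeries C).subst a - (LL p n k : PowerSeries C).subst b) +
      (((LL p n k : PowerSeries C).subst a -
        ∑ j : Fin n, M k j • (LL p n j : PowerSeries C) : PowerSeries C) +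
      ((LL p n k : PowerSeries C).subst b -
        ∑ j : Fin n, N k j • (LL p n j : PowerSeries C) : PowerSeries C)) := by
    simp only [Matrix.add_apply, add_smul, Finset.sum_add_distrib]
    abel
  unfold HasCoord
  rw [e]
  exact IsBd.add h1 (IsBd.add (hM k) (hN k))

theorem HasMat.pow {a : PowerSeries C} {M : Matrix (Fin n) (Fin n) C} (hM : HasMat p n a M)
    (ha : Bdd a) (ha0 : PowerSeries.constantCoeff a = 0) (m : ℕ) :
    HasMat p n (a ^ p ^ (n * m)) ((p : C) ^ m • M) := by
  have hp0 : p ≠ 0 := (Fact.out : p.Prime).ne_zero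
  intro k
  have h1 := C0B.LL_add_mul p (C := C) (k : ℕ) m hn
  have h2 := IsBd.subst h1 ha ha0
  have hs : PowerSeries.HasSubst a := Fel.hasSubst0 ha0
  have e1 : ((LL p n k : PowerSeries C).subst (a ^ p ^ (n * m) : PowerSeries C) : PowerSeries C) =
      (LL p n (k + n * m) : PowerSeries C).subst a := by
    have h3 := C0B.LL_subst p (n := n) k (σ := Unit) (a := a ^ p ^ (n * m))
      (Fel.constantCoeff_pow0 ha0 (pow_ne_zero _ hp0))
    have h4 := C0B.LL_subst p (n := n) (k + n * m) (σ := Unit) (a := a) ha0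
    refine h3.trans (Eq.trans ?_ h4.symm)
    congr 1
    rw [← pow_mul, ← pow_add]
    congr 2
    ring
  have e : ((LL p n k : PowerSeries C).subst (a ^ p ^ (n * m) : PowerSeries C) -
      ∑ j : Fin n, ((p : C) ^ m • M) k j • (LL p n j : PowerSeries C) : PowerSeries C) =
      PowerSeries.subst a ((LL p n (k + n * m) : PowerSeries C) - (p : C) ^ m • LL p n k) +
      (p : C) ^ m • ((LL p n k : PowerSeries C).subst a -
        ∑ j : Fin n, M k j • (LL p n j : PowerSeries C) : PowerSeries C) := by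
    rw [e1]
    have h5 : (PowerSeries.subst a ((LL p n (k + n * m) : PowerSeries C) -
        (p : C) ^ m • LL p n k) : PowerSeries C) =
        (LL p n (k + n * m) : PowerSeries C).subst a -
          (p : C) ^ m • (LL p n k : PowerSeries C).subst a := by
      simp only [← PowerSeries.coe_substAlgHom hs, map_sub, map_smul]
    rw [h5, smul_sub, Finset.smul_sum]
    simp only [Matrix.smul_apply, smul_eq_mul, smul_smul]
    abel
  unfold HasCoord
  rw [e]
  exact IsBd.add h2 ((hM k).smul _)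

omit hp hn in
omit [CompleteSpace C] in
theorem C0B.LL_subst_monomial {ζ : C} (hζ : ζ ^ p ^ n = ζ) (k l : ℕ) :
    ((LL p n k : PowerSeries C).subst (PowerSeries.C ζ * PowerSeries.X ^ p ^ l : PowerSeries C) :
      PowerSeries C) = ζ ^ p ^ k • (LL p n (k + l) : PowerSeries C) := by
  have hp0 : p ≠ 0 := (Fact.out : p.Prime).ne_zero
  have h1 := C0B.LL_subst p (n := n) k (σ := Unit)
    (a := PowerSeries.C ζ * (PowerSeries.X : PowerSeries C) ^ p ^ l)
    (Fel.constantCoeff_CX ζ (pow_ne_zero _ hp0))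
  have h2 : (PowerSeries.C ζ * (PowerSeries.X : PowerSeries C) ^ p ^ l) ^ p ^ k =
      PowerSeries.C (ζ ^ p ^ k) * (PowerSeries.X : PowerSeries C) ^ p ^ (k + l) := by
    rw [mul_pow, ← map_pow, ← pow_mul, ← pow_add, add_comm l k]
  have h3 : (ζ ^ p ^ k) ^ p ^ n = ζ ^ p ^ k := by
    rw [← pow_mul, mul_comm, pow_mul, hζ]
  refine h1.trans ?_
  rw [h2, hlog_eq]
  ext i
  rw [PowerSeries.coeff_smul]
  by_cases hi : ∃ t, i = p ^ t
  · obtain ⟨t, rfl⟩ := hi
    rw [Fel.coeff_Lp_subst_CX_pow, C0B.coeff_LL_pow]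
    split_ifs with hle
    · rw [hm_honda p n _ h3, smul_eq_mul]
    · rw [smul_zero]
  · push Not at hi
    rw [Fel.coeff_Lp_subst_CX_ne _ _ _ hi, C0B.coeff_LL_ne p _ hi, smul_zero]

theorem HasMat.monomial {ζ : C} (hζ : ζ ^ p ^ n = ζ) {l : ℕ} (hl : l < n) :
    HasMat p n (PowerSeries.C ζ * PowerSeries.X ^ p ^ l) (monMat p n ζ l) := by
  intro k
  unfold HasCoord
  have hr : ((k : ℕ) + l) % n < n := Nat.mod_lt _ hn
  have h1 : ∑ j : Fin n, monMat p n ζ l k j • (LL p n j : PowerSeries C) =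
      (ζ ^ p ^ (k : ℕ) * (p : C) ^ (((k : ℕ) + l) / n)) • (LL p n (((k : ℕ) + l) % n) :
        PowerSeries C) := by
    rw [Finset.sum_eq_single (⟨((k : ℕ) + l) % n, hr⟩ : Fin n)]
    · rw [monMat, Matrix.of_apply, if_pos rfl]
    · intro j _ hj
      rw [monMat, Matrix.of_apply, if_neg (fun h => hj (Fin.ext h)), zero_smul]
    · intro h; exact absurd (Finset.mem_univ _) h
  have h2 := C0B.LL_add_mul p (C := C) (((k : ℕ) + l) % n) (((k : ℕ) + l) / n) hn
  rw [Nat.mod_add_div] at h2
  rw [C0B.LL_subst_monomial p hζ, h1, mul_smul, ← smul_sub]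
  exact h2.smul _

end

omit [CompleteSpace C] in
theorem HasMat.X : HasMat p n (PowerSeries.X : PowerSeries C) 1 := by
  intro k
  unfold HasCoord
  have h1 : ((LL p n k : PowerSeries C).subst (PowerSeries.X : PowerSeries C) : PowerSeries C) =
      LL p n k := Fel.subst_X_self _
  rw [h1, Finset.sum_eq_single k, Matrix.one_apply_eq, one_smul, sub_self]
  · exact IsBd.zero
  · intro j _ hj
    rw [Matrix.one_apply_ne (Ne.symm hj), zero_smul]
  · intro h; exact absurd (Finset.mem_univ _) h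

omit [CompleteSpace C] in
theorem HasMat.zero : HasMat p n (0 : PowerSeries C) 0 := by
  intro k
  unfold HasCoord
  have h1 : ((LL p n k : PowerSeries C).subst (0 : PowerSeries C) : PowerSeries C) = 0 := by
    have h2 := C0B.LL_subst p (n := n) k (σ := Unit) (a := (0 : PowerSeries C)) (map_zero _)
    refine h2.trans ?_
    rw [zero_pow (pow_ne_zero _ (Fact.out : p.Prime).ne_zero), hlog_eq]
    ext i
    have h3 := Fel.coeff_Lp_subst (p := p) (τ := Unit) (Fel.hm p (prm n (0 : ℕ → C))) (a := 0)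
      (map_zero _) (Finsupp.single () i) _ le_rfl
    refine h3.trans (Eq.trans ?_ (map_zero _).symm)
    apply Finset.sum_eq_zero
    intro k _
    rw [zero_pow (pow_ne_zero k (Fact.out : p.Prime).ne_zero), coeff_zero, mul_zero]
  rw [h1]
  simp only [Matrix.zero_apply, zero_smul, Finset.sum_const_zero, sub_zero]
  exact IsBd.zero

omit [CompleteSpace C] in
theorem HasCoord.smul {g : PowerSeries C} {c : Fin n → C} (hg : HasCoord p n g c) (a : C) :
    HasCoord p n (a • g) (a • c) := by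
  have e : (a • g - ∑ k : Fin n, (a • c) k • (LL p n k : PowerSeries C) : PowerSeries C) =
      a • (g - ∑ k : Fin n, c k • (LL p n k : PowerSeries C) : PowerSeries C) := by
    rw [smul_sub, Finset.smul_sum]
    simp only [Pi.smul_apply, smul_eq_mul, smul_smul]
  unfold HasCoord
  rw [e]
  exact IsBd.smul hg a

omit [CompleteSpace C] in
theorem HasCoord.add {g g' : PowerSeries C} {c c' : Fin n → C} (hg : HasCoord p n g c)
    (hg' : HasCoord p n g' c') : HasCoord p n (g + g') (c + c') := by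
  have e : (g + g' - ∑ k : Fin n, (c + c') k • (LL p n k : PowerSeries C) : PowerSeries C) =
      (g - ∑ k : Fin n, c k • (LL p n k : PowerSeries C) : PowerSeries C) +
      (g' - ∑ k : Fin n, c' k • (LL p n k : PowerSeries C) : PowerSeries C) := by
    simp only [Pi.add_apply, add_smul, Finset.sum_add_distrib]
    abel
  unfold HasCoord
  rw [e]
  exact IsBd.add hg hg'

omit [CompleteSpace C] in
theorem HasCoord.add_isBd {g g' : PowerSeries C} {c : Fin n → C} (hg : HasCoord p n g c)
    (hg' : IsBd (g' - g : PowerSeries C)) : HasCoord p n g' c := by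
  have e : (g' - ∑ k : Fin n, c k • (LL p n k : PowerSeries C) : PowerSeries C) =
      (g - ∑ k : Fin n, c k • (LL p n k : PowerSeries C) : PowerSeries C) + (g' - g) := by
    abel
  unfold HasCoord
  rw [e]
  exact IsBd.add hg hg'

end Chai
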