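import Vale.Agent.Chai.Char0CAux

namespace Chai

open MvPowerSeries Filter Topology

namespace PerAux

variable (p : ℕ) [Fact p.Prime]
variable {C : Type*} [NontriviallyNormedField C] [IsUltrametricDist C] [CompleteSpace C] [CharZero C]
variable {n : ℕ} (x : Ball C) (c : C)

/-- the universal parameters `x_j + c z_j` -/
noncomputable def uu (j : ℕ) : MvPowerSeries (Idx 1 n) C :=
  if h : j ∈ Finset.Ico 1 n then MvPowerSeries.C (x.1 j) + c • X ⟨j, h⟩ else if j = n then 1 else 0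

/-- the coefficients of the universal logarithm -/
noncomputable def mm (k : ℕ) : MvPowerSeries (Idx 1 n) C := mR p (uu x c) k

omit [CompleteSpace C] [CharZero C] in
theorem NB_C {σ : Type*} (a : C) : NB (MvPowerSeries.C a : MvPowerSeries σ C) ‖a‖ := by
  classical
  intro d
  rw [coeff_C]
  split_ifs
  · exact le_rfl
  · simp

omit [IsUltrametricDist C] [CompleteSpace C] [CharZero C] in
theorem NB_X {σ : Type*} (i : σ) : NB (X i : MvPowerSeries σ C) 1 := by
  classical
  intro d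
  rw [coeff_X]
  split_ifs <;> simp

omit [CompleteSpace C] [CharZero C] in
theorem NB_zero {σ : Type*} {K : ℝ} (hK : 0 ≤ K) : NB (0 : MvPowerSeries σ C) K := by
  intro d
  simpa using hK

omit [CompleteSpace C] [CharZero C] in
theorem uu_NB {ρ : ℝ} (hx : ∀ j ∈ Finset.Ico 1 n, ‖x.1 j‖ ≤ ρ) (hc : ‖c‖ ≤ ρ) {j : ℕ}
    (hj : j ∈ Finset.Ico 1 n) : NB (uu (n := n) x c j) ρ := by
  unfold uu
  rw [dif_pos hj]
  refine NB.add ((NB_C _).mono (hx j hj)) ?_
  have := (NB_X (C := C) (⟨j, hj⟩ : Idx 1 n)).smul c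
  rw [mul_one] at this
  exact this.mono hc

omit [CompleteSpace C] [CharZero C] in
theorem uu_NB_one (hc : ‖c‖ ≤ 1) (j : ℕ) : NB (uu (n := n) x c j) 1 := by
  by_cases hj : j ∈ Finset.Ico 1 n
  · exact uu_NB x c (fun j _ => (x.2 j).le) hc hj
  · unfold uu
    rw [dif_neg hj]
    split_ifs
    · exact NB.one
    · exact NB_zero zero_le_one

omit [IsUltrametricDist C] [CompleteSpace C] [CharZero C] in
theorem uu_n : uu (n := n) x c n = 1 := by
  unfold uu
  rw [dif_neg (by simp), if_pos rfl]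

omit [IsUltrametricDist C] [CompleteSpace C] [CharZero C] in
theorem uu_gt {j : ℕ} (hj : n < j) : uu (n := n) x c j = 0 := by
  unfold uu
  rw [dif_neg (by rw [Finset.mem_Ico]; omega), if_neg (by omega)]

omit [Fact p.Prime] [IsUltrametricDist C] [CompleteSpace C] in
theorem natCast_mul {σ : Type*} (f : MvPowerSeries σ C) :
    (p : MvPowerSeries σ C) * f = (p : C) • f := by
  rw [← map_natCast (MvPowerSeries.C (σ := σ) (R := C)) p, ← MvPowerSeries.smul_eq_C_mul]

omit [IsUltrametricDist C] [CompleteSpace C] in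
theorem mm_zero : mm (n := n) p x c 0 = 1 := mR_zero p _

omit [IsUltrametricDist C] [CompleteSpace C] in
theorem mm_succ (k : ℕ) : (p : C) • mm (n := n) p x c (k + 1) =
    ∑ j ∈ Finset.range (k + 1), mm p x c j * uu x c (k + 1 - j) ^ p ^ j := by
  rw [← natCast_mul]
  exact mR_succ p _ k

omit [IsUltrametricDist C] [CompleteSpace C] in
theorem p_ne : (p : C) ≠ 0 := by exact_mod_cast (Fact.out : p.Prime).ne_zero

omit [IsUltrametricDist C] [CompleteSpace C] in
theorem p_pos : 0 < ‖(p : C)‖ := norm_pos_iff.2 (p_ne p)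

omit [CompleteSpace C] in
theorem mm_NB (hp : ‖(p : C)‖ < 1) (hc : ‖c‖ ≤ 1) (k : ℕ) :
    NB (mm (n := n) p x c k) (‖(p : C)‖⁻¹ ^ k) := by
  have hp0 := p_pos (C := C) p
  have hinv : 1 ≤ ‖(p : C)‖⁻¹ := (one_le_inv₀ hp0).2 hp.le
  induction k using Nat.strong_induction_on with
  | _ k ih =>
    cases k with
    | zero =>
      rw [mm_zero, pow_zero]
      exact NB.one
    | succ k =>
      have h1 : mm (n := n) p x c (k + 1) = (p : C)⁻¹ • ∑ j ∈ Finset.range (k + 1),
          mm p x c j * uu x c (k + 1 - j) ^ p ^ j := by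
        rw [← mm_succ, inv_smul_smul₀ (p_ne p)]
      rw [h1, pow_succ', ← norm_inv]
      refine NB.smul (NB.sum _ (by positivity) fun j hj => ?_) _
      rw [Finset.mem_range] at hj
      have h2 := (ih j hj).mul ((uu_NB_one (n := n) x c hc (k + 1 - j)).pow zero_le_one (p ^ j))
        (by positivity) (by positivity)
      rw [one_pow, mul_one] at h2
      refine h2.mono ?_
      rw [norm_inv]
      exact pow_le_pow_right₀ hinv (by omega)

/-- one step of the recursion -/
theorem step (hp : ‖(p : C)‖ < 1) (hn : 1 ≤ n) {ρ : ℝ} (hρ0 : 0 ≤ ρ) (hρ1 : ρ ≤ 1)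
    (hx : ∀ j ∈ Finset.Ico 1 n, ‖x.1 j‖ ≤ ρ) (hc : ‖c‖ ≤ ρ) {k : ℕ} {B : ℝ} (hB : 0 ≤ B)
    (h : ∀ j, k < j → j < k + n → NB ((p : C) ^ (j / n) • mm (n := n) p x c j) B) :
    NB ((p : C) ^ (k / n + 1) • mm (n := n) p x c (k + n) - (p : C) ^ (k / n) • mm p x c k)
      (‖(p : C)‖⁻¹ * B * ρ ^ p ^ k) := by
  have hp0 := p_pos (C := C) p
  obtain ⟨n', rfl⟩ := Nat.exists_eq_succ_of_ne_zero (by omega : n ≠ 0)
  set n := n'.succ with hndef
  have h1 : (p : C) ^ (k / n + 1) • mm (n := n) p x c (k + n) = (p : C) ^ (k / n) •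
      ∑ j ∈ Finset.range (k + n), mm (n := n) p x c j * uu x c (k + n - j) ^ p ^ j := by
    rw [pow_succ, mul_smul]
    congr 1
    exact mm_succ p x c (k + n')
  have hk : k ∈ Finset.range (k + n) := by rw [Finset.mem_range]; omega
  rw [h1, ← Finset.add_sum_erase _ _ hk, smul_add]
  have h2 : k + n - k = n := by omega
  rw [h2, uu_n, one_pow, mul_one, add_sub_cancel_left, Finset.smul_sum]
  refine NB.sum _ (by positivity) fun j hj => ?_
  rw [Finset.mem_erase, Finset.mem_range] at hj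
  rcases Nat.lt_or_ge j k with hjk | hjk
  · rw [uu_gt x c (by omega), zero_pow (pow_ne_zero _ (Fact.out : p.Prime).ne_zero), mul_zero, smul_zero]
    exact NB_zero (by positivity)
  · have hjk' : k < j := lt_of_le_of_ne hjk (fun h => hj.1 h.symm)
    have h3 : NB ((p : C) ^ (k / n) • mm (n := n) p x c j) (‖(p : C)‖⁻¹ * B) := by
      intro d
      have h4 := h j hjk' hj.2 d
      rw [coeff_smul, norm_mul, norm_pow] at h4 ⊢
      have h5 : j / n ≤ k / n + 1 := by
        calc j / n ≤ (k + n) / n := Nat.div_le_div_right (by omega)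
          _ = k / n + 1 := Nat.add_div_right _ (by omega)
      have h6 : ‖(p : C)‖ ^ (k / n) ≤ ‖(p : C)‖⁻¹ * ‖(p : C)‖ ^ (j / n) := by
        rw [inv_mul_eq_div, le_div_iff₀ hp0, ← pow_succ]
        exact pow_le_pow_of_le_one hp0.le hp.le h5
      calc ‖(p : C)‖ ^ (k / n) * ‖coeff d (mm (n := n) p x c j)‖
          ≤ (‖(p : C)‖⁻¹ * ‖(p : C)‖ ^ (j / n)) * ‖coeff d (mm (n := n) p x c j)‖ :=
            mul_le_mul_of_nonneg_right h6 (norm_nonneg _)
        _ = ‖(p : C)‖⁻¹ * (‖(p : C)‖ ^ (j / n) * ‖coeff d (mm (n := n) p x c j)‖) := by ring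
        _ ≤ ‖(p : C)‖⁻¹ * B := mul_le_mul_of_nonneg_left h4 (by positivity)
    have h7 : NB (uu (n := n) x c (k + n - j) ^ p ^ j) (ρ ^ p ^ k) := by
      refine ((uu_NB x c hx hc (by rw [Finset.mem_Ico]; omega)).pow hρ0 _).mono ?_
      exact pow_le_pow_of_le_one hρ0 hρ1 (Nat.pow_le_pow_right (Fact.out : p.Prime).pos hjk)
    rw [← smul_mul_assoc]
    exact h3.mul h7 (by positivity) (by positivity)

theorem exists_bound (hp : ‖(p : C)‖ < 1) (hn : 1 ≤ n) {ρ : ℝ} (hρ0 : 0 ≤ ρ) (hρ1 : ρ < 1)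
    (hx : ∀ j ∈ Finset.Ico 1 n, ‖x.1 j‖ ≤ ρ) (hc : ‖c‖ ≤ ρ) :
    ∃ B : ℝ, 0 ≤ B ∧ ∀ j, NB ((p : C) ^ (j / n) • mm (n := n) p x c j) B := by
  have hp0 := p_pos (C := C) p
  have hinv : 1 ≤ ‖(p : C)‖⁻¹ := (one_le_inv₀ hp0).2 hp.le
  obtain ⟨k0, hk0⟩ : ∃ k0 : ℕ, ρ ^ k0 ≤ ‖(p : C)‖ := by
    have h2 : Tendsto (fun n : ℕ => ρ ^ n) atTop (𝓝 0) :=
      tendsto_pow_atTop_nhds_zero_of_lt_one hρ0 hρ1
    obtain ⟨t, ht⟩ := (h2.eventually (gt_mem_nhds hp0)).exists
    exact ⟨t, ht.le⟩
  refine ⟨‖(p : C)‖⁻¹ ^ (k0 + n), by positivity, fun j => ?_⟩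
  induction j using Nat.strong_induction_on with
  | _ j ih =>
    rcases Nat.lt_or_ge j (k0 + n) with hj | hj
    · have h1 := (mm_NB (n := n) p x c hp (hc.trans hρ1.le) j).smul ((p : C) ^ (j / n))
      refine h1.mono ?_
      rw [norm_pow]
      calc ‖(p : C)‖ ^ (j / n) * ‖(p : C)‖⁻¹ ^ j ≤ 1 * ‖(p : C)‖⁻¹ ^ (k0 + n) := by
            apply mul_le_mul (pow_le_one₀ hp0.le hp.le) _ (by positivity) zero_le_one
            exact pow_le_pow_right₀ hinv hj.le
        _ = _ := one_mul _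
    · obtain ⟨k, rfl⟩ : ∃ k, j = k + n := ⟨j - n, by omega⟩
      have h1 := step p x c hp hn hρ0 hρ1.le hx hc (k := k) (B := ‖(p : C)‖⁻¹ ^ (k0 + n)) (by positivity)
        (fun i _ hi2 => ih i hi2)
      have h2 := ih k (by omega)
      have h3 : ‖(p : C)‖⁻¹ * ‖(p : C)‖⁻¹ ^ (k0 + n) * ρ ^ p ^ k ≤ ‖(p : C)‖⁻¹ ^ (k0 + n) := by
        have h4 : ρ ^ p ^ k ≤ ‖(p : C)‖ := by
          refine le_trans ?_ hk0
          apply pow_le_pow_of_le_one hρ0 hρ1.le
          have := (Nat.lt_pow_self (Fact.out : p.Prime).one_lt (n := k)).le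
          omega
        calc ‖(p : C)‖⁻¹ * ‖(p : C)‖⁻¹ ^ (k0 + n) * ρ ^ p ^ k
            ≤ ‖(p : C)‖⁻¹ * ‖(p : C)‖⁻¹ ^ (k0 + n) * ‖(p : C)‖ :=
              mul_le_mul_of_nonneg_left h4 (by positivity)
          _ = ‖(p : C)‖⁻¹ ^ (k0 + n) := by
              field_simp
      have h5 := (h1.mono h3).add h2
      rw [sub_add_cancel] at h5
      rwa [Nat.add_div_right _ (by omega)]

theorem exists_P (hp : ‖(p : C)‖ < 1) (hn : 1 ≤ n) {ρ : ℝ} (hρ0 : 0 < ρ) (hρ1 : ρ < 1)
    (hx : ∀ j ∈ Finset.Ico 1 n, ‖x.1 j‖ ≤ ρ) (hc : ‖c‖ ≤ ρ) :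
    ∃ (K : ℝ) (P : Fin n → MvPowerSeries (Idx 1 n) C), 0 ≤ K ∧ (∀ r, NB (P r) K) ∧
      ∀ (r : Fin n) (i : ℕ), NB ((p : C) ^ i • mm (n := n) p x c (r + n * i) - P r) (K * ‖(p : C)‖ ^ i) := by
  have hp0 := p_pos (C := C) p
  obtain ⟨B, hB0, hB⟩ := exists_bound p x c hp hn hρ0.le hρ1 hx hc
  obtain ⟨K2, hK20, hK2⟩ := exists_super hρ0 hρ1 hp0 (Fact.out : p.Prime).two_le
  set K := ‖(p : C)‖⁻¹ * B * K2 with hK
  have hK0 : 0 ≤ K := by positivity
  have hdiv : ∀ (r : Fin n) (i : ℕ), ((r : ℕ) + n * i) / n = i := by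
    intro r i
    rw [Nat.add_mul_div_left _ _ (by omega), Nat.div_eq_of_lt r.2, zero_add]
  have hstep : ∀ (r : Fin n) (i : ℕ) (d), ‖coeff d ((p : C) ^ (i + 1) • mm (n := n) p x c (r + n * (i + 1))) -
      coeff d ((p : C) ^ i • mm (n := n) p x c (r + n * i))‖ ≤ K * ‖(p : C)‖ ^ i := by
    intro r i d
    have h1 := step p x c hp hn hρ0.le hρ1.le hx hc (k := (r : ℕ) + n * i) hB0 (fun j _ _ => hB j) d
    rw [hdiv, map_sub] at h1
    have h2 : (r : ℕ) + n * (i + 1) = (r : ℕ) + n * i + n := by ring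
    rw [h2]
    refine h1.trans ?_
    rw [hK]
    rw [mul_assoc (‖(p : C)‖⁻¹ * B) K2]
    apply mul_le_mul_of_nonneg_left _ (by positivity)
    refine (hK2 _).trans ?_
    apply mul_le_mul_of_nonneg_left _ hK20
    apply pow_le_pow_of_le_one hp0.le hp.le
    have : i ≤ n * i := Nat.le_mul_of_pos_left _ (by omega)
    omega
  have hlim : ∀ (r : Fin n) (d), ∃ L, ∀ i, ‖coeff d ((p : C) ^ i • mm (n := n) p x c (r + n * i)) - L‖ ≤
      K * ‖(p : C)‖ ^ i := fun r d => exists_lim hp0.le hp (hstep r · d)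
  choose L hL using hlim
  let PP : Fin n → MvPowerSeries (Idx 1 n) C := fun r d => L r d
  have hPP : ∀ r d, coeff d (PP r) = L r d := fun r d => rfl
  refine ⟨max K B, PP, le_max_of_le_left hK0, ?_, ?_⟩
  · intro r d
    have h1 := hL r d 0
    have h2 := hB (r : ℕ) d
    rw [Nat.div_eq_of_lt r.2, pow_zero, one_smul] at h2
    rw [pow_zero, one_smul, mul_zero, add_zero, pow_zero, mul_one] at h1
    rw [hPP]
    have h3 : L r d = coeff d (mm (n := n) p x c r) + -(coeff d (mm (n := n) p x c r) - L r d) := by ring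
    rw [h3]
    refine (IsUltrametricDist.norm_add_le_max _ _).trans (max_le ?_ ?_)
    · exact h2.trans (le_max_right _ _)
    · rw [norm_neg]
      exact h1.trans (le_max_left _ _)
  · intro r i d
    rw [map_sub, hPP]
    refine (hL r d i).trans ?_
    exact mul_le_mul_of_nonneg_right (le_max_left _ _) (by positivity)

/-- evaluation of the parameters -/
theorem ev_uu (z : Idx 1 n → C) (hz : ∀ i, ‖z i‖ < 1) (hcz : ∀ i, ‖c * z i‖ < 1) (j : ℕ) :
    ev z (uu x c j) = prm n (shiftB x (fun i => c * z i) hcz).1 j := by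
  unfold uu prm
  by_cases hj : j ∈ Finset.Ico 1 n
  · have hj' := Finset.mem_Ico.1 hj
    rw [dif_pos hj, if_pos hj', ev_add' hz (NB_C _) ((NB_X _).smul c), ev_smul', ev_C, ev_X]
    unfold shiftB
    simp only
    rw [dif_pos hj]
  · have hj' : ¬ (1 ≤ j ∧ j < n) := fun h => hj (Finset.mem_Ico.2 h)
    rw [dif_neg hj, if_neg hj']
    split_ifs
    · have := ev_C z (1 : C)
      rwa [map_one] at this
    · exact ev_zero z

theorem ev_mm (hp : ‖(p : C)‖ < 1) (hc : ‖c‖ ≤ 1) (z : Idx 1 n → C) (hz : ∀ i, ‖z i‖ < 1)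
    (hcz : ∀ i, ‖c * z i‖ < 1) (k : ℕ) :
    ev z (mm p x c k) = mR p (prm n (shiftB x (fun i => c * z i) hcz).1) k := by
  have hp0 := p_pos (C := C) p
  have hinv : 1 ≤ ‖(p : C)‖⁻¹ := (one_le_inv₀ hp0).2 hp.le
  induction k using Nat.strong_induction_on with
  | _ k ih =>
    cases k with
    | zero =>
      rw [mm_zero, mR_zero]
      have := ev_C z (1 : C)
      rwa [map_one] at this
    | succ k =>
      apply mul_left_cancel₀ (p_ne (C := C) p)
      rw [mR_succ, ← ev_smul', mm_succ, ev_sum' hz _ (K := ‖(p : C)‖⁻¹ ^ (k + 1)) (by positivity)]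
      · refine Finset.sum_congr rfl fun j hj => ?_
        rw [Finset.mem_range] at hj
        rw [ev_mul' hz (mm_NB p x c hp hc j) ((uu_NB_one x c hc _).pow zero_le_one _), ih j hj,
          ev_pow' hz (uu_NB_one x c hc _) zero_le_one, ev_uu x c z hz hcz]
      · intro j hj
        rw [Finset.mem_range] at hj
        have h2 := (mm_NB (n := n) p x c hp hc j).mul ((uu_NB_one (n := n) x c hc (k + 1 - j)).pow zero_le_one (p ^ j))
          (by positivity) (by positivity)
        rw [one_pow, mul_one] at h2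
        exact h2.mono (pow_le_pow_right₀ hinv hj.le)

/-! ### étaleness -/

section etale

omit [IsUltrametricDist C] [CompleteSpace C] [CharZero C] in
theorem coeff_single_mul {σ : Type*} [DecidableEq σ] (j : σ) (f g : MvPowerSeries σ C) :
    coeff (Finsupp.single j 1) (f * g) = coeff (Finsupp.single j 1) f * constantCoeff g +
      constantCoeff f * coeff (Finsupp.single j 1) g := by
  rw [coeff_mul, Finsupp.antidiagonal_single, Finset.sum_map]
  rw [show Finset.HasAntidiagonal.antidiagonal 1 = ({(0, 1), (1, 0)} : Finset (ℕ × ℕ)) by rfl]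
  rw [Finset.sum_pair (by simp)]
  simp only [Function.Embedding.prodMap, Function.Embedding.coeFn_mk, Prod.map, Finsupp.single_zero,
    coeff_zero_eq_constantCoeff_apply]
  ring

/-- `∑ e_j ∂_j f (0)` -/
noncomputable def dl {σ : Type*} [Fintype σ] (e : σ → C) (f : MvPowerSeries σ C) : C :=
  ∑ j, e j * coeff (Finsupp.single j 1) f

omit [IsUltrametricDist C] [CompleteSpace C] [CharZero C] in
theorem dl_mul {σ : Type*} [Fintype σ] [DecidableEq σ] (e : σ → C) (f g : MvPowerSeries σ C) :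
    dl e (f * g) = dl e f * constantCoeff g + constantCoeff f * dl e g := by
  unfold dl
  rw [Finset.sum_mul, Finset.mul_sum, ← Finset.sum_add_distrib]
  refine Finset.sum_congr rfl fun j _ => ?_
  rw [coeff_single_mul]
  ring

omit [IsUltrametricDist C] [CompleteSpace C] [CharZero C] in
theorem dl_one {σ : Type*} [Fintype σ] [DecidableEq σ] (e : σ → C) : dl e (1 : MvPowerSeries σ C) = 0 := by
  unfold dl
  refine Finset.sum_eq_zero fun j _ => ?_
  rw [coeff_one, if_neg (by simp), mul_zero]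

omit [IsUltrametricDist C] [CompleteSpace C] [CharZero C] in
theorem dl_pow {σ : Type*} [Fintype σ] [DecidableEq σ] (e : σ → C) (f : MvPowerSeries σ C) (m : ℕ) :
    dl e (f ^ m) = m * constantCoeff f ^ (m - 1) * dl e f := by
  induction m with
  | zero => rw [pow_zero, dl_one]; simp
  | succ m ih =>
    rw [pow_succ, dl_mul, ih, map_pow, Nat.add_sub_cancel]
    cases m with
    | zero => simp
    | succ m =>
      rw [Nat.add_sub_cancel, pow_succ]
      push_cast
      ring

/-- `e_0 f(0) + ∑ e_j ∂_j f (0)` -/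
noncomputable def Dl {σ : Type*} [Fintype σ] (e0 : C) (e : σ → C) (f : MvPowerSeries σ C) : C :=
  e0 * constantCoeff f + dl e f

omit [IsUltrametricDist C] [CompleteSpace C] [CharZero C] in
theorem Dl_mul {σ : Type*} [Fintype σ] [DecidableEq σ] (e0 : C) (e : σ → C) (f g : MvPowerSeries σ C) :
    Dl e0 e (f * g) = Dl e0 e f * constantCoeff g + constantCoeff f * dl e g := by
  unfold Dl
  rw [dl_mul, map_mul]
  ring

omit [IsUltrametricDist C] [CompleteSpace C] [CharZero C] in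
theorem Dl_sum {σ : Type*} [Fintype σ] {ι : Type*} (s : Finset ι) (e0 : C) (e : σ → C)
    (f : ι → MvPowerSeries σ C) : Dl e0 e (∑ i ∈ s, f i) = ∑ i ∈ s, Dl e0 e (f i) := by
  unfold Dl dl
  rw [Finset.sum_add_distrib, map_sum, Finset.mul_sum, Finset.sum_comm]
  congr 1
  refine Finset.sum_congr rfl fun j _ => ?_
  rw [map_sum, Finset.mul_sum]

omit [IsUltrametricDist C] [CompleteSpace C] [CharZero C] in
theorem Dl_smul {σ : Type*} [Fintype σ] (e0 : C) (e : σ → C) (a : C) (f : MvPowerSeries σ C) :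
    Dl e0 e (a • f) = a * Dl e0 e f := by
  unfold Dl dl
  rw [mul_add, Finset.mul_sum, constantCoeff_smul]
  congr 1
  · ring
  · refine Finset.sum_congr rfl fun j _ => ?_
    rw [coeff_smul]
    ring

omit [IsUltrametricDist C] [CompleteSpace C] [CharZero C] in
theorem Dl_sub {σ : Type*} [Fintype σ] (e0 : C) (e : σ → C) (f g : MvPowerSeries σ C) :
    Dl e0 e (f - g) = Dl e0 e f - Dl e0 e g := by
  unfold Dl dl
  rw [map_sub]
  have : ∑ j, e j * coeff (Finsupp.single j 1) (f - g) =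
      ∑ j, e j * coeff (Finsupp.single j 1) f - ∑ j, e j * coeff (Finsupp.single j 1) g := by
    rw [← Finset.sum_sub_distrib]
    refine Finset.sum_congr rfl fun j _ => ?_
    rw [map_sub]
    ring
  rw [this]
  ring

omit [CompleteSpace C] [CharZero C] in
theorem norm_Dl_le {σ : Type*} [Fintype σ] (e0 : C) (e : σ → C) {f : MvPowerSeries σ C} {K : ℝ}
    (hf : NB f K) : ‖Dl e0 e f‖ ≤ (‖e0‖ + ∑ j, ‖e j‖) * K := by
  unfold Dl dl
  refine (norm_add_le _ _).trans ?_
  rw [add_mul]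
  refine add_le_add ?_ ?_
  · rw [norm_mul]
    refine mul_le_mul_of_nonneg_left ?_ (norm_nonneg _)
    have := hf 0
    rwa [coeff_zero_eq_constantCoeff_apply] at this
  · rw [Finset.sum_mul]
    refine norm_sum_le_of_le _ fun j _ => ?_
    rw [norm_mul]
    exact mul_le_mul_of_nonneg_left (hf _) (norm_nonneg _)

/-- `c e_j` extended by zero -/
noncomputable def eh (e : Idx 1 n → C) (j : ℕ) : C := if h : j ∈ Finset.Ico 1 n then c * e ⟨j, h⟩ else 0

omit [IsUltrametricDist C] [CompleteSpace C] [CharZero C] in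
theorem dl_uu (e : Idx 1 n → C) (j : ℕ) : dl e (uu x c j) = eh c e j := by
  unfold uu eh
  by_cases hj : j ∈ Finset.Ico 1 n
  · rw [dif_pos hj, dif_pos hj]
    unfold dl
    rw [Finset.sum_eq_single (⟨j, hj⟩ : Idx 1 n)]
    · rw [map_add, coeff_smul, coeff_C, if_neg (by simp), coeff_X, if_pos rfl]
      ring
    · intro b _ hb
      rw [map_add, coeff_smul, coeff_C, if_neg (by simp), coeff_X, if_neg ?_]
      · ring
      · intro h
        apply hb
        exact Finsupp.single_left_injective one_ne_zero h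
    · intro h
      exact absurd (Finset.mem_univ _) h
  · rw [dif_neg hj, dif_neg hj]
    split_ifs
    · exact dl_one e
    · unfold dl
      refine Finset.sum_eq_zero fun j _ => ?_
      simp

omit [CompleteSpace C] [CharZero C] in
theorem norm_const_uu {ρ : ℝ} (hx : ∀ j ∈ Finset.Ico 1 n, ‖x.1 j‖ ≤ ρ) (hc : ‖c‖ ≤ ρ) {j : ℕ}
    (hj : j ∈ Finset.Ico 1 n) : ‖constantCoeff (uu (n := n) x c j)‖ ≤ ρ := by
  have := uu_NB x c hx hc hj 0
  rwa [coeff_zero_eq_constantCoeff_apply] at this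

omit [IsUltrametricDist C] [CompleteSpace C] in
theorem Dl_rec (e0 : C) (e : Idx 1 n → C) (k : ℕ) (hk : 1 ≤ k) :
    (p : C) * Dl e0 e (mm p x c k) = ∑ j ∈ Finset.range k,
      (Dl e0 e (mm p x c j) * constantCoeff (uu (n := n) x c (k - j)) ^ p ^ j +
        constantCoeff (mm (n := n) p x c j) * ((p : C) ^ j *
          constantCoeff (uu (n := n) x c (k - j)) ^ (p ^ j - 1) * eh c e (k - j))) := by
  obtain ⟨k, rfl⟩ := Nat.exists_eq_succ_of_ne_zero (by omega : k ≠ 0)
  rw [← Dl_smul, Nat.succ_eq_add_one, mm_succ, Dl_sum]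
  refine Finset.sum_congr rfl fun j _ => ?_
  rw [Dl_mul, dl_pow, dl_uu, map_pow]
  push_cast
  rfl

theorem etale (hp : ‖(p : C)‖ < 1) (hn : 1 ≤ n) (hc0 : c ≠ 0) {ρ : ℝ} (hρ0 : 0 < ρ) (hρ1 : ρ < 1)
    (hpρ : ‖(p : C)‖ ≤ ρ)
    (hx : ∀ j ∈ Finset.Ico 1 n, ‖x.1 j‖ ≤ ρ) (hc : ‖c‖ ≤ ρ) {K : ℝ} {P : Fin n → MvPowerSeries (Idx 1 n) C}
    (hP : ∀ (r : Fin n) (i : ℕ), NB ((p : C) ^ i • mm (n := n) p x c (r + n * i) - P r) (K * ‖(p : C)‖ ^ i))
    (e0 : C) (e : Idx 1 n → C) (h : ∀ k, Dl e0 e (P k) = 0) : e0 = 0 ∧ e = 0 := by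
  have hp0 := p_pos (C := C) p
  have hpp := (Fact.out : p.Prime)
  set F : ℝ := ‖e0‖ + ∑ j, ‖e j‖ with hF
  have hF0 : 0 ≤ F := by positivity
  set η : ℕ → C := fun k => Dl e0 e (mm p x c k) with hη
  have hηb : ∀ k, ‖η k‖ ≤ F * K := by
    intro k
    have hk : k % n < n := Nat.mod_lt _ (by omega)
    have h1 := norm_Dl_le e0 e (hP ⟨k % n, hk⟩ (k / n))
    rw [Dl_sub, h, sub_zero, Dl_smul, norm_mul, norm_pow] at h1
    have h2 : k % n + n * (k / n) = k := Nat.mod_add_div k n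
    simp only [h2] at h1
    rw [← mul_assoc, mul_comm (F * K)] at h1
    exact le_of_mul_le_mul_left h1 (by positivity)
  have heb : ∀ k, ‖eh c e k‖ ≤ F := by
    intro k
    unfold eh
    split_ifs with hk
    · rw [norm_mul]
      have h1 : ‖e ⟨k, hk⟩‖ ≤ ∑ j, ‖e j‖ :=
        Finset.single_le_sum (f := fun j => ‖e j‖) (fun j _ => norm_nonneg _) (Finset.mem_univ _)
      calc ‖c‖ * ‖e ⟨k, hk⟩‖ ≤ 1 * ‖e ⟨k, hk⟩‖ :=
            mul_le_mul_of_nonneg_right (hc.trans hρ1.le) (norm_nonneg _)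
        _ ≤ F := by
            rw [one_mul, hF]
            linarith [norm_nonneg e0]
    · rw [norm_zero]
      exact hF0
  have hbdd : BddAbove (Set.range fun k => max ‖η k‖ ‖eh c e k‖) := by
    refine ⟨max (F * K) F, ?_⟩
    rintro _ ⟨k, rfl⟩
    exact max_le_max (hηb k) (heb k)
  set T : ℝ := ⨆ k, max ‖η k‖ ‖eh c e k‖ with hT
  have hTη : ∀ k, ‖η k‖ ≤ T := fun k => (le_max_left _ _).trans (le_ciSup hbdd k)
  have hTe : ∀ k, ‖eh c e k‖ ≤ T := fun k => (le_max_right _ _).trans (le_ciSup hbdd k)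
  have hT0 : 0 ≤ T := (norm_nonneg _).trans (hTη 0)
  -- the generic term
  have hterm : ∀ k j, j < k → k - j ≠ n → (k - j < n → 1 ≤ j) →
      ‖η j * constantCoeff (uu (n := n) x c (k - j)) ^ p ^ j +
        constantCoeff (mm (n := n) p x c j) * ((p : C) ^ j *
          constantCoeff (uu (n := n) x c (k - j)) ^ (p ^ j - 1) * eh c e (k - j))‖ ≤ ρ * T := by
    intro k j hjk hne hlt
    rcases Nat.lt_or_ge (k - j) n with h1 | h1
    · have hj := hlt h1
      have hmem : k - j ∈ Finset.Ico 1 n := Finset.mem_Ico.2 ⟨by omega, h1⟩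
      have hu := norm_const_uu (n := n) x c hx hc hmem
      have hpj : p ^ j - 1 ≠ 0 := by
        have : 2 ≤ p ^ j := by
          calc 2 ≤ p := hpp.two_le
            _ = p ^ 1 := (pow_one p).symm
            _ ≤ p ^ j := Nat.pow_le_pow_right hpp.pos hj
        omega
      refine (IsUltrametricDist.norm_add_le_max _ _).trans (max_le ?_ ?_)
      · rw [norm_mul, norm_pow, mul_comm]
        refine mul_le_mul ?_ (hTη j) (norm_nonneg _) hρ0.le
        calc ‖constantCoeff (uu (n := n) x c (k - j))‖ ^ p ^ j ≤ ρ ^ p ^ j :=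
              pow_le_pow_left₀ (norm_nonneg _) hu _
          _ ≤ ρ := pow_le_of_le_one hρ0.le hρ1.le (pow_ne_zero _ hpp.ne_zero)
      · have h2 : ‖constantCoeff (mm (n := n) p x c j)‖ * ‖(p : C)‖ ^ j ≤ 1 := by
          have h3 := mm_NB (n := n) p x c hp (hc.trans hρ1.le) j 0
          rw [coeff_zero_eq_constantCoeff_apply] at h3
          calc ‖constantCoeff (mm (n := n) p x c j)‖ * ‖(p : C)‖ ^ j ≤ ‖(p : C)‖⁻¹ ^ j * ‖(p : C)‖ ^ j :=
                mul_le_mul_of_nonneg_right h3 (by positivity)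
            _ = 1 := by rw [← mul_pow, inv_mul_cancel₀ hp0.ne', one_pow]
        have h4 : ‖constantCoeff (uu (n := n) x c (k - j))‖ ^ (p ^ j - 1) ≤ ρ :=
          (pow_le_pow_left₀ (norm_nonneg _) hu _).trans (pow_le_of_le_one hρ0.le hρ1.le hpj)
        rw [norm_mul, norm_mul, norm_mul, norm_pow, norm_pow]
        calc ‖constantCoeff (mm (n := n) p x c j)‖ * (‖(p : C)‖ ^ j *
              ‖constantCoeff (uu (n := n) x c (k - j))‖ ^ (p ^ j - 1) * ‖eh c e (k - j)‖)
            = (‖constantCoeff (mm (n := n) p x c j)‖ * ‖(p : C)‖ ^ j) *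
              (‖constantCoeff (uu (n := n) x c (k - j))‖ ^ (p ^ j - 1) * ‖eh c e (k - j)‖) := by ring
          _ ≤ 1 * (ρ * T) := by
              apply mul_le_mul h2 _ (by positivity) zero_le_one
              exact mul_le_mul h4 (hTe _) (norm_nonneg _) hρ0.le
          _ = ρ * T := one_mul _
    · have h2 : n < k - j := lt_of_le_of_ne h1 (Ne.symm hne)
      have h3 : eh c e (k - j) = 0 := by
        unfold eh
        rw [dif_neg]
        rw [Finset.mem_Ico]
        omega
      rw [uu_gt x c h2, h3, map_zero, zero_pow (pow_ne_zero _ hpp.ne_zero), mul_zero, mul_zero, mul_zero,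
        add_zero, norm_zero]
      positivity
  have hkey1 : ∀ k, ‖η k‖ ≤ ρ * T := by
    intro k
    have h1 := Dl_rec p x c e0 e (k + n) (by omega)
    have hk : k ∈ Finset.range (k + n) := by rw [Finset.mem_range]; omega
    rw [← Finset.add_sum_erase _ _ hk] at h1
    have h2 : k + n - k = n := by omega
    have h3 : eh c e n = 0 := by
      unfold eh
      rw [dif_neg]
      rw [Finset.mem_Ico]
      omega
    rw [h2, uu_n, h3, map_one, one_pow, mul_one, mul_zero, mul_zero, add_zero] at h1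
    have h4 : η k = (p : C) * η (k + n) + -∑ j ∈ (Finset.range (k + n)).erase k,
      (Dl e0 e (mm p x c j) * constantCoeff (uu (n := n) x c (k + n - j)) ^ p ^ j +
        constantCoeff (mm (n := n) p x c j) * ((p : C) ^ j *
          constantCoeff (uu (n := n) x c (k + n - j)) ^ (p ^ j - 1) * eh c e (k + n - j))) := by
      rw [hη]
      simp only
      rw [h1]
      ring
    rw [h4]
    refine (IsUltrametricDist.norm_add_le_max _ _).trans (max_le ?_ ?_)
    · rw [norm_mul]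
      exact mul_le_mul hpρ (hTη _) (norm_nonneg _) hρ0.le
    · rw [norm_neg]
      refine IsUltrametricDist.norm_sum_le_of_forall_le_of_nonneg (by positivity) fun j hj => ?_
      rw [Finset.mem_erase, Finset.mem_range] at hj
      exact hterm (k + n) j hj.2 (by omega) (by omega)
  have hkey2 : ∀ k, ‖eh c e k‖ ≤ ρ * T := by
    intro k
    by_cases hk : k ∈ Finset.Ico 1 n
    · have hk' := Finset.mem_Ico.1 hk
      have h1 := Dl_rec p x c e0 e k hk'.1
      have h0 : 0 ∈ Finset.range k := by rw [Finset.mem_range]; omega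
      rw [← Finset.add_sum_erase _ _ h0] at h1
      rw [Nat.sub_zero, pow_zero, pow_one, pow_zero, Nat.sub_self, pow_zero, mm_zero, map_one, one_mul, one_mul,
        one_mul] at h1
      have h4 : eh c e k = ((p : C) * η k + -(Dl e0 e 1 * constantCoeff (uu (n := n) x c k))) +
        -∑ j ∈ (Finset.range k).erase 0,
      (Dl e0 e (mm p x c j) * constantCoeff (uu (n := n) x c (k - j)) ^ p ^ j +
        constantCoeff (mm (n := n) p x c j) * ((p : C) ^ j *
          constantCoeff (uu (n := n) x c (k - j)) ^ (p ^ j - 1) * eh c e (k - j))) := by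
        rw [hη]
        simp only
        rw [h1]
        ring
      rw [h4]
      refine (IsUltrametricDist.norm_add_le_max _ _).trans (max_le
        ((IsUltrametricDist.norm_add_le_max _ _).trans (max_le ?_ ?_)) ?_)
      · rw [norm_mul]
        exact mul_le_mul hpρ (hTη _) (norm_nonneg _) hρ0.le
      · rw [norm_neg, norm_mul, mul_comm]
        refine mul_le_mul (norm_const_uu (n := n) x c hx hc hk) ?_ (norm_nonneg _) hρ0.le
        have := hTη 0
        rw [hη] at this
        simp only [mm_zero] at this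
        exact this
      · rw [norm_neg]
        refine IsUltrametricDist.norm_sum_le_of_forall_le_of_nonneg (by positivity) fun j hj => ?_
        rw [Finset.mem_erase, Finset.mem_range] at hj
        exact hterm k j hj.2 (by omega) (by omega)
    · have h3 : eh c e k = 0 := by
        unfold eh
        rw [dif_neg hk]
      rw [h3, norm_zero]
      positivity
  have hT1 : T ≤ ρ * T := ciSup_le fun k => max_le (hkey1 k) (hkey2 k)
  have hT2 : T ≤ 0 := by nlinarith
  constructor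
  · have h1 := (hTη 0).trans hT2
    rw [hη] at h1
    simp only [mm_zero] at h1
    unfold Dl at h1
    rw [dl_one, map_one, mul_one, add_zero] at h1
    exact norm_le_zero_iff.1 h1
  · funext j
    have h1 := (hTe j.1).trans hT2
    unfold eh at h1
    rw [dif_pos j.2] at h1
    have h2 := norm_le_zero_iff.1 h1
    exact (mul_eq_zero.1 h2).resolve_left hc0

end etale

end PerAux

end Chai
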