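import Vale.Agent.Chai.Char0B
import Vale.Agent.Chai.Char0CSer

/-!
# P217 / Char0C: the period map (coordinates of `log_x`) is analytic and étale

OWNER: helper6 (done; Char0CAux = norms, evaluation; Char0CSer = the series m_k, limits, etaleness)

PROOF.  `R` = power series in `z = (z_j)_{1≤j<n}` with bounded coefficients, `‖f‖` = sup of the norms of the
coefficients (submultiplicative, complete).  Choose `c ≠ 0`, `‖c‖ < 1`, `ρ = max (‖p‖, ‖c‖, ‖x_j‖) < 1`;
`u_j = x_j + c z_j` (`1 ≤ j < n`), `u_n = 1`.  `m_k ∈ R`: the coefficients of the logarithm at `u`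
(`hazM` evaluated at `u`), `p m_k = ∑_{1≤j≤min(n,k)} m_{k-j} u_j^{p^{k-j}}`.
* `‖m_k‖ ≤ ‖p‖^{-k}`, more precisely `‖p^k m_k‖ ≤ 1`; choose `k_0` with `ρ^{p^{k-n}} ≤ ‖p‖` for `k ≥ k_0`, then by
  induction `‖m_k‖ ≤ K ‖p‖^{-⌊k/n⌋}`.
* `y_i := p^i m_{k+ni}`: `y_i - y_{i-1} = p^{i-1} ∑_{1≤j<n} m_{k+ni-j} u_j^{p^{k+ni-j}}` has norm
  `≤ ‖p‖^{i-1} K ‖p‖^{-⌊(k+ni)/n⌋} ρ^{p^{k+ni-n}}`, even `≤ K' ‖p‖^i`: the limit `P_k` exists and
  `‖m_{k+ni} - p^{-i} P_k‖ ≤ K'`.  So (evaluating at `z`) `hlog - ∑ P_k(z) L_k` is bounded.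
  Scale everything by `a ≠ 0` with `‖a P_k‖ ≤ 1`.
* étale: let `D = e_0 · (constant coefficient) + ∑ e_j · (coefficient of z_j)`, suppose `D(P_k) = 0` for all
  `k < n`.  `y_k := D(m_k)` is bounded by the previous point, `s := sup ‖y_k‖`, `E := max ‖c e_j‖`.
  Applying `D` to the recursion (`x_n = 1`):
  `p y_k = ∑_{1≤j≤min(n,k)} y_{k-j} x_j^{p^{k-j}} + ∑_{1≤j<n, j≤k} c e_j m_{k-j}(x) p^{k-j} x_j^{p^{k-j}-1}`.
  `k ≥ n`: solve for `y_{k-n}`: `‖y_{k-n}‖ ≤ ρ max(s, E)` (`‖m_{k-j}(x) p^{k-j}‖ ≤ 1`), so `s ≤ ρ max(s,E)`,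
  `s ≤ ρ E`.  `1 ≤ k < n`: solve for the term `j = k` of the second sum, `c e_k`:
  `‖c e_k‖ ≤ ρ max(s, E) ≤ ρ E`.  So `E = 0`, `s = 0`, `e_0 = y_0 = 0`.
-/

namespace Chai

open MvPowerSeries Filter Topology

namespace PerAux

variable (p : ℕ) [Fact p.Prime]
variable {C : Type*} [NontriviallyNormedField C] [IsUltrametricDist C] [CompleteSpace C] [CharZero C]
variable {n : ℕ}

omit [IsUltrametricDist C] [CompleteSpace C] in
theorem mR_honda (hn : 1 ≤ n) (m : ℕ) :
    mR p (prm n (0 : ℕ → C)) m = if n ∣ m then ((p : C) ^ (m / n))⁻¹ else 0 := by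
  have hpr : ∀ i, prm n (0 : ℕ → C) i = if i = n then 1 else 0 := by
    intro i
    unfold prm
    split_ifs <;> first | rfl | omega
  have hp0 : (p : C) ≠ 0 := p_ne p
  induction m using Nat.strong_induction_on with
  | _ m ih =>
    cases m with
    | zero => rw [mR_zero]; simp
    | succ k =>
      apply mul_left_cancel₀ hp0
      rw [mR_succ]
      rcases Nat.lt_or_ge (k + 1) n with hk | hk
      · rw [Finset.sum_eq_zero, if_neg, mul_zero]
        · intro h
          have := Nat.le_of_dvd (by omega) h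
          omega
        · intro j _
          rw [hpr, if_neg (by omega), zero_pow (pow_ne_zero _ (Fact.out : p.Prime).ne_zero), mul_zero]
      · obtain ⟨l, hl⟩ : ∃ l, k + 1 = l + n := ⟨k + 1 - n, by omega⟩
        rw [hl, Finset.sum_eq_single l]
        · have h1 : l + n - l = n := by omega
          rw [h1, hpr, if_pos rfl, one_pow, mul_one, ih l (by omega)]
          have h2 : (n ∣ l + n) ↔ n ∣ l := Nat.dvd_add_self_right
          by_cases h3 : n ∣ l
          · rw [if_pos h3, if_pos (h2.2 h3), Nat.add_div_right _ (by omega), pow_succ, mul_inv]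
            field_simp
          · rw [if_neg h3, if_neg (fun h => h3 (h2.1 h)), mul_zero]
        · intro j hj hjl
          rw [Finset.mem_range] at hj
          rw [hpr, if_neg (by omega), zero_pow (pow_ne_zero _ (Fact.out : p.Prime).ne_zero), mul_zero]
        · intro h
          rw [Finset.mem_range] at h
          omega

theorem coeff_LL_pow (hn : 1 ≤ n) (k : Fin n) (m : ℕ) :
    PowerSeries.coeff (p ^ m) (LL p n k : PowerSeries C) =
      if (k : ℕ) = m % n then ((p : C) ^ (m / n))⁻¹ else 0 := by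
  have hpp := (Fact.out : p.Prime)
  unfold LL
  rw [PowerSeries.coeff_subst_X_pow (pow_ne_zero _ hpp.ne_zero), Algebra.algebraMap_self_apply]
  have h0 : (p ^ (k : ℕ) ∣ p ^ m) ↔ (k : ℕ) ≤ m := Nat.pow_dvd_pow_iff_le_right hpp.one_lt
  rcases Nat.lt_or_ge m k with hk | hk
  · rw [if_neg (fun h => absurd (h0.1 h) (by omega)), if_neg]
    have h1 : m % n = m := Nat.mod_eq_of_lt (by omega)
    omega
  · rw [if_pos (h0.2 hk), Nat.pow_div hk hpp.pos, coeff_hlog, Nat.log_pow hpp.one_lt, if_pos rfl]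
    have h1 : mC p (prm n (0 : ℕ → C)) (m - k) = _ := mR_honda p hn (m - k)
    rw [h1]
    by_cases h2 : n ∣ m - k
    · obtain ⟨t, ht⟩ := h2
      have h3 : m = k + n * t := by omega
      have h4 : m % n = k := by
        rw [h3, Nat.add_mul_mod_self_left, Nat.mod_eq_of_lt k.2]
      have h5 : m / n = t := by
        rw [h3, Nat.add_mul_div_left _ _ (by omega), Nat.div_eq_of_lt k.2, zero_add]
      rw [if_pos ⟨t, ht⟩, if_pos h4.symm, h5, ht, Nat.mul_div_cancel_left _ (by omega)]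
    · rw [if_neg h2, if_neg]
      intro h3
      apply h2
      rw [h3]
      exact Nat.dvd_sub_mod m

theorem coeff_LL_ne (k : ℕ) {i : ℕ} (hi : i ≠ p ^ Nat.log p i) :
    PowerSeries.coeff i (LL p n k : PowerSeries C) = 0 := by
  have hpp := (Fact.out : p.Prime)
  unfold LL
  rw [PowerSeries.coeff_subst_X_pow (pow_ne_zero _ hpp.ne_zero), Algebra.algebraMap_self_apply]
  split_ifs with h
  · rw [coeff_hlog, if_neg]
    intro h1
    apply hi
    obtain ⟨j, rfl⟩ := h
    rw [Nat.mul_div_cancel_left _ (pow_pos hpp.pos _)] at h1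
    rw [h1, ← pow_add, Nat.log_pow hpp.one_lt]
  · rfl

end PerAux

open PerAux in
theorem exists_period (p : ℕ) [Fact p.Prime] {C : Type*} [NontriviallyNormedField C]
    [IsUltrametricDist C] [CompleteSpace C] [CharZero C]
    {n : ℕ} (hp : ‖(p : C)‖ < 1) (hn : 1 ≤ n) (x : Ball C) :
    ∃ (a c : C) (P : Fin n → MvPowerSeries (Idx 1 n) C), a ≠ 0 ∧ c ≠ 0 ∧ ‖c‖ < 1 ∧
      (∀ k, Bdd (P k)) ∧
      (∀ (z : Idx 1 n → C), (∀ i, ‖z i‖ < 1) → ∀ hcz : ∀ i, ‖c * z i‖ < 1,
        HasCoord p n (a • hlog p (prm n (shiftB x (fun i => c * z i) hcz).1))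
          (fun k => ev z (P k))) ∧
      (∀ (e0 : C) (e : Idx 1 n → C), (∀ k, e0 * constantCoeff (P k) +
        ∑ j, e j * coeff (Finsupp.single j 1) (P k) = 0) → e0 = 0 ∧ e = 0) := by
  have hp0 := p_pos (C := C) p
  -- the radius
  obtain ⟨ρ, hρ0, hρ1, hpρ, hx⟩ : ∃ ρ : ℝ, 0 < ρ ∧ ρ < 1 ∧ ‖(p : C)‖ ≤ ρ ∧
      ∀ j ∈ Finset.Ico 1 n, ‖x.1 j‖ ≤ ρ := by
    set S : Finset ℝ := insert ‖(p : C)‖ ((Finset.Ico 1 n).image fun j => ‖x.1 j‖) with hS
    have hne : S.Nonempty := ⟨_, Finset.mem_insert_self _ _⟩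
    have h1 : ‖(p : C)‖ ≤ S.max' hne := Finset.le_max' _ _ (Finset.mem_insert_self _ _)
    refine ⟨S.max' hne, hp0.trans_le h1, ?_, h1, ?_⟩
    · rw [Finset.max'_lt_iff]
      intro y hy
      rw [hS, Finset.mem_insert] at hy
      rcases hy with rfl | hy
      · exact hp
      · obtain ⟨j, _, rfl⟩ := Finset.mem_image.1 hy
        exact x.2 j
    · intro j hj
      exact Finset.le_max' S _ (Finset.mem_insert_of_mem (Finset.mem_image_of_mem _ hj))
  have hc0 : (p : C) ≠ 0 := p_ne p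
  obtain ⟨K, P, hK0, hPK, hP⟩ := exists_P p x (p : C) hp hn hρ0 hρ1 hx hpρ
  obtain ⟨a, ha0, ha1, haK⟩ := exists_scale (C := C) K
  refine ⟨a, (p : C), fun k => a • P k, ha0, hc0, hp, fun k => (hPK k).bdd haK, ?_, ?_⟩
  · intro z hz hcz
    refine ⟨‖a‖ * K, ?_⟩
    have key : ∀ i : ℕ, ‖PowerSeries.coeff i (a • hlog p (prm n (shiftB x (fun i => (p : C) * z i) hcz).1) -
        ∑ k : Fin n, ev z (a • P k) • (LL p n k : PowerSeries C))‖ ≤ ‖a‖ * K := by
      intro i
      have hsum : PowerSeries.coeff i (∑ k : Fin n, ev z (a • P k) • (LL p n k : PowerSeries C)) =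
          ∑ k : Fin n, ev z (a • P k) * PowerSeries.coeff i (LL p n k : PowerSeries C) := by
        rw [map_sum]
        refine Finset.sum_congr rfl fun k _ => ?_
        rw [PowerSeries.coeff_smul, smul_eq_mul]
      rw [map_sub, hsum, PowerSeries.coeff_smul, smul_eq_mul, coeff_hlog]
      by_cases hi : i = p ^ Nat.log p i
      · rw [if_pos hi]
        set m := Nat.log p i with hm
        have hr : m % n < n := Nat.mod_lt _ (by omega)
        have h1 : ∑ k : Fin n, ev z (a • P k) * PowerSeries.coeff i (LL p n k : PowerSeries C) =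
            ev z (a • P ⟨m % n, hr⟩) * ((p : C) ^ (m / n))⁻¹ := by
          rw [Finset.sum_eq_single (⟨m % n, hr⟩ : Fin n)]
          · rw [hi, coeff_LL_pow p hn, if_pos rfl]
          · intro k _ hk
            rw [hi, coeff_LL_pow p hn, if_neg, mul_zero]
            intro h
            exact hk (Fin.ext h)
          · intro h
            exact absurd (Finset.mem_univ _) h
        have h2 : mC p (prm n (shiftB x (fun i => (p : C) * z i) hcz).1) m = ev z (mm p x (p : C) m) :=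
          (ev_mm p x (p : C) hp hp.le z hz hcz m).symm
        have h3 : m % n + n * (m / n) = m := Nat.mod_add_div m n
        have h4 := hP ⟨m % n, hr⟩ (m / n)
        simp only [h3] at h4
        have h5 := norm_ev_le' hz (by positivity) h4
        rw [ev_sub' hz ((mm_NB p x (p : C) hp hp.le m).smul _) (hPK _), ev_smul'] at h5
        rw [h1, h2, ev_smul']
        have h6 : a * ev z (mm p x (p : C) m) - a * ev z (P ⟨m % n, hr⟩) * ((p : C) ^ (m / n))⁻¹ =
            a * ((p : C) ^ (m / n))⁻¹ * ((p : C) ^ (m / n) * ev z (mm p x (p : C) m) - ev z (P ⟨m % n, hr⟩)) := by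
          field_simp
        rw [h6, norm_mul, norm_mul, norm_inv, norm_pow]
        calc ‖a‖ * (‖(p : C)‖ ^ (m / n))⁻¹ *
              ‖(p : C) ^ (m / n) * ev z (mm p x (p : C) m) - ev z (P ⟨m % n, hr⟩)‖
            ≤ ‖a‖ * (‖(p : C)‖ ^ (m / n))⁻¹ * (K * ‖(p : C)‖ ^ (m / n)) :=
              mul_le_mul_of_nonneg_left h5 (by positivity)
          _ = ‖a‖ * K := by field_simp
      · rw [if_neg hi, Finset.sum_eq_zero, mul_zero, sub_zero, norm_zero]
        · positivity
        · intro k _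
          rw [coeff_LL_ne p _ hi, mul_zero]
    intro d
    have hd : d = Finsupp.single () (d ()) := Finsupp.unique_single d
    rw [hd]
    exact key (d ())
  · intro e0 e he
    refine etale p x (p : C) hp hn hc0 hρ0 hρ1 hpρ hx hpρ hP e0 e fun k => ?_
    have h1 : Dl e0 e (a • P k) = 0 := he k
    rw [Dl_smul] at h1
    exact (mul_eq_zero.1 h1).resolve_left ha0

end Chai
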