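import Vale.Agent.Chai.Setup

namespace Chai

open MvPowerSeries Filter Topology

namespace PerAux

section NB

variable {C : Type*} [NontriviallyNormedField C] [IsUltrametricDist C] {σ : Type*}

/-- coefficients of norm `≤ K` -/
def NB (f : MvPowerSeries σ C) (K : ℝ) : Prop := ∀ d, ‖coeff d f‖ ≤ K

omit [IsUltrametricDist C] in
theorem NB.mono {f : MvPowerSeries σ C} {K L : ℝ} (h : NB f K) (hKL : K ≤ L) : NB f L :=
  fun d => (h d).trans hKL

theorem NB.add {f g : MvPowerSeries σ C} {K : ℝ} (hf : NB f K) (hg : NB g K) : NB (f + g) K := by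
  intro d
  rw [map_add]
  exact (IsUltrametricDist.norm_add_le_max _ _).trans (max_le (hf d) (hg d))

theorem NB.sub {f g : MvPowerSeries σ C} {K : ℝ} (hf : NB f K) (hg : NB g K) : NB (f - g) K := by
  intro d
  rw [map_sub, sub_eq_add_neg]
  refine (IsUltrametricDist.norm_add_le_max _ _).trans (max_le (hf d) ?_)
  rw [norm_neg]
  exact hg d

theorem NB.sum {ι : Type*} (s : Finset ι) {f : ι → MvPowerSeries σ C} {K : ℝ} (hK : 0 ≤ K)
    (hf : ∀ i ∈ s, NB (f i) K) : NB (∑ i ∈ s, f i) K := by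
  intro d
  rw [map_sum]
  exact IsUltrametricDist.norm_sum_le_of_forall_le_of_nonneg hK fun i hi => hf i hi d

theorem NB.mul {f g : MvPowerSeries σ C} {K L : ℝ} (hf : NB f K) (hg : NB g L) (hK : 0 ≤ K)
    (hL : 0 ≤ L) : NB (f * g) (K * L) := by
  classical
  intro d
  rw [coeff_mul]
  refine IsUltrametricDist.norm_sum_le_of_forall_le_of_nonneg (mul_nonneg hK hL) fun i _ => ?_
  rw [norm_mul]
  exact mul_le_mul (hf _) (hg _) (norm_nonneg _) hK

omit [IsUltrametricDist C] in
theorem NB.one : NB (1 : MvPowerSeries σ C) 1 := by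
  classical
  intro d
  rw [coeff_one]
  split_ifs <;> simp

theorem NB.pow {f : MvPowerSeries σ C} {K : ℝ} (hf : NB f K) (hK : 0 ≤ K) (m : ℕ) :
    NB (f ^ m) (K ^ m) := by
  induction m with
  | zero => simpa using NB.one
  | succ m ih =>
    rw [pow_succ, pow_succ]
    exact ih.mul hf (pow_nonneg hK _) hK

omit [IsUltrametricDist C] in
theorem NB.smul {f : MvPowerSeries σ C} {K : ℝ} (hf : NB f K) (c : C) : NB (c • f) (‖c‖ * K) := by
  intro d
  rw [coeff_smul, norm_mul]
  exact mul_le_mul_of_nonneg_left (hf d) (norm_nonneg _)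

/-- geometric convergence -/
theorem exists_lim [CompleteSpace C] {f : ℕ → C} {K r : ℝ} (hr0 : 0 ≤ r) (hr : r < 1)
    (h : ∀ i, ‖f (i + 1) - f i‖ ≤ K * r ^ i) : ∃ L, ∀ i, ‖f i - L‖ ≤ K * r ^ i := by
  have hK : 0 ≤ K := by
    have := (norm_nonneg _).trans (h 0)
    simpa using this
  have h1 : ∀ i j, i ≤ j → ‖f i - f j‖ ≤ K * r ^ i := by
    intro i j hij
    induction j, hij using Nat.le_induction with
    | base =>
      rw [sub_self, norm_zero]
      positivity
    | succ j hij ih =>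
      have h2 : f i - f (j + 1) = (f i - f j) + -(f (j + 1) - f j) := by ring
      rw [h2]
      refine (IsUltrametricDist.norm_add_le_max _ _).trans (max_le ih ?_)
      rw [norm_neg]
      refine (h j).trans (mul_le_mul_of_nonneg_left ?_ hK)
      exact pow_le_pow_of_le_one hr0 hr.le hij
  have hc : CauchySeq f := by
    refine cauchySeq_of_le_geometric r K hr fun n => ?_
    rw [dist_comm, dist_eq_norm]
    exact h n
  obtain ⟨L, hL⟩ := cauchySeq_tendsto_of_complete hc
  refine ⟨L, fun i => ?_⟩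
  have h3 : Tendsto (fun j => ‖f i - f j‖) atTop (𝓝 ‖f i - L‖) := (tendsto_const_nhds.sub hL).norm
  refine le_of_tendsto h3 ?_
  filter_upwards [eventually_ge_atTop i] with j hj
  exact h1 i j hj

/-- `ρ^{p^m} ≤ K s^m` -/
theorem exists_super {ρ s : ℝ} (hρ0 : 0 < ρ) (hρ : ρ < 1) (hs0 : 0 < s) {p : ℕ} (hp : 2 ≤ p) :
    ∃ K : ℝ, 0 ≤ K ∧ ∀ m : ℕ, ρ ^ p ^ m ≤ K * s ^ m := by
  obtain ⟨t, ht⟩ : ∃ t : ℕ, ρ ^ t ≤ s := by
    have h2 : Tendsto (fun n : ℕ => ρ ^ n) atTop (𝓝 0) :=
      tendsto_pow_atTop_nhds_zero_of_lt_one hρ0.le hρ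
    obtain ⟨t, ht⟩ := (h2.eventually (gt_mem_nhds hs0)).exists
    exact ⟨t, ht.le⟩
  set L := t * t + 16 with hL
  have h1 : ∀ m : ℕ, t * m ≤ 2 ^ m + L := by
    intro m
    have h2m := Nat.one_le_two_pow (n := m)
    rcases Nat.lt_or_ge m t with h | h
    · have : t * m ≤ t * t := Nat.mul_le_mul_left _ h.le
      omega
    · have h2 : m * m ≤ 2 ^ m + 16 := by
        clear h
        rcases Nat.lt_or_ge m 4 with h | h
        · have : m * m ≤ 16 := by nlinarith
          linarith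
        · have h3 : m * m ≤ 2 ^ m := by
            clear h2m
            induction m, h using Nat.le_induction with
            | base => norm_num
            | succ m hm ih =>
              rw [pow_succ]
              nlinarith
          omega
      have h4 : t * m ≤ m * m := Nat.mul_le_mul_right _ h
      omega
  refine ⟨(ρ ^ L)⁻¹, by positivity, fun m => ?_⟩
  have h2 : (2 : ℕ) ^ m ≤ p ^ m := Nat.pow_le_pow_left hp m
  have h3 : ρ ^ L * ρ ^ p ^ m ≤ s ^ m := by
    rw [← pow_add]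
    calc ρ ^ (L + p ^ m) ≤ ρ ^ (t * m) := by
          apply pow_le_pow_of_le_one hρ0.le hρ.le
          have := h1 m
          omega
      _ = (ρ ^ t) ^ m := by rw [pow_mul]
      _ ≤ s ^ m := pow_le_pow_left₀ (by positivity) ht m
  rw [inv_mul_eq_div, le_div_iff₀ (by positivity), mul_comm]
  exact h3

end NB

/-! ### recursion for the coefficients of the logarithm -/

section mR

variable (p : ℕ) [Fact p.Prime] {R : Type*} [CommRing R] [Algebra ℚ R]

/-- coefficients of the Hazewinkel logarithm over a `ℚ`-algebra -/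
noncomputable def mR (v : ℕ → R) (k : ℕ) : R :=
  MvPolynomial.eval₂Hom (algebraMap ℚ R) v (hazM p k)

omit [Fact p.Prime] in
theorem mR_zero (v : ℕ → R) : mR p v 0 = 1 := by
  unfold mR
  rw [hazM, map_one]

theorem mR_succ (v : ℕ → R) (k : ℕ) :
    (p : R) * mR p v (k + 1) = ∑ j ∈ Finset.range (k + 1), mR p v j * v (k + 1 - j) ^ p ^ j := by
  have hp : (p : ℚ) ≠ 0 := by exact_mod_cast (Fact.out : p.Prime).ne_zero
  have h1 : mR p v (k + 1) = algebraMap ℚ R (1 / (p : ℚ)) *
      ∑ j ∈ Finset.range (k + 1), mR p v j * v (k + 1 - j) ^ p ^ j := by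
    unfold mR
    rw [hazM, map_mul]
    congr 1
    · exact MvPolynomial.eval₂_C _ _ _
    · rw [map_sum, Finset.sum_range]
      refine Finset.sum_congr rfl fun j _ => ?_
      rw [map_mul, map_pow]
      congr 2
      exact MvPolynomial.eval₂_X _ _ _
  rw [h1, ← mul_assoc, ← map_natCast (algebraMap ℚ R) p, ← map_mul, mul_one_div_cancel hp, map_one,
    one_mul]

theorem mR_map {S : Type*} [CommRing S] [Algebra ℚ S] (φ : R →+* S) (v : ℕ → R) (k : ℕ) :
    φ (mR p v k) = mR p (fun i => φ (v i)) k := by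
  unfold mR
  rw [MvPolynomial.map_eval₂Hom]
  congr 1
  exact congrArg (fun ψ => MvPolynomial.eval₂Hom ψ (fun i => φ (v i))) (Subsingleton.elim _ _)

end mR

/-! ### evaluation of bounded series -/

section ev

variable {C : Type*} [NontriviallyNormedField C] [IsUltrametricDist C] [CompleteSpace C]
variable {σ : Type*} [Finite σ]

theorem ev_smul' (z : σ → C) (b : C) (f : MvPowerSeries σ C) : ev z (b • f) = b * ev z f := by
  unfold ev
  rw [← tsum_mul_left]
  refine tsum_congr fun d => ?_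
  rw [coeff_smul, mul_assoc]

theorem exists_scale (K : ℝ) : ∃ b : C, b ≠ 0 ∧ ‖b‖ ≤ 1 ∧ ‖b‖ * K ≤ 1 := by
  obtain ⟨b, hb0, hb⟩ := NormedField.exists_norm_lt C (r := 1 / (|K| + 1)) (by positivity)
  refine ⟨b, norm_pos_iff.1 hb0, ?_, ?_⟩
  · refine hb.le.trans ?_
    rw [div_le_one (by positivity)]
    linarith [abs_nonneg K]
  · calc ‖b‖ * K ≤ ‖b‖ * (|K| + 1) := by
          apply mul_le_mul_of_nonneg_left _ (norm_nonneg _)
          linarith [le_abs_self K]
      _ ≤ 1 / (|K| + 1) * (|K| + 1) := by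
          apply mul_le_mul_of_nonneg_right hb.le (by positivity)
      _ = 1 := by
          rw [one_div, inv_mul_cancel₀ (by positivity)]

theorem NB.bdd {f : MvPowerSeries σ C} {K : ℝ} (hf : NB f K) {b : C} (hb : ‖b‖ * K ≤ 1) : Bdd (b • f) :=
  fun d => (hf.smul b d).trans hb

theorem ev_mul' {z : σ → C} (hz : ∀ i, ‖z i‖ < 1) {f g : MvPowerSeries σ C} {K L : ℝ}
    (hf : NB f K) (hg : NB g L) : ev z (f * g) = ev z f * ev z g := by
  obtain ⟨a, ha0, -, ha⟩ := exists_scale (C := C) K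
  obtain ⟨b, hb0, -, hb⟩ := exists_scale (C := C) L
  have h1 := ev_mul hz (hf.bdd ha) (hg.bdd hb)
  rw [smul_mul_smul_comm, ev_smul', ev_smul', ev_smul'] at h1
  have h2 : a * b ≠ 0 := mul_ne_zero ha0 hb0
  apply mul_left_cancel₀ h2
  rw [h1]
  ring

theorem ev_add' {z : σ → C} (hz : ∀ i, ‖z i‖ < 1) {f g : MvPowerSeries σ C} {K L : ℝ}
    (hf : NB f K) (hg : NB g L) : ev z (f + g) = ev z f + ev z g := by
  obtain ⟨a, ha0, -, ha⟩ := exists_scale (C := C) (max K L)
  have h1 := ev_add hz ((hf.mono (le_max_left K L)).bdd ha) ((hg.mono (le_max_right K L)).bdd ha)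
  rw [← smul_add, ev_smul', ev_smul', ev_smul'] at h1
  apply mul_left_cancel₀ ha0
  rw [h1]
  ring

theorem ev_sub' {z : σ → C} (hz : ∀ i, ‖z i‖ < 1) {f g : MvPowerSeries σ C} {K L : ℝ}
    (hf : NB f K) (hg : NB g L) : ev z (f - g) = ev z f - ev z g := by
  have h1 : f - g = f + (-1 : C) • g := by rw [neg_one_smul, sub_eq_add_neg]
  rw [h1, ev_add' hz hf (hg.smul (-1)), ev_smul']
  ring

theorem ev_pow' {z : σ → C} (hz : ∀ i, ‖z i‖ < 1) {f : MvPowerSeries σ C} {K : ℝ}
    (hf : NB f K) (hK : 0 ≤ K) (m : ℕ) : ev z (f ^ m) = ev z f ^ m := by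
  induction m with
  | zero =>
    rw [pow_zero, pow_zero]
    have := ev_C z (1 : C)
    rwa [map_one] at this
  | succ m ih => rw [pow_succ, ev_mul' hz (hf.pow hK m) hf, ih, pow_succ]

theorem ev_sum' {z : σ → C} (hz : ∀ i, ‖z i‖ < 1) {ι : Type*} (s : Finset ι)
    {f : ι → MvPowerSeries σ C} {K : ℝ} (hK : 0 ≤ K) (hf : ∀ i ∈ s, NB (f i) K) :
    ev z (∑ i ∈ s, f i) = ∑ i ∈ s, ev z (f i) := by
  classical
  induction s using Finset.induction_on with
  | empty => rw [Finset.sum_empty, Finset.sum_empty, ev_zero]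
  | insert a s ha ih =>
    rw [Finset.sum_insert ha, Finset.sum_insert ha,
      ev_add' hz (hf a (Finset.mem_insert_self _ _))
        (NB.sum s hK fun i hi => hf i (Finset.mem_insert_of_mem hi)),
      ih fun i hi => hf i (Finset.mem_insert_of_mem hi)]

theorem norm_ev_le' {z : σ → C} (hz : ∀ i, ‖z i‖ < 1) {f : MvPowerSeries σ C} {K : ℝ} (hK : 0 ≤ K)
    (hf : NB f K) : ‖ev z f‖ ≤ K := by
  unfold ev
  refine IsUltrametricDist.norm_tsum_le_of_forall_le_of_nonneg hK fun d => ?_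
  rw [norm_mul]
  refine (mul_le_mul (hf d) ?_ (norm_nonneg _) hK).trans_eq (mul_one K)
  rw [Finsupp.prod, norm_prod]
  refine Finset.prod_le_one (fun i _ => norm_nonneg _) fun i _ => ?_
  rw [norm_pow]
  exact pow_le_one₀ (norm_nonneg _) (hz i).le

end ev

end PerAux

end Chai
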