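import Vale.Agent.Chai.Char0B

/-!
# P217 / Char0D: four general lemmas for the characteristic zero part

OWNER: helper22 (done)

* `asym0`: `J(e_0, e) = e_0 P(0) + ∑ e_j ∂_jP(0)` is injective linear on a finite dimensional space, so
  `‖J w‖ ≥ κ ‖w‖`.  `J(c_m - 1, c_m z_m) = π^m v - c_m O(‖z_m‖²)`, so `‖z_m‖ ≤ K ‖π‖^m` for large `m`, and then
  `J((c_m - 1, c_m z_m) - π^m (ε, D)) = O(‖π‖^{2m})`, so `c_m z_m - π^m D = O(‖π‖^{2m})`.
* `leading_form`: `f(z_m) = f_N(z_m) + O(‖z_m‖^{N+1})`, divide by `π^{mN}`.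
* `poly_zero`: choose a basis `v_i ∈ S`; `g(t) = f(∑ t_i v_i)` vanishes on `ℕ^r`, so `g = 0` (char 0), `f = 0`.
* `span_monMat`: a functional `c` vanishing on the span gives the polynomial
  `∑_k P0_k p^{⌊(k+l)/n⌋} c_{(k+l) mod n} T^{p^k}` of degree `< p^n` with the `p^n` roots `ζ^{p^n} = ζ`, so it is `0`.
-/

namespace Chai

open MvPowerSeries Filter Topology

variable {C : Type*} [NontriviallyNormedField C] [IsUltrametricDist C] [CompleteSpace C]

/-- the homogeneous part of degree `N` as a polynomial -/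
noncomputable def homPart {ι : Type*} [Fintype ι] [DecidableEq ι] (N : ℕ) (f : MvPowerSeries ι C) :
    MvPolynomial ι C :=
  ∑ d ∈ Finset.finsuppAntidiag Finset.univ N, MvPolynomial.monomial d (coeff d f)

omit [IsUltrametricDist C] [CompleteSpace C] in
theorem coeff_homPart {ι : Type*} [Fintype ι] [DecidableEq ι] (N : ℕ) (f : MvPowerSeries ι C)
    (d : ι →₀ ℕ) : (homPart N f).coeff d = if d.degree = N then coeff d f else 0 := by
  unfold homPart
  rw [MvPolynomial.coeff_sum]
  simp only [MvPolynomial.coeff_monomial]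
  rw [Finset.sum_ite_eq']
  have : (d ∈ Finset.finsuppAntidiag Finset.univ N) ↔ d.degree = N := by
    rw [Finset.mem_finsuppAntidiag, Finsupp.degree_eq_sum]
    simp
  simp [this]

omit [IsUltrametricDist C] [CompleteSpace C] in
theorem homPart_isHomogeneous {ι : Type*} [Fintype ι] [DecidableEq ι] (N : ℕ)
    (f : MvPowerSeries ι C) : (homPart N f).IsHomogeneous N := by
  intro d hd
  rw [coeff_homPart] at hd
  have : d.degree = N := by
    by_contra h
    exact hd (if_neg h)
  rw [← this, Finsupp.degree_eq_weight_one (R := ℕ)]; rfl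

omit [IsUltrametricDist C] [CompleteSpace C] in
theorem eval_smul_homPart {ι : Type*} [Fintype ι] [DecidableEq ι] (N : ℕ)
    (f : MvPowerSeries ι C) (c : C) (x : ι → C) :
    MvPolynomial.eval (c • x) (homPart N f) = c ^ N * MvPolynomial.eval x (homPart N f) := by
  rw [MvPolynomial.eval_eq, MvPolynomial.eval_eq, Finset.mul_sum]
  refine Finset.sum_congr rfl fun d hd => ?_
  have h1 : d.degree = N := by
    by_contra h
    exact MvPolynomial.mem_support_iff.1 hd (by rw [coeff_homPart, if_neg h])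
  have h2 : ∏ i ∈ d.support, (c • x) i ^ d i = c ^ N * ∏ i ∈ d.support, x i ^ d i := by
    simp only [Pi.smul_apply, smul_eq_mul, mul_pow, Finset.prod_mul_distrib]
    rw [Finset.prod_pow_eq_pow_sum]
    congr 2
  rw [h2]; ring

omit [IsUltrametricDist C] [CompleteSpace C] in
theorem bdd_homPart {ι : Type*} [Fintype ι] [DecidableEq ι] (N : ℕ) {f : MvPowerSeries ι C}
    (hf : Bdd f) : Bdd (homPart N f : MvPowerSeries ι C) := by
  intro d
  rw [MvPolynomial.coeff_coe, coeff_homPart]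
  split_ifs
  · exact hf d
  · simp

theorem leading_form {ι : Type*} [Fintype ι] [DecidableEq ι] {f : MvPowerSeries ι C} (hf : Bdd f)
    {N : ℕ} (hN : ∀ d, d.degree < N → coeff d f = 0) {π : C} (hπ0 : π ≠ 0) (hπ : ‖π‖ < 1)
    {z : ℕ → ι → C} (hz : ∀ m i, ‖z m i‖ < 1) {D : ι → C}
    (hD : Tendsto (fun m => (π ^ m)⁻¹ • z m) atTop (𝓝 D))
    (H : ∀ᶠ m in atTop, ev (z m) f = 0) : MvPolynomial.eval D (homPart N f) = 0 := by
  have hb := bdd_homPart N hf
  have hcont : Continuous fun x : ι → C => MvPolynomial.eval x (homPart N f) :=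
    MvPolynomial.continuous_eval _
  have h1 : Tendsto (fun m => MvPolynomial.eval ((π ^ m)⁻¹ • z m) (homPart N f)) atTop
      (𝓝 (MvPolynomial.eval D (homPart N f))) := (hcont.tendsto D).comp hD
  have h2 : Tendsto (fun m => MvPolynomial.eval ((π ^ m)⁻¹ • z m) (homPart N f)) atTop (𝓝 0) := by
    have hπm : Tendsto (fun m => ‖π‖ ^ m * ‖(π ^ m)⁻¹ • z m‖ ^ (N + 1)) atTop (𝓝 0) := by
      have := (tendsto_pow_atTop_nhds_zero_of_lt_one (norm_nonneg π) hπ).mul
        ((hD.norm).pow (N + 1))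
      simpa using this
    refine squeeze_zero_norm' ?_ hπm
    filter_upwards [H] with m hm
    have hπm0 : π ^ m ≠ 0 := pow_ne_zero _ hπ0
    have e1 : ev (z m) (f - (homPart N f : MvPowerSeries ι C)) = -MvPolynomial.eval (z m) (homPart N f) := by
      rw [ev_sub (hz m) hf hb, hm, ev_coe, zero_sub]
    have e2 : ‖MvPolynomial.eval (z m) (homPart N f)‖ ≤ ‖z m‖ ^ (N + 1) := by
      rw [← norm_neg, ← e1]
      refine norm_ev_le_pow (hz m) (hf.sub hb) (fun i => norm_le_pi_norm _ i) (norm_nonneg _) ?_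
      intro d hd
      rw [map_sub, MvPolynomial.coeff_coe, coeff_homPart]
      by_cases h : d.degree = N
      · rw [if_pos h, sub_self]
      · rw [if_neg h, sub_zero]
        exact hN d (by omega)
    rw [eval_smul_homPart, norm_mul, norm_pow, norm_inv, norm_pow]
    have hz' : ‖z m‖ = ‖π‖ ^ m * ‖(π ^ m)⁻¹ • z m‖ := by
      rw [norm_smul, norm_inv, norm_pow, ← mul_assoc, mul_inv_cancel₀, one_mul]
      exact pow_ne_zero _ (norm_ne_zero_iff.2 hπ0)
    calc (‖π‖ ^ m)⁻¹ ^ N * ‖MvPolynomial.eval (z m) (homPart N f)‖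
        ≤ (‖π‖ ^ m)⁻¹ ^ N * ‖z m‖ ^ (N + 1) := by gcongr
      _ = ‖π‖ ^ m * ‖(π ^ m)⁻¹ • z m‖ ^ (N + 1) := by
        rw [hz', mul_pow, pow_succ (‖π‖ ^ m) N]
        have h3 : (‖π‖ ^ m) ≠ 0 := pow_ne_zero _ (norm_ne_zero_iff.2 hπ0)
        have h4 : (‖π‖ ^ m)⁻¹ ^ N * (‖π‖ ^ m) ^ N = 1 := by
          rw [← mul_pow, inv_mul_cancel₀ h3, one_pow]
        linear_combination (‖π‖ ^ m * ‖(π ^ m)⁻¹ • z m‖ ^ (N + 1)) * h4
  exact tendsto_nhds_unique h1 h2

theorem asym0 {ι κ : Type*} [Fintype ι] [DecidableEq ι] [Fintype κ] {P : κ → MvPowerSeries ι C}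
    (hP : ∀ k, Bdd (P k))
    (hJ : ∀ (e0 : C) (e : ι → C), (∀ k, e0 * constantCoeff (P k) +
        ∑ j, e j * coeff (Finsupp.single j 1) (P k) = 0) → e0 = 0 ∧ e = 0)
    {v : κ → C} {π : C} (hπ0 : π ≠ 0) (hπ : ‖π‖ < 1) {cm : ℕ → C} {z : ℕ → ι → C}
    (hz : ∀ m i, ‖z m i‖ < 1) (hz0 : Tendsto z atTop (𝓝 0)) (hc : Tendsto cm atTop (𝓝 1))
    (H : ∀ᶠ m in atTop, ∀ k, cm m * ev (z m) (P k) = constantCoeff (P k) + π ^ m * v k)
    {ε : C} {D : ι → C} (hD : ∀ k, ε * constantCoeff (P k) +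
        ∑ j, D j * coeff (Finsupp.single j 1) (P k) = v k) :
    Tendsto (fun m => (π ^ m)⁻¹ • z m) atTop (𝓝 D) := by
  -- the linear map
  let J : (C × (ι → C)) →ₗ[C] (κ → C) :=
    { toFun := fun w k => w.1 * constantCoeff (P k) + ∑ j, w.2 j * coeff (Finsupp.single j 1) (P k)
      map_add' := by
        intro x y; funext k
        simp only [Prod.fst_add, Prod.snd_add, Pi.add_apply, add_mul, Finset.sum_add_distrib]
        ring
      map_smul' := by
        intro c x; funext k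
        simp only [Prod.smul_fst, Prod.smul_snd, Pi.smul_apply, smul_eq_mul, RingHom.id_apply,
          mul_add, Finset.mul_sum, mul_assoc] }
  have hJker : LinearMap.ker J = ⊥ := by
    rw [LinearMap.ker_eq_bot']
    rintro ⟨e0, e⟩ h
    obtain ⟨h1, h2⟩ := hJ e0 e (fun k => congrFun h k)
    rw [h1, h2]; rfl
  obtain ⟨K, hK0, hK⟩ := LinearMap.exists_antilipschitzWith J hJker
  have hbound : ∀ w, ‖w‖ ≤ K * ‖J w‖ := by
    intro w
    have := hK.le_mul_dist w 0
    simpa [dist_eq_norm] using this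
  -- Taylor expansion
  have hR : ∀ m k, ‖ev (z m) (P k) - constantCoeff (P k) -
      ∑ j, z m j * coeff (Finsupp.single j 1) (P k)‖ ≤ ‖z m‖ ^ 2 := by
    intro m k
    let L : MvPowerSeries ι C := MvPowerSeries.C (constantCoeff (P k)) +
      ∑ j, MvPowerSeries.C (coeff (Finsupp.single j 1) (P k)) * X j
    have hc1 : Bdd (MvPowerSeries.C (σ := ι) (constantCoeff (P k))) := Bdd.C_iff.2 (hP k 0)
    have hc2 : ∀ j ∈ Finset.univ, Bdd (MvPowerSeries.C (coeff (Finsupp.single j 1) (P k)) *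
      (X j : MvPowerSeries ι C)) := fun j _ => Bdd.mul (Bdd.C_iff.2 (hP k _)) (Bdd.X j)
    have hL : Bdd L := Bdd.add hc1 (Bdd.sum _ hc2)
    have hevL : ev (z m) L = constantCoeff (P k) + ∑ j, z m j * coeff (Finsupp.single j 1) (P k) := by
      rw [ev_add (hz m) hc1 (Bdd.sum _ hc2), ev_C, ev_sum (hz m) _ hc2]
      congr 1
      refine Finset.sum_congr rfl fun j _ => ?_
      rw [ev_mul (hz m) (Bdd.C_iff.2 (hP k _)) (Bdd.X j), ev_C, ev_X, mul_comm]
    have h1 : ev (z m) (P k - L) = ev (z m) (P k) - constantCoeff (P k) -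
        ∑ j, z m j * coeff (Finsupp.single j 1) (P k) := by
      rw [ev_sub (hz m) (hP k) hL, hevL]; ring
    rw [← h1]
    refine norm_ev_le_pow (hz m) ((hP k).sub hL) (fun i => norm_le_pi_norm _ i) (norm_nonneg _) ?_
    intro d hd
    have hd' : d.degree = 0 ∨ d.degree = 1 := by omega
    rw [map_sub, sub_eq_zero]
    simp only [L, map_add, map_sum, coeff_C_mul, coeff_X, coeff_C]
    rcases hd' with h | h
    · have h0 : d = 0 := (Finsupp.degree_eq_zero_iff d).1 h
      subst h0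
      rw [Finset.sum_eq_zero]
      · simp
      · intro x _
        rw [if_neg, mul_zero]
        intro h'
        have := DFunLike.congr_fun h' x
        simp at this
    · obtain ⟨i, rfl⟩ : ∃ i, d = Finsupp.single i 1 := by
        have h0 : d ≠ 0 := by rintro rfl; simp at h
        obtain ⟨i, hi⟩ := Finsupp.ne_iff.1 h0
        rw [Finsupp.coe_zero, Pi.zero_apply] at hi
        refine ⟨i, ?_⟩
        rw [Finsupp.degree_eq_sum, ← Finset.add_sum_erase _ _ (Finset.mem_univ i)] at h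
        have h3 : ∑ j ∈ Finset.univ.erase i, d j = 0 := by omega
        have h4 : d i = 1 := by omega
        ext j
        by_cases hj : j = i
        · rw [hj, h4]; simp
        · rw [Finsupp.single_eq_of_ne hj]
          exact Finset.sum_eq_zero_iff.1 h3 j (Finset.mem_erase.2 ⟨hj, Finset.mem_univ j⟩)
      rw [Finset.sum_eq_single i]
      · simp
      · intro x _ hx
        rw [if_neg, mul_zero]
        intro h'
        have := DFunLike.congr_fun h' i
        rw [Finsupp.single_eq_same, Finsupp.single_eq_of_ne hx.symm] at this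
        exact one_ne_zero this
      · simp
  have hnorm : Tendsto (fun m => ‖cm m‖) atTop (𝓝 1) := by
    have := hc.norm
    simpa using this
  have hzn : Tendsto (fun m => (K : ℝ) * ‖z m‖) atTop (𝓝 0) := by
    have := (hz0.norm).const_mul (K : ℝ)
    simpa using this
  have hKpos : (0 : ℝ) < K := hK0
  have hmain : ∀ᶠ m in atTop, ‖(π ^ m)⁻¹ • (cm m • z m) - D‖ ≤ 32 * K * ‖D‖ ^ 2 * ‖π‖ ^ m := by
    filter_upwards [H, hnorm.eventually (lt_mem_nhds (show (1 / 2 : ℝ) < 1 by norm_num)),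
      hnorm.eventually (gt_mem_nhds (show (1 : ℝ) < 2 by norm_num)),
      hzn.eventually (gt_mem_nhds (show (0 : ℝ) < 1 / 2 by norm_num))] with m hm h1 h2 h3
    have hJw : J ((cm m - 1, cm m • z m) - π ^ m • (ε, D)) = fun k => -(cm m * (ev (z m) (P k) -
        constantCoeff (P k) - ∑ j, z m j * coeff (Finsupp.single j 1) (P k))) := by
      rw [map_sub, map_smul]
      funext k
      show ((cm m - 1) * constantCoeff (P k) + ∑ j, (cm m * z m j) * coeff (Finsupp.single j 1) (P k))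
        - π ^ m * (ε * constantCoeff (P k) + ∑ j, D j * coeff (Finsupp.single j 1) (P k)) = _
      have e1 : ∑ j, (cm m * z m j) * coeff (Finsupp.single j 1) (P k) =
          cm m * ∑ j, z m j * coeff (Finsupp.single j 1) (P k) := by
        rw [Finset.mul_sum]
        exact Finset.sum_congr rfl fun j _ => by ring
      rw [e1, hD k]
      linear_combination hm k
    have hw := hbound ((cm m - 1, cm m • z m) - π ^ m • (ε, D))
    have hJn : ‖J ((cm m - 1, cm m • z m) - π ^ m • (ε, D))‖ ≤ ‖cm m‖ * ‖z m‖ ^ 2 := by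
      rw [hJw]
      refine (pi_norm_le_iff_of_nonneg (by positivity)).2 fun k => ?_
      rw [norm_neg, norm_mul]
      exact mul_le_mul_of_nonneg_left (hR m k) (norm_nonneg _)
    have hs : ‖cm m • z m - π ^ m • D‖ ≤ K * (‖cm m‖ * ‖z m‖ ^ 2) := by
      refine le_trans ?_ (hw.trans (mul_le_mul_of_nonneg_left hJn hKpos.le))
      exact norm_snd_le ((cm m - 1, cm m • z m) - π ^ m • (ε, D))
    have ht0 : 0 < ‖π‖ ^ m := pow_pos (norm_pos_iff.2 hπ0) m
    set a := ‖z m‖ with ha
    have ha0 : 0 ≤ a := norm_nonneg _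
    have h4 : ‖cm m‖ * a ≤ K * (‖cm m‖ * a ^ 2) + ‖π‖ ^ m * ‖D‖ := by
      calc ‖cm m‖ * a = ‖(cm m • z m - π ^ m • D) + π ^ m • D‖ := by
            rw [sub_add_cancel, norm_smul]
        _ ≤ ‖cm m • z m - π ^ m • D‖ + ‖π ^ m • D‖ := norm_add_le _ _
        _ ≤ _ := by
          rw [norm_smul, norm_pow]
          gcongr
    have h5 : K * (‖cm m‖ * a ^ 2) ≤ 1 / 2 * (‖cm m‖ * a) := by
      have : K * (‖cm m‖ * a ^ 2) = (K * a) * (‖cm m‖ * a) := by ring
      rw [this]
      exact mul_le_mul_of_nonneg_right h3.le (by positivity)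
    have h6 : a ≤ 4 * (‖π‖ ^ m * ‖D‖) := by
      have h7 : ‖cm m‖ * a ≤ 2 * (‖π‖ ^ m * ‖D‖) := by linarith
      have h8 : 1 / 2 * a ≤ ‖cm m‖ * a := mul_le_mul_of_nonneg_right h1.le ha0
      linarith
    have e2 : (π ^ m)⁻¹ • (cm m • z m) - D = (π ^ m)⁻¹ • (cm m • z m - π ^ m • D) := by
      rw [smul_sub, inv_smul_smul₀ (pow_ne_zero m hπ0)]
    rw [e2, norm_smul, norm_inv, norm_pow]
    have h9 : a ^ 2 ≤ (4 * (‖π‖ ^ m * ‖D‖)) ^ 2 := pow_le_pow_left₀ ha0 h6 2
    calc (‖π‖ ^ m)⁻¹ * ‖cm m • z m - π ^ m • D‖ ≤ (‖π‖ ^ m)⁻¹ * (K * (‖cm m‖ * a ^ 2)) := by gcongr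
      _ ≤ (‖π‖ ^ m)⁻¹ * (K * (2 * (4 * (‖π‖ ^ m * ‖D‖)) ^ 2)) := by gcongr
      _ = 32 * K * ‖D‖ ^ 2 * ‖π‖ ^ m := by
        field_simp
        ring
  have hlim : Tendsto (fun m => (π ^ m)⁻¹ • (cm m • z m)) atTop (𝓝 D) := by
    rw [tendsto_iff_norm_sub_tendsto_zero]
    have h0 : Tendsto (fun m => 32 * K * ‖D‖ ^ 2 * ‖π‖ ^ m) atTop (𝓝 0) := by
      have := (tendsto_pow_atTop_nhds_zero_of_lt_one (norm_nonneg π) hπ).const_mul
        (32 * K * ‖D‖ ^ 2 : ℝ)
      simpa using this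
    exact squeeze_zero' (Eventually.of_forall fun _ => norm_nonneg _) hmain h0
  have hinv : Tendsto (fun m => (cm m)⁻¹) atTop (𝓝 1) := by
    have := hc.inv₀ one_ne_zero
    simpa using this
  have hfin := hinv.smul hlim
  rw [one_smul] at hfin
  refine hfin.congr' ?_
  filter_upwards [hc.eventually_ne one_ne_zero] with m hm
  rw [smul_comm (cm m)⁻¹, inv_smul_smul₀ hm]

theorem poly_zero {K : Type*} [Field K] [CharZero K] {ι : Type*} [Fintype ι] {f : MvPolynomial ι K}
    {S : AddSubmonoid (ι → K)} (hS : Submodule.span K (S : Set (ι → K)) = ⊤)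
    (H : ∀ v ∈ S, MvPolynomial.eval v f = 0) : f = 0 := by
  apply MvPolynomial.funext
  intro w
  rw [map_zero]
  have hw : w ∈ Submodule.span K (S : Set (ι → K)) := by rw [hS]; trivial
  obtain ⟨r, t, g, rfl⟩ := Submodule.mem_span_set'.1 hw
  let G : MvPolynomial (Fin r) K :=
    MvPolynomial.bind₁ (fun j => ∑ i, MvPolynomial.C ((g i : ι → K) j) * MvPolynomial.X i) f
  have hG : ∀ t : Fin r → K, MvPolynomial.eval t G =
      MvPolynomial.eval (∑ i, t i • (g i : ι → K)) f := by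
    intro t
    show MvPolynomial.eval t (MvPolynomial.bind₁ _ f) = _
    rw [← MvPolynomial.coe_aeval_eq_eval, RingHom.coe_coe, MvPolynomial.aeval_bind₁,
      ← MvPolynomial.coe_aeval_eq_eval, RingHom.coe_coe]
    congr 2
    funext j
    simp [Finset.sum_apply, mul_comm]
  have hG0 : G = 0 := by
    refine MvPolynomial.funext_set (fun _ : Fin r => Set.range (Nat.cast : ℕ → K))
      (fun _ => Set.infinite_range_of_injective Nat.cast_injective) ?_
    intro x hx
    rw [map_zero, hG]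
    apply H
    choose m hm using fun i => hx i (Set.mem_univ i)
    have : ∑ i, x i • (g i : ι → K) = ∑ i, m i • (g i : ι → K) := by
      refine Finset.sum_congr rfl fun i _ => ?_
      rw [← hm i, Nat.cast_smul_eq_nsmul]
    rw [this]
    exact sum_mem fun i _ => nsmul_mem (g i).2 _
  rw [← hG, hG0, map_zero]

/-- an algebraically closed field of characteristic `0` has `q` solutions of `ζ^q = ζ` -/
theorem exists_finset_pow_eq {K : Type*} [Field K] [CharZero K] [IsAlgClosed K] {q : ℕ} (hq : 2 ≤ q) :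
    ∃ s : Finset K, s.card = q ∧ ∀ ζ ∈ s, ζ ^ q = ζ := by
  classical
  have : NeZero ((q - 1 : ℕ) : K) := ⟨by exact_mod_cast (by omega : q - 1 ≠ 0)⟩
  obtain ⟨μ, hμ⟩ := HasEnoughRootsOfUnity.exists_primitiveRoot K (q - 1)
  refine ⟨insert 0 (Polynomial.nthRootsFinset (q - 1) (1 : K)), ?_, ?_⟩
  · rw [Finset.card_insert_of_notMem, hμ.card_nthRootsFinset]
    · omega
    · intro h
      rw [Polynomial.mem_nthRootsFinset (by omega)] at h
      rw [zero_pow (by omega)] at h
      exact zero_ne_one h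
  · intro ζ hζ
    rcases Finset.mem_insert.1 hζ with rfl | hζ
    · rw [zero_pow (by omega)]
    · rw [Polynomial.mem_nthRootsFinset (by omega)] at hζ
      calc ζ ^ q = ζ ^ (q - 1) * ζ := by rw [← pow_succ]; congr 1; omega
        _ = ζ := by rw [hζ, one_mul]

theorem span_monMat (p : ℕ) [Fact p.Prime] [CharZero C] [IsAlgClosed C] {n : ℕ} (hn : 1 ≤ n)
    {P0 : Fin n → C} (hP0 : P0 ≠ 0) :
    Submodule.span C {w | ∃ (ζ : C) (l : ℕ), ζ ^ p ^ n = ζ ∧ l < n ∧
      w = Matrix.vecMul P0 (monMat p n ζ l)} = ⊤ := by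
  classical
  have hp := (Fact.out : p.Prime)
  by_contra hne
  obtain ⟨f, hf, hker⟩ := Submodule.exists_le_ker_of_lt_top _ (lt_top_iff_ne_top.2 hne)
  let c : Fin n → C := fun j => f (Pi.single j 1)
  have hfc : ∀ w, f w = ∑ j, w j * c j := by
    intro w
    conv_lhs => rw [← Finset.univ_sum_single w, map_sum]
    refine Finset.sum_congr rfl fun j _ => ?_
    have : (Pi.single j (w j) : Fin n → C) = w j • Pi.single j 1 := by
      ext i; by_cases h : i = j
      · subst h; simp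
      · simp [Pi.single_eq_of_ne h]
    rw [this, map_smul, smul_eq_mul]
  have hmod : ∀ k l : ℕ, (k + l) % n < n := fun k l => Nat.mod_lt _ (by omega)
  -- the relations
  have hrel : ∀ (ζ : C) (l : ℕ), ζ ^ p ^ n = ζ → l < n →
      ∑ k : Fin n, P0 k * (p : C) ^ (((k : ℕ) + l) / n) * c ⟨((k : ℕ) + l) % n, hmod k l⟩ *
        ζ ^ p ^ (k : ℕ) = 0 := by
    intro ζ l hζ hl
    have h1 : f (Matrix.vecMul P0 (monMat p n ζ l)) = 0 :=
      hker (Submodule.subset_span ⟨ζ, l, hζ, hl, rfl⟩)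
    rw [hfc] at h1
    simp only [Matrix.vecMul, dotProduct, monMat, Matrix.of_apply] at h1
    rw [← h1]
    simp only [Finset.sum_mul]
    rw [Finset.sum_comm]
    refine Finset.sum_congr rfl fun k _ => ?_
    rw [Finset.sum_eq_single (⟨((k : ℕ) + l) % n, hmod k l⟩ : Fin n)]
    · simp; ring
    · intro j _ hj
      rw [if_neg]
      · ring
      · intro h; exact hj (Fin.ext h)
    · simp
  have hcoef : ∀ (l : ℕ), l < n → ∀ k : Fin n,
      P0 k * (p : C) ^ (((k : ℕ) + l) / n) * c ⟨((k : ℕ) + l) % n, hmod k l⟩ = 0 := by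
    intro l hl
    set a : Fin n → C := fun k => P0 k * (p : C) ^ (((k : ℕ) + l) / n) *
      c ⟨((k : ℕ) + l) % n, hmod k l⟩ with ha
    have hq : 2 ≤ p ^ n := (hp.two_le).trans (Nat.le_self_pow (by omega) p)
    obtain ⟨s, hs, hs'⟩ := exists_finset_pow_eq (K := C) hq
    let Q : Polynomial C := ∑ k : Fin n, Polynomial.C (a k) * Polynomial.X ^ p ^ (k : ℕ)
    have hQ : Q = 0 := by
      refine Polynomial.eq_zero_of_natDegree_lt_card_of_eval_eq_zero' Q s ?_ ?_
      · intro ζ hζ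
        have := hrel ζ l (hs' ζ hζ) hl
        rw [← this]
        simp [Q, Polynomial.eval_finsetSum, ha]
      · rw [hs]
        refine lt_of_le_of_lt (Polynomial.natDegree_sum_le_of_forall_le (n := p ^ (n - 1)) _ _ ?_) ?_
        · intro k _
          refine (Polynomial.natDegree_C_mul_X_pow_le _ _).trans ?_
          exact Nat.pow_le_pow_right hp.pos (by omega)
        · exact Nat.pow_lt_pow_right hp.one_lt (by omega)
    intro k
    have h1 := congrArg (fun P => Polynomial.coeff P (p ^ (k : ℕ))) hQ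
    simp only [Q, Polynomial.finsetSum_coeff, Polynomial.coeff_C_mul, Polynomial.coeff_X_pow,
      Polynomial.coeff_zero] at h1
    rw [Finset.sum_eq_single k] at h1
    · have h2 : a k = 0 := by simpa using h1
      exact h2
    · intro j _ hj
      rw [if_neg, mul_zero]
      intro h
      exact hj (Fin.ext (Nat.pow_right_injective hp.two_le h).symm)
    · simp
  obtain ⟨k, hk⟩ : ∃ k, P0 k ≠ 0 := by
    by_contra h
    push Not at h
    exact hP0 (funext h)
  apply hf
  have hc : c = 0 := by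
    funext j
    -- choose `l` with `(k + l) % n = j`
    obtain ⟨l, hl, hlj⟩ : ∃ l, l < n ∧ ((k : ℕ) + l) % n = j := by
      refine ⟨(j + n - k) % n, Nat.mod_lt _ (by omega), ?_⟩
      have hk' := k.2
      have hj' := j.2
      rw [Nat.add_mod, Nat.mod_mod, ← Nat.add_mod]
      have : (k : ℕ) + (j + n - k) = j + n := by omega
      rw [this, Nat.add_mod_right, Nat.mod_eq_of_lt hj']
    have h1 := hcoef l hl k
    have h2 : (⟨((k : ℕ) + l) % n, hmod k l⟩ : Fin n) = j := Fin.ext hlj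
    rw [h2] at h1
    have hpC : (p : C) ≠ 0 := by exact_mod_cast hp.ne_zero
    rcases mul_eq_zero.1 h1 with h3 | h3
    · rcases mul_eq_zero.1 h3 with h4 | h4
      · exact absurd h4 hk
      · exact absurd h4 (pow_ne_zero _ hpC)
    · exact h3
  ext w
  rw [LinearMap.comp_apply, LinearMap.zero_comp, LinearMap.zero_apply]
  show f (Pi.single w 1) = 0
  exact congrFun hc w

end Chai
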