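import Vale.Agent.Chai.DensityE
import Vale.Agent.Chai.Char0C
import Vale.Agent.Chai.Char0D

/-!
# P217 / Char0E: points of `E_0` in characteristic zero
-/

namespace Chai

open MvPowerSeries Filter Topology

variable {p : ℕ} [Fact p.Prime] {n : ℕ}

section Red0

/-- coefficients mapped by `θ : W(k) → K`, variables indexed by `1 ≤ j < n` -/
noncomputable def redT {K : Type*} [CommRing K] (θ : WittVector p (GaloisField p n) →+* K)
    (f : E0 p n) : MvPowerSeries (Idx 1 n) K :=
  fun d => θ (coeff (d.embDomain (idxEmb le_rfl)) f)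

theorem coeff_redT {K : Type*} [CommRing K] (θ : WittVector p (GaloisField p n) →+* K) (f : E0 p n)
    (d : Idx 1 n →₀ ℕ) : coeff d (redT θ f) = θ (coeff (d.embDomain (idxEmb le_rfl)) f) := rfl

theorem exists_embDomain (d : Fin (n - 1) →₀ ℕ) :
    ∃ e : Idx 1 n →₀ ℕ, e.embDomain (idxEmb le_rfl) = d := by
  refine ⟨_, Finsupp.embDomain_comapDomain (f := idxEmb (n := n) le_rfl) (g := d) ?_⟩
  intro a _
  refine ⟨⟨a + 1, Finset.mem_Ico.2 ⟨by omega, by omega⟩⟩, ?_⟩
  apply Fin.ext
  show a.1 + 1 - 1 = a.1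
  omega

theorem redT_ne_zero {K : Type*} [CommRing K] {θ : WittVector p (GaloisField p n) →+* K}
    (hθ : Function.Injective θ) {f : E0 p n} (hf : f ≠ 0) : redT θ f ≠ 0 := by
  intro h0
  apply hf
  refine MvPowerSeries.ext fun d => ?_
  obtain ⟨e, rfl⟩ := exists_embDomain d
  have := congrArg (coeff e) h0
  rw [coeff_redT, map_zero] at this
  rw [map_zero]
  exact (map_eq_zero_iff θ hθ).1 this

variable {C : Type*} [NontriviallyNormedField C] {χ : E0 p n →+* C}
  {θ : WittVector p (GaloisField p n) →+* C}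

theorem bdd_redT (hχ : IsPoint p n χ) (hθ : ∀ w, χ (MvPowerSeries.C w) = θ w) (f : E0 p n) :
    Bdd (redT θ f) := by
  intro d
  rw [coeff_redT, ← hθ]
  exact hχ.norm_le _

theorem chi_monomial0 (hθ : ∀ w, χ (MvPowerSeries.C w) = θ w)
    (d : Fin (n - 1) →₀ ℕ) (w : WittVector p (GaloisField p n)) :
    χ (monomial d w) = θ w * d.prod fun i e => χ (X i) ^ e := by
  classical
  have h1 : (monomial d w : E0 p n) = MvPowerSeries.C w * d.prod fun i e => X i ^ e := by
    rw [MvPowerSeries.monomial_eq', MvPowerSeries.c_eq_algebraMap]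
  rw [h1, map_mul, hθ, map_finsuppProd]
  simp_rw [map_pow]

variable [IsUltrametricDist C] [CompleteSpace C]

theorem chi_eq_ev0 (hχ : IsPoint p n χ) (hθ : ∀ w, χ (MvPowerSeries.C w) = θ w) (f : E0 p n) :
    χ f = ev (fun i : Idx 1 n => χ (uE p n i.1)) (redT θ f) := by
  classical
  obtain ⟨ρ, hρ0, hρ1, hρ⟩ := hχ.cont
  have hlt : ∀ i : Idx 1 n, ‖χ (uE p n i.1)‖ ≤ ρ := fun i => norm_le_of_mE χ hρ (uE_mem_mE _)
  have hlt1 : ∀ i : Idx 1 n, ‖χ (uE p n i.1)‖ < 1 := fun i => (hlt i).trans_lt hρ1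
  have hN : ∀ N, χ (truE N f) = evN N (fun i : Idx 1 n => χ (uE p n i.1)) (redT θ f) := by
    intro N
    unfold truE evN
    rw [map_sum]
    simp_rw [chi_monomial0 hθ, coeff_redT]
    symm
    apply Finset.sum_bij (fun d _ => d.embDomain (idxEmb le_rfl))
    · intro d hd
      rw [mem_degLE] at hd ⊢
      refine le_trans (le_of_eq ?_) hd
      rw [Finsupp.embDomain_eq_mapDomain, Finsupp.degree_mapDomain]
    · intro d1 _ d2 _ he
      exact Finsupp.embDomain_injective _ he
    · intro d hd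
      obtain ⟨e, he⟩ := exists_embDomain d
      refine ⟨e, ?_, he⟩
      rw [mem_degLE] at hd ⊢
      rw [← he, Finsupp.embDomain_eq_mapDomain, Finsupp.degree_mapDomain] at hd
      exact hd
    · intro d hd
      congr 1
      rw [Finsupp.prod_embDomain]
      apply Finsupp.prod_congr
      intro i _
      rw [uE_idxEmb le_rfl]
  refine sub_eq_zero.1 ?_
  rw [← norm_le_zero_iff]
  refine le_of_tendsto_of_tendsto' (b := atTop) (f := fun _ : ℕ => _)
    (g := fun N : ℕ => ρ ^ (N + 1)) tendsto_const_nhds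
    ((tendsto_pow_atTop_nhds_zero_of_lt_one hρ0 hρ1).comp (tendsto_add_atTop_nat 1)) ?_
  intro N
  have e1 : ‖χ f - χ (truE N f)‖ ≤ ρ ^ (N + 1) := by
    rw [← map_sub]; exact hρ _ _ (sub_truE_mem N f)
  have e2 : ‖ev (fun i : Idx 1 n => χ (uE p n i.1)) (redT θ f) -
      evN N (fun i : Idx 1 n => χ (uE p n i.1)) (redT θ f)‖ ≤ ρ ^ (N + 1) := by
    refine (norm_ev_sub_evN_le (bdd_redT hχ hθ f) hlt1 N).trans ?_
    exact pow_le_pow_left₀ (norm_nonneg _) ((pi_norm_le_iff_of_nonneg hρ0).2 hlt) _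
  have e3 : χ f - ev (fun i : Idx 1 n => χ (uE p n i.1)) (redT θ f) =
      (χ f - χ (truE N f)) - (ev (fun i : Idx 1 n => χ (uE p n i.1)) (redT θ f) -
      evN N (fun i : Idx 1 n => χ (uE p n i.1)) (redT θ f)) := by
    rw [hN]; ring
  rw [e3]
  exact (norm_sub_le_max' _ _).trans (max_le e1 e2)

end Red0

section Scale

variable {C : Type*} [NontriviallyNormedField C]

/-- `f(c z)` -/
noncomputable def scal {ι : Type*} (c : C) (f : MvPowerSeries ι C) : MvPowerSeries ι C :=
  fun d => c ^ d.degree * coeff d f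

theorem coeff_scal {ι : Type*} (c : C) (f : MvPowerSeries ι C) (d : ι →₀ ℕ) :
    coeff d (scal c f) = c ^ d.degree * coeff d f := rfl

theorem bdd_scal {ι : Type*} {c : C} (hc : ‖c‖ ≤ 1) {f : MvPowerSeries ι C} (hf : Bdd f) :
    Bdd (scal c f) := by
  intro d
  rw [coeff_scal, norm_mul, norm_pow]
  exact mul_le_one₀ (pow_le_one₀ (norm_nonneg _) hc) (norm_nonneg _) (hf d)

theorem scal_ne_zero {ι : Type*} {c : C} (hc : c ≠ 0) {f : MvPowerSeries ι C} (hf : f ≠ 0) :
    scal c f ≠ 0 := by
  intro h0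
  apply hf
  refine MvPowerSeries.ext fun d => ?_
  have := congrArg (coeff d) h0
  rw [coeff_scal, map_zero] at this
  rw [map_zero]
  exact (mul_eq_zero.1 this).resolve_left (pow_ne_zero _ hc)

theorem ev_scal {ι : Type*} (c : C) (f : MvPowerSeries ι C) (z : ι → C) :
    ev z (scal c f) = ev (fun i => c * z i) f := by
  unfold ev
  refine tsum_congr fun d => ?_
  rw [coeff_scal]
  have : (d.prod fun i e => (c * z i) ^ e) = c ^ d.degree * d.prod fun i e => z i ^ e := by
    simp only [Finsupp.prod, mul_pow, Finset.prod_mul_distrib]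
    rw [Finset.prod_pow_eq_pow_sum]
    rfl
  rw [this]
  ring

end Scale

section Teich

variable {C : Type*} [NontriviallyNormedField C] [CharZero C]
  (θ : WittVector p (GaloisField p n) →+* C)

theorem theta_injective : Function.Injective θ := by
  rw [injective_iff_map_eq_zero]
  intro w hw
  by_contra hne
  obtain ⟨m, b, hb⟩ := WittVector.exists_eq_pow_p_mul' w hne
  rw [hb, map_mul, map_pow, map_natCast] at hw
  rcases mul_eq_zero.1 hw with h1 | h1
  · exact pow_ne_zero m (Nat.cast_ne_zero.2 (Fact.out : p.Prime).ne_zero) h1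
  · exact (b.isUnit.map θ).ne_zero h1

theorem exists_teich_eq (hn : 1 ≤ n) {ζ : C} (hζ : ζ ^ p ^ n = ζ) :
    ∃ z : GaloisField p n, z ^ p ^ n = z ∧ θ (WittVector.teichmuller p z) = ζ := by
  classical
  have hp := (Fact.out : p.Prime)
  have hcard : Nat.card (GaloisField p n) = p ^ n := GaloisField.card p n (by omega)
  have : Fintype (GaloisField p n) := Fintype.ofFinite _
  have hc : Fintype.card (GaloisField p n) = p ^ n := by
    rw [← Nat.card_eq_fintype_card]; exact hcard
  have hlt : 1 < p ^ n := Nat.one_lt_pow (by omega) hp.one_lt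
  have hpow : ∀ z : GaloisField p n, z ^ p ^ n = z := fun z => by
    rw [← hc, FiniteField.pow_card]
  let P : Polynomial C := Polynomial.X ^ p ^ n - Polynomial.X
  have hP : P ≠ 0 := FiniteField.X_pow_card_sub_X_ne_zero C hlt
  have hdeg : P.natDegree = p ^ n := FiniteField.X_pow_card_sub_X_natDegree_eq C hlt
  let κ : GaloisField p n → C := fun z => θ (WittVector.teichmuller p z)
  have hκ : Function.Injective κ := by
    intro a b hab
    have h1 := theta_injective θ hab
    have h2 := congrArg (fun w : WittVector p (GaloisField p n) => w.coeff 0) h1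
    simpa [WittVector.teichmuller_coeff_zero] using h2
  have hsub : (Finset.univ.image κ) ⊆ P.roots.toFinset := by
    intro a ha
    obtain ⟨z, _, rfl⟩ := Finset.mem_image.1 ha
    rw [Multiset.mem_toFinset, Polynomial.mem_roots hP, Polynomial.IsRoot.def]
    simp only [P, κ, Polynomial.eval_sub, Polynomial.eval_pow, Polynomial.eval_X]
    rw [← map_pow, ← map_pow, hpow, sub_self]
  have hc2 : (Finset.univ.image κ).card = p ^ n := by
    rw [Finset.card_image_of_injective _ hκ, Finset.card_univ, hc]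
  have heq : Finset.univ.image κ = P.roots.toFinset := by
    apply Finset.eq_of_subset_of_card_le hsub
    rw [hc2, ← hdeg]
    exact (Multiset.toFinset_card_le _).trans (Polynomial.card_roots' _)
  have hmem : ζ ∈ P.roots.toFinset := by
    rw [Multiset.mem_toFinset, Polynomial.mem_roots hP, Polynomial.IsRoot.def]
    simp only [P, Polynomial.eval_sub, Polynomial.eval_pow, Polynomial.eval_X]
    rw [hζ, sub_self]
  rw [← heq] at hmem
  obtain ⟨z, _, hz⟩ := Finset.mem_image.1 hmem
  exact ⟨z, hpow z, hz⟩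

end Teich

end Chai
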