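import Vale.Agent.Chai.Char0E

/-!
# P217 / Char0F: the matrices of endomorphisms and the exact relation for the period map
-/

namespace Chai

open MvPowerSeries Filter Topology

variable {p : ℕ} [Fact p.Prime] {n : ℕ}

theorem honda_subst_map {R S : Type*} [CommRing R] [CommRing S] (φ : R →+* S) {a b : PowerSeries R}
    (ha : PowerSeries.constantCoeff a = 0) (hb : PowerSeries.constantCoeff b = 0) :
    PowerSeries.map φ ((hazF p (prm n (0 : ℕ → R))).toPowerSeries.subst ![a, b] : PowerSeries R) =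
      ((hazF p (prm n (0 : ℕ → S))).toPowerSeries.subst
        ![(PowerSeries.map φ a : PowerSeries S), PowerSeries.map φ b] : PowerSeries S) := by
  have h2 := Fel.map_subst_pair (ι := φ)
    (F := (hazF p (prm n (0 : ℕ → R))).toPowerSeries) (a := a) (b := b) ha hb
  refine h2.trans ?_
  have h3 : MvPowerSeries.map φ (hazF p (prm n (0 : ℕ → R))).toPowerSeries =
      (hazF p (prm n (0 : ℕ → S))).toPowerSeries := by
    rw [← FormalGroup.map_toPowerSeries, hazF_map, map_prm]
  rw [h3]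
  rfl

theorem isHom_CX {k : Type*} [Field k] [CharP k p] (hn : 1 ≤ n) {z : k} (hz : z ^ p ^ n = z) (l : ℕ) :
    IsHom (PowerSeries.C z * PowerSeries.X ^ p ^ l : PowerSeries k) (hazF p (prm n 0))
      (hazF p (prm n 0)) := by
  have h1 := IsHom.comp (honda_smul p n z hz) (honda_frob (R := k) p n l)
  have hXh : PowerSeries.HasSubst ((PowerSeries.X : PowerSeries k) ^ p ^ l) :=
    PowerSeries.HasSubst.X_pow (pow_ne_zero _ (Fact.out : p.Prime).ne_zero)
  rw [PowerSeries.subst_mul hXh, PowerSeries.subst_X hXh, PowerSeries.subst_C] at h1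
  exact h1

section

variable {C : Type*} [NontriviallyNormedField C] [IsUltrametricDist C] [CompleteSpace C] [CharZero C]
  {θ : WittVector p (GaloisField p n) →+* C}

theorem bdd_map_theta (hθ : ∀ w, ‖θ w‖ ≤ 1) (B : PowerSeries (WittVector p (GaloisField p n))) :
    Bdd (PowerSeries.map θ B) := fun _ => hθ _

theorem cc_map {R S : Type*} [CommRing R] [CommRing S] (φ : R →+* S) {a : PowerSeries R}
    (ha : PowerSeries.constantCoeff a = 0) : PowerSeries.constantCoeff (PowerSeries.map φ a) = 0 := by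
  rw [← PowerSeries.coeff_zero_eq_constantCoeff_apply, PowerSeries.coeff_map,
    PowerSeries.coeff_zero_eq_constantCoeff_apply, ha, map_zero]

/-- the matrices of the endomorphisms of the Honda group over `k` -/
noncomputable def matA (hp : ‖(p : C)‖ < 1) (hn : 1 ≤ n) (hθ : ∀ w, ‖θ w‖ ≤ 1) :
    AddSubmonoid (Matrix (Fin n) (Fin n) C) where
  carrier := {M | ∃ B : PowerSeries (WittVector p (GaloisField p n)),
    PowerSeries.constantCoeff B = 0 ∧
    IsHom (PowerSeries.map WittVector.constantCoeff B) (hazF p (prm n 0)) (hazF p (prm n 0)) ∧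
    HasMat p n (PowerSeries.map θ B) M}
  zero_mem' := by
    refine ⟨0, map_zero _, ?_, ?_⟩
    · rw [map_zero]
      exact IsHom.zero _ _
    · rw [map_zero]
      exact HasMat.zero p
  add_mem' := by
    rintro M N ⟨B1, h1, i1, m1⟩ ⟨B2, h2, i2, m2⟩
    refine ⟨(hazF p (prm n (0 : ℕ → WittVector p (GaloisField p n)))).toPowerSeries.subst ![B1, B2],
      constantCoeff_pair (τ := Unit) h1 h2 (FormalGroup.zero_constantCoeff _), ?_, ?_⟩
    · rw [honda_subst_map _ h1 h2]
      exact IsHom.add (hazF_comm p _) i1 i2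
    · rw [honda_subst_map _ h1 h2]
      exact HasMat.add p hp hn m1 m2 (bdd_map_theta hθ _) (bdd_map_theta hθ _) (cc_map _ h1)
        (cc_map _ h2)

theorem map_CXpow {R S : Type*} [CommRing R] [CommRing S] (φ : R →+* S) (c : R) (q : ℕ) :
    PowerSeries.map φ (PowerSeries.C c * PowerSeries.X ^ q) =
      PowerSeries.C (φ c) * PowerSeries.X ^ q := by
  rw [map_mul, map_pow, PowerSeries.map_C, PowerSeries.map_X]

theorem monMat_mem {hp : ‖(p : C)‖ < 1} {hn : 1 ≤ n} {hθ : ∀ w, ‖θ w‖ ≤ 1} {ζ : C}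
    (hζ : ζ ^ p ^ n = ζ) {l : ℕ} (hl : l < n) : monMat p n ζ l ∈ matA hp hn hθ := by
  obtain ⟨z, hz, hzζ⟩ := exists_teich_eq θ hn hζ
  refine ⟨PowerSeries.C (WittVector.teichmuller p z) * PowerSeries.X ^ p ^ l, ?_, ?_, ?_⟩
  · rw [map_mul, map_pow, PowerSeries.constantCoeff_X,
      zero_pow (pow_ne_zero _ (Fact.out : p.Prime).ne_zero), mul_zero]
  · rw [map_CXpow]
    have : (WittVector.constantCoeff (WittVector.teichmuller p z) : GaloisField p n) = z := by
      exact WittVector.teichmuller_coeff_zero p z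
    rw [this]
    exact isHom_CX hn hz l
  · rw [map_CXpow, hzζ]
    exact HasMat.monomial p hp hn hζ hl

/-! ### the exact relation -/

variable {χ : E0 p n →+* C}

theorem norm_p_lt (hχ : IsPoint p n χ) : ‖(p : C)‖ < 1 := by
  obtain ⟨ρ, _, hρ1, hρ⟩ := hχ.cont
  have := hρ 1 (p : E0 p n) (by simpa using p_mem_mE p n)
  rw [pow_one, map_natCast] at this
  exact this.trans_lt hρ1

theorem norm_thetaW_le (hχ : IsPoint p n χ) (hθ : ∀ w, χ (MvPowerSeries.C w) = θ w)
    (w : WittVector p (GaloisField p n)) : ‖θ w‖ ≤ 1 := by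
  rw [← hθ]; exact hχ.norm_le _

theorem isHom_hlog (v : ℕ → C) : IsHom (hlog p v) (hazF p v) (FormalGroup.𝔾ₐ (R := C)) := by
  have h0 : PowerSeries.constantCoeff (hlog p v) = 0 := by
    rw [← PowerSeries.coeff_zero_eq_constantCoeff_apply, coeff_hlog, if_neg]
    exact (pow_pos (Fact.out : p.Prime).pos _).ne
  refine ⟨h0, ?_⟩
  rw [hlog_hazF]
  have hs : HasSubst ![(hlog p v).subst (X 0 : MvPowerSeries (Fin 2) C),
      (hlog p v).subst (X 1 : MvPowerSeries (Fin 2) C)] :=
    hasSubst_pair (ccs1 (constantCoeff_X _) h0) (ccs1 (constantCoeff_X _) h0)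
  show _ = MvPowerSeries.subst _ (X 0 + X 1 : MvPowerSeries (Fin 2) C)
  rw [subst_add hs, subst_X hs, subst_X hs]
  rfl

theorem additive_of_isHom {g : PowerSeries C} {F : FormalGroup C}
    (hg : IsHom g F (FormalGroup.𝔾ₐ (R := C))) : g.subst F.toPowerSeries =
      g.subst (X 0 : MvPowerSeries (Fin 2) C) + g.subst (X 1 : MvPowerSeries (Fin 2) C) := by
  rw [hg.2]
  have hs : HasSubst ![g.subst (X 0 : MvPowerSeries (Fin 2) C),
      g.subst (X 1 : MvPowerSeries (Fin 2) C)] :=
    hasSubst_pair (ccs1 (constantCoeff_X _) hg.1) (ccs1 (constantCoeff_X _) hg.1)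
  show MvPowerSeries.subst _ (X 0 + X 1 : MvPowerSeries (Fin 2) C) = _
  rw [subst_add hs, subst_X hs, subst_X hs]
  rfl

theorem coeff_one_hlog (v : ℕ → C) : PowerSeries.coeff 1 (hlog p v) = 1 := by
  rw [coeff_hlog, Nat.log_one_right, pow_zero, if_pos rfl, mC_zero]

theorem rel0 (hn : 1 ≤ n) (hχ : IsPoint p n χ) (hθ : ∀ w, χ (MvPowerSeries.C w) = θ w)
    {φ : E0 p n ≃+* E0 p n} (hφ : ∀ a, φ a - a ∈ mE p n) {ψ : PowerSeries (E0 p n)}
    (hψ : IsHom ψ ((univF p n).map (φ : E0 p n →+* E0 p n)) (univF p n)) {a : C} {c0 c1 : Fin n → C}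
    (h0 : HasCoord p n (a • hlog p (prm n (ptB hχ).1)) c0)
    (h1 : HasCoord p n (a • hlog p (prm n (ptB (isPoint_comp hχ hφ)).1)) c1)
    {B : PowerSeries (WittVector p (GaloisField p n))} (hB0 : PowerSeries.constantCoeff B = 0)
    {M : Matrix (Fin n) (Fin n) C} (hM : HasMat p n (PowerSeries.map θ B) M) (m : ℕ)
    (hres : ψ.map (resE p n) = ((hazF p (prm n (0 : ℕ → GaloisField p n))).toPowerSeries.subst
      ![(PowerSeries.X : PowerSeries (GaloisField p n)),
        (PowerSeries.map WittVector.constantCoeff B) ^ p ^ (n * m)] :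
          PowerSeries (GaloisField p n))) :
    χ (PowerSeries.coeff 1 ψ) • c1 = c0 + (p : C) ^ m • Matrix.vecMul c0 M := by
  have hp := (Fact.out : p.Prime)
  have hp1 : ‖(p : C)‖ < 1 := norm_p_lt hχ
  have hθb := norm_thetaW_le hχ hθ
  obtain ⟨ρ, hρ0, hρ1, hρ⟩ := hχ.cont
  let P := psiC hχ hφ hψ
  have hP : P.ps = PowerSeries.map χ ψ := rfl
  have hP0 : PowerSeries.constantCoeff P.ps = 0 := P.isHom.1
  have hsP : PowerSeries.HasSubst P.ps := PowerSeries.HasSubst.of_constantCoeff_zero' hP0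
  -- (i)
  have e1 : IsHom ((hlog p (prm n (ptB hχ).1)).subst P.ps)
      (hazF p (prm n (ptB (isPoint_comp hχ hφ)).1)) (FormalGroup.𝔾ₐ (R := C)) :=
    IsHom.comp (isHom_hlog _) P.isHom
  have e2 := eq_smul_hlog p e1.1 (additive_of_isHom e1)
  have e3 : PowerSeries.coeff 1 ((hlog p (prm n (ptB hχ).1)).subst P.ps : PowerSeries C) =
      χ (PowerSeries.coeff 1 ψ) := by
    rw [coeff_subst_range hP0, Finset.sum_range_succ, Finset.sum_range_one, pow_zero, pow_one,
      coeff_one_hlog, one_mul, PowerSeries.coeff_one, if_neg one_ne_zero, mul_zero, zero_add, hP,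
      PowerSeries.coeff_map]
  have e4 : (a • hlog p (prm n (ptB hχ).1)).subst P.ps =
      χ (PowerSeries.coeff 1 ψ) • (a • hlog p (prm n (ptB (isPoint_comp hχ hφ)).1)) := by
    rw [PowerSeries.subst_smul hsP, e2, e3, smul_comm]
  have e5 : HasCoord p n ((a • hlog p (prm n (ptB hχ).1)).subst P.ps)
      (χ (PowerSeries.coeff 1 ψ) • c1) := by
    rw [e4]
    exact HasCoord.smul p h1 _
  -- (iii)
  have hBt0 := cc_map θ hB0
  have hBb := bdd_map_theta hθb B
  have hBp0 : PowerSeries.constantCoeff ((PowerSeries.map θ B) ^ p ^ (n * m)) = 0 := by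
    rw [map_pow, hBt0, zero_pow (pow_ne_zero _ hp.ne_zero)]
  have e6 : HasMat p n ((hazF p (prm n (0 : ℕ → C))).toPowerSeries.subst
      ![(PowerSeries.X : PowerSeries C), (PowerSeries.map θ B) ^ p ^ (n * m)] : PowerSeries C)
      (1 + (p : C) ^ m • M) :=
    HasMat.add p hp1 hn (HasMat.X p) (HasMat.pow p hp1 hn hM hBb hBt0 m) (Bdd.X _) (hBb.pow _)
      PowerSeries.constantCoeff_X hBp0
  have hF0 : PowerSeries.constantCoeff ((hazF p (prm n (0 : ℕ → C))).toPowerSeries.subst
      ![(PowerSeries.X : PowerSeries C), (PowerSeries.map θ B) ^ p ^ (n * m)] : PowerSeries C) = 0 :=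
    constantCoeff_pair (τ := Unit) PowerSeries.constantCoeff_X hBp0 (FormalGroup.zero_constantCoeff _)
  have hFb : Bdd ((hazF p (prm n (0 : ℕ → C))).toPowerSeries.subst
      ![(PowerSeries.X : PowerSeries C), (PowerSeries.map θ B) ^ p ^ (n * m)] : PowerSeries C) := by
    refine Bdd.subst (bdd_hazF p _ fun j => ?_) (bdd_pair (τ := Unit) (Bdd.X _) (hBb.pow _))
      (cc_pair (τ := Unit) PowerSeries.constantCoeff_X hBp0)
    exact norm_prm_le n (0 : Ball C) j
  have e7 := HasCoord.comp p hp1 hn h0 hFb hF0 e6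
  -- (iv)
  have hE : PowerSeries.map χ ((hazF p (prm n (0 : ℕ → E0 p n))).toPowerSeries.subst
      ![(PowerSeries.X : PowerSeries (E0 p n)),
        (PowerSeries.map MvPowerSeries.C B) ^ p ^ (n * m)] : PowerSeries (E0 p n)) =
      ((hazF p (prm n (0 : ℕ → C))).toPowerSeries.subst
      ![(PowerSeries.X : PowerSeries C), (PowerSeries.map θ B) ^ p ^ (n * m)] : PowerSeries C) := by
    rw [honda_subst_map _ PowerSeries.constantCoeff_X (by
      rw [map_pow, cc_map _ hB0, zero_pow (pow_ne_zero _ hp.ne_zero)]), PowerSeries.map_X, map_pow]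
    have : PowerSeries.map χ (PowerSeries.map MvPowerSeries.C B) = PowerSeries.map θ B := by
      ext i
      rw [PowerSeries.coeff_map, PowerSeries.coeff_map, PowerSeries.coeff_map, hθ]
    rw [this]
  have hR : PowerSeries.map (resE p n) ((hazF p (prm n (0 : ℕ → E0 p n))).toPowerSeries.subst
      ![(PowerSeries.X : PowerSeries (E0 p n)),
        (PowerSeries.map MvPowerSeries.C B) ^ p ^ (n * m)] : PowerSeries (E0 p n)) =
      PowerSeries.map (resE p n) ψ := by
    rw [honda_subst_map _ PowerSeries.constantCoeff_X (by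
      rw [map_pow, cc_map _ hB0, zero_pow (pow_ne_zero _ hp.ne_zero)]), PowerSeries.map_X, map_pow,
      hres]
    have : PowerSeries.map (resE p n) (PowerSeries.map MvPowerSeries.C B) =
        PowerSeries.map WittVector.constantCoeff B := by
      ext i
      rw [PowerSeries.coeff_map, PowerSeries.coeff_map, PowerSeries.coeff_map]
      unfold resE
      simp
    rw [this]
  have e8 : ∀ d : Unit →₀ ℕ, ‖coeff d (P.ps - ((hazF p (prm n (0 : ℕ → C))).toPowerSeries.subst
      ![(PowerSeries.X : PowerSeries C), (PowerSeries.map θ B) ^ p ^ (n * m)] :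
        PowerSeries C) : PowerSeries C)‖ ≤ ρ := by
    intro d
    rw [← hE, hP, ← map_sub]
    have h2 : coeff d (ψ - ((hazF p (prm n (0 : ℕ → E0 p n))).toPowerSeries.subst
      ![(PowerSeries.X : PowerSeries (E0 p n)),
        (PowerSeries.map MvPowerSeries.C B) ^ p ^ (n * m)] : PowerSeries (E0 p n)) :
          PowerSeries (E0 p n)) ∈ mE p n ^ 1 := by
      rw [pow_one]
      show resE p n _ = 0
      have h3 := congrArg (coeff d) (sub_eq_zero.2 hR.symm)
      rw [← map_sub, map_zero] at h3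
      exact h3
    have h4 := hρ 1 _ h2
    rw [pow_one] at h4
    exact h4
  have e9 := HasCoord.congr p hp1 hn h0 (σ := Unit) P.bdd hFb hP0 hF0 hρ1 e8
  have e10 := HasCoord.add_isBd p e7 e9
  have e11 := HasCoord.unique p hp1 hn e5 e10
  rw [e11, Matrix.vecMul_add, Matrix.vecMul_one, Matrix.vecMul_smul]

end

end Chai
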