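import Vale.Agent.Chai.Char0F

/-!
# P217 / Char0G: density of orbits in characteristic zero
-/

namespace Chai

open MvPowerSeries Filter Topology

variable {p : ℕ} [Fact p.Prime] {n : ℕ}

section
variable {C : Type*} [NontriviallyNormedField C] [IsUltrametricDist C] [CompleteSpace C] [CharZero C]
  {θ : WittVector p (GaloisField p n) →+* C} {χ : E0 p n →+* C}

/-- the leading form of `f(x + c z)` vanishes in the direction attached to `M` -/
theorem leading_vanishes (hn : 1 ≤ n) (hχ : IsPoint p n χ) (hθ : ∀ w, χ (MvPowerSeries.C w) = θ w)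
    {f : E0 p n}
    (hf : ∀ (φ : E0 p n ≃+* E0 p n) (ψ : PowerSeries (E0 p n)),
      IsIsoFG ψ ((univF p n).map (φ : E0 p n →+* E0 p n)) (univF p n) →
      (∀ w, φ (MvPowerSeries.C w) = MvPowerSeries.C w) → χ (φ f) = 0)
    {a c : C} {P : Fin n → MvPowerSeries (Idx 1 n) C} (hc0 : c ≠ 0) (hc1 : ‖c‖ < 1)
    (hPb : ∀ k, Bdd (P k))
    (hPc : ∀ (z : Idx 1 n → C), (∀ i, ‖z i‖ < 1) → ∀ hcz : ∀ i, ‖c * z i‖ < 1,
        HasCoord p n (a • hlog p (prm n (shiftB (ptB hχ) (fun i => c * z i) hcz).1))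
          (fun k => ev z (P k)))
    (hPi : ∀ (e0 : C) (e : Idx 1 n → C), (∀ k, e0 * constantCoeff (P k) +
        ∑ j, e j * coeff (Finsupp.single j 1) (P k) = 0) → e0 = 0 ∧ e = 0)
    {g : MvPowerSeries (Idx 1 n) C} (hg : Bdd g)
    (hgev : ∀ z : Idx 1 n → C, (∀ i, ‖z i‖ < 1) →
      ev (fun i => (ptB hχ).1 i.1 + c * z i) (redT θ f) = ev z g)
    {N : ℕ} (hN : ∀ d, d.degree < N → coeff d g = 0)
    {M : Matrix (Fin n) (Fin n) C} (hM : M ∈ matA (norm_p_lt hχ) hn (norm_thetaW_le hχ hθ))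
    {ε : C} {D : Idx 1 n → C} (hD : ∀ k, ε * constantCoeff (P k) +
        ∑ j, D j * coeff (Finsupp.single j 1) (P k) =
          Matrix.vecMul (fun k => constantCoeff (P k)) M k) :
    MvPolynomial.eval D (homPart N g) = 0 := by
  classical
  have hp := (Fact.out : p.Prime)
  have hp1 : ‖(p : C)‖ < 1 := norm_p_lt hχ
  have hp0 : (p : C) ≠ 0 := Nat.cast_ne_zero.2 hp.ne_zero
  obtain ⟨B, hB0, hBh, hBM⟩ := hM
  obtain ⟨φ, ψ, hiso, hres, hφ, hφC, hlim⟩ := exists_lifts p n hn _ hBh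
  obtain ⟨ρ, hρ0, hρ1, hρ⟩ := hχ.cont
  -- choice of the starting index
  obtain ⟨m0, hm0⟩ := exists_pow_lt_of_lt_one (norm_pos_iff.2 hc0) hρ1
  let m1 := m0 + 1
  have hφ' : ∀ m a, φ (m + m1) a - a ∈ mE p n := fun m a =>
    (Ideal.pow_le_self (by omega)) (hφ (m + m1) (by omega) a)
  let z : ℕ → Idx 1 n → C := fun m i =>
    c⁻¹ * (χ (φ (m + m1) (uE p n i.1)) - χ (uE p n i.1))
  have hcz : ∀ m i, c * z m i = χ (φ (m + m1) (uE p n i.1)) - χ (uE p n i.1) := by
    intro m i
    show c * (c⁻¹ * _) = _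
    rw [← mul_assoc, mul_inv_cancel₀ hc0, one_mul]
  have hδ : ∀ m i, ‖c * z m i‖ ≤ ρ ^ (m + m1 + 1) := by
    intro m i
    rw [hcz, ← map_sub]
    exact hρ _ _ (hφ (m + m1) (by omega) _)
  have hδ1 : ∀ m i, ‖c * z m i‖ < 1 := fun m i =>
    (hδ m i).trans_lt (pow_lt_one₀ hρ0 hρ1 (by omega))
  have hzρ : ∀ m i, ‖z m i‖ ≤ ‖c‖⁻¹ * ρ ^ (m + m1 + 1) := by
    intro m i
    have h1 := hδ m i
    rw [norm_mul] at h1
    have h2 : 0 < ‖c‖ := norm_pos_iff.2 hc0
    rw [inv_mul_eq_div, le_div_iff₀ h2, mul_comm]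
    exact h1
  have hz1 : ∀ m i, ‖z m i‖ < 1 := by
    intro m i
    refine (hzρ m i).trans_lt ?_
    have h2 : 0 < ‖c‖ := norm_pos_iff.2 hc0
    rw [inv_mul_lt_iff₀ h2, mul_one]
    refine lt_of_le_of_lt ?_ hm0
    exact pow_le_pow_of_le_one hρ0 hρ1.le (by omega)
  have hz0 : Tendsto z atTop (𝓝 0) := by
    rw [tendsto_pi_nhds]
    intro i
    refine squeeze_zero_norm (fun m => hzρ m i) ?_
    have h1 : Tendsto (fun m : ℕ => ρ ^ (m + (m1 + 1))) atTop (𝓝 0) :=
      (tendsto_pow_atTop_nhds_zero_of_lt_one hρ0 hρ1).comp (tendsto_add_atTop_nat (m1 + 1))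
    have h2 := h1.const_mul ‖c‖⁻¹
    rw [mul_zero] at h2
    exact h2
  have hpt : ∀ m, ptB (isPoint_comp hχ (hφ' m)) =
      shiftB (ptB hχ) (fun i => c * z m i) (hδ1 m) := by
    intro m
    have h1 : ∀ i : Idx 1 n, ‖χ (φ (m + m1) (uE p n i.1)) - χ (uE p n i.1)‖ < 1 := fun i => by
      rw [← hcz]; exact hδ1 m i
    rw [ptB_comp_eq hχ (hφ' m) (h := 1) (fun j hj hj' => by omega) (fun j hj hj' => by omega) h1]
    congr 1
    funext i
    exact (hcz m i).symm
  -- base point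
  have hbase : HasCoord p n (a • hlog p (prm n (ptB hχ).1)) (fun k => constantCoeff (P k)) := by
    have h1 := hPc (fun _ => 0) (by simp) (by simp)
    have h2 : shiftB (ptB hχ) (fun i : Idx 1 n => c * (0 : C)) (by simp) = ptB hχ := by
      apply Subtype.ext
      funext j
      show (if hj : j ∈ Finset.Ico 1 n then (ptB hχ).1 j + c * 0 else (ptB hχ).1 j) = _
      split_ifs <;> simp
    rw [h2] at h1
    simp_rw [ev_at_zero] at h1
    exact h1
  -- the exact relation
  have hrel : ∀ m, χ (PowerSeries.coeff 1 (ψ (m + m1))) • (fun k => ev (z m) (P k)) =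
      (fun k => constantCoeff (P k)) + (p : C) ^ (m + m1) •
        Matrix.vecMul (fun k => constantCoeff (P k)) M := by
    intro m
    refine rel0 hn hχ hθ (hφ' m) (hiso (m + m1) (by omega)).1 hbase ?_ hB0 hBM (m + m1)
      (hres (m + m1) (by omega))
    have h1 := hPc (z m) (hz1 m) (hδ1 m)
    rw [← hpt m] at h1
    exact h1
  have hcm : Tendsto (fun m => χ (PowerSeries.coeff 1 (ψ (m + m1)))) atTop (𝓝 1) := by
    rw [← tendsto_sub_nhds_zero_iff, Metric.tendsto_atTop]
    intro ε' hε'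
    obtain ⟨j, hj⟩ := exists_pow_lt_of_lt_one hε' hρ1
    obtain ⟨m2, hm2⟩ := eventually_atTop.1 (hlim 1 j)
    refine ⟨m2, fun m hm => ?_⟩
    rw [dist_zero_right]
    refine lt_of_le_of_lt ?_ hj
    have h2 := hρ _ _ (hm2 (m + m1) (by omega))
    rw [map_sub, PowerSeries.coeff_one_X, map_one] at h2
    exact h2
  have hD' : ∀ k, ((p : C) ^ m1 * ε) * constantCoeff (P k) +
      ∑ j, ((p : C) ^ m1 • D) j * coeff (Finsupp.single j 1) (P k) =
        (p : C) ^ m1 * Matrix.vecMul (fun k => constantCoeff (P k)) M k := by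
    intro k
    rw [← hD k, mul_add, Finset.mul_sum, mul_assoc]
    congr 1
    refine Finset.sum_congr rfl fun j _ => ?_
    rw [Pi.smul_apply, smul_eq_mul, mul_assoc]
  have hlimD := asym0 hPb hPi hp0 hp1 (cm := fun m => χ (PowerSeries.coeff 1 (ψ (m + m1)))) hz1 hz0
    hcm (Eventually.of_forall fun m k => by
      have h1 := congrFun (hrel m) k
      rw [Pi.smul_apply, smul_eq_mul, Pi.add_apply, Pi.smul_apply, smul_eq_mul, pow_add,
        mul_assoc] at h1
      exact h1) hD'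
  have hzero : ∀ m, ev (z m) g = 0 := by
    intro m
    rw [← hgev (z m) (hz1 m)]
    have h2 := chi_eq_ev0 (χ := χ.comp (φ (m + m1) : E0 p n →+* E0 p n)) (θ := θ)
      (isPoint_comp hχ (hφ' m)) (by
        intro w
        show χ (φ (m + m1) (MvPowerSeries.C w)) = _
        rw [hφC (m + m1) (by omega), hθ]) f
    have h3 := hf (φ (m + m1)) (ψ (m + m1)) (hiso (m + m1) (by omega)) (hφC (m + m1) (by omega))
    have h4 : (fun i : Idx 1 n => (ptB hχ).1 i.1 + c * z m i) =
        fun i : Idx 1 n => (χ.comp (φ (m + m1) : E0 p n →+* E0 p n)) (uE p n i.1) := by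
      funext i
      rw [hcz]
      show χ (uE p n i.1) + (χ (φ (m + m1) (uE p n i.1)) - χ (uE p n i.1)) =
        χ (φ (m + m1) (uE p n i.1))
      ring
    rw [h4, ← h2]
    exact h3
  have hfin := leading_form hg hN hp0 hp1 hz1 hlimD (Eventually.of_forall hzero)
  rw [eval_smul_homPart] at hfin
  exact (mul_eq_zero.1 hfin).resolve_left (pow_ne_zero _ (pow_ne_zero _ hp0))

end

section

variable {C : Type*} [NontriviallyNormedField C] [IsUltrametricDist C] [CompleteSpace C] [CharZero C]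
  [IsAlgClosed C] {χ : E0 p n →+* C}

theorem density0 (hn : 1 ≤ n) (hχ : IsPoint p n χ) {f : E0 p n}
    (hf : ∀ (φ : E0 p n ≃+* E0 p n) (ψ : PowerSeries (E0 p n)),
      IsIsoFG ψ ((univF p n).map (φ : E0 p n →+* E0 p n)) (univF p n) →
      (∀ w, φ (MvPowerSeries.C w) = MvPowerSeries.C w) → χ (φ f) = 0) : f = 0 := by
  classical
  by_contra hf0
  let θ : WittVector p (GaloisField p n) →+* C := χ.comp MvPowerSeries.C
  have hθ : ∀ w, χ (MvPowerSeries.C w) = θ w := fun w => rfl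
  have hp1 : ‖(p : C)‖ < 1 := norm_p_lt hχ
  obtain ⟨a, c, P, ha0, hc0, hc1, hPb, hPc, hPi⟩ := exists_period p hp1 hn (ptB hχ)
  have hbd := bdd_redT hχ hθ f
  obtain ⟨g0, hg0, hg0ev, -, -⟩ := exists_shift hbd
    (c := fun i : Idx 1 n => (ptB hχ).1 i.1) (fun i => (ptB hχ).2 i.1)
  have hg00 : g0 ≠ 0 := shift_ne_zero hbd (fun i => (ptB hχ).2 i.1) hg0ev
    (redT_ne_zero (theta_injective θ) hf0)
  let g := scal c g0
  have hg : Bdd g := bdd_scal hc1.le hg0
  have hgne : g ≠ 0 := scal_ne_zero hc0 hg00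
  have hgev : ∀ z : Idx 1 n → C, (∀ i, ‖z i‖ < 1) →
      ev (fun i => (ptB hχ).1 i.1 + c * z i) (redT θ f) = ev z g := by
    intro z hz
    rw [ev_scal, ← hg0ev]
    intro i
    rw [norm_mul]
    exact (mul_le_of_le_one_right (norm_nonneg _) (hz i).le).trans_lt hc1
  -- the order of `g`
  obtain ⟨d0, hd0⟩ : ∃ d, coeff d g ≠ 0 := by
    by_contra hcon
    push Not at hcon
    exact hgne (MvPowerSeries.ext fun d => by rw [hcon d, map_zero])
  have hex : ∃ N, ∃ d : Idx 1 n →₀ ℕ, d.degree = N ∧ coeff d g ≠ 0 := ⟨_, d0, rfl, hd0⟩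
  let N := Nat.find hex
  obtain ⟨d1, hd1, hd1'⟩ := Nat.find_spec hex
  have hN : ∀ d, d.degree < N → coeff d g = 0 := by
    intro d hd
    by_contra hne
    exact Nat.find_min hex hd ⟨d, rfl, hne⟩
  -- the linear isomorphism `J`
  let J : (C × (Idx 1 n → C)) →ₗ[C] (Fin n → C) :=
    { toFun := fun w k => w.1 * constantCoeff (P k) +
        ∑ j, w.2 j * coeff (Finsupp.single j 1) (P k)
      map_add' := by
        intro v w
        funext k
        simp only [Prod.fst_add, Prod.snd_add, Pi.add_apply, add_mul, Finset.sum_add_distrib]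
        ring
      map_smul' := by
        intro r v
        funext k
        simp only [Prod.smul_fst, Prod.smul_snd, Pi.smul_apply, smul_eq_mul, RingHom.id_apply,
          mul_add, Finset.mul_sum, mul_assoc] }
  have hJi : Function.Injective J := by
    rw [← LinearMap.ker_eq_bot, LinearMap.ker_eq_bot']
    intro w hw
    obtain ⟨h1, h2⟩ := hPi w.1 w.2 (fun k => congrFun hw k)
    exact Prod.ext h1 h2
  have hfr : Module.finrank C (C × (Idx 1 n → C)) = Module.finrank C (Fin n → C) := by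
    rw [Module.finrank_prod, Module.finrank_self, Module.finrank_pi, Module.finrank_pi,
      Fintype.card_fin, Fintype.card_coe, Nat.card_Ico]
    omega
  let Je : (C × (Idx 1 n → C)) ≃ₗ[C] (Fin n → C) := LinearEquiv.ofBijective J
    ⟨hJi, (LinearMap.injective_iff_surjective_of_finrank_eq_finrank hfr).1 hJi⟩
  let P0 : Fin n → C := fun k => constantCoeff (P k)
  have hP0 : P0 ≠ 0 := by
    intro h0
    have := (hPi 1 0 (fun k => by
      have h1 : constantCoeff (P k) = 0 := congrFun h0 k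
      simp [h1])).1
    exact one_ne_zero this
  -- directions
  let T : Matrix (Fin n) (Fin n) C →+ (Idx 1 n → C) :=
    { toFun := fun M => (Je.symm (Matrix.vecMul P0 M)).2
      map_zero' := by simp
      map_add' := fun M M' => by rw [Matrix.vecMul_add, map_add, Prod.snd_add] }
  let A := matA (norm_p_lt hχ) hn (norm_thetaW_le hχ hθ)
  let S : AddSubmonoid (Idx 1 n → C) := A.map T
  have hS : Submodule.span C (S : Set (Idx 1 n → C)) = ⊤ := by
    let L : (Fin n → C) →ₗ[C] (Idx 1 n → C) := (LinearMap.snd C C (Idx 1 n → C)).comp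
      (Je.symm : (Fin n → C) →ₗ[C] (C × (Idx 1 n → C)))
    have hL : Function.Surjective L := by
      intro v
      refine ⟨Je (0, v), ?_⟩
      show (Je.symm (Je (0, v))).2 = v
      rw [LinearEquiv.symm_apply_apply]
    have h1 := span_monMat (C := C) p hn hP0
    have h2 := congrArg (Submodule.map L) h1
    rw [Submodule.map_top, LinearMap.range_eq_top.2 hL, Submodule.map_span] at h2
    rw [eq_top_iff, ← h2]
    apply Submodule.span_mono
    rintro _ ⟨w, ⟨ζ, l, hζ, hl, rfl⟩, rfl⟩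
    exact ⟨monMat p n ζ l, monMat_mem hζ hl, rfl⟩
  have hvan : ∀ v ∈ S, MvPolynomial.eval v (homPart N g) = 0 := by
    rintro v ⟨M, hM, rfl⟩
    refine leading_vanishes hn hχ hθ hf hc0 hc1 hPb hPc hPi hg hgev hN (M := M) hM
      (ε := (Je.symm (Matrix.vecMul P0 M)).1) ?_
    intro k
    have h1 : J (Je.symm (Matrix.vecMul P0 M)) = Matrix.vecMul P0 M :=
      LinearEquiv.apply_symm_apply Je _
    exact congrFun h1 k
  have hz := poly_zero hS hvan
  apply hd1'
  have h1 := congrArg (MvPolynomial.coeff d1) hz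
  rw [coeff_homPart, if_pos hd1, MvPolynomial.coeff_zero] at h1
  exact h1

end

end Chai
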