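import Vale.Agent.Chai.Defs

/-!
# P217 / CoreB: homomorphisms of formal groups, formal algebra

OWNER: helper9
-/

namespace Chai

open MvPowerSeries

section

variable {R S : Type*} [CommRing R] [CommRing S]

theorem constantCoeff_mulPS (F : FormalGroup R) (m : ℕ) :
    PowerSeries.constantCoeff (mulPS F m) = 0 := by
  induction m with
  | zero => simp [mulPS]
  | succ m ih =>
    have h3 : ∀ i, constantCoeff (![mulPS F m, (PowerSeries.X : PowerSeries R)] i) = 0 := by
      intro i; fin_cases i
      · exact ih
      · exact PowerSeries.constantCoeff_X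
    exact constantCoeff_subst_eq_zero (hasSubst_of_constantCoeff_zero h3) h3 F.zero_constantCoeff

theorem hasSubst_pair {τ : Type*} {a b : MvPowerSeries τ R} (ha : constantCoeff a = 0)
    (hb : constantCoeff b = 0) : HasSubst ![a, b] :=
  hasSubst_of_constantCoeff_zero (fun i => by fin_cases i <;> simpa)

theorem constantCoeff_pair {τ : Type*} {a b : MvPowerSeries τ R} (ha : constantCoeff a = 0)
    (hb : constantCoeff b = 0) {F : MvPowerSeries (Fin 2) R} (hF : constantCoeff F = 0) :
    constantCoeff (F.subst ![a, b]) = 0 :=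
  constantCoeff_subst_eq_zero (hasSubst_pair ha hb) (fun i => by fin_cases i <;> simpa) hF

theorem subst_pair_subst {τ υ : Type*} [Finite τ] {a b : MvPowerSeries τ R}
    (ha : constantCoeff a = 0) (hb : constantCoeff b = 0) {c : τ → MvPowerSeries υ R}
    (hc : ∀ i, constantCoeff (c i) = 0) (F : MvPowerSeries (Fin 2) R) :
    (F.subst ![a, b]).subst c = F.subst ![a.subst c, b.subst c] := by
  rw [subst_comp_subst_apply (hasSubst_pair ha hb) (hasSubst_of_constantCoeff_zero hc)]
  congr 1
  funext i
  fin_cases i <;> rfl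

theorem ccs1 {τ : Type*} {a : MvPowerSeries τ R} (ha : constantCoeff a = 0) {f : PowerSeries R}
    (hf : PowerSeries.constantCoeff f = 0) : constantCoeff (f.subst a) = 0 :=
  PowerSeries.constantCoeff_subst_eq_zero ha f hf

/-- the defining identity of a homomorphism with arbitrary arguments -/
theorem IsHom.subst {ψ : PowerSeries R} {F G : FormalGroup R} (h : IsHom ψ F G) {τ : Type*}
    {a b : MvPowerSeries τ R} (ha : constantCoeff a = 0) (hb : constantCoeff b = 0) :
    ψ.subst (F.toPowerSeries.subst ![a, b]) = G.toPowerSeries.subst ![ψ.subst a, ψ.subst b] := by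
  have hab := hasSubst_pair ha hb
  have h1 : ((ψ.subst F.toPowerSeries : MvPowerSeries (Fin 2) R)).subst ![a, b]
      = ψ.subst (F.toPowerSeries.subst ![a, b]) := by
    have := subst_comp_subst_apply (R := R)
      (PowerSeries.HasSubst.const (PowerSeries.HasSubst.of_constantCoeff_zero F.zero_constantCoeff))
      hab ψ
    exact this
  rw [← h1, h.2, subst_comp_subst_apply (hasSubst_pair (ccs1 (constantCoeff_X _) h.1)
    (ccs1 (constantCoeff_X _) h.1)) hab]
  congr 1
  funext i
  have h2 : ∀ i, ((ψ.subst (X i : MvPowerSeries (Fin 2) R) : MvPowerSeries (Fin 2) R)).subst ![a, b]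
      = ψ.subst (![a, b] i) := by
    intro i
    have := subst_comp_subst_apply (R := R)
      (PowerSeries.HasSubst.const (PowerSeries.HasSubst.X (S := R) i)) hab ψ
    refine this.trans ?_
    rw [subst_X hab]
    rfl
  fin_cases i
  · exact h2 0
  · exact h2 1

/-- a homomorphism commutes with multiplication by `m` -/
theorem IsHom.mulPS_comm {ψ : PowerSeries R} {F G : FormalGroup R}
    (h : IsHom ψ F G) (m : ℕ) : ψ.subst (mulPS F m) = (mulPS G m).subst ψ := by
  have hψ : PowerSeries.HasSubst ψ := PowerSeries.HasSubst.of_constantCoeff_zero' h.1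
  induction m with
  | zero =>
    have h1 : PowerSeries.subst ψ (0 : PowerSeries R) = 0 := by
      rw [← PowerSeries.coe_substAlgHom hψ, map_zero]
    show PowerSeries.subst (0 : PowerSeries R) ψ = PowerSeries.subst ψ (0 : PowerSeries R)
    rw [h1]
    ext n
    rw [PowerSeries.coeff_subst' PowerSeries.HasSubst.zero']
    rw [finsum_eq_zero_of_forall_eq_zero]
    · simp
    · intro d
      rcases Nat.eq_zero_or_pos d with rfl | hd
      · have := h.1
        rw [← PowerSeries.coeff_zero_eq_constantCoeff_apply] at this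
        rw [this, zero_smul]
      · rw [zero_pow hd.ne', map_zero, smul_zero]
  | succ m ih =>
    have h1 := h.subst (a := (mulPS F m : PowerSeries R)) (b := (PowerSeries.X : PowerSeries R))
      (constantCoeff_mulPS F m) PowerSeries.constantCoeff_X
    show ψ.subst (F.toPowerSeries.subst ![mulPS F m, (PowerSeries.X : PowerSeries R)])
      = PowerSeries.subst ψ (G.toPowerSeries.subst ![mulPS G m, (PowerSeries.X : PowerSeries R)])
    rw [h1]
    have h2 : PowerSeries.subst ψ (G.toPowerSeries.subst ![mulPS G m, (PowerSeries.X : PowerSeries R)])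
        = G.toPowerSeries.subst ![PowerSeries.subst ψ (mulPS G m),
          PowerSeries.subst ψ (PowerSeries.X : PowerSeries R)] :=
      subst_pair_subst (constantCoeff_mulPS G m) PowerSeries.constantCoeff_X (fun _ => h.1) _
    rw [h2, PowerSeries.subst_X hψ, ← ih]
    have h3 : PowerSeries.subst (PowerSeries.X : PowerSeries R) ψ = ψ := by
      have := MvPowerSeries.subst_self (R := R) (σ := Unit)
      exact congrFun this ψ
    rw [h3]

theorem IsHom.comp {ψ χ : PowerSeries R} {F G H : FormalGroup R}
    (h : IsHom ψ G H) (h' : IsHom χ F G) : IsHom (ψ.subst χ) F H := by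
  have hχ : PowerSeries.HasSubst χ := PowerSeries.HasSubst.of_constantCoeff_zero' h'.1
  refine ⟨ccs1 h'.1 h.1, ?_⟩
  have e : ∀ (a : MvPowerSeries (Fin 2) R), constantCoeff a = 0 →
      PowerSeries.subst a (ψ.subst χ : PowerSeries R) = ψ.subst (χ.subst a) := by
    intro a ha
    exact PowerSeries.subst_comp_subst_apply hχ (PowerSeries.HasSubst.of_constantCoeff_zero ha) ψ
  show PowerSeries.subst F.toPowerSeries (ψ.subst χ : PowerSeries R) =
    H.toPowerSeries.subst ![PowerSeries.subst (X 0) (ψ.subst χ : PowerSeries R),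
      PowerSeries.subst (X 1) (ψ.subst χ : PowerSeries R)]
  rw [e _ F.zero_constantCoeff, e _ (constantCoeff_X _), e _ (constantCoeff_X _), h'.2,
    h.subst (ccs1 (constantCoeff_X _) h'.1) (ccs1 (constantCoeff_X _) h'.1)]

theorem IsHom.map {ψ : PowerSeries R} {F G : FormalGroup R}
    (h : IsHom ψ F G) (φ : R →+* S) : IsHom (ψ.map φ) (F.map φ) (G.map φ) := by
  refine ⟨?_, ?_⟩
  · rw [← PowerSeries.coeff_zero_eq_constantCoeff_apply, PowerSeries.coeff_map,
      PowerSeries.coeff_zero_eq_constantCoeff_apply, h.1, map_zero]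
  · have h1 := congrArg (MvPowerSeries.map φ) h.2
    rw [PowerSeries.map_subst (PowerSeries.HasSubst.of_constantCoeff_zero F.zero_constantCoeff),
      MvPowerSeries.map_subst (hasSubst_pair (ccs1 (constantCoeff_X _) h.1)
        (ccs1 (constantCoeff_X _) h.1))] at h1
    refine h1.trans ?_
    show (G.toPowerSeries.map φ).subst _ = (G.toPowerSeries.map φ).subst _
    congr 1
    funext i
    fin_cases i
    · show MvPowerSeries.map φ (ψ.subst (X 0)) = _
      rw [PowerSeries.map_subst (PowerSeries.HasSubst.X _), MvPowerSeries.map_X]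
      rfl
    · show MvPowerSeries.map φ (ψ.subst (X 1)) = _
      rw [PowerSeries.map_subst (PowerSeries.HasSubst.X _), MvPowerSeries.map_X]
      rfl

end

end Chai
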