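import Vale.Agent.Chai.Ev
import Vale.Agent.Chai.CoreB

/-!
# P217 / Core: evaluation of power series on the open unit polydisc, formal groups over `O_C`

OWNER: helper10 (evaluation part proved in `Ev.lean`, homomorphisms in `CoreB.lean`)
-/

namespace Chai

open MvPowerSeries Filter Topology

set_option linter.unusedSectionVars false

/-! ## Formal groups with bounded coefficients -/

section Alg

variable {R : Type*} [CommRing R]

theorem fin2_finsupp_eq (d : Fin 2 →₀ ℕ) : d = Finsupp.single 0 (d 0) + Finsupp.single 1 (d 1) := by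
  ext i
  fin_cases i <;> simp

theorem coeff_single_zero (F : FormalGroup R) (n : ℕ) :
    coeff (Finsupp.single 0 n) F.toPowerSeries = if n = 1 then 1 else 0 := by
  have hs : HasSubst (![PowerSeries.X, 0] : Fin 2 → MvPowerSeries Unit R) :=
    hasSubst_pair PowerSeries.constantCoeff_X (map_zero _)
  have h2 : PowerSeries.coeff n F.Xzero = coeff (Finsupp.single 0 n) F.toPowerSeries := by
    rw [PowerSeries.coeff, FormalGroup.Xzero, coeff_subst hs,
      finsum_eq_single _ (Finsupp.single 0 n)]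
    · rw [Finsupp.prod_fintype _ _ (fun i => pow_zero _), Fin.prod_univ_two]
      have := PowerSeries.coeff_X_pow_self (R := R) n
      rw [PowerSeries.coeff] at this
      simp [this]
    · intro d hd
      rw [Finsupp.prod_fintype _ _ (fun i => pow_zero _), Fin.prod_univ_two]
      by_cases hd1 : d 1 = 0
      · have hd0 : n ≠ d 0 := by
          intro h0
          apply hd
          rw [fin2_finsupp_eq d, hd1, h0]
          simp
        have := PowerSeries.coeff_X_pow (R := R) n (d 0)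
        rw [if_neg hd0, PowerSeries.coeff] at this
        simp [hd1, this]
      · simp [hd1]
  rw [← h2, F.Xzero_eq_X, PowerSeries.coeff_X]

theorem coeff_single_one (F : FormalGroup R) (n : ℕ) :
    coeff (Finsupp.single 1 n) F.toPowerSeries = if n = 1 then 1 else 0 := by
  have hs : HasSubst (![0, PowerSeries.X] : Fin 2 → MvPowerSeries Unit R) :=
    hasSubst_pair (map_zero _) PowerSeries.constantCoeff_X
  have h2 : PowerSeries.coeff n F.zeroX = coeff (Finsupp.single 1 n) F.toPowerSeries := by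
    rw [PowerSeries.coeff, FormalGroup.zeroX, coeff_subst hs,
      finsum_eq_single _ (Finsupp.single 1 n)]
    · rw [Finsupp.prod_fintype _ _ (fun i => pow_zero _), Fin.prod_univ_two]
      have := PowerSeries.coeff_X_pow_self (R := R) n
      rw [PowerSeries.coeff] at this
      simp [this]
    · intro d hd
      rw [Finsupp.prod_fintype _ _ (fun i => pow_zero _), Fin.prod_univ_two]
      by_cases hd1 : d 0 = 0
      · have hd0 : n ≠ d 1 := by
          intro h0
          apply hd
          rw [fin2_finsupp_eq d, hd1, h0]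
          simp
        have := PowerSeries.coeff_X_pow (R := R) n (d 1)
        rw [if_neg hd0, PowerSeries.coeff] at this
        simp [hd1, this]
      · simp [hd1]
  rw [← h2, F.zeroX_eq_X, PowerSeries.coeff_X]

/-- the series `K` with `F = X + Y + X Y K` -/
noncomputable def FormalGroup.kk (F : FormalGroup R) : MvPowerSeries (Fin 2) R :=
  fun d => coeff (d + (Finsupp.single 0 1 + Finsupp.single 1 1)) F.toPowerSeries

theorem FormalGroup.eq_kk (F : FormalGroup R) :
    F.toPowerSeries = X 0 + X 1 + X 0 * X 1 * FormalGroup.kk F := by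
  have hm : (X 0 * X 1 : MvPowerSeries (Fin 2) R) =
      monomial (Finsupp.single 0 1 + Finsupp.single 1 1) 1 := by
    rw [X_def, X_def, monomial_mul_monomial, one_mul]
  ext d
  rw [hm, map_add, map_add, coeff_monomial_mul, coeff_X, coeff_X, one_mul]
  by_cases h1 : d 1 = 0
  · have hd : d = Finsupp.single 0 (d 0) := by
      conv_lhs => rw [fin2_finsupp_eq d, h1]
      simp
    have hn : ¬ (Finsupp.single 0 1 + Finsupp.single 1 1 ≤ d) := by
      intro h
      have := h 1
      simp [h1] at this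
    rw [if_neg hn, hd, coeff_single_zero]
    by_cases h0 : d 0 = 1
    · rw [h0]
      have : (Finsupp.single 0 1 : Fin 2 →₀ ℕ) ≠ Finsupp.single 1 1 := by
        intro h
        have := DFunLike.congr_fun h 0
        simp at this
      simp [this]
    · have e1 : (Finsupp.single 0 (d 0) : Fin 2 →₀ ℕ) ≠ Finsupp.single 0 1 := by
        intro h
        have := DFunLike.congr_fun h 0
        simp at this
        exact h0 this
      have e2 : (Finsupp.single 0 (d 0) : Fin 2 →₀ ℕ) ≠ Finsupp.single 1 1 := by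
        intro h
        have := DFunLike.congr_fun h 1
        simp at this
      simp [e1, e2, h0]
  · by_cases h0 : d 0 = 0
    · have hd : d = Finsupp.single 1 (d 1) := by
        conv_lhs => rw [fin2_finsupp_eq d, h0]
        simp
      have hn : ¬ (Finsupp.single 0 1 + Finsupp.single 1 1 ≤ d) := by
        intro h
        have := h 0
        simp [h0] at this
      rw [if_neg hn, hd, coeff_single_one]
      by_cases h2 : d 1 = 1
      · rw [h2]
        have : (Finsupp.single 1 1 : Fin 2 →₀ ℕ) ≠ Finsupp.single 0 1 := by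
          intro h
          have := DFunLike.congr_fun h 0
          simp at this
        simp [this]
      · have e1 : (Finsupp.single 1 (d 1) : Fin 2 →₀ ℕ) ≠ Finsupp.single 1 1 := by
          intro h
          have := DFunLike.congr_fun h 1
          simp at this
          exact h2 this
        have e2 : (Finsupp.single 1 (d 1) : Fin 2 →₀ ℕ) ≠ Finsupp.single 0 1 := by
          intro h
          have := DFunLike.congr_fun h 0
          simp at this
        simp [e1, e2, h2]
    · have hle : Finsupp.single 0 1 + Finsupp.single 1 1 ≤ d := by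
        intro i
        fin_cases i
        · simp; omega
        · simp; omega
      have e1 : d ≠ Finsupp.single 0 1 := by
        intro h
        rw [h] at h1
        simp at h1
      have e2 : d ≠ Finsupp.single 1 1 := by
        intro h
        rw [h] at h0
        simp at h0
      rw [if_pos hle, if_neg e1, if_neg e2, zero_add, zero_add]
      change _ = coeff (d - (Finsupp.single 0 1 + Finsupp.single 1 1) +
        (Finsupp.single 0 1 + Finsupp.single 1 1)) F.toPowerSeries
      rw [tsub_add_cancel_of_le hle]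

end Alg

/-- commutative formal group law over `O_C` -/
structure CFG (C : Type*) [NontriviallyNormedField C] extends FormalGroup C where
  bdd : Bdd toPowerSeries
  comm : toFormalGroup.IsComm

section CFG

variable {C : Type*} [NontriviallyNormedField C] [IsUltrametricDist C] [CompleteSpace C]

/-- the points of `G` in the open unit ball -/
def CFG.Pt (_G : CFG C) : Type _ := {a : C // ‖a‖ < 1}

theorem pair_lt {a b : C} (ha : ‖a‖ < 1) (hb : ‖b‖ < 1) : ∀ i, ‖(![a, b] : Fin 2 → C) i‖ < 1 := by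
  intro i
  fin_cases i
  · exact ha
  · exact hb

theorem bdd_pair {τ : Type*} {f g : MvPowerSeries τ C} (hf : Bdd f) (hg : Bdd g) :
    ∀ i, Bdd ((![f, g] : Fin 2 → MvPowerSeries τ C) i) := by
  intro i
  fin_cases i
  · exact hf
  · exact hg

theorem cc_pair {τ : Type*} {f g : MvPowerSeries τ C} (hf : constantCoeff f = 0)
    (hg : constantCoeff g = 0) :
    ∀ i, constantCoeff ((![f, g] : Fin 2 → MvPowerSeries τ C) i) = 0 := by
  intro i
  fin_cases i
  · exact hf
  · exact hg

theorem ev_subst_pair {τ : Type*} [Finite τ] {a : τ → C} (ha : ∀ i, ‖a i‖ < 1)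
    {f g : MvPowerSeries τ C} {F : MvPowerSeries (Fin 2) C} (hF : Bdd F) (hf : Bdd f) (hg : Bdd g)
    (hf0 : constantCoeff f = 0) (hg0 : constantCoeff g = 0) :
    ev a (F.subst ![f, g]) = ev ![ev a f, ev a g] F := by
  rw [ev_subst ha hF (bdd_pair hf hg) (cc_pair hf0 hg0)]
  congr 1
  ext i
  fin_cases i <;> rfl

theorem CFG.bdd_kk (G : CFG C) : Bdd (FormalGroup.kk G.toFormalGroup) := fun _ => G.bdd _

/-- the sum in the formal group -/
noncomputable def CFG.plus (G : CFG C) (a b : C) : C := ev ![a, b] G.toPowerSeries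

theorem CFG.plus_eq (G : CFG C) {a b : C} (ha : ‖a‖ < 1) (hb : ‖b‖ < 1) :
    G.plus a b = a + b + a * b * ev ![a, b] (FormalGroup.kk G.toFormalGroup) := by
  unfold CFG.plus
  have hab := pair_lt ha hb
  conv_lhs => rw [FormalGroup.eq_kk G.toFormalGroup]
  rw [ev_add hab ((Bdd.X 0).add (Bdd.X 1)) (((Bdd.X 0).mul (Bdd.X 1)).mul G.bdd_kk),
    ev_add hab (Bdd.X 0) (Bdd.X 1), ev_mul hab ((Bdd.X 0).mul (Bdd.X 1)) G.bdd_kk,
    ev_mul hab (Bdd.X 0) (Bdd.X 1), ev_X, ev_X]
  rfl

theorem CFG.norm_plus_sub_le (G : CFG C) {a b : C} (ha : ‖a‖ < 1) (hb : ‖b‖ < 1) :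
    ‖G.plus a b - (a + b)‖ ≤ ‖a‖ * ‖b‖ := by
  rw [G.plus_eq ha hb, add_sub_cancel_left, norm_mul, norm_mul]
  exact mul_le_of_le_one_right (by positivity) (norm_ev_le_one (pair_lt ha hb) G.bdd_kk)

theorem CFG.norm_plus_le (G : CFG C) {a b : C} (ha : ‖a‖ < 1) (hb : ‖b‖ < 1) :
    ‖G.plus a b‖ ≤ max ‖a‖ ‖b‖ := by
  have h1 := G.norm_plus_sub_le ha hb
  calc ‖G.plus a b‖ = ‖(G.plus a b - (a + b)) + (a + b)‖ := by rw [sub_add_cancel]
    _ ≤ max _ _ := IsUltrametricDist.norm_add_le_max _ _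
    _ ≤ max ‖a‖ ‖b‖ := by
        refine max_le (h1.trans ?_) (IsUltrametricDist.norm_add_le_max _ _)
        exact (mul_le_of_le_one_right (norm_nonneg _) hb.le).trans (le_max_left _ _)

theorem CFG.norm_plus_lt (G : CFG C) {a b : C} (ha : ‖a‖ < 1) (hb : ‖b‖ < 1) :
    ‖G.plus a b‖ < 1 := (G.norm_plus_le ha hb).trans_lt (max_lt ha hb)

theorem CFG.plus_zero (G : CFG C) {a : C} (ha : ‖a‖ < 1) : G.plus a 0 = a := by
  rw [G.plus_eq ha (by simp)]
  ring

theorem CFG.plus_comm (G : CFG C) {a b : C} (ha : ‖a‖ < 1) (hb : ‖b‖ < 1) :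
    G.plus a b = G.plus b a := by
  unfold CFG.plus
  have h := G.comm.comm
  conv_lhs => rw [show G.toPowerSeries = G.toPowerSeries.subst ![X 1, X 0] from h]
  rw [ev_subst_pair (pair_lt ha hb) G.bdd (Bdd.X 1) (Bdd.X 0) (constantCoeff_X _)
    (constantCoeff_X _), ev_X, ev_X]
  rfl

theorem CFG.plus_assoc (G : CFG C) {a b c : C} (ha : ‖a‖ < 1) (hb : ‖b‖ < 1) (hc : ‖c‖ < 1) :
    G.plus (G.plus a b) c = G.plus a (G.plus b c) := by
  have habc : ∀ i, ‖(![a, b, c] : Fin 3 → C) i‖ < 1 := by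
    intro i
    fin_cases i
    · exact ha
    · exact hb
    · exact hc
  have hX : ∀ i : Fin 3, Bdd (X i : MvPowerSeries (Fin 3) C) := fun i => Bdd.X i
  have hX0 : ∀ i : Fin 3, constantCoeff (X i : MvPowerSeries (Fin 3) C) = 0 :=
    fun i => constantCoeff_X i
  have h := congrArg (ev ![a, b, c]) G.assoc
  have c1 : ∀ i j : Fin 3, constantCoeff (G.toPowerSeries.subst
      ![(X i : MvPowerSeries (Fin 3) C), X j]) = 0 := fun i j =>
    constantCoeff_pair (hX0 i) (hX0 j) G.zero_constantCoeff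
  have b1 : ∀ i j : Fin 3, Bdd (G.toPowerSeries.subst
      ![(X i : MvPowerSeries (Fin 3) C), X j]) := fun i j =>
    G.bdd.subst (bdd_pair (hX i) (hX j)) (cc_pair (hX0 i) (hX0 j))
  rw [ev_subst_pair habc G.bdd (b1 0 1) (hX 2) (c1 0 1) (hX0 2),
    ev_subst_pair habc G.bdd (hX 0) (b1 1 2) (hX0 0) (c1 1 2),
    ev_subst_pair habc G.bdd (hX 0) (hX 1) (hX0 0) (hX0 1),
    ev_subst_pair habc G.bdd (hX 1) (hX 2) (hX0 1) (hX0 2), ev_X, ev_X, ev_X] at h
  exact h

theorem norm_one_add_eq {x : C} (hx : ‖x‖ < 1) : ‖1 + x‖ = 1 := by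
  have h1 : ‖(1 : C) + x‖ = max ‖(1 : C)‖ ‖x‖ :=
    IsUltrametricDist.norm_add_eq_max_of_norm_ne_norm (by rw [norm_one]; exact hx.ne')
  rw [h1, norm_one, max_eq_left hx.le]

/-- existence of the inverse -/
theorem CFG.exists_neg (G : CFG C) {a : C} (ha : ‖a‖ < 1) : ∃ b : C, ‖b‖ < 1 ∧ G.plus a b = 0 := by
  obtain ⟨s, hs⟩ : ∃ s : Set C, s = {b | ‖b‖ ≤ ‖a‖} := ⟨_, rfl⟩
  obtain ⟨T, hT⟩ : ∃ T : C → C, T = fun b =>
    -a - a * b * ev ![a, b] (FormalGroup.kk G.toFormalGroup) := ⟨_, rfl⟩
  have hsc : IsComplete s := by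
    have : IsClosed s := by rw [hs]; exact isClosed_le continuous_norm continuous_const
    exact this.isComplete
  have hlt : ∀ b ∈ s, ‖b‖ < 1 := by
    intro b hb
    rw [hs] at hb
    exact lt_of_le_of_lt hb ha
  have hmap : Set.MapsTo T s s := by
    intro b hb
    have hb1 := hlt b hb
    rw [hs] at hb ⊢
    rw [hT]
    refine (norm_sub_le_max' _ _).trans (max_le (by rw [norm_neg]) ?_)
    rw [norm_mul, norm_mul]
    calc ‖a‖ * ‖b‖ * ‖ev ![a, b] (FormalGroup.kk G.toFormalGroup)‖ ≤ ‖a‖ * 1 * 1 := by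
          gcongr
          exact norm_ev_le_one (pair_lt ha hb1) G.bdd_kk
      _ = ‖a‖ := by ring
  have hlip : ∀ b ∈ s, ∀ b' ∈ s, ‖T b - T b'‖ ≤ ‖a‖ * ‖b - b'‖ := by
    intro b hb b' hb'
    have hb1 := hlt b hb
    have hb1' := hlt b' hb'
    have e1 : T b - T b' = -a * ((b - b') * ev ![a, b] (FormalGroup.kk G.toFormalGroup) +
        b' * (ev ![a, b] (FormalGroup.kk G.toFormalGroup) -
          ev ![a, b'] (FormalGroup.kk G.toFormalGroup))) := by
      rw [hT]
      ring
    rw [e1, norm_mul, norm_neg]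
    gcongr
    refine (IsUltrametricDist.norm_add_le_max _ _).trans (max_le ?_ ?_)
    · rw [norm_mul]
      exact mul_le_of_le_one_right (norm_nonneg _) (norm_ev_le_one (pair_lt ha hb1) G.bdd_kk)
    · rw [norm_mul]
      calc ‖b'‖ * _ ≤ 1 * ‖b - b'‖ := by
            gcongr
            refine norm_ev_sub_le (pair_lt ha hb1) G.bdd_kk (pair_lt ha hb1') (norm_nonneg _) ?_
            intro i
            fin_cases i
            · simp
            · simp
        _ = ‖b - b'‖ := one_mul _
  have hcontr : ContractingWith ‖a‖₊ (hmap.restrict T s s) := by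
    refine ⟨by exact_mod_cast ha, LipschitzWith.of_dist_le_mul fun x y => ?_⟩
    rw [Subtype.dist_eq, Subtype.dist_eq, dist_eq_norm, dist_eq_norm]
    exact hlip x.1 x.2 y.1 y.2
  have h0 : (0 : C) ∈ s := by rw [hs]; simp
  obtain ⟨b, hb, hfix, -⟩ := hcontr.exists_fixedPoint' hsc hmap h0 (edist_ne_top _ _)
  refine ⟨b, hlt b hb, ?_⟩
  rw [G.plus_eq ha (hlt b hb)]
  have : T b = b := hfix
  rw [hT] at this
  simp only at this
  linear_combination -this

noncomputable instance (G : CFG C) : Add G.Pt := ⟨fun a b => ⟨G.plus a.1 b.1, G.norm_plus_lt a.2 b.2⟩⟩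
noncomputable instance (G : CFG C) : Zero G.Pt := ⟨⟨0, by simp⟩⟩
noncomputable instance (G : CFG C) : Neg G.Pt :=
  ⟨fun a => ⟨(G.exists_neg a.2).choose, (G.exists_neg a.2).choose_spec.1⟩⟩

noncomputable instance (G : CFG C) : AddCommGroup G.Pt where
  add_assoc a b c := Subtype.ext (G.plus_assoc a.2 b.2 c.2)
  zero_add a := Subtype.ext ((G.plus_comm (show ‖(0 : C)‖ < 1 by simp) a.2).trans (G.plus_zero a.2))
  add_zero a := Subtype.ext (G.plus_zero a.2)
  neg_add_cancel a := Subtype.ext ((G.plus_comm (G.exists_neg a.2).choose_spec.1 a.2).trans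
    (G.exists_neg a.2).choose_spec.2)
  add_comm a b := Subtype.ext (G.plus_comm a.2 b.2)
  nsmul := nsmulRec
  zsmul := zsmulRec

theorem CFG.add_val (G : CFG C) (a b : G.Pt) : (a + b).1 = ev ![a.1, b.1] G.toPowerSeries := rfl
theorem CFG.zero_val (G : CFG C) : (0 : G.Pt).1 = 0 := rfl
theorem CFG.norm_add_le (G : CFG C) (a b : G.Pt) : ‖(a + b).1‖ ≤ max ‖a.1‖ ‖b.1‖ :=
  G.norm_plus_le a.2 b.2

theorem CFG.norm_sub_val (G : CFG C) (a b : G.Pt) : ‖(a - b).1‖ = ‖a.1 - b.1‖ := by
  obtain ⟨c, hc⟩ : ∃ c, c = a - b := ⟨_, rfl⟩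
  have ha : a = b + c := by rw [hc]; abel
  rw [← hc, ha]
  change _ = ‖G.plus b.1 c.1 - b.1‖
  rw [G.plus_eq b.2 c.2]
  have : b.1 + c.1 + b.1 * c.1 * ev ![b.1, c.1] (FormalGroup.kk G.toFormalGroup) - b.1 =
      c.1 * (1 + b.1 * ev ![b.1, c.1] (FormalGroup.kk G.toFormalGroup)) := by ring
  rw [this, norm_mul, norm_one_add_eq, mul_one]
  rw [norm_mul]
  exact lt_of_le_of_lt (mul_le_of_le_one_right (norm_nonneg _)
    (norm_ev_le_one (pair_lt b.2 c.2) G.bdd_kk)) b.2

theorem CFG.norm_neg (G : CFG C) (a : G.Pt) : ‖(-a).1‖ = ‖a.1‖ := by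
  have := G.norm_sub_val 0 a
  rw [zero_sub, G.zero_val, zero_sub, _root_.norm_neg] at this
  exact this

theorem CFG.norm_add_sub_le (G : CFG C) (a b : G.Pt) :
    ‖(a + b).1 - (a.1 + b.1)‖ ≤ ‖a.1‖ * ‖b.1‖ := G.norm_plus_sub_le a.2 b.2

theorem CFG.bdd_mulPS (G : CFG C) (m : ℕ) : Bdd (mulPS G.toFormalGroup m) := by
  induction m with
  | zero => exact Bdd.zero
  | succ m ih =>
    exact G.bdd.subst (bdd_pair ih (Bdd.X ())) (cc_pair (constantCoeff_mulPS _ m)
      (constantCoeff_X ()))

theorem CFG.nsmul_val (G : CFG C) (m : ℕ) (a : G.Pt) :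
    (m • a).1 = ev1 a.1 (mulPS G.toFormalGroup m) := by
  induction m with
  | zero =>
    rw [zero_nsmul, G.zero_val]
    exact (ev_zero _).symm
  | succ m ih =>
    rw [succ_nsmul, G.add_val, ih]
    have := ev_subst_pair (a := fun _ : Unit => a.1) (fun _ => a.2) G.bdd (G.bdd_mulPS m)
      (Bdd.X ()) (constantCoeff_mulPS _ m) (constantCoeff_X ())
    rw [ev_X] at this
    exact this.symm

/-- bounded homomorphisms -/
structure CHom (G H : CFG C) where
  ps : PowerSeries C
  bdd : Bdd ps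
  isHom : IsHom ps G.toFormalGroup H.toFormalGroup

/-- the induced homomorphism on points -/
noncomputable def CHom.map {G H : CFG C} (ψ : CHom G H) : G.Pt →+ H.Pt where
  toFun a := ⟨ev1 a.1 ψ.ps, norm_ev_lt_one (fun _ => a.2) ψ.bdd (by
    have := ψ.isHom.1
    change ‖PowerSeries.constantCoeff ψ.ps‖ < 1
    rw [this]
    simp)⟩
  map_zero' := Subtype.ext (by
    change ev (fun _ => 0) ψ.ps = 0
    rw [ev_at_zero]
    exact ψ.isHom.1)
  map_add' a b := Subtype.ext (by
    have hab := pair_lt a.2 b.2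
    have h := congrArg (ev ![a.1, b.1]) ψ.isHom.2
    have b1 : ∀ i : Fin 2, Bdd (ψ.ps.subst (X i : MvPowerSeries (Fin 2) C)) := fun i =>
      Bdd.subst (σ := Unit) ψ.bdd (fun _ => Bdd.X i) (fun _ => constantCoeff_X i)
    have c1 : ∀ i : Fin 2, constantCoeff (ψ.ps.subst (X i : MvPowerSeries (Fin 2) C)) = 0 :=
      fun i => ccs1 (constantCoeff_X i) ψ.isHom.1
    have e1 : ∀ i : Fin 2, ev ![a.1, b.1] (ψ.ps.subst (X i : MvPowerSeries (Fin 2) C)) =
        ev1 ((![a.1, b.1] : Fin 2 → C) i) ψ.ps := fun i => by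
      have := ev_subst hab (τ := Unit) ψ.bdd (fun _ => Bdd.X i) (fun _ => constantCoeff_X i)
      rw [ev_X] at this
      exact this
    rw [ev_subst_pair hab H.bdd (b1 0) (b1 1) (c1 0) (c1 1), e1, e1] at h
    have e2 : ev ![a.1, b.1] (ψ.ps.subst G.toPowerSeries) = ev1 (a + b).1 ψ.ps :=
      ev_subst hab (τ := Unit) ψ.bdd (fun _ => G.bdd) (fun _ => G.zero_constantCoeff)
    rw [e2] at h
    exact h)

theorem CHom.map_val {G H : CFG C} (ψ : CHom G H) (a : G.Pt) : (ψ.map a).1 = ev1 a.1 ψ.ps := rfl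

end CFG

end Chai
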