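import Mathlib

/-!
# P217: basic definitions (part of the final statement)

* `hazM`, `hazLog`: the coefficients and the series of Hazewinkel's universal `p`-typical logarithm
  `log X = ∑ m_k X^{p^k}`, `p m_k = ∑_{j<k} m_j v_{k-j}^{p^j}` over `ℚ[v_0, v_1, …]` (`v_0` unused).
* `prm n x`: the parameter sequence `v_j = x_j (1 ≤ j < n)`, `v_n = 1`, `v_j = 0` otherwise.
* `IsHom`, `IsIsoFG`: homomorphisms and isomorphisms of formal groups.
-/

namespace Chai

open MvPowerSeries

section Haz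

variable (p : ℕ)

/-- coefficients of the Hazewinkel logarithm: `m_0 = 1`, `p m_{k+1} = ∑_{j ≤ k} m_j v_{k+1-j}^{p^j}` -/
noncomputable def hazM : ℕ → MvPolynomial ℕ ℚ
  | 0 => 1
  | k + 1 => MvPolynomial.C (1 / (p : ℚ)) *
      ∑ j : Fin (k + 1), hazM j * MvPolynomial.X (k + 1 - j) ^ (p ^ (j : ℕ))
decreasing_by exact j.2

theorem hazM_zero_def : hazM p 0 = 1 := by simp only [hazM]

theorem hazM_succ_def (k : ℕ) : hazM p (k + 1) = MvPolynomial.C (1 / (p : ℚ)) *
    ∑ j : Fin (k + 1), hazM p j * MvPolynomial.X (k + 1 - j) ^ (p ^ (j : ℕ)) := by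
  simp only [hazM]

/-- the logarithm `∑ m_k X^{p^k}` -/
noncomputable def hazLog : PowerSeries (MvPolynomial ℕ ℚ) :=
  PowerSeries.mk fun i => if i = p ^ Nat.log p i then hazM p (Nat.log p i) else 0

end Haz

/-- the parameter sequence `v_j = x_j` for `1 ≤ j < n`, `v_n = 1`, and `0` otherwise -/
def prm {R : Type*} [Zero R] [One R] (n : ℕ) (x : ℕ → R) : ℕ → R :=
  fun j => if 1 ≤ j ∧ j < n then x j else if j = n then 1 else 0

section Hom

variable {R : Type*} [CommRing R]

/-- `ψ : F → G` is a homomorphism of formal groups: `ψ(0) = 0`, `ψ(F(X,Y)) = G(ψ(X), ψ(Y))` -/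
def IsHom (ψ : PowerSeries R) (F G : FormalGroup R) : Prop :=
  PowerSeries.constantCoeff ψ = 0 ∧
    ψ.subst F.toPowerSeries =
      G.toPowerSeries.subst
        ![ψ.subst (X 0 : MvPowerSeries (Fin 2) R), ψ.subst (X 1 : MvPowerSeries (Fin 2) R)]

/-- isomorphism of formal groups -/
def IsIsoFG (ψ : PowerSeries R) (F G : FormalGroup R) : Prop :=
  IsHom ψ F G ∧ IsUnit (PowerSeries.coeff 1 ψ)

/-- multiplication by `m` on a formal group -/
noncomputable def mulPS (F : FormalGroup R) : ℕ → PowerSeries R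
  | 0 => 0
  | m + 1 => F.toPowerSeries.subst ![mulPS F m, (PowerSeries.X : PowerSeries R)]

theorem mulPS_zero_def (F : FormalGroup R) : mulPS F 0 = 0 := by simp only [mulPS]

theorem mulPS_succ_def (F : FormalGroup R) (m : ℕ) :
    mulPS F (m + 1) = F.toPowerSeries.subst ![mulPS F m, (PowerSeries.X : PowerSeries R)] := by
  simp only [mulPS]

end Hom

end Chai
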