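import Vale.Agent.Chai.JModD

/-!
# P217 / JMod: an analytic relation implies an endomorphism relation

OWNER: helper16 (done, with JModA–JModD)

Setting: `𝔽` the field with `q = p^h` elements, `Γ = FC p h 0` the Honda group of height `h`
(`p • y = y^q` on `Γ.Pt`), `A` an abelian group, `w i : A →+ Γ.Pt` (`i ∈ ι` finite).  For `Z ⊆ ι` let
`J_Z` = the set of `G ∈ 𝔽[[w_Z]]` with `G(w(a)) = 0` for all `a ∈ A`.  Assume `J_ι ≠ 0`.

PROOF.  Choose `Z` minimal with `J_Z ≠ 0` (nonempty, since `J_∅ = 0`).  (Implementation: series in the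
variables `ι` that only involve the variables of `Z`, or series indexed by the subtype `Z`.)
(a) For `G ∈ J_Z`, `a ∈ A`: `G_a(w') := G(w(a) +_Γ w') ∈ C[[w']]` (bounded) vanishes at
    `w' = w(p^m • a') = w(a')^{q^m}` for all `a' ∈ A, m ≥ 0`; by `descent_bdd`, `mapLin l G_a ∈ J_Z` for
    all linear forms `l : C → 𝔽`.
(b) There is `G ∈ J_Z` with nonzero linear part.  Otherwise by (a) the linear coefficients of `G_a`
    vanish for all `G ∈ J_Z`, `a` (choose `l` nonzero on such a coefficient); that coefficient is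
    `(∂_iG)(w(a)) · u(w_i(a))`, `u` a unit (`∂_2 Γ(w,0)`), so `∂_i G ∈ J_Z`: `J_Z` is an ideal stable
    under all `∂_i`.  Let `G ∈ J_Z` be nonzero of minimal order `N ≥ 1` (constant term `G(w(0)) = 0`).
    `∂_i` of the leading form must vanish, so the leading form is a polynomial in the `w_i^p`.  The
    operator `∏_i (1 - (w_i ∂_i)^{p-1})` preserves `J_Z` and projects onto the monomials with all
    exponents divisible by `p`: we get a nonzero `G' ∈ J_Z` of order `N` that is a series in `w_i^p`,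
    `G' = H^p` with `H ∈ 𝔽[[w]]` (`𝔽` perfect), `H ∈ J_Z` of order `N/p < N`, contradiction.
(c) Take `G ∈ J_Z` with linear coefficient `≠ 0` at `i₀ ∈ Z`; `Z' = Z \ {i₀}`, `J_{Z'} = 0`.  Implicit
    function theorem in one variable: `g ∈ 𝔽[[w_{Z'}]]`, `g(0)=0`, `G(g(w'), w') = 0`; and
    `G(y, w') = G(y', w') ⇒ y = y'` for `y, y'` in the open unit disc.  So `w_{i₀}(a) = g(w_{Z'}(a))`.
(d) `K(w,w') = g(w +_Γ w') - Γ(g(w), g(w'))` vanishes at `(w(a), w(a'))`.  Fix `a`: `K(w(a), ·)` vanishes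
    at all `w(a')^{q^m}`, so by `descent_bdd` and `J_{Z'} = 0` it is `0`; hence every `w'`-coefficient
    of `K` is in `J_{Z'} = 0`: `K = 0`.  So `g` is a homomorphism `Γ^{Z'} → Γ`,
    `g(w') = ∑^Γ_j g_j(w'_j)` with `g_j(X) = g(0,..,X,..,0)` an endomorphism of `Γ` over `𝔽`.
-/

namespace Chai

open MvPowerSeries Filter Topology JM

variable (p : ℕ) [Fact p.Prime]
variable {C : Type*} [NontriviallyNormedField C] [IsUltrametricDist C] [CompleteSpace C]
variable [CharP C p]
variable {𝔽 : Type*} [Field 𝔽] [Fintype 𝔽] [Algebra 𝔽 C]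

/-- an endomorphism of the Honda group over `𝔽`, viewed over `C` -/
noncomputable def homF {h : ℕ} (g : PowerSeries 𝔽)
    (hg : IsHom g (hazF p (prm h 0)) (hazF p (prm h 0))) :
    CHom (FC p h (0 : Ball C)) (FC p h 0) where
  ps := g.map (algebraMap 𝔽 C)
  bdd := bdd_map C g
  isHom := by
    have h1 := IsHom.map hg (algebraMap 𝔽 C)
    have h2 := Γ_map p (𝔽 := 𝔽) (C := C) h
    unfold Γ𝔽 at h2
    rw [h2] at h1
    exact h1

theorem homF_map_val {h : ℕ} (g : PowerSeries 𝔽)
    (hg : IsHom g (hazF p (prm h 0)) (hazF p (prm h 0))) (y : (FC p h (0 : Ball C)).Pt) :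
    ((homF p g hg).map y).1 = evF (fun _ : Unit => y.1) g := by
  rw [CHom.map_val]
  rfl

theorem JM.isHom_zero {R : Type*} [CommRing R] (F G : FormalGroup R) :
    IsHom (0 : PowerSeries R) F G := by
  refine ⟨map_zero _, ?_⟩
  have h1 : ∀ a : MvPowerSeries (Fin 2) R, constantCoeff a = 0 →
      PowerSeries.subst a (0 : PowerSeries R) = 0 := by
    intro a ha
    rw [← PowerSeries.coe_substAlgHom (PowerSeries.HasSubst.of_constantCoeff_zero ha), map_zero]
  rw [h1 _ F.zero_constantCoeff, h1 _ (constantCoeff_X _), h1 _ (constantCoeff_X _)]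
  have h2 := G.zero_add (f := (0 : MvPowerSeries (Fin 2) R))
    (PowerSeries.HasSubst.of_constantCoeff_zero (map_zero _))
  exact h2.symm

theorem JM.homF_zero_map {h : ℕ} (hg : IsHom (0 : PowerSeries 𝔽) (hazF p (prm h 0)) (hazF p (prm h 0)))
    (y : (FC p h (0 : Ball C)).Pt) : (homF p 0 hg).map y = 0 := by
  apply Subtype.ext
  rw [homF_map_val, CFG.zero_val]
  exact evF_zero _

section

variable {h : ℕ} {κ : Type*} [Fintype κ] [DecidableEq κ] {A : Type*} [AddCommMonoid A]

/-- two variable vanishing -/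
theorem JM.eq_zero_of_vanish (h1 : 1 ≤ h) (hcard : Fintype.card 𝔽 = p ^ h)
    {w : κ → A →+ (FC p h (0 : Ball C)).Pt} (hJ : ∀ G ∈ JJ p 𝔽 w, G = 0)
    {K : MvPowerSeries (κ ⊕ κ) 𝔽} (hK : ∀ a a', evF (Sum.elim (pt p w a) (pt p w a')) K = 0) :
    K = 0 := by
  refine eq_zero_of_rc fun d => hJ _ fun a => ?_
  rw [← coeff_pev]
  refine eq_zero_of_lin (𝔽 := 𝔽) fun l => ?_
  have h2 := hJ _ (vanish h1 hcard w (pt_lt p w a) (hK a) l)
  rw [← coeff_mapLin, h2]
  rfl

/-- a formal homomorphism `Γ^κ → Γ` is a sum of endomorphisms -/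
theorem JM.exists_components {g : MvPowerSeries κ 𝔽} (hg0 : constantCoeff g = 0)
    (hadd : ∀ x y : κ → (FC p h (0 : Ball C)).Pt, evF (fun j => (x j + y j).1) g =
      ev ![evF (fun j => (x j).1) g, evF (fun j => (y j).1) g] (FC p h (0 : Ball C)).toPowerSeries) :
    ∃ (g' : κ → PowerSeries 𝔽) (hg' : ∀ j, IsHom (g' j) (hazF p (prm h 0)) (hazF p (prm h 0))),
      ∀ y : κ → (FC p h (0 : Ball C)).Pt,
        evF (fun j => (y j).1) g = (∑ j, (homF p (g' j) (hg' j)).map (y j)).1 := by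
  have hlt : ∀ y : κ → (FC p h (0 : Ball C)).Pt, ‖evF (fun j => (y j).1) g‖ < 1 := by
    intro y
    obtain ⟨ρ, hρ0, hρ1, hρ⟩ := exists_rho (fun j => (y j).2)
    exact (norm_evF_le (fun j => (y j).2) hg0 hρ0.le hρ).trans_lt hρ1
  let P : (κ → (FC p h (0 : Ball C)).Pt) → (FC p h (0 : Ball C)).Pt :=
    fun y => ⟨evF (fun j => (y j).1) g, hlt y⟩
  let φ : (κ → (FC p h (0 : Ball C)).Pt) →+ (FC p h (0 : Ball C)).Pt :=
    AddMonoidHom.mk' P (fun x y => Subtype.ext
      ((hadd x y).trans (CFG.add_val (FC p h (0 : Ball C)) (P x) (P y)).symm))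
  have hφ : ∀ y, (φ y).1 = evF (fun j => (y j).1) g := fun y => rfl
  let b : κ → κ → PowerSeries 𝔽 := fun j i => if i = j then PowerSeries.X else 0
  have hb : ∀ j i, constantCoeff (b j i) = 0 := by
    intro j i
    by_cases hij : i = j
    · simp only [b, if_pos hij]; exact PowerSeries.constantCoeff_X
    · simp only [b, if_neg hij]; exact map_zero _
  let g' : κ → PowerSeries 𝔽 := fun j => g.subst (b j)
  have hg'ev : ∀ j (t : (FC p h (0 : Ball C)).Pt), evF (fun _ : Unit => t.1) (g' j) =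
      (φ (Pi.single j t)).1 := by
    intro j t
    have h2 := evF_subst (a := fun _ : Unit => t.1) (fun _ => t.2) (hb j) g
    refine h2.trans ?_
    rw [hφ]
    congr 1
    funext i
    by_cases hij : i = j
    · subst hij
      simp only [b, if_pos rfl, Pi.single_eq_same]
      exact evF_X _ _
    · simp only [b, if_neg hij, Pi.single_eq_of_ne hij]
      rw [CFG.zero_val]
      exact evF_zero _
  have hg'0 : ∀ j, PowerSeries.constantCoeff (g' j) = 0 := fun j =>
    constantCoeff_subst_eq_zero (hasSubst_of_constantCoeff_zero (hb j)) (hb j) hg0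
  have hg' : ∀ j, IsHom (g' j) (hazF p (prm h 0)) (hazF p (prm h 0)) := by
    intro j
    refine ⟨hg'0 j, ?_⟩
    refine eq_of_evF (C := C) fun x hx => ?_
    let x0 : (FC p h (0 : Ball C)).Pt := ⟨x 0, hx 0⟩
    let x1 : (FC p h (0 : Ball C)).Pt := ⟨x 1, hx 1⟩
    have hxx : x = ![x0.1, x1.1] := by
      funext i
      fin_cases i <;> rfl
    have hX : ∀ i, evF x ((g' j).subst (X i : MvPowerSeries (Fin 2) 𝔽)) =
        evF (fun _ : Unit => x i) (g' j) := by
      intro i
      have h2 := evF_subst hx (b := fun _ : Unit => (X i : MvPowerSeries (Fin 2) 𝔽))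
        (fun _ => constantCoeff_X _) (g' j)
      refine h2.trans ?_
      congr 1
      funext _
      exact evF_X _ _
    have hL : evF x ((g' j).subst (Γ𝔽 p 𝔽 h).toPowerSeries) =
        evF (fun _ : Unit => (x0 + x1).1) (g' j) := by
      have h2 := evF_subst hx (b := fun _ : Unit => (Γ𝔽 p 𝔽 h).toPowerSeries)
        (fun _ => FormalGroup.zero_constantCoeff _) (g' j)
      refine h2.trans ?_
      congr 1
      funext _
      rw [hxx, evF_Γ p (𝔽 := 𝔽)]
    have hR : evF x ((Γ𝔽 p 𝔽 h).toPowerSeries.subst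
        ![(g' j).subst (X 0 : MvPowerSeries (Fin 2) 𝔽), (g' j).subst (X 1 : MvPowerSeries (Fin 2) 𝔽)])
        = (φ (Pi.single j x0) + φ (Pi.single j x1)).1 := by
      rw [evF_subst hx (fun i => by
        fin_cases i
        · exact ccs1 (constantCoeff_X _) (hg'0 j)
        · exact ccs1 (constantCoeff_X _) (hg'0 j)), ← evF_Γ p (𝔽 := 𝔽)]
      congr 1
      funext i
      fin_cases i
      · exact (hX 0).trans (hg'ev j x0)
      · exact (hX 1).trans (hg'ev j x1)
    refine hL.trans (Eq.trans ?_ hR.symm)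
    rw [hg'ev, ← map_add, ← Pi.single_add]
  refine ⟨g', hg', fun y => ?_⟩
  have h2 : φ y = ∑ j, φ (Pi.single j (y j)) := by
    conv_lhs => rw [← Finset.univ_sum_single y]
    exact map_sum φ _ _
  have h3 : ∑ j, φ (Pi.single j (y j)) = ∑ j, (homF p (g' j) (hg' j)).map (y j) :=
    Finset.sum_congr rfl fun j _ => Subtype.ext (by rw [homF_map_val, hg'ev])
  rw [← hφ, h2, h3]

end

/-- extension by zero -/
theorem JM.extend_relation {h : ℕ} {ι : Type*} [Fintype ι] [DecidableEq ι] {A : Type*} [AddCommMonoid A]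
    {w : ι → A →+ (FC p h (0 : Ball C)).Pt} {i₀ i₁ : ι}
    (g' : {j // j ≠ i₀} → PowerSeries 𝔽)
    (hg' : ∀ j, IsHom (g' j) (hazF p (prm h 0)) (hazF p (prm h 0)))
    (H : ∀ a, w i₁ a = ∑ j : {j // j ≠ i₀}, (homF p (g' j) (hg' j)).map (w j.1 a)) :
    ∃ (g : ι → PowerSeries 𝔽)
      (hg : ∀ j, IsHom (g j) (hazF p (prm h 0)) (hazF p (prm h 0))), g i₀ = 0 ∧
      (∀ j : {j // j ≠ i₀}, g j.1 = g' j) ∧
      ∀ a, w i₁ a = ∑ j, (homF p (g j) (hg j)).map (w j a) := by
  have h1 : ∀ (g₁ g₂ : PowerSeries 𝔽) (h₁ : IsHom g₁ (hazF p (prm h 0)) (hazF p (prm h 0)))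
      (h₂ : IsHom g₂ (hazF p (prm h 0)) (hazF p (prm h 0))), g₁ = g₂ →
      ∀ y : (FC p h (0 : Ball C)).Pt, (homF p g₁ h₁).map y = (homF p g₂ h₂).map y := by
    intro g₁ g₂ h₁ h₂ e y
    subst e
    rfl
  refine ⟨fun j => if hj : j ≠ i₀ then g' ⟨j, hj⟩ else 0, fun j => ?_, ?_, ?_, fun a => ?_⟩
  · dsimp only
    split_ifs
    · exact hg' _
    · exact isHom_zero _ _
  · simp
  · intro j
    simp only [dif_pos j.2]
  · rw [H a, Fintype.sum_eq_add_sum_subtype_ne _ i₀]
    have h2 : ∀ hg, (homF p (if hj : i₀ ≠ i₀ then g' ⟨i₀, hj⟩ else 0) hg).map (w i₀ a) = 0 := by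
      intro hg
      rw [h1 _ 0 hg (isHom_zero _ _) (by simp)]
      exact homF_zero_map p _ _
    rw [h2, zero_add]
    refine Finset.sum_congr rfl fun j _ => ?_
    exact h1 _ _ _ _ (by simp only [dif_pos j.2]) _

theorem JM.exists_relation_aux {h : ℕ} (h1 : 1 ≤ h) (hcard : Fintype.card 𝔽 = p ^ h)
    {A : Type*} [AddCommMonoid A] (n : ℕ) : ∀ {ι : Type*} [Fintype ι] [DecidableEq ι]
    (_ : Fintype.card ι = n)
    (w : ι → A →+ (FC p h (0 : Ball C)).Pt)
    (_ : ∃ G ∈ JJ p 𝔽 w, G ≠ 0),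
    ∃ (i₀ : ι) (g : ι → PowerSeries 𝔽)
      (hg : ∀ j, IsHom (g j) (hazF p (prm h 0)) (hazF p (prm h 0))), g i₀ = 0 ∧
      ∀ a, w i₀ a = ∑ j, (homF p (g j) (hg j)).map (w j a) := by
  induction n using Nat.strong_induction_on with
  | _ n ih =>
    intro ι _ _ hn w hJ
    obtain ⟨G, hG, i₀, hGi⟩ := exists_linear h1 hcard hJ
    obtain ⟨w', hw'⟩ : ∃ w' : {j // j ≠ i₀} → A →+ (FC p h (0 : Ball C)).Pt, w' = fun j => w j.1 :=
      ⟨_, rfl⟩
    by_cases hJ' : ∃ G ∈ JJ p 𝔽 w', G ≠ 0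
    · have hlt : Fintype.card {j // j ≠ i₀} < n := by
        rw [← hn]
        exact Fintype.card_subtype_lt (x := i₀) (by simp)
      obtain ⟨i₁, g', hg', hg'0, H⟩ := ih _ hlt rfl w' hJ'
      rw [hw'] at H
      obtain ⟨g, hg, -, hg2, hg3⟩ := extend_relation p g' hg' H
      exact ⟨i₁.1, g, hg, by rw [hg2, hg'0], hg3⟩
    · push Not at hJ'
      obtain ⟨g, hg⟩ := exists_implicit (C := C) i₀ (JJ.constantCoeff hG) hGi
      have hwg : ∀ a, (w i₀ a).1 = evF (pt p w' a) g := by
        intro a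
        have := hg (pt p w a) (pt_lt p w a) (hG a)
        rw [hw']
        exact this
      have hg0 : constantCoeff g = 0 := by
        have h2 := hwg 0
        rw [map_zero, CFG.zero_val] at h2
        have h3 : pt p w' (0 : A) = fun _ => 0 := by
          funext i
          unfold pt
          rw [map_zero, CFG.zero_val]
        rw [h3, evF_at_zero] at h2
        exact (map_eq_zero_iff _ (algebraMap 𝔽 C).injective).1 h2.symm
      -- formal additivity
      let inl' : {j // j ≠ i₀} ↪ {j // j ≠ i₀} ⊕ {j // j ≠ i₀} := Function.Embedding.inl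
      let inr' : {j // j ≠ i₀} ↪ {j // j ≠ i₀} ⊕ {j // j ≠ i₀} := Function.Embedding.inr
      obtain ⟨K, hK⟩ : ∃ K : MvPowerSeries ({j // j ≠ i₀} ⊕ {j // j ≠ i₀}) 𝔽,
        K = Δ p h g - (Γ𝔽 p 𝔽 h).toPowerSeries.subst ![rename inl' g, rename inr' g] := ⟨_, rfl⟩
      have hcr : ∀ e : {j // j ≠ i₀} ↪ {j // j ≠ i₀} ⊕ {j // j ≠ i₀},
          constantCoeff (rename e g) = 0 := by
        intro e
        rw [constantCoeff_rename, hg0]
      have hKev : ∀ x y : {j // j ≠ i₀} → (FC p h (0 : Ball C)).Pt,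
          evF (Sum.elim (fun i => (x i).1) (fun i => (y i).1)) K =
          evF (fun j => (x j + y j).1) g - ev ![evF (fun j => (x j).1) g, evF (fun j => (y j).1) g]
            (FC p h (0 : Ball C)).toPowerSeries := by
        intro x y
        have hlt : ∀ j, ‖Sum.elim (fun i => (x i).1) (fun i => (y i).1) j‖ < 1 := by
          rintro (j | j)
          · exact (x j).2
          · exact (y j).2
        rw [hK, evF_sub hlt, evF_Δ, evF_subst hlt (fun i => by
          fin_cases i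
          · exact hcr _
          · exact hcr _)]
        congr 1
        rw [evF, ← Γ_map p (𝔽 := 𝔽) (C := C), FormalGroup.map_toPowerSeries]
        congr 1
        funext i
        fin_cases i
        · exact evF_rename inl' hlt g
        · exact evF_rename inr' hlt g
      have hK0 : K = 0 := by
        refine eq_zero_of_vanish p h1 hcard hJ' fun a a' => ?_
        have h2 := hKev (fun j => w' j a) (fun j => w' j a')
        refine h2.trans ?_
        have h3 : (fun j => (w' j a + w' j a').1) = pt p w' (a + a') := by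
          funext j
          unfold pt
          rw [map_add]
        rw [h3, ← hwg]
        have h4 : evF (fun j => (w' j a).1) g = (w i₀ a).1 := (hwg a).symm
        have h5 : evF (fun j => (w' j a').1) g = (w i₀ a').1 := (hwg a').symm
        rw [h4, h5, ← CFG.add_val, map_add, sub_self]
      obtain ⟨g', hg', hgy⟩ := exists_components p (C := C) (h := h) hg0 (fun x y => by
        have h2 := hKev x y
        rw [hK0, evF_zero] at h2
        exact (sub_eq_zero.1 h2.symm))
      obtain ⟨g'', hg'', h3, -, h4⟩ := extend_relation p (w := w) (i₁ := i₀) g' hg' (fun a => by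
        apply Subtype.ext
        rw [hwg a]
        have h2 := hgy (fun j => w' j a)
        refine h2.trans ?_
        rw [hw'])
      exact ⟨i₀, g'', hg'', h3, h4⟩

theorem exists_relation {h : ℕ} (h1 : 1 ≤ h) (hcard : Fintype.card 𝔽 = p ^ h)
    {ι : Type*} [Fintype ι] [DecidableEq ι] {A : Type*} [AddCommMonoid A]
    (w : ι → A →+ (FC p h (0 : Ball C)).Pt)
    (hJ : ∃ G : MvPowerSeries ι 𝔽, G ≠ 0 ∧
      ∀ a, ev (fun i => (w i a).1) (G.map (algebraMap 𝔽 C)) = 0) :
    ∃ (i₀ : ι) (g : ι → PowerSeries 𝔽)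
      (hg : ∀ j, IsHom (g j) (hazF p (prm h 0)) (hazF p (prm h 0))), g i₀ = 0 ∧
      ∀ a, w i₀ a = ∑ j, (homF p (g j) (hg j)).map (w j a) := by
  obtain ⟨G, hG, hG'⟩ := hJ
  exact exists_relation_aux p h1 hcard _ rfl w ⟨G, hG', hG⟩

end Chai
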