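import Vale.Agent.Chai.KSb
import Vale.Agent.Chai.Asym

/-!
# P217 / KSc: simple zeros, nondegeneracy, linear parts
-/

namespace Chai

open MvPowerSeries Filter Topology

section

variable {C : Type*} [NontriviallyNormedField C] [IsUltrametricDist C] [CompleteSpace C]

theorem ev_axis {ι : Type*} [Fintype ι] [DecidableEq ι] {f : MvPowerSeries ι C} (hf : Bdd f) (j : ι)
    {s : C} (hs : ‖s‖ < 1) :
    ‖ev (Pi.single j s) f - (constantCoeff f + s * coeff (Finsupp.single j 1) f)‖ ≤ ‖s‖ ^ 2 := by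
  have ha : ∀ i, ‖(Pi.single j s : ι → C) i‖ ≤ ‖s‖ := by
    intro i
    by_cases hi : i = j
    · subst hi; simp
    · rw [Pi.single_eq_of_ne hi, norm_zero]; exact norm_nonneg _
  have ha1 : ∀ i, ‖(Pi.single j s : ι → C) i‖ < 1 := fun i => (ha i).trans_lt hs
  have hb1 : ∀ i ∈ (Finset.univ : Finset ι), Bdd (MvPowerSeries.C (coeff (Finsupp.single i 1) f) *
      (X i : MvPowerSeries ι C)) := fun i _ => (Bdd.C_iff.2 (hf _)).mul (Bdd.X i)
  have hb0 : Bdd (MvPowerSeries.C (constantCoeff f) : MvPowerSeries ι C) := Bdd.C_iff.2 (hf 0)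
  have hL : ev (Pi.single j s) (MvPowerSeries.C (constantCoeff f) +
      ∑ i, MvPowerSeries.C (coeff (Finsupp.single i 1) f) * (X i : MvPowerSeries ι C)) =
      constantCoeff f + s * coeff (Finsupp.single j 1) f := by
    rw [ev_add ha1 hb0 (Bdd.sum _ hb1), ev_C, ev_sum ha1 _ hb1]
    congr 1
    rw [Finset.sum_eq_single j]
    · rw [ev_mul ha1 (Bdd.C_iff.2 (hf _)) (Bdd.X j), ev_C, ev_X, Pi.single_eq_same, mul_comm]
    · intro i _ hi
      rw [ev_mul ha1 (Bdd.C_iff.2 (hf _)) (Bdd.X i), ev_X, Pi.single_eq_of_ne hi, mul_zero]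
    · intro hj
      exact absurd (Finset.mem_univ j) hj
  rw [← hL, ← ev_sub ha1 hf (hb0.add (Bdd.sum _ hb1))]
  apply norm_ev_le_pow ha1 (hf.sub (hb0.add (Bdd.sum _ hb1))) ha (norm_nonneg _)
  intro d hd
  rw [map_sub, map_add, map_sum, coeff_C]
  simp only [coeff_C_mul, coeff_X]
  rcases Nat.lt_or_ge d.degree 1 with h1 | h1
  · have hd0 : d = 0 := by
      rw [← Finsupp.degree_eq_zero_iff]; omega
    subst hd0
    rw [if_pos rfl, Finset.sum_eq_zero, add_zero]
    · exact sub_self _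
    · intro i _
      rw [if_neg, mul_zero]
      intro h0
      have := DFunLike.congr_fun h0 i
      simp at this
  · have h2 : d.degree = 1 := by omega
    obtain ⟨k, rfl⟩ : ∃ j, d = Finsupp.single j 1 := (Finsupp.sum_eq_one_iff d).1 h2
    rw [if_neg (by simp), zero_add, Finset.sum_eq_single k]
    · rw [if_pos rfl, mul_one, sub_self]
    · intro i _ hi
      rw [if_neg, mul_zero]
      rw [Finsupp.single_left_inj one_ne_zero]
      exact fun h => hi h.symm
    · intro hk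
      exact absurd (Finset.mem_univ k) hk

theorem exists_det_ne_zero {K ι : Type*} [Field K] [Fintype ι] [DecidableEq ι] {Z : Type*}
    (v : Z → ι → K) (H : ∀ c : ι → K, c ≠ 0 → ∃ y, ∑ j, c j * v y j ≠ 0) :
    ∃ Y : ι → Z, IsUnit (Matrix.of fun i j => v (Y i) j).det := by
  have hspan : Submodule.span K (Set.range v) = ⊤ := by
    by_contra hcon
    obtain ⟨f, hf0, hf⟩ := Submodule.exists_le_ker_of_lt_top _ (lt_top_iff_ne_top.2 hcon)
    have hfs : ∀ w : ι → K, f w = ∑ j, f (Pi.single j 1) * w j := by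
      intro w
      rw [LinearMap.pi_apply_eq_sum_univ f w]
      apply Finset.sum_congr rfl
      intro j _
      rw [smul_eq_mul, mul_comm]
      congr 2
      funext i
      simp [Pi.single_apply, eq_comm]
    have hc : (fun j => f (Pi.single j 1)) ≠ 0 := by
      intro h0
      apply hf0
      ext w
      have h1 := hfs
      have : ∀ j, f (Pi.single j 1) = 0 := fun j => congrFun h0 j
      simp only [LinearMap.comp_apply, LinearMap.zero_apply]
      rw [h1]
      simp [this]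
    obtain ⟨y, hy⟩ := H _ hc
    apply hy
    rw [← hfs]
    exact hf (Submodule.subset_span ⟨y, rfl⟩)
  obtain ⟨b, hb, hbs, hbl⟩ := exists_linearIndependent K (Set.range v)
  rw [hspan] at hbs
  have hbasis : Module.Basis b K (ι → K) := Module.Basis.mk hbl (by
    rw [Subtype.range_coe_subtype, Set.ofPred_mem_eq, hbs])
  have e : ι ≃ b := (hbasis.indexEquiv (Pi.basisFun K ι)).symm
  have hY : ∀ i, ∃ y, v y = (e i : ι → K) := fun i => hb (e i).2
  choose Y hY using hY
  refine ⟨Y, ?_⟩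
  rw [← Matrix.isUnit_iff_isUnit_det, ← Matrix.linearIndependent_rows_iff_isUnit]
  have h1 : (Matrix.of fun i j => v (Y i) j).row = (fun t : b => (t : ι → K)) ∘ e := by
    funext i
    exact hY i
  rw [h1]
  exact hbl.comp e e.injective

variable (p : ℕ) [Fact p.Prime] [CharP C p] [IsAlgClosed C]

theorem VPS_linear {h n : ℕ} (h1 : 1 ≤ h) (hn : h < n) (x : Ball C) {w : C} (hw : ‖w‖ < 1) :
    ‖ev1 w (VPS p h n x) - x.1 h * w‖ ≤ ‖w‖ ^ 2 := by
  have h2 := ev1_trunc (bdd_VPS p h n x) hw 2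
  have h3 : PowerSeries.coeff 1 (VPS p h n x) = x.1 h := by
    have h4 : PowerSeries.coeff 1 (VPS p h n x) = prm n x.1 h := coeff_one_VR p x.1
    rw [h4]
    unfold prm
    rw [if_pos (by omega)]
  have h4 : PowerSeries.coeff 0 (VPS p h n x) = 0 := by
    rw [PowerSeries.coeff_zero_eq_constantCoeff_apply]
    apply constantCoeff_fsum
    intro a ha
    obtain ⟨j, _, rfl⟩ := List.mem_map.1 ha
    exact cc_term p _ j
  rw [Finset.sum_range_succ, Finset.sum_range_one, h3, h4, zero_mul, zero_add, pow_one] at h2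
  exact h2

theorem VPS_simple {h n : ℕ} {x : Ball C} (hx : HasHeight h n x) {z : C}
    (hz : z ∈ zeros (VPS p h n x)) :
    ev1 z (PowerSeries.mk fun i => ((i + 1 : ℕ) : C) * PowerSeries.coeff (i + 1) (VPS p h n x)) ≠ 0 := by
  intro hcon
  obtain ⟨V, hV⟩ : ∃ V : PowerSeries C, V = VPS p h n x := ⟨_, rfl⟩
  have hVb : Bdd V := hV ▸ bdd_VPS p h n x
  obtain ⟨g, hg, hgs, hg0, hg1⟩ := exists_shift (σ := Unit) hVb (c := fun _ => z) (fun _ => hz.1)
  have hg0' : constantCoeff g = 0 := by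
    rw [hg0, hV]; exact hz.2
  have hg1' : coeff (Finsupp.single () 1) g = 0 := by
    rw [hg1, ← hcon]
    unfold ev1 ev
    apply tsum_congr
    intro d
    have hd : coeff d (PowerSeries.mk fun i => ((i + 1 : ℕ) : C) * PowerSeries.coeff (i + 1) (VPS p h n x)) =
        ((d () + 1 : ℕ) : C) * coeff (d + Finsupp.single () 1) V := by
      have h1 : d = Finsupp.single () (d ()) := Finsupp.unique_single d
      have h2 : ∀ f : PowerSeries C, coeff d f = PowerSeries.coeff (d ()) f := by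
        intro f
        rw [PowerSeries.coeff, ← h1]
      have h3 : d + Finsupp.single () 1 = Finsupp.single () (d () + 1) := by
        conv_lhs => rw [h1]
        rw [← Finsupp.single_add]
      rw [h2, PowerSeries.coeff_mk, h3, hV]
      rfl
    rw [hd]
    ring
  have hsmall : ∀ η : C, ‖η‖ < 1 → ‖ev1 (z + η) V‖ ≤ ‖η‖ ^ 2 := by
    intro η hη
    have h1 := hgs (fun _ => η) (fun _ => hη)
    have h2 : ev1 (z + η) V = ev (fun _ : Unit => η) g := h1
    rw [h2]
    apply norm_ev_le_pow (fun _ => hη) hg (fun _ => le_rfl) (norm_nonneg _)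
    intro d hd
    have h3 : d = Finsupp.single () (d ()) := Finsupp.unique_single d
    rw [h3, Finsupp.degree_single] at hd
    interval_cases h4 : d ()
    · rw [h3, Finsupp.single_zero]
      exact hg0'
    · rw [h3]
      exact hg1'
  have hxh : 0 < ‖x.1 h‖ := norm_pos_iff.2 hx.ne
  obtain ⟨w, hw0, hw⟩ := NormedField.exists_norm_lt C hxh
  have hw1 : ‖w‖ < 1 := hw.trans (x.2 h)
  have hq : 0 < p ^ h := pow_pos (Fact.out : p.Prime).pos _
  obtain ⟨y, hy⟩ := IsAlgClosed.exists_pow_nat_eq z hq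
  obtain ⟨u, hu⟩ := IsAlgClosed.exists_pow_nat_eq w hq
  have hlt : ∀ a b : C, a ^ p ^ h = b → ‖b‖ < 1 → ‖a‖ < 1 := by
    intro a b hab hb
    by_contra hc
    rw [not_lt] at hc
    rw [← hab, norm_pow] at hb
    exact absurd (one_le_pow₀ hc) (not_le.2 hb)
  obtain ⟨Y, hY⟩ : ∃ Y : (FC p n x).Pt, Y.1 = y := ⟨⟨y, hlt y z hy hz.1⟩, rfl⟩
  obtain ⟨U, hU⟩ : ∃ U : (FC p n x).Pt, U.1 = u := ⟨⟨u, hlt u w hu hw1⟩, rfl⟩
  have hpY : p • Y = 0 := by
    apply Subtype.ext
    rw [nsmul_p_val p hx.one_le hx.lt.le hx.zero, hY, hy]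
    exact hz.2
  have hpYU : (p • (Y + U)).1 = (p • U).1 := by rw [smul_add, hpY, zero_add]
  rw [nsmul_p_val p hx.one_le hx.lt.le hx.zero, nsmul_p_val p hx.one_le hx.lt.le hx.zero, hU, hu,
    ← hV] at hpYU
  have hη : ‖(Y + U).1 ^ p ^ h - z‖ = ‖w‖ := by
    have h1 : ‖(Y + U).1 - Y.1‖ = ‖u‖ := by
      rw [← CFG.norm_sub_val, add_sub_cancel_left, hU]
    rw [← hy, ← hY, ← sub_pow_char_pow (Y + U).1 Y.1 h, norm_pow, h1, ← norm_pow, hu]
  have h5 := hsmall ((Y + U).1 ^ p ^ h - z) (by rw [hη]; exact hw1)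
  rw [add_sub_cancel, hη, hpYU] at h5
  have h6 := VPS_linear p hx.one_le hx.lt x hw1
  rw [← hV] at h6
  have h7 : ‖x.1 h * w‖ ≤ ‖w‖ ^ 2 := by
    have e1 : x.1 h * w = ev1 w V - (ev1 w V - x.1 h * w) := by ring
    rw [e1]
    exact (norm_sub_le_max' _ _).trans (max_le h5 h6)
  rw [norm_mul, pow_two] at h7
  have h8 := le_of_mul_le_mul_right h7 hw0
  linarith

theorem exists_zero_ne {h n : ℕ} {x : Ball C} (hx : HasHeight h n x) (c : Idx h n → C) (hc : c ≠ 0) :
    ∃ y : zeros (VPS p h n x), ∑ j, c j * ev1 y.1 (Gj p h n x j.1) ≠ 0 := by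
  classical
  have h1 := hx.one_le
  have hlt := hx.lt
  obtain ⟨j1, hj1⟩ : ∃ j, c j ≠ 0 := by
    by_contra hcon
    push_neg at hcon
    exact hc (funext hcon)
  obtain ⟨m, -, hm⟩ := Finset.exists_max_image (Finset.univ : Finset (Idx h n)) (fun j => ‖c j‖)
    ⟨j1, Finset.mem_univ _⟩
  have hm0 : 0 < ‖c m‖ := (norm_pos_iff.2 hj1).trans_le (hm j1 (Finset.mem_univ _))
  have hm0' : c m ≠ 0 := norm_pos_iff.1 hm0
  obtain ⟨c', hc'⟩ : ∃ c' : Idx h n → C, ∀ j, c' j = c j / c m := ⟨_, fun _ => rfl⟩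
  have hc'1 : ∀ j, ‖c' j‖ ≤ 1 := by
    intro j
    rw [hc', norm_div, div_le_one hm0]
    exact hm j (Finset.mem_univ _)
  obtain ⟨T, hT⟩ : ∃ T : Finset (Idx h n), T = Finset.univ.filter fun j => ‖c' j‖ = 1 := ⟨_, rfl⟩
  have hTne : T.Nonempty := by
    refine ⟨m, ?_⟩
    rw [hT, Finset.mem_filter]
    refine ⟨Finset.mem_univ _, ?_⟩
    rw [hc', div_self hm0', norm_one]
  obtain ⟨j0, hj0T, hj0⟩ := Finset.exists_min_image T (fun j => j.1) hTne
  have hj0n : ‖c' j0‖ = 1 := by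
    rw [hT, Finset.mem_filter] at hj0T
    exact hj0T.2
  have hmem : ∀ j : Idx h n, h ≤ j.1 ∧ j.1 < n := fun j => Finset.mem_Ico.1 j.2
  have hbt : ∀ j : Idx h n, Bdd (PowerSeries.C (c' j) * Gj p h n x j.1) := fun j =>
    (Bdd.C_iff.2 (hc'1 j)).mul (bdd_Gj p h n x j.1)
  have hbt' : ∀ j ∈ (Finset.univ : Finset (Idx h n)), Bdd (PowerSeries.C (c' j) * Gj p h n x j.1) :=
    fun j _ => hbt j
  obtain ⟨G, hG⟩ : ∃ G : PowerSeries C, G = ∑ j : Idx h n, PowerSeries.C (c' j) * Gj p h n x j.1 :=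
    ⟨_, rfl⟩
  have hGb : Bdd G := by rw [hG]; exact Bdd.sum _ hbt'
  have hGc : ∀ k, PowerSeries.coeff k G = ∑ j : Idx h n, c' j * PowerSeries.coeff k (Gj p h n x j.1) := by
    intro k
    rw [hG, map_sum]
    apply Finset.sum_congr rfl
    intro j _
    rw [PowerSeries.coeff_C_mul]
  have hbG1 : ∀ (j : Idx h n) (k : ℕ), ‖PowerSeries.coeff k (Gj p h n x j.1)‖ ≤ 1 := fun j k =>
    RootsAux.bdd_iff_coeff.1 (bdd_Gj p h n x j.1) k
  -- terms of norm less than one
  have hterm : ∀ (j : Idx h n) (k : ℕ), k ≤ p ^ (j0.1 - h) → (j ≠ j0 ∨ k < p ^ (j0.1 - h)) →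
      ‖c' j * PowerSeries.coeff k (Gj p h n x j.1)‖ < 1 := by
    intro j k hk hjk
    rw [norm_mul]
    rcases lt_or_eq_of_le (hc'1 j) with hlt1 | heq1
    · calc ‖c' j‖ * ‖PowerSeries.coeff k (Gj p h n x j.1)‖ ≤ ‖c' j‖ * 1 :=
            mul_le_mul_of_nonneg_left (hbG1 j k) (norm_nonneg _)
        _ < 1 := by rwa [mul_one]
    · have hjT : j ∈ T := by
        rw [hT, Finset.mem_filter]
        exact ⟨Finset.mem_univ _, heq1⟩
      have h2 := hj0 j hjT
      have h3 : k < p ^ (j.1 - h) := by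
        rcases hjk with hne | hk'
        · have h4 : j0.1 < j.1 := by
            rcases Nat.lt_or_ge j0.1 j.1 with h5 | h5
            · exact h5
            · exact absurd (Subtype.ext (le_antisymm h5 h2)) hne
          exact hk.trans_lt (Nat.pow_lt_pow_right (Fact.out : p.Prime).one_lt
            (by have := hmem j0; omega))
        · exact hk'.trans_le (Nat.pow_le_pow_right (Fact.out : p.Prime).pos (by omega))
      rw [heq1, one_mul]
      exact (Gj_coeff p h1 (hmem j).1 (hmem j).2 x h3.le).1 h3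
  have hW : WDeg G (p ^ (j0.1 - h)) := by
    refine ⟨hGb, ?_, ?_⟩
    · intro k hk
      rw [hGc]
      obtain ⟨j, -, hj⟩ := IsUltrametricDist.exists_norm_finsetSum_le_of_nonempty
        (⟨j0, Finset.mem_univ _⟩ : (Finset.univ : Finset (Idx h n)).Nonempty)
        (fun j => c' j * PowerSeries.coeff k (Gj p h n x j.1))
      exact hj.trans_lt (hterm j k hk.le (Or.inr hk))
    · rw [hGc, ← Finset.add_sum_erase _ _ (Finset.mem_univ j0)]
      have h2 : ‖c' j0 * PowerSeries.coeff (p ^ (j0.1 - h)) (Gj p h n x j0.1)‖ = 1 := by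
        rw [norm_mul, hj0n, one_mul]
        exact (Gj_coeff p h1 (hmem j0).1 (hmem j0).2 x le_rfl).2 rfl
      have h3 : ‖∑ j ∈ Finset.univ.erase j0, c' j * PowerSeries.coeff (p ^ (j0.1 - h)) (Gj p h n x j.1)‖ <
          1 := by
        rcases Finset.eq_empty_or_nonempty (Finset.univ.erase j0) with he | hne
        · rw [he, Finset.sum_empty, norm_zero]; exact one_pos
        · obtain ⟨j, hjm, hj⟩ := IsUltrametricDist.exists_norm_finsetSum_le_of_nonempty hne
            (fun j => c' j * PowerSeries.coeff (p ^ (j0.1 - h)) (Gj p h n x j.1))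
          exact hj.trans_lt (hterm j _ le_rfl (Or.inl (Finset.ne_of_mem_erase hjm)))
      rw [IsUltrametricDist.norm_add_eq_max_of_norm_ne_norm (by rw [h2]; exact h3.ne'), h2]
      exact max_eq_left h3.le
  by_contra hcon
  push_neg at hcon
  have hsub : zeros (VPS p h n x) ⊆ zeros G := by
    intro y hy
    refine ⟨hy.1, ?_⟩
    have h2 := hcon ⟨y, hy⟩
    have h3 : ev1 y G = ∑ j : Idx h n, c' j * ev1 y (Gj p h n x j.1) := by
      rw [hG]
      refine (ev_sum (fun _ => hy.1) _ hbt').trans ?_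
      apply Finset.sum_congr rfl
      intro j _
      have := RootsAux.ev1_mul hy.1 (f := PowerSeries.C (c' j)) (g := Gj p h n x j.1)
        (Bdd.C_iff.2 (hc'1 j)) (bdd_Gj p h n x j.1)
      rw [RootsAux.ev1_C] at this
      exact this
    rw [h3]
    have h4 : ∑ j : Idx h n, c' j * ev1 y (Gj p h n x j.1) =
        (∑ j : Idx h n, c j * ev1 y (Gj p h n x j.1)) / c m := by
      rw [Finset.sum_div]
      apply Finset.sum_congr rfl
      intro j _
      rw [hc']
      ring
    rw [h4, h2, zero_div]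
  have hV := zeros_ncard_eq (WDeg_VPS p h1 hlt.le x) (fun z hz => VPS_simple p hx hz)
  have hGz := zeros_ncard_le hW
  have h5 := Set.ncard_le_ncard hsub hGz.1
  rw [hV.2] at h5
  have h6 : p ^ (j0.1 - h) < p ^ (n - h) :=
    Nat.pow_lt_pow_right (Fact.out : p.Prime).one_lt (by have := hmem j0; omega)
  have h7 := hGz.2
  omega

end

end Chai
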