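import Vale.Agent.Chai.Exp
import Vale.Agent.Chai.KSc

/-!
# P217 / KS: the lattice `ker exp_x` and the Kodaira-Spencer matrix

OWNER: helper19

`x` of height exactly `h < n`, `q = p^h`, `V = VPS p h n x` (`p • y = V(y^q)` on `F_x`), `r = n - h`.

PROOFS.
* `V(Y) = ∑^F_{j=h}^{n} v_j Y^{p^{j-h}}`; at `x ≡ 0 mod m_C` it is `Y^{p^r}`: Weierstrass degree `p^r`.
  `V` is a homomorphism `F_x^{(q)} → F_x` (on points: `V(y^q) = p • y` and `C` perfect), so for a zero
  `z`, `V'(z) ≠ 0` (translate to `0`, where `V'(0) = x_h ≠ 0`): `V` has exactly `p^r` zeros.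
* For `j ∈ Idx h n` let `G_j(Y) = ∂V_{x}(Y)/∂x_j` i.e. `V_{x+δ}(Y) = V_x(Y) + ∑ δ_j G_j(Y) + O(δ²)`
  (coefficients of `V` are polynomials in `x`).  Modulo `m_C` (put all `x_j = 0`):
  `V_{δ}(Y) = F_δ(δ_j Y^{p^{j-h}}, Y^{p^r})` when only `δ_j ≠ 0`, whose `δ_j`-derivative is
  `∂_1 F_0(0, Y^{p^r}) Y^{p^{j-h}} = Y^{p^{j-h}}(1 + ⋯)`.  So for `c ≠ 0`, scaled to `max ‖c_j‖ = 1`,
  `∑ c_j G_j` has Weierstrass degree `p^{j_0-h} ≤ p^{r-1}` and at most `p^{r-1}` zeros.  Hence the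
  vectors `(G_j(y))_j`, `y` a zero of `V`, span `C^{Idx}`: choose zeros `y_i` (`i ∈ Idx`) with
  `det (G_j(y_i)) ≠ 0`.
* `t_i := p • u_i` (in `Γ`) where `exp_x(u_i) = y_i^{1/q}` (surjectivity): `exp_x(t_i) = V(y_i) = 0`, and
  `exp_{x+δ}(t_i) = V_{x+δ}(exp_{x+δ}(u_i)^q)`, `exp_{x+δ}(u_i) = y_i^{1/q} + O(δ)`, so the linear term of
  `Q_{t_i}` in `δ_j` is `G_j(y_i)` (as `q ≥ 2`).
* KS2: for `s ∈ ker exp_x` the linear part `∂(s)` of `Q_s` is additive in `s`
  (`exp_{x+δ}(s+s') = F_{x+δ}(exp_{x+δ}(s), exp_{x+δ}(s'))`) and `∂(p•s) = p ∂(s) = 0`.  So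
  `∑ c_i • t_i = p • s` gives `∑ c_i ∂(t_i) = 0`, `c_i = 0` in `C`.
-/

namespace Chai

open MvPowerSeries Filter Topology

variable (p : ℕ) [Fact p.Prime]
variable {C : Type*} [NontriviallyNormedField C] [IsUltrametricDist C] [CompleteSpace C]
variable [CharP C p] [IsAlgClosed C]


/-- `a` is approximated by `a'` modulo `ρ^2` -/
def Ap {G : CFG C} (ρ : ℝ) (a : G.Pt) (a' : C) : Prop := ‖a.1‖ ≤ ρ ∧ ‖a.1 - a'‖ ≤ ρ ^ 2

omit [CharP C p] [IsAlgClosed C] [Fact p.Prime] in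
theorem Ap.add {G : CFG C} {ρ : ℝ} (hρ : 0 ≤ ρ) {a b : G.Pt} {a' b' : C} (ha : Ap ρ a a')
    (hb : Ap ρ b b') : Ap ρ (a + b) (a' + b') := by
  refine ⟨(G.norm_add_le a b).trans (max_le ha.1 hb.1), ?_⟩
  have e1 : (a + b).1 - (a' + b') = ((a + b).1 - (a.1 + b.1)) + ((a.1 - a') + (b.1 - b')) := by ring
  rw [e1]
  refine (IsUltrametricDist.norm_add_le_max _ _).trans (max_le ?_ ?_)
  · refine (G.norm_add_sub_le a b).trans ?_
    rw [pow_two]
    exact mul_le_mul ha.1 hb.1 (norm_nonneg _) hρ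
  · exact (IsUltrametricDist.norm_add_le_max _ _).trans (max_le ha.2 hb.2)

omit [CharP C p] [IsAlgClosed C] [Fact p.Prime] in
theorem Ap.zero {G : CFG C} {ρ : ℝ} (hρ : 0 ≤ ρ) : Ap ρ (0 : G.Pt) 0 := by
  constructor
  · rw [G.zero_val, norm_zero]; exact hρ
  · rw [G.zero_val, sub_zero, norm_zero]; positivity

omit [CharP C p] [IsAlgClosed C] [Fact p.Prime] in
theorem Ap.neg {G : CFG C} {ρ : ℝ} (hρ : 0 ≤ ρ) {a : G.Pt} {a' : C} (ha : Ap ρ a a') :
    Ap ρ (-a) (-a') := by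
  have hn : ‖(-a).1‖ ≤ ρ := by rw [G.norm_neg]; exact ha.1
  refine ⟨hn, ?_⟩
  have h1 := G.norm_add_sub_le a (-a)
  rw [add_neg_cancel, G.zero_val, zero_sub, _root_.norm_neg] at h1
  have e1 : (-a).1 - -a' = (a.1 + (-a).1) - (a.1 - a') := by ring
  rw [e1]
  refine (norm_sub_le_max' _ _).trans (max_le (h1.trans ?_) ha.2)
  rw [pow_two]
  exact mul_le_mul ha.1 hn (norm_nonneg _) hρ

omit [CharP C p] [IsAlgClosed C] [Fact p.Prime] in
theorem Ap.nsmul {G : CFG C} {ρ : ℝ} (hρ : 0 ≤ ρ) {a : G.Pt} {a' : C} (ha : Ap ρ a a') (m : ℕ) :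
    Ap ρ (m • a) ((m : C) * a') := by
  induction m with
  | zero => simpa using Ap.zero hρ
  | succ m ih =>
    rw [succ_nsmul]
    have e1 : ((m + 1 : ℕ) : C) * a' = (m : C) * a' + a' := by push_cast; ring
    rw [e1]
    exact ih.add hρ ha

omit [CharP C p] [IsAlgClosed C] [Fact p.Prime] in
theorem Ap.zsmul {G : CFG C} {ρ : ℝ} (hρ : 0 ≤ ρ) {a : G.Pt} {a' : C} (ha : Ap ρ a a') (m : ℤ) :
    Ap ρ (m • a) ((m : C) * a') := by
  obtain ⟨k, rfl | rfl⟩ := m.eq_nat_or_neg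
  · simpa using ha.nsmul hρ k
  · rw [neg_smul, natCast_zsmul]
    have e1 : ((-(k : ℤ) : ℤ) : C) * a' = -((k : C) * a') := by push_cast; ring
    rw [e1]
    exact (ha.nsmul hρ k).neg hρ

omit [CharP C p] [IsAlgClosed C] [Fact p.Prime] in
theorem Ap.sum {G : CFG C} {ρ : ℝ} (hρ : 0 ≤ ρ) {κ : Type*} (s : Finset κ) {a : κ → G.Pt}
    {a' : κ → C} (ha : ∀ i ∈ s, Ap ρ (a i) (a' i)) : Ap ρ (∑ i ∈ s, a i) (∑ i ∈ s, a' i) := by
  classical
  induction s using Finset.induction_on with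
  | empty => simpa using Ap.zero hρ
  | insert x s hx ih =>
    rw [Finset.sum_insert hx, Finset.sum_insert hx]
    exact (ha _ (Finset.mem_insert_self _ _)).add hρ (ih fun i hi => ha i (Finset.mem_insert_of_mem hi))

omit [IsUltrametricDist C] [CompleteSpace C] [CharP C p] [IsAlgClosed C] [Fact p.Prime] in
theorem norm_single_lt {ι : Type*} [DecidableEq ι] (j : ι) {s : C} (hs : ‖s‖ < 1) (i : ι) :
    ‖(Pi.single j s : ι → C) i‖ < 1 := by
  by_cases hi : i = j
  · subst hi; simpa using hs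
  · rw [Pi.single_eq_of_ne hi, norm_zero]; exact one_pos

theorem shift_sub_le {h n : ℕ} (x : Ball C) (j : Idx h n) {s : C}
    (hδ : ∀ i, ‖(Pi.single j s : Idx h n → C) i‖ < 1) (k : ℕ) :
    ‖(shiftB x (Pi.single j s) hδ).1 k - x.1 k‖ ≤ ‖s‖ := by
  simp only [shiftB]
  split_ifs with hk
  · rw [add_sub_cancel_left]
    by_cases hi : (⟨k, hk⟩ : Idx h n) = j
    · rw [hi]; simp
    · rw [Pi.single_eq_of_ne hi, norm_zero]; exact norm_nonneg _
  · rw [sub_self, norm_zero]; exact norm_nonneg _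

/-- the linear terms of `Q_t` for `t = p • u`, `exp_x(u)^{p^h} = y` a zero of `V_x` -/
theorem coeff_Q {h n : ℕ} (hn : 1 ≤ n) {x : Ball C} (hx : HasHeight h n x)
    {u : (FC p n (0 : Ball C)).Pt} {y : C} (hy : y ∈ zeros (VPS p h n x))
    (hu : (expm p hn x u).1 ^ p ^ h = y) (ht : expm p hn x (p • u) = 0)
    {Q : MvPowerSeries (Idx h n) C} (hQ : Bdd Q)
    (hQe : ∀ (δ : Idx h n → C) (hδ : ∀ i, ‖δ i‖ < 1),
      (expm p hn (shiftB x δ hδ) (p • u)).1 = ev δ Q) (j : Idx h n) :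
    coeff (Finsupp.single j 1) Q = ev1 y (Gj p h n x j.1) := by
  have hq2 : 2 ≤ p ^ h := by
    calc 2 ≤ p := (Fact.out : p.Prime).two_le
      _ = p ^ 1 := (pow_one p).symm
      _ ≤ p ^ h := Nat.pow_le_pow_right (Fact.out : p.Prime).pos hx.one_le
  -- constant term
  have hQ0 : constantCoeff Q = 0 := by
    rw [← ev_at_zero]
    have h1 := hQe (fun _ => 0) (by simp)
    rw [← h1]
    have h2 : shiftB x (fun _ => (0 : C) : Idx h n → C) (by simp) = x := by
      apply Subtype.ext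
      funext k
      simp [shiftB]
    rw [h2, ht]
    rfl
  have key : ∀ s : C, s ≠ 0 → ‖s‖ < 1 →
      ‖coeff (Finsupp.single j 1) Q - ev1 y (Gj p h n x j.1)‖ ≤ ‖s‖ := by
    intro s hs0 hs
    have hδ := norm_single_lt j hs
    obtain ⟨x', hx'⟩ : ∃ x' : Ball C, x' = shiftB x (Pi.single j s) hδ := ⟨_, rfl⟩
    have h1 := hQe (Pi.single j s) hδ
    have hx0 : ∀ k, 1 ≤ k → k < h → x'.1 k = 0 := by
      intro k hk1 hk2
      rw [hx']
      simp only [shiftB]
      rw [dif_neg, hx.zero k hk1 hk2]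
      rw [Finset.mem_Ico]
      omega
    rw [map_nsmul, ← hx', nsmul_p_val p hx.one_le hx.lt.le hx0] at h1
    have h2 : ‖(expm p hn x' u).1 - (expm p hn x u).1‖ ≤ ‖s‖ := by
      apply expm_lip p hn (norm_nonneg _)
      intro k _ _
      rw [hx']
      exact shift_sub_le x j hδ k
    have h3 : ‖(expm p hn x' u).1 ^ p ^ h - y‖ ≤ ‖s‖ ^ 2 := by
      rw [← hu, ← sub_pow_char_pow _ _ h, norm_pow]
      calc ‖(expm p hn x' u).1 - (expm p hn x u).1‖ ^ p ^ h ≤ ‖s‖ ^ p ^ h :=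
            pow_le_pow_left₀ (norm_nonneg _) h2 _
        _ ≤ ‖s‖ ^ 2 := pow_le_pow_of_le_one (norm_nonneg _) hs.le hq2
    have hlt : ‖(expm p hn x' u).1 ^ p ^ h‖ < 1 := by
      rw [norm_pow]
      exact pow_lt_one₀ (norm_nonneg _) (expm p hn x' u).2 (by omega)
    have h4 : ‖ev1 ((expm p hn x' u).1 ^ p ^ h) (VPS p h n x') - ev1 y (VPS p h n x')‖ ≤ ‖s‖ ^ 2 :=
      norm_ev_sub_le (fun _ => hlt) (bdd_VPS p h n x') (fun _ => hy.1) (by positivity) (fun _ => h3)
    have h5 := VPS_shift_sub p x hs hδ hy.1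
    rw [← hx', hy.2, zero_add] at h5
    have h6 := ev_axis hQ j hs
    rw [hQ0, zero_add, ← h1] at h6
    have h7 : ‖s * (coeff (Finsupp.single j 1) Q - ev1 y (Gj p h n x j.1))‖ ≤ ‖s‖ ^ 2 := by
      have e1 : s * (coeff (Finsupp.single j 1) Q - ev1 y (Gj p h n x j.1)) =
          ((ev1 ((expm p hn x' u).1 ^ p ^ h) (VPS p h n x') - ev1 y (VPS p h n x')) +
            (ev1 y (VPS p h n x') - s * ev1 y (Gj p h n x j.1))) -
          (ev1 ((expm p hn x' u).1 ^ p ^ h) (VPS p h n x') - s * coeff (Finsupp.single j 1) Q) := by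
        ring
      rw [e1]
      exact (norm_sub_le_max' _ _).trans
        (max_le ((IsUltrametricDist.norm_add_le_max _ _).trans (max_le h4 h5)) h6)
    rw [norm_mul, pow_two] at h7
    exact le_of_mul_le_mul_left h7 (norm_pos_iff.2 hs0)
  rw [← sub_eq_zero, ← norm_eq_zero]
  apply le_antisymm _ (norm_nonneg _)
  apply le_of_forall_pos_le_add
  intro ε hε
  obtain ⟨s, hs0, hs⟩ := NormedField.exists_norm_lt C (lt_min hε one_pos)
  rw [zero_add]
  exact (key s (norm_pos_iff.1 hs0) (hs.trans_le (min_le_right _ _))).trans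
    (hs.le.trans (min_le_left _ _))

theorem exists_KS {h n : ℕ} (hn : 1 ≤ n) {x : Ball C} (hx : HasHeight h n x) :
    ∃ (t : Idx h n → (FC p n (0 : Ball C)).Pt) (Q : Idx h n → MvPowerSeries (Idx h n) C),
      (∀ i, expm p hn x (t i) = 0) ∧ (∀ i, Bdd (Q i)) ∧
      (∀ i (δ : Idx h n → C) (hδ : ∀ i, ‖δ i‖ < 1),
        (expm p hn (shiftB x δ hδ) (t i)).1 = ev δ (Q i)) ∧
      IsUnit (Matrix.of fun i j => coeff (Finsupp.single j 1) (Q i)).det ∧
      (∀ (c : Idx h n → ℤ) (s : (FC p n (0 : Ball C)).Pt), expm p hn x s = 0 →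
        ∑ i, c i • t i = p • s → ∀ i, (p : ℤ) ∣ c i) := by
  obtain ⟨Y, hY⟩ := exists_det_ne_zero
    (fun (y : zeros (VPS p h n x)) (j : Idx h n) => ev1 y.1 (Gj p h n x j.1))
    (fun c hc => exists_zero_ne p hx c hc)
  have hq : 0 < p ^ h := pow_pos (Fact.out : p.Prime).pos _
  have hu : ∀ i, ∃ u : (FC p n (0 : Ball C)).Pt, (expm p hn x u).1 ^ p ^ h = (Y i).1 := by
    intro i
    obtain ⟨r, hr⟩ := IsAlgClosed.exists_pow_nat_eq (Y i).1 hq
    have hr1 : ‖r‖ < 1 := by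
      by_contra hc
      rw [not_lt] at hc
      have h1 := (Y i).2.1
      rw [← hr, norm_pow] at h1
      exact absurd (one_le_pow₀ hc) (not_le.2 h1)
    obtain ⟨u, hu⟩ := expm_surjective p hn x ⟨r, hr1⟩
    exact ⟨u, by rw [hu]; exact hr⟩
  choose u hu using hu
  have ht : ∀ i, expm p hn x (p • u i) = 0 := by
    intro i
    rw [map_nsmul]
    apply Subtype.ext
    rw [nsmul_p_val p hx.one_le hx.lt.le hx.zero, hu]
    exact (Y i).2.2
  have hQ := fun i => expm_series p hn h x (p • u i)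
  choose Q hQb hQe using hQ
  have hJ : ∀ i j, coeff (Finsupp.single j 1) (Q i) = ev1 (Y i).1 (Gj p h n x j.1) := fun i j =>
    coeff_Q p hn hx (Y i).2 (hu i) (ht i) (hQb i) (hQe i) j
  have hdet : IsUnit (Matrix.of fun i j => coeff (Finsupp.single j 1) (Q i)).det := by
    have e1 : (Matrix.of fun i j => coeff (Finsupp.single j 1) (Q i)) =
        Matrix.of fun i j => ev1 (Y i).1 (Gj p h n x j.1) := by
      ext i j
      exact hJ i j
    rw [e1]
    exact hY
  refine ⟨fun i => p • u i, Q, ht, hQb, fun i => hQe i, hdet, ?_⟩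
  intro c s hs hcs i
  -- linear parts
  have hQ0 : ∀ i, constantCoeff (Q i) = 0 := by
    intro i
    rw [← ev_at_zero]
    have h1 := hQe i (fun _ => 0) (by simp)
    rw [← h1]
    have h2 : shiftB x (fun _ => (0 : C) : Idx h n → C) (by simp) = x := by
      apply Subtype.ext
      funext k
      simp [shiftB]
    rw [h2, ht]
    rfl
  have key : ∀ j, ∑ i, (c i : C) * coeff (Finsupp.single j 1) (Q i) = 0 := by
    intro j
    have hb : ∀ r : C, r ≠ 0 → ‖r‖ < 1 →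
        ‖∑ i, (c i : C) * coeff (Finsupp.single j 1) (Q i)‖ ≤ ‖r‖ := by
      intro r hr0 hr
      have hδ := norm_single_lt j hr
      obtain ⟨x', hx'⟩ : ∃ x' : Ball C, x' = shiftB x (Pi.single j r) hδ := ⟨_, rfl⟩
      have hρ : 0 ≤ ‖r‖ := norm_nonneg r
      have hsmall : ∀ v : (FC p n (0 : Ball C)).Pt, expm p hn x v = 0 → ‖(expm p hn x' v).1‖ ≤ ‖r‖ := by
        intro v hv
        have h1 : ‖(expm p hn x' v).1 - (expm p hn x v).1‖ ≤ ‖r‖ := by
          apply expm_lip p hn (norm_nonneg _)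
          intro k _ _
          rw [hx']
          exact shift_sub_le x j hδ k
        rw [hv] at h1
        have h2 : ((0 : (FC p n x).Pt)).1 = (0 : C) := CFG.zero_val _
        rwa [h2, sub_zero] at h1
      have h1 : Ap ‖r‖ (∑ i, c i • expm p hn x' (p • u i))
          (∑ i, (c i : C) * (r * coeff (Finsupp.single j 1) (Q i))) := by
        apply Ap.sum hρ
        intro i _
        apply Ap.zsmul hρ
        refine ⟨hsmall _ (ht i), ?_⟩
        have h2 := ev_axis (hQb i) j hr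
        rw [hQ0, zero_add, ← hQe i _ hδ, ← hx'] at h2
        exact h2
      have h2 : Ap ‖r‖ (p • expm p hn x' s) ((p : C) * (expm p hn x' s).1) := by
        apply Ap.nsmul hρ
        refine ⟨hsmall s hs, ?_⟩
        rw [sub_self, norm_zero]
        positivity
      have h3 : ∑ i, c i • expm p hn x' (p • u i) = p • expm p hn x' s := by
        rw [← map_nsmul, ← hcs, map_sum]
        apply Finset.sum_congr rfl
        intro i _
        rw [map_zsmul]
      rw [h3] at h1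
      have h4 : ‖∑ i, (c i : C) * (r * coeff (Finsupp.single j 1) (Q i))‖ ≤ ‖r‖ ^ 2 := by
        have e1 : ∑ i, (c i : C) * (r * coeff (Finsupp.single j 1) (Q i)) =
            ((p • expm p hn x' s).1 - (p : C) * (expm p hn x' s).1) -
            ((p • expm p hn x' s).1 - ∑ i, (c i : C) * (r * coeff (Finsupp.single j 1) (Q i))) := by
          rw [CharP.cast_eq_zero]; ring
        rw [e1]
        exact (norm_sub_le_max' _ _).trans (max_le h2.2 h1.2)
      have h5 : ∑ i, (c i : C) * (r * coeff (Finsupp.single j 1) (Q i)) =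
          r * ∑ i, (c i : C) * coeff (Finsupp.single j 1) (Q i) := by
        rw [Finset.mul_sum]
        apply Finset.sum_congr rfl
        intro i _
        ring
      rw [h5, norm_mul, pow_two] at h4
      exact le_of_mul_le_mul_left h4 (norm_pos_iff.2 hr0)
    rw [← norm_eq_zero]
    apply le_antisymm _ (norm_nonneg _)
    apply le_of_forall_pos_le_add
    intro ε hε
    obtain ⟨r, hr0, hr⟩ := NormedField.exists_norm_lt C (lt_min hε one_pos)
    rw [zero_add]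
    exact (hb r (norm_pos_iff.1 hr0) (hr.trans_le (min_le_right _ _))).trans
      (hr.le.trans (min_le_left _ _))
  have hvec : Matrix.vecMul (fun i => (c i : C))
      (Matrix.of fun i j => coeff (Finsupp.single j 1) (Q i)) = 0 := by
    funext j
    exact key j
  have hc0 : (fun i => (c i : C)) = 0 := by
    apply Matrix.vecMul_injective_of_isUnit ((Matrix.isUnit_iff_isUnit_det _).2 hdet)
    exact hvec.trans (Matrix.zero_vecMul _).symm
  have h1 : ((c i : ℤ) : C) = 0 := congrFun hc0 i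
  exact (CharP.intCast_eq_zero_iff C p (c i)).1 h1

end Chai
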