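import Vale.Agent.Chai.ThetaQ
import Vale.Agent.Chai.JMod

/-!
# P217 / ThetaAsm: elimination (part of Theta)

OWNER: helper23
-/

namespace Chai

open MvPowerSeries Filter Topology JM

set_option linter.unusedSectionVars false

universe u

theorem swap3 {L ι : Type*} [CommRing L] [Fintype ι] (N K : Finset ℕ) (r : ι → ℕ → L)
    (f : ι → ℕ → ℕ → L) : ∑ j, ∑ k ∈ K, r j k * ∑ m ∈ N, f j k m =
      ∑ m ∈ N, ∑ j, ∑ k ∈ K, r j k * f j k m := by
  have h1 : ∀ j, ∑ k ∈ K, r j k * ∑ m ∈ N, f j k m = ∑ m ∈ N, ∑ k ∈ K, r j k * f j k m := by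
    intro j
    simp only [Finset.mul_sum]
    exact Finset.sum_comm
  rw [Finset.sum_congr rfl fun j _ => h1 j]
  exact Finset.sum_comm

theorem sum2_mul {L ι : Type*} [CommRing L] [Fintype ι] (K : Finset ℕ) (f : ι → ℕ → L) (x : L) :
    (∑ j, ∑ k ∈ K, f j k) * x = ∑ j, ∑ k ∈ K, f j k * x := by
  rw [Finset.sum_mul]
  exact Finset.sum_congr rfl fun j _ => Finset.sum_mul _ _ _

variable (p : ℕ) [hp : Fact p.Prime]
variable {C : Type u} [NontriviallyNormedField C] [IsUltrametricDist C] [CompleteSpace C]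
variable [CharP C p]

/-- `ψ` followed by `y ↦ y^{p^k}` -/
noncomputable def frobHom {F : CFG C} {h : ℕ} (ψ : CHom F (FC p h (0 : Ball C))) (k : ℕ) :
    CHom F (FC p h (0 : Ball C)) where
  ps := ((PowerSeries.X : PowerSeries C) ^ p ^ k).subst ψ.ps
  bdd := Bdd.subst (σ := Unit) ((Bdd.X ()).pow _) (fun _ => ψ.bdd) (fun _ => ψ.isHom.1)
  isHom := IsHom.comp (honda_frob p h k) ψ.isHom

theorem frobHom_map_val {F : CFG C} {h : ℕ} (ψ : CHom F (FC p h (0 : Ball C))) (k : ℕ) (y : F.Pt) :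
    ((frobHom p ψ k).map y).1 = (ψ.map y).1 ^ p ^ k := by
  rw [CHom.map_val, CHom.map_val]
  have h1 : ev1 y.1 (((PowerSeries.X : PowerSeries C) ^ p ^ k).subst ψ.ps) =
      ev1 (ev1 y.1 ψ.ps) ((PowerSeries.X : PowerSeries C) ^ p ^ k) :=
    ev1_subst y.2 ((Bdd.X ()).pow _) ψ.bdd ψ.isHom.1
  refine h1.trans ?_
  have h2 : ‖ev1 y.1 ψ.ps‖ < 1 := (ψ.map y).2
  exact (ev_pow (σ := Unit) (fun _ => h2) (Bdd.X ()) _).trans (by rw [ev_X])

variable [IsAlgClosed C]
variable {τ : OC C} {L : Type u} [NontriviallyNormedField L] [IsUltrametricDist L]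
variable [CompleteSpace L] [CharZero L]
variable (U : UntiltData p C τ L)
variable (h0 : (τ : C) ≠ 0) (h1 : ‖(τ : C)‖ < 1)

/-- `z ↦ Θ_n(z^{p^M})` as an additive map -/
noncomputable def thetaHom {n : ℕ} (hn : 1 ≤ n) (M : ℕ) : (FC p n (0 : Ball C)).Pt →+ L where
  toFun z := theta p U n (z.1 ^ p ^ M)
  map_zero' := by
    rw [CFG.zero_val, zero_pow (pow_ne_zero _ hp.out.ne_zero), theta_zero]
  map_add' z w := by
    have h2 := theta_add p U h0 h1 hn (hendo p n 1 (one_pow _) M z) (hendo p n 1 (one_pow _) M w)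
    rw [← map_add, hendo_val p n hn, hendo_val p n hn, hendo_val p n hn, one_mul, one_mul,
      one_mul] at h2
    exact h2

theorem thetaHom_apply {n : ℕ} (hn : 1 ≤ n) (M : ℕ) (z : (FC p n (0 : Ball C)).Pt) :
    thetaHom p U h0 h1 hn M z = theta p U n (z.1 ^ p ^ M) := rfl

/-- `Θ_n((ζ t^{p^l})^{p^m}) = T(ζ)^{p^m} Θ_n(t^{p^{l+m}})` -/
theorem theta_hendo {n : ℕ} (hn : 1 ≤ n) (ζ : C) (hζ : ζ ^ p ^ n = ζ) (l m : ℕ)
    (t : (FC p n (0 : Ball C)).Pt) :
    theta p U n ((hendo p n ζ hζ l t).1 ^ p ^ m) =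
      U.T ζ ^ p ^ m * theta p U n (t.1 ^ p ^ (l + m)) := by
  rw [hendo_val p n hn, mul_pow, ← pow_mul, ← pow_add, theta_smul, map_pow]
  rw [← pow_mul, mul_comm, pow_mul, hζ]

theorem theta_pow_add (n M : ℕ) (z : C) :
    theta p U n (z ^ p ^ (M + n)) = p * theta p U n (z ^ p ^ M) := by
  rw [pow_add, pow_mul, theta_pow]

variable {𝔽 : Type*} [Field 𝔽] [Fintype 𝔽] [CharP 𝔽 p] [Algebra 𝔽 C]

include h0 in
theorem theta_elim {h n : ℕ} (hn : 1 ≤ n) (hh : 1 ≤ h) {x : Ball C} (hx : SizeLE n x ‖(τ : C)‖)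
    (hcard : Fintype.card 𝔽 = p ^ h)
    (β : CHom (FC p n x) (FC p h 0)) (hβ : PowerSeries.coeff 1 β.ps ≠ 0)
    {ι : Type*} [Fintype ι] [DecidableEq ι] (t : ι → (FC p n (0 : Ball C)).Pt)
    (i₀ : ι) (g : ι → PowerSeries 𝔽)
    (hg : ∀ j, IsHom (g j) (hazF p (prm h 0)) (hazF p (prm h 0))) (hg0 : g i₀ = 0)
    (H : ∀ (ζ : C) (hζ : ζ ^ p ^ n = ζ) (l : ℕ),
      β.map (expm p hn x (hendo p n ζ hζ l (t i₀))) =
        ∑ j, (homF p (g j) (hg j)).map (β.map (expm p hn x (hendo p n ζ hζ l (t j))))) :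
    ∃ b : ι → FractionRing (WittVector p 𝔽), b i₀ ≠ 0 ∧ ∀ k M : ℕ,
      ∑ j, rhoK p h1 U k (b j) * theta p U n ((t j).1 ^ p ^ M) = 0 := by
  have hp0 : (p : L) ≠ 0 := Nat.cast_ne_zero.2 hp.out.ne_zero
  -- the coefficients `c k m`
  have hc : ∀ k : ℕ, ∃ c : ℕ → L, ∀ z : (FC p n (0 : Ball C)).Pt,
      theta p U h ((β.map (expm p hn x z)).1 ^ p ^ k) =
        ∑ m ∈ Finset.range n, c m * theta p U n (z.1 ^ p ^ m) := by
    intro k
    obtain ⟨c, hc⟩ := exists_ell p U h0 h1 hn hh hx (frobHom p β k)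
    obtain ⟨c', hc'⟩ : ∃ c' : ℕ → L, ∀ m : Fin n, c' m = c m :=
      ⟨fun m => if hm : m < n then c ⟨m, hm⟩ else 0, fun m => dif_pos m.2⟩
    refine ⟨c', fun z => ?_⟩
    have h2 := hc z
    rw [frobHom_map_val] at h2
    rw [h2, Finset.sum_range]
    refine Finset.sum_congr rfl fun m _ => ?_
    rw [hc']
  choose c hc using hc
  -- the coefficients `a j k`
  have ha : ∀ j, ∃ a : ℕ → FractionRing (WittVector p 𝔽), (j = i₀ → a = 0) ∧
      ∀ (k' : ℕ) (w : (FC p h (0 : Ball C)).Pt),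
        theta p U h (((homF p (g j) (hg j)).map w).1 ^ p ^ k') =
          ∑ k ∈ Finset.range h, rhoK p h1 U k' (a k) * theta p U h (w.1 ^ p ^ (k' + k)) := by
    intro j
    by_cases hj : j = i₀
    · refine ⟨0, fun _ => rfl, fun k' w => ?_⟩
      have h2 : ((homF p (g j) (hg j)).map w).1 = 0 := by
        rw [homF_map_val]
        subst hj
        rw [hg0, evF_zero]
      rw [h2, zero_pow (pow_ne_zero _ hp.out.ne_zero), theta_zero]
      simp
    · obtain ⟨a, ha⟩ := exists_endo p U h0 h1 hh hcard (g j) (hg j)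
      obtain ⟨a', ha'⟩ : ∃ a' : ℕ → FractionRing (WittVector p 𝔽), ∀ m : Fin h, a' m = a m :=
        ⟨fun m => if hm : m < h then a ⟨m, hm⟩ else 0, fun m => dif_pos m.2⟩
      refine ⟨a', fun hj' => absurd hj' hj, fun k' w => ?_⟩
      have h2 := ha k' w.1 w.2
      have h3 : ((homF p (g j) (hg j)).map w).1 = ev1 w.1 ((g j).map (algebraMap 𝔽 C)) := rfl
      rw [h3, h2, Finset.sum_range]
      refine Finset.sum_congr rfl fun m _ => ?_
      rw [ha']
  choose a ha0 ha using ha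
  obtain ⟨th, hth⟩ : ∃ th : ℕ → ι → L, th = fun M j => theta p U n ((t j).1 ^ p ^ M) := ⟨_, rfl⟩
  have hthp : ∀ M j, th (M + n) j = p * th M j := by
    intro M j
    rw [hth]
    exact theta_pow_add p U n M _
  -- values on the torsion points
  have hval : ∀ (ζ : C) (hζ : ζ ^ p ^ n = ζ) (l k : ℕ) (j : ι),
      theta p U h ((β.map (expm p hn x (hendo p n ζ hζ l (t j)))).1 ^ p ^ k) =
        ∑ m ∈ Finset.range n, c k m * (U.T ζ ^ p ^ m * th (l + m) j) := by
    intro ζ hζ l k j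
    rw [hc]
    refine Finset.sum_congr rfl fun m _ => ?_
    rw [theta_hendo p U hn, hth]
  -- first elimination
  have R1 : ∀ k' l m, m < n → c k' m * th (l + m) i₀ =
      ∑ j, ∑ k ∈ Finset.range h, rhoK p h1 U k' (a j k) * (c (k' + k) m * th (l + m) j) := by
    intro k' l m hm
    have h2 := char_indep p U h0 h1 hn (fun m => c k' m * th (l + m) i₀ -
      ∑ j, ∑ k ∈ Finset.range h, rhoK p h1 U k' (a j k) * (c (k' + k) m * th (l + m) j)) ?_ m hm
    · exact sub_eq_zero.1 h2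
    · intro ζ hζ
      have h3 := congrArg (thetaHom p U h0 h1 hh k') (H ζ hζ l)
      rw [map_sum, thetaHom_apply] at h3
      simp only [thetaHom_apply] at h3
      rw [hval] at h3
      have h4 : ∀ j, theta p U h (((homF p (g j) (hg j)).map
          (β.map (expm p hn x (hendo p n ζ hζ l (t j))))).1 ^ p ^ k') =
          ∑ k ∈ Finset.range h, rhoK p h1 U k' (a j k) *
            ∑ m ∈ Finset.range n, c (k' + k) m * (U.T ζ ^ p ^ m * th (l + m) j) := by
        intro j
        rw [ha]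
        refine Finset.sum_congr rfl fun k _ => ?_
        rw [hval]
      simp only [h4] at h3
      rw [swap3] at h3
      have h5 : ∀ m, (c k' m * th (l + m) i₀ - ∑ j, ∑ k ∈ Finset.range h,
          rhoK p h1 U k' (a j k) * (c (k' + k) m * th (l + m) j)) * U.T ζ ^ p ^ m =
          c k' m * (U.T ζ ^ p ^ m * th (l + m) i₀) - ∑ j, ∑ k ∈ Finset.range h,
          rhoK p h1 U k' (a j k) * (c (k' + k) m * (U.T ζ ^ p ^ m * th (l + m) j)) := by
        intro m
        rw [sub_mul, sum2_mul]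
        congr 1
        · ring
        · refine Finset.sum_congr rfl fun j _ => Finset.sum_congr rfl fun k _ => ?_
          ring
      rw [Finset.sum_congr rfl fun m _ => h5 m, Finset.sum_sub_distrib, h3, sub_self]
  -- all exponents
  have R2 : ∀ k' M m, m < n → c k' m * th M i₀ =
      ∑ j, ∑ k ∈ Finset.range h, rhoK p h1 U k' (a j k) * (c (k' + k) m * th M j) := by
    intro k' M m hm
    have h2 := R1 k' (M + n - m) m hm
    have h3 : M + n - m + m = M + n := by omega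
    rw [h3] at h2
    simp only [hthp] at h2
    apply mul_left_cancel₀ hp0
    rw [Finset.mul_sum]
    simp only [Finset.mul_sum]
    refine Eq.trans ?_ (h2.trans ?_)
    · ring
    · refine Finset.sum_congr rfl fun j _ => Finset.sum_congr rfl fun k _ => ?_
      ring
  -- second elimination
  have R3 : ∀ (k' M : ℕ) (z : (FC p n (0 : Ball C)).Pt),
      theta p U h ((β.map (expm p hn x z)).1 ^ p ^ k') * th M i₀ =
        ∑ j, ∑ k ∈ Finset.range h, rhoK p h1 U k' (a j k) *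
          (theta p U h ((β.map (expm p hn x z)).1 ^ p ^ (k' + k)) * th M j) := by
    intro k' M z
    rw [hc, Finset.sum_mul]
    have h2 : ∀ m ∈ Finset.range n, c k' m * theta p U n (z.1 ^ p ^ m) * th M i₀ =
        ∑ j, ∑ k ∈ Finset.range h, rhoK p h1 U k' (a j k) *
          (c (k' + k) m * theta p U n (z.1 ^ p ^ m) * th M j) := by
      intro m hm
      have h3 := R2 k' M m (Finset.mem_range.1 hm)
      have h4 : c k' m * theta p U n (z.1 ^ p ^ m) * th M i₀ =
        (c k' m * th M i₀) * theta p U n (z.1 ^ p ^ m) := by ring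
      rw [h4, h3, sum2_mul]
      refine Finset.sum_congr rfl fun j _ => Finset.sum_congr rfl fun k _ => ?_
      ring
    rw [Finset.sum_congr rfl h2, ← swap3]
    refine Finset.sum_congr rfl fun j _ => Finset.sum_congr rfl fun k _ => ?_
    rw [hc, Finset.sum_mul]
  -- small values of `ℓ`
  have hsurj : ∀ w : C, ‖w‖ < ‖PowerSeries.coeff 1 β.ps‖ ^ 2 →
      ∃ z : (FC p n (0 : Ball C)).Pt, (β.map (expm p hn x z)).1 = w := by
    intro w hw
    obtain ⟨y, hy1, hy⟩ := exists_ev1_eq β.bdd β.isHom.1 hw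
    obtain ⟨Y, hY⟩ : ∃ Y : (FC p n x).Pt, Y.1 = y := ⟨⟨y, hy1⟩, rfl⟩
    obtain ⟨z, hz⟩ := expm_surjective p hn x Y
    refine ⟨z, ?_⟩
    rw [hz, CHom.map_val, hY]
    exact hy
  obtain ⟨w, hw, hwne⟩ := exists_noncorner p U h0 h1 hh
    (ε := ‖PowerSeries.coeff 1 β.ps‖ ^ 2) (pow_pos (norm_pos_iff.2 hβ) 2)
  have R4 : ∀ k' M : ℕ, th M i₀ = ∑ j, rhoK p h1 U k' (a j 0) * th M j := by
    intro k' M
    have h2 := char_indep p U h0 h1 hh (fun k =>
      (if k = 0 then theta p U h (w ^ p ^ k') * th M i₀ else 0) -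
        ∑ j, rhoK p h1 U k' (a j k) * (theta p U h (w ^ p ^ (k' + k)) * th M j)) ?_ 0 hh
    · simp only [if_true, add_zero] at h2
      have h3 : theta p U h (w ^ p ^ k') *
          (th M i₀ - ∑ j, rhoK p h1 U k' (a j 0) * th M j) = 0 := by
        rw [mul_sub, Finset.mul_sum, ← h2]
        congr 1
        refine Finset.sum_congr rfl fun j _ => ?_
        ring
      rcases mul_eq_zero.1 h3 with h4 | h4
      · exact absurd h4 (hwne k')
      · exact sub_eq_zero.1 h4
    · intro ζ' hζ'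
      obtain ⟨ζ, hζ⟩ : ∃ ζ : C, ζ = (frob p C ^ (-(k' : ℤ))) ζ' := ⟨_, rfl⟩
      have e1 : ζ ^ p ^ h = ζ := by rw [hζ, ← map_pow, hζ']
      have e2 : ζ ^ p ^ k' = ζ' := by rw [hζ, frob_zpow_neg_pow]
      have e3 : ∀ q, theta p U h ((ζ * w) ^ p ^ q) = U.T ζ ^ p ^ q * theta p U h (w ^ p ^ q) := by
        intro q
        rw [mul_pow, theta_smul, map_pow]
        rw [← pow_mul, mul_comm, pow_mul, e1]
      have e4 : ∀ k, U.T ζ ^ p ^ (k' + k) = U.T ζ' ^ p ^ k := by
        intro k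
        rw [pow_add, pow_mul, ← map_pow, e2]
      obtain ⟨z, hz⟩ := hsurj (ζ * w) (by
        rw [norm_mul]
        exact (mul_le_of_le_one_left (norm_nonneg _) (norm_le_one_of_pow_eq p hh e1)).trans_lt hw)
      have h3 := R3 k' M z
      rw [hz] at h3
      simp only [e3, e4] at h3
      have e5 : U.T ζ ^ p ^ k' = U.T ζ' := by rw [← map_pow, e2]
      rw [e5] at h3
      have h4 : ∑ k ∈ Finset.range h, (∑ j, rhoK p h1 U k' (a j k) *
          (theta p U h (w ^ p ^ (k' + k)) * th M j)) * U.T ζ' ^ p ^ k =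
          ∑ j, ∑ k ∈ Finset.range h, rhoK p h1 U k' (a j k) *
          (U.T ζ' ^ p ^ k * theta p U h (w ^ p ^ (k' + k)) * th M j) := by
        rw [Finset.sum_comm]
        refine Finset.sum_congr rfl fun k _ => ?_
        rw [Finset.sum_mul]
        refine Finset.sum_congr rfl fun j _ => ?_
        ring
      simp only [sub_mul, Finset.sum_sub_distrib]
      rw [h4, ← h3, Finset.sum_eq_single 0]
      · rw [if_pos rfl, pow_zero, pow_one]
        ring
      · intro k _ hk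
        rw [if_neg hk, zero_mul]
      · intro hk
        exact absurd (Finset.mem_range.2 hh) hk
  refine ⟨fun j => a j 0 - if j = i₀ then 1 else 0, ?_, fun k M => ?_⟩
  · simp only [if_true]
    rw [ha0 i₀ rfl]
    simp
  · have h2 := R4 k M
    simp only [map_sub, sub_mul, Finset.sum_sub_distrib]
    have h3 : ∀ j, theta p U n ((t j).1 ^ p ^ M) = th M j := fun j => by rw [hth]
    simp only [h3]
    rw [← h2, sub_eq_zero, Finset.sum_eq_single i₀]
    · simp
    · intro j _ hj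
      rw [if_neg hj, map_zero, zero_mul]
    · intro hh'
      exact absurd (Finset.mem_univ _) hh'

end Chai
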