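import Vale.Agent.Chai.Exp
import Vale.Agent.Chai.JMod
import Vale.Agent.Chai.ThetaAsm

/-!
# P217 / Theta: an endomorphism relation forces a `ℤ_p`-linear relation (untilt / Honda logarithms)

OWNER: helper23 (done, with ThetaDefs, ThetaFrob, ThetaLog, ThetaFun, ThetaQ, ThetaAsm; ThetaW, ThetaHom,
ThetaRel by helper29, ThetaLow by helper27, UntiltData by helper6)

Setting: `C` complete, alg. closed, char `p`, `x` of height `h < n`, `β : F_x → Γ_h`, `β'(0) ≠ 0`,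
`ℓ = β ∘ exp_x : Γ_n(m_C) → Γ_h(m_C)` additive, `ℓ(z^{p^n}) = ℓ(z)^{p^h}`.  `t_j ∈ ker exp_x`.
Relation: `ℓ(ζ φ^l t_{i₀}) = ∑_{j≠i₀} g_j(ℓ(ζ φ^l t_j))` for all `ζ ∈ F_{p^n}`, `l ≥ 0`,
`g_j` endomorphisms of `Γ_h` over `𝔽 = F_{p^h}`.
CLAIM: `∑ c_j t_j = p s` with `c_j ∈ ℤ` not all divisible by `p`, `s ∈ ker exp_x`.

PROOF.  `τ := x_j` of maximal norm (`1 ≤ j < n`), so `F_x ≡ Γ_n mod τ`.  `A := W(O_C)/(p - [τ])`.
(i)  `A` is `p`-torsion free, `p`-adically complete, `A/p = O_C/τ`, a domain: every nonzero element is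
     `[y] · unit`, and `[y]` divides a power of `[τ] = p`.  `L := Frac A`.  `[·] : O_C → A` multiplicative.
(ii) For `z ∈ m_C`: `Θ_n(z) := ∑_{i∈ℤ} [z^{p^{ni}}] p^{-i} ∈ A[1/p]` `= lim_K p^K log_n([z^{1/p^{nK}}])`,
     `log_n(X) = ∑_{i≥0} X^{p^{ni}}/p^i` the logarithm of the integral Honda group (`hazF` over `ℤ`).
     `Θ_n(z +_Γ z') = Θ_n(z) + Θ_n(z')` (`[z_K +_Γ z'_K] ≡ [z_K] +_Γ̂ [z'_K] mod p`, and
     `a ≡ b mod p ⇒ log_n a ≡ log_n b mod p`), `Θ_n(z^{p^n}) = p Θ_n(z)`, `Θ_n(ζ z) = [ζ] Θ_n(z)` for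
     `ζ^{p^n} = ζ`.  If `n ≥ 2` and `z ≠ 0` then `Θ_n(z) ≠ 0` or `Θ_n(z^p) ≠ 0` (the terms have
     valuations `p^{ni} v(z) - i`, `v(τ)=1`; the minimum is attained once unless
     `v(z) p^{ni}(p^n - 1) = 1` for some `i`, which cannot hold for both `z` and `z^p`; then
     `Θ = p^{-M} [ζ₀] · (1 + topologically nilpotent)`).
(iii) CLAIM Q'. `B` a `p`-adically complete `p`-torsion free ring, `g ∈ B[1/p][[X]]`, `g(0) = 0`,
     `g(Γ̂_n(X,Y)) - g(X) - g(Y) ∈ B[[X,Y]]`.  Then `g = ∑_{k<n} c_k log_n(X^{p^k}) + g_0`,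
     `c_k ∈ B[1/p]`, `g_0 ∈ B[[X]]`.  Induction on the degree `m` of the lowest term `g_m X^m`: the
     degree `m` part of the hypothesis is `g_m ((X+Y)^m - X^m - Y^m)`; if `m` is not a power of `p` some
     binomial is prime to `p`, so `g_m ∈ B`: subtract `g_m X^m`; if `m = p^a` then `p g_m ∈ B` (`a ≥ 1`):
     subtract `g_m log_n(X^{p^a})` (note `log_n(X^{p^a})/p` satisfies the hypothesis for `a ≥ 1`).
     Finally `log_n(X^{p^{a+n}}) = p log_n(X^{p^a}) - p X^{p^a}` and `p`-adic completeness collect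
     the terms `a ≡ k mod n`.
(iv) `ℓ(z) ≡ β(z) mod τ` for all `z`.  Let `β^ ∈ A[[X]]` lift `β mod τ`; `g = log_h(β^)` satisfies the
     hypothesis of Q' (as `β mod τ : Γ_n → Γ_h` is a homomorphism).  Evaluate `p^K g` at `[z_K]`, `K → ∞`:
     `Θ_h(ℓ(z)^{p^k}) = ∑_{m<n} c_{km} Θ_n(z^{p^m})` for `k = 0..h-1` (apply this to `φ^k ∘ β`).
     Similarly for an endomorphism `g` of `Γ_h` over `𝔽` (Q' over `W(𝔽)`):
     `Θ_h(g(y)^{p^{k'}}) = ∑_{k<h} σ^{k'}(a_k) Θ_h(y^{p^{k+k'}})`, `a_k ∈ W(𝔽)[1/p] ⊂ L`, `σ` = Frobenius.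
(v)  The `h × n` matrix `c` has rank `h`: if `∑_k y_k c_{km} = 0` for all `m` then
     `∑_k y_k Θ_h(ℓ(z)^{p^k}) = 0` for all `z`; `ℓ` takes all small values `w` (`exp_x` surjective,
     `β` locally invertible: `exists_ev1_eq`), replace `w` by `ζ w`, `ζ ∈ 𝔽`: independence of the
     characters `ζ ↦ [ζ]^{p^k}` gives `y_k Θ_h(w^{p^k}) = 0`, so `y_k = 0`.
(vi) Apply `Θ_h(·^{p^{k'}})` to the relation, expand, and use independence of the characters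
     `ζ ↦ [ζ]^{p^m}` of `F_{p^n}^*` and (v):
     `Θ_n(t_{i₀}^{p^M}) = ∑_{j≠i₀} σ^{k'}(a_{j0}) Θ_n(t_j^{p^M})` for all `M` and all `k' = 0..h-1`
     (coefficient of `Θ_h(·^{p^{k'}})`).  Sum over `k'`: `h Θ_n(t_{i₀}^{p^M}) = ∑_j Tr(a_{j0}) Θ_n(t_j^{p^M})`
     with `Tr(a_{j0}) ∈ ℚ_p`.  Clear denominators: `∑_j α_j Θ_n(t_j^{p^M}) = 0`, `α_j ∈ ℤ_p` not all
     divisible by `p` (divide by powers of `p`; `L` has char 0).  `Γ_n(m_C)` is a `ℤ_p`-module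
     (`p^K • z = z^{p^{nK}} → 0`) and `Θ_n` is `ℤ_p`-linear, so `∑ α_j t_j = 0` by (ii).  Write
     `α_j = c_j + p α'_j`, `c_j ∈ ℤ`, `s = -∑ α'_j t_j ∈ ker exp_x` (closed subgroup).
-/

namespace Chai

open MvPowerSeries Filter Topology

universe u

section limit

variable (p : ℕ) [hp : Fact p.Prime]
variable {C : Type u} [NontriviallyNormedField C] [IsUltrametricDist C] [CompleteSpace C]
variable [CharP C p] [IsAlgClosed C]
variable {τ : OC C} {L : Type u} [NontriviallyNormedField L] [IsUltrametricDist L]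
variable [CompleteSpace L] [CharZero L]

/-- from approximate relations to an exact one -/
theorem theta_limit (U : UntiltData p C τ L) (h0 : (τ : C) ≠ 0) (h1 : ‖(τ : C)‖ < 1) {n : ℕ}
    (hn : 2 ≤ n) (hn1 : 1 ≤ n) {x : Ball C} {ι : Type*} [Fintype ι]
    (t : ι → (FC p n (0 : Ball C)).Pt) (ht : ∀ j, expm p hn1 x (t j) = 0) (α : ι → ℤ_[p])
    (hα : ∃ j, ¬ (p : ℤ_[p]) ∣ α j)
    (H : ∀ M K : ℕ, ∀ c : ι → ℤ, (∀ j, (p : ℤ_[p]) ^ K ∣ α j - c j) → ∀ B : ℝ, 0 ≤ B →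
      (∀ j, ‖theta p U n ((t j).1 ^ p ^ M)‖ ≤ B) →
      ‖∑ j, (c j : L) * theta p U n ((t j).1 ^ p ^ M)‖ ≤ ‖(p : L)‖ ^ K * B) :
    ∃ (c : ι → ℤ) (s : (FC p n (0 : Ball C)).Pt), expm p hn1 x s = 0 ∧
      ∑ j, c j • t j = p • s ∧ ∃ j, ¬ (p : ℤ) ∣ c j := by
  have hp1 := norm_p_lt_one p U h0 h1
  -- approximations
  obtain ⟨c, hc⟩ : ∃ c : ℕ → ι → ℕ, c = fun K j => (α j).appr K := ⟨_, rfl⟩
  have hcspec : ∀ K j, (p : ℤ_[p]) ^ K ∣ α j - ((c K j : ℤ) : ℤ_[p]) := by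
    intro K j
    have h2 := PadicInt.appr_spec K (α j)
    rw [Ideal.mem_span_singleton] at h2
    rw [hc]
    simpa using h2
  have hd : ∀ K j, ∃ d : ℕ, c (K + 1) j = c 1 j + p * d := by
    intro K j
    obtain ⟨d, hd⟩ := PadicInt.dvd_appr_sub_appr (α j) 1 (K + 1) (by omega)
    have h2 := PadicInt.appr_mono (α j) (show 1 ≤ K + 1 by omega)
    refine ⟨d, ?_⟩
    rw [pow_one] at hd
    rw [hc]
    simp only
    omega
  choose d hd using hd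
  obtain ⟨s, hs⟩ : ∃ s : ℕ → (FC p n (0 : Ball C)).Pt, s = fun K => ∑ j, c K j • t j := ⟨_, rfl⟩
  obtain ⟨v, hv⟩ : ∃ v : ℕ → (FC p n (0 : Ball C)).Pt, v = fun K => ∑ j, d K j • t j := ⟨_, rfl⟩
  have hsv : ∀ K, s (K + 1) = s 1 + p • v K := by
    intro K
    rw [hs, hv]
    simp only
    rw [Finset.smul_sum, ← Finset.sum_add_distrib]
    refine Finset.sum_congr rfl fun j _ => ?_
    rw [hd, add_smul, mul_smul]
  have hvexp : ∀ K, expm p hn1 x (v K) = 0 := by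
    intro K
    rw [hv]
    simp only
    rw [map_sum]
    refine Finset.sum_eq_zero fun j _ => ?_
    rw [map_nsmul, ht, smul_zero]
  -- bounds
  have hbound : ∀ M : ℕ, ∃ B : ℝ, ∀ K, ‖theta p U n ((s K).1 ^ p ^ M)‖ ≤ ‖(p : L)‖ ^ K * B := by
    intro M
    refine ⟨∑ j, ‖theta p U n ((t j).1 ^ p ^ M)‖, fun K => ?_⟩
    have h2 := H M K (fun j => (c K j : ℤ)) (hcspec K) (∑ j, ‖theta p U n ((t j).1 ^ p ^ M)‖)
      (Finset.sum_nonneg fun _ _ => norm_nonneg _)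
      (fun j => Finset.single_le_sum (f := fun j => ‖theta p U n ((t j).1 ^ p ^ M)‖)
        (fun _ _ => norm_nonneg _) (Finset.mem_univ j))
    have h3 : theta p U n ((s K).1 ^ p ^ M) =
        ∑ j, ((c K j : ℤ) : L) * theta p U n ((t j).1 ^ p ^ M) := by
      have h4 : thetaHom p U h0 h1 hn1 M (s K) =
          ∑ j, ((c K j : ℤ) : L) * thetaHom p U h0 h1 hn1 M (t j) := by
        rw [hs]
        simp only
        rw [map_sum]
        refine Finset.sum_congr rfl fun j _ => ?_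
        rw [map_nsmul, nsmul_eq_mul]
        push_cast
        rfl
      exact h4
    rw [h3]
    exact h2
  have hslim : Tendsto (fun K => ‖(s K).1‖ ^ p) atTop (𝓝 0) := by
    obtain ⟨B0, hB0⟩ := hbound 0
    obtain ⟨B1, hB1⟩ := hbound 1
    have h2 : Tendsto (fun K : ℕ => ‖(p : L)‖ ^ K * max B0 B1) atTop (𝓝 (0 * max B0 B1)) :=
      (tendsto_pow_atTop_nhds_zero_of_lt_one (norm_nonneg _) hp1).mul_const _
    rw [zero_mul] at h2
    refine squeeze_zero (fun K => by positivity) (fun K => ?_) h2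
    refine (norm_theta_ge' p U h0 h1 hn (s K).2).trans (max_le ?_ ?_)
    · have h3 := hB0 K
      rw [pow_zero, pow_one] at h3
      exact h3.trans (mul_le_mul_of_nonneg_left (le_max_left _ _) (by positivity))
    · have h3 := hB1 K
      rw [pow_one] at h3
      exact h3.trans (mul_le_mul_of_nonneg_left (le_max_right _ _) (by positivity))
  -- the limit
  obtain ⟨w, hw⟩ := exists_p_root p hn1 1 (-s 1)
  rw [pow_one] at hw
  have hwv : ∀ K, (w - v K).1 ^ p ^ n = (-s (K + 1)).1 := by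
    intro K
    rw [← nsmul_p_honda p hn1, smul_sub, hw, hsv K]
    congr 1
    abel
  have hexp : expm p hn1 x w = 0 := by
    refine Subtype.ext ?_
    rw [CFG.zero_val, ← norm_le_zero_iff]
    refine le_of_forall_pos_le_add fun ε hε => ?_
    rw [zero_add]
    obtain ⟨η, hη, hsmall⟩ := expm_small p hn1 x hε
    have hev : ∀ᶠ K in atTop, ‖(s K).1‖ ^ p ≤ (η ^ p ^ n) ^ p :=
      hslim.eventually_le_const (by positivity)
    obtain ⟨K, hK⟩ := (hev.and (eventually_ge_atTop 1)).exists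
    obtain ⟨K', rfl⟩ : ∃ K', K = K' + 1 := ⟨K - 1, by omega⟩
    have h2 : ‖(s (K' + 1)).1‖ ≤ η ^ p ^ n :=
      le_of_pow_le_pow_left₀ hp.out.ne_zero (by positivity) hK.1
    have h3 : ‖(w - v K').1‖ ≤ η := by
      refine le_of_pow_le_pow_left₀ (pow_ne_zero n hp.out.ne_zero) hη.le ?_
      rw [← norm_pow, hwv, CFG.norm_neg]
      exact h2
    have h4 := hsmall _ h3
    rw [map_sub, hvexp, sub_zero] at h4
    exact h4
  refine ⟨fun j => (c 1 j : ℤ), -w, ?_, ?_, ?_⟩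
  · rw [map_neg, hexp, neg_zero]
  · have h2 : ∑ j, ((c 1 j : ℤ)) • t j = s 1 := by
      rw [hs]
      simp only [natCast_zsmul]
    rw [h2, smul_neg, hw, neg_neg]
  · obtain ⟨j, hj⟩ := hα
    refine ⟨j, fun hdvd => hj ?_⟩
    have h2 := hcspec 1 j
    rw [pow_one] at h2
    have h3 : (p : ℤ_[p]) ∣ ((c 1 j : ℤ) : ℤ_[p]) := by
      have := map_dvd (Int.castRingHom ℤ_[p]) hdvd
      simpa using this
    have h4 := dvd_add h2 h3
    rwa [sub_add_cancel] at h4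

end limit

variable (p : ℕ) [Fact p.Prime]
variable {C : Type*} [NontriviallyNormedField C] [IsUltrametricDist C] [CompleteSpace C]
variable [CharP C p] [IsAlgClosed C]
variable {𝔽 : Type*} [Field 𝔽] [Fintype 𝔽] [Algebra 𝔽 C]

theorem theta_main {h n : ℕ} (hn : 1 ≤ n) {x : Ball C} (hx : HasHeight h n x)
    (hcard : Fintype.card 𝔽 = p ^ h)
    (β : CHom (FC p n x) (FC p h 0)) (hβ : PowerSeries.coeff 1 β.ps ≠ 0)
    {ι : Type*} [Fintype ι] [DecidableEq ι] (t : ι → (FC p n (0 : Ball C)).Pt)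
    (ht : ∀ j, expm p hn x (t j) = 0) (i₀ : ι) (g : ι → PowerSeries 𝔽)
    (hg : ∀ j, IsHom (g j) (hazF p (prm h 0)) (hazF p (prm h 0))) (hg0 : g i₀ = 0)
    (H : ∀ (ζ : C) (hζ : ζ ^ p ^ n = ζ) (l : ℕ),
      β.map (expm p hn x (hendo p n ζ hζ l (t i₀))) =
        ∑ j, (homF p (g j) (hg j)).map (β.map (expm p hn x (hendo p n ζ hζ l (t j))))) :
    ∃ (c : ι → ℤ) (s : (FC p n (0 : Ball C)).Pt), expm p hn x s = 0 ∧
      ∑ j, c j • t j = p • s ∧ ∃ j, ¬ (p : ℤ) ∣ c j := by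
  have hh : 1 ≤ h := hx.one_le
  have hlt := hx.lt
  have hchar : CharP 𝔽 p := (Algebra.charP_iff 𝔽 C p).2 inferInstance
  -- the parameter of maximal norm
  obtain ⟨j₀, hj₀, hmax⟩ := Finset.exists_max_image (Finset.Ico 1 n) (fun j => ‖x.1 j‖)
    ⟨h, Finset.mem_Ico.2 ⟨hh, hlt⟩⟩
  obtain ⟨τ, hτ⟩ : ∃ τ : OC C, (τ : C) = x.1 j₀ := ⟨⟨x.1 j₀, (x.2 j₀).le⟩, rfl⟩
  have hsize : SizeLE n x ‖(τ : C)‖ := by
    intro j h2 h3
    rw [hτ]
    exact hmax j (Finset.mem_Ico.2 ⟨h2, h3⟩)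
  have h1 : ‖(τ : C)‖ < 1 := by
    rw [hτ]
    exact x.2 j₀
  have h0 : (τ : C) ≠ 0 := by
    have h2 := hsize h hh hlt
    intro h3
    rw [h3, norm_zero, norm_le_zero_iff] at h2
    exact hx.ne h2
  obtain ⟨L, i1, i2, i3, i4, ⟨U⟩⟩ := exists_untilt p τ h0 h1
  obtain ⟨b, hb0, hb⟩ := theta_elim p U h0 h1 hn hh hsize hcard β hβ t i₀ g hg hg0 H
  obtain ⟨α, hα, hα2⟩ := descent_Zp p hcard h0 h1 U b i₀ hb0
    (Set.range fun M : ℕ => fun j => theta p U n ((t j).1 ^ p ^ M)) (by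
      rintro θ ⟨M, rfl⟩ k _
      exact hb k M)
  exact theta_limit p U h0 h1 (by omega) hn t ht α hα fun M K c hc B hB0 hB =>
    hα2 _ ⟨M, rfl⟩ K c hc B hB0 hB

end Chai
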