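import Vale.Agent.Chai.DensityF
import Vale.Agent.Chai.Beta
import Vale.Agent.Chai.KS
import Vale.Agent.Chai.JMod
import Vale.Agent.Chai.Theta

/-!
# P217 / Density: density of orbits in the height strata (characteristic `p`)
-/

namespace Chai

open MvPowerSeries Filter Topology

variable {p : ℕ} [Fact p.Prime] {n : ℕ}
variable {C : Type*} [NontriviallyNormedField C] [IsUltrametricDist C] [CompleteSpace C]
  [CharP C p] [IsAlgClosed C] {χ : E0 p n →+* C}

/-- `𝔽_q → C` -/
theorem exists_galois_hom (h : ℕ) : Nonempty (GaloisField p h →+* C) := by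
  letI : Algebra (ZMod p) C := ZMod.algebra C p
  exact ⟨(IsAlgClosed.lift : GaloisField p h →ₐ[ZMod p] C).toRingHom⟩

theorem density (hn : 1 ≤ n) (hχ : IsPoint p n χ) {h : ℕ} (h1 : 1 ≤ h) (hh : h < n)
    (hx0 : ∀ j, 1 ≤ j → j < h → χ (uE p n j) = 0) (hxh : χ (uE p n h) ≠ 0) {f : E0 p n}
    (hf : ∀ (φ : E0 p n ≃+* E0 p n) (ψ : PowerSeries (E0 p n)),
      IsIsoFG ψ ((univF p n).map (φ : E0 p n →+* E0 p n)) (univF p n) →
      (∀ w, φ (MvPowerSeries.C w) = MvPowerSeries.C w) → χ (φ f) = 0) :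
    f ∈ heightIdeal p n h := by
  classical
  have hp := (Fact.out : p.Prime)
  by_contra hfI
  obtain ⟨κ, hκ⟩ := exists_kappa χ
  have hx : HasHeight h n (ptB hχ) := ⟨h1, hh, hx0, hxh⟩
  obtain ⟨β, hβ⟩ := exists_beta_C p hx
  obtain ⟨t, Q, ht, hQ, hQev, hdet, hKS⟩ := exists_KS p hn hx
  have hred : redH κ h1 f ≠ 0 := fun h0 => hfI (mem_heightIdeal_of_redH κ h1 h0)
  obtain ⟨ft, hft, hftev, -, -⟩ := exists_shift (bdd_redH κ h1 f)
    (c := fun i : Idx h n => (ptB hχ).1 i.1) (fun i => (ptB hχ).2 i.1)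
  have hft0 : ft ≠ 0 := shift_ne_zero (bdd_redH κ h1 f) (fun i => (ptB hχ).2 i.1) hftev hred
  let D : FData (Idx h n) C :=
    { Q := Q
      Qbdd := hQ
      Q0 := by
        intro i
        have e := hQev i (fun _ => 0) (by simp)
        rw [ev_at_zero, shiftB_zero, ht i] at e
        exact e.symm.trans (CFG.zero_val _)
      det := hdet
      V := Vser p h n (ptB hχ)
      Vbdd := bdd_Vser p h n _
      V0 := Vser_zero p h n _
      V1 := by rw [Vser_one p h1 hh]; exact hxh
      b0 := fun N => PowerSeries.coeff N β.ps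
      b00 := by
        rw [PowerSeries.coeff_zero_eq_constantCoeff_apply]
        exact β.isHom.1
      b01 := hβ
      ft := ft
      ftbdd := hft
      ft0 := hft0 }
  -- the field with `q` elements
  haveI : Fintype (GaloisField p h) := Fintype.ofFinite _
  have hcard : Fintype.card (GaloisField p h) = p ^ h := by
    rw [← Nat.card_eq_fintype_card]; exact GaloisField.card p h (by omega)
  obtain ⟨ι⟩ := exists_galois_hom (p := p) (C := C) h
  letI : Algebra (GaloisField p h) C := ι.toAlgebra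
  obtain ⟨fh, hfh0, hfh⟩ := exists_fhat p h h1 D
  obtain ⟨d, hd⟩ : ∃ d, coeff d fh ≠ 0 := by
    by_contra hcon
    push Not at hcon
    exact hfh0 (MvPowerSeries.ext fun d => by rw [hcon d, map_zero])
  obtain ⟨l, hl⟩ : ∃ l : C →ₗ[GaloisField p h] GaloisField p h, l (coeff d fh) ≠ 0 := by
    by_contra hcon
    push Not at hcon
    exact hd ((Module.forall_dual_apply_eq_zero_iff (GaloisField p h) (coeff d fh)).1 hcon)
  -- the additive maps `w_i`
  let w : Idx h n → endA (C := C) κ →+ (FC p h (0 : Ball C)).Pt := fun i =>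
    ((β.map.comp (expm p hn (ptB hχ))).comp (AddMonoidHom.eval (t i))).comp (endA κ).subtype
  have hw : ∀ i (b : endA (C := C) κ), w i b = β.map (expm p hn (ptB hχ) (b.1 (t i))) :=
    fun i b => rfl
  have hJ : ∃ G : MvPowerSeries (Idx h n) (GaloisField p h), G ≠ 0 ∧
      ∀ a, ev (fun i => (w i a).1) (G.map (algebraMap (GaloisField p h) C)) = 0 := by
    refine ⟨mapLin l fh, ?_, ?_⟩
    · intro h0
      apply hl
      have := congrArg (coeff d) h0
      rw [map_zero] at this
      exact this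
    · rintro ⟨b, hb⟩
      obtain ⟨g, hg, rfl⟩ := (mem_endA κ).1 hb
      obtain ⟨S, hS⟩ := exists_SData hn hχ h1 hh hx0 hκ hf β ht D (fun i δ hδ => hQev i δ hδ)
        (fun _ => rfl) (fun _ => rfl) hftev hg
      have h2 := descent_series hcard fh S.wlt (hfh S) l
      have hB : Bdd ((mapLin l fh).map (algebraMap (GaloisField p h) C)) := by
        intro e
        rw [coeff_map]
        exact norm_kappa_le (p := p) (n := h) (algebraMap (GaloisField p h) C) _
      have h3 := ev_frob p h (a := fun i => (w i ⟨(homK κ g hg).map, hb⟩).1)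
        (fun i => (w i ⟨(homK κ g hg).map, hb⟩).2) hB
      have h4 : ((mapLin l fh).map (algebraMap (GaloisField p h) C)).map (iterateFrobenius C p h) =
          (mapLin l fh).map (algebraMap (GaloisField p h) C) := by
        ext e
        rw [coeff_map, coeff_map, iterateFrobenius_def, ← map_pow, ← hcard, FiniteField.pow_card]
      have h5 : (fun i => (w i ⟨(homK κ g hg).map, hb⟩).1 ^ p ^ h) = S.w := by
        funext i
        rw [hS i, hw]
      rw [h4, h5, h2] at h3
      exact pow_eq_zero_iff (pow_ne_zero _ hp.ne_zero) |>.1 h3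
  obtain ⟨i₀, g, hg, hg0, hrel⟩ := exists_relation p h1 hcard w hJ
  obtain ⟨c, s, hs, hcs, j, hj⟩ := theta_main p hn hx hcard β hβ t ht i₀ g hg hg0 (by
    intro ζ hζ m
    exact hrel ⟨hendo p n ζ hζ m, hendo_mem_endA κ hn hζ m⟩)
  exact hj (hKS c s hs hcs j)

end Chai
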