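import Vale.Agent.Chai.Core

/-!
# P217 / Trunc: finite truncations `evN N a f = ∑_{|d| ≤ N} f_d a^d`

OWNER: helper10
-/

namespace Chai

open MvPowerSeries Filter Topology

section
variable {C : Type*} [NontriviallyNormedField C]
variable {ι : Type*} [Fintype ι] [DecidableEq ι]

variable (ι) in
/-- exponents of degree `≤ N` -/
noncomputable def degLE (N : ℕ) : Finset (ι →₀ ℕ) :=
  (Finset.range (N + 1)).biUnion fun k => Finset.finsuppAntidiag Finset.univ k

theorem mem_degLE {N : ℕ} {d : ι →₀ ℕ} : d ∈ degLE ι N ↔ d.degree ≤ N := by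
  unfold degLE
  simp only [Finset.mem_biUnion, Finset.mem_range, Finset.mem_finsuppAntidiag, and_true,
    Finset.subset_univ]
  rw [Finsupp.degree_eq_sum]
  constructor
  · rintro ⟨k, hk, h⟩
    have h' : ∑ i, d i = k := h
    omega
  · intro h
    exact ⟨∑ i, d i, by omega, rfl⟩

/-- truncated evaluation -/
noncomputable def evN (N : ℕ) (a : ι → C) (f : MvPowerSeries ι C) : C :=
  ∑ d ∈ degLE ι N, coeff d f * d.prod fun i e => a i ^ e

theorem norm_ev_sub_evN_le [IsUltrametricDist C] [CompleteSpace C] {f : MvPowerSeries ι C}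
    (hf : Bdd f) {a : ι → C} (ha : ∀ i, ‖a i‖ < 1) (N : ℕ) :
    ‖ev a f - evN N a f‖ ≤ ‖a‖ ^ (N + 1) := by
  obtain ⟨P, hP⟩ : ∃ P, P = f.truncTotal (N + 1) := ⟨_, rfl⟩
  have bP : Bdd (P : MvPowerSeries ι C) := by rw [hP]; exact hf.truncTotal _
  have h1 : evN N a f = ev a (P : MvPowerSeries ι C) := by
    unfold evN ev
    rw [tsum_eq_sum (s := degLE ι N)]
    · refine Finset.sum_congr rfl fun d hd => ?_
      rw [MvPolynomial.coeff_coe, hP, coeff_truncTotal _ (Nat.lt_succ_of_le (mem_degLE.mp hd))]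
    · intro d hd
      rw [mem_degLE, not_le] at hd
      rw [MvPolynomial.coeff_coe, hP, coeff_truncTotal_eq_zero _ hd, zero_mul]
  rw [h1, ← ev_sub ha hf bP]
  refine norm_ev_le_pow ha (hf.sub bP) (norm_le_pi_norm a) (norm_nonneg _) fun d hd => ?_
  rw [hP]
  exact coeff_sub_truncTotal f _ d hd

end

end Chai
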