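import Vale.Agent.Chai.Setup
import Vale.Agent.Chai.Trunc
import Vale.Agent.Chai.Arc

/-!
# P217 / DensityA: points of `E_0` in `C` (char `p`) as evaluations of power series
-/

namespace Chai

open MvPowerSeries Filter Topology

variable {p : ℕ} [Fact p.Prime] {n : ℕ}

section Order

theorem X_mem_mE (a : Fin (n - 1)) : (X a : E0 p n) ∈ mE p n := by
  unfold mE resE
  rw [RingHom.mem_ker]
  simp

theorem uE_mem_mE (j : ℕ) : uE p n j ∈ mE p n := by
  unfold uE
  split_ifs
  · exact X_mem_mE _
  · exact zero_mem _

/-- a series without terms of degree `< N` lies in `𝔪^N` -/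
theorem mem_mE_pow_of_order (N : ℕ) (f : E0 p n) (hf : ∀ d, d.degree < N → coeff d f = 0) :
    f ∈ mE p n ^ N := by
  classical
  induction N generalizing f with
  | zero => simp
  | succ N ih =>
    have key : ∀ s : Finset (Fin (n - 1)), ∀ g : E0 p n, (∀ d, d.degree < N + 1 → coeff d g = 0) →
        (∀ d, (∀ i ∈ s, d i = 0) → coeff d g = 0) → g ∈ mE p n ^ (N + 1) := by
      intro s
      induction s using Finset.induction_on with
      | empty =>
        intro g _ hg
        have : g = 0 := by
          refine MvPowerSeries.ext fun d => ?_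
          rw [hg d (by simp), map_zero]
        rw [this]
        exact zero_mem _
      | insert a s ha ihs =>
        intro g hg hg2
        let g2 : E0 p n := fun d => if d a = 0 then coeff d g else 0
        have hg2c : ∀ d, coeff d g2 = if d a = 0 then coeff d g else 0 := fun d => rfl
        have hdvd : X a ∣ g - g2 := by
          rw [X_dvd_iff]
          intro m hm
          rw [map_sub, hg2c, if_pos hm, sub_self]
        obtain ⟨g1, hg1⟩ := hdvd
        have h1 : g1 ∈ mE p n ^ N := by
          apply ih
          intro d hd
          have e : coeff (Finsupp.single a 1 + d) (X a * g1) = coeff d g1 := by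
            have := coeff_add_monomial_mul (σ := Fin (n - 1)) (Finsupp.single a 1) d g1
              (1 : WittVector p (GaloisField p n))
            rw [one_mul] at this
            exact this
          rw [← e, ← hg1, map_sub, hg2c, if_neg (by simp), sub_zero]
          apply hg
          rw [map_add, Finsupp.degree_single]
          omega
        have h2 : g2 ∈ mE p n ^ (N + 1) := by
          apply ihs
          · intro d hd
            rw [hg2c]
            split_ifs
            · exact hg d hd
            · rfl
          · intro d hd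
            rw [hg2c]
            split_ifs with h0
            · apply hg2
              intro i hi
              rcases Finset.mem_insert.1 hi with rfl | hi
              · exact h0
              · exact hd i hi
            · rfl
        have : g = X a * g1 + g2 := by rw [← hg1]; ring
        rw [this]
        refine add_mem ?_ h2
        rw [pow_succ']
        exact Ideal.mul_mem_mul (X_mem_mE a) h1
    exact key Finset.univ f hf (by
      intro d hd
      have : d = 0 := by
        ext i
        simpa using hd i (Finset.mem_univ _)
      subst this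
      exact hf 0 (by simp))

end Order

section Point

variable {C : Type*} [NontriviallyNormedField C] [CharP C p] (χ : E0 p n →+* C)

/-- the residual embedding `κ : k → C` -/
theorem exists_kappa : ∃ κ : GaloisField p n →+* C,
    ∀ w : WittVector p (GaloisField p n), χ (MvPowerSeries.C w) = κ (WittVector.constantCoeff w) := by
  have hker : RingHom.ker (WittVector.constantCoeff (p := p) (R := GaloisField p n)) ≤
      RingHom.ker (χ.comp (MvPowerSeries.C (σ := Fin (n - 1)))) := by
    rw [WittVector.ker_constantCoeff, Ideal.span_le, Set.singleton_subset_iff, SetLike.mem_coe,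
      RingHom.mem_ker, map_natCast]
    exact CharP.cast_eq_zero _ p
  refine ⟨RingHom.liftOfSurjective _ (WittVector.constantCoeff_surjective p)
    ⟨χ.comp MvPowerSeries.C, hker⟩, fun w => ?_⟩
  exact (RingHom.liftOfRightInverse_comp_apply _ _
    (Function.rightInverse_surjInv (WittVector.constantCoeff_surjective p))
    ⟨χ.comp MvPowerSeries.C, hker⟩ w).symm

variable [IsUltrametricDist C] [CompleteSpace C]

omit [CharP C p] [IsUltrametricDist C] [CompleteSpace C] in
theorem norm_kappa_le (κ : GaloisField p n →+* C) (a : GaloisField p n) : ‖κ a‖ ≤ 1 := by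
  classical
  have : Fintype (GaloisField p n) := Fintype.ofFinite _
  by_cases ha : a = 0
  · simp [ha]
  · have h1 : a ^ (Fintype.card (GaloisField p n) - 1) = 1 := FiniteField.pow_card_sub_one_eq_one a ha
    have h2 : Fintype.card (GaloisField p n) - 1 ≠ 0 := by
      have := Fintype.one_lt_card (α := GaloisField p n)
      omega
    have h3 : ‖κ a‖ ^ (Fintype.card (GaloisField p n) - 1) = 1 := by
      rw [← norm_pow, ← map_pow, h1, map_one, norm_one]
    exact (pow_eq_one_iff_of_nonneg (norm_nonneg _) h2).1 h3 |>.le

omit [IsUltrametricDist C] [CompleteSpace C] [CharP C p] in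
/-- `χ(a) ≡ κ(res a)` -/
theorem norm_sub_kappa_le {κ : GaloisField p n →+* C}
    (hκ : ∀ w, χ (MvPowerSeries.C w) = κ (WittVector.constantCoeff w)) {ρ : ℝ}
    (hρ : ∀ j, ∀ f ∈ mE p n ^ j, ‖χ f‖ ≤ ρ ^ j) (a : E0 p n) : ‖χ a - κ (resE p n a)‖ ≤ ρ := by
  have h1 : κ (resE p n a) = χ (MvPowerSeries.C (MvPowerSeries.constantCoeff a)) := by
    rw [hκ]; rfl
  rw [h1, ← map_sub]
  have h2 : a - MvPowerSeries.C (MvPowerSeries.constantCoeff a) ∈ mE p n ^ 1 := by
    apply mem_mE_pow_of_order
    intro d hd
    have : d = 0 := by
      rw [← Finsupp.degree_eq_zero_iff]; omega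
    subst this
    simp
  simpa using hρ 1 _ h2

/-- embedding of the variables -/
def idxEmb {h : ℕ} (h1 : 1 ≤ h) : Idx h n ↪ Fin (n - 1) :=
  ⟨fun j => ⟨j.1 - 1, by have := Finset.mem_Ico.1 j.2; omega⟩, by
    intro i j hij
    have hi := Finset.mem_Ico.1 i.2
    have hj := Finset.mem_Ico.1 j.2
    have : i.1 - 1 = j.1 - 1 := by simpa using hij
    exact Subtype.ext (by omega)⟩

/-- reduction of `f` modulo `I_h` with coefficients in `K` -/
noncomputable def redH {K : Type*} [CommRing K] (κ : GaloisField p n →+* K) {h : ℕ} (h1 : 1 ≤ h)
    (f : E0 p n) : MvPowerSeries (Idx h n) K :=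
  fun d => κ (WittVector.constantCoeff (coeff (d.embDomain (idxEmb h1)) f))

omit [CharP C p] [IsUltrametricDist C] [CompleteSpace C] in
theorem coeff_redH {K : Type*} [CommRing K] (κ : GaloisField p n →+* K) {h : ℕ} (h1 : 1 ≤ h)
    (f : E0 p n) (d : Idx h n →₀ ℕ) : coeff d (redH κ h1 f) =
      κ (WittVector.constantCoeff (coeff (d.embDomain (idxEmb h1)) f)) := rfl

omit [CharP C p] [IsUltrametricDist C] [CompleteSpace C] in
theorem bdd_redH (κ : GaloisField p n →+* C) {h : ℕ} (h1 : 1 ≤ h) (f : E0 p n) :
    Bdd (redH κ h1 f) := fun d => norm_kappa_le κ _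

end Point

end Chai
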