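import Vale.Agent.Chai.DensityA

/-!
# P217 / DensityA2: `χ f = ev x (redH f)` and nonvanishing of `redH f`
-/

namespace Chai

open MvPowerSeries Filter Topology

variable {p : ℕ} [Fact p.Prime] {n : ℕ}

section Point

variable {C : Type*} [NontriviallyNormedField C] (χ : E0 p n →+* C)

/-- the truncation of `f` in degrees `≤ N` -/
noncomputable def truE (N : ℕ) (f : E0 p n) : E0 p n :=
  ∑ d ∈ degLE (Fin (n - 1)) N, monomial d (coeff d f)

theorem sub_truE_mem (N : ℕ) (f : E0 p n) : f - truE N f ∈ mE p n ^ (N + 1) := by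
  classical
  apply mem_mE_pow_of_order
  intro d hd
  unfold truE
  rw [map_sub, map_sum]
  simp_rw [coeff_monomial]
  rw [Finset.sum_ite_eq, if_pos (mem_degLE.2 (by omega)), sub_self]

theorem chi_monomial {κ : GaloisField p n →+* C}
    (hκ : ∀ w, χ (MvPowerSeries.C w) = κ (WittVector.constantCoeff w))
    (d : Fin (n - 1) →₀ ℕ) (w : WittVector p (GaloisField p n)) :
    χ (monomial d w) = κ (WittVector.constantCoeff w) * d.prod fun i e => χ (X i) ^ e := by
  classical
  have h1 : (monomial d w : E0 p n) = MvPowerSeries.C w * d.prod fun i e => X i ^ e := by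
    rw [MvPowerSeries.monomial_eq', MvPowerSeries.c_eq_algebraMap]
  rw [h1, map_mul, hκ, map_finsuppProd]
  simp_rw [map_pow]

variable [IsUltrametricDist C] [CompleteSpace C]

theorem norm_le_of_mE {ρ : ℝ} (hρ : ∀ j, ∀ f ∈ mE p n ^ j, ‖χ f‖ ≤ ρ ^ j) {f : E0 p n}
    (hf : f ∈ mE p n) : ‖χ f‖ ≤ ρ := by
  simpa using hρ 1 f (by simpa using hf)

theorem uE_idxEmb {h : ℕ} (h1 : 1 ≤ h) (i : Idx h n) : uE p n i.1 = X (idxEmb h1 i) := by
  have hi := Finset.mem_Ico.1 i.2
  unfold uE idxEmb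
  rw [dif_pos ⟨by omega, hi.2⟩]
  rfl

theorem uE_eq_X (a : Fin (n - 1)) : uE p n (a + 1) = X a := by
  unfold uE
  rw [dif_pos ⟨by omega, by omega⟩]
  rfl

/-- evaluation of the reduction -/
theorem chi_eq_ev {κ : GaloisField p n →+* C}
    (hκ : ∀ w, χ (MvPowerSeries.C w) = κ (WittVector.constantCoeff w)) (hχ : IsPoint p n χ)
    {h : ℕ} (h1 : 1 ≤ h) (hx : ∀ j, 1 ≤ j → j < h → χ (uE p n j) = 0) (f : E0 p n) :
    χ f = ev (fun i : Idx h n => χ (uE p n i.1)) (redH κ h1 f) := by
  classical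
  obtain ⟨ρ, hρ0, hρ1, hρ⟩ := hχ.cont
  have hlt : ∀ i : Idx h n, ‖χ (uE p n i.1)‖ ≤ ρ := fun i => norm_le_of_mE χ hρ (uE_mem_mE _)
  have hlt1 : ∀ i : Idx h n, ‖χ (uE p n i.1)‖ < 1 := fun i => (hlt i).trans_lt hρ1
  -- finite level
  have hN : ∀ N, χ (truE N f) = evN N (fun i : Idx h n => χ (uE p n i.1)) (redH κ h1 f) := by
    intro N
    unfold truE evN
    rw [map_sum]
    simp_rw [chi_monomial χ hκ, coeff_redH]
    symm
    apply Finset.sum_bij_ne_zero (fun d _ _ => d.embDomain (idxEmb h1))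
    · intro d hd _
      rw [mem_degLE] at hd ⊢
      refine le_trans (le_of_eq ?_) hd
      rw [Finsupp.embDomain_eq_mapDomain, Finsupp.degree_mapDomain]
    · intro d1 _ _ d2 _ _ he
      exact Finsupp.embDomain_injective _ he
    · intro d hd hne
      have hsup : ∀ a ∈ d.support, a ∈ Set.range (idxEmb (n := n) h1) := by
        intro a ha
        by_contra hna
        apply hne
        have h0 : χ (X a) = 0 := by
          rw [← uE_eq_X]
          refine hx _ (by omega) ?_
          by_contra hlt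
          apply hna
          refine ⟨⟨a + 1, Finset.mem_Ico.2 ⟨by omega, by omega⟩⟩, ?_⟩
          apply Fin.ext
          show a.1 + 1 - 1 = a.1
          omega
        rw [Finsupp.prod, Finset.prod_eq_zero ha, mul_zero]
        rw [h0, zero_pow (Finsupp.mem_support_iff.1 ha)]
      obtain ⟨e, he⟩ : ∃ e : Idx h n →₀ ℕ, e.embDomain (idxEmb h1) = d :=
        ⟨_, Finsupp.embDomain_comapDomain (f := idxEmb h1) (g := d) (fun a ha => hsup a ha)⟩
      refine ⟨e, ?_, ?_, he⟩
      · rw [mem_degLE] at hd ⊢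
        rw [← he, Finsupp.embDomain_eq_mapDomain, Finsupp.degree_mapDomain] at hd
        exact hd
      · rw [← he, Finsupp.prod_embDomain] at hne
        intro h0
        apply hne
        rw [← h0]
        congr 1
        apply Finsupp.prod_congr
        intro i _
        rw [uE_idxEmb h1]
    · intro d hd _
      congr 1
      rw [Finsupp.prod_embDomain]
      apply Finsupp.prod_congr
      intro i _
      rw [uE_idxEmb h1]
  refine sub_eq_zero.1 ?_
  rw [← norm_le_zero_iff]
  refine le_of_tendsto_of_tendsto' (b := atTop) (f := fun _ : ℕ => _)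
    (g := fun N : ℕ => ρ ^ (N + 1)) tendsto_const_nhds
    ((tendsto_pow_atTop_nhds_zero_of_lt_one hρ0 hρ1).comp (tendsto_add_atTop_nat 1)) ?_
  intro N
  have e1 : ‖χ f - χ (truE N f)‖ ≤ ρ ^ (N + 1) := by
    rw [← map_sub]; exact hρ _ _ (sub_truE_mem N f)
  have e2 : ‖ev (fun i : Idx h n => χ (uE p n i.1)) (redH κ h1 f) -
      evN N (fun i : Idx h n => χ (uE p n i.1)) (redH κ h1 f)‖ ≤ ρ ^ (N + 1) := by
    refine (norm_ev_sub_evN_le (bdd_redH κ h1 f) hlt1 N).trans ?_
    exact pow_le_pow_left₀ (norm_nonneg _) ((pi_norm_le_iff_of_nonneg hρ0).2 hlt) _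
  have e3 : χ f - ev (fun i : Idx h n => χ (uE p n i.1)) (redH κ h1 f) =
      (χ f - χ (truE N f)) - (ev (fun i : Idx h n => χ (uE p n i.1)) (redH κ h1 f) -
      evN N (fun i : Idx h n => χ (uE p n i.1)) (redH κ h1 f)) := by
    rw [hN]; ring
  rw [e3]
  exact (norm_sub_le_max' _ _).trans (max_le e1 e2)

end Point

end Chai
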