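import Vale.Agent.Chai.DensityA2

/-!
# P217 / DensityB: the height ideals are the kernels of `redH`; shifts of nonzero series
-/

namespace Chai

open MvPowerSeries Filter Topology

variable {p : ℕ} [Fact p.Prime] {n : ℕ}

theorem p_mem_heightIdeal {h : ℕ} (h1 : 1 ≤ h) : (p : E0 p n) ∈ heightIdeal p n h := by
  unfold heightIdeal
  rw [if_neg (by omega)]
  exact Ideal.subset_span (Or.inl rfl)

theorem uE_mem_heightIdeal {h : ℕ} {j : ℕ} (hj : 1 ≤ j) (hjh : j < h) :
    uE p n j ∈ heightIdeal p n h := by
  unfold heightIdeal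
  rw [if_neg (by omega)]
  exact Ideal.subset_span (Or.inr ⟨j, hj, hjh, rfl⟩)

section Red

variable {K : Type*} [Field K] (κ : GaloisField p n →+* K) {h : ℕ} (h1 : 1 ≤ h)

theorem redH_add (f g : E0 p n) : redH κ h1 (f + g) = redH κ h1 f + redH κ h1 g := by
  ext d
  rw [map_add, coeff_redH, coeff_redH, coeff_redH, map_add, map_add, map_add]

theorem redH_mul (f g : E0 p n) : redH κ h1 (f * g) = redH κ h1 f * redH κ h1 g := by
  classical
  ext d
  rw [coeff_redH, coeff_mul, coeff_mul, map_sum, map_sum]
  symm
  apply Finset.sum_bij (fun x _ => (x.1.embDomain (idxEmb h1), x.2.embDomain (idxEmb h1)))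
  · intro x hx
    have hx' := Finset.HasAntidiagonal.mem_antidiagonal.1 hx
    refine Finset.HasAntidiagonal.mem_antidiagonal.2 ?_
    rw [← hx']
    simp only [Finsupp.embDomain_eq_mapDomain]
    rw [Finsupp.mapDomain_add]
  · intro x _ y _ hxy
    have := Prod.mk.inj hxy
    exact Prod.ext (Finsupp.embDomain_injective _ this.1) (Finsupp.embDomain_injective _ this.2)
  · intro y hy
    replace hy := Finset.HasAntidiagonal.mem_antidiagonal.1 hy
    have hs : ∀ z : Fin (n - 1) →₀ ℕ, z ≤ d.embDomain (idxEmb (n := n) h1) →
        ∃ e : Idx h n →₀ ℕ, e.embDomain (idxEmb h1) = z := by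
      intro z hz
      refine ⟨_, Finsupp.embDomain_comapDomain (f := idxEmb h1) (g := z) ?_⟩
      intro a ha
      by_contra hna
      have := hz a
      rw [Finsupp.embDomain_of_notMem_range _ _ _ hna] at this
      exact (Finsupp.mem_support_iff.1 ha) (by omega)
    obtain ⟨e1, he1⟩ := hs y.1 (by rw [← hy]; exact le_self_add)
    obtain ⟨e2, he2⟩ := hs y.2 (by rw [← hy]; exact le_add_self)
    refine ⟨(e1, e2), ?_, Prod.ext he1 he2⟩
    refine Finset.HasAntidiagonal.mem_antidiagonal.2 ?_
    apply Finsupp.embDomain_injective (idxEmb (n := n) h1)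
    rw [← hy, ← he1, ← he2]
    simp only [Finsupp.embDomain_eq_mapDomain]
    rw [Finsupp.mapDomain_add]
  · intro x _
    rw [coeff_redH, coeff_redH, map_mul, map_mul]

theorem redH_C (w : WittVector p (GaloisField p n)) :
    redH κ h1 (MvPowerSeries.C w) = MvPowerSeries.C (κ (WittVector.constantCoeff w)) := by
  classical
  ext d
  rw [coeff_redH, coeff_C, coeff_C]
  by_cases hd : d = 0
  · rw [if_pos hd, if_pos (Finsupp.embDomain_eq_zero.2 hd)]
  · rw [if_neg hd, if_neg (fun h => hd (Finsupp.embDomain_eq_zero.1 h)), map_zero, map_zero]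

/-- `redH` as a ring homomorphism -/
noncomputable def redHom : E0 p n →+* MvPowerSeries (Idx h n) K where
  toFun := redH κ h1
  map_one' := by
    have := redH_C (n := n) κ h1 1
    rw [map_one, map_one, map_one, map_one] at this
    exact this
  map_zero' := by
    have := redH_C (n := n) κ h1 0
    rw [map_zero, map_zero, map_zero, map_zero] at this
    exact this
  map_add' := redH_add κ h1
  map_mul' := redH_mul κ h1

theorem redH_uE {j : ℕ} (hj : 1 ≤ j) (hjh : j < h) : redH κ h1 (uE p n j) = 0 := by
  classical
  ext d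
  rw [coeff_redH, map_zero]
  unfold uE
  split_ifs with hjn
  · rw [coeff_X, if_neg, map_zero, map_zero]
    intro he
    have h2 : d.embDomain (idxEmb (n := n) h1) ⟨j - 1, by omega⟩ = 0 := by
      apply Finsupp.embDomain_of_notMem_range
      rintro ⟨i, hi⟩
      have h3 := Finset.mem_Ico.1 i.2
      have h4 : i.1 - 1 = j - 1 := congrArg Fin.val hi
      omega
    rw [he, Finsupp.single_eq_same] at h2
    omega
  · simp

theorem redH_eq_zero_of_mem {f : E0 p n} (hf : f ∈ heightIdeal p n h) [CharP K p] :
    redH κ h1 f = 0 := by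
  have h2 : heightIdeal p n h ≤ RingHom.ker (redHom (n := n) κ h1) := by
    unfold heightIdeal
    rw [if_neg (by omega), Ideal.span_le]
    rintro a (ha | ⟨j, hj, hjh, rfl⟩)
    · rw [Set.mem_singleton_iff.1 ha, SetLike.mem_coe, RingHom.mem_ker, map_natCast]
      have : CharP (MvPowerSeries (Idx h n) K) p := by
        refine (CharP.charP_iff_prime_eq_zero (Fact.out : p.Prime)).2 ?_
        rw [← map_natCast (MvPowerSeries.C (σ := Idx h n) (R := K)), CharP.cast_eq_zero, map_zero]
      exact CharP.cast_eq_zero _ p
    · exact redH_uE κ h1 hj hjh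
  exact h2 hf

theorem mem_heightIdeal_of_redH {f : E0 p n} (hf : redH κ h1 f = 0) : f ∈ heightIdeal p n h := by
  classical
  have key : ∀ s : Finset (Fin (n - 1)), (∀ a ∈ s, a.1 + 1 < h) → ∀ g : E0 p n,
      (∀ d, (∃ a : Fin (n - 1), a.1 + 1 < h ∧ a ∉ s ∧ d a ≠ 0) → coeff d g = 0) →
      redH κ h1 g = 0 → g ∈ heightIdeal p n h := by
    intro s
    induction s using Finset.induction_on with
    | empty =>
      intro _ g hg hr
      have hdiv : ∀ d, ∃ w, coeff d g = (p : WittVector p (GaloisField p n)) * w := by
        intro d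
        by_cases hd : ∃ a : Fin (n - 1), a.1 + 1 < h ∧ a ∉ (∅ : Finset _) ∧ d a ≠ 0
        · exact ⟨0, by rw [hg d hd, mul_zero]⟩
        · obtain ⟨e, he⟩ : ∃ e : Idx h n →₀ ℕ, e.embDomain (idxEmb h1) = d := by
            refine ⟨_, Finsupp.embDomain_comapDomain (f := idxEmb h1) (g := d) ?_⟩
            intro a ha
            push Not at hd
            by_contra hna
            apply Finsupp.mem_support_iff.1 ha
            apply hd a _ (Finset.notMem_empty _)
            by_contra hlt
            apply hna
            refine ⟨⟨a + 1, Finset.mem_Ico.2 ⟨by omega, by omega⟩⟩, ?_⟩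
            apply Fin.ext
            show a.1 + 1 - 1 = a.1
            omega
          have h2 : coeff e (redH κ h1 g) = 0 := by rw [hr, map_zero]
          rw [coeff_redH, he] at h2
          have h3 : WittVector.constantCoeff (coeff d g) = 0 :=
            (map_eq_zero_iff κ κ.injective).1 h2
          have h4 : coeff d g ∈ RingHom.ker
              (WittVector.constantCoeff (p := p) (R := GaloisField p n)) := h3
          rw [WittVector.ker_constantCoeff, Ideal.mem_span_singleton] at h4
          exact h4
      choose w hw using hdiv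
      let w' : E0 p n := fun d => w d
      have : g = (p : E0 p n) * w' := by
        refine MvPowerSeries.ext fun d => ?_
        have h5 : (p : E0 p n) = MvPowerSeries.C (p : WittVector p (GaloisField p n)) := by
          rw [map_natCast]
        rw [h5, coeff_C_mul]
        exact hw d
      rw [this]
      exact Ideal.mul_mem_right _ _ (p_mem_heightIdeal h1)
    | insert a s ha ihs =>
      intro hs g hg hr
      let g2 : E0 p n := fun d => if d a = 0 then coeff d g else 0
      have hg2c : ∀ d, coeff d g2 = if d a = 0 then coeff d g else 0 := fun d => rfl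
      have hdvd : X a ∣ g - g2 := by
        rw [X_dvd_iff]
        intro m hm
        rw [map_sub, hg2c, if_pos hm, sub_self]
      obtain ⟨g1, hg1⟩ := hdvd
      have h2 : g2 ∈ heightIdeal p n h := by
        apply ihs (fun b hb => hs b (Finset.mem_insert_of_mem hb))
        · rintro d ⟨b, hb1, hb2, hb3⟩
          rw [hg2c]
          split_ifs with h0
          · apply hg
            refine ⟨b, hb1, ?_, hb3⟩
            rw [Finset.mem_insert, not_or]
            refine ⟨?_, hb2⟩
            rintro rfl
            exact hb3 h0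
          · rfl
        · ext d
          have h3 : coeff d (redH κ h1 g) = 0 := by rw [hr, map_zero]
          rw [coeff_redH] at h3
          rw [coeff_redH, map_zero, hg2c]
          split_ifs
          · exact h3
          · simp
      have : g = X a * g1 + g2 := by rw [← hg1]; ring
      rw [this]
      refine add_mem (Ideal.mul_mem_right _ _ ?_) h2
      rw [← uE_eq_X]
      exact uE_mem_heightIdeal (by omega) (hs a (Finset.mem_insert_self _ _))
  refine key (Finset.univ.filter fun a => a.1 + 1 < h) (fun a ha => (Finset.mem_filter.1 ha).2) f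
    ?_ hf
  rintro d ⟨a, ha1, ha2, _⟩
  exact (ha2 (Finset.mem_filter.2 ⟨Finset.mem_univ a, ha1⟩)).elim

end Red

section Shift

variable {C : Type*} [NontriviallyNormedField C] [IsUltrametricDist C] [CompleteSpace C]

theorem shift_ne_zero {ι : Type*} [Fintype ι] {f g : MvPowerSeries ι C} (hf : Bdd f) {c : ι → C}
    (hc : ∀ i, ‖c i‖ < 1) (hfg : ∀ z : ι → C, (∀ i, ‖z i‖ < 1) → ev (fun i => c i + z i) f = ev z g)
    (h0 : f ≠ 0) : g ≠ 0 := by
  rintro rfl
  apply h0
  ext d
  rw [map_zero]
  refine coeff_eq_zero_of_norm_ev_le hf (N := d.degree + 1) (K := 0) (r := 1) one_pos ?_ d (by omega)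
  intro z _ hz
  have h2 := hfg (fun i => z i - c i) (fun i => by
    exact (norm_sub_le_max' _ _).trans_lt (max_lt (hz i) (hc i)))
  rw [ev_zero] at h2
  have h3 : (fun i => c i + (z i - c i)) = z := by
    funext i
    ring
  rw [h3] at h2
  rw [h2]
  simp

end Shift

end Chai
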