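import Vale.Agent.Chai.Core

/-!
# P217 / Roots: zeros in the open unit disc of a power series over `O_C` (Weierstrass degree `N`)

OWNER: helper6 (done). Proof via Mathlib's Weierstrass division over the closed unit ball,
complete for the ideal `(a)`, `‖a‖ = max_{i<N} ‖a_i‖`.

Let `f = ∑ a_i Y^i`, `‖a_i‖ ≤ 1`, `‖a_N‖ = 1`, `‖a_i‖ < 1` for `i < N`.

PROOFS (C algebraically closed and complete).
* Existence of a root (`N ≥ 1`).  `ρ₀ = max_{i<N} ‖a_i‖ < 1`, `ρ = ρ₀^{1/N}`.  For `M ≥ N` let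
  `P_M = ∑_{i≤M} a_i Y^i + Y^{M+1}` (monic, coefficients in the unit ball; all its roots have norm
  `≤ 1`).  The product of the roots is `± a_0`, so some root has norm `< 1`; every root `ξ` of norm
  `< 1` satisfies `‖ξ‖^N ≤ ρ₀` (the term `a_N ξ^N` dominates the later ones).  The number of roots
  (with multiplicity) of norm `< 1` is `≤ N` (reduce `P_M = ∏ (Y - ξ_i)` modulo the maximal ideal,
  or: the coefficient of `Y^N` of the product would have norm `< 1` if there were more than `N` such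
  roots).  If `ξ` is a root of `P_M`, `‖ξ‖ < 1`, then for `M' > M`,
  `‖P_{M'}(ξ)‖ ≤ ρ^{M+1}` and `‖P_{M'}(ξ)‖ = ∏ ‖ξ - ξ'_i‖` where the factors with `‖ξ'_i‖ = 1` are
  `1`; hence some root `ξ'` of `P_{M'}` of norm `< 1` has `‖ξ - ξ'‖ ≤ ρ^{(M+1)/N}`.  Take a Cauchy
  sequence of roots.
* Factorisation: if `‖z‖ < 1`, `f(z) = 0` then `f = (Y - z) g` with `g` bounded,
  `g_i = ∑_{j>i} a_j z^{j-i-1}`; its Weierstrass degree is `N - 1`.
  So at most `N` zeros; if all zeros are simple (`f'(z) ≠ 0`) there are exactly `N`.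
-/

namespace Chai

open MvPowerSeries Filter Topology

namespace RootsAux

section

variable (C : Type*) [NontriviallyNormedField C] [IsUltrametricDist C]

/-- the closed unit ball -/
def O : Subring C where
  carrier := {x | ‖x‖ ≤ 1}
  mul_mem' {a b} ha hb := by
    simp only [Set.mem_ofPred_eq, norm_mul] at *
    exact mul_le_one₀ ha (norm_nonneg _) hb
  one_mem' := by simp
  add_mem' {a b} ha hb := (IsUltrametricDist.norm_add_le_max a b).trans (max_le ha hb)
  zero_mem' := by simp
  neg_mem' {a} ha := by simpa using ha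

variable {C}

theorem norm_le (x : O C) : ‖(x : C)‖ ≤ 1 := x.2

theorem mem_span_iff {a : O C} (ha : (a : C) ≠ 0) (x : O C) :
    x ∈ Ideal.span {a} ↔ ‖(x : C)‖ ≤ ‖(a : C)‖ := by
  rw [Ideal.mem_span_singleton]
  constructor
  · rintro ⟨y, rfl⟩
    rw [Subring.coe_mul, norm_mul]
    exact mul_le_of_le_one_right (norm_nonneg _) (norm_le y)
  · intro h
    refine ⟨⟨(x : C) / a, ?_⟩, ?_⟩
    · change ‖(x : C) / a‖ ≤ 1
      rw [norm_div]
      exact div_le_one_of_le₀ h (norm_nonneg _)
    · apply Subtype.ext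
      rw [Subring.coe_mul]
      change (x : C) = a * ((x : C) / a)
      field_simp

theorem mem_pow_iff {a : O C} (ha : (a : C) ≠ 0) (n : ℕ) (x : O C) :
    x ∈ (Ideal.span {a}) ^ n ↔ ‖(x : C)‖ ≤ ‖(a : C)‖ ^ n := by
  rw [Ideal.span_singleton_pow, mem_span_iff]
  · rw [Subring.coe_pow, norm_pow]
  · rw [Subring.coe_pow]
    exact pow_ne_zero _ ha

theorem adic [CompleteSpace C] {a : O C} (h0 : (a : C) ≠ 0) (h1 : ‖(a : C)‖ < 1) :
    IsAdicComplete (Ideal.span {a}) (O C) := by
  have hlim : Tendsto (fun n : ℕ => ‖(a : C)‖ ^ n) atTop (𝓝 0) :=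
    tendsto_pow_atTop_nhds_zero_of_lt_one (norm_nonneg _) h1
  have hH : IsHausdorff (Ideal.span {a}) (O C) := by
    refine ⟨fun x hx => ?_⟩
    have h2 : ∀ n, ‖(x : C)‖ ≤ ‖(a : C)‖ ^ n := by
      intro n
      have := hx n
      rw [SModEq.zero, smul_eq_mul, Ideal.mul_top, mem_pow_iff h0] at this
      exact this
    have h3 : ‖(x : C)‖ ≤ 0 := ge_of_tendsto' hlim h2
    apply Subtype.ext
    simpa using h3
  have hP : IsPrecomplete (Ideal.span {a}) (O C) := by
    refine ⟨fun f hf => ?_⟩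
    have hf' : ∀ m n, m ≤ n → ‖(f m : C) - f n‖ ≤ ‖(a : C)‖ ^ m := by
      intro m n hmn
      have := hf hmn
      rw [SModEq.sub_mem, smul_eq_mul, Ideal.mul_top, mem_pow_iff h0] at this
      exact this
    have hc : CauchySeq (fun n => (f n : C)) := by
      rw [Metric.cauchySeq_iff']
      intro ε hε
      obtain ⟨N, hN⟩ := (hlim.eventually (gt_mem_nhds hε)).exists
      refine ⟨N, fun n hn => ?_⟩
      rw [dist_comm, dist_eq_norm]
      exact (hf' N n hn).trans_lt hN
    obtain ⟨L, hL⟩ := cauchySeq_tendsto_of_complete hc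
    have hLn : ∀ m, ‖(f m : C) - L‖ ≤ ‖(a : C)‖ ^ m := by
      intro m
      have : Tendsto (fun n => ‖(f m : C) - f n‖) atTop (𝓝 ‖(f m : C) - L‖) :=
        (tendsto_const_nhds.sub hL).norm
      refine le_of_tendsto this ?_
      filter_upwards [eventually_ge_atTop m] with n hn
      exact hf' m n hn
    have hL1 : ‖L‖ ≤ 1 := by
      have e : L = (f 0 : C) - ((f 0 : C) - L) := by ring
      rw [e]
      rw [sub_eq_add_neg]
      refine (IsUltrametricDist.norm_add_le_max _ _).trans (max_le (norm_le _) ?_)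
      rw [norm_neg]
      simpa using hLn 0
    refine ⟨⟨L, hL1⟩, fun n => ?_⟩
    rw [SModEq.sub_mem, smul_eq_mul, Ideal.mul_top, mem_pow_iff h0]
    exact hLn n
  exact { hH, hP with }

end

end RootsAux

variable {C : Type*} [NontriviallyNormedField C] [IsUltrametricDist C] [CompleteSpace C]

/-- zeros of `f` in the open unit disc -/
def zeros (f : PowerSeries C) : Set C := {z | ‖z‖ < 1 ∧ ev1 z f = 0}

/-- Weierstrass degree `N` -/
structure WDeg (f : PowerSeries C) (N : ℕ) : Prop where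
  bdd : Bdd f
  lt : ∀ i < N, ‖PowerSeries.coeff i f‖ < 1
  eq : ‖PowerSeries.coeff N f‖ = 1

open RootsAux in
theorem WDeg.weierstrass {f : PowerSeries C} {N : ℕ} (hf : WDeg f N) :
    ∃ (P : Polynomial C) (q : PowerSeries C), P.Monic ∧ P.natDegree = N ∧
      (∀ i < N, ‖P.coeff i‖ < 1) ∧ Bdd q ∧ ‖PowerSeries.constantCoeff q‖ = 1 ∧
      (P : PowerSeries C) = f * q := by
  classical
  -- the ideal
  obtain ⟨b, hb0, hb1⟩ := NormedField.exists_norm_lt_one C
  obtain ⟨a, haS, hmax⟩ := Finset.exists_max_image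
    (insert b ((Finset.range N).image fun i => PowerSeries.coeff i f)) (fun x => ‖x‖)
    ⟨b, Finset.mem_insert_self _ _⟩
  have ha0 : 0 < ‖a‖ := hb0.trans_le (hmax b (Finset.mem_insert_self _ _))
  have ha1 : ‖a‖ < 1 := by
    rw [Finset.mem_insert] at haS
    rcases haS with rfl | h
    · exact hb1
    · obtain ⟨i, hi, rfl⟩ := Finset.mem_image.1 h
      exact hf.lt i (Finset.mem_range.1 hi)
  have hai : ∀ i < N, ‖PowerSeries.coeff i f‖ ≤ ‖a‖ := fun i hi =>
    hmax _ (Finset.mem_insert_of_mem (Finset.mem_image_of_mem _ (Finset.mem_range.2 hi)))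
  set A : O C := ⟨a, ha1.le⟩ with hA
  have hA0 : (A : C) ≠ 0 := norm_pos_iff.1 ha0
  have hA1 : ‖(A : C)‖ < 1 := ha1
  have : IsAdicComplete (Ideal.span {A}) (O C) := adic hA0 hA1
  -- lift
  set g : PowerSeries (O C) := PowerSeries.mk fun i => ⟨PowerSeries.coeff i f, hf.bdd _⟩ with hg
  have hgc : ∀ i, ((PowerSeries.coeff i g : O C) : C) = PowerSeries.coeff i f := by
    intro i
    rw [hg, PowerSeries.coeff_mk]
  have hgf : g.map (O C).subtype = f := by
    ext i
    rw [PowerSeries.coeff_map]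
    exact hgc i
  have hlow : ∀ i < N, PowerSeries.coeff i g ∈ Ideal.span {A} := by
    intro i hi
    rw [mem_span_iff hA0, hgc]
    exact hai i hi
  have hord : (g.map (Ideal.Quotient.mk (Ideal.span {A}))).order = N := by
    rw [PowerSeries.order_eq_nat]
    constructor
    · rw [PowerSeries.coeff_map, Ne, Ideal.Quotient.eq_zero_iff_mem, mem_span_iff hA0, hgc, hf.eq, not_le]
      exact hA1
    · intro i hi
      rw [PowerSeries.coeff_map, Ideal.Quotient.eq_zero_iff_mem]
      exact hlow i hi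
  have hN : (g.map (Ideal.Quotient.mk (Ideal.span {A}))).order.toNat = N := by rw [hord]; rfl
  have hunit : IsUnit (PowerSeries.coeff N g) := by
    refine IsUnit.of_mul_eq_one (⟨(PowerSeries.coeff N f)⁻¹, ?_⟩ : O C) ?_
    · change ‖(PowerSeries.coeff N f)⁻¹‖ ≤ 1
      rw [norm_inv, hf.eq, inv_one]
    · apply Subtype.ext
      rw [Subring.coe_mul, hgc]
      change PowerSeries.coeff N f * (PowerSeries.coeff N f)⁻¹ = 1
      refine mul_inv_cancel₀ fun h => ?_
      have := hf.eq
      rw [h, norm_zero] at this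
      exact zero_ne_one this
  have H : g.IsWeierstrassDivisorAt (Ideal.span {A}) := by
    rw [PowerSeries.IsWeierstrassDivisorAt, hN]
    exact hunit
  have D := H.isWeierstrassDivisionAt_div_mod (PowerSeries.X ^ N)
  generalize hq : H.div (PowerSeries.X ^ N) = q at D
  generalize hr : H.mod (PowerSeries.X ^ N) = r at D
  have hdeg : r.degree < N := by
    have := D.degree_lt
    rw [hN] at this
    exact this
  have hdeg' : r.degree < (Polynomial.X (R := O C) ^ N).degree := by rwa [Polynomial.degree_X_pow]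
  have hmon : (Polynomial.X ^ N - r).Monic := (Polynomial.monic_X_pow N).sub_of_left hdeg'
  have hnat : (Polynomial.X ^ N - r).natDegree = N := by
    rw [Polynomial.natDegree, Polynomial.degree_sub_eq_left_of_degree_lt hdeg', Polynomial.degree_X_pow]
    rfl
  refine ⟨(Polynomial.X ^ N - r).map (O C).subtype, q.map (O C).subtype, hmon.map _, ?_, ?_, ?_, ?_, ?_⟩
  · rw [hmon.natDegree_map, hnat]
  · intro i hi
    have h1 := D.coeff_f_sub_r_mem (i := i) (by rw [hN]; exact hi)
    rw [mem_span_iff hA0] at h1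
    refine lt_of_le_of_lt (le_trans (le_of_eq ?_) h1) hA1
    have e : PowerSeries.coeff i ((PowerSeries.X : PowerSeries (O C)) ^ N - (r : PowerSeries (O C))) =
        (Polynomial.X ^ N - r).coeff i := by
      rw [map_sub, Polynomial.coeff_coe, Polynomial.coeff_sub, Polynomial.coeff_X_pow,
        PowerSeries.coeff_X_pow]
    rw [Polynomial.coeff_map, e]
    rfl
  · intro d
    exact norm_le (MvPowerSeries.coeff d q)
  · have hmem : ((N, 0) : ℕ × ℕ) ∈ Finset.HasAntidiagonal.antidiagonal N := by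
      rw [Finset.HasAntidiagonal.mem_antidiagonal]
      exact add_zero N
    have h1 := congrArg (PowerSeries.coeff N) D.eq_mul_add
    rw [PowerSeries.coeff_X_pow_self, map_add, Polynomial.coeff_coe,
      Polynomial.coeff_eq_zero_of_degree_lt hdeg, add_zero, PowerSeries.coeff_mul,
      ← Finset.add_sum_erase _ _ hmem] at h1
    set S := ∑ x ∈ (Finset.HasAntidiagonal.antidiagonal N).erase (N, 0), PowerSeries.coeff x.1 g * PowerSeries.coeff x.2 q with hS
    have h2 : S ∈ Ideal.span {A} := by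
      refine Ideal.sum_mem _ fun x hx => ?_
      rw [Finset.mem_erase, Finset.HasAntidiagonal.mem_antidiagonal] at hx
      refine Ideal.mul_mem_right _ _ (hlow _ ?_)
      rcases lt_or_eq_of_le (show x.1 ≤ N by omega) with h | h
      · exact h
      · exfalso
        apply hx.1
        ext
        · exact h
        · show x.2 = 0
          omega
    rw [mem_span_iff hA0] at h2
    have h3 : ((PowerSeries.coeff N g * PowerSeries.coeff 0 q : O C) : C) = 1 - (S : C) := by
      have := congrArg (Subtype.val) h1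
      rw [Subring.coe_add] at this
      have h4 : ((1 : O C) : C) = 1 := rfl
      rw [h4] at this
      rw [this]
      ring
    have h4 : ‖(1 : C) - (S : C)‖ = 1 := by
      have h5 : ‖(S : C)‖ < ‖(1 : C)‖ := by
        rw [norm_one]
        exact h2.trans_lt hA1
      rw [sub_eq_add_neg]
      rw [IsUltrametricDist.norm_add_eq_max_of_norm_ne_norm (by rw [norm_neg]; exact h5.ne')]
      rw [norm_neg, norm_one]
      rw [norm_one] at h5
      exact max_eq_left h5.le
    rw [← h3, Subring.coe_mul, norm_mul, hgc, hf.eq, one_mul] at h4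
    rw [← PowerSeries.coeff_zero_eq_constantCoeff_apply, PowerSeries.coeff_map]
    exact h4
  · have h1 : ((Polynomial.X ^ N - r : Polynomial (O C)) : PowerSeries (O C)) = g * q := by
      rw [Polynomial.coe_sub, Polynomial.coe_pow, Polynomial.coe_X, D.eq_mul_add]
      ring
    rw [← hgf, ← map_mul, ← h1]
    ext i
    rw [PowerSeries.coeff_map, Polynomial.coeff_coe, Polynomial.coeff_coe, Polynomial.coeff_map]

omit [IsUltrametricDist C] [CompleteSpace C] in
theorem RootsAux.bdd_iff_coeff {f : PowerSeries C} : Bdd f ↔ ∀ i, ‖PowerSeries.coeff i f‖ ≤ 1 := by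
  constructor
  · intro h i
    exact h _
  · intro h d
    have hd : d = Finsupp.single () (d ()) := Finsupp.unique_single d
    rw [hd]
    exact h _

theorem RootsAux.ev1_coe_poly (z : C) (P : Polynomial C) : ev1 z (P : PowerSeries C) = P.eval z := by
  rw [ev1_eq_tsum, Polynomial.eval_eq_sum_range]
  rw [tsum_eq_sum (s := Finset.range (P.natDegree + 1))]
  · refine Finset.sum_congr rfl fun i _ => ?_
    rw [Polynomial.coeff_coe]
  · intro i hi
    rw [Finset.mem_range, not_lt] at hi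
    rw [Polynomial.coeff_coe, Polynomial.coeff_eq_zero_of_natDegree_lt (by omega), zero_mul]

theorem RootsAux.ev1_mul {z : C} (hz : ‖z‖ < 1) {f g : PowerSeries C} (hf : Bdd f) (hg : Bdd g) :
    ev1 z (f * g) = ev1 z f * ev1 z g := ev_mul (fun _ => hz) hf hg

theorem RootsAux.ev1_add {z : C} (hz : ‖z‖ < 1) {f g : PowerSeries C} (hf : Bdd f) (hg : Bdd g) :
    ev1 z (f + g) = ev1 z f + ev1 z g := ev_add (fun _ => hz) hf hg

theorem RootsAux.ev1_sub {z : C} (hz : ‖z‖ < 1) {f g : PowerSeries C} (hf : Bdd f) (hg : Bdd g) :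
    ev1 z (f - g) = ev1 z f - ev1 z g := ev_sub (fun _ => hz) hf hg

theorem RootsAux.ev1_C (z c : C) : ev1 z (PowerSeries.C c) = c := ev_C _ c

/-- a unit power series does not vanish -/
theorem RootsAux.ev1_ne_zero {z : C} (hz : ‖z‖ < 1) {q : PowerSeries C} (hq : Bdd q)
    (h0 : ‖PowerSeries.constantCoeff q‖ = 1) : ev1 z q ≠ 0 := by
  set c := PowerSeries.constantCoeff q with hc
  have hC : Bdd (PowerSeries.C c : PowerSeries C) := Bdd.C_iff.2 h0.le
  have h1 : ‖ev1 z (q - PowerSeries.C c)‖ < 1 := by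
    refine norm_ev_lt_one (fun _ => hz) (hq.sub hC) ?_
    have : MvPowerSeries.constantCoeff (q - PowerSeries.C c : PowerSeries C) = 0 := by
      show PowerSeries.constantCoeff _ = 0
      rw [map_sub, PowerSeries.constantCoeff_C, ← hc, sub_self]
    rw [this, norm_zero]
    exact one_pos
  rw [RootsAux.ev1_sub hz hq hC, RootsAux.ev1_C] at h1
  intro h
  rw [h, zero_sub, norm_neg, h0] at h1
  exact lt_irrefl _ h1

omit [CompleteSpace C] in
/-- all roots of a Weierstrass polynomial are in the open unit disc -/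
theorem RootsAux.norm_root_lt_one {P : Polynomial C} {N : ℕ} (hm : P.Monic) (hN : P.natDegree = N)
    (hl : ∀ i < N, ‖P.coeff i‖ < 1) {z : C} (hz : P.eval z = 0) : ‖z‖ < 1 := by
  by_contra hcon
  rw [not_lt] at hcon
  have h1 := hz
  rw [Polynomial.eval_eq_sum_range, Finset.sum_range_succ, hm.coeff_natDegree, one_mul, hN] at h1
  have h2 : ‖∑ i ∈ Finset.range N, P.coeff i * z ^ i‖ < ‖z‖ ^ N := by
    rcases Nat.eq_zero_or_pos N with h0 | hNpos
    · rw [h0]
      simp
    have hne : (Finset.range N).Nonempty := Finset.nonempty_range_iff.2 hNpos.ne'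
    refine (hne.norm_sum_le_sup'_norm _).trans_lt ?_
    rw [Finset.sup'_lt_iff]
    intro i hi
    rw [Finset.mem_range] at hi
    rw [norm_mul, norm_pow]
    have hz0 : 0 < ‖z‖ ^ i := pow_pos (by linarith) _
    calc ‖P.coeff i‖ * ‖z‖ ^ i < 1 * ‖z‖ ^ i := mul_lt_mul_of_pos_right (hl i hi) hz0
      _ = ‖z‖ ^ i := one_mul _
      _ ≤ ‖z‖ ^ N := pow_le_pow_right₀ hcon hi.le
  have h3 : z ^ N = -∑ i ∈ Finset.range N, P.coeff i * z ^ i := by
    rw [eq_neg_iff_add_eq_zero, add_comm]
    exact h1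
  have h4 : ‖z‖ ^ N = ‖∑ i ∈ Finset.range N, P.coeff i * z ^ i‖ := by
    rw [← norm_pow, h3, norm_neg]
  linarith

/-- all at once -/
theorem WDeg.exists_poly {f : PowerSeries C} {N : ℕ} (hf : WDeg f N) :
    ∃ (P : Polynomial C) (q : PowerSeries C), P.Monic ∧ P.natDegree = N ∧ Bdd (P : PowerSeries C) ∧
      Bdd q ∧ (P : PowerSeries C) = f * q ∧ (∀ i < N, ‖P.coeff i‖ < 1) ∧
      (∀ z, z ∈ zeros f ↔ P.eval z = 0) ∧ ∀ z, ‖z‖ < 1 → ev1 z q ≠ 0 := by
  obtain ⟨P, q, hm, hN, hl, hq, hq0, hPq⟩ := hf.weierstrass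
  have hPb : Bdd (P : PowerSeries C) := by
    rw [hPq]
    exact hf.bdd.mul hq
  refine ⟨P, q, hm, hN, hPb, hq, hPq, hl, ?_, fun z hz => RootsAux.ev1_ne_zero hz hq hq0⟩
  intro z
  constructor
  · rintro ⟨hz, hz0⟩
    rw [← RootsAux.ev1_coe_poly, hPq, RootsAux.ev1_mul hz hf.bdd hq, hz0, zero_mul]
  · intro h
    have hz := RootsAux.norm_root_lt_one hm hN hl h
    refine ⟨hz, ?_⟩
    rw [← RootsAux.ev1_coe_poly, hPq, RootsAux.ev1_mul hz hf.bdd hq, mul_eq_zero] at h
    exact h.resolve_right (RootsAux.ev1_ne_zero hz hq hq0)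

theorem exists_root [IsAlgClosed C] {f : PowerSeries C} {N : ℕ} (hf : WDeg f N) (hN : 0 < N) :
    (zeros f).Nonempty := by
  obtain ⟨P, q, hm, hN', -, -, -, -, hz, -⟩ := hf.exists_poly
  have hdeg : P.degree ≠ 0 := by
    rw [Polynomial.degree_eq_natDegree hm.ne_zero, hN']
    exact_mod_cast hN.ne'
  obtain ⟨z, hz'⟩ := IsAlgClosed.exists_root P hdeg
  exact ⟨z, (hz z).2 hz'⟩

theorem zeros_ncard_le {f : PowerSeries C} {N : ℕ} (hf : WDeg f N) :
    (zeros f).Finite ∧ (zeros f).ncard ≤ N := by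
  classical
  obtain ⟨P, q, hm, hN', -, -, -, -, hz, -⟩ := hf.exists_poly
  have hset : zeros f = (P.roots.toFinset : Set C) := by
    ext z
    rw [hz, Finset.mem_coe, Multiset.mem_toFinset, Polynomial.mem_roots hm.ne_zero]
    rfl
  rw [hset, Set.ncard_coe_finset]
  refine ⟨Finset.finite_toSet _, ?_⟩
  exact (Multiset.toFinset_card_le _).trans ((Polynomial.card_roots' P).trans hN'.le)

theorem zeros_ncard_eq [IsAlgClosed C] {f : PowerSeries C} {N : ℕ} (hf : WDeg f N)
    (hd : ∀ z ∈ zeros f,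
      ev1 z (PowerSeries.mk fun i => ((i + 1 : ℕ) : C) * PowerSeries.coeff (i + 1) f) ≠ 0) :
    (zeros f).Finite ∧ (zeros f).ncard = N := by
  classical
  refine ⟨(zeros_ncard_le hf).1, ?_⟩
  obtain ⟨P, q, hm, hN', hPb, hq, hPq, hl, hz, hqz⟩ := hf.exists_poly
  have hset : zeros f = (P.roots.toFinset : Set C) := by
    ext z
    rw [hz, Finset.mem_coe, Multiset.mem_toFinset, Polynomial.mem_roots hm.ne_zero]
    rfl
  have hder : (PowerSeries.mk fun i => ((i + 1 : ℕ) : C) * PowerSeries.coeff (i + 1) f) =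
      PowerSeries.derivative C f := by
    ext i
    rw [PowerSeries.coeff_mk, PowerSeries.coeff_derivative, mul_comm]
    push_cast
    rfl
  rw [hder] at hd
  have hbd : ∀ g : PowerSeries C, Bdd g → Bdd (PowerSeries.derivative C g) := by
    intro g hg d
    have h1 : ∀ i, ‖PowerSeries.coeff i (PowerSeries.derivative C g)‖ ≤ 1 := by
      intro i
      rw [PowerSeries.coeff_derivative, norm_mul]
      refine mul_le_one₀ (hg _) (norm_nonneg _) ?_
      exact_mod_cast IsUltrametricDist.norm_natCast_le_one C (i + 1)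
    exact RootsAux.bdd_iff_coeff.2 h1 d
  have hnodup : P.roots.Nodup := by
    rw [Multiset.nodup_iff_count_le_one]
    intro z
    rw [Polynomial.count_roots]
    by_contra hcon
    rw [not_le, Polynomial.one_lt_rootMultiplicity_iff_isRoot hm.ne_zero] at hcon
    obtain ⟨h1, h2⟩ := hcon
    have hzz : z ∈ zeros f := (hz z).2 h1
    have h3 : ((Polynomial.derivative P : Polynomial C) : PowerSeries C) =
        f * PowerSeries.derivative C q + q * PowerSeries.derivative C f := by
      have h4 := congrArg (PowerSeries.derivative C) hPq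
      rw [Derivation.leibniz, smul_eq_mul, smul_eq_mul] at h4
      rw [← h4]
      exact (PowerSeries.derivative_coe P).symm
    have h5 : ev1 z ((Polynomial.derivative P : Polynomial C) : PowerSeries C) = 0 := by
      rw [RootsAux.ev1_coe_poly]
      exact h2
    rw [h3, RootsAux.ev1_add hzz.1 (hf.bdd.mul (hbd q hq)) (hq.mul (hbd f hf.bdd)),
      RootsAux.ev1_mul hzz.1 hf.bdd (hbd q hq), RootsAux.ev1_mul hzz.1 hq (hbd f hf.bdd), hzz.2, zero_mul, zero_add,
      mul_eq_zero] at h5
    exact h5.elim (hqz z hzz.1) (hd z hzz)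
  rw [hset, Set.ncard_coe_finset, Multiset.toFinset_card_of_nodup hnodup,
    IsAlgClosed.card_roots_eq_natDegree, hN']

/-- local inverse: `β = b_1 Y + ⋯` bounded, `b_1 ≠ 0`; every `w` with `‖w‖ < ‖b_1‖^2` is a value -/
theorem exists_ev1_eq {β : PowerSeries C} (hβ : Bdd β) (h0 : PowerSeries.constantCoeff β = 0)
    {w : C} (hw : ‖w‖ < ‖PowerSeries.coeff 1 β‖ ^ 2) : ∃ y : C, ‖y‖ < 1 ∧ ev1 y β = w := by
  set c := PowerSeries.coeff 1 β with hc
  have hc1 : ‖c‖ ≤ 1 := hβ _
  have hc0 : c ≠ 0 := by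
    intro h
    rw [h, norm_zero] at hw
    exact absurd hw (not_lt.2 (by simp))
  have hcpos : 0 < ‖c‖ := norm_pos_iff.2 hc0
  set g : PowerSeries C := PowerSeries.mk fun i =>
    if i = 0 then -w / c ^ 2 else if i = 1 then 1 else PowerSeries.coeff i β * c ^ (i - 2) with hg
  have hg0 : PowerSeries.coeff 0 g = -w / c ^ 2 := by rw [hg, PowerSeries.coeff_mk, if_pos rfl]
  have hg0' : ‖PowerSeries.coeff 0 g‖ < 1 := by
    rw [hg0, norm_div, norm_neg, norm_pow]
    exact (div_lt_one (pow_pos hcpos 2)).2 hw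
  have hg1 : PowerSeries.coeff 1 g = 1 := by
    rw [hg, PowerSeries.coeff_mk, if_neg one_ne_zero, if_pos rfl]
  have hgi : ∀ i, 2 ≤ i → PowerSeries.coeff i g = PowerSeries.coeff i β * c ^ (i - 2) := by
    intro i hi
    rw [hg, PowerSeries.coeff_mk, if_neg (by omega), if_neg (by omega)]
  have hgb : ∀ i, ‖PowerSeries.coeff i g‖ ≤ 1 := by
    intro i
    rcases Nat.lt_or_ge i 2 with h | h
    · interval_cases i
      · exact hg0'.le
      · rw [hg1, norm_one]
    · rw [hgi i h, norm_mul, norm_pow]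
      exact mul_le_one₀ (hβ _) (by positivity) (pow_le_one₀ (norm_nonneg _) hc1)
  have hW : WDeg g 1 := by
    refine ⟨?_, ?_, ?_⟩
    · exact RootsAux.bdd_iff_coeff.2 hgb
    · intro i hi
      obtain rfl : i = 0 := by omega
      exact hg0'
    · rw [hg1, norm_one]
  obtain ⟨P, q, hm, hN', -, -, -, hl, hz, -⟩ := hW.exists_poly
  have hroot : P.eval (-P.coeff 0) = 0 := by
    rw [Polynomial.eval_eq_sum_range, hN', Finset.sum_range_succ, Finset.sum_range_one,
      ← hN', hm.coeff_natDegree, hN']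
    ring
  obtain ⟨ht, ht0⟩ := (hz _).2 hroot
  set t := -P.coeff 0 with htdef
  refine ⟨c * t, ?_, ?_⟩
  · rw [norm_mul]
    calc ‖c‖ * ‖t‖ ≤ 1 * ‖t‖ := mul_le_mul_of_nonneg_right hc1 (norm_nonneg _)
      _ < 1 := by rw [one_mul]; exact ht
  · have hct : ‖c * t‖ < 1 := by
      rw [norm_mul]
      calc ‖c‖ * ‖t‖ ≤ 1 * ‖t‖ := mul_le_mul_of_nonneg_right hc1 (norm_nonneg _)
        _ < 1 := by rw [one_mul]; exact ht
    have hw1 : ‖w‖ ≤ 1 := hw.le.trans (pow_le_one₀ (norm_nonneg _) hc1)
    have hCw : Bdd (PowerSeries.C w : PowerSeries C) := Bdd.C_iff.2 hw1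
    have h1 : ev1 (c * t) (β - PowerSeries.C w) = c ^ 2 * ev1 t g := by
      rw [ev1_eq_tsum, ev1_eq_tsum, ← tsum_mul_left]
      refine tsum_congr fun i => ?_
      rcases Nat.lt_or_ge i 2 with h | h
      · interval_cases i
        · rw [hg0, map_sub, PowerSeries.coeff_zero_eq_constantCoeff_apply, h0,
            PowerSeries.coeff_zero_eq_constantCoeff_apply, PowerSeries.constantCoeff_C]
          field_simp
          ring
        · rw [hg1, map_sub, ← hc, PowerSeries.coeff_C, if_neg one_ne_zero]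
          ring
      · rw [hgi i h, map_sub, PowerSeries.coeff_C, if_neg (by omega)]
        obtain ⟨k, rfl⟩ := Nat.exists_eq_add_of_le h
        rw [Nat.add_sub_cancel_left]
        ring
    rw [ht0, mul_zero, RootsAux.ev1_sub hct hβ hCw, RootsAux.ev1_C, sub_eq_zero] at h1
    exact h1

end Chai
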