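import Vale.Agent.Chai.Setup
import Vale.Agent.Chai.Roots

/-!
# P217 / Exp: the exponential `exp_x : Γ_n(m_C) → F_x(m_C)`

OWNER: helper10

`C` complete, algebraically closed, char `p`; `Γ = FC p n 0` (Honda, `p • z = z^{p^n}`, so
multiplication by `p` is bijective on `Γ.Pt`); `x : Ball C`; `F_x ≡ Γ` mod the ideal
`{‖·‖ ≤ ρ}`, `ρ = max_{1≤j<n} ‖x_j‖ < 1` (coefficients of `hazF` are integer polynomials in `v`).

PROOFS.
* Contraction: `P_x(y) = (p • y)` on `F_x.Pt` (the `p`-series is `∑^F_j v_j X^{p^j}`): if `‖y‖ ≤ r` with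
  `ρ ≤ r < 1` then `‖p • y‖ ≤ max(ρ r^p, r^{p^n}) ≤ r·r`… in particular `‖p^K • y‖ ≤ r^{K+1}`.
* `exp_x(z) := lim_K p^K • z_K` (multiplication in `F_x`), `z_K = z^{1/p^{nK}}`:
  `p • z_{K+1}` (in `F_x`) `≡ z_{K+1}^{p^n} = z_K` mod `ρ`, so
  `p^{K+1} • z_{K+1} - p^K • z_K = p^K • (p • z_{K+1} - z_K) → 0`, and
  `‖exp_x(z) - z‖ ≤ ρ`.
* Additive: `(z+_Γ w)_K = z_K +_Γ w_K ≡ z_K +_{F_x} w_K` mod `ρ` (`Γ` has coefficients in `F_p`, so
  the `p^{nK}`-th root commutes with `+_Γ`).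
* Uniqueness: if `e` is additive and `‖e z - z‖ ≤ ρ' < 1` for all `z` then
  `e(z) = p^K • e(z_K)` and `e(z_K) ≡ exp_x(z_K)` mod `max(ρ,ρ')`, let `K → ∞`.
* `expm_comp`: both sides are additive in `z`, and differ by `≤ ρ'` at every `z_K`.
* Lipschitz in `x`: `‖P^K_x(y) - P^K_{x'}(y)‖ ≤ ε` (power series in `(x,y)` with bounded coefficients).
* Surjective: given `y ∈ m_C` choose `y_0 = y`, `p • y_{K+1} = y_K` in `F_x` (`Roots.exists_root`, the series
  `[p]_{F_x} - y_K` has Weierstrass degree `p^n`); `z := lim y_K^{p^{nK}}` works.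
* Series `Q_t`: for `δ ∈ m_C^{Idx}`: `exp_{x+δ}(t) = p^K • exp_{x+δ}(t_K)` and
  `exp_{x+δ}(t_K) = exp_x(t_K) + O(‖δ‖)`; if `y ≡ y'` mod `‖δ‖^s` then `p•y ≡ p•y'` mod `‖δ‖^{ps}`
  (as `[p]` is a series in `X^p`).  So `exp_{x+δ}(t) = P_{x+δ}^K(exp_x(t_K)) + O(‖δ‖^{p^K})`, and
  `δ ↦ P_{x+δ}^K(c)` is given by a bounded series `A_K(δ)` (composition, `exists_shift`).  By
  `coeff_eq_zero_of_norm_ev_le`, `A_{K+1} ≡ A_K` in degrees `< p^K`; let `Q` be the limit.  (Alternative: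
  work in the complete ring `O_C[[δ]]`.)
-/

namespace Chai

open MvPowerSeries Filter Topology

set_option linter.unusedSectionVars false

/-! ### multiplication by `m` commutes with base change -/

section

variable {R S : Type*} [CommRing R] [CommRing S]

theorem mulPS_map (φ : R →+* S) (F : FormalGroup R) (m : ℕ) :
    mulPS (F.map φ) m = (mulPS F m).map φ := by
  induction m with
  | zero => exact (map_zero _).symm
  | succ m ih =>
    have h1 : HasSubst (![mulPS F m, (PowerSeries.X : PowerSeries R)] :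
        Fin 2 → MvPowerSeries Unit R) :=
      hasSubst_pair (constantCoeff_mulPS F m) PowerSeries.constantCoeff_X
    have h2 := map_subst h1 (h := φ) F.toPowerSeries
    refine Eq.trans ?_ h2.symm
    show (F.toPowerSeries.map φ).subst ![mulPS (F.map φ) m, (PowerSeries.X : PowerSeries S)] = _
    congr 1
    funext i
    fin_cases i
    · exact ih
    · exact (PowerSeries.map_X φ).symm

end

section Lip

variable {C : Type*} [NontriviallyNormedField C] [IsUltrametricDist C] [CompleteSpace C]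

/-- evaluation of integral polynomials at a point -/
noncomputable abbrev phi (v : ℕ → C) : MvPolynomial ℕ ℤ →+* C :=
  MvPolynomial.eval₂Hom (Int.castRingHom C) v

theorem norm_phi_le {v : ℕ → C} (hv : ∀ j, ‖v j‖ ≤ 1) (f : MvPolynomial ℕ ℤ) : ‖phi v f‖ ≤ 1 := by
  induction f using MvPolynomial.induction_on with
  | C a => simpa using IsUltrametricDist.norm_intCast_le_one C a
  | add f g hf hg =>
    rw [map_add]
    exact (IsUltrametricDist.norm_add_le_max _ _).trans (max_le hf hg)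
  | mul_X f i hf =>
    rw [map_mul, norm_mul, MvPolynomial.eval₂Hom_X']
    exact mul_le_one₀ hf (norm_nonneg _) (hv i)

theorem norm_phi_sub_le {v v' : ℕ → C} (hv : ∀ j, ‖v j‖ ≤ 1) (hv' : ∀ j, ‖v' j‖ ≤ 1) {ε : ℝ}
    (hε : 0 ≤ ε) (h : ∀ j, ‖v j - v' j‖ ≤ ε) (f : MvPolynomial ℕ ℤ) :
    ‖phi v f - phi v' f‖ ≤ ε := by
  induction f using MvPolynomial.induction_on with
  | C a => simpa using hε
  | add f g hf hg =>
    rw [map_add, map_add, add_sub_add_comm]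
    exact (IsUltrametricDist.norm_add_le_max _ _).trans (max_le hf hg)
  | mul_X f i hf =>
    rw [map_mul, map_mul, MvPolynomial.eval₂Hom_X', MvPolynomial.eval₂Hom_X']
    have : phi v f * v i - phi v' f * v' i = phi v f * (v i - v' i) +
      (phi v f - phi v' f) * v' i := by ring
    rw [this]
    refine (IsUltrametricDist.norm_add_le_max _ _).trans (max_le ?_ ?_)
    · rw [norm_mul]
      calc ‖phi v f‖ * ‖v i - v' i‖ ≤ 1 * ε := by
            gcongr
            · exact norm_phi_le hv f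
            · exact h i
        _ = ε := one_mul _
    · rw [norm_mul]
      calc ‖phi v f - phi v' f‖ * ‖v' i‖ ≤ ε * 1 := by
            gcongr
            exact hv' i
        _ = ε := mul_one _

theorem norm_prm_sub_le {n : ℕ} {x x' : Ball C} {ε : ℝ} (hε : 0 ≤ ε)
    (h : ∀ j, 1 ≤ j → j < n → ‖x.1 j - x'.1 j‖ ≤ ε) (j : ℕ) :
    ‖prm n x.1 j - prm n x'.1 j‖ ≤ ε := by
  unfold prm
  split_ifs with h1 h2
  · exact h j h1.1 h1.2
  · simpa using hε
  · simpa using hε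

variable (p : ℕ) [Fact p.Prime]

theorem coeff_mulPS_FC (n : ℕ) (x : Ball C) (m : ℕ) (d : Unit →₀ ℕ) :
    coeff d (mulPS (FC p n x).toFormalGroup m) =
      phi (prm n x.1) (coeff d (mulPS (haz p) m)) := by
  have h : mulPS (FC p n x).toFormalGroup m = (mulPS (haz p) m).map (phi (prm n x.1)) :=
    mulPS_map _ _ _
  rw [h]
  exact coeff_map _ _ _

theorem norm_mulPS_sub_le {n : ℕ} {x x' : Ball C} {ε : ℝ} (hε : 0 ≤ ε)
    (h : ∀ j, 1 ≤ j → j < n → ‖x.1 j - x'.1 j‖ ≤ ε) (m : ℕ) {y : C} (hy : ‖y‖ < 1) :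
    ‖ev1 y (mulPS (FC p n x).toFormalGroup m) - ev1 y (mulPS (FC p n x').toFormalGroup m)‖ ≤ ε := by
  refine norm_ev_sub_le' (fun _ => hy) ((FC p n x).bdd_mulPS m) ((FC p n x').bdd_mulPS m) hε ?_
  intro d
  rw [coeff_mulPS_FC, coeff_mulPS_FC]
  exact norm_phi_sub_le (norm_prm_le n x) (norm_prm_le n x') hε (norm_prm_sub_le hε h) _

theorem norm_nsmul_sub_le {n : ℕ} {x x' : Ball C} {ε : ℝ} (hε : 0 ≤ ε)
    (h : ∀ j, 1 ≤ j → j < n → ‖x.1 j - x'.1 j‖ ≤ ε) (m : ℕ) (y : (FC p n x).Pt)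
    (y' : (FC p n x').Pt) (hy : y.1 = y'.1) : ‖(m • y).1 - (m • y').1‖ ≤ ε := by
  rw [CFG.nsmul_val, CFG.nsmul_val, ← hy]
  exact norm_mulPS_sub_le p hε h m y.2

theorem norm_plus_sub_le {n : ℕ} {x x' : Ball C} {ε : ℝ} (hε : 0 ≤ ε)
    (h : ∀ j, 1 ≤ j → j < n → ‖x.1 j - x'.1 j‖ ≤ ε) (y z : (FC p n x).Pt)
    (y' z' : (FC p n x').Pt) (hy : y.1 = y'.1) (hz : z.1 = z'.1) :
    ‖(y + z).1 - (y' + z').1‖ ≤ ε := by
  rw [CFG.add_val, CFG.add_val, ← hy, ← hz]
  refine norm_ev_sub_le' (pair_lt y.2 z.2) (FC p n x).bdd (FC p n x').bdd hε ?_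
  intro d
  have e : ∀ x : Ball C, coeff d (FC p n x).toPowerSeries =
      phi (prm n x.1) (coeff d (haz p).toPowerSeries) := by
    intro x
    exact coeff_map _ _ _
  rw [e, e]
  exact norm_phi_sub_le (norm_prm_le n x) (norm_prm_le n x') hε (norm_prm_sub_le hε h) _

variable [CharP C p]

/-- the `p`-series is a series in `X^p` -/
theorem norm_nsmul_p_le {n : ℕ} (hn : 1 ≤ n) (x : Ball C) (y : (FC p n x).Pt) :
    ‖(p • y).1‖ ≤ ‖y.1‖ ^ p := by
  rw [nsmul_p_val p le_rfl hn (x := x) (by intro j h1 h2; omega) y, pow_one]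
  have h0 : constantCoeff (VPS p 1 n x) = 0 := by
    have hp : p ≠ 0 := (Fact.out : p.Prime).ne_zero
    refine constantCoeff_fsum _ _ fun a ha => ?_
    obtain ⟨j, _, rfl⟩ := List.mem_map.1 ha
    show PowerSeries.constantCoeff _ = 0
    rw [map_mul, map_pow, PowerSeries.constantCoeff_X, zero_pow (pow_ne_zero _ hp), mul_zero]
  have hlt : ‖y.1 ^ p‖ < 1 := by
    rw [norm_pow]
    exact pow_lt_one₀ (norm_nonneg _) y.2 (Fact.out : p.Prime).ne_zero
  rw [← norm_pow]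
  exact norm_ev_le (fun _ => hlt) (bdd_VPS p 1 n x) h0 (norm_nonneg _) (fun _ => le_rfl)

theorem norm_nsmul_pow_le {n : ℕ} (hn : 1 ≤ n) (x : Ball C) (K : ℕ) (y : (FC p n x).Pt) :
    ‖(p ^ K • y).1‖ ≤ ‖y.1‖ ^ p ^ K := by
  induction K with
  | zero => simp
  | succ K ih =>
    rw [pow_succ', mul_smul]
    refine (norm_nsmul_p_le p hn x _).trans ?_
    rw [mul_comm, pow_mul]
    exact pow_le_pow_left₀ (norm_nonneg _) ih p

theorem tendsto_pow_pow {r : ℝ} (h0 : 0 ≤ r) (h1 : r < 1) :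
    Tendsto (fun K : ℕ => r ^ p ^ K) atTop (𝓝 0) := by
  refine (tendsto_pow_atTop_nhds_zero_of_lt_one h0 h1).comp ?_
  exact tendsto_pow_atTop_atTop_of_one_lt (Fact.out : p.Prime).one_lt

theorem norm_nsmul_pow_le' {n : ℕ} (hn : 1 ≤ n) (x : Ball C) (K : ℕ) {y : (FC p n x).Pt} {r : ℝ}
    (hy : ‖y.1‖ ≤ r) : ‖(p ^ K • y).1‖ ≤ r ^ p ^ K :=
  (norm_nsmul_pow_le p hn x K y).trans (pow_le_pow_left₀ (norm_nonneg _) hy _)

theorem norm_nsmul_honda {n : ℕ} (hn : 1 ≤ n) (K : ℕ) (y : (FC p n (0 : Ball C)).Pt) :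
    (p ^ K • y).1 = y.1 ^ (p ^ n) ^ K := by
  induction K with
  | zero => simp
  | succ K ih =>
    rw [pow_succ' p, mul_smul, nsmul_p_honda p hn, ih, ← pow_mul, ← pow_succ]

/-- multiplication by `p^K` is injective on the Honda group -/
theorem honda_injective {n : ℕ} (hn : 1 ≤ n) (K : ℕ) :
    Function.Injective fun y : (FC p n (0 : Ball C)).Pt => p ^ K • y := by
  intro y z hyz
  have h : y.1 ^ (p ^ n) ^ K = z.1 ^ (p ^ n) ^ K := by
    rw [← norm_nsmul_honda p hn, ← norm_nsmul_honda p hn]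
    exact congrArg Subtype.val hyz
  rw [← pow_mul] at h
  refine Subtype.ext ?_
  have h2 : (y.1 - z.1) ^ p ^ (n * K) = 0 := by
    rw [sub_pow_char_pow, h, sub_self]
  exact sub_eq_zero.mp (pow_eq_zero_iff (pow_ne_zero _ (Fact.out : p.Prime).ne_zero) |>.mp h2)

/-- rigidity: a homomorphism from the Honda group with values in a ball of radius `< 1` is `0` -/
theorem exists_p_root [IsAlgClosed C] {n : ℕ} (hn : 1 ≤ n) (K : ℕ) (z : (FC p n (0 : Ball C)).Pt) :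
    ∃ w : (FC p n (0 : Ball C)).Pt, p ^ K • w = z := by
  have hpos : 0 < (p ^ n) ^ K := pow_pos (pow_pos (Fact.out : p.Prime).pos _) _
  obtain ⟨w, hw⟩ := IsAlgClosed.exists_pow_nat_eq z.1 hpos
  have hw1 : ‖w‖ < 1 := by
    by_contra hcon
    have : 1 ≤ ‖w‖ ^ (p ^ n) ^ K := one_le_pow₀ (not_lt.mp hcon)
    rw [← norm_pow, hw] at this
    exact absurd z.2 (not_lt.mpr this)
  exact ⟨⟨w, hw1⟩, Subtype.ext ((norm_nsmul_honda p hn K _).trans hw)⟩

theorem hom_eq_zero_of_le [IsAlgClosed C] {n : ℕ} (hn : 1 ≤ n) (x : Ball C)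
    (D : (FC p n (0 : Ball C)).Pt →+ (FC p n x).Pt) {r : ℝ} (hr1 : r < 1)
    (hD : ∀ z, ‖(D z).1‖ ≤ r) (z : (FC p n (0 : Ball C)).Pt) : D z = 0 := by
  have hr0 : 0 ≤ r := (norm_nonneg _).trans (hD z)
  refine Subtype.ext ?_
  rw [CFG.zero_val, ← norm_eq_zero]
  refine le_antisymm (ge_of_tendsto' (tendsto_pow_pow p hr0 hr1) fun K => ?_) (norm_nonneg _)
  obtain ⟨w, hw⟩ := exists_p_root p hn K z
  rw [← hw, map_nsmul]
  exact norm_nsmul_pow_le' p hn x K (hD w)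

/-- limits of sequences with small increments -/
theorem exists_lim {u : ℕ → C} {b : ℕ → ℝ} (hb : Antitone b) (hb0 : Tendsto b atTop (𝓝 0))
    (h : ∀ K, ‖u (K + 1) - u K‖ ≤ b K) : ∃ L, ∀ K, ‖L - u K‖ ≤ b K := by
  have h1 : ∀ K m, ‖u (K + m) - u K‖ ≤ b K := by
    intro K m
    induction m with
    | zero =>
      rw [add_zero, sub_self, norm_zero]
      exact (norm_nonneg _).trans (h K)
    | succ m ih =>
      have : u (K + (m + 1)) - u K = (u (K + m + 1) - u (K + m)) + (u (K + m) - u K) := by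
        rw [← add_assoc]; ring
      rw [this]
      exact (IsUltrametricDist.norm_add_le_max _ _).trans
        (max_le ((h _).trans (hb (Nat.le_add_right _ _))) ih)
  have hc : CauchySeq u := by
    refine cauchySeq_of_le_tendsto_0 b (fun n m N hn hm => ?_) hb0
    rw [dist_eq_norm]
    have : u n - u m = (u n - u N) - (u m - u N) := by ring
    rw [this]
    obtain ⟨k, rfl⟩ := Nat.exists_eq_add_of_le hn
    obtain ⟨l, rfl⟩ := Nat.exists_eq_add_of_le hm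
    exact (norm_sub_le_max' _ _).trans (max_le (h1 N k) (h1 N l))
  obtain ⟨L, hL⟩ := cauchySeq_tendsto_of_complete hc
  refine ⟨L, fun K => ?_⟩
  have h2 : Tendsto (fun m => ‖u m - u K‖) atTop (𝓝 ‖L - u K‖) := (hL.sub_const _).norm
  refine le_of_tendsto h2 ?_
  filter_upwards [eventually_ge_atTop K] with m hm
  obtain ⟨k, rfl⟩ := Nat.exists_eq_add_of_le hm
  exact h1 K k

theorem antitone_pow_pow {r : ℝ} (h0 : 0 ≤ r) (h1 : r ≤ 1) : Antitone fun K : ℕ => r ^ p ^ K := by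
  intro a b hab
  exact pow_le_pow_of_le_one h0 h1 (Nat.pow_le_pow_right (Fact.out : p.Prime).pos hab)

/-- a bound for the size of `x` -/
theorem exists_size (n : ℕ) (x : Ball C) : ∃ ρ : ℝ, 0 ≤ ρ ∧ ρ < 1 ∧ SizeLE n x ρ := by
  obtain ⟨ρ, h0, h1, h2⟩ := exists_rho (σ := Fin n) (a := fun i => x.1 i) (fun i => x.2 _)
  exact ⟨ρ, h0.le, h1, fun j _ hj => h2 ⟨j, hj⟩⟩

theorem SizeLE.sub_zero {n : ℕ} {x : Ball C} {ρ : ℝ} (h : SizeLE n x ρ) :
    ∀ j, 1 ≤ j → j < n → ‖x.1 j - (0 : Ball C).1 j‖ ≤ ρ := by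
  intro j h1 h2
  rw [Ball.zero_val, _root_.sub_zero]
  exact h j h1 h2

/-- the same point, seen in another group -/
def cst {G H : CFG C} (z : G.Pt) : H.Pt := ⟨z.1, z.2⟩

@[simp] theorem cst_val {G H : CFG C} (z : G.Pt) : (cst z : H.Pt).1 = z.1 := rfl

section exp

variable [IsAlgClosed C]

/-- the `p^K`-division in the Honda group -/
noncomputable def rt {n : ℕ} (hn : 1 ≤ n) (K : ℕ) (z : (FC p n (0 : Ball C)).Pt) :
    (FC p n (0 : Ball C)).Pt := (exists_p_root p hn K z).choose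

theorem rt_spec {n : ℕ} (hn : 1 ≤ n) (K : ℕ) (z : (FC p n (0 : Ball C)).Pt) :
    p ^ K • rt p hn K z = z := (exists_p_root p hn K z).choose_spec

theorem rt_add {n : ℕ} (hn : 1 ≤ n) (K : ℕ) (z w : (FC p n (0 : Ball C)).Pt) :
    rt p hn K (z + w) = rt p hn K z + rt p hn K w := by
  apply honda_injective p hn K
  simp only [smul_add, rt_spec]

theorem rt_zero {n : ℕ} (hn : 1 ≤ n) (z : (FC p n (0 : Ball C)).Pt) : rt p hn 0 z = z := by
  have := rt_spec p hn 0 z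
  rwa [pow_zero, one_smul] at this

theorem rt_succ {n : ℕ} (hn : 1 ≤ n) (K : ℕ) (z : (FC p n (0 : Ball C)).Pt) :
    p • rt p hn (K + 1) z = rt p hn K z := by
  apply honda_injective p hn K
  simp only [rt_spec]
  rw [← mul_smul, ← pow_succ, rt_spec]

/-- the approximations of the exponential -/
noncomputable def expK {n : ℕ} (hn : 1 ≤ n) (x : Ball C) (K : ℕ) (z : (FC p n (0 : Ball C)).Pt) :
    (FC p n x).Pt := p ^ K • cst (rt p hn K z)

theorem expK_succ_sub_le {n : ℕ} (hn : 1 ≤ n) {x : Ball C} {ρ : ℝ} (h0 : 0 ≤ ρ)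
    (hρ : SizeLE n x ρ) (K : ℕ) (z : (FC p n (0 : Ball C)).Pt) :
    ‖(expK p hn x (K + 1) z).1 - (expK p hn x K z).1‖ ≤ ρ ^ p ^ K := by
  rw [← CFG.norm_sub_val]
  unfold expK
  rw [pow_succ, mul_smul, ← smul_sub]
  refine norm_nsmul_pow_le' p hn x K ?_
  rw [CFG.norm_sub_val, cst_val, ← rt_succ p hn K z]
  exact norm_nsmul_sub_le p h0 hρ.sub_zero p _ _ rfl

theorem exists_expv {n : ℕ} (hn : 1 ≤ n) {x : Ball C} {ρ : ℝ} (h0 : 0 ≤ ρ) (h1 : ρ < 1)
    (hρ : SizeLE n x ρ) (z : (FC p n (0 : Ball C)).Pt) :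
    ∃ w : (FC p n x).Pt, ∀ K, ‖w.1 - (expK p hn x K z).1‖ ≤ ρ ^ p ^ K := by
  obtain ⟨L, hL⟩ := exists_lim (u := fun K => (expK p hn x K z).1) (antitone_pow_pow p h0 h1.le)
    (tendsto_pow_pow p h0 h1) (fun K => expK_succ_sub_le p hn h0 hρ K z)
  have hL1 : ‖L‖ < 1 := by
    have h2 := hL 0
    rw [pow_zero, pow_one] at h2
    calc ‖L‖ = ‖(L - (expK p hn x 0 z).1) + (expK p hn x 0 z).1‖ := by rw [sub_add_cancel]
      _ ≤ max _ _ := IsUltrametricDist.norm_add_le_max _ _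
      _ < 1 := max_lt (h2.trans_lt h1) (expK p hn x 0 z).2
  exact ⟨⟨L, hL1⟩, hL⟩

theorem expK_add_sub_le {n : ℕ} (hn : 1 ≤ n) {x : Ball C} {ρ : ℝ} (h0 : 0 ≤ ρ)
    (hρ : SizeLE n x ρ) (K : ℕ) (z w : (FC p n (0 : Ball C)).Pt) :
    ‖(expK p hn x K (z + w) - (expK p hn x K z + expK p hn x K w)).1‖ ≤ ρ ^ p ^ K := by
  unfold expK
  rw [rt_add, ← smul_add, ← smul_sub]
  refine norm_nsmul_pow_le' p hn x K ?_
  rw [CFG.norm_sub_val, cst_val, norm_sub_rev]
  exact norm_plus_sub_le p h0 hρ.sub_zero _ _ _ _ rfl rfl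

theorem pt_ext_of_le {G : CFG C} {a b : G.Pt} {f : ℕ → ℝ} (hf : Tendsto f atTop (𝓝 0))
    (h : ∀ K, ‖(a - b).1‖ ≤ f K) : a = b := by
  refine Subtype.ext (sub_eq_zero.mp ?_)
  rw [← norm_eq_zero, ← CFG.norm_sub_val]
  exact le_antisymm (ge_of_tendsto' hf h) (norm_nonneg _)

theorem CFG.norm_add_le' (G : CFG C) {a b : G.Pt} {r : ℝ} (ha : ‖a.1‖ ≤ r) (hb : ‖b.1‖ ≤ r) :
    ‖(a + b).1‖ ≤ r := (G.norm_add_le a b).trans (max_le ha hb)

theorem CFG.norm_sub_le' (G : CFG C) {a b : G.Pt} {r : ℝ} (ha : ‖a.1‖ ≤ r) (hb : ‖b.1‖ ≤ r) :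
    ‖(a - b).1‖ ≤ r := by
  rw [sub_eq_add_neg]
  exact G.norm_add_le' ha (by rw [CFG.norm_neg]; exact hb)

theorem exists_exp {n : ℕ} (hn : 1 ≤ n) (x : Ball C) :
    ∃ e : (FC p n (0 : Ball C)).Pt →+ (FC p n x).Pt,
      ∀ ρ : ℝ, 0 ≤ ρ → SizeLE n x ρ → ∀ K z, ‖(e z).1 - (expK p hn x K z).1‖ ≤ ρ ^ p ^ K := by
  obtain ⟨ρ, h0, h1, hρ⟩ := exists_size n x
  choose e he using exists_expv p hn h0 h1 hρ
  have hadd : ∀ z w, e (z + w) = e z + e w := by
    intro z w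
    refine pt_ext_of_le (tendsto_pow_pow p h0 h1) fun K => ?_
    have h2 : e (z + w) - (e z + e w) = (e (z + w) - expK p hn x K (z + w)) +
        (expK p hn x K (z + w) - (expK p hn x K z + expK p hn x K w)) -
        ((e z - expK p hn x K z) + (e w - expK p hn x K w)) := by abel
    rw [h2]
    have h3 : ∀ z, ‖(e z - expK p hn x K z).1‖ ≤ ρ ^ p ^ K := fun z => by
      rw [CFG.norm_sub_val]; exact he z K
    exact CFG.norm_sub_le' _ (CFG.norm_add_le' _ (h3 _) (expK_add_sub_le p hn h0 hρ K z w))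
      (CFG.norm_add_le' _ (h3 _) (h3 _))
  refine ⟨AddMonoidHom.mk' e hadd, fun ρ' h0' hρ' K z => ?_⟩
  change ‖(e z).1 - (expK p hn x K z).1‖ ≤ ρ' ^ p ^ K
  rcases lt_or_ge ρ' 1 with h1' | h1'
  · obtain ⟨w, hw⟩ := exists_expv p hn h0' h1' hρ' z
    have : e z = w := by
      refine pt_ext_of_le (f := fun K => max (ρ ^ p ^ K) (ρ' ^ p ^ K)) ?_ fun K => ?_
      · simpa using (tendsto_pow_pow p h0 h1).max (tendsto_pow_pow p h0' h1')
      · rw [CFG.norm_sub_val]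
        have : (e z).1 - w.1 = ((e z).1 - (expK p hn x K z).1) - (w.1 - (expK p hn x K z).1) := by
          ring
        rw [this]
        exact (norm_sub_le_max' _ _).trans (max_le_max (he z K) (hw K))
    rw [this]
    exact hw K
  · refine le_trans ?_ (one_le_pow₀ h1')
    exact (norm_sub_le_max' _ _).trans (max_le (e z).2.le (expK p hn x K z).2.le)

theorem exists_unique_exp {n : ℕ} (hn : 1 ≤ n) (x : Ball C) :
    ∃! e : (FC p n (0 : Ball C)).Pt →+ (FC p n x).Pt, ∃ ρ < (1 : ℝ), ∀ z, ‖(e z).1 - z.1‖ ≤ ρ := by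
  obtain ⟨e, he⟩ := exists_exp p hn x
  obtain ⟨ρ, h0, h1, hρ⟩ := exists_size n x
  have he1 : ∀ z, ‖(e z).1 - z.1‖ ≤ ρ := by
    intro z
    have := he ρ h0 hρ 0 z
    rw [pow_zero, pow_one] at this
    have h2 : (expK p hn x 0 z).1 = z.1 := by
      unfold expK
      rw [pow_zero, one_smul, rt_zero]
      rfl
    rwa [h2] at this
  refine ⟨e, ⟨ρ, h1, he1⟩, ?_⟩
  rintro e' ⟨ρ', h1', he'⟩
  ext z : 1
  have h3 := hom_eq_zero_of_le p hn x (e' - e) (r := max ρ' ρ) (max_lt h1' h1) (fun z => by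
    rw [AddMonoidHom.sub_apply, CFG.norm_sub_val]
    have : (e' z).1 - (e z).1 = ((e' z).1 - z.1) - ((e z).1 - z.1) := by ring
    rw [this]
    exact (norm_sub_le_max' _ _).trans (max_le_max (he' z) (he1 z))) z
  rw [AddMonoidHom.sub_apply] at h3
  exact sub_eq_zero.mp h3

/-- the exponential of `F_x` -/
noncomputable def expm {n : ℕ} (hn : 1 ≤ n) (x : Ball C) :
    (FC p n (0 : Ball C)).Pt →+ (FC p n x).Pt := (exists_unique_exp p hn x).choose

variable {n : ℕ} (hn : 1 ≤ n)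

theorem expm_sub_expK_le {x : Ball C} {ρ : ℝ} (hρ0 : 0 ≤ ρ) (hρ : SizeLE n x ρ) (K : ℕ)
    (z : (FC p n (0 : Ball C)).Pt) : ‖(expm p hn x z).1 - (expK p hn x K z).1‖ ≤ ρ ^ p ^ K := by
  obtain ⟨e, he⟩ := exists_exp p hn x
  obtain ⟨ρ', h0, h1, hρ'⟩ := exists_size n x
  have he1 : ∀ z, ‖(e z).1 - z.1‖ ≤ ρ' := by
    intro z
    have := he ρ' h0 hρ' 0 z
    rw [pow_zero, pow_one] at this
    have h2 : (expK p hn x 0 z).1 = z.1 := by
      unfold expK
      rw [pow_zero, one_smul, rt_zero]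
      rfl
    rwa [h2] at this
  have : e = expm p hn x := (exists_unique_exp p hn x).choose_spec.2 e ⟨ρ', h1, he1⟩
  rw [← this]
  exact he ρ hρ0 hρ K z

theorem expm_sub_le {x : Ball C} {ρ : ℝ} (hρ0 : 0 ≤ ρ) (hρ : SizeLE n x ρ)
    (z : (FC p n (0 : Ball C)).Pt) : ‖(expm p hn x z).1 - z.1‖ ≤ ρ := by
  have := expm_sub_expK_le p hn hρ0 hρ 0 z
  rw [pow_zero, pow_one] at this
  have h2 : (expK p hn x 0 z).1 = z.1 := by
    unfold expK
    rw [pow_zero, one_smul, rt_zero]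
    rfl
  rwa [h2] at this

theorem expm_lip {x x' : Ball C} {ε : ℝ} (hε0 : 0 ≤ ε)
    (h : ∀ j, 1 ≤ j → j < n → ‖x.1 j - x'.1 j‖ ≤ ε) (z : (FC p n (0 : Ball C)).Pt) :
    ‖(expm p hn x z).1 - (expm p hn x' z).1‖ ≤ ε := by
  obtain ⟨ρ, h0, h1, hρ⟩ := exists_size n x
  obtain ⟨ρ', h0', h1', hρ'⟩ := exists_size n x'
  have hlim : Tendsto (fun K : ℕ => max ε (max (ρ ^ p ^ K) (ρ' ^ p ^ K))) atTop (𝓝 ε) := by
    have := (tendsto_const_nhds (x := ε) (f := (atTop : Filter ℕ))).max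
      ((tendsto_pow_pow p h0 h1).max (tendsto_pow_pow p h0' h1'))
    rwa [max_self, max_eq_left hε0] at this
  refine ge_of_tendsto' hlim fun K => ?_
  have e1 := expm_sub_expK_le p hn h0 hρ K z
  have e2 := expm_sub_expK_le p hn h0' hρ' K z
  have e3 : ‖(expK p hn x K z).1 - (expK p hn x' K z).1‖ ≤ ε := by
    unfold expK
    exact norm_nsmul_sub_le p hε0 h (p ^ K) _ _ rfl
  have e4 : (expm p hn x z).1 - (expm p hn x' z).1 =
      ((expK p hn x K z).1 - (expK p hn x' K z).1) +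
      (((expm p hn x z).1 - (expK p hn x K z).1) - ((expm p hn x' z).1 - (expK p hn x' K z).1)) := by
    ring
  rw [e4]
  refine (IsUltrametricDist.norm_add_le_max _ _).trans (max_le_max e3 ?_)
  exact (norm_sub_le_max' _ _).trans (max_le_max e1 e2)

theorem expm_comp {x x' : Ball C} (ψ : CHom (FC p n x') (FC p n x))
    (γ : CHom (FC p n (0 : Ball C)) (FC p n 0)) {ρ : ℝ} (hρ : ρ < 1)
    (h : ∀ i, ‖PowerSeries.coeff i ψ.ps - PowerSeries.coeff i γ.ps‖ ≤ ρ)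
    (z : (FC p n (0 : Ball C)).Pt) :
    ψ.map (expm p hn x' z) = expm p hn x (γ.map z) := by
  have hρ0 : 0 ≤ ρ := (norm_nonneg _).trans (h 0)
  obtain ⟨r, h0, h1, hr⟩ := exists_size n x
  obtain ⟨r', h0', h1', hr'⟩ := exists_size n x'
  have key := hom_eq_zero_of_le p hn x (ψ.map.comp (expm p hn x') - (expm p hn x).comp γ.map)
    (r := max (max r' ρ) r) (max_lt (max_lt h1' hρ) h1) (fun z => by
    rw [AddMonoidHom.sub_apply, CFG.norm_sub_val, AddMonoidHom.comp_apply, AddMonoidHom.comp_apply]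
    have e1 : ‖(ψ.map (expm p hn x' z)).1 - (ψ.map (cst z)).1‖ ≤ r' := by
      rw [CHom.map_val, CHom.map_val]
      exact norm_ev_sub_le (fun _ => (expm p hn x' z).2) ψ.bdd (fun _ => z.2) h0'
        (fun _ => expm_sub_le p hn h0' hr' z)
    have e2 : ‖(ψ.map (cst z)).1 - (γ.map z).1‖ ≤ ρ := by
      rw [CHom.map_val, CHom.map_val]
      refine norm_ev_sub_le' (fun _ => z.2) ψ.bdd γ.bdd hρ0 fun d => ?_
      have hd : d = Finsupp.single () (d ()) := Finsupp.unique_single d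
      rw [hd]
      exact h _
    have e3 := expm_sub_le p hn h0 hr (γ.map z)
    have e4 : (ψ.map (expm p hn x' z)).1 - (expm p hn x (γ.map z)).1 =
        (((ψ.map (expm p hn x' z)).1 - (ψ.map (cst z)).1) + ((ψ.map (cst z)).1 - (γ.map z).1)) -
        ((expm p hn x (γ.map z)).1 - (γ.map z).1) := by ring
    rw [e4]
    refine (norm_sub_le_max' _ _).trans (max_le_max ?_ e3)
    exact (IsUltrametricDist.norm_add_le_max _ _).trans (max_le_max e1 e2)) z
  rw [AddMonoidHom.sub_apply] at key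
  exact sub_eq_zero.mp key

/-- `exp_x` is continuous at `0` (hence everywhere) -/
theorem expm_small (x : Ball C) {ε : ℝ} (hε : 0 < ε) : ∃ η > 0, ∀ z : (FC p n (0 : Ball C)).Pt,
    ‖z.1‖ ≤ η → ‖(expm p hn x z).1‖ ≤ ε := by
  obtain ⟨ρ, h0, h1, hρ⟩ := exists_size n x
  obtain ⟨r, hr⟩ : ∃ r, r = max ρ (1 / 2) := ⟨_, rfl⟩
  have hr0 : 0 < r := by rw [hr]; positivity
  have hr1 : r < 1 := by rw [hr]; exact max_lt h1 (by norm_num)
  have hρr : ρ ≤ r := by rw [hr]; exact le_max_left _ _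
  obtain ⟨K, hK⟩ := ((tendsto_pow_pow p hr0.le hr1).eventually (gt_mem_nhds hε)).exists
  refine ⟨r ^ (p ^ n) ^ K, by positivity, fun z hz => ?_⟩
  have h2 : ‖(rt p hn K z).1‖ ≤ r := by
    have h3 : z.1 = (rt p hn K z).1 ^ (p ^ n) ^ K := by
      rw [← norm_nsmul_honda p hn, rt_spec]
    rw [h3, norm_pow] at hz
    exact le_of_pow_le_pow_left₀ (pow_pos (pow_pos (Fact.out : p.Prime).pos _) _).ne' hr0.le hz
  have h4 : ‖(expm p hn x (rt p hn K z)).1‖ ≤ r := by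
    have h5 := expm_sub_le p hn h0 hρ (rt p hn K z)
    calc ‖(expm p hn x (rt p hn K z)).1‖ =
          ‖((expm p hn x (rt p hn K z)).1 - (rt p hn K z).1) + (rt p hn K z).1‖ := by
          rw [sub_add_cancel]
      _ ≤ max _ _ := IsUltrametricDist.norm_add_le_max _ _
      _ ≤ r := max_le (h5.trans hρr) h2
  have h6 : expm p hn x z = p ^ K • expm p hn x (rt p hn K z) := by
    rw [← map_nsmul, rt_spec]
  rw [h6]
  exact (norm_nsmul_pow_le' p hn x K h4).trans hK.le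

include hn in
/-- division by `p` on `F_x` -/
theorem exists_p_div (x : Ball C) (y : (FC p n x).Pt) : ∃ y' : (FC p n x).Pt, p • y' = y := by
  obtain ⟨ρ, h0, h1, hρ⟩ := exists_size n x
  obtain ⟨f, hf⟩ : ∃ f : PowerSeries C, f = mulPS (FC p n x).toFormalGroup p -
    PowerSeries.C y.1 := ⟨_, rfl⟩
  have hC : Bdd (PowerSeries.C y.1 : PowerSeries C) := Bdd.C_iff.mpr y.2.le
  have hm : ∀ i, ‖PowerSeries.coeff i (mulPS (FC p n x).toFormalGroup p) -
      PowerSeries.coeff i ((PowerSeries.X : PowerSeries C) ^ p ^ n)‖ ≤ ρ := by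
    intro i
    rw [← mulPS_honda (R := C) p n hn]
    have e1 := coeff_mulPS_FC p n x p (Finsupp.single () i)
    have e2 := coeff_mulPS_FC p n (0 : Ball C) p (Finsupp.single () i)
    have e3 : mulPS (FC p n (0 : Ball C)).toFormalGroup p = mulPS (hazF p (prm n (0 : ℕ → C))) p := rfl
    rw [e3] at e2
    change ‖coeff (Finsupp.single () i) _ - coeff (Finsupp.single () i) _‖ ≤ ρ
    rw [e1, e2]
    exact norm_phi_sub_le (norm_prm_le n x) (norm_prm_le n 0) h0 (norm_prm_sub_le h0 hρ.sub_zero) _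
  have hq : 0 < p ^ n := pow_pos (Fact.out : p.Prime).pos _
  have hW : WDeg f (p ^ n) := by
    refine ⟨?_, ?_, ?_⟩
    · rw [hf]; exact ((FC p n x).bdd_mulPS p).sub hC
    · intro i hi
      rw [hf, map_sub, PowerSeries.coeff_C]
      have h2 := hm i
      rw [PowerSeries.coeff_X_pow, if_neg hi.ne, sub_zero] at h2
      refine (norm_sub_le_max' _ _).trans_lt (max_lt (h2.trans_lt h1) ?_)
      split_ifs
      · exact y.2
      · simp
    · have h2 := hm (p ^ n)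
      rw [PowerSeries.coeff_X_pow, if_pos rfl] at h2
      rw [hf, map_sub, PowerSeries.coeff_C, if_neg hq.ne', sub_zero]
      have h3 := norm_one_add_eq (h2.trans_lt h1)
      rwa [add_sub_cancel] at h3
  obtain ⟨z, hz1, hz2⟩ := exists_root hW hq
  refine ⟨(⟨z, hz1⟩ : {a : C // ‖a‖ < 1}), Subtype.ext ?_⟩
  refine (CFG.nsmul_val (FC p n x) p (⟨z, hz1⟩ : {a : C // ‖a‖ < 1})).trans ?_
  rw [hf] at hz2
  have e4 : ev1 z (mulPS (FC p n x).toFormalGroup p - PowerSeries.C y.1) =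
      ev1 z (mulPS (FC p n x).toFormalGroup p) - y.1 := by
    unfold ev1
    rw [ev_sub (fun _ => hz1) ((FC p n x).bdd_mulPS p) hC]
    congr 1
    exact ev_C _ _
  rw [e4] at hz2
  exact sub_eq_zero.mp hz2

theorem expm_surjective (x : Ball C) : Function.Surjective (expm p hn x) := by
  intro y
  obtain ⟨ρ, h0, h1, hρ⟩ := exists_size n x
  choose dv hdv using exists_p_div p hn x
  obtain ⟨w, hw⟩ : ∃ w : ℕ → (FC p n x).Pt, w = fun K => dv^[K] y := ⟨_, rfl⟩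
  have hw0 : w 0 = y := by rw [hw]; rfl
  have hws : ∀ K, p • w (K + 1) = w K := by
    intro K
    rw [hw]
    simp only [Function.iterate_succ_apply']
    exact hdv _
  have hwK : ∀ K, p ^ K • w K = y := by
    intro K
    induction K with
    | zero => rw [pow_zero, one_smul, hw0]
    | succ K ih => rw [pow_succ, mul_smul, hws, ih]
  -- frobenius powers
  have hstep : ∀ K, ‖(w (K + 1)).1 ^ (p ^ n) - (w K).1‖ ≤ ρ := by
    intro K
    have e1 : (w (K + 1)).1 ^ (p ^ n) = (p • (cst (w (K + 1)) : (FC p n (0 : Ball C)).Pt)).1 :=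
      (nsmul_p_honda p hn _).symm
    rw [e1, norm_sub_rev, ← hws K]
    exact norm_nsmul_sub_le p h0 hρ.sub_zero p _ _ rfl
  obtain ⟨q, hq⟩ : ∃ q, q = p ^ n := ⟨_, rfl⟩
  have hq2 : p ≤ q := by
    rw [hq]
    calc p = p ^ 1 := (pow_one p).symm
      _ ≤ p ^ n := Nat.pow_le_pow_right (Fact.out : p.Prime).pos hn
  have hfr : ∀ (a b : C) (K : ℕ), a ^ q ^ K - b ^ q ^ K = (a - b) ^ q ^ K := by
    intro a b K
    rw [hq, ← pow_mul, sub_pow_char_pow]
  have hq1 : 1 < q := lt_of_lt_of_le (Fact.out : p.Prime).one_lt hq2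
  have hdec : ∀ K, ‖(w (K + 1)).1 ^ q ^ (K + 1) - (w K).1 ^ q ^ K‖ ≤ ρ ^ q ^ K := by
    intro K
    have : (w (K + 1)).1 ^ q ^ (K + 1) = ((w (K + 1)).1 ^ q) ^ q ^ K := by
      rw [← pow_mul, ← pow_succ']
    rw [this, hfr, norm_pow]
    refine pow_le_pow_left₀ (norm_nonneg _) ?_ _
    rw [hq]
    exact hstep K
  have hanti : Antitone fun K : ℕ => ρ ^ q ^ K := by
    intro a b hab
    exact pow_le_pow_of_le_one h0 h1.le (Nat.pow_le_pow_right (by omega) hab)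
  have htend : Tendsto (fun K : ℕ => ρ ^ q ^ K) atTop (𝓝 0) :=
    (tendsto_pow_atTop_nhds_zero_of_lt_one h0 h1).comp (tendsto_pow_atTop_atTop_of_one_lt hq1)
  obtain ⟨L, hL⟩ := exists_lim (u := fun K => (w K).1 ^ q ^ K) hanti htend hdec
  have hL1 : ‖L‖ < 1 := by
    have h2 := hL 0
    simp only [pow_zero, pow_one] at h2
    calc ‖L‖ = ‖(L - (w 0).1) + (w 0).1‖ := by rw [sub_add_cancel]
      _ ≤ max _ _ := IsUltrametricDist.norm_add_le_max _ _
      _ < 1 := max_lt (h2.trans_lt h1) (w 0).2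
  obtain ⟨z, hz⟩ : ∃ z : (FC p n (0 : Ball C)).Pt, z.1 = L := ⟨(⟨L, hL1⟩ : {a : C // ‖a‖ < 1}), rfl⟩
  refine ⟨z, ?_⟩
  refine pt_ext_of_le (tendsto_pow_pow p h0 h1) fun K => ?_
  have e1 : ‖(rt p hn K z).1 - (w K).1‖ ≤ ρ := by
    have h3 : (rt p hn K z).1 ^ q ^ K = L := by
      rw [hq, ← norm_nsmul_honda p hn, rt_spec, hz]
    have h4 : ‖(rt p hn K z).1 - (w K).1‖ ^ q ^ K ≤ ρ ^ q ^ K := by
      rw [← norm_pow, ← hfr, h3]
      exact hL K
    exact le_of_pow_le_pow_left₀ (pow_pos (by omega) _).ne' h0 h4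
  have e2 : expm p hn x z - y = (expm p hn x z - expK p hn x K z) +
      p ^ K • (cst (rt p hn K z) - w K) := by
    rw [smul_sub, hwK]
    unfold expK
    abel
  rw [e2]
  refine CFG.norm_add_le' _ ?_ (norm_nsmul_pow_le' p hn x K ?_)
  · rw [CFG.norm_sub_val]
    exact expm_sub_expK_le p hn h0 hρ K z
  · rw [CFG.norm_sub_val, cst_val]
    exact e1

/-! ### dependence on `x` -/

theorem tendsto_degree_nat {ι : Type*} [Finite ι] :
    Tendsto (fun q : (ι →₀ ℕ) × ℕ => q.1.degree + q.2) cofinite atTop := by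
  rw [tendsto_atTop]
  intro N
  rw [eventually_cofinite]
  refine ((Finsupp.finite_of_degree_le (σ := ι) N).prod (Set.finite_Iic N)).subset fun q hq => ?_
  simp only [Set.mem_ofPred_eq, not_le, Set.mem_prod, Set.mem_Iic] at hq ⊢
  omega

theorem exists_joint {ι : Type*} [Finite ι] (w : ℕ → MvPowerSeries ι C) (hw : ∀ i, Bdd (w i))
    {c : C} (hc : ‖c‖ < 1) : ∃ g : MvPowerSeries ι C, Bdd g ∧
      ∀ δ : ι → C, (∀ i, ‖δ i‖ < 1) → ev δ g = ∑' i, ev δ (w i) * c ^ i := by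
  obtain ⟨g, hg⟩ : ∃ g : MvPowerSeries ι C, g = fun d => ∑' i, coeff d (w i) * c ^ i := ⟨_, rfl⟩
  have hgc : ∀ d, coeff d g = ∑' i, coeff d (w i) * c ^ i := fun d => by rw [hg]; rfl
  refine ⟨g, fun d => ?_, fun δ hδ => ?_⟩
  · rw [hgc]
    refine norm_tsum_le_of_forall zero_le_one fun i => ?_
    rw [norm_mul, norm_pow]
    exact mul_le_one₀ (hw i d) (by positivity) (pow_le_one₀ (norm_nonneg _) hc.le)
  · obtain ⟨ρ1, h10, h11, h1⟩ := exists_rho hδ
    obtain ⟨ρ, hρ⟩ : ∃ ρ, ρ = max ρ1 ‖c‖ := ⟨_, rfl⟩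
    have h0 : 0 ≤ ρ := by rw [hρ]; exact (norm_nonneg c).trans (le_max_right _ _)
    have hlt : ρ < 1 := by rw [hρ]; exact max_lt h11 hc
    have hδρ : ∀ i, ‖δ i‖ ≤ ρ := fun i => (h1 i).trans (by rw [hρ]; exact le_max_left _ _)
    have hcρ : ‖c‖ ≤ ρ := by rw [hρ]; exact le_max_right _ _
    obtain ⟨F, hF⟩ : ∃ F : (ι →₀ ℕ) → ℕ → C, F = fun d i =>
      coeff d (w i) * c ^ i * (d.prod fun i e => δ i ^ e) := ⟨_, rfl⟩
    have hFs : Summable (Function.uncurry F) := by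
      apply NonarchimedeanAddGroup.summable_of_tendsto_cofinite_zero
      refine squeeze_zero_norm (a := fun q : (ι →₀ ℕ) × ℕ => ρ ^ (q.1.degree + q.2))
        (fun q => ?_) ((tendsto_pow_atTop_nhds_zero_of_lt_one h0 hlt).comp tendsto_degree_nat)
      rw [Function.uncurry, hF]
      simp only
      rw [norm_mul, norm_mul, norm_pow]
      calc ‖coeff q.1 (w q.2)‖ * ‖c‖ ^ q.2 * ‖q.1.prod fun i e => δ i ^ e‖ ≤
            1 * ρ ^ q.2 * ρ ^ q.1.degree := by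
            gcongr
            · exact hw _ _
            · exact norm_monomial_le hδρ _
        _ = ρ ^ (q.1.degree + q.2) := by rw [one_mul, pow_add, mul_comm]
    have e1 : ev δ g = ∑' d, ∑' i, F d i := by
      unfold ev
      refine tsum_congr fun d => ?_
      rw [hgc, ← tsum_mul_right, hF]
    have e2 : ∑' i, ev δ (w i) * c ^ i = ∑' i, ∑' d, F d i := by
      refine tsum_congr fun i => ?_
      unfold ev
      rw [← tsum_mul_right, hF]
      refine tsum_congr fun d => ?_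
      ring
    rw [e1, e2, hFs.tsum_comm]

/-- the parameters of `F_{x+δ}`, `δ` formal -/
noncomputable def xi (h n : ℕ) (x : Ball C) : ℕ → MvPowerSeries (Idx h n) C := fun j =>
  if hj : j ∈ Finset.Ico h n then MvPowerSeries.C (x.1 j) + X ⟨j, hj⟩ else MvPowerSeries.C (x.1 j)

theorem bdd_xi (h n : ℕ) (x : Ball C) (j : ℕ) : Bdd (xi h n x j) := by
  unfold xi
  split_ifs
  · exact (Bdd.C_iff.mpr (x.2 j).le).add (Bdd.X _)
  · exact Bdd.C_iff.mpr (x.2 j).le

theorem ev_xi (h n : ℕ) (x : Ball C) (δ : Idx h n → C) (hδ : ∀ i, ‖δ i‖ < 1) (j : ℕ) :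
    ev δ (xi h n x j) = (shiftB x δ hδ).1 j := by
  unfold xi shiftB
  simp only
  split_ifs with hj
  · rw [ev_add hδ (Bdd.C_iff.mpr (x.2 j).le) (Bdd.X _), ev_C, ev_X]
  · rw [ev_C]

theorem bdd_prm_xi (h n : ℕ) (x : Ball C) (j : ℕ) : Bdd (prm n (xi h n x) j) := by
  unfold prm
  split_ifs
  · exact bdd_xi h n x j
  · exact Bdd.one
  · exact Bdd.zero

theorem ev_prm_xi (h n : ℕ) (x : Ball C) (δ : Idx h n → C) (hδ : ∀ i, ‖δ i‖ < 1) (j : ℕ) :
    ev δ (prm n (xi h n x) j) = prm n (shiftB x δ hδ).1 j := by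
  unfold prm
  split_ifs
  · exact ev_xi h n x δ hδ j
  · exact ev_one _
  · exact ev_zero _

/-- evaluation of integral polynomials at the formal parameters -/
noncomputable def Phi (h n : ℕ) (x : Ball C) : MvPolynomial ℕ ℤ →+* MvPowerSeries (Idx h n) C :=
  MvPolynomial.eval₂Hom (Int.castRingHom _) (prm n (xi h n x))

theorem Phi_C (h n : ℕ) (x : Ball C) (a : ℤ) :
    Phi h n x (MvPolynomial.C a) = MvPowerSeries.C (a : C) := by
  rw [Phi, MvPolynomial.coe_eval₂Hom, MvPolynomial.eval₂_C]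
  exact (map_intCast (MvPowerSeries.C (σ := Idx h n) (R := C)) a).symm

theorem bdd_Phi (h n : ℕ) (x : Ball C) (f : MvPolynomial ℕ ℤ) : Bdd (Phi h n x f) := by
  induction f using MvPolynomial.induction_on with
  | C a =>
    rw [Phi_C]
    exact Bdd.C_iff.mpr (IsUltrametricDist.norm_intCast_le_one C a)
  | add f g hf hg =>
    rw [map_add]
    exact hf.add hg
  | mul_X f i hf =>
    rw [map_mul]
    refine hf.mul ?_
    rw [Phi, MvPolynomial.eval₂Hom_X']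
    exact bdd_prm_xi h n x i

theorem ev_Phi (h n : ℕ) (x : Ball C) (δ : Idx h n → C) (hδ : ∀ i, ‖δ i‖ < 1)
    (f : MvPolynomial ℕ ℤ) : ev δ (Phi h n x f) = phi (prm n (shiftB x δ hδ).1) f := by
  induction f using MvPolynomial.induction_on with
  | C a =>
    rw [Phi_C, ev_C]
    simp
  | add f g hf hg =>
    rw [map_add, map_add, ev_add hδ (bdd_Phi h n x f) (bdd_Phi h n x g), hf, hg]
  | mul_X f i hf =>
    rw [map_mul, map_mul, ev_mul hδ (bdd_Phi h n x f) (bdd_Phi h n x _), hf]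
    congr 1
    rw [Phi, MvPolynomial.eval₂Hom_X', MvPolynomial.eval₂Hom_X']
    exact ev_prm_xi h n x δ hδ i

theorem exists_mul_series (h n : ℕ) (x : Ball C) (m : ℕ) {c : C} (hc : ‖c‖ < 1) :
    ∃ g : MvPowerSeries (Idx h n) C, Bdd g ∧ ∀ (δ : Idx h n → C) (hδ : ∀ i, ‖δ i‖ < 1),
      ev δ g = ev1 c (mulPS (FC p n (shiftB x δ hδ)).toFormalGroup m) := by
  obtain ⟨g, hg, hev⟩ := exists_joint (fun i => Phi h n x
    (coeff (Finsupp.single () i) (mulPS (haz p) m))) (fun i => bdd_Phi h n x _) hc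
  refine ⟨g, hg, fun δ hδ => ?_⟩
  rw [hev δ hδ, ev1_eq_tsum]
  refine tsum_congr fun i => ?_
  rw [ev_Phi h n x δ hδ]
  congr 1
  exact (coeff_mulPS_FC p n (shiftB x δ hδ) m (Finsupp.single () i)).symm

theorem norm_shiftB_sub_le (h n : ℕ) (x : Ball C) (δ : Idx h n → C) (hδ : ∀ i, ‖δ i‖ < 1) (j : ℕ) :
    ‖(shiftB x δ hδ).1 j - x.1 j‖ ≤ ‖δ‖ := by
  unfold shiftB
  simp only
  split_ifs with hj
  · rw [add_sub_cancel_left]
    exact norm_le_pi_norm δ _
  · simp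

theorem expm_series (h : ℕ) (x : Ball C) (t : (FC p n (0 : Ball C)).Pt) :
    ∃ Q : MvPowerSeries (Idx h n) C, Bdd Q ∧
      ∀ (δ : Idx h n → C) (hδ : ∀ i, ‖δ i‖ < 1), (expm p hn (shiftB x δ hδ) t).1 = ev δ Q := by
  have hex : ∀ K : ℕ, ∃ g : MvPowerSeries (Idx h n) C, Bdd g ∧
      ∀ (δ : Idx h n → C) (hδ : ∀ i, ‖δ i‖ < 1),
        ‖(expm p hn (shiftB x δ hδ) t).1 - ev δ g‖ ≤ ‖δ‖ ^ p ^ K := by
    intro K
    obtain ⟨g, hg, hev⟩ := exists_mul_series p h n x (p ^ K) (expm p hn x (rt p hn K t)).2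
    refine ⟨g, hg, fun δ hδ => ?_⟩
    have e1 : ev δ g = (p ^ K • (cst (expm p hn x (rt p hn K t)) :
        (FC p n (shiftB x δ hδ)).Pt)).1 := by
      rw [hev δ hδ, CFG.nsmul_val]
      rfl
    have e2 : expm p hn (shiftB x δ hδ) t = p ^ K • expm p hn (shiftB x δ hδ) (rt p hn K t) := by
      rw [← map_nsmul, rt_spec]
    rw [e1, e2, ← CFG.norm_sub_val, ← smul_sub]
    refine norm_nsmul_pow_le' p hn _ K ?_
    rw [CFG.norm_sub_val, cst_val]
    exact expm_lip p hn (norm_nonneg _) (fun j _ _ => norm_shiftB_sub_le h n x δ hδ j) _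
  choose B hB hBe using hex
  have hst : ∀ K (d : Idx h n →₀ ℕ), d.degree < p ^ K → coeff d (B (K + 1) - B K) = 0 := by
    intro K d hd
    refine coeff_eq_zero_of_norm_ev_le ((hB _).sub (hB _)) (K := 1) (r := 1) one_pos
      (fun δ hδ1 hδ => ?_) d hd
    rw [ev_sub hδ (hB _) (hB _), one_mul]
    have e : ev δ (B (K + 1)) - ev δ (B K) =
        ((expm p hn (shiftB x δ hδ) t).1 - ev δ (B K)) -
        ((expm p hn (shiftB x δ hδ) t).1 - ev δ (B (K + 1))) := by ring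
    rw [e]
    refine (norm_sub_le_max' _ _).trans (max_le (hBe K δ hδ) ((hBe (K + 1) δ hδ).trans ?_))
    exact pow_le_pow_of_le_one (norm_nonneg _) hδ1.le
      (Nat.pow_le_pow_right (Fact.out : p.Prime).pos (Nat.le_succ K))
  have hst2 : ∀ (d : Idx h n →₀ ℕ) (m : ℕ), coeff d (B (d.degree + m)) = coeff d (B d.degree) := by
    intro d m
    induction m with
    | zero => rfl
    | succ m ih =>
      have h1 : d.degree < p ^ (d.degree + m) :=
        (Nat.lt_pow_self (Fact.out : p.Prime).one_lt).trans_le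
          (Nat.pow_le_pow_right (Fact.out : p.Prime).pos (Nat.le_add_right _ _))
      have h2 := hst (d.degree + m) d h1
      rw [map_sub, sub_eq_zero] at h2
      rw [← add_assoc, h2, ih]
  obtain ⟨Q, hQ⟩ : ∃ Q : MvPowerSeries (Idx h n) C, Q = fun d => coeff d (B d.degree) := ⟨_, rfl⟩
  have hQc : ∀ d, coeff d Q = coeff d (B d.degree) := fun d => by rw [hQ]; rfl
  have hQb : Bdd Q := fun d => by rw [hQc]; exact hB _ _
  refine ⟨Q, hQb, fun δ hδ => ?_⟩
  have hδ1 : ‖δ‖ < 1 := (pi_norm_lt_iff one_pos).mpr hδ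
  refine eq_of_norm_sub_le_pow (norm_nonneg δ) hδ1 fun K => ?_
  have e1 : ‖ev δ Q - ev δ (B K)‖ ≤ ‖δ‖ ^ K := by
    rw [← ev_sub hδ hQb (hB K)]
    refine norm_ev_le_pow hδ (hQb.sub (hB K)) (norm_le_pi_norm δ) (norm_nonneg _) fun d hd => ?_
    obtain ⟨m, hm⟩ := Nat.exists_eq_add_of_le hd.le
    rw [map_sub, hQc, hm, hst2, sub_self]
  have e2 : (expm p hn (shiftB x δ hδ) t).1 - ev δ Q =
      ((expm p hn (shiftB x δ hδ) t).1 - ev δ (B K)) - (ev δ Q - ev δ (B K)) := by ring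
  rw [e2]
  refine (norm_sub_le_max' _ _).trans (max_le ((hBe K δ hδ).trans ?_) e1)
  exact pow_le_pow_of_le_one (norm_nonneg _) hδ1.le (Nat.lt_pow_self (Fact.out : p.Prime).one_lt).le

end exp

end Lip

end Chai
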