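import Vale.Agent.Chai.DensityB
import Vale.Agent.Chai.Exp

/-!
# P217 / DensityC: the family `V_{x+δ}` and the Frobenius relation `β(V(X)) = β^{(q)}(X)`
-/

namespace Chai

open MvPowerSeries Filter Topology

section V

variable (p : ℕ) [Fact p.Prime]
variable {C : Type*} [NontriviallyNormedField C] [IsUltrametricDist C] [CompleteSpace C]

/-- `V` with universal coefficients -/
noncomputable def VZ (h n : ℕ) : PowerSeries (MvPolynomial ℕ ℤ) :=
  fsum (haz p) ((List.range (n - h + 1)).map fun j =>
    PowerSeries.C (MvPolynomial.X (h + j)) * (PowerSeries.X : PowerSeries (MvPolynomial ℕ ℤ)) ^ p ^ j)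

theorem den_VPS_eq_map (h n : ℕ) (x : Ball C) :
    VPS p h n x = PowerSeries.map (phi (prm n x.1)) (VZ p h n) := by
  have hl : ∀ a ∈ (List.range (n - h + 1)).map fun j =>
      PowerSeries.C (MvPolynomial.X (h + j)) *
        (PowerSeries.X : PowerSeries (MvPolynomial ℕ ℤ)) ^ p ^ j,
      constantCoeff a = 0 := by
    intro a ha
    obtain ⟨j, _, rfl⟩ := List.mem_map.1 ha
    show PowerSeries.constantCoeff _ = 0
    rw [map_mul, map_pow, PowerSeries.constantCoeff_X,
      zero_pow (pow_ne_zero _ (Fact.out : p.Prime).ne_zero), mul_zero]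
  have h1 := map_fsum (haz p) (phi (prm n x.1)) hl
  rw [List.map_map] at h1
  have h2 : ((MvPowerSeries.map (σ := Unit) (phi (prm n x.1))) ∘ fun j =>
      PowerSeries.C (MvPolynomial.X (h + j)) *
        (PowerSeries.X : PowerSeries (MvPolynomial ℕ ℤ)) ^ p ^ j) =
      fun j => PowerSeries.C (prm n x.1 (h + j)) * (PowerSeries.X : PowerSeries C) ^ p ^ j := by
    funext j
    simp only [Function.comp_apply]
    rw [haz_map_CX]
    congr 2
    simp [phi]
  rw [h2] at h1
  exact h1.symm

section
variable [CharP C p] [IsAlgClosed C]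

/-- the coefficients of `V_{x+δ}` as power series in `δ` -/
noncomputable def Vser (h n : ℕ) (x : Ball C) (k : ℕ) : MvPowerSeries (Idx h n) C :=
  Phi h n x (PowerSeries.coeff k (VZ p h n))

theorem bdd_Vser (h n : ℕ) (x : Ball C) (k : ℕ) : Bdd (Vser p h n x k) := bdd_Phi h n x _

theorem ev_Vser (h n : ℕ) (x : Ball C) (k : ℕ) (δ : Idx h n → C) (hδ : ∀ i, ‖δ i‖ < 1) :
    ev δ (Vser p h n x k) = PowerSeries.coeff k (VPS p h n (shiftB x δ hδ)) := by
  rw [Vser, ev_Phi h n x δ hδ, den_VPS_eq_map, PowerSeries.coeff_map]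

end

theorem coeff_one_pair {R : Type*} [CommRing R] (F : FormalGroup R) {a b : PowerSeries R}
    (ha : PowerSeries.constantCoeff a = 0) (hb : PowerSeries.constantCoeff b = 0) :
    PowerSeries.coeff 1 (F.toPowerSeries.subst ![a, b] : PowerSeries R) =
      PowerSeries.coeff 1 a + PowerSeries.coeff 1 b := by
  have hs : HasSubst ![a, b] := hasSubst_pair (τ := Unit) ha hb
  have h1 : F.toPowerSeries.subst ![a, b] =
      a + b + a * b * (FormalGroup.kk F).subst ![a, b] := by
    conv_lhs => rw [FormalGroup.eq_kk F]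
    rw [subst_add hs, subst_add hs, subst_mul hs, subst_mul hs, subst_X hs, subst_X hs]
    rfl
  rw [h1]
  have hX : (PowerSeries.X : PowerSeries R) ^ 2 ∣ a * b * (FormalGroup.kk F).subst ![a, b] := by
    rw [pow_two]
    exact Dvd.dvd.mul_right (mul_dvd_mul (PowerSeries.X_dvd_iff.2 ha) (PowerSeries.X_dvd_iff.2 hb)) _
  have h2 := PowerSeries.X_pow_dvd_iff.1 hX 1 (by omega)
  have h3 : PowerSeries.coeff 1 (a + b + a * b * (FormalGroup.kk F).subst ![a, b]) =
      PowerSeries.coeff 1 a + PowerSeries.coeff 1 b +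
        PowerSeries.coeff 1 (a * b * (FormalGroup.kk F).subst ![a, b]) := by
    rw [map_add, map_add]
  rw [h2, add_zero] at h3
  exact h3

theorem den_coeff_one_fsum {R : Type*} [CommRing R] (F : FormalGroup R) (l : List (PowerSeries R))
    (hl : ∀ a ∈ l, PowerSeries.constantCoeff a = 0) :
    PowerSeries.coeff 1 (fsum F l : PowerSeries R) = (l.map (PowerSeries.coeff 1)).sum := by
  induction l with
  | nil => exact map_zero _
  | cons a l ih =>
    have h1 := ih fun b hb => hl b (List.mem_cons_of_mem _ hb)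
    rw [List.map_cons, List.sum_cons, ← h1]
    exact coeff_one_pair F (hl a (List.mem_cons_self ..))
      (constantCoeff_fsum F l fun b hb => hl b (List.mem_cons_of_mem _ hb))

theorem constantCoeff_VPS (h n : ℕ) (x : Ball C) : PowerSeries.constantCoeff (VPS p h n x) = 0 := by
  refine constantCoeff_fsum (τ := Unit) _ _ ?_
  intro a ha
  obtain ⟨j, _, rfl⟩ := List.mem_map.1 ha
  show PowerSeries.constantCoeff _ = 0
  rw [map_mul, map_pow, PowerSeries.constantCoeff_X,
    zero_pow (pow_ne_zero _ (Fact.out : p.Prime).ne_zero), mul_zero]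

theorem coeff_one_VPS {h n : ℕ} (h1 : 1 ≤ h) (hn : h < n) (x : Ball C) :
    PowerSeries.coeff 1 (VPS p h n x) = x.1 h := by
  have hp := (Fact.out : p.Prime)
  have e1 := den_coeff_one_fsum (FC p n x).toFormalGroup ((List.range (n - h + 1)).map fun j =>
    PowerSeries.C (prm n x.1 (h + j)) * (PowerSeries.X : PowerSeries C) ^ p ^ j) (by
      intro a ha
      obtain ⟨j, _, rfl⟩ := List.mem_map.1 ha
      rw [map_mul, map_pow, PowerSeries.constantCoeff_X, zero_pow (pow_ne_zero _ hp.ne_zero),
        mul_zero])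
  refine e1.trans ?_
  rw [List.map_map, List.range_succ_eq_map, List.map_cons, List.sum_cons, List.map_map]
  have e2 : (List.map (((⇑(PowerSeries.coeff 1) : PowerSeries C → C) ∘ fun j =>
      PowerSeries.C (prm n x.1 (h + j)) * (PowerSeries.X : PowerSeries C) ^ p ^ j) ∘ Nat.succ)
      (List.range (n - h))).sum = 0 := by
    apply List.sum_eq_zero
    intro a ha
    obtain ⟨j, _, rfl⟩ := List.mem_map.1 ha
    simp only [Function.comp_apply]
    rw [PowerSeries.coeff_C_mul, PowerSeries.coeff_X_pow, if_neg, mul_zero]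
    have : 1 < p ^ (j + 1) := Nat.one_lt_pow (by omega) hp.one_lt
    exact this.ne
  rw [e2, add_zero]
  simp only [Function.comp_apply]
  rw [PowerSeries.coeff_C_mul, PowerSeries.coeff_X_pow, pow_zero, if_pos rfl, mul_one, add_zero]
  unfold prm
  rw [if_pos ⟨h1, hn⟩]

section
variable [CharP C p] [IsAlgClosed C]

theorem Vser_zero (h n : ℕ) (x : Ball C) : Vser p h n x 0 = 0 := by
  unfold Vser
  have : PowerSeries.coeff 0 (VZ p h n) = 0 := by
    rw [PowerSeries.coeff_zero_eq_constantCoeff_apply]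
    refine constantCoeff_fsum (τ := Unit) _ _ ?_
    intro a ha
    obtain ⟨j, _, rfl⟩ := List.mem_map.1 ha
    show PowerSeries.constantCoeff _ = 0
    rw [map_mul, map_pow, PowerSeries.constantCoeff_X,
      zero_pow (pow_ne_zero _ (Fact.out : p.Prime).ne_zero), mul_zero]
  rw [this, map_zero]

theorem shiftB_zero {h n : ℕ} (x : Ball C) (h0 : ∀ i : Idx h n, ‖(0 : C)‖ < 1) :
    shiftB x (fun _ : Idx h n => (0 : C)) h0 = x := by
  apply Subtype.ext
  funext j
  show (if hj : j ∈ Finset.Ico h n then x.1 j + 0 else x.1 j) = x.1 j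
  split_ifs <;> simp

theorem Vser_one {h n : ℕ} (h1 : 1 ≤ h) (hn : h < n) (x : Ball C) :
    constantCoeff (Vser p h n x 1) = x.1 h := by
  rw [← ev_at_zero, ev_Vser p h n x 1 _ (by simp), shiftB_zero, coeff_one_VPS p h1 hn]

end

end V

section Frob

variable (p : ℕ) [Fact p.Prime]
variable {C : Type*} [NontriviallyNormedField C] [IsUltrametricDist C] [CompleteSpace C] [CharP C p]

theorem root_of_hom {h n : ℕ} (h1 : 1 ≤ h) (hn : h ≤ n) {x : Ball C}
    (hx : ∀ j, 1 ≤ j → j < h → x.1 j = 0) {b : PowerSeries C}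
    (hb : IsHom b (FC p n x).toFormalGroup (FC p h (0 : Ball C)).toFormalGroup) :
    b.subst (VPS p h n x) = b.map (iterateFrobenius C p h) := by
  have hp : p ≠ 0 := (Fact.out : p.Prime).ne_zero
  have hq : p ^ h ≠ 0 := pow_ne_zero _ hp
  have hsb : PowerSeries.HasSubst b := PowerSeries.HasSubst.of_constantCoeff_zero' hb.1
  have hsV : PowerSeries.HasSubst (VPS p h n x) :=
    PowerSeries.HasSubst.of_constantCoeff_zero' (constantCoeff_VPS p h n x)
  have hsX : PowerSeries.HasSubst ((PowerSeries.X : PowerSeries C) ^ p ^ h) :=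
    PowerSeries.HasSubst.X_pow hq
  have e1 := hb.mulPS_comm p
  rw [mulPS_eq_VPS p h1 hn hx] at e1
  have e2 : mulPS (FC p h (0 : Ball C)).toFormalGroup p = (PowerSeries.X : PowerSeries C) ^ p ^ h :=
    mulPS_honda p h h1
  rw [e2, PowerSeries.subst_pow hsb, PowerSeries.subst_X hsb] at e1
  have e3 : PowerSeries.subst ((PowerSeries.subst ((PowerSeries.X : PowerSeries C) ^ p ^ h)
      (VPS p h n x)) : PowerSeries C) b =
      PowerSeries.subst ((PowerSeries.X : PowerSeries C) ^ p ^ h) (b.subst (VPS p h n x) :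
        PowerSeries C) := by
    rw [PowerSeries.subst_comp_subst_apply hsV hsX]
  have e4 : PowerSeries.map (iterateFrobenius C p h)
      (PowerSeries.expand (p ^ h) hq b) = b ^ p ^ h :=
    MvPowerSeries.map_iterateFrobenius_expand p hp b h
  have e5 : PowerSeries.expand (p ^ h) hq (PowerSeries.map (iterateFrobenius C p h) b) =
      PowerSeries.expand (p ^ h) hq (b.subst (VPS p h n x)) := by
    rw [PowerSeries.expand_apply, PowerSeries.expand_apply, ← e3, e1, ← e4,
      ← PowerSeries.expand_apply (p ^ h) hq, PowerSeries.map_expand]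
  symm
  ext i
  have := congrArg (PowerSeries.coeff (p ^ h * i)) e5
  rwa [PowerSeries.coeff_expand_mul, PowerSeries.coeff_expand_mul] at this

end Frob

end Chai
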