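import Vale.Agent.Chai.DensityC

/-!
# P217 / DensityD: endomorphisms of the Honda group over `k`, convergence of compositions
-/

namespace Chai

open MvPowerSeries Filter Topology

section HomAdd

variable {R : Type*} [CommRing R]

theorem IsHom.zero (F G : FormalGroup R) : IsHom (0 : PowerSeries R) F G := by
  have h0 : ∀ {τ : Type} (a : MvPowerSeries τ R), constantCoeff a = 0 →
      (0 : PowerSeries R).subst a = 0 := by
    intro τ a ha
    rw [← PowerSeries.coe_substAlgHom (PowerSeries.HasSubst.of_constantCoeff_zero ha), map_zero]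
  refine ⟨map_zero _, ?_⟩
  rw [h0 _ F.zero_constantCoeff, h0 _ (constantCoeff_X _), h0 _ (constantCoeff_X _)]
  have := G.zero_add (f := (0 : MvPowerSeries (Fin 2) R)) PowerSeries.HasSubst.zero
  exact this.symm

theorem IsHom.add {f g : PowerSeries R} {F G : FormalGroup R} (hG : G.IsComm) (hf : IsHom f F G)
    (hg : IsHom g F G) : IsHom (G.toPowerSeries.subst ![f, g] : PowerSeries R) F G := by
  have hc : ∀ a : MvPowerSeries (Fin 2) R, constantCoeff a = 0 →
      PowerSeries.subst a (G.toPowerSeries.subst ![f, g] : PowerSeries R) =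
        G.toPowerSeries.subst ![f.subst a, g.subst a] := by
    intro a ha
    exact subst_pair_subst (τ := Unit) (υ := Fin 2) hf.1 hg.1 (c := fun _ => a) (fun _ => ha) _
  refine ⟨constantCoeff_pair (τ := Unit) hf.1 hg.1 G.zero_constantCoeff, ?_⟩
  rw [hc _ F.zero_constantCoeff, hc _ (constantCoeff_X _), hc _ (constantCoeff_X _), hf.2, hg.2]
  have hs : ∀ (u : PowerSeries R) (hu : PowerSeries.constantCoeff u = 0) (i : Fin 2),
      PowerSeries.HasSubst (u.subst (X i : MvPowerSeries (Fin 2) R)) := fun u hu i =>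
    PowerSeries.HasSubst.of_constantCoeff_zero (ccs1 (constantCoeff_X i) hu)
  let a : G.Point (Fin 2) := ⟨_, hs f hf.1 0⟩
  let b : G.Point (Fin 2) := ⟨_, hs f hf.1 1⟩
  let c : G.Point (Fin 2) := ⟨_, hs g hg.1 0⟩
  let d : G.Point (Fin 2) := ⟨_, hs g hg.1 1⟩
  haveI := hG
  have := congrArg Subtype.val (add_add_add_comm a b c d)
  exact this

end HomAdd

section Conv

variable {C : Type*} [NontriviallyNormedField C]

theorem coeff_subst_range {b ψ : PowerSeries C} (hψ : PowerSeries.constantCoeff ψ = 0) (N : ℕ) :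
    PowerSeries.coeff N (b.subst ψ : PowerSeries C) =
      ∑ d ∈ Finset.range (N + 1), PowerSeries.coeff d b * PowerSeries.coeff N (ψ ^ d) := by
  rw [PowerSeries.coeff_subst' (PowerSeries.HasSubst.of_constantCoeff_zero' hψ),
    finsum_eq_sum_of_support_subset]
  · rfl
  · intro d hd
    rw [Finset.coe_range, Set.mem_Iio]
    by_contra hlt
    apply hd
    have h1 : (PowerSeries.X : PowerSeries C) ^ d ∣ ψ ^ d :=
      pow_dvd_pow_of_dvd (PowerSeries.X_dvd_iff.2 hψ) d
    show PowerSeries.coeff d b • PowerSeries.coeff N (ψ ^ d) = 0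
    rw [PowerSeries.X_pow_dvd_iff.1 h1 N (by omega), smul_zero]

theorem tendsto_coeff_pow {ψ : ℕ → PowerSeries C} {ψ0 : PowerSeries C}
    (h : ∀ i, Tendsto (fun m => PowerSeries.coeff i (ψ m)) atTop (𝓝 (PowerSeries.coeff i ψ0)))
    (d N : ℕ) : Tendsto (fun m => PowerSeries.coeff N (ψ m ^ d)) atTop
      (𝓝 (PowerSeries.coeff N (ψ0 ^ d))) := by
  induction d generalizing N with
  | zero => simp only [pow_zero]; exact tendsto_const_nhds
  | succ d ih =>
    simp only [pow_succ, PowerSeries.coeff_mul]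
    exact tendsto_finset_sum _ fun x _ => (ih x.1).mul (h x.2)

theorem tendsto_coeff_subst {b : PowerSeries C} {ψ : ℕ → PowerSeries C}
    (hψ : ∀ m, PowerSeries.constantCoeff (ψ m) = 0)
    (h : ∀ i, Tendsto (fun m => PowerSeries.coeff i (ψ m)) atTop
      (𝓝 (PowerSeries.coeff i (PowerSeries.X : PowerSeries C)))) (N : ℕ) :
    Tendsto (fun m => PowerSeries.coeff N (b.subst (ψ m) : PowerSeries C)) atTop
      (𝓝 (PowerSeries.coeff N b)) := by
  have h1 : PowerSeries.coeff N b =
      ∑ d ∈ Finset.range (N + 1), PowerSeries.coeff d b *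
        PowerSeries.coeff N ((PowerSeries.X : PowerSeries C) ^ d) := by
    simp_rw [PowerSeries.coeff_X_pow]
    rw [Finset.sum_eq_single N]
    · rw [if_pos rfl, mul_one]
    · intro d _ hd
      rw [if_neg (Ne.symm hd), mul_zero]
    · intro hN
      exact absurd (Finset.mem_range.2 (Nat.lt_succ_self N)) hN
  rw [h1]
  simp_rw [fun m => coeff_subst_range (b := b) (hψ m) N]
  exact tendsto_finset_sum _ fun d _ => (tendsto_coeff_pow h d N).const_mul _

end Conv

section EndA

variable {p : ℕ} [Fact p.Prime] {n : ℕ}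
variable {C : Type*} [NontriviallyNormedField C] [IsUltrametricDist C] [CompleteSpace C]
variable (κ : GaloisField p n →+* C)

/-- an endomorphism of the Honda group over `k`, viewed over `C` -/
noncomputable def homK (g : PowerSeries (GaloisField p n))
    (hg : IsHom g (hazF p (prm n 0)) (hazF p (prm n 0))) :
    CHom (FC p n (0 : Ball C)) (FC p n 0) where
  ps := g.map κ
  bdd := fun d => norm_kappa_le κ _
  isHom := by
    have h1 := IsHom.map hg κ
    rw [hazF_map, map_prm] at h1
    exact h1

/-- the endomorphisms of the Honda group defined over `k` -/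
noncomputable def endA : AddSubmonoid ((FC p n (0 : Ball C)).Pt →+ (FC p n (0 : Ball C)).Pt) where
  carrier := {b | ∃ g hg, b = (homK κ g hg).map}
  zero_mem' := by
    refine ⟨0, IsHom.zero _ _, ?_⟩
    ext z
    apply Subtype.ext
    rw [CHom.map_val]
    show (0 : C) = ev1 z.1 (PowerSeries.map κ 0)
    rw [map_zero]
    exact (ev_zero _).symm
  add_mem' := by
    rintro _ _ ⟨g1, hg1, rfl⟩ ⟨g2, hg2, rfl⟩
    refine ⟨_, IsHom.add (hazF_comm p _) hg1 hg2, ?_⟩
    ext z
    apply Subtype.ext
    rw [AddMonoidHom.add_apply, CFG.add_val, CHom.map_val, CHom.map_val, CHom.map_val]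
    have h1 : ((hazF p (prm n (0 : ℕ → GaloisField p n))).toPowerSeries.subst ![g1, g2]).map κ =
        (FC p n (0 : Ball C)).toPowerSeries.subst ![(g1.map κ : PowerSeries C), g2.map κ] := by
      have h2 := Fel.map_subst_pair (ι := κ)
        (F := (hazF p (prm n (0 : ℕ → GaloisField p n))).toPowerSeries) (a := g1) (b := g2)
        hg1.1 hg2.1
      rw [h2]
      congr 1
      rw [← FormalGroup.map_toPowerSeries, hazF_map, map_prm]
      rfl
    have h3 : ev1 z.1 (homK κ _ (IsHom.add (hazF_comm p _) hg1 hg2)).ps =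
        ev (fun _ : Unit => z.1) ((FC p n (0 : Ball C)).toPowerSeries.subst
          ![(g1.map κ : PowerSeries C), g2.map κ]) := by
      rw [← h1]
      rfl
    rw [h3]
    exact (ev_subst_pair (τ := Unit) (a := fun _ => z.1) (fun _ => z.2) (FC p n (0 : Ball C)).bdd
      (homK κ g1 hg1).bdd (homK κ g2 hg2).bdd (homK κ g1 hg1).isHom.1
      (homK κ g2 hg2).isHom.1).symm

theorem mem_endA {b : (FC p n (0 : Ball C)).Pt →+ (FC p n (0 : Ball C)).Pt} :
    b ∈ endA κ ↔ ∃ g hg, b = (homK κ g hg).map := Iff.rfl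

theorem exists_kappa_eq (hn : 1 ≤ n) {ζ : C} (hζ : ζ ^ p ^ n = ζ) : ∃ z : GaloisField p n, κ z = ζ := by
  classical
  have hp := (Fact.out : p.Prime)
  have hcard : Nat.card (GaloisField p n) = p ^ n := GaloisField.card p n (by omega)
  have : Fintype (GaloisField p n) := Fintype.ofFinite _
  have hc : Fintype.card (GaloisField p n) = p ^ n := by
    rw [← Nat.card_eq_fintype_card]; exact hcard
  have hlt : 1 < p ^ n := Nat.one_lt_pow (by omega) hp.one_lt
  let P : Polynomial C := Polynomial.X ^ p ^ n - Polynomial.X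
  have hP : P ≠ 0 := FiniteField.X_pow_card_sub_X_ne_zero C hlt
  have hdeg : P.natDegree = p ^ n := FiniteField.X_pow_card_sub_X_natDegree_eq C hlt
  have hsub : (Finset.univ.image κ) ⊆ P.roots.toFinset := by
    intro a ha
    obtain ⟨z, _, rfl⟩ := Finset.mem_image.1 ha
    rw [Multiset.mem_toFinset, Polynomial.mem_roots hP, Polynomial.IsRoot.def]
    simp only [P, Polynomial.eval_sub, Polynomial.eval_pow, Polynomial.eval_X]
    rw [← map_pow, ← hc, FiniteField.pow_card, sub_self]
  have hc2 : (Finset.univ.image κ).card = p ^ n := by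
    rw [Finset.card_image_of_injective _ κ.injective, Finset.card_univ, hc]
  have heq : Finset.univ.image κ = P.roots.toFinset := by
    apply Finset.eq_of_subset_of_card_le hsub
    rw [hc2, ← hdeg]
    exact (Multiset.toFinset_card_le _).trans (Polynomial.card_roots' _)
  have hmem : ζ ∈ P.roots.toFinset := by
    rw [Multiset.mem_toFinset, Polynomial.mem_roots hP, Polynomial.IsRoot.def]
    simp only [P, Polynomial.eval_sub, Polynomial.eval_pow, Polynomial.eval_X]
    rw [hζ, sub_self]
  rw [← heq] at hmem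
  obtain ⟨z, _, hz⟩ := Finset.mem_image.1 hmem
  exact ⟨z, hz⟩

variable [CharP C p]

theorem hendo_mem_endA (hn : 1 ≤ n) {ζ : C} (hζ : ζ ^ p ^ n = ζ) (l : ℕ) :
    hendo p n ζ hζ l ∈ endA κ := by
  obtain ⟨z, rfl⟩ := exists_kappa_eq κ hn hζ
  have hz : z ^ p ^ n = z := κ.injective (by rw [map_pow]; exact hζ)
  have hcl : CharP (GaloisField p n) p := inferInstance
  refine ⟨(PowerSeries.C z * PowerSeries.X : PowerSeries (GaloisField p n)).subst
    ((PowerSeries.X : PowerSeries (GaloisField p n)) ^ p ^ l),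
    IsHom.comp (honda_smul p n z hz) (honda_frob p n l), ?_⟩
  ext y
  apply Subtype.ext
  rw [hendo_val p n hn, CHom.map_val]
  have hX : ∀ {R : Type _} [CommRing R] (c : R),
      (PowerSeries.C c * PowerSeries.X : PowerSeries R).subst
        ((PowerSeries.X : PowerSeries R) ^ p ^ l) = PowerSeries.C c * PowerSeries.X ^ p ^ l := by
    intro R _ c
    have hXh : PowerSeries.HasSubst ((PowerSeries.X : PowerSeries R) ^ p ^ l) :=
      PowerSeries.HasSubst.X_pow (pow_ne_zero _ (Fact.out : p.Prime).ne_zero)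
    rw [PowerSeries.subst_mul hXh, PowerSeries.subst_X hXh, PowerSeries.subst_C]
    rfl
  have h1 : (homK κ _ (IsHom.comp (honda_smul p n z hz) (honda_frob p n l))).ps =
      PowerSeries.C (κ z) * PowerSeries.X ^ p ^ l := by
    show PowerSeries.map κ _ = _
    rw [hX, map_mul, map_pow, PowerSeries.map_C, PowerSeries.map_X]
  rw [h1]
  have hb1 : Bdd (MvPowerSeries.C (σ := Unit) (κ z)) := Bdd.C_iff.2 (norm_kappa_le κ z)
  have hb2 : Bdd ((PowerSeries.X : PowerSeries C) ^ p ^ l) := (Bdd.X _).pow _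
  unfold ev1
  refine Eq.symm ((ev_mul (fun _ => y.2) hb1 hb2).trans ?_)
  rw [ev_C]
  congr 1
  exact (ev_pow (fun _ => y.2) (Bdd.X _) _).trans (by rw [ev_X])

end EndA

end Chai
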