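import Vale.Agent.Chai.CoreB

/-!
# P217 / LTgrp: the group of points of a commutative formal group

OWNER: helper9

* `exists_K`: `F(X,Y) = X + Y + X Y K(X,Y)`;
* `exists_inv`: the formal inverse;
* `AddCommGroup (G.Point σ)`.
-/

namespace Chai

open MvPowerSeries Finsupp

section

variable {R : Type*} [CommRing R]

theorem coeff_subst_X_zero (f : MvPowerSeries (Fin 2) R) (m : ℕ) :
    PowerSeries.coeff m (subst ![(PowerSeries.X : PowerSeries R), 0] f) =
      coeff (single 0 m) f := by
  have hs : HasSubst (![(PowerSeries.X : PowerSeries R), 0] : Fin 2 → MvPowerSeries Unit R) :=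
    hasSubst_pair PowerSeries.constantCoeff_X (map_zero _)
  have e : ∀ d : Fin 2 →₀ ℕ, coeff (single () m) (d.prod fun s e =>
      (![(PowerSeries.X : PowerSeries R), 0] : Fin 2 → MvPowerSeries Unit R) s ^ e)
      = if d = single 0 m then 1 else 0 := by
    intro d
    rw [Finsupp.prod_fintype _ _ (fun i => pow_zero _), Fin.prod_univ_two]
    simp only [Matrix.cons_val_zero, Matrix.cons_val_one]
    have h0 : coeff (single () m) ((PowerSeries.X : PowerSeries R) ^ d 0)
      = if m = d 0 then 1 else 0 := PowerSeries.coeff_X_pow m (d 0)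
    by_cases h1 : d 1 = 0
    · rw [h1, pow_zero, mul_one, h0]
      refine if_congr ?_ rfl rfl
      constructor
      · intro h
        ext i
        fin_cases i
        · simp [h]
        · simpa using h1
      · rintro rfl
        simp
    · rw [zero_pow h1, mul_zero, map_zero, if_neg]
      rintro rfl
      simp at h1
  rw [PowerSeries.coeff, coeff_subst hs, finsum_eq_single _ (single 0 m)]
  · rw [e, if_pos rfl, smul_eq_mul, mul_one]
  · intro d hd
    rw [e, if_neg hd, smul_zero]

theorem coeff_subst_zero_X (f : MvPowerSeries (Fin 2) R) (m : ℕ) :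
    PowerSeries.coeff m (subst ![0, (PowerSeries.X : PowerSeries R)] f) =
      coeff (single 1 m) f := by
  have hs : HasSubst (![0, (PowerSeries.X : PowerSeries R)] : Fin 2 → MvPowerSeries Unit R) :=
    hasSubst_pair (map_zero _) PowerSeries.constantCoeff_X
  have e : ∀ d : Fin 2 →₀ ℕ, coeff (single () m) (d.prod fun s e =>
      (![0, (PowerSeries.X : PowerSeries R)] : Fin 2 → MvPowerSeries Unit R) s ^ e)
      = if d = single 1 m then 1 else 0 := by
    intro d
    rw [Finsupp.prod_fintype _ _ (fun i => pow_zero _), Fin.prod_univ_two]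
    simp only [Matrix.cons_val_zero, Matrix.cons_val_one]
    have h0 : coeff (single () m) ((PowerSeries.X : PowerSeries R) ^ d 1)
      = if m = d 1 then 1 else 0 := PowerSeries.coeff_X_pow m (d 1)
    by_cases h1 : d 0 = 0
    · rw [h1, pow_zero, one_mul, h0]
      refine if_congr ?_ rfl rfl
      constructor
      · intro h
        ext i
        fin_cases i
        · simpa using h1
        · simp [h]
      · rintro rfl
        simp
    · rw [zero_pow h1, zero_mul, map_zero, if_neg]
      rintro rfl
      simp at h1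
  rw [PowerSeries.coeff, coeff_subst hs, finsum_eq_single _ (single 1 m)]
  · rw [e, if_pos rfl, smul_eq_mul, mul_one]
  · intro d hd
    rw [e, if_neg hd, smul_zero]

theorem eq_single_of_one {m : Fin 2 →₀ ℕ} (h : m 1 = 0) : m = single 0 (m 0) := by
  ext i
  fin_cases i
  · simp
  · simpa using h

theorem eq_single_of_zero {m : Fin 2 →₀ ℕ} (h : m 0 = 0) : m = single 1 (m 1) := by
  ext i
  fin_cases i
  · simpa using h
  · simp

/-- a series in `X, Y` vanishing for `X = 0` and for `Y = 0` is divisible by `X Y` -/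
theorem exists_mul_XY (f : MvPowerSeries (Fin 2) R)
    (h0 : subst ![(PowerSeries.X : PowerSeries R), 0] f = 0)
    (h1 : subst ![0, (PowerSeries.X : PowerSeries R)] f = 0) :
    ∃ K : MvPowerSeries (Fin 2) R, f = X 0 * X 1 * K := by
  have c0 : ∀ m : Fin 2 →₀ ℕ, m 1 = 0 → coeff m f = 0 := by
    intro m hm
    have := coeff_subst_X_zero f (m 0)
    rw [h0, map_zero, ← eq_single_of_one hm] at this
    exact this.symm
  have c1 : ∀ m : Fin 2 →₀ ℕ, m 0 = 0 → coeff m f = 0 := by
    intro m hm
    have := coeff_subst_zero_X f (m 1)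
    rw [h1, map_zero, ← eq_single_of_zero hm] at this
    exact this.symm
  obtain ⟨g, hg⟩ := X_dvd_iff.2 c1
  have c2 : ∀ m : Fin 2 →₀ ℕ, m 1 = 0 → coeff m g = 0 := by
    intro m hm
    have h2 : coeff (m + single 0 1) (X 0 * g) = coeff m g := by
      have := coeff_add_monomial_mul (R := R) (single (0 : Fin 2) 1) m g 1
      rw [add_comm, one_mul] at this
      exact this
    rw [← h2, ← hg]
    exact c0 _ (by simp [hm])
  obtain ⟨K, hK⟩ := X_dvd_iff.2 c2
  exact ⟨K, by rw [hg, hK, mul_assoc]⟩

theorem exists_K (F : FormalGroup R) :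
    ∃ K : MvPowerSeries (Fin 2) R, F.toPowerSeries = X 0 + X 1 + X 0 * X 1 * K := by
  have hs0 : HasSubst (![(PowerSeries.X : PowerSeries R), 0] : Fin 2 → MvPowerSeries Unit R) :=
    hasSubst_pair PowerSeries.constantCoeff_X (map_zero _)
  have hs1 : HasSubst (![0, (PowerSeries.X : PowerSeries R)] : Fin 2 → MvPowerSeries Unit R) :=
    hasSubst_pair (map_zero _) PowerSeries.constantCoeff_X
  obtain ⟨K, hK⟩ := exists_mul_XY (F.toPowerSeries - X 0 - X 1)
    (by
      have := FormalGroup.Xzero_eq_X F
      rw [← coe_substAlgHom hs0, map_sub, map_sub, coe_substAlgHom hs0, subst_X hs0, subst_X hs0]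
      show F.Xzero - PowerSeries.X - 0 = 0
      rw [this]; simp)
    (by
      have := FormalGroup.zeroX_eq_X F
      rw [← coe_substAlgHom hs1, map_sub, map_sub, coe_substAlgHom hs1, subst_X hs1, subst_X hs1]
      show F.zeroX - 0 - PowerSeries.X = 0
      rw [this]; simp)
  exact ⟨K, by rw [← hK]; ring⟩

/-- `F(a,b) = a + b + a b K(a,b)` -/
theorem subst_eq_K_of {F : FormalGroup R} {K : MvPowerSeries (Fin 2) R}
    (hK : F.toPowerSeries = X 0 + X 1 + X 0 * X 1 * K) {τ : Type*} {a b : MvPowerSeries τ R}
    (hs : HasSubst ![a, b]) :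
    F.toPowerSeries.subst ![a, b] = a + b + a * b * K.subst ![a, b] := by
  rw [hK, ← coe_substAlgHom hs]
  simp only [map_add, map_mul]
  rw [coe_substAlgHom hs, subst_X hs, subst_X hs]
  rfl

theorem subst_eq_K {F : FormalGroup R} {K : MvPowerSeries (Fin 2) R}
    (hK : F.toPowerSeries = X 0 + X 1 + X 0 * X 1 * K) {τ : Type*} {a b : MvPowerSeries τ R}
    (ha : constantCoeff a = 0) (hb : constantCoeff b = 0) :
    F.toPowerSeries.subst ![a, b] = a + b + a * b * K.subst ![a, b] :=
  subst_eq_K_of hK (hasSubst_pair ha hb)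

/-! ### fixed points -/

theorem exists_fixed (Φ : PowerSeries R → PowerSeries R)
    (h : ∀ N a b, (∀ i < N, PowerSeries.coeff i a = PowerSeries.coeff i b) →
      ∀ i < N + 1, PowerSeries.coeff i (Φ a) = PowerSeries.coeff i (Φ b)) : ∃ a, Φ a = a := by
  let s : ℕ → PowerSeries R := fun k => Φ^[k] 0
  have hs : ∀ k, s (k + 1) = Φ (s k) := fun k => Function.iterate_succ_apply' Φ k 0
  have h1 : ∀ k, ∀ i < k, PowerSeries.coeff i (s (k + 1)) = PowerSeries.coeff i (s k) := by
    intro k
    induction k with
    | zero => intro i hi; omega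
    | succ k ih =>
      intro i hi
      rw [hs (k + 1), hs k]
      exact h k _ _ (by rw [← hs k]; exact ih) i hi
  have h2 : ∀ i j, PowerSeries.coeff i (s (i + 1 + j)) = PowerSeries.coeff i (s (i + 1)) := by
    intro i j
    induction j with
    | zero => rfl
    | succ j ih => rw [← add_assoc, h1 _ i (by omega), ih]
  refine ⟨PowerSeries.mk fun i => PowerSeries.coeff i (s (i + 1)), ?_⟩
  ext i
  rw [PowerSeries.coeff_mk, h (i + 1) _ (s (i + 1)) _ i (by omega), ← hs]
  · exact h1 (i + 1) i (by omega)
  · intro j hj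
    rw [PowerSeries.coeff_mk]
    obtain ⟨l, rfl⟩ : ∃ l, i = j + l := ⟨i - j, by omega⟩
    have := h2 j l
    rw [show j + l + 1 = j + 1 + l by ring, this]

theorem coeff_mul_congr {N : ℕ} {a a' b b' : PowerSeries R}
    (ha : ∀ i < N, PowerSeries.coeff i a = PowerSeries.coeff i a')
    (hb : ∀ i < N, PowerSeries.coeff i b = PowerSeries.coeff i b') :
    ∀ i < N, PowerSeries.coeff i (a * b) = PowerSeries.coeff i (a' * b') := by
  intro i hi
  rw [PowerSeries.coeff_mul, PowerSeries.coeff_mul]
  refine Finset.sum_congr rfl (fun x hx => ?_)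
  have := Finset.HasAntidiagonal.mem_antidiagonal.1 hx
  rw [ha x.1 (by omega), hb x.2 (by omega)]

theorem coeff_pow_congr {N : ℕ} {a a' : PowerSeries R}
    (ha : ∀ i < N, PowerSeries.coeff i a = PowerSeries.coeff i a') (m : ℕ) :
    ∀ i < N, PowerSeries.coeff i (a ^ m) = PowerSeries.coeff i (a' ^ m) := by
  induction m with
  | zero => intro i _; simp
  | succ m ih =>
    rw [pow_succ, pow_succ]
    exact coeff_mul_congr ih ha

theorem coeff_subst_congr {N : ℕ} (f : MvPowerSeries (Fin 2) R) {a b a' b' : PowerSeries R}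
    (ha0 : PowerSeries.constantCoeff a = 0) (hb0 : PowerSeries.constantCoeff b = 0)
    (ha0' : PowerSeries.constantCoeff a' = 0) (hb0' : PowerSeries.constantCoeff b' = 0)
    (ha : ∀ i < N, PowerSeries.coeff i a = PowerSeries.coeff i a')
    (hb : ∀ i < N, PowerSeries.coeff i b = PowerSeries.coeff i b') :
    ∀ i < N, PowerSeries.coeff i (f.subst ![a, b]) = PowerSeries.coeff i (f.subst ![a', b']) := by
  intro i hi
  have hs : HasSubst (![a, b] : Fin 2 → MvPowerSeries Unit R) := hasSubst_pair ha0 hb0
  have hs' : HasSubst (![a', b'] : Fin 2 → MvPowerSeries Unit R) := hasSubst_pair ha0' hb0'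
  rw [PowerSeries.coeff, coeff_subst hs, coeff_subst hs']
  refine finsum_congr (fun d => ?_)
  congr 1
  rw [Finsupp.prod_fintype _ _ (fun i => pow_zero _), Fin.prod_univ_two,
    Finsupp.prod_fintype _ _ (fun i => pow_zero _), Fin.prod_univ_two]
  exact coeff_mul_congr (coeff_pow_congr ha _) (coeff_pow_congr hb _) i hi

/-- the formal inverse -/
theorem exists_inv (F : FormalGroup R) : ∃ ι : PowerSeries R, PowerSeries.constantCoeff ι = 0 ∧
    F.toPowerSeries.subst ![(PowerSeries.X : PowerSeries R), ι] = 0 := by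
  obtain ⟨K, hK⟩ := exists_K F
  have hcc : ∀ c : PowerSeries R, PowerSeries.constantCoeff (PowerSeries.X * c) = 0 := by
    intro c; simp
  have hX : ∀ {N : ℕ} {c c' : PowerSeries R},
      (∀ i < N, PowerSeries.coeff i c = PowerSeries.coeff i c') →
      ∀ i < N + 1, PowerSeries.coeff i (PowerSeries.X * c) =
        PowerSeries.coeff i (PowerSeries.X * c') := by
    intro N c c' h i hi
    cases i with
    | zero => simp
    | succ i => rw [PowerSeries.coeff_succ_X_mul, PowerSeries.coeff_succ_X_mul]; exact h i (by omega)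
  obtain ⟨c, hc⟩ := exists_fixed (fun c : PowerSeries R =>
    -1 - (PowerSeries.X * c) * K.subst ![(PowerSeries.X : PowerSeries R), PowerSeries.X * c])
    (by
      intro N a b h i hi
      rw [map_sub, map_sub]
      congr 1
      refine coeff_mul_congr (hX h) ?_ i hi
      exact coeff_subst_congr K PowerSeries.constantCoeff_X (hcc a) PowerSeries.constantCoeff_X
        (hcc b) (fun _ _ => rfl) (hX h))
  refine ⟨PowerSeries.X * c, hcc c, ?_⟩
  rw [subst_eq_K hK PowerSeries.constantCoeff_X (hcc c)]
  have h2 : PowerSeries.X * (-1 - (PowerSeries.X * c) *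
      K.subst ![(PowerSeries.X : PowerSeries R), PowerSeries.X * c]) = PowerSeries.X * c :=
    congrArg (fun y : PowerSeries R => PowerSeries.X * y) hc
  linear_combination (-1 : PowerSeries R) * h2

/-! ### the group of points -/

/-- the formal inverse of a formal group -/
noncomputable def invPS (F : FormalGroup R) : PowerSeries R := Classical.choose (exists_inv F)

theorem constantCoeff_invPS (F : FormalGroup R) : PowerSeries.constantCoeff (invPS F) = 0 :=
  (Classical.choose_spec (exists_inv F)).1

theorem subst_invPS (F : FormalGroup R) :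
    F.toPowerSeries.subst ![(PowerSeries.X : PowerSeries R), invPS F] = 0 :=
  (Classical.choose_spec (exists_inv F)).2

variable {σ τ : Type*}

noncomputable instance (F : FormalGroup R) : Neg (F.Point σ) where
  neg x := ⟨(invPS F).subst x.val, by
    have h1 := PowerSeries.HasSubst.of_constantCoeff_zero' (constantCoeff_invPS F)
    rw [← PowerSeries.coe_substAlgHom x.2]
    exact PowerSeries.HasSubst.comp h1 x.2⟩

theorem neg_add_cancel' (F : FormalGroup R) [F.IsComm] (x : F.Point σ) : -x + x = 0 := by
  rw [add_comm]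
  apply Subtype.ext
  show F.toPowerSeries.subst ![x.val, (invPS F).subst x.val] = 0
  have h := congrArg (PowerSeries.subst x.val) (subst_invPS F)
  have hs : HasSubst (![(PowerSeries.X : PowerSeries R), invPS F] : Fin 2 → MvPowerSeries Unit R) :=
    hasSubst_pair PowerSeries.constantCoeff_X (constantCoeff_invPS F)
  have hx : HasSubst (fun _ : Unit => x.val) := PowerSeries.HasSubst.const x.2
  have h0 : PowerSeries.subst x.val (0 : PowerSeries R) = 0 := by
    rw [← PowerSeries.coe_substAlgHom x.2, map_zero]
  rw [h0] at h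
  rw [← h]
  show _ = MvPowerSeries.subst (fun _ : Unit => x.val) _
  rw [subst_comp_subst_apply hs hx]
  congr 1
  funext i
  fin_cases i
  · exact (PowerSeries.subst_X x.2).symm
  · rfl

noncomputable instance (F : FormalGroup R) [F.IsComm] : AddCommGroup (F.Point σ) where
  neg_add_cancel := neg_add_cancel' F
  add_comm := add_comm
  zsmul := zsmulRec

end

end Chai
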