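import Vale.Agent.Chai.DensityB
import Vale.Agent.Chai.LTgrp

/-!
# P217 / HeightInv: the height ideals `I_h` are prime and invariant

OWNER: helper16 (done)

PROOF of invariance, for `(φ, ψ)` with `ψ : φ_* F ≅ F`, `F = univF = hazF p (prm n uE)`: modulo `I_j`
(use the ring homomorphism `redHom` of `DensityB`) the `p`-series are
`[p]_F = v_j X^{p^j} + O(X^{p^j+1})`, `[p]_{φ_*F} = φ(v_j) X^{p^j} + O(X^{p^j+1})` (`mulPS_hazF`, `hazF_map`,
`φ(u_i) ∈ I_j` for `i < j` by induction), and `ψ ∘ [p]_{φ_*F} = [p]_F ∘ ψ` (`IsHom.mulPS_comm`) gives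
`ψ'(0) φ(u_j) = u_j ψ'(0)^{p^j}` mod `I_j` (`key_congr`).  Both inclusions `φ(I_h) = I_h` follow by induction.
Primality (`h ≥ 1`): `heightIdeal h = ker (redHom (RingHom.id _) h1)` (`redH_eq_zero_of_mem`,
`mem_heightIdeal_of_redH`) and `MvPowerSeries` over a field is a domain.  `h = 0`: `E_0` is a domain.
-/

namespace Chai

open MvPowerSeries

section lowest

variable {R : Type*} [CommRing R]

theorem hi_cc_of_dvd {N : ℕ} (hN : 1 ≤ N) {a : PowerSeries R} (h : PowerSeries.X ^ N ∣ a) :
    PowerSeries.constantCoeff a = 0 := by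
  rw [← PowerSeries.coeff_zero_eq_constantCoeff_apply]
  exact (PowerSeries.X_pow_dvd_iff.1 h) 0 (by omega)

theorem hi_dvd_fsum (F : FormalGroup R) {N : ℕ} (hN : 1 ≤ N) (l : List (PowerSeries R))
    (hl : ∀ a ∈ l, PowerSeries.X ^ N ∣ a) :
    PowerSeries.X ^ N ∣ (fsum F (l : List (MvPowerSeries Unit R)) : PowerSeries R) := by
  obtain ⟨K, hK⟩ := exists_K F
  induction l with
  | nil => exact dvd_zero _
  | cons a l ih =>
    have h1 := hl a (List.mem_cons_self ..)
    have h2 := ih (fun b hb => hl b (List.mem_cons_of_mem _ hb))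
    have h3 : (fsum F ((a :: l : List (PowerSeries R)) : List (MvPowerSeries Unit R)))
      = F.toPowerSeries.subst ![a, fsum F (l : List (MvPowerSeries Unit R))] := rfl
    rw [h3, subst_eq_K hK (hi_cc_of_dvd hN h1) (hi_cc_of_dvd hN h2)]
    exact dvd_add (dvd_add h1 h2) (Dvd.dvd.mul_right (Dvd.dvd.mul_right h1 _) _)

theorem hi_dvd_fsum_sub (F : FormalGroup R) {N : ℕ} (hN : 1 ≤ N) (k m : ℕ)
    (g : ℕ → PowerSeries R) (h0 : ∀ j, j < k → g j = 0) (h1 : PowerSeries.X ^ N ∣ g k)
    (h2 : ∀ j, k < j → PowerSeries.X ^ (N + 1) ∣ g j) :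
    PowerSeries.X ^ (N + 1) ∣
      (fsum F ((List.range (k + 1 + m)).map g : List (MvPowerSeries Unit R)) : PowerSeries R) - g k := by
  obtain ⟨K, hK⟩ := exists_K F
  induction k generalizing g with
  | zero =>
    have hr : (List.range (0 + 1 + m)).map g = g 0 :: (List.range m).map (fun j => g (j + 1)) := by
      rw [show 0 + 1 + m = m + 1 by ring, List.range_succ_eq_map, List.map_cons, List.map_map]
      rfl
    have h4 : PowerSeries.X ^ (N + 1) ∣ (fsum F ((List.range m).map (fun j => g (j + 1)) :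
        List (MvPowerSeries Unit R)) : PowerSeries R) := by
      refine hi_dvd_fsum F (by omega) _ ?_
      intro a ha
      obtain ⟨j, _, rfl⟩ := List.mem_map.1 ha
      exact h2 _ (by omega)
    have h5 : (fsum F ((List.range (0 + 1 + m)).map g : List (MvPowerSeries Unit R)) : PowerSeries R)
      = F.toPowerSeries.subst ![g 0, fsum F ((List.range m).map (fun j => g (j + 1)) :
        List (MvPowerSeries Unit R))] := by
      rw [hr]; rfl
    rw [h5, subst_eq_K hK (hi_cc_of_dvd hN h1) (hi_cc_of_dvd (by omega) h4)]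
    have h6 : ∀ a b c : PowerSeries R, a + b + a * b * c - a = b + b * (a * c) := by
      intro a b c; ring
    rw [h6]
    exact dvd_add h4 (Dvd.dvd.mul_right h4 _)
  | succ k ih =>
    have hr : (List.range (k + 1 + 1 + m)).map g = 0 :: (List.range (k + 1 + m)).map
        (fun j => g (j + 1)) := by
      rw [show k + 1 + 1 + m = (k + 1 + m) + 1 by ring, List.range_succ_eq_map, List.map_cons,
        List.map_map, h0 0 (by omega)]
      rfl
    have h5 : (fsum F ((List.range (k + 1 + 1 + m)).map g : List (MvPowerSeries Unit R)) :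
        PowerSeries R) = fsum F ((List.range (k + 1 + m)).map (fun j => g (j + 1)) :
        List (MvPowerSeries Unit R)) := by
      rw [hr]
      refine fsum_cons_zero _ _ ?_
      intro a ha
      obtain ⟨j, _, rfl⟩ := List.mem_map.1 ha
      rcases lt_trichotomy j k with hj | hj | hj
      · show PowerSeries.constantCoeff (g (j + 1)) = 0
        rw [h0 _ (by omega), map_zero]
      · subst hj
        exact hi_cc_of_dvd hN h1
      · exact hi_cc_of_dvd (by omega) (h2 (j + 1) (by omega))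
    rw [h5]
    exact ih (fun j => g (j + 1)) (fun j hj => h0 _ (by omega)) h1 (fun j hj => h2 _ (by omega))

/-- lowest coefficient of `ψ(f)` -/
theorem hi_coeff_subst_left {N : ℕ} (hN : 1 ≤ N) {ψ f : PowerSeries R}
    (hψ : PowerSeries.constantCoeff ψ = 0) (hf : PowerSeries.X ^ N ∣ f) :
    PowerSeries.coeff N (ψ.subst f : PowerSeries R) =
      PowerSeries.coeff 1 ψ * PowerSeries.coeff N f := by
  have hs : PowerSeries.HasSubst f := PowerSeries.HasSubst.of_constantCoeff_zero'
    (hi_cc_of_dvd hN hf)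
  obtain ⟨ψ', hψ'⟩ : PowerSeries.X ^ 2 ∣ ψ - PowerSeries.C (PowerSeries.coeff 1 ψ) *
      PowerSeries.X := by
    rw [PowerSeries.X_pow_dvd_iff]
    intro m hm
    rw [map_sub, PowerSeries.coeff_C_mul, PowerSeries.coeff_X]
    interval_cases m
    · rw [PowerSeries.coeff_zero_eq_constantCoeff_apply, hψ]; simp
    · simp
  have h1 : ψ = PowerSeries.C (PowerSeries.coeff 1 ψ) * PowerSeries.X +
      PowerSeries.X ^ 2 * ψ' := by rw [← hψ']; ring
  have h2 : (ψ.subst f : PowerSeries R) = PowerSeries.C (PowerSeries.coeff 1 ψ) * f +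
      f ^ 2 * (ψ'.subst f : PowerSeries R) := by
    conv_lhs => rw [h1]
    rw [PowerSeries.subst_add hs, PowerSeries.subst_mul hs, PowerSeries.subst_mul hs,
      PowerSeries.subst_pow hs, PowerSeries.subst_X hs, PowerSeries.subst_C]
    rfl
  have h3 : PowerSeries.X ^ (N + 1) ∣ f ^ 2 * (ψ'.subst f : PowerSeries R) := by
    refine Dvd.dvd.mul_right ?_ _
    obtain ⟨g, rfl⟩ := hf
    rw [mul_pow, ← pow_mul]
    exact Dvd.dvd.mul_right (pow_dvd_pow _ (by omega)) _
  rw [h2, map_add, PowerSeries.coeff_C_mul, (PowerSeries.X_pow_dvd_iff.1 h3) N (by omega), add_zero]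

/-- lowest coefficient of `f(ψ)` -/
theorem hi_coeff_subst_right {N : ℕ} {ψ f : PowerSeries R}
    (hψ : PowerSeries.constantCoeff ψ = 0) (hf : PowerSeries.X ^ N ∣ f) :
    PowerSeries.coeff N (PowerSeries.subst ψ f : PowerSeries R) =
      PowerSeries.coeff N f * PowerSeries.coeff 1 ψ ^ N := by
  have hs : PowerSeries.HasSubst ψ := PowerSeries.HasSubst.of_constantCoeff_zero' hψ
  obtain ⟨ψ', rfl⟩ : PowerSeries.X ∣ ψ := PowerSeries.X_dvd_iff.2 hψ
  obtain ⟨g, rfl⟩ := hf
  have h2 : (PowerSeries.subst (PowerSeries.X * ψ') (PowerSeries.X ^ N * g) : PowerSeries R) =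
      PowerSeries.X ^ N * (ψ' ^ N * PowerSeries.subst (PowerSeries.X * ψ') g) := by
    rw [PowerSeries.subst_mul hs, PowerSeries.subst_pow hs, PowerSeries.subst_X hs, mul_pow]
    ring
  rw [h2]
  have h3 : ∀ g : PowerSeries R, PowerSeries.coeff N (PowerSeries.X ^ N * g) =
      PowerSeries.constantCoeff g := by
    intro g
    have := PowerSeries.coeff_X_pow_mul g N 0
    rw [zero_add] at this
    rw [this, PowerSeries.coeff_zero_eq_constantCoeff_apply]
  rw [h3, h3, map_mul, map_pow]
  have h4 : PowerSeries.coeff 1 (PowerSeries.X * ψ') = PowerSeries.constantCoeff ψ' := by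
    have := PowerSeries.coeff_succ_X_mul 0 ψ'
    rw [zero_add] at this
    rw [this, PowerSeries.coeff_zero_eq_constantCoeff_apply]
  have h5 : PowerSeries.constantCoeff (PowerSeries.subst (PowerSeries.X * ψ') g : PowerSeries R) =
      PowerSeries.constantCoeff g := by
    obtain ⟨g', hg'⟩ : PowerSeries.X ∣ g - PowerSeries.C (PowerSeries.constantCoeff g) :=
      PowerSeries.X_dvd_iff.2 (by simp)
    have hg2 : g = PowerSeries.C (PowerSeries.constantCoeff g) + PowerSeries.X * g' := by
      rw [← hg']; ring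
    conv_lhs => rw [hg2]
    rw [PowerSeries.subst_add hs, PowerSeries.subst_mul hs, PowerSeries.subst_X hs,
      PowerSeries.subst_C, map_add, map_mul, map_mul, PowerSeries.constantCoeff_X, zero_mul,
      zero_mul, add_zero]
    exact PowerSeries.constantCoeff_C _
  rw [h4, h5]
  ring

end lowest

variable {p : ℕ} [Fact p.Prime] {n : ℕ}

/-- `[p](X) = v_h X^{p^h} + O(X^{p^h+1})` in characteristic `p` if `v_j = 0` for `1 ≤ j < h` -/
theorem coeff_mulPS_hazF {R : Type*} [CommRing R] [CharP R p] {h : ℕ} (h1 : 1 ≤ h) (hn : h ≤ n)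
    (v : ℕ → R) (hv : ∀ j, n < j → v j = 0) (hv2 : ∀ j, 1 ≤ j → j < h → v j = 0) :
    (∀ i, i < p ^ h → PowerSeries.coeff i (mulPS (hazF p v) p) = 0) ∧
      PowerSeries.coeff (p ^ h) (mulPS (hazF p v) p) = v h := by
  have hp : 1 < p := (Fact.out : p.Prime).one_lt
  have hN : 1 ≤ p ^ h := Nat.one_le_pow _ _ (by omega)
  have e1 := mulPS_hazF p n v hv
  obtain ⟨k, rfl⟩ : ∃ k, h = k + 1 := ⟨h - 1, by omega⟩
  obtain ⟨m, rfl⟩ : ∃ m, n = k + 1 + m := ⟨n - (k + 1), by omega⟩
  have h5 := hi_dvd_fsum_sub (hazF p v) hN k m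
    (fun j => PowerSeries.C (v (j + 1)) * (PowerSeries.X : PowerSeries R) ^ p ^ (j + 1))
    (by
      intro j hj
      rw [hv2 _ (by omega) (by omega), map_zero, zero_mul])
    (Dvd.intro_left _ rfl)
    (by
      intro j hj
      refine Dvd.dvd.mul_left (pow_dvd_pow _ ?_) _
      exact Nat.pow_lt_pow_right hp (by omega))
  have h6 : PowerSeries.X ^ (p ^ (k + 1) + 1) ∣ mulPS (hazF p v) p -
      PowerSeries.C (v (k + 1)) * (PowerSeries.X : PowerSeries R) ^ p ^ (k + 1) := by
    rw [e1]; exact h5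
  have h7 := PowerSeries.X_pow_dvd_iff.1 h6
  constructor
  · intro i hi
    have := h7 i (by omega)
    rw [map_sub, PowerSeries.coeff_C_mul, PowerSeries.coeff_X_pow, if_neg (by omega), mul_zero,
      sub_zero] at this
    exact this
  · have := h7 (p ^ (k + 1)) (by omega)
    rw [map_sub, PowerSeries.coeff_C_mul, PowerSeries.coeff_X_pow, if_pos rfl, mul_one,
      sub_eq_zero] at this
    exact this

theorem heightIdeal_mono {i j : ℕ} (hij : i ≤ j) : heightIdeal p n i ≤ heightIdeal p n j := by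
  unfold heightIdeal
  by_cases hi : i = 0
  · rw [if_pos hi]; exact bot_le
  · rw [if_neg hi, if_neg (by omega)]
    apply Ideal.span_mono
    rintro a (ha | ⟨k, h1, h2, rfl⟩)
    · exact Or.inl ha
    · exact Or.inr ⟨k, h1, by omega, rfl⟩

/-- the key congruence `ψ'(0) φ(u_j) ≡ u_j ψ'(0)^{p^j}` modulo `I_j` -/
theorem key_congr {φ : E0 p n ≃+* E0 p n} {ψ : PowerSeries (E0 p n)}
    (hψ : IsIsoFG ψ ((univF p n).map (φ : E0 p n →+* E0 p n)) (univF p n)) {j : ℕ} (h1 : 1 ≤ j)
    (hj : j < n) (hI : ∀ i, 1 ≤ i → i < j → φ (uE p n i) ∈ heightIdeal p n j) :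
    PowerSeries.coeff 1 ψ * φ (uE p n j) - uE p n j * PowerSeries.coeff 1 ψ ^ p ^ j ∈
      heightIdeal p n j := by
  have hp : 1 < p := (Fact.out : p.Prime).one_lt
  have hN : 1 ≤ p ^ j := Nat.one_le_pow _ _ (by omega)
  have hpr : ∀ i, 1 ≤ i → i < n → prm n (uE p n) i = uE p n i := by
    intro i hi hi'
    unfold prm
    rw [if_pos ⟨hi, hi'⟩]
  have hpr2 : ∀ i, n < i → prm n (uE p n) i = 0 := by
    intro i hi
    unfold prm
    rw [if_neg (by omega), if_neg (by omega)]
  let q : E0 p n →+* MvPowerSeries (Idx j n) (GaloisField p n) :=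
    redHom (n := n) (RingHom.id (GaloisField p n)) h1
  have hchar : CharP (MvPowerSeries (Idx j n) (GaloisField p n)) p := by
    refine (CharP.charP_iff_prime_eq_zero (Fact.out : p.Prime)).2 ?_
    rw [← map_natCast (MvPowerSeries.C (σ := Idx j n) (R := GaloisField p n)), CharP.cast_eq_zero,
      map_zero]
  have hq0 : ∀ f ∈ heightIdeal p n j, q f = 0 := fun f hf =>
    redH_eq_zero_of_mem (RingHom.id (GaloisField p n)) h1 hf
  have hq1 : ∀ f, q f = 0 → f ∈ heightIdeal p n j := fun f hf =>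
    mem_heightIdeal_of_redH (RingHom.id (GaloisField p n)) h1 hf
  have hh := hψ.1.map q
  rw [univF, hazF_map, hazF_map, hazF_map] at hh
  have hc := hh.mulPS_comm p
  have c1 := coeff_mulPS_hazF (p := p) (n := n) h1 hj.le
    (fun i => q ((φ : E0 p n →+* E0 p n) (prm n (uE p n) i)))
    (fun i hi => by rw [hpr2 i hi, map_zero, map_zero])
    (fun i hi hi' => by
      rw [hpr i hi (by omega)]
      exact hq0 _ (hI i hi hi'))
  have c2 := coeff_mulPS_hazF (p := p) (n := n) h1 hj.le
    (fun i => q (prm n (uE p n) i))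
    (fun i hi => by rw [hpr2 i hi, map_zero])
    (fun i hi hi' => by
      rw [hpr i hi (by omega)]
      exact hq0 _ (uE_mem_heightIdeal hi hi'))
  have d1 := PowerSeries.X_pow_dvd_iff.2 c1.1
  have d2 := PowerSeries.X_pow_dvd_iff.2 c2.1
  have e1 := hi_coeff_subst_left hN hh.1 d1
  have e2 := hi_coeff_subst_right hh.1 d2
  rw [c1.2, hpr j h1 hj, PowerSeries.coeff_map] at e1
  rw [c2.2, hpr j h1 hj, PowerSeries.coeff_map] at e2
  apply hq1
  rw [map_sub, map_mul, map_mul, map_pow, sub_eq_zero]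
  refine e1.symm.trans (Eq.trans ?_ e2)
  exact congrArg _ hc

/-- induction principle for the height ideals -/
theorem heightIdeal_le_of {J : ℕ → Ideal (E0 p n)} (hJ0 : ∀ h, 1 ≤ h → (p : E0 p n) ∈ J h)
    (hJ : ∀ h, 1 ≤ h → ∀ j, 1 ≤ j → j < h → uE p n j ∈ J h) (h : ℕ) : heightIdeal p n h ≤ J h := by
  by_cases h0 : h = 0
  · unfold heightIdeal
    rw [if_pos h0]
    exact bot_le
  · unfold heightIdeal
    rw [if_neg h0, Ideal.span_le]
    rintro a (ha | ⟨j, h1, h2, rfl⟩)
    · rw [Set.mem_singleton_iff.1 ha]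
      exact hJ0 _ (by omega)
    · exact hJ _ (by omega) _ h1 h2

theorem phi_uE_mem {φ : E0 p n ≃+* E0 p n} {ψ : PowerSeries (E0 p n)}
    (hψ : IsIsoFG ψ ((univF p n).map (φ : E0 p n →+* E0 p n)) (univF p n)) :
    ∀ j, 1 ≤ j → j < n → φ (uE p n j) ∈ heightIdeal p n (j + 1) := by
  intro j
  induction j using Nat.strong_induction_on with
  | _ j ih =>
    intro h1 hj
    have hk := key_congr hψ h1 hj (fun i hi hi' =>
      heightIdeal_mono (by omega) (ih i hi' hi (by omega)))
    have h2 : PowerSeries.coeff 1 ψ * φ (uE p n j) ∈ heightIdeal p n (j + 1) := by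
      have h3 : PowerSeries.coeff 1 ψ * φ (uE p n j) =
        (PowerSeries.coeff 1 ψ * φ (uE p n j) - uE p n j * PowerSeries.coeff 1 ψ ^ p ^ j) +
          uE p n j * PowerSeries.coeff 1 ψ ^ p ^ j := by ring
      rw [h3]
      exact add_mem (heightIdeal_mono (by omega) hk)
        (Ideal.mul_mem_right _ _ (uE_mem_heightIdeal h1 (by omega)))
    exact (Ideal.unit_mul_mem_iff_mem _ hψ.2).1 h2

theorem heightIdeal_map_le (hn : 1 ≤ n) {φ : E0 p n ≃+* E0 p n} {ψ : PowerSeries (E0 p n)}
    (hψ : IsIsoFG ψ ((univF p n).map (φ : E0 p n →+* E0 p n)) (univF p n)) {h : ℕ} (hh : h ≤ n) :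
    (heightIdeal p n h).map (φ : E0 p n →+* E0 p n) ≤ heightIdeal p n h := by
  rw [Ideal.map_le_iff_le_comap]
  by_cases h0 : h = 0
  · subst h0
    unfold heightIdeal
    rw [if_pos rfl]
    exact bot_le
  · conv_lhs => unfold heightIdeal
    rw [if_neg h0, Ideal.span_le]
    rintro a (ha | ⟨j, h1, h2, rfl⟩)
    · rw [Set.mem_singleton_iff.1 ha]
      show (φ : E0 p n →+* E0 p n) (p : E0 p n) ∈ heightIdeal p n h
      rw [map_natCast]
      exact p_mem_heightIdeal (by omega)
    · exact heightIdeal_mono (by omega) (phi_uE_mem hψ j h1 (by omega))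

theorem heightIdeal_invariant (hn : 1 ≤ n) {h : ℕ} (hh : h ≤ n) :
    GInvariant p n (univF p n) (heightIdeal p n h) := by
  intro φ ψ hψ
  refine le_antisymm (heightIdeal_map_le hn hψ hh) ?_
  induction h with
  | zero =>
    unfold heightIdeal
    rw [if_pos rfl]
    exact bot_le
  | succ h ih =>
    have ih' := ih (by omega)
    have hle : (heightIdeal p n h).map (φ : E0 p n →+* E0 p n) ≤
        (heightIdeal p n (h + 1)).map (φ : E0 p n →+* E0 p n) :=
      Ideal.map_mono (heightIdeal_mono (by omega))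
    conv_lhs => unfold heightIdeal
    rw [if_neg (by omega), Ideal.span_le]
    rintro a (ha | ⟨j, h1, h2, rfl⟩)
    · rw [Set.mem_singleton_iff.1 ha]
      have h3 := Ideal.mem_map_of_mem (φ : E0 p n →+* E0 p n)
        (p_mem_heightIdeal (p := p) (n := n) (h := h + 1) (by omega))
      rwa [map_natCast] at h3
    · rcases Nat.lt_succ_iff_lt_or_eq.1 h2 with hj | hj
      · exact hle (ih' (uE_mem_heightIdeal h1 hj))
      · subst hj
        have hk := key_congr hψ h1 (by omega) (fun i hi hi' =>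
          heightIdeal_mono (by omega) (phi_uE_mem hψ i hi (by omega)))
        have h4 : φ (uE p n j) ∈ (heightIdeal p n (j + 1)).map (φ : E0 p n →+* E0 p n) :=
          Ideal.mem_map_of_mem (φ : E0 p n →+* E0 p n) (uE_mem_heightIdeal h1 (by omega))
        have h5 : PowerSeries.coeff 1 ψ ^ p ^ j * uE p n j ∈
            (heightIdeal p n (j + 1)).map (φ : E0 p n →+* E0 p n) := by
          have h6 : PowerSeries.coeff 1 ψ ^ p ^ j * uE p n j = PowerSeries.coeff 1 ψ * φ (uE p n j) -
            (PowerSeries.coeff 1 ψ * φ (uE p n j) - uE p n j * PowerSeries.coeff 1 ψ ^ p ^ j) := by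
            ring
          rw [h6]
          exact sub_mem (Ideal.mul_mem_left _ _ h4) (hle (ih' hk))
        exact (Ideal.unit_mul_mem_iff_mem _ (hψ.2.pow _)).1 h5

theorem heightIdeal_eq_ker {h : ℕ} (h1 : 1 ≤ h) :
    heightIdeal p n h = RingHom.ker (redHom (n := n) (RingHom.id (GaloisField p n)) h1) := by
  ext f
  exact ⟨fun hf => redH_eq_zero_of_mem (RingHom.id (GaloisField p n)) h1 hf,
    fun hf => mem_heightIdeal_of_redH (RingHom.id (GaloisField p n)) h1 hf⟩

theorem heightIdeal_isPrime (hn : 1 ≤ n) (h : ℕ) : (heightIdeal p n h).IsPrime := by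
  by_cases h0 : h = 0
  · unfold heightIdeal
    rw [if_pos h0]
    exact Ideal.isPrime_bot
  · rw [heightIdeal_eq_ker (by omega : 1 ≤ h)]
    have : IsDomain (MvPowerSeries (Idx h n) (GaloisField p n)) := NoZeroDivisors.to_isDomain _
    exact RingHom.ker_isPrime _

/-- `I_n` is the maximal ideal -/
theorem heightIdeal_n (hn : 1 ≤ n) : heightIdeal p n n = mE p n := by
  rw [heightIdeal_eq_ker hn]
  have he : ∀ d : Idx n n →₀ ℕ, d = 0 := by
    intro d
    ext i
    have := Finset.mem_Ico.1 i.2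
    omega
  ext f
  unfold mE
  rw [RingHom.mem_ker, RingHom.mem_ker]
  have h2 : ∀ d, coeff d (redHom (n := n) (RingHom.id (GaloisField p n)) hn f) = resE p n f := by
    intro d
    rw [he d]
    show coeff 0 (redH (RingHom.id (GaloisField p n)) hn f) = _
    rw [coeff_redH, Finsupp.embDomain_zero]
    rfl
  constructor
  · intro h
    rw [← h2 0, h, map_zero]
  · intro h
    ext d
    rw [h2, h, map_zero]

theorem mE_isMaximal (hn : 1 ≤ n) : (mE p n).IsMaximal := by
  unfold mE
  apply RingHom.ker_isMaximal_of_surjective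
  intro a
  obtain ⟨w, hw⟩ := WittVector.constantCoeff_surjective p a
  exact ⟨MvPowerSeries.C w, by unfold resE; simpa using hw⟩

end Chai
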