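import Vale.Agent.Chai.LTDefs

/-!
# P217 / LTfilt: the `(p, u)`-adic filtration of `E_0`, graded pieces, automorphisms

OWNER: helper10  [helper9 writes the rest of LT on top of these statements]

`IE i` = series whose coefficient at `u^d` is divisible by `p^(i - |d|)`.
`lam i d a` (`|d| ≤ i`, `a ∈ IE i`) = residue of `coeff_d a / p^(i - |d|)`.

PROOFS.
* `IE_le_pow`: `IE (i+1) ≤ mE * IE i`: `e = C(e_0) + ∑_j X_j e_j`, where
  `coeff_{d'} e_j = coeff_{d' + single j} e` if `j` is the smallest element of the support of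
  `d' + single j 1`, else `0`; `C(e_0) = p * C(..)` as `p^(i+1) ∣ e_0`.
* `IE_one`: `WittVector.ker_constantCoeff`.  `IE_inf`, `IE_complete`: coefficientwise from
  `WittVector.isAdicCompleteIdealSpanP`.
* `lam_mul`: in `coeff_d (ab) = ∑ a_{d1} b_{d2}` all terms with `d1 ≠ 0` are `0` mod `p^(i-|d|+1)`.
* `exists_aut`: `φ a` = the limit of `MvPolynomial.eval₂ C x (trunc a)` (terms of degree `< N`), i.e. the
  element `b` with `b - ∑_{|d| < N} C(a_d) x^d ∈ IE N` for all `N` (`IE_complete`, `x_j ∈ IE 1`); ring
  homomorphism by congruences modulo `IE N`; `x^d - u^d ∈ IE (|d| + m)` for `d ≠ 0`, so `φ - id` maps `IE i` into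
  `IE (i + m)` (and `E` into `IE (m+1)`), hence bijective: injective by `IE_inf`, surjective by successive approximation
  (`IE_complete`).
-/

namespace Chai

open MvPowerSeries Filter

section

variable (p : ℕ) [Fact p.Prime] (n : ℕ)

/-- the filtration by `(p, u)`-adic order -/
noncomputable def IE (i : ℕ) : Ideal (E0 p n) where
  carrier := {a | ∀ d, (p : WittVector p (GaloisField p n)) ^ (i - d.degree) ∣ coeff d a}
  add_mem' ha hb d := by
    rw [map_add]
    exact dvd_add (ha d) (hb d)
  zero_mem' d := by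
    rw [map_zero]
    exact dvd_zero _
  smul_mem' c x hx d := by
    classical
    rw [smul_eq_mul, coeff_mul]
    refine Finset.dvd_sum fun q hq => ?_
    have h := Finset.HasAntidiagonal.mem_antidiagonal.mp hq
    have h2 : q.1.degree + q.2.degree = d.degree := by rw [← map_add, h]
    exact (pow_dvd_pow _ (by omega)).trans ((hx q.2).mul_left _)

theorem mem_IE {i : ℕ} {a : E0 p n} :
    a ∈ IE p n i ↔ ∀ d, (p : WittVector p (GaloisField p n)) ^ (i - d.degree) ∣ coeff d a := Iff.rfl

theorem IE_zero : IE p n 0 = ⊤ := by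
  rw [eq_top_iff]
  intro a _ d
  rw [Nat.zero_sub, pow_zero]
  exact one_dvd _

theorem dvd_iff_cc (w : WittVector p (GaloisField p n)) :
    (p : WittVector p (GaloisField p n)) ∣ w ↔ WittVector.constantCoeff w = 0 := by
  rw [← Ideal.mem_span_singleton, ← WittVector.ker_constantCoeff, RingHom.mem_ker]

theorem IE_one : IE p n 1 = mE p n := by
  ext a
  rw [mem_IE, mE, RingHom.mem_ker, resE, RingHom.comp_apply, ← dvd_iff_cc]
  constructor
  · intro h
    have := h 0
    rw [map_zero, Nat.sub_zero, pow_one] at this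
    exact this
  · intro h d
    by_cases hd : d = 0
    · rw [hd, map_zero, Nat.sub_zero, pow_one]
      exact h
    · have h1 : d.degree ≠ 0 := fun h0 => hd ((Finsupp.degree_eq_zero_iff d).mp h0)
      have : 1 - d.degree = 0 := by omega
      rw [this, pow_zero]
      exact one_dvd _

theorem IE_anti {i j : ℕ} (h : i ≤ j) : IE p n j ≤ IE p n i := by
  intro a ha d
  exact (pow_dvd_pow _ (by omega)).trans (ha d)

theorem IE_mul {i j : ℕ} {a b : E0 p n} (ha : a ∈ IE p n i) (hb : b ∈ IE p n j) :
    a * b ∈ IE p n (i + j) := by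
  classical
  intro d
  rw [coeff_mul]
  refine Finset.dvd_sum fun q hq => ?_
  have h := Finset.HasAntidiagonal.mem_antidiagonal.mp hq
  have h2 : q.1.degree + q.2.degree = d.degree := by rw [← map_add, h]
  have h3 : (p : WittVector p (GaloisField p n)) ^ ((i - q.1.degree) + (j - q.2.degree)) ∣
      coeff q.1 a * coeff q.2 b := by
    rw [pow_add]
    exact mul_dvd_mul (ha _) (hb _)
  exact (pow_dvd_pow _ (by omega)).trans h3

theorem C_mem_IE {i : ℕ} {w : WittVector p (GaloisField p n)}
    (h : (p : WittVector p (GaloisField p n)) ^ i ∣ w) : (MvPowerSeries.C w : E0 p n) ∈ IE p n i := by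
  classical
  intro d
  rw [coeff_C]
  split_ifs with hd
  · rw [hd, map_zero, Nat.sub_zero]
    exact h
  · exact dvd_zero _

theorem p_mem_IE : (p : E0 p n) ∈ IE p n 1 := by
  have : (p : E0 p n) = MvPowerSeries.C (p : WittVector p (GaloisField p n)) :=
    (map_natCast (MvPowerSeries.C (σ := Fin (n - 1)) (R := WittVector p (GaloisField p n))) p).symm
  rw [this]
  exact C_mem_IE p n (by rw [pow_one])

theorem X_mem_IE (j : Fin (n - 1)) : (X j : E0 p n) ∈ IE p n 1 := by
  rw [IE_one, mE, RingHom.mem_ker, resE, RingHom.comp_apply, constantCoeff_X, map_zero]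

theorem uE_mem_IE (j : ℕ) : uE p n j ∈ IE p n 1 := by
  unfold uE
  split_ifs
  · exact X_mem_IE p n _
  · exact zero_mem _

theorem pow_mem_IE {i : ℕ} {a : E0 p n} (ha : a ∈ IE p n i) (k : ℕ) : a ^ k ∈ IE p n (k * i) := by
  induction k with
  | zero => rw [Nat.zero_mul, IE_zero]; trivial
  | succ k ih =>
    rw [pow_succ, Nat.succ_mul]
    exact IE_mul p n ih ha

/-- the part of `e` divisible by `X_j`, not by the earlier variables -/
noncomputable def splitE (e : E0 p n) (j : Fin (n - 1)) : E0 p n := fun d =>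
  open Classical in if ∀ k < j, d k = 0 then coeff (d + Finsupp.single j 1) e else 0

theorem eq_splitE (e : E0 p n) :
    e = MvPowerSeries.C (coeff 0 e) + ∑ j : Fin (n - 1), X j * splitE p n e j := by
  classical
  ext1 d
  rw [map_add, map_sum, coeff_C]
  have h1 : ∀ j : Fin (n - 1), coeff d (X j * splitE p n e j) =
      if d j ≠ 0 ∧ ∀ k < j, d k = 0 then coeff d e else 0 := by
    intro j
    rw [X_def, coeff_monomial_mul, one_mul]
    by_cases hj : d j = 0
    · rw [if_neg (by
        intro h
        have := h j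
        simp [hj] at this), if_neg (by simp [hj])]
    · have hle : Finsupp.single j 1 ≤ d := by
        rw [Finsupp.single_le_iff]
        omega
      rw [if_pos hle]
      change (if ∀ k < j, (d - Finsupp.single j 1 : Fin (n - 1) →₀ ℕ) k = 0 then
        coeff (d - Finsupp.single j 1 + Finsupp.single j 1) e else 0) = _
      rw [tsub_add_cancel_of_le hle]
      have h2 : (∀ k < j, (d - Finsupp.single j 1 : Fin (n - 1) →₀ ℕ) k = 0) ↔
          (d j ≠ 0 ∧ ∀ k < j, d k = 0) := by
        constructor
        · intro h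
          refine ⟨hj, fun k hk => ?_⟩
          have := h k hk
          rwa [Finsupp.tsub_apply, Finsupp.single_eq_of_ne hk.ne, Nat.sub_zero] at this
        · rintro ⟨-, h⟩ k hk
          rw [Finsupp.tsub_apply, Finsupp.single_eq_of_ne hk.ne, Nat.sub_zero]
          exact h k hk
      simp only [h2]
  simp only [h1]
  by_cases hd : d = 0
  · rw [if_pos hd, Finset.sum_eq_zero, add_zero, hd]
    intro j _
    rw [hd]
    simp
  · rw [if_neg hd, zero_add]
    have hex : ∃ j, d j ≠ 0 := by
      by_contra hcon
      push Not at hcon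
      exact hd (Finsupp.ext hcon)
    obtain ⟨j, hj, hmin⟩ : ∃ j, d j ≠ 0 ∧ ∀ k < j, d k = 0 := by
      obtain ⟨j, hj, hm⟩ := WellFounded.has_min (wellFounded_lt (α := Fin (n - 1)))
        {j | d j ≠ 0} hex
      refine ⟨j, hj, fun k hk => ?_⟩
      by_contra hcon
      exact hm k hcon hk
    rw [Finset.sum_eq_single j]
    · rw [if_pos ⟨hj, hmin⟩]
    · intro k _ hk
      rw [if_neg]
      rintro ⟨h3, h4⟩
      rcases lt_or_gt_of_ne hk with h5 | h5
      · exact h3 (hmin k h5)
      · exact hj (h4 j h5)
    · intro h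
      exact absurd (Finset.mem_univ j) h

theorem IE_le_pow (i : ℕ) : IE p n i ≤ mE p n ^ i := by
  induction i with
  | zero => rw [pow_zero, Ideal.one_eq_top]; exact le_top
  | succ i ih =>
    intro e he
    rw [eq_splitE p n e]
    refine add_mem ?_ (sum_mem fun j _ => ?_)
    · have h0 := he 0
      rw [map_zero, Nat.sub_zero] at h0
      obtain ⟨w, hw⟩ := h0
      rw [hw, map_mul, map_pow, map_natCast]
      refine Ideal.mul_mem_right _ _ (Ideal.pow_mem_pow ?_ _)
      rw [← IE_one]
      exact p_mem_IE p n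
    · rw [pow_succ', ]
      refine Ideal.mul_mem_mul ?_ (ih ?_)
      · rw [← IE_one]
        exact X_mem_IE p n j
      · intro d
        change _ ∣ (open Classical in if ∀ k < j, d k = 0 then
          coeff (d + Finsupp.single j 1) e else 0)
        split_ifs
        · have := he (d + Finsupp.single j 1)
          rw [map_add, Finsupp.degree_single] at this
          exact (pow_dvd_pow _ (by omega)).trans this
        · exact dvd_zero _

theorem W_eq_zero {w : WittVector p (GaloisField p n)}
    (h : ∀ i : ℕ, (p : WittVector p (GaloisField p n)) ^ i ∣ w) : w = 0 := by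
  refine IsHausdorff.haus (I := Ideal.span {(p : WittVector p (GaloisField p n))})
    inferInstance w fun i => ?_
  rw [SModEq.zero, smul_eq_mul, Ideal.mul_top, Ideal.span_singleton_pow, Ideal.mem_span_singleton]
  exact h i

theorem IE_inf {a : E0 p n} (h : ∀ i, a ∈ IE p n i) : a = 0 := by
  ext1 d
  rw [map_zero]
  refine W_eq_zero p n fun i => ?_
  have := h (i + d.degree) d
  rwa [Nat.add_sub_cancel] at this

theorem W_complete (f : ℕ → WittVector p (GaloisField p n))
    (h : ∀ i, (p : WittVector p (GaloisField p n)) ^ i ∣ f (i + 1) - f i) :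
    ∃ L, ∀ i, (p : WittVector p (GaloisField p n)) ^ i ∣ L - f i := by
  have h1 : ∀ m k, (p : WittVector p (GaloisField p n)) ^ m ∣ f (m + k) - f m := by
    intro m k
    induction k with
    | zero => rw [add_zero, sub_self]; exact dvd_zero _
    | succ k ih =>
      have : f (m + (k + 1)) - f m = (f (m + k + 1) - f (m + k)) + (f (m + k) - f m) := by
        rw [← add_assoc]; ring
      rw [this]
      exact dvd_add ((pow_dvd_pow _ (by omega)).trans (h _)) ih
  have hmem : ∀ (m : ℕ) (a b : WittVector p (GaloisField p n)),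
      a ≡ b [SMOD (Ideal.span {(p : WittVector p (GaloisField p n))} ^ m •
        (⊤ : Submodule (WittVector p (GaloisField p n)) (WittVector p (GaloisField p n))))] ↔
      (p : WittVector p (GaloisField p n)) ^ m ∣ a - b := by
    intro m a b
    rw [SModEq.sub_mem, smul_eq_mul, Ideal.mul_top, Ideal.span_singleton_pow,
      Ideal.mem_span_singleton]
  obtain ⟨L, hL⟩ := IsPrecomplete.prec
    (I := Ideal.span {(p : WittVector p (GaloisField p n))}) inferInstance
    (f := f) (fun {m k} hmk => by
      rw [hmem]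
      obtain ⟨l, rfl⟩ := Nat.exists_eq_add_of_le hmk
      rw [dvd_sub_comm]
      exact h1 m l)
  refine ⟨L, fun i => ?_⟩
  rw [dvd_sub_comm]
  exact (hmem i _ _).mp (hL i)

theorem IE_complete (a : ℕ → E0 p n) (h : ∀ i, a (i + 1) - a i ∈ IE p n i) :
    ∃ b, ∀ i, b - a i ∈ IE p n i := by
  have h1 : ∀ d : Fin (n - 1) →₀ ℕ, ∃ L : WittVector p (GaloisField p n),
      ∀ i, (p : WittVector p (GaloisField p n)) ^ i ∣ L - coeff d (a (i + d.degree)) := by
    intro d
    refine W_complete p n (fun i => coeff d (a (i + d.degree))) fun i => ?_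
    have := h (i + d.degree) d
    rw [Nat.add_sub_cancel, map_sub] at this
    rw [show i + 1 + d.degree = i + d.degree + 1 by ring]
    exact this
  choose L hL using h1
  obtain ⟨b, hb⟩ : ∃ b : E0 p n, b = fun d => L d := ⟨_, rfl⟩
  have hbc : ∀ d, coeff d b = L d := fun d => by rw [hb]; rfl
  refine ⟨b, fun i d => ?_⟩
  rw [map_sub, hbc]
  rcases le_total d.degree i with hd | hd
  · obtain ⟨k, rfl⟩ := Nat.exists_eq_add_of_le hd
    rw [Nat.add_sub_cancel_left, add_comm d.degree k]
    exact hL d k
  · rw [Nat.sub_eq_zero_of_le hd, pow_zero]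
    exact one_dvd _

theorem resE_surjective : Function.Surjective (resE p n) := by
  intro c
  obtain ⟨w, hw⟩ := WittVector.constantCoeff_surjective p c
  exact ⟨MvPowerSeries.C w, by rw [resE, RingHom.comp_apply, constantCoeff_C, hw]⟩

open Classical in
/-- the coefficient of `p^(i - |d|) u^d` in an element of `IE i` -/
noncomputable def lam (i : ℕ) (d : Fin (n - 1) →₀ ℕ) (a : E0 p n) : GaloisField p n :=
  if h : (p : WittVector p (GaloisField p n)) ^ (i - d.degree) ∣ coeff d a then
    WittVector.constantCoeff (Classical.choose h) else 0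

variable {p n} {i : ℕ} {d : Fin (n - 1) →₀ ℕ} {a b : E0 p n}

theorem lam_eq {w : WittVector p (GaloisField p n)}
    (h : coeff d a = (p : WittVector p (GaloisField p n)) ^ (i - d.degree) * w) :
    lam p n i d a = WittVector.constantCoeff w := by
  have hd : (p : WittVector p (GaloisField p n)) ^ (i - d.degree) ∣ coeff d a := ⟨w, h⟩
  unfold lam
  rw [dif_pos hd]
  congr 1
  have h1 := Classical.choose_spec hd
  have hp : (p : WittVector p (GaloisField p n)) ^ (i - d.degree) ≠ 0 :=
    pow_ne_zero _ (WittVector.p_nonzero p _)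
  exact mul_left_cancel₀ hp (h1.symm.trans h)

theorem lam_add (ha : a ∈ IE p n i) (hb : b ∈ IE p n i) :
    lam p n i d (a + b) = lam p n i d a + lam p n i d b := by
  obtain ⟨v, hv⟩ := ha d
  obtain ⟨w, hw⟩ := hb d
  rw [lam_eq hv, lam_eq hw, ← map_add]
  apply lam_eq
  rw [map_add, hv, hw, mul_add]

theorem lam_mul (hd : d.degree ≤ i) (hb : b ∈ IE p n i) :
    lam p n i d (a * b) = resE p n a * lam p n i d b := by
  classical
  obtain ⟨w, hw⟩ := hb d
  have h1 : (p : WittVector p (GaloisField p n)) ^ (i - d.degree + 1) ∣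
      coeff d (a * b) - coeff 0 a * coeff d b := by
    rw [coeff_mul, ← Finset.add_sum_erase _ _ (show ((0 : Fin (n - 1) →₀ ℕ), d) ∈
      Finset.HasAntidiagonal.antidiagonal d by
        rw [Finset.HasAntidiagonal.mem_antidiagonal, zero_add]), add_sub_cancel_left]
    refine Finset.dvd_sum fun q hq => ?_
    obtain ⟨hq1, hq2⟩ := Finset.mem_erase.mp hq
    have h := Finset.HasAntidiagonal.mem_antidiagonal.mp hq2
    have h2 : q.1.degree + q.2.degree = d.degree := by rw [← map_add, h]
    have h3 : q.1.degree ≠ 0 := by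
      intro h0
      apply hq1
      have h4 : q.1 = 0 := (Finsupp.degree_eq_zero_iff _).mp h0
      refine Prod.ext h4 ?_
      rw [h4, zero_add] at h
      exact h
    exact (pow_dvd_pow _ (by omega)).trans ((hb q.2).mul_left _)
  obtain ⟨v, hv⟩ := h1
  rw [lam_eq hw]
  have h5 : coeff d (a * b) = (p : WittVector p (GaloisField p n)) ^ (i - d.degree) *
      (coeff 0 a * w + p * v) := by
    rw [sub_eq_iff_eq_add] at hv
    rw [hv, hw]
    ring
  rw [lam_eq h5, map_add, map_mul, map_mul, map_natCast, CharP.cast_eq_zero, zero_mul, add_zero]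
  rfl

theorem mem_IE_succ : a ∈ IE p n (i + 1) ↔ a ∈ IE p n i ∧ ∀ d, d.degree ≤ i → lam p n i d a = 0 := by
  constructor
  · intro h
    refine ⟨IE_anti p n (Nat.le_succ i) h, fun d hd => ?_⟩
    obtain ⟨w, hw⟩ := h d
    have h1 : coeff d a = (p : WittVector p (GaloisField p n)) ^ (i - d.degree) * (p * w) := by
      rw [hw, show i + 1 - d.degree = i - d.degree + 1 by omega]
      ring
    rw [lam_eq h1, map_mul, map_natCast, CharP.cast_eq_zero, zero_mul]
  · rintro ⟨h, h0⟩ d
    rcases le_or_gt d.degree i with hd | hd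
    · obtain ⟨w, hw⟩ := h d
      have h1 := h0 d hd
      rw [lam_eq hw, ← dvd_iff_cc] at h1
      obtain ⟨v, hv⟩ := h1
      rw [hw, hv, show i + 1 - d.degree = i - d.degree + 1 by omega]
      exact ⟨v, by ring⟩
    · rw [Nat.sub_eq_zero_of_le (by omega), pow_zero]
      exact one_dvd _

theorem exists_mkI (i : ℕ) (c : (Fin (n - 1) →₀ ℕ) → GaloisField p n) :
    ∃ a ∈ IE p n i, ∀ d, d.degree ≤ i → lam p n i d a = c d := by
  choose w hw using fun d => WittVector.constantCoeff_surjective p (c d)
  obtain ⟨a, ha⟩ : ∃ a : E0 p n, a = fun d =>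
    (p : WittVector p (GaloisField p n)) ^ (i - d.degree) * w d := ⟨_, rfl⟩
  have hac : ∀ d, coeff d a = (p : WittVector p (GaloisField p n)) ^ (i - d.degree) * w d :=
    fun d => by rw [ha]; rfl
  refine ⟨a, fun d => ⟨_, hac d⟩, fun d _ => ?_⟩
  rw [lam_eq (hac d), hw]

/-! ### the automorphism `u_j ↦ x_j` -/

section aut

variable (x : Fin (n - 1) → E0 p n)

/-- evaluation of polynomials at `x` -/
noncomputable def evx : MvPolynomial (Fin (n - 1)) (WittVector p (GaloisField p n)) →+* E0 p n :=
  MvPolynomial.eval₂Hom MvPowerSeries.C x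

theorem prodx_mem {x : Fin (n - 1) → E0 p n} (hx : ∀ j, x j ∈ IE p n 1) (d : Fin (n - 1) →₀ ℕ) :
    ∏ j ∈ d.support, x j ^ d j ∈ IE p n d.degree := by
  classical
  rw [Finsupp.degree_apply]
  have : ∀ s : Finset (Fin (n - 1)), ∏ j ∈ s, x j ^ d j ∈ IE p n (∑ j ∈ s, d j) := by
    intro s
    induction s using Finset.induction_on with
    | empty => rw [Finset.sum_empty, IE_zero]; trivial
    | insert b s hb ih =>
      rw [Finset.prod_insert hb, Finset.sum_insert hb]
      refine IE_mul p n ?_ ih
      have := pow_mem_IE p n (hx b) (d b)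
      rwa [mul_one] at this
  exact this _

theorem evx_mem {x : Fin (n - 1) → E0 p n} (hx : ∀ j, x j ∈ IE p n 1) {N : ℕ}
    (P : MvPolynomial (Fin (n - 1)) (WittVector p (GaloisField p n)))
    (hP : ∀ d, (p : WittVector p (GaloisField p n)) ^ (N - d.degree) ∣ P.coeff d) :
    evx x P ∈ IE p n N := by
  rw [evx, MvPolynomial.coe_eval₂Hom, MvPolynomial.eval₂_eq]
  refine sum_mem fun d _ => ?_
  have h1 := IE_mul p n (C_mem_IE p n (hP d)) (prodx_mem hx d)
  exact IE_anti p n (by omega) h1

theorem evx_X (j : Fin (n - 1)) : evx x (MvPolynomial.X j) = x j := by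
  rw [evx, MvPolynomial.eval₂Hom_X']

theorem evx_C (w : WittVector p (GaloisField p n)) : evx x (MvPolynomial.C w) = MvPowerSeries.C w := by
  rw [evx, MvPolynomial.coe_eval₂Hom, MvPolynomial.eval₂_C]

theorem evx_sub_mem {x : Fin (n - 1) → E0 p n} {m : ℕ}
    (hx : ∀ j, x j - X j ∈ IE p n (m + 1)) {N : ℕ}
    (P : MvPolynomial (Fin (n - 1)) (WittVector p (GaloisField p n)))
    (hP : ∀ d, (p : WittVector p (GaloisField p n)) ^ (N - d.degree) ∣ P.coeff d) :
    evx x P - (P : E0 p n) ∈ IE p n (N + m) := by
  classical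
  have hx1 : ∀ j, x j ∈ IE p n 1 := by
    intro j
    have := add_mem (IE_anti p n (by omega : 1 ≤ m + 1) (hx j)) (X_mem_IE p n j)
    rwa [sub_add_cancel] at this
  have hP2 : (P : E0 p n) = evx X P := by
    rw [evx, MvPolynomial.coe_eval₂Hom, MvPolynomial.eval₂_eq]
    conv_lhs => rw [P.as_sum]
    ext1 d
    rw [MvPolynomial.coeff_coe, MvPolynomial.coeff_sum, map_sum]
    refine Finset.sum_congr rfl fun e _ => ?_
    have : (∏ i ∈ e.support, (X i : E0 p n) ^ e i) = monomial e 1 := by
      have := monomial_one_eq (R := WittVector p (GaloisField p n)) e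
      rw [this]
      rfl
    rw [this, coeff_C_mul, coeff_monomial, MvPolynomial.coeff_monomial]
    by_cases h : e = d
    · rw [if_pos h, if_pos h.symm, mul_one]
    · rw [if_neg h, if_neg (Ne.symm h), mul_zero]
  rw [hP2, evx, evx, MvPolynomial.coe_eval₂Hom, MvPolynomial.coe_eval₂Hom, MvPolynomial.eval₂_eq,
    MvPolynomial.eval₂_eq, ← Finset.sum_sub_distrib]
  refine sum_mem fun d _ => ?_
  rw [← mul_sub]
  have hpow : ∀ (j : Fin (n - 1)) (k : ℕ), x j ^ k - (X j : E0 p n) ^ k ∈ IE p n (k + m) := by
    intro j k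
    induction k with
    | zero => rw [pow_zero, pow_zero, sub_self]; exact zero_mem _
    | succ k ih =>
      have : x j ^ (k + 1) - (X j : E0 p n) ^ (k + 1) =
          x j ^ k * (x j - X j) + (x j ^ k - X j ^ k) * X j := by ring
      rw [this]
      refine add_mem ?_ ?_
      · have h1 := pow_mem_IE p n (hx1 j) k
        rw [mul_one] at h1
        have h2 := IE_mul p n h1 (hx j)
        exact IE_anti p n (by omega) h2
      · have h2 := IE_mul p n ih (X_mem_IE p n j)
        exact IE_anti p n (by omega) h2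
  have hprod : ∀ s : Finset (Fin (n - 1)), ∏ j ∈ s, x j ^ d j - ∏ j ∈ s, (X j : E0 p n) ^ d j ∈
      IE p n ((∑ j ∈ s, d j) + m) := by
    intro s
    induction s using Finset.induction_on with
    | empty => rw [Finset.prod_empty, Finset.prod_empty, sub_self]; exact zero_mem _
    | insert b s hb ih =>
      rw [Finset.prod_insert hb, Finset.prod_insert hb, Finset.sum_insert hb]
      have : x b ^ d b * ∏ j ∈ s, x j ^ d j - X b ^ d b * ∏ j ∈ s, (X j : E0 p n) ^ d j =
          x b ^ d b * (∏ j ∈ s, x j ^ d j - ∏ j ∈ s, (X j : E0 p n) ^ d j) +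
          (x b ^ d b - X b ^ d b) * ∏ j ∈ s, (X j : E0 p n) ^ d j := by ring
      rw [this]
      refine add_mem ?_ ?_
      · have h1 := pow_mem_IE p n (hx1 b) (d b)
        rw [mul_one] at h1
        have h2 := IE_mul p n h1 ih
        exact IE_anti p n (by omega) h2
      · have h1 : ∀ t : Finset (Fin (n - 1)), ∏ j ∈ t, (X j : E0 p n) ^ d j ∈
            IE p n (∑ j ∈ t, d j) := by
          intro t
          induction t using Finset.induction_on with
          | empty => rw [Finset.sum_empty, IE_zero]; trivial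
          | insert c t hc ih2 =>
            rw [Finset.prod_insert hc, Finset.sum_insert hc]
            refine IE_mul p n ?_ ih2
            have := pow_mem_IE p n (X_mem_IE p n c) (d c)
            rwa [mul_one] at this
        have h2 := IE_mul p n (hpow b (d b)) (h1 s)
        exact IE_anti p n (by omega) h2
  have h3 := hprod d.support
  rw [← Finsupp.degree_apply] at h3
  have h4 := IE_mul p n (C_mem_IE p n (hP d)) h3
  exact IE_anti p n (by omega) h4

/-- truncated evaluation -/
noncomputable def TN (N : ℕ) (a : E0 p n) : E0 p n := evx x (a.truncTotal N)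

theorem dvd_truncTotal {a : E0 p n} {i : ℕ} (ha : a ∈ IE p n i) (N : ℕ) (d : Fin (n - 1) →₀ ℕ) :
    (p : WittVector p (GaloisField p n)) ^ (i - d.degree) ∣ (a.truncTotal N).coeff d := by
  rw [coeff_truncTotal_eq_ite]
  split_ifs
  · exact ha d
  · exact dvd_zero _

theorem TN_succ_sub_mem {x : Fin (n - 1) → E0 p n} (hx : ∀ j, x j ∈ IE p n 1) (a : E0 p n) (N : ℕ) :
    TN x (N + 1) a - TN x N a ∈ IE p n N := by
  unfold TN
  rw [← map_sub]
  refine evx_mem hx _ fun d => ?_
  rw [MvPolynomial.coeff_sub, coeff_truncTotal_eq_ite, coeff_truncTotal_eq_ite]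
  rcases lt_or_ge d.degree N with h | h
  · rw [if_pos (by omega), if_pos h, sub_self]
    exact dvd_zero _
  · rw [Nat.sub_eq_zero_of_le h, pow_zero]
    exact one_dvd _

theorem exists_autx {m : ℕ} (hm : 1 ≤ m) {x : Fin (n - 1) → E0 p n}
    (hx : ∀ j, x j - X j ∈ IE p n (m + 1)) :
    ∃ φ : E0 p n ≃+* E0 p n, (∀ j, φ (X j) = x j) ∧
      (∀ w, φ (MvPowerSeries.C w) = MvPowerSeries.C w) ∧ ∀ a, φ a - a ∈ IE p n (m + 1) := by
  have hx1 : ∀ j, x j ∈ IE p n 1 := by
    intro j
    have := add_mem (IE_anti p n (by omega : 1 ≤ m + 1) (hx j)) (X_mem_IE p n j)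
    rwa [sub_add_cancel] at this
  choose f hf using fun a => IE_complete p n (fun N => TN x N a) (TN_succ_sub_mem hx1 a)
  have huniq : ∀ a b : E0 p n, (∀ N, b - TN x N a ∈ IE p n N) → f a = b := by
    intro a b hb
    refine sub_eq_zero.mp (IE_inf p n fun N => ?_)
    have := sub_mem (hf a N) (hb N)
    simpa using this
  have hTadd : ∀ N a b, TN x N (a + b) = TN x N a + TN x N b := by
    intro N a b
    unfold TN
    rw [map_add, map_add]
  have hadd : ∀ a b, f (a + b) = f a + f b := by
    intro a b
    refine huniq _ _ fun N => ?_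
    rw [hTadd, add_sub_add_comm]
    exact add_mem (hf a N) (hf b N)
  have hC : ∀ w, f (MvPowerSeries.C w) = MvPowerSeries.C w := by
    intro w
    refine huniq _ _ fun N => ?_
    rcases Nat.eq_zero_or_pos N with h0 | h0
    · rw [h0, IE_zero]; trivial
    · have : (MvPowerSeries.C w : E0 p n).truncTotal N = MvPolynomial.C w := by
        classical
        ext d
        rw [coeff_truncTotal_eq_ite, MvPolynomial.coeff_C, coeff_C]
        by_cases hd : d = 0
        · rw [if_pos hd, if_pos hd.symm, hd, map_zero, if_pos h0]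
        · rw [if_neg hd, if_neg (Ne.symm hd)]
          split_ifs <;> rfl
      unfold TN
      rw [this, evx_C, sub_self]
      exact zero_mem _
  have hX : ∀ j, f (X j) = x j := by
    intro j
    refine huniq _ _ fun N => ?_
    rcases lt_or_ge 1 N with h0 | h0
    · have : (X j : E0 p n).truncTotal N = MvPolynomial.X j := by
        classical
        ext d
        rw [coeff_truncTotal_eq_ite, MvPolynomial.coeff_X, coeff_X]
        by_cases hd : d = Finsupp.single j 1
        · rw [if_pos hd, if_pos hd.symm, hd, Finsupp.degree_single, if_pos h0]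
        · rw [if_neg hd, if_neg (Ne.symm hd)]
          split_ifs <;> rfl
      unfold TN
      rw [this, evx_X, sub_self]
      exact zero_mem _
    · refine IE_anti p n h0 (sub_mem (hx1 j) ?_)
      unfold TN
      refine evx_mem hx1 _ fun d => dvd_truncTotal (X_mem_IE p n j) N d
  have hmul : ∀ a b, f (a * b) = f a * f b := by
    intro a b
    refine huniq _ _ fun N => ?_
    have e1 : TN x N (a * b) - TN x N a * TN x N b ∈ IE p n N := by
      unfold TN
      rw [← map_mul, ← map_sub]
      refine evx_mem hx1 _ fun d => ?_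
      rcases lt_or_ge d.degree N with h | h
      · rw [MvPolynomial.coeff_sub, coeff_truncTotal_mul_truncTotal_eq_coeff_mul _ _ h,
          coeff_truncTotal _ h, sub_self]
        exact dvd_zero _
      · rw [Nat.sub_eq_zero_of_le h, pow_zero]
        exact one_dvd _
    have e2 : f a * f b - TN x N (a * b) = (f a - TN x N a) * f b + TN x N a * (f b - TN x N b) -
        (TN x N (a * b) - TN x N a * TN x N b) := by ring
    rw [e2]
    exact sub_mem (add_mem (Ideal.mul_mem_right _ _ (hf a N)) (Ideal.mul_mem_left _ _ (hf b N))) e1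
  have hone : f 1 = 1 := by
    have := hC 1
    rwa [map_one] at this
  have hzero : f 0 = 0 := by
    have := hC 0
    rwa [map_zero] at this
  obtain ⟨F, hF⟩ : ∃ F : E0 p n →+* E0 p n, ∀ a, F a = f a :=
    ⟨{ toFun := f, map_one' := hone, map_mul' := hmul, map_zero' := hzero, map_add' := hadd },
      fun a => rfl⟩
  -- `F - id` raises the filtration
  have hraise : ∀ i a, a ∈ IE p n i → F a - a ∈ IE p n (i + m) := by
    intro i a ha
    have e1 : F a - TN x (i + m) a ∈ IE p n (i + m) := by rw [hF]; exact hf a _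
    have e2 : TN x (i + m) a - (a.truncTotal (i + m) : E0 p n) ∈ IE p n (i + m) :=
      evx_sub_mem hx _ fun d => dvd_truncTotal ha _ d
    have e3 : a - (a.truncTotal (i + m) : E0 p n) ∈ IE p n (i + m) := by
      intro d
      rw [map_sub, MvPolynomial.coeff_coe]
      rcases lt_or_ge d.degree (i + m) with h | h
      · rw [coeff_truncTotal _ h, sub_self]
        exact dvd_zero _
      · rw [Nat.sub_eq_zero_of_le h, pow_zero]
        exact one_dvd _
    have := sub_mem (add_mem e1 e2) e3
    simpa using this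
  have hinj : Function.Injective F := by
    rw [injective_iff_map_eq_zero]
    intro a ha
    refine IE_inf p n fun i => ?_
    induction i with
    | zero => rw [IE_zero]; trivial
    | succ i ih =>
      have h1 := hraise i a ih
      rw [ha, zero_sub, neg_mem_iff] at h1
      exact IE_anti p n (by omega) h1
  have hsurj : Function.Surjective F := by
    intro y
    obtain ⟨s, hs⟩ : ∃ s : ℕ → E0 p n, s 0 = 0 ∧ ∀ i, s (i + 1) = s i + (y - F (s i)) :=
      ⟨fun i => Nat.rec 0 (fun _ a => a + (y - F a)) i, rfl, fun i => rfl⟩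
    have hr : ∀ i, y - F (s i) ∈ IE p n i := by
      intro i
      induction i with
      | zero => rw [IE_zero]; trivial
      | succ i ih =>
        have h1 := hraise i _ ih
        have h2 : y - F (s (i + 1)) = -(F (y - F (s i)) - (y - F (s i))) := by
          rw [hs.2 i, map_add, map_sub]
          ring
        rw [h2, neg_mem_iff]
        exact IE_anti p n (by omega) h1
    obtain ⟨a, ha⟩ := IE_complete p n s (fun i => by
      rw [hs.2 i, add_sub_cancel_left]
      exact hr i)
    refine ⟨a, sub_eq_zero.mp (IE_inf p n fun i => ?_)⟩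
    have h1 := hraise i _ (ha i)
    have h2 : F (a - s i) ∈ IE p n i := by
      have := add_mem (IE_anti p n (by omega : i ≤ i + m) h1) (ha i)
      rwa [sub_add_cancel] at this
    have h3 : F a - y = F (a - s i) - (y - F (s i)) := by rw [map_sub]; ring
    rw [h3]
    exact sub_mem h2 (hr i)
  have hbij : Function.Bijective F := ⟨hinj, hsurj⟩
  obtain ⟨φ, hφ⟩ : ∃ φ : E0 p n ≃+* E0 p n, ∀ a, φ a = F a :=
    ⟨RingEquiv.ofBijective F hbij, fun a => rfl⟩
  refine ⟨φ, ?_, ?_, ?_⟩
  · intro j
    rw [hφ, hF]
    exact hX j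
  · intro w
    rw [hφ, hF]
    exact hC w
  · intro a
    rw [hφ]
    have h1 : F a - TN x (m + 1) a ∈ IE p n (m + 1) := by rw [hF]; exact hf a _
    have e2 : TN x (m + 1) a - (a.truncTotal (m + 1) : E0 p n) ∈ IE p n (m + 1) := by
      unfold TN
      have hpow : ∀ P : MvPolynomial (Fin (n - 1)) (WittVector p (GaloisField p n)),
          evx x P - (P : E0 p n) ∈ IE p n (m + 1) := by
        intro P
        induction P using MvPolynomial.induction_on with
        | C w =>
          rw [evx_C, MvPolynomial.coe_C, sub_self]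
          exact zero_mem _
        | add P Q hP hQ =>
          rw [map_add, MvPolynomial.coe_add, add_sub_add_comm]
          exact add_mem hP hQ
        | mul_X P j hP =>
          rw [map_mul, evx_X, MvPolynomial.coe_mul, MvPolynomial.coe_X]
          have : evx x P * x j - (P : E0 p n) * X j =
              evx x P * (x j - X j) + (evx x P - (P : E0 p n)) * X j := by ring
          rw [this]
          exact add_mem (Ideal.mul_mem_left _ _ (hx j)) (Ideal.mul_mem_right _ _ hP)
      exact hpow _
    have e3 : a - (a.truncTotal (m + 1) : E0 p n) ∈ IE p n (m + 1) := by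
      intro d
      rw [map_sub, MvPolynomial.coeff_coe]
      rcases lt_or_ge d.degree (m + 1) with h | h
      · rw [coeff_truncTotal _ h, sub_self]
        exact dvd_zero _
      · rw [Nat.sub_eq_zero_of_le h, pow_zero]
        exact one_dvd _
    have := sub_mem (add_mem h1 e2) e3
    simpa using this

end aut

/-- the automorphism `u_j ↦ x_j` -/
theorem exists_aut {m : ℕ} (hm : 1 ≤ m) (x : ℕ → E0 p n)
    (hx : ∀ j, 1 ≤ j → j < n → x j - uE p n j ∈ IE p n (m + 1)) :
    ∃ φ : E0 p n ≃+* E0 p n, (∀ j, 1 ≤ j → j < n → φ (uE p n j) = x j) ∧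
      (∀ w, φ (MvPowerSeries.C w) = MvPowerSeries.C w) ∧ ∀ a, φ a - a ∈ IE p n (m + 1) := by
  have huE : ∀ j (h1 : 1 ≤ j) (h2 : j < n), uE p n j = X ⟨j - 1, by omega⟩ := by
    intro j h1 h2
    unfold uE
    rw [dif_pos ⟨h1, h2⟩]
  obtain ⟨φ, h1, h2, h3⟩ := exists_autx hm (x := fun j => x (j.1 + 1)) (fun j => by
    have hj : j.1 + 1 < n := by have := j.2; omega
    have := hx (j.1 + 1) (by omega) hj
    rw [huE (j.1 + 1) (by omega) hj] at this
    exact this)
  refine ⟨φ, fun j hj1 hj2 => ?_, h2, h3⟩
  rw [huE j hj1 hj2, h1]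
  simp only
  congr 1
  omega

end

end Chai
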