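import Vale.Agent.Chai.LTdef
import Vale.Agent.Chai.LTfilt

/-!
# P217 / LTgam: the approximate automorphism `X +_F [p^m]_F(b̃)`

OWNER: helper22 (done)

`b̃ ∈ E[[X]]` a lift of `b` with constant coefficient `0` (`exists_lift_cc` with an `Sx`, or directly),
`g = pt F X + p^m • pt F b̃ : F.Point Unit`, `h = g.val` (`F = univF p n`).
* `defU F F h = p^m • defU F F b̃` (`pt F (h.subst a) = psub (fun _ => a) g = pt F a + p^m • pt F (b̃.subst a)`), and
  `defU F F b̃` is `mE`-valued (apply `pmap F (resE p n)`; `b` is an endomorphism of `Γ`).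
* `z` with values in `IE i`, `i ≥ 1` ⟹ `p • z` has values in `IE (i+1)`: by `subst_eq_K_of`
  `(x + y).val = x + y + x y K`, so `(m • z).val ≡ m z` modulo `IE (2 i)`; and `p ∈ IE 1`.
* last claim: the same with the joint filtration `KV 1 N f := ∀ i, coeff i f ∈ IE (N - i)`
  (`KV N * KV M ⊆ KV (N + M)`), `b̃ ∈ KV 1 1`, so `p^m • b̃ ∈ KV 1 (m+1)`.
* `h.map res = Γ(X, (p^m • pt Γ b).val)`, `(m • x).val = (mulPS Γ m).subst x.val` (`coc_pt_nsmul` in LTcoc),
  `mulPS Γ p = X^{p^n}` (`mulPS_honda`), so `(p^m • pt Γ b).val = b^{p^{nm}}`;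
  `(univF p n).map (resE p n) = hazF p (prm n 0)` (`hazF_map`, `map_prm`).
-/

namespace Chai

open MvPowerSeries

instance univF_comm (p : ℕ) [Fact p.Prime] (n : ℕ) : (univF p n).IsComm := hazF_comm p _

theorem univF_map_res (p : ℕ) [Fact p.Prime] (n : ℕ) :
    (univF p n).map (resE p n) = hazF p (prm n (0 : ℕ → GaloisField p n)) := by
  unfold univF
  rw [hazF_map]
  congr 1
  funext j
  unfold prm
  split_ifs
  · unfold uE
    split_ifs
    show (WittVector.constantCoeff).comp (MvPowerSeries.constantCoeff) _ = 0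
    rw [RingHom.comp_apply, constantCoeff_X, map_zero]
  · exact map_one _
  · exact map_zero _

section KV

variable {p : ℕ} [Fact p.Prime] {n : ℕ} {σ : Type*}

/-- the coefficient of a monomial `X^d` lies in `IE (N - w |d|)` -/
def KV (w N : ℕ) (f : MvPowerSeries σ (E0 p n)) : Prop :=
  ∀ d, coeff d f ∈ IE p n (N - w * d.degree)

variable {w N M : ℕ} {f g : MvPowerSeries σ (E0 p n)}

theorem KV.zero : KV w N (0 : MvPowerSeries σ (E0 p n)) := fun d => by
  rw [map_zero]; exact zero_mem _

theorem KV.add (hf : KV w N f) (hg : KV w N g) : KV w N (f + g) := fun d => by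
  rw [map_add]; exact add_mem (hf d) (hg d)

theorem KV.mono (h : M ≤ N) (hf : KV w N f) : KV w M f := fun d =>
  IE_anti p n (by omega) (hf d)

theorem KV.mul (hf : KV w N f) (hg : KV w M g) : KV w (N + M) (f * g) := by
  classical
  intro d
  rw [coeff_mul]
  refine sum_mem fun q hq => ?_
  have h := Finset.HasAntidiagonal.mem_antidiagonal.mp hq
  have h2 : q.1.degree + q.2.degree = d.degree := by rw [← map_add, h]
  have h3 := IE_mul p n (hf q.1) (hg q.2)
  refine IE_anti p n ?_ h3
  rw [← h2, mul_add]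
  omega

theorem KV.any (w : ℕ) (f : MvPowerSeries σ (E0 p n)) : KV w 0 f := fun d => by
  rw [Nat.zero_sub, IE_zero]; trivial

theorem KV.mul_any (hf : KV w N f) (g : MvPowerSeries σ (E0 p n)) : KV w N (f * g) := by
  have h := hf.mul (KV.any w g)
  rwa [add_zero] at h

theorem KV.natCast_mul (s : ℕ) (hf : KV w N f) : KV w N ((s : MvPowerSeries σ (E0 p n)) * f) := by
  rw [mul_comm]; exact hf.mul_any _

theorem gam_coeff_natCast_mul {R : Type*} [CommRing R] (s : ℕ) (f : MvPowerSeries σ R) (d : σ →₀ ℕ) :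
    coeff d ((s : MvPowerSeries σ R) * f) = (s : R) * coeff d f := by
  rw [← nsmul_eq_mul, map_nsmul, nsmul_eq_mul]

theorem KV.p_mul (hf : KV w N f) : KV w (N + 1) ((p : MvPowerSeries σ (E0 p n)) * f) := by
  intro d
  rw [gam_coeff_natCast_mul]
  refine IE_anti p n ?_ (IE_mul p n (p_mem_IE p n) (hf d))
  omega

theorem KV_nsmul {x : (univF p n).Point σ} (hx : KV w N x.val) (s : ℕ) :
    KV w N (s • x).val ∧ KV w (2 * N) ((s • x).val - (s : MvPowerSeries σ (E0 p n)) * x.val) := by
  obtain ⟨K, hK⟩ := exists_K (univF p n)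
  induction s with
  | zero =>
    have h0 : (0 • x).val = 0 := by rw [zero_smul]; rfl
    rw [h0]
    refine ⟨KV.zero, ?_⟩
    rw [Nat.cast_zero, zero_mul, sub_zero]
    exact KV.zero
  | succ s ih =>
    obtain ⟨h1, h2⟩ := ih
    have e : ((s + 1) • x).val = (s • x).val + x.val + (s • x).val * x.val *
        K.subst ![(s • x).val, x.val] := by
      rw [succ_nsmul, val_add, subst_eq_K_of hK (hasSubst_pt (s • x) x)]
    have h3 : KV w (2 * N) ((s • x).val * x.val * K.subst ![(s • x).val, x.val]) := by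
      rw [two_mul]
      exact (h1.mul hx).mul_any _
    refine ⟨?_, ?_⟩
    · rw [e]
      exact (h1.add hx).add (h3.mono (show N ≤ 2 * N by omega))
    · have e2 : ((s + 1) • x).val - ((s + 1 : ℕ) : MvPowerSeries σ (E0 p n)) * x.val =
          ((s • x).val - (s : MvPowerSeries σ (E0 p n)) * x.val) + (s • x).val * x.val *
            K.subst ![(s • x).val, x.val] := by
        rw [e]; push_cast; ring
      rw [e2]
      exact h2.add h3

theorem KV_p_nsmul {x : (univF p n).Point σ} (hx : KV w N x.val) (hN : 1 ≤ N) :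
    KV w (N + 1) (p • x).val := by
  have h := (KV_nsmul hx p).2
  have e : (p • x).val = ((p • x).val - (p : MvPowerSeries σ (E0 p n)) * x.val) +
      (p : MvPowerSeries σ (E0 p n)) * x.val := by ring
  rw [e]
  exact (h.mono (show N + 1 ≤ 2 * N by omega)).add hx.p_mul

theorem KV_pow_nsmul {x : (univF p n).Point σ} (hx : KV w N x.val) (hN : 1 ≤ N) (m : ℕ) :
    KV w (N + m) ((p ^ m) • x).val := by
  induction m with
  | zero => rw [pow_zero, one_smul]; exact hx
  | succ m ih =>
    rw [pow_succ', mul_smul]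
    exact KV_p_nsmul (N := N + m) ih (by omega)

theorem KV_zero_iff : KV 0 N f ↔ JV (IE p n N) f := by
  unfold KV JV
  simp

end KV

/-- `p^m • x` on the Honda group -/
theorem honda_pow_nsmul (p : ℕ) [Fact p.Prime] (n : ℕ) (hn : 1 ≤ n) {σ : Type}
    (x : (hazF p (prm n (0 : ℕ → GaloisField p n))).Point σ) (m : ℕ) :
    ((p ^ m) • x).val = x.val ^ p ^ (n * m) := by
  induction m with
  | zero => rw [pow_zero, one_smul, mul_zero, pow_zero, pow_one]
  | succ m ih =>
    rw [pow_succ', mul_smul, coc_pt_nsmul, mulPS_honda p n hn]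
    have hx : PowerSeries.HasSubst ((p ^ m) • x).val := ((p ^ m) • x).2
    rw [PowerSeries.subst_pow hx, PowerSeries.subst_X hx, ih, ← pow_mul, ← pow_add]
    ring_nf

theorem honda_pow_nsmul' (p : ℕ) [Fact p.Prime] (n : ℕ) (hn : 1 ≤ n) {σ : Type}
    {Γ : FormalGroup (GaloisField p n)} (hΓ : Γ = hazF p (prm n (0 : ℕ → GaloisField p n)))
    (x : Γ.Point σ) (m : ℕ) : ((p ^ m) • x).val = x.val ^ p ^ (n * m) := by
  subst hΓ
  exact honda_pow_nsmul p n hn x m

section gen

variable {R S : Type*} [CommRing R] [CommRing S] {υ : Type*}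

theorem gam_pmap_pt {G : FormalGroup R} (φ : R →+* S) {a : MvPowerSeries υ R}
    (ha : constantCoeff a = 0) : pmap G φ (pt G a) = pt (G.map φ) (a.map φ) := by
  apply Subtype.ext
  rw [pmap_val, pt_val ha, pt_val (by rw [constantCoeff_map, ha, map_zero])]

theorem gam_pt_subst_point {G : FormalGroup R} (g : G.Point Unit) {a : MvPowerSeries υ R}
    (ha : constantCoeff a = 0) :
    pt G (PowerSeries.subst a g.val) = psub G (fun _ : Unit => a)
      (PowerSeries.HasSubst.const (PowerSeries.HasSubst.of_constantCoeff_zero ha)) g := by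
  rw [← pt_val' (psub G (fun _ : Unit => a) _ g), psub_val]
  rfl

/-- the defect of `X + N c` -/
theorem gam_defU_add_nsmul {F : FormalGroup R} [F.IsComm] {c : PowerSeries R}
    (hc0 : PowerSeries.constantCoeff c = 0) (N : ℕ) :
    defU F F (pt F (PowerSeries.X : PowerSeries R) + N • pt F c : F.Point Unit).val =
      N • defU F F c := by
  have key : ∀ {a : MvPowerSeries (Fin 2) R}, constantCoeff a = 0 →
      pt F (PowerSeries.subst a (pt F (PowerSeries.X : PowerSeries R) + N • pt F c : F.Point Unit).val)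
        = pt F a + N • pt F (c.subst a) := by
    intro a ha
    have hs := PowerSeries.HasSubst.of_constantCoeff_zero ha
    have hX : MvPowerSeries.subst (fun _ : Unit => a) (PowerSeries.X : PowerSeries R) = a :=
      PowerSeries.subst_X hs
    rw [gam_pt_subst_point _ ha, map_add, map_nsmul, psub_pt _ PowerSeries.constantCoeff_X
      (by rw [hX]; exact ha), psub_pt _ hc0 (ccs1 ha hc0), hX]
    rfl
  have hF : F.toPowerSeries.subst ![(X 0 : MvPowerSeries (Fin 2) R), X 1] = F.toPowerSeries := by
    have : (![X 0, X 1] : Fin 2 → MvPowerSeries (Fin 2) R) = X := by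
      funext i; fin_cases i <;> rfl
    rw [this, subst_self]; rfl
  unfold defU defect
  rw [hF, key (constantCoeff_X _), key (constantCoeff_X _), key F.zero_constantCoeff]
  have h2 : pt F F.toPowerSeries = pt F (X 0) + pt F (X 1) := by
    rw [← pt_add (constantCoeff_X _) (constantCoeff_X _), hF]
  rw [h2, nsmul_sub, nsmul_add]
  abel

/-- the defect of a lift of an endomorphism -/
theorem gam_defU_map_eq_zero {F : FormalGroup R} [F.IsComm] {φ : R →+* S} {c : PowerSeries R}
    (hc0 : PowerSeries.constantCoeff c = 0)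
    (hb : IsHom (c.map φ) (F.map φ) (F.map φ)) : (defU F F c).val.map φ = 0 := by
  have hF : F.toPowerSeries.subst ![(X 0 : MvPowerSeries (Fin 2) R), X 1] = F.toPowerSeries := by
    have : (![X 0, X 1] : Fin 2 → MvPowerSeries (Fin 2) R) = X := by
      funext i; fin_cases i <;> rfl
    rw [this, subst_self]; rfl
  have hm : ∀ {a : MvPowerSeries (Fin 2) R}, constantCoeff a = 0 →
      MvPowerSeries.map φ (c.subst a) = (c.map φ).subst (a.map φ) := fun {a} ha =>
    PowerSeries.map_subst (PowerSeries.HasSubst.of_constantCoeff_zero ha) _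
  rw [← pmap_val]
  unfold defU defect
  rw [hF, map_sub, map_add, gam_pmap_pt _ (ccs1 (constantCoeff_X _) hc0),
    gam_pmap_pt _ (ccs1 (constantCoeff_X _) hc0), gam_pmap_pt _ (ccs1 F.zero_constantCoeff hc0),
    hm (constantCoeff_X _), hm (constantCoeff_X _), hm F.zero_constantCoeff, MvPowerSeries.map_X,
    MvPowerSeries.map_X]
  have h1 := hb.2
  have e1 : MvPowerSeries.map φ F.toPowerSeries = (F.map φ).toPowerSeries := rfl
  have hcc : PowerSeries.constantCoeff (c.map φ) = 0 := hb.1
  rw [e1, h1, pt_add (ccs1 (constantCoeff_X _) hcc) (ccs1 (constantCoeff_X _) hcc), sub_self]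
  rfl

end gen

theorem exists_gam (p : ℕ) [Fact p.Prime] (n : ℕ) (hn : 1 ≤ n)
    (b : PowerSeries (GaloisField p n))
    (hb : IsHom b (hazF p (prm n 0)) (hazF p (prm n 0))) (m : ℕ) (hm : 1 ≤ m) :
    ∃ h : PowerSeries (E0 p n), PowerSeries.constantCoeff h = 0 ∧
      resE p n (PowerSeries.coeff 1 h) = 1 ∧
      h.map (resE p n) = (hazF p (prm n (0 : ℕ → GaloisField p n))).toPowerSeries.subst
          ![(PowerSeries.X : PowerSeries (GaloisField p n)), b ^ p ^ (n * m)] ∧
      JV (IE p n (m + 1)) (defU (univF p n) (univF p n) h).val ∧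
      ∀ i, PowerSeries.coeff i h - PowerSeries.coeff i (PowerSeries.X : PowerSeries (E0 p n)) ∈
        IE p n (m + 1 - i) := by
  have hp := (Fact.out : p.Prime)
  set F := univF p n with hF
  have hΓ : F.map (resE p n) = hazF p (prm n (0 : ℕ → GaloisField p n)) := univF_map_res p n
  -- the lift of `b`
  obtain ⟨c, hc, hc0⟩ : ∃ c : PowerSeries (E0 p n), PowerSeries.map (resE p n) c = b ∧
      PowerSeries.constantCoeff c = 0 := by
    choose f hf using resE_surjective p n
    refine ⟨PowerSeries.mk fun i => if i = 0 then 0 else f (PowerSeries.coeff i b), ?_, ?_⟩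
    · ext i
      rw [PowerSeries.coeff_map, PowerSeries.coeff_mk]
      split_ifs with h
      · rw [h, map_zero, PowerSeries.coeff_zero_eq_constantCoeff_apply]
        exact hb.1.symm
      · exact hf _
    · rw [← PowerSeries.coeff_zero_eq_constantCoeff_apply, PowerSeries.coeff_mk, if_pos rfl]
  have hXc : constantCoeff (PowerSeries.X : PowerSeries (E0 p n)) = 0 := PowerSeries.constantCoeff_X
  obtain ⟨w, hw⟩ : ∃ w : F.Point Unit, w = (p ^ m) • pt F c := ⟨_, rfl⟩
  obtain ⟨g, hg⟩ : ∃ g : F.Point Unit, g = pt F (PowerSeries.X : PowerSeries (E0 p n)) + w :=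
    ⟨_, rfl⟩
  have hcc_nsmul : ∀ (x : F.Point Unit) (s : ℕ), constantCoeff x.val = 0 →
      constantCoeff (s • x).val = 0 := by
    intro x s hx
    induction s with
    | zero => rw [zero_smul]; exact map_zero _
    | succ s ih => rw [succ_nsmul]; exact cc_add ih hx
  have hw0 : constantCoeff w.val = 0 := by rw [hw]; exact hcc_nsmul _ _ (cc_pt hc0)
  have hg0 : constantCoeff g.val = 0 := by rw [hg]; exact cc_add (cc_pt hXc) hw0
  -- the reduction
  have hwr : w.val.map (resE p n) = b ^ p ^ (n * m) := by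
    rw [← pmap_val, hw, map_nsmul, honda_pow_nsmul' p n hn hΓ, gam_pmap_pt _ hc0, pt_val]
    · exact congrArg (· ^ p ^ (n * m)) hc
    · show constantCoeff (MvPowerSeries.map (resE p n) c) = 0
      rw [constantCoeff_map]
      exact (congrArg (resE p n) hc0).trans (map_zero _)
  have hred : g.val.map (resE p n) =
      (hazF p (prm n (0 : ℕ → GaloisField p n))).toPowerSeries.subst
          ![(PowerSeries.X : PowerSeries (GaloisField p n)), b ^ p ^ (n * m)] := by
    rw [← hΓ, ← pmap_val, hg, map_add, val_add, pmap_val, pmap_val, hwr, pt_val hXc]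
    congr 2
    exact PowerSeries.map_X _
  have hKV : KV 1 1 (c : MvPowerSeries Unit (E0 p n)) := by
    intro d
    by_cases hd : d = 0
    · have : coeff d (c : MvPowerSeries Unit (E0 p n)) = 0 := by
        rw [hd, coeff_zero_eq_constantCoeff_apply]; exact hc0
      rw [this]; exact zero_mem _
    · have h1 : d.degree ≠ 0 := fun h0 => hd ((Finsupp.degree_eq_zero_iff d).mp h0)
      rw [show 1 - 1 * d.degree = 0 by omega, IE_zero]
      trivial
  have hwKV : KV 1 (m + 1) w.val := by
    have h1 : KV 1 1 (pt F c).val := by rw [pt_val hc0]; exact hKV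
    have h2 := KV_pow_nsmul h1 le_rfl m
    rw [hw, add_comm]
    exact h2
  refine ⟨g.val, hg0, ?_, hred, ?_, ?_⟩
  · -- linear coefficient
    have h1 : resE p n (PowerSeries.coeff 1 g.val) = PowerSeries.coeff 1
        ((hazF p (prm n (0 : ℕ → GaloisField p n))).toPowerSeries.subst
          ![(PowerSeries.X : PowerSeries (GaloisField p n)), b ^ p ^ (n * m)] : PowerSeries _) := by
      rw [← hred]; rfl
    rw [h1]
    obtain ⟨K, hK⟩ := exists_K (hazF p (prm n (0 : ℕ → GaloisField p n)))
    have hb0 : PowerSeries.constantCoeff b = 0 := hb.1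
    have hbd : ∃ b', b = PowerSeries.X * b' := PowerSeries.X_dvd_iff.2 hb0
    obtain ⟨b', hb'⟩ := hbd
    have hpn : 2 ≤ p ^ (n * m) :=
      (hp.two_le).trans (Nat.le_self_pow (Nat.mul_ne_zero (by omega) (by omega)) p)
    obtain ⟨r, hr⟩ : ∃ r, p ^ (n * m) = r + 2 := ⟨p ^ (n * m) - 2, by omega⟩
    have hbp : b ^ p ^ (n * m) = PowerSeries.X ^ 2 * (PowerSeries.X ^ r * b' ^ (r + 2)) := by
      rw [hb', hr, mul_pow]; ring
    have hbp0 : constantCoeff (b ^ p ^ (n * m) : PowerSeries (GaloisField p n)) = 0 := by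
      show PowerSeries.constantCoeff _ = 0
      rw [hbp, map_mul, map_pow, PowerSeries.constantCoeff_X]; ring
    rw [subst_eq_K hK PowerSeries.constantCoeff_X hbp0]
    have e : (PowerSeries.X + b ^ p ^ (n * m) + PowerSeries.X * b ^ p ^ (n * m) *
        MvPowerSeries.subst ![(PowerSeries.X : PowerSeries (GaloisField p n)), b ^ p ^ (n * m)] K
        : PowerSeries (GaloisField p n)) = PowerSeries.X + PowerSeries.X ^ 2 *
        ((PowerSeries.X ^ r * b' ^ (r + 2)) * (1 + PowerSeries.X *
        MvPowerSeries.subst ![(PowerSeries.X : PowerSeries (GaloisField p n)), b ^ p ^ (n * m)] K)) := by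
      linear_combination (1 + PowerSeries.X *
        MvPowerSeries.subst ![(PowerSeries.X : PowerSeries (GaloisField p n)), b ^ p ^ (n * m)] K) * hbp
    rw [e, map_add, PowerSeries.coeff_one_X, PowerSeries.coeff_X_pow_mul', if_neg (by norm_num),
      add_zero]
  · -- the defect
    have h1 : JV (IE p n 1) (defU F F c).val := by
      have h2 := gam_defU_map_eq_zero (F := F) (φ := resE p n) hc0 (by rw [hc, hΓ]; exact hb)
      intro d
      rw [IE_one, mE, RingHom.mem_ker, ← coeff_map, h2, map_zero]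
    have h3 : KV 0 1 (defU F F c).val := KV_zero_iff.2 h1
    have h4 := KV_pow_nsmul h3 le_rfl m
    rw [← gam_defU_add_nsmul hc0, ← hw, ← hg, add_comm] at h4
    exact KV_zero_iff.1 h4
  · intro i
    obtain ⟨K, hK⟩ := exists_K F
    have e : g.val = (PowerSeries.X : PowerSeries (E0 p n)) + w.val +
        (PowerSeries.X : PowerSeries (E0 p n)) * w.val *
          K.subst ![(PowerSeries.X : PowerSeries (E0 p n)), w.val] := by
      rw [hg, val_add, pt_val hXc, subst_eq_K hK hXc hw0]
    have h1 : KV 1 (m + 1) (g.val - (PowerSeries.X : PowerSeries (E0 p n))) := by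
      have e2 : g.val - (PowerSeries.X : PowerSeries (E0 p n)) = w.val + w.val *
          ((PowerSeries.X : PowerSeries (E0 p n)) *
          K.subst ![(PowerSeries.X : PowerSeries (E0 p n)), w.val]) := by
        rw [e]; ring
      rw [e2]
      exact hwKV.add (hwKV.mul_any _)
    have h2 := h1 (Finsupp.single () i)
    rw [map_sub, Finsupp.degree_single, one_mul] at h2
    exact h2

end Chai
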