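import Vale.Agent.Chai.LTlim
import Vale.Agent.Chai.LTgam

/-!
# P217 / LT: lifting `1 + p^m b ∈ Aut(Γ_n)` to the universal deformation (Lubin-Tate)

OWNER: helper9

`exists_gam` (LTgam): the approximate automorphism `h_m = X +_F [p^m]_F(b̃)`, `exists_limit` (LTlim): an
exact homomorphism `ψ_m : F_x → F`, `x ≡ u`, `ψ_m ≡ h_m` modulo `IE (m + 1)`, `exists_aut` (LTfilt): the
continuous automorphism `φ_m` of `E_0` with `u_j ↦ x_j`.
-/

namespace Chai

open MvPowerSeries Filter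

theorem isUnit_of_resE {p : ℕ} [Fact p.Prime] {n : ℕ} {a : E0 p n} (h : resE p n a ≠ 0) :
    IsUnit a := by
  rw [MvPowerSeries.isUnit_iff_constantCoeff]
  have h2 : WittVector.constantCoeff (MvPowerSeries.constantCoeff a) ≠ 0 := h
  exact WittVector.isUnit_of_coeff_zero_ne_zero _ h2

theorem exists_lift_one (p : ℕ) [Fact p.Prime] (n : ℕ) (hn : 1 ≤ n)
    (b : PowerSeries (GaloisField p n))
    (hb : IsHom b (hazF p (prm n 0)) (hazF p (prm n 0))) (m : ℕ) :
    ∃ (φ : E0 p n ≃+* E0 p n) (ψ : PowerSeries (E0 p n)), 1 ≤ m →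
      IsIsoFG ψ ((univF p n).map (φ : E0 p n →+* E0 p n)) (univF p n) ∧
      ψ.map (resE p n) =
        (hazF p (prm n (0 : ℕ → GaloisField p n))).toPowerSeries.subst
          ![(PowerSeries.X : PowerSeries (GaloisField p n)), b ^ p ^ (n * m)] ∧
      (∀ a, φ a - a ∈ mE p n ^ (m + 1)) ∧
      (∀ w, φ (MvPowerSeries.C w) = MvPowerSeries.C w) ∧
      (∀ i, PowerSeries.coeff i ψ -
        PowerSeries.coeff i (PowerSeries.X : PowerSeries (E0 p n)) ∈ mE p n ^ (m + 1 - i)) := by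
  by_cases hm : 1 ≤ m
  · obtain ⟨h, h0, h1, hres, hD, hc⟩ := exists_gam p n hn b hb m hm
    obtain ⟨x, ψ, hx, hψ0, hψ, hD0⟩ := exists_limit hn (univF p n) (i := m + 1) (by omega)
      (uE p n) h (uE_mem_IE p n) h0 h1 hD
    obtain ⟨φ, hφu, hφC, hφ⟩ := exists_aut hm x (fun j _ _ => hx j)
    have hF : (univF p n).map (φ : E0 p n →+* E0 p n) = hazF p (prm n x) := by
      unfold univF
      rw [hazF_map]
      congr 1
      funext j
      unfold prm
      split_ifs with h1 h2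
      · exact hφu j h1.1 h1.2
      · exact map_one _
      · exact map_zero _
    have hψ1 : resE p n (PowerSeries.coeff 1 ψ) = 1 := by
      rw [← h1]
      apply res_of_IE (by omega : 1 ≤ m + 1)
      rw [← map_sub]
      exact hψ _
    refine ⟨φ, ψ, fun _ => ⟨⟨?_, ?_⟩, ?_, ?_, hφC, ?_⟩⟩
    · rw [hF]
      exact isHom_of_defU hψ0 hD0
    · apply isUnit_of_resE
      rw [hψ1]
      exact one_ne_zero
    · rw [← hres]
      ext1 e
      rw [PowerSeries.coeff_map, PowerSeries.coeff_map]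
      apply res_of_IE (by omega : 1 ≤ m + 1)
      rw [← map_sub]
      exact hψ _
    · exact fun a => IE_le_pow p n (m + 1) (hφ a)
    · intro i
      apply IE_le_pow p n (m + 1 - i)
      have h2 : PowerSeries.coeff i ψ - PowerSeries.coeff i h ∈ IE p n (m + 1 - i) := by
        apply IE_anti p n (Nat.sub_le _ _)
        rw [← map_sub]
        exact hψ _
      have h3 := (IE p n (m + 1 - i)).add_mem h2 (hc i)
      rwa [sub_add_sub_cancel] at h3
  · exact ⟨RingEquiv.refl _, 0, fun h => absurd h hm⟩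

theorem exists_lifts (p : ℕ) [Fact p.Prime] (n : ℕ) (hn : 1 ≤ n)
    (b : PowerSeries (GaloisField p n))
    (hb : IsHom b (hazF p (prm n 0)) (hazF p (prm n 0))) :
    ∃ (φ : ℕ → E0 p n ≃+* E0 p n) (ψ : ℕ → PowerSeries (E0 p n)),
      (∀ m, 1 ≤ m → IsIsoFG (ψ m) ((univF p n).map (φ m : E0 p n →+* E0 p n)) (univF p n)) ∧
      (∀ m, 1 ≤ m → (ψ m).map (resE p n) =
        (hazF p (prm n (0 : ℕ → GaloisField p n))).toPowerSeries.subst
          ![(PowerSeries.X : PowerSeries (GaloisField p n)), b ^ p ^ (n * m)]) ∧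
      (∀ m, 1 ≤ m → ∀ a, φ m a - a ∈ mE p n ^ (m + 1)) ∧
      (∀ m, 1 ≤ m → ∀ w, φ m (MvPowerSeries.C w) = MvPowerSeries.C w) ∧
      (∀ i j, ∀ᶠ m in atTop, PowerSeries.coeff i (ψ m) -
        PowerSeries.coeff i (PowerSeries.X : PowerSeries (E0 p n)) ∈ mE p n ^ j) := by
  choose φ ψ h using exists_lift_one p n hn b hb
  refine ⟨φ, ψ, fun m hm => (h m hm).1, fun m hm => (h m hm).2.1, fun m hm => (h m hm).2.2.1,
    fun m hm => (h m hm).2.2.2.1, fun i j => ?_⟩
  refine eventually_atTop.2 ⟨i + j + 1, fun m hm => ?_⟩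
  exact Ideal.pow_le_pow_right (by omega : j ≤ m + 1 - i) ((h m (by omega)).2.2.2.2 i)

end Chai
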