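import Vale.Agent.Chai.DensityD
import Vale.Agent.Chai.HeightInv
import Vale.Agent.Chai.LT

/-!
# P217 / DensityE: the points `x = χ(u)` and `x' = χ(φ(u))`, and the homomorphisms between them
-/

namespace Chai

open MvPowerSeries Filter Topology

variable {p : ℕ} [Fact p.Prime] {n : ℕ}
variable {C : Type*} [NontriviallyNormedField C] {χ : E0 p n →+* C}

theorem IsPoint.norm_uE_lt (hχ : IsPoint p n χ) (j : ℕ) : ‖χ (uE p n j)‖ < 1 := by
  obtain ⟨ρ, _, hρ1, hρ⟩ := hχ.cont
  have := hρ 1 (uE p n j) (by simpa using uE_mem_mE j)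
  rw [pow_one] at this
  exact this.trans_lt hρ1

/-- the point of the parameter ball -/
noncomputable def ptB (hχ : IsPoint p n χ) : Ball C :=
  ⟨fun j => χ (uE p n j), fun j => hχ.norm_uE_lt j⟩

theorem ptB_val (hχ : IsPoint p n χ) (j : ℕ) : (ptB hχ).1 j = χ (uE p n j) := rfl

theorem uE_zero : uE p n 0 = 0 := by
  unfold uE
  rw [dif_neg (by omega)]

theorem uE_of_le {j : ℕ} (hj : n ≤ j) : uE p n j = 0 := by
  unfold uE
  rw [dif_neg (by omega)]

theorem map_prm' {R S : Type*} [CommRing R] [CommRing S] (φ : R →+* S) (n : ℕ) (v : ℕ → R) :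
    (fun j => φ (prm n v j)) = prm n (fun j => φ (v j)) := by
  funext j
  unfold prm
  split_ifs <;> simp

theorem univF_map {S : Type*} [CommRing S] (φ : E0 p n →+* S) :
    (univF p n).map φ = hazF p (prm n fun j => φ (uE p n j)) := by
  unfold univF
  rw [hazF_map, map_prm']

theorem mE_map_le {φ : E0 p n ≃+* E0 p n} (hφ : ∀ a, φ a - a ∈ mE p n) :
    (mE p n).map (φ : E0 p n →+* E0 p n) ≤ mE p n := by
  rw [Ideal.map_le_iff_le_comap]
  intro a ha
  rw [Ideal.mem_comap]
  have : (φ a - a) + a ∈ mE p n := add_mem (hφ a) ha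
  rwa [sub_add_cancel] at this

theorem isPoint_comp (hχ : IsPoint p n χ) {φ : E0 p n ≃+* E0 p n} (hφ : ∀ a, φ a - a ∈ mE p n) :
    IsPoint p n (χ.comp (φ : E0 p n →+* E0 p n)) := by
  refine ⟨fun f => hχ.norm_le _, ?_⟩
  obtain ⟨ρ, h0, h1, hρ⟩ := hχ.cont
  refine ⟨ρ, h0, h1, fun j f hf => hρ j _ ?_⟩
  have h2 : (mE p n ^ j).map (φ : E0 p n →+* E0 p n) ≤ mE p n ^ j := by
    rw [Ideal.map_pow]
    exact Ideal.pow_right_mono (mE_map_le hφ) j
  exact h2 (Ideal.mem_map_of_mem _ hf)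

variable [IsUltrametricDist C] [CompleteSpace C]

theorem ptB_comp_eq (hχ : IsPoint p n χ) {φ : E0 p n ≃+* E0 p n} (hφ : ∀ a, φ a - a ∈ mE p n) {h : ℕ}
    (hx : ∀ j, 1 ≤ j → j < h → χ (uE p n j) = 0)
    (hx' : ∀ j, 1 ≤ j → j < h → χ (φ (uE p n j)) = 0)
    (hδ : ∀ i : Idx h n, ‖χ (φ (uE p n i.1)) - χ (uE p n i.1)‖ < 1) :
    ptB (isPoint_comp hχ hφ) = shiftB (ptB hχ) (fun i : Idx h n => χ (φ (uE p n i.1)) - χ (uE p n i.1)) hδ := by
  apply Subtype.ext
  funext j
  show χ (φ (uE p n j)) = if hj : j ∈ Finset.Ico h n then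
    χ (uE p n j) + (χ (φ (uE p n j)) - χ (uE p n j)) else χ (uE p n j)
  split_ifs with hj
  · ring
  · rw [Finset.mem_Ico] at hj
    by_cases hjn : n ≤ j
    · rw [uE_of_le hjn, map_zero]
    · by_cases hj0 : j = 0
      · rw [hj0, uE_zero, map_zero]
      · rw [hx j (by omega) (by omega), hx' j (by omega) (by omega)]

variable (hχ : IsPoint p n χ) {φ : E0 p n ≃+* E0 p n} (hφ : ∀ a, φ a - a ∈ mE p n)
  {ψ : PowerSeries (E0 p n)}
  (hψ : IsHom ψ ((univF p n).map (φ : E0 p n →+* E0 p n)) (univF p n))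

/-- `ψ` as a bounded homomorphism `F_{x'} → F_x` -/
noncomputable def psiC : CHom (FC p n (ptB (isPoint_comp hχ hφ))) (FC p n (ptB hχ)) where
  ps := ψ.map χ
  bdd := fun _ => hχ.norm_le _
  isHom := by
    have h1 := IsHom.map hψ χ
    rw [fg_map_map, univF_map, univF_map] at h1
    exact h1

include hφ in
/-- reduction of `ψ` -/
theorem isHom_res (hψ : IsHom ψ ((univF p n).map (φ : E0 p n →+* E0 p n)) (univF p n)) :
    IsHom (ψ.map (resE p n)) (hazF p (prm n 0)) (hazF p (prm n 0)) := by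
  have h1 := IsHom.map hψ (resE p n)
  rw [fg_map_map, univF_map, univF_map] at h1
  have h2 : (fun j => resE p n (uE p n j)) = 0 := by
    funext j
    exact uE_mem_mE j
  have h3 : (fun j => ((resE p n).comp (φ : E0 p n →+* E0 p n)) (uE p n j)) = 0 := by
    funext j
    have : (φ (uE p n j) - uE p n j) + uE p n j ∈ mE p n := add_mem (hφ _) (uE_mem_mE j)
    rw [sub_add_cancel] at this
    exact this
  rw [h2, h3] at h1
  exact h1

variable [CharP C p] [IsAlgClosed C] {κ : GaloisField p n →+* C}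
  (hκ : ∀ w, χ (MvPowerSeries.C w) = κ (WittVector.constantCoeff w)) (hn : 1 ≤ n)
include hκ

theorem psiC_expm (z : (FC p n (0 : Ball C)).Pt) :
    (psiC hχ hφ hψ).map (expm p hn (ptB (isPoint_comp hχ hφ)) z) =
      expm p hn (ptB hχ) ((homK κ _ (isHom_res hφ hψ)).map z) := by
  obtain ⟨ρ, h0, h1, hρ⟩ := hχ.cont
  refine expm_comp p hn (psiC hχ hφ hψ) (homK κ _ (isHom_res hφ hψ)) h1 ?_ z
  intro i
  have := norm_sub_kappa_le χ hκ hρ (PowerSeries.coeff i ψ)
  show ‖PowerSeries.coeff i (ψ.map χ) - PowerSeries.coeff i ((ψ.map (resE p n)).map κ)‖ ≤ ρ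
  rw [PowerSeries.coeff_map, PowerSeries.coeff_map, PowerSeries.coeff_map]
  exact this

omit hκ [CharP C p] [IsAlgClosed C] in
theorem homK_map_congr {g g' : PowerSeries (GaloisField p n)} (hg : IsHom g (hazF p (prm n 0)) (hazF p (prm n 0)))
    (hg' : IsHom g' (hazF p (prm n 0)) (hazF p (prm n 0))) (h : g = g')
    (z : (FC p n (0 : Ball C)).Pt) : (homK κ g hg).map z = (homK κ g' hg').map z := by
  subst h; rfl

omit hκ [IsAlgClosed C] in
/-- `(1 + p^m g)(z)` -/
theorem homK_one_add {g : PowerSeries (GaloisField p n)} (hn : 1 ≤ n)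
    (hg : IsHom g (hazF p (prm n 0)) (hazF p (prm n 0))) (m : ℕ)
    (hg' : IsHom ((hazF p (prm n (0 : ℕ → GaloisField p n))).toPowerSeries.subst
          ![(PowerSeries.X : PowerSeries (GaloisField p n)), g ^ p ^ (n * m)] :
            PowerSeries (GaloisField p n)) (hazF p (prm n 0)) (hazF p (prm n 0)))
    (z : (FC p n (0 : Ball C)).Pt) :
    (homK κ _ hg').map z = z + p ^ m • (homK κ g hg).map z := by
  have hp := (Fact.out : p.Prime)
  apply Subtype.ext
  rw [CFG.add_val, norm_nsmul_honda p hn, CHom.map_val, CHom.map_val]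
  have hg0 : PowerSeries.constantCoeff (g ^ p ^ (n * m)) = 0 := by
    rw [map_pow, hg.1, zero_pow (pow_ne_zero _ hp.ne_zero)]
  have h1 : ((hazF p (prm n (0 : ℕ → GaloisField p n))).toPowerSeries.subst
      ![(PowerSeries.X : PowerSeries (GaloisField p n)), g ^ p ^ (n * m)]).map κ =
      (FC p n (0 : Ball C)).toPowerSeries.subst
        ![(PowerSeries.X : PowerSeries C), (g.map κ) ^ p ^ (n * m)] := by
    have h2 := Fel.map_subst_pair (ι := κ)
      (F := (hazF p (prm n (0 : ℕ → GaloisField p n))).toPowerSeries)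
      (a := (PowerSeries.X : PowerSeries (GaloisField p n))) (b := g ^ p ^ (n * m))
      PowerSeries.constantCoeff_X hg0
    rw [h2]
    have e1 : MvPowerSeries.map κ (PowerSeries.X : PowerSeries (GaloisField p n)) =
        (PowerSeries.X : PowerSeries C) := PowerSeries.map_X κ
    have e2 : MvPowerSeries.map κ (g ^ p ^ (n * m)) = (g.map κ) ^ p ^ (n * m) :=
      map_pow (PowerSeries.map κ) g _
    rw [e1, e2]
    congr 1
    rw [← FormalGroup.map_toPowerSeries, hazF_map, map_prm]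
    rfl
  have hb : Bdd ((g.map κ) ^ p ^ (n * m) : PowerSeries C) := (homK κ g hg).bdd.pow _
  have h3 : ev1 z.1 (homK κ _ hg').ps = ev (fun _ : Unit => z.1)
      ((FC p n (0 : Ball C)).toPowerSeries.subst
        ![(PowerSeries.X : PowerSeries C), (g.map κ) ^ p ^ (n * m)]) := by
    rw [← h1]
    rfl
  rw [h3]
  refine (ev_subst_pair (τ := Unit) (a := fun _ => z.1) (fun _ => z.2) (FC p n (0 : Ball C)).bdd
    (Bdd.X _) hb PowerSeries.constantCoeff_X (by
      show PowerSeries.constantCoeff ((g.map κ) ^ p ^ (n * m)) = 0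
      rw [map_pow]
      have := (homK κ g hg).isHom.1
      have h4 : PowerSeries.constantCoeff (g.map κ) = 0 := this
      rw [h4, zero_pow (pow_ne_zero _ hp.ne_zero)])).trans ?_
  congr 1
  have e3 : ev (fun _ : Unit => z.1) (MvPowerSeries.X () : MvPowerSeries Unit C) = z.1 := ev_X _ _
  have e4 : ev (fun _ : Unit => z.1) ((g.map κ) ^ p ^ (n * m) : PowerSeries C) =
      (ev1 z.1 (homK κ g hg).ps) ^ (p ^ n) ^ m := by
    rw [← pow_mul]
    exact ev_pow (fun _ => z.2) (homK κ g hg).bdd _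
  exact congrArg₂ (fun a b : C => ![a, b]) e3 e4

end Chai
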