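import Vale.Agent.Chai.DensityE
import Vale.Agent.Chai.Asym

/-!
# P217 / DensityF: the sequence data attached to an endomorphism of the Honda group
-/

namespace Chai

open MvPowerSeries Filter Topology

variable {p : ℕ} [Fact p.Prime] {n : ℕ}
variable {C : Type*} [NontriviallyNormedField C] [IsUltrametricDist C] [CompleteSpace C]
  [CharP C p] [IsAlgClosed C] {χ : E0 p n →+* C}

theorem chi_eq_zero_of_mem (hχ : IsPoint p n χ) {h : ℕ} (h1 : 1 ≤ h)
    (hx0 : ∀ j, 1 ≤ j → j < h → χ (uE p n j) = 0) {a : E0 p n} (ha : a ∈ heightIdeal p n h) :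
    χ a = 0 := by
  have h2 : heightIdeal p n h ≤ RingHom.ker χ := by
    unfold heightIdeal
    rw [if_neg (by omega), Ideal.span_le]
    rintro a (ha | ⟨j, hj, hjh, rfl⟩)
    · rw [Set.mem_singleton_iff.1 ha, SetLike.mem_coe, RingHom.mem_ker, map_natCast]
      exact CharP.cast_eq_zero _ p
    · exact hx0 j hj hjh
  exact h2 ha

theorem exists_SData (hn : 1 ≤ n) (hχ : IsPoint p n χ) {h : ℕ} (h1 : 1 ≤ h) (hh : h < n)
    (hx0 : ∀ j, 1 ≤ j → j < h → χ (uE p n j) = 0)
    {κ : GaloisField p n →+* C}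
    (hκ : ∀ w, χ (MvPowerSeries.C w) = κ (WittVector.constantCoeff w)) {f : E0 p n}
    (hf : ∀ (φ : E0 p n ≃+* E0 p n) (ψ : PowerSeries (E0 p n)),
      IsIsoFG ψ ((univF p n).map (φ : E0 p n →+* E0 p n)) (univF p n) →
      (∀ w, φ (MvPowerSeries.C w) = MvPowerSeries.C w) → χ (φ f) = 0)
    (β : CHom (FC p n (ptB hχ)) (FC p h 0))
    {t : Idx h n → (FC p n (0 : Ball C)).Pt} (ht : ∀ i, expm p hn (ptB hχ) (t i) = 0)
    (D : FData (Idx h n) C)
    (hDQ : ∀ i (δ : Idx h n → C) (hδ : ∀ i, ‖δ i‖ < 1),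
      (expm p hn (shiftB (ptB hχ) δ hδ) (t i)).1 = ev δ (D.Q i))
    (hDV : ∀ k, D.V k = Vser p h n (ptB hχ) k)
    (hDb : ∀ N, D.b0 N = PowerSeries.coeff N β.ps)
    (hDf : ∀ z : Idx h n → C, (∀ i, ‖z i‖ < 1) →
      ev (fun i => (ptB hχ).1 i.1 + z i) (redH κ h1 f) = ev z D.ft)
    {g : PowerSeries (GaloisField p n)} (hg : IsHom g (hazF p (prm n 0)) (hazF p (prm n 0))) :
    ∃ S : SData p h D, ∀ i, S.w i =
      (β.map (expm p hn (ptB hχ) ((homK κ g hg).map (t i)))).1 ^ p ^ h := by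
  have hp := (Fact.out : p.Prime)
  obtain ⟨φ, ψ, hiso, hres, hφ, hφC, hlim⟩ := exists_lifts p n hn g hg
  obtain ⟨ρ, hρ0, hρ1, hρ⟩ := hχ.cont
  have hφ' : ∀ m a, φ (m + 1) a - a ∈ mE p n := fun m a =>
    (Ideal.pow_le_self (by omega)) (hφ (m + 1) (by omega) a)
  -- the displacements
  let δ : ℕ → Idx h n → C := fun m i => χ (φ (m + 1) (uE p n i.1)) - χ (uE p n i.1)
  have hδρ : ∀ m i, ‖δ m i‖ ≤ ρ ^ (m + 1 + 1) := by
    intro m i
    show ‖χ (φ (m + 1) (uE p n i.1)) - χ (uE p n i.1)‖ ≤ _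
    rw [← map_sub]
    exact hρ _ _ (hφ (m + 1) (by omega) _)
  have hδlt : ∀ m i, ‖δ m i‖ < 1 := fun m i =>
    (hδρ m i).trans_lt (pow_lt_one₀ hρ0 hρ1 (by omega))
  have hx0' : ∀ m j, 1 ≤ j → j < h → χ (φ (m + 1) (uE p n j)) = 0 := by
    intro m j hj hjh
    apply chi_eq_zero_of_mem hχ h1 hx0
    exact heightIdeal_mono (by omega) (phi_uE_mem (hiso (m + 1) (by omega)) j hj (by omega))
  have hpt : ∀ m, ptB (isPoint_comp hχ (hφ' m)) = shiftB (ptB hχ) (δ m) (hδlt m) := fun m =>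
    ptB_comp_eq hχ (hφ' m) hx0 (hx0' m) (hδlt m)
  let P : ∀ m, CHom (FC p n (ptB (isPoint_comp hχ (hφ' m)))) (FC p n (ptB hχ)) := fun m =>
    psiC hχ (hφ' m) (hiso (m + 1) (by omega)).1
  have hP : ∀ m, (P m).ps = (ψ (m + 1)).map χ := fun m => rfl
  have hP0 : ∀ m, PowerSeries.constantCoeff (P m).ps = 0 := fun m => (P m).isHom.1
  let B : ∀ m, CHom (FC p n (ptB (isPoint_comp hχ (hφ' m)))) (FC p h (0 : Ball C)) := fun m =>
    { ps := β.ps.subst (P m).ps
      bdd := Bdd.subst (σ := Unit) β.bdd (fun _ => (P m).bdd) (fun _ => hP0 m)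
      isHom := IsHom.comp β.isHom (P m).isHom }
  have hBmap : ∀ m z, (B m).map z = β.map ((P m).map z) := by
    intro m z
    apply Subtype.ext
    rw [CHom.map_val, CHom.map_val, CHom.map_val]
    exact ev1_subst z.2 β.bdd (P m).bdd (hP0 m)
  have hBt : ∀ m i, (B m).map (expm p hn (ptB (isPoint_comp hχ (hφ' m))) (t i)) =
      p ^ (m + 1) • β.map (expm p hn (ptB hχ) ((homK κ g hg).map (t i))) := by
    intro m i
    rw [hBmap, psiC_expm hχ (hφ' m) (hiso (m + 1) (by omega)).1 hκ hn]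
    have h2 := isHom_res (hφ' m) (hiso (m + 1) (by omega)).1
    have h3 : IsHom ((hazF p (prm n (0 : ℕ → GaloisField p n))).toPowerSeries.subst
          ![(PowerSeries.X : PowerSeries (GaloisField p n)), g ^ p ^ (n * (m + 1))] :
            PowerSeries (GaloisField p n)) (hazF p (prm n 0)) (hazF p (prm n 0)) := by
      rw [← hres (m + 1) (by omega)]
      exact h2
    rw [homK_map_congr h2 h3 (hres (m + 1) (by omega)), homK_one_add hn hg (m + 1) h3, map_add,
      map_add, ht i, map_zero, zero_add, map_nsmul, map_nsmul]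
  have hW : ∀ (W : (FC p h (0 : Ball C)).Pt) (m : ℕ),
      (p ^ (m + 1) • W).1 = (W.1 ^ p ^ h) ^ (p ^ h) ^ m := by
    intro W m
    rw [norm_nsmul_honda p h1]
    have e : ∀ a : C, a ^ (p ^ h) ^ (m + 1) = (a ^ p ^ h) ^ (p ^ h) ^ m := fun a => by
      rw [pow_succ' (p ^ h) m, pow_mul]
    exact e _
  refine ⟨{ δ := δ
            δlt := hδlt
            δ0 := ?_
            b := fun m => (B m).ps
            bbdd := fun m => (B m).bdd
            bc := fun m => (B m).isHom.1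
            blim := ?_
            root := ?_
            w := fun i => (β.map (expm p hn (ptB hχ) ((homK κ g hg).map (t i)))).1 ^ p ^ h
            wlt := ?_
            hw := ?_
            hf := ?_ }, fun i => rfl⟩
  · rw [tendsto_pi_nhds]
    intro i
    refine squeeze_zero_norm (fun m => hδρ m i) ?_
    exact (tendsto_pow_atTop_nhds_zero_of_lt_one hρ0 hρ1).comp (tendsto_add_atTop_nat 2)
  · intro N
    rw [hDb]
    refine tendsto_coeff_subst hP0 ?_ N
    intro i
    rw [← tendsto_sub_nhds_zero_iff, Metric.tendsto_atTop]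
    intro ε hε
    obtain ⟨j, hj⟩ := exists_pow_lt_of_lt_one hε hρ1
    obtain ⟨m0, hm0⟩ := eventually_atTop.1 (hlim i j)
    refine ⟨m0, fun m hm => ?_⟩
    rw [dist_zero_right]
    refine lt_of_le_of_lt ?_ hj
    have h2 := hρ _ _ (hm0 (m + 1) (by omega))
    rw [map_sub] at h2
    have h3 : χ (PowerSeries.coeff i (PowerSeries.X : PowerSeries (E0 p n))) =
        PowerSeries.coeff i (PowerSeries.X : PowerSeries C) := by
      rw [PowerSeries.coeff_X, PowerSeries.coeff_X]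
      split_ifs <;> simp
    rw [h3] at h2
    exact h2
  · intro m
    have hxm : ∀ j, 1 ≤ j → j < h → (ptB (isPoint_comp hχ (hφ' m))).1 j = 0 := fun j hj hjh =>
      hx0' m j hj hjh
    have h2 := root_of_hom p h1 hh.le hxm (B m).isHom
    rw [← h2]
    congr 1
    ext k
    rw [PowerSeries.coeff_mk, hDV, ev_Vser p h n _ k (δ m) (hδlt m), ← hpt m]
  · intro i
    rw [norm_pow]
    exact pow_lt_one₀ (norm_nonneg _) (β.map _).2 (pow_ne_zero _ hp.ne_zero)
  · intro m i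
    rw [← hDQ i (δ m) (hδlt m), ← hpt m, ← hW, ← hBt m i, CHom.map_val]
  · intro m
    rw [← hDf (δ m) (hδlt m)]
    have h2 := chi_eq_ev (χ.comp (φ (m + 1) : E0 p n →+* E0 p n)) (κ := κ) (by
        intro w
        show χ (φ (m + 1) (MvPowerSeries.C w)) = _
        rw [hφC (m + 1) (by omega), hκ]) (isPoint_comp hχ (hφ' m)) h1 (hx0' m) f
    have h3 := hf (φ (m + 1)) (ψ (m + 1)) (hiso (m + 1) (by omega)) (hφC (m + 1) (by omega))
    have h4 : (fun i : Idx h n => (ptB hχ).1 i.1 + δ m i) =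
        fun i : Idx h n => (χ.comp (φ (m + 1) : E0 p n →+* E0 p n)) (uE p n i.1) := by
      funext i
      show χ (uE p n i.1) + (χ (φ (m + 1) (uE p n i.1)) - χ (uE p n i.1)) =
        χ (φ (m + 1) (uE p n i.1))
      ring
    rw [h4, ← h2]
    exact h3

end Chai
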