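import Vale.Agent.Chai.Trunc

/-!
# P217 / Descent: the Frobenius / Artin trick

OWNER: helper6 (done)

PROOF of `descent`.  Let `V = span_𝔽 (v_i)`, `V_ρ = {y ∈ V : ‖y‖ ≤ ρ}` (an `𝔽`-subspace: elements of
`𝔽` have norm `≤ 1` in `C`), `e_1..e_s ∈ V` a basis of `V / V_ρ`.  Write `v_i = ∑_k a_{ik} e_k + u_i`,
`a_{ik} ∈ 𝔽`, `u_i ∈ V_ρ`; `c'_k = ∑_i a_{ik} c_i`.  Then `∑_k c'_k e_k^{q^m} = O(ρ^{q^m})`.
CLAIM: all `c'_k = 0`.  Otherwise choose a nonzero `c' ∈ C^s` with
`‖∑ c'_k e_k^{q^m}‖ ≤ K' ρ^{q^m}` (large `m`, some `K'`) with the minimal number of nonzero entries,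
scaled such that some entry is `1`.  Raising to the power `q`: `(c'_k)^q` satisfies the same type of
relation, so `c'_k - (c'_k)^q` does too, with fewer nonzero entries, hence `c'_k^q = c'_k`, i.e.
`c'_k ∈ 𝔽` (`card 𝔽 = q`, the roots of `X^q - X`), and
`‖∑ c'_k e_k‖^{q^m} ≤ K' ρ^{q^m}` for all large `m`, so `‖∑ c'_k e_k‖ ≤ ρ`, contradicting the choice of
the basis.  Therefore `∑_i λ(c_i) a_{ik} = λ(c'_k) = 0` and
`∑_i λ(c_i) v_i = ∑_i λ(c_i) u_i ∈ V_ρ`.

`descent_series`: apply `descent` with index set `degLE ι N`, `v_d = w^d`, `ρ = ‖w‖^{N+1}`: then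
`‖evN N w (λ f)‖ ≤ ‖w‖^{N+1}` for all `N` (if `w = 0` treat separately: the hypothesis for `N = 0` gives
`f_0 = 0`), and let `N → ∞`.
-/

namespace Chai

open MvPowerSeries Filter Topology

namespace DescentAux

section alg

variable {C : Type*} [Field C] {𝔽 : Type*} [Field 𝔽] [Fintype 𝔽] [Algebra 𝔽 C]
variable {ι : Type*} [Fintype ι]

open Classical in
/-- support -/
noncomputable def supp (c : ι → C) : Finset ι := Finset.univ.filter fun i => c i ≠ 0

theorem mem_supp {c : ι → C} {i : ι} : i ∈ supp c ↔ c i ≠ 0 := by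
  unfold supp
  simp

theorem card_supp_lt {c d : ι → C} (h : ∀ i, c i = 0 → d i = 0) {j : ι} (hc : c j ≠ 0)
    (hd : d j = 0) : (supp d).card < (supp c).card := by
  refine Finset.card_lt_card ?_
  rw [Finset.ssubset_iff_of_subset]
  · exact ⟨j, mem_supp.2 hc, fun h => mem_supp.1 h hd⟩
  · intro i hi
    rw [mem_supp] at hi ⊢
    exact fun hci => hi (h i hci)

theorem exists_of_pow_card {x : C} (hx : x ^ Fintype.card 𝔽 = x) : ∃ a : 𝔽, algebraMap 𝔽 C a = x := by
  classical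
  by_contra hcon
  push Not at hcon
  set q := Fintype.card 𝔽 with hq
  have hq1 : 1 < q := Fintype.one_lt_card
  set P : Polynomial C := Polynomial.X ^ q - Polynomial.X with hP
  have hdeg : P.natDegree = q := FiniteField.X_pow_card_sub_X_natDegree_eq C hq1
  have hP0 : P ≠ 0 := FiniteField.X_pow_card_sub_X_ne_zero C hq1
  have hsub : insert x (Finset.univ.image (algebraMap 𝔽 C)) ⊆ P.roots.toFinset := by
    intro y hy
    rw [Multiset.mem_toFinset, Polynomial.mem_roots hP0, Polynomial.IsRoot, hP,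
      Polynomial.eval_sub, Polynomial.eval_pow, Polynomial.eval_X, sub_eq_zero]
    rw [Finset.mem_insert] at hy
    rcases hy with rfl | hy
    · exact hx
    · obtain ⟨a, -, rfl⟩ := Finset.mem_image.1 hy
      rw [← map_pow, FiniteField.pow_card]
  have h1 := Finset.card_le_card hsub
  have h2 : x ∉ Finset.univ.image (algebraMap 𝔽 C) := by
    intro h
    obtain ⟨a, -, ha⟩ := Finset.mem_image.1 h
    exact hcon a ha
  rw [Finset.card_insert_of_notMem h2, Finset.card_image_of_injective _ (algebraMap 𝔽 C).injective,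
    Finset.card_univ, ← hq] at h1
  have h3 := (Multiset.toFinset_card_le P.roots).trans (Polynomial.card_roots' P)
  omega

theorem exists_fixed (R : Submodule C (ι → C))
    (hR : ∀ c ∈ R, (fun i => c i ^ Fintype.card 𝔽) ∈ R) (n : ℕ) :
    ∀ c ∈ R, (supp c).card ≤ n → c ≠ 0 →
      ∃ a : ι → 𝔽, a ≠ 0 ∧ (fun i => algebraMap 𝔽 C (a i)) ∈ R ∧ ∀ i, c i = 0 → a i = 0 := by
  induction n with
  | zero =>
    intro c _ h h0
    exfalso
    apply h0
    funext i
    by_contra hi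
    have : i ∈ supp c := mem_supp.2 hi
    rw [Nat.le_zero, Finset.card_eq_zero] at h
    rw [h] at this
    exact absurd this (Finset.notMem_empty _)
  | succ n ih =>
    intro c hc hn h0
    obtain ⟨j, hj⟩ : ∃ j, c j ≠ 0 := by
      by_contra hcon
      push Not at hcon
      exact h0 (funext hcon)
    set c1 : ι → C := (c j)⁻¹ • c with hc1
    have hc1R : c1 ∈ R := R.smul_mem _ hc
    have hc1j : c1 j = 1 := by
      rw [hc1, Pi.smul_apply, smul_eq_mul, inv_mul_cancel₀ hj]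
    have hc10 : ∀ i, c1 i = 0 ↔ c i = 0 := by
      intro i
      rw [hc1, Pi.smul_apply, smul_eq_mul, mul_eq_zero]
      exact ⟨fun h => h.resolve_left (inv_ne_zero hj), Or.inr⟩
    set d : ι → C := fun i => c1 i - c1 i ^ Fintype.card 𝔽 with hd
    have hdR : d ∈ R := R.sub_mem hc1R (hR c1 hc1R)
    by_cases hd0 : d = 0
    · have h1 : ∀ i, ∃ a : 𝔽, algebraMap 𝔽 C a = c1 i := by
        intro i
        have h2 : c1 i ^ Fintype.card 𝔽 = c1 i := by
          have := congrFun hd0 i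
          rw [hd] at this
          exact (sub_eq_zero.1 this).symm
        exact exists_of_pow_card h2
      choose a ha using h1
      refine ⟨a, ?_, ?_, ?_⟩
      · intro h
        have := ha j
        rw [h, hc1j, Pi.zero_apply, map_zero] at this
        exact zero_ne_one this
      · have : (fun i => algebraMap 𝔽 C (a i)) = c1 := funext ha
        rw [this]
        exact hc1R
      · intro i hi
        have := ha i
        rw [(hc10 i).2 hi] at this
        exact (map_eq_zero_iff _ (algebraMap 𝔽 C).injective).1 this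
    · have hq0 : Fintype.card 𝔽 ≠ 0 := Fintype.card_ne_zero
      have hz : ∀ i, c i = 0 → d i = 0 := by
        intro i hi
        rw [hd]
        show c1 i - c1 i ^ Fintype.card 𝔽 = 0
        rw [(hc10 i).2 hi, zero_pow hq0, sub_zero]
      have hdj : d j = 0 := by
        rw [hd]
        show c1 j - c1 j ^ Fintype.card 𝔽 = 0
        rw [hc1j, one_pow, sub_self]
      have hlt := card_supp_lt hz hj hdj
      obtain ⟨a, ha0, haR, ha⟩ := ih d hdR (by omega) hd0
      exact ⟨a, ha0, haR, fun i hi => ha i (hz i hi)⟩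

theorem mem_span (R : Submodule C (ι → C))
    (hR : ∀ c ∈ R, (fun i => c i ^ Fintype.card 𝔽) ∈ R) (n : ℕ) :
    ∀ c ∈ R, (supp c).card ≤ n →
      c ∈ Submodule.span C {x : ι → C | x ∈ R ∧ ∃ a : ι → 𝔽, x = fun i => algebraMap 𝔽 C (a i)} := by
  induction n with
  | zero =>
    intro c _ h
    have : c = 0 := by
      funext i
      by_contra hi
      have : i ∈ supp c := mem_supp.2 hi
      rw [Nat.le_zero, Finset.card_eq_zero] at h
      rw [h] at this
      exact absurd this (Finset.notMem_empty _)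
    rw [this]
    exact Submodule.zero_mem _
  | succ n ih =>
    intro c hc hn
    by_cases h0 : c = 0
    · rw [h0]
      exact Submodule.zero_mem _
    obtain ⟨a, ha0, haR, ha⟩ := exists_fixed (𝔽 := 𝔽) R hR (n + 1) c hc hn h0
    obtain ⟨j, hj⟩ : ∃ j, a j ≠ 0 := by
      by_contra hcon
      push Not at hcon
      exact ha0 (funext hcon)
    have hcj : c j ≠ 0 := fun h => hj (ha j h)
    have haj : algebraMap 𝔽 C (a j) ≠ 0 := (map_ne_zero _).2 hj
    set A : ι → C := fun i => algebraMap 𝔽 C (a i) with hA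
    have hAS : A ∈ Submodule.span C {x : ι → C | x ∈ R ∧ ∃ a : ι → 𝔽, x = fun i => algebraMap 𝔽 C (a i)} :=
      Submodule.subset_span ⟨haR, a, rfl⟩
    set t : C := c j / algebraMap 𝔽 C (a j) with ht
    have hd : c - t • A ∈ R := R.sub_mem hc (R.smul_mem _ haR)
    have hlt : (supp (c - t • A)).card < (supp c).card := by
      refine card_supp_lt (j := j) ?_ hcj ?_
      · intro i hi
        rw [Pi.sub_apply, Pi.smul_apply, hi, hA]
        show 0 - t • algebraMap 𝔽 C (a i) = 0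
        rw [ha i hi, map_zero, smul_zero, sub_zero]
      · rw [Pi.sub_apply, Pi.smul_apply, smul_eq_mul, hA, ht]
        show c j - c j / algebraMap 𝔽 C (a j) * algebraMap 𝔽 C (a j) = 0
        rw [div_mul_cancel₀ _ haj, sub_self]
    have h1 := ih _ hd (by omega)
    have h2 := Submodule.add_mem _ h1 (Submodule.smul_mem _ t hAS)
    rwa [sub_add_cancel] at h2

end alg

end DescentAux

variable {C : Type*} [NontriviallyNormedField C] [IsUltrametricDist C] [CompleteSpace C]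
variable {𝔽 : Type*} [Field 𝔽] [Fintype 𝔽] [Algebra 𝔽 C]

omit [IsUltrametricDist C] [CompleteSpace C] in
theorem DescentAux.norm_algebraMap_le (x : 𝔽) : ‖algebraMap 𝔽 C x‖ ≤ 1 := by
  by_contra hcon
  rw [not_le] at hcon
  have h1 : ‖algebraMap 𝔽 C x‖ ^ Fintype.card 𝔽 = ‖algebraMap 𝔽 C x‖ := by
    rw [← norm_pow, ← map_pow, FiniteField.pow_card]
  have h2 : ‖algebraMap 𝔽 C x‖ ^ 1 < ‖algebraMap 𝔽 C x‖ ^ Fintype.card 𝔽 :=
    pow_lt_pow_right₀ hcon Fintype.one_lt_card
  rw [h1, pow_one] at h2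
  exact lt_irrefl _ h2

theorem descent {q : ℕ} (hq : Fintype.card 𝔽 = q) {ι : Type*} [Fintype ι] (c v : ι → C)
    {ρ K : ℝ} (hρ : 0 < ρ)
    (H : ∀ᶠ m : ℕ in atTop, ‖∑ i, c i * v i ^ q ^ m‖ ≤ K * ρ ^ q ^ m) (l : C →ₗ[𝔽] 𝔽) :
    ‖∑ i, algebraMap 𝔽 C (l (c i)) * v i‖ ≤ ρ := by
  subst hq
  set q := Fintype.card 𝔽 with hq
  have hq1 : 1 < q := Fintype.one_lt_card
  -- the space of relations
  let R : Submodule C (ι → C) :=
    { carrier := {c | ∃ K : ℝ, ∀ᶠ m : ℕ in atTop, ‖∑ i, c i * v i ^ q ^ m‖ ≤ K * ρ ^ q ^ m}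
      add_mem' := by
        rintro c d ⟨K, hK⟩ ⟨L, hL⟩
        refine ⟨max K L, ?_⟩
        filter_upwards [hK, hL] with m h1 h2
        have h3 : ∑ i, (c + d) i * v i ^ q ^ m = ∑ i, c i * v i ^ q ^ m + ∑ i, d i * v i ^ q ^ m := by
          rw [← Finset.sum_add_distrib]
          exact Finset.sum_congr rfl fun i _ => by rw [Pi.add_apply, add_mul]
        rw [h3]
        have h4 : 0 ≤ ρ ^ q ^ m := by positivity
        refine (IsUltrametricDist.norm_add_le_max _ _).trans (max_le (h1.trans ?_) (h2.trans ?_))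
        · exact mul_le_mul_of_nonneg_right (le_max_left _ _) h4
        · exact mul_le_mul_of_nonneg_right (le_max_right _ _) h4
      zero_mem' := ⟨0, by simp⟩
      smul_mem' := by
        rintro t c ⟨K, hK⟩
        refine ⟨‖t‖ * K, ?_⟩
        filter_upwards [hK] with m h1
        have h3 : ∑ i, (t • c) i * v i ^ q ^ m = t * ∑ i, c i * v i ^ q ^ m := by
          rw [Finset.mul_sum]
          exact Finset.sum_congr rfl fun i _ => by rw [Pi.smul_apply, smul_eq_mul, mul_assoc]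
        rw [h3, norm_mul, mul_assoc]
        exact mul_le_mul_of_nonneg_left h1 (norm_nonneg _) }
  have hRmem : ∀ c : ι → C, c ∈ R ↔ ∃ K : ℝ, ∀ᶠ m : ℕ in atTop,
      ‖∑ i, c i * v i ^ q ^ m‖ ≤ K * ρ ^ q ^ m := fun _ => Iff.rfl
  have hR : ∀ c ∈ R, (fun i => c i ^ Fintype.card 𝔽) ∈ R := by
    intro c hc
    obtain ⟨K, hK⟩ := (hRmem c).1 hc
    refine (hRmem _).2 ⟨K ^ q, ?_⟩
    rw [eventually_atTop] at hK ⊢
    obtain ⟨M, hM⟩ := hK
    refine ⟨M + 1, fun m hm => ?_⟩
    obtain ⟨k, rfl⟩ := Nat.exists_eq_add_of_le' hm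
    have h1 := hM (M + k) (by omega)
    have h2 : ∑ i, c i ^ q * v i ^ q ^ (k + (M + 1)) = (∑ i, c i * v i ^ q ^ (M + k)) ^ q := by
      have h3 : ∀ x : C, FiniteField.frobeniusAlgHom 𝔽 C x = x ^ q := fun x => rfl
      rw [← h3, map_sum]
      refine Finset.sum_congr rfl fun i _ => ?_
      rw [map_mul, map_pow, h3, h3, ← pow_mul]
      congr 2
      rw [show k + (M + 1) = (M + k) + 1 by omega, pow_succ]
      ring
    show ‖∑ i, c i ^ q * v i ^ q ^ (k + (M + 1))‖ ≤ _
    rw [h2, norm_pow]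
    calc ‖∑ i, c i * v i ^ q ^ (M + k)‖ ^ q ≤ (K * ρ ^ q ^ (M + k)) ^ q :=
          pow_le_pow_left₀ (norm_nonneg _) h1 _
      _ = K ^ q * ρ ^ q ^ (k + (M + 1)) := by
          rw [mul_pow, ← pow_mul, show k + (M + 1) = (M + k) + 1 by omega, pow_succ]
  have hspan := DescentAux.mem_span (𝔽 := 𝔽) R hR (DescentAux.supp c).card c ((hRmem c).2 ⟨K, H⟩) le_rfl
  revert l
  refine Submodule.span_induction (p := fun c _ => ∀ l : C →ₗ[𝔽] 𝔽,
    ‖∑ i, algebraMap 𝔽 C (l (c i)) * v i‖ ≤ ρ) ?_ ?_ ?_ ?_ hspan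
  · rintro x ⟨hxR, a, rfl⟩ l
    obtain ⟨K, hK⟩ := (hRmem _).1 hxR
    have h1 : ∀ m : ℕ, ∑ i, algebraMap 𝔽 C (a i) * v i ^ q ^ m =
        (∑ i, algebraMap 𝔽 C (a i) * v i) ^ q ^ m := by
      intro m
      induction m with
      | zero => simp
      | succ m ih =>
        rw [pow_succ, pow_mul, ← ih]
        have h3 : ∀ x : C, FiniteField.frobeniusAlgHom 𝔽 C x = x ^ q := fun x => rfl
        rw [← h3 (∑ i, algebraMap 𝔽 C (a i) * v i ^ q ^ m), map_sum]
        refine Finset.sum_congr rfl fun i _ => ?_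
        rw [map_mul, AlgHom.commutes, h3, ← pow_mul]
    set y := ∑ i, algebraMap 𝔽 C (a i) * v i with hy
    have hyρ : ‖y‖ ≤ ρ := by
      by_contra hcon
      rw [not_le] at hcon
      have h2 : 1 < ‖y‖ / ρ := (one_lt_div hρ).2 hcon
      have h3 : Tendsto (fun m : ℕ => (‖y‖ / ρ) ^ q ^ m) atTop atTop :=
        (tendsto_pow_atTop_atTop_of_one_lt h2).comp (tendsto_pow_atTop_atTop_of_one_lt hq1)
      obtain ⟨m, hm1, hm2⟩ := (hK.and (h3.eventually_gt_atTop K)).exists
      rw [h1 m, norm_pow] at hm1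
      rw [div_pow, lt_div_iff₀ (by positivity)] at hm2
      linarith
    have h4 : ∑ i, algebraMap 𝔽 C (l (algebraMap 𝔽 C (a i))) * v i = algebraMap 𝔽 C (l 1) * y := by
      rw [hy, Finset.mul_sum]
      refine Finset.sum_congr rfl fun i _ => ?_
      have hla : l (algebraMap 𝔽 C (a i)) = a i * l 1 := by
        rw [Algebra.algebraMap_eq_smul_one, map_smul, smul_eq_mul]
      rw [hla, map_mul]
      ring
    rw [h4, norm_mul]
    calc ‖algebraMap 𝔽 C (l 1)‖ * ‖y‖ ≤ 1 * ρ :=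
          mul_le_mul (DescentAux.norm_algebraMap_le _) hyρ (norm_nonneg _) zero_le_one
      _ = ρ := one_mul _
  · intro l
    simp [hρ.le]
  · intro x y _ _ hx hy l
    have h3 : ∑ i, algebraMap 𝔽 C (l ((x + y) i)) * v i =
        ∑ i, algebraMap 𝔽 C (l (x i)) * v i + ∑ i, algebraMap 𝔽 C (l (y i)) * v i := by
      rw [← Finset.sum_add_distrib]
      exact Finset.sum_congr rfl fun i _ => by rw [Pi.add_apply, map_add, map_add, add_mul]
    rw [h3]
    exact (IsUltrametricDist.norm_add_le_max _ _).trans (max_le (hx l) (hy l))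
  · intro t x _ hx l
    exact hx (l.comp (LinearMap.mulLeft 𝔽 t))

/-- apply an `𝔽`-linear form to the coefficients -/
noncomputable def mapLin {ι : Type*} (l : C →ₗ[𝔽] 𝔽) (f : MvPowerSeries ι C) : MvPowerSeries ι 𝔽 :=
  fun d => l (coeff d f)

theorem descent_series {q : ℕ} (hq : Fintype.card 𝔽 = q) {ι : Type*} [Fintype ι] [DecidableEq ι]
    (f : MvPowerSeries ι C) {w : ι → C} (hw : ∀ i, ‖w i‖ < 1)
    (H : ∀ N : ℕ, ∃ K : ℝ, ∀ᶠ m : ℕ in atTop,
      ‖evN N (fun i => w i ^ q ^ m) f‖ ≤ K * (‖w‖ ^ q ^ m) ^ (N + 1)) (l : C →ₗ[𝔽] 𝔽) :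
    ev w ((mapLin l f).map (algebraMap 𝔽 C)) = 0 := by
  set F : MvPowerSeries ι C := (mapLin l f).map (algebraMap 𝔽 C) with hF
  have hFc : ∀ d, coeff d F = algebraMap 𝔽 C (l (coeff d f)) := by
    intro d
    rw [hF, coeff_map]
    rfl
  have hFb : Bdd F := fun d => by
    rw [hFc]
    exact DescentAux.norm_algebraMap_le _
  have hw1 : ‖w‖ < 1 := (pi_norm_lt_iff one_pos).2 hw
  have key : ∀ ε : ℝ, 0 < ε → ‖ev w F‖ ≤ ε := by
    intro ε hε
    obtain ⟨N, hN⟩ : ∃ N : ℕ, ‖w‖ ^ (N + 1) ≤ ε := by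
      have h1 : Tendsto (fun n : ℕ => ‖w‖ ^ n) atTop (𝓝 0) :=
        tendsto_pow_atTop_nhds_zero_of_lt_one (norm_nonneg _) hw1
      obtain ⟨N, hN⟩ := ((h1.comp (tendsto_add_atTop_nat 1)).eventually (gt_mem_nhds hε)).exists
      exact ⟨N, hN.le⟩
    obtain ⟨K, hK⟩ := H N
    have h2 : ‖∑ d : degLE ι N, algebraMap 𝔽 C (l (coeff d.1 f)) * (d.1.prod fun i e => w i ^ e)‖ ≤ ε := by
      refine descent hq (fun d : degLE ι N => coeff d.1 f) (fun d => d.1.prod fun i e => w i ^ e)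
        (K := max K 0) hε ?_ l
      filter_upwards [hK] with m hm
      have h3 : ∑ d : degLE ι N, coeff d.1 f * (d.1.prod fun i e => w i ^ e) ^ q ^ m =
          evN N (fun i => w i ^ q ^ m) f := by
        unfold evN
        rw [← Finset.sum_coe_sort (degLE ι N)]
        refine Finset.sum_congr rfl fun d _ => ?_
        congr 1
        rw [Finsupp.prod, Finsupp.prod, ← Finset.prod_pow]
        refine Finset.prod_congr rfl fun i _ => ?_
        rw [← pow_mul, ← pow_mul, mul_comm]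
      rw [h3]
      refine hm.trans ?_
      calc K * (‖w‖ ^ q ^ m) ^ (N + 1) ≤ max K 0 * (‖w‖ ^ q ^ m) ^ (N + 1) :=
            mul_le_mul_of_nonneg_right (le_max_left _ _) (by positivity)
        _ = max K 0 * (‖w‖ ^ (N + 1)) ^ q ^ m := by rw [← pow_mul, ← pow_mul, mul_comm (q ^ m)]
        _ ≤ max K 0 * ε ^ q ^ m := by
            apply mul_le_mul_of_nonneg_left _ (le_max_right _ _)
            exact pow_le_pow_left₀ (by positivity) hN _
    have h4 : evN N w F = ∑ d : degLE ι N, algebraMap 𝔽 C (l (coeff d.1 f)) * (d.1.prod fun i e => w i ^ e) := by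
      unfold evN
      rw [← Finset.sum_coe_sort (degLE ι N)]
      exact Finset.sum_congr rfl fun d _ => by rw [hFc]
    rw [← h4] at h2
    have h5 := norm_ev_sub_evN_le hFb hw N
    have h6 : ev w F = (ev w F - evN N w F) + evN N w F := by ring
    rw [h6]
    exact (IsUltrametricDist.norm_add_le_max _ _).trans (max_le (h5.trans hN) h2)
  have h7 : ‖ev w F‖ ≤ 0 := le_of_forall_pos_le_add fun ε hε => by rw [zero_add]; exact key ε hε
  exact norm_le_zero_iff.1 h7

/-- special case: `f` bounded and vanishing at all `w^{q^m}` -/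
theorem descent_bdd {q : ℕ} (hq : Fintype.card 𝔽 = q) {ι : Type*} [Fintype ι] [DecidableEq ι]
    {f : MvPowerSeries ι C} (hf : Bdd f) {w : ι → C} (hw : ∀ i, ‖w i‖ < 1)
    (H : ∀ᶠ m : ℕ in atTop, ev (fun i => w i ^ q ^ m) f = 0) (l : C →ₗ[𝔽] 𝔽) :
    ev w ((mapLin l f).map (algebraMap 𝔽 C)) = 0 := by
  refine descent_series hq f hw (fun N => ⟨1, ?_⟩) l
  filter_upwards [H] with m hm
  have hq1 : 1 < q := hq ▸ Fintype.one_lt_card
  have hqm : q ^ m ≠ 0 := by positivity
  have h1 := norm_ev_sub_evN_le hf (a := fun i => w i ^ q ^ m)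
    (fun i => by rw [norm_pow]; exact pow_lt_one₀ (norm_nonneg _) (hw i) hqm) N
  rw [hm, zero_sub, norm_neg] at h1
  rw [one_mul]
  refine h1.trans (pow_le_pow_left₀ (norm_nonneg _) ?_ _)
  refine (pi_norm_le_iff_of_nonneg (by positivity)).2 fun i => ?_
  rw [norm_pow]
  exact pow_le_pow_left₀ (norm_nonneg _) (norm_le_pi_norm w i) _

end Chai
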