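import Vale.Agent.Chai.Defs

/-!
# P217 / Ev: evaluation of power series on the open unit polydisc (helper10)
-/

namespace Chai

open MvPowerSeries Filter Topology

set_option linter.unusedSectionVars false

section Ev

variable {C : Type*} [NontriviallyNormedField C] [IsUltrametricDist C] [CompleteSpace C]
variable {σ τ : Type*}

/-- power series with coefficients in the closed unit ball -/
def Bdd (f : MvPowerSeries σ C) : Prop := ∀ d, ‖coeff d f‖ ≤ 1

/-- evaluation at a point -/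
noncomputable def ev (a : σ → C) (f : MvPowerSeries σ C) : C :=
  ∑' d : σ →₀ ℕ, coeff d f * d.prod fun i e => a i ^ e

/-- evaluation of a one variable power series -/
noncomputable def ev1 (a : C) (f : PowerSeries C) : C := ev (fun _ : Unit => a) f

theorem Bdd.zero : Bdd (0 : MvPowerSeries σ C) := fun d => by simp

theorem Bdd.C_iff {c : C} : Bdd (MvPowerSeries.C (σ := σ) c) ↔ ‖c‖ ≤ 1 := by
  classical
  constructor
  · intro h
    have := h 0
    simpa using this
  · intro h d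
    rw [coeff_C]
    split_ifs
    · exact h
    · simp

theorem Bdd.one : Bdd (1 : MvPowerSeries σ C) := by
  have := (Bdd.C_iff (σ := σ) (c := (1 : C))).mpr (by simp)
  simpa using this

theorem Bdd.X (i : σ) : Bdd (X i : MvPowerSeries σ C) := by
  classical
  intro d
  rw [coeff_X]
  split_ifs <;> simp

theorem Bdd.add {f g : MvPowerSeries σ C} (hf : Bdd f) (hg : Bdd g) : Bdd (f + g) := fun d => by
  rw [map_add]
  exact (IsUltrametricDist.norm_add_le_max _ _).trans (max_le (hf d) (hg d))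

theorem Bdd.neg {f : MvPowerSeries σ C} (hf : Bdd f) : Bdd (-f) := fun d => by
  rw [map_neg, norm_neg]
  exact hf d

theorem Bdd.sub {f g : MvPowerSeries σ C} (hf : Bdd f) (hg : Bdd g) : Bdd (f - g) := by
  rw [sub_eq_add_neg]
  exact hf.add hg.neg

theorem Bdd.mul {f g : MvPowerSeries σ C} (hf : Bdd f) (hg : Bdd g) : Bdd (f * g) := fun d => by
  classical
  rw [coeff_mul]
  refine IsUltrametricDist.norm_sum_le_of_forall_le_of_nonneg zero_le_one fun p _ => ?_
  rw [norm_mul]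
  exact mul_le_one₀ (hf _) (norm_nonneg _) (hg _)

theorem Bdd.pow {f : MvPowerSeries σ C} (hf : Bdd f) (n : ℕ) : Bdd (f ^ n) := by
  induction n with
  | zero => rw [pow_zero]; exact Bdd.one
  | succ n ih => rw [pow_succ]; exact ih.mul hf

theorem Bdd.smul {f : MvPowerSeries σ C} (hf : Bdd f) {c : C} (hc : ‖c‖ ≤ 1) : Bdd (c • f) :=
  fun d => by
    rw [map_smul, smul_eq_mul, norm_mul]
    exact mul_le_one₀ hc (norm_nonneg _) (hf _)

theorem Bdd.prod {ι : Type*} (s : Finset ι) {f : ι → MvPowerSeries σ C} (hf : ∀ i ∈ s, Bdd (f i)) :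
    Bdd (∏ i ∈ s, f i) := by
  classical
  induction s using Finset.induction_on with
  | empty => rw [Finset.prod_empty]; exact Bdd.one
  | insert a s ha ih =>
    rw [Finset.prod_insert ha]
    exact (hf a (Finset.mem_insert_self _ _)).mul
      (ih fun i hi => hf i (Finset.mem_insert_of_mem hi))

theorem Bdd.sum {ι : Type*} (s : Finset ι) {f : ι → MvPowerSeries σ C} (hf : ∀ i ∈ s, Bdd (f i)) :
    Bdd (∑ i ∈ s, f i) := fun d => by
  rw [map_sum]
  exact IsUltrametricDist.norm_sum_le_of_forall_le_of_nonneg zero_le_one fun i hi => hf i hi d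

theorem Bdd.truncTotal [Finite σ] {f : MvPowerSeries σ C} (hf : Bdd f) (N : ℕ) :
    Bdd (f.truncTotal N : MvPowerSeries σ C) := fun d => by
  rw [MvPolynomial.coeff_coe, coeff_truncTotal_eq_ite]
  split_ifs
  · exact hf d
  · simp

theorem Bdd.finsuppProd {f : τ → MvPowerSeries σ C} (hf : ∀ i, Bdd (f i)) (d : τ →₀ ℕ) :
    Bdd (d.prod fun i e => f i ^ e) :=
  Bdd.prod _ fun i _ => (hf i).pow _

theorem hasSubst_zero [Finite σ] {b : σ → MvPowerSeries τ C}
    (h0 : ∀ i, constantCoeff (b i) = 0) : HasSubst b :=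
  hasSubst_of_constantCoeff_nilpotent fun i => by rw [h0 i]; exact IsNilpotent.zero

theorem Bdd.subst [Finite σ] {f : MvPowerSeries σ C} {b : σ → MvPowerSeries τ C} (hf : Bdd f)
    (hb : ∀ i, Bdd (b i)) (h0 : ∀ i, constantCoeff (b i) = 0) : Bdd (f.subst b) := fun e => by
  classical
  rw [coeff_subst (hasSubst_zero h0), finsum_def]
  split_ifs with h
  · refine IsUltrametricDist.norm_sum_le_of_forall_le_of_nonneg zero_le_one fun d _ => ?_
    rw [smul_eq_mul, norm_mul]
    exact mul_le_one₀ (hf d) (norm_nonneg _) (Bdd.finsuppProd hb d e)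
  · simp

/-! ### norms of unconditional sums -/

theorem norm_sub_le_max' (x y : C) : ‖x - y‖ ≤ max ‖x‖ ‖y‖ := by
  rw [sub_eq_add_neg, ← norm_neg y]
  exact IsUltrametricDist.norm_add_le_max _ _

theorem norm_tsum_le_of_forall {ι : Type*} {f : ι → C} {r : ℝ} (hr : 0 ≤ r) (h : ∀ i, ‖f i‖ ≤ r) :
    ‖∑' i, f i‖ ≤ r := by
  by_cases hs : Summable f
  · have hc : IsClosed {x : C | ‖x‖ ≤ r} := isClosed_le continuous_norm continuous_const
    refine hc.mem_of_tendsto hs.hasSum (Eventually.of_forall fun s => ?_)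
    exact IsUltrametricDist.norm_sum_le_of_forall_le_of_nonneg hr fun i _ => h i
  · rw [tsum_eq_zero_of_not_summable hs, norm_zero]
    exact hr

theorem exists_rho [Finite σ] {a : σ → C} (ha : ∀ i, ‖a i‖ < 1) :
    ∃ ρ : ℝ, 0 < ρ ∧ ρ < 1 ∧ ∀ i, ‖a i‖ ≤ ρ := by
  classical
  cases nonempty_fintype σ
  rcases isEmpty_or_nonempty σ with h | h
  · exact ⟨1 / 2, by norm_num, by norm_num, fun i => h.elim i⟩
  · obtain ⟨i0, hi0⟩ := Finite.exists_max fun i => ‖a i‖
    refine ⟨max (1 / 2) ‖a i0‖, by positivity, max_lt (by norm_num) (ha _), fun i => ?_⟩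
    exact (hi0 i).trans (le_max_right _ _)

theorem norm_monomial_le {a : σ → C} {ρ : ℝ} (hρ : ∀ i, ‖a i‖ ≤ ρ) (d : σ →₀ ℕ) :
    ‖d.prod fun i e => a i ^ e‖ ≤ ρ ^ d.degree := by
  classical
  rw [Finsupp.prod, norm_prod, Finsupp.degree_apply, ← Finset.prod_pow_eq_pow_sum]
  refine Finset.prod_le_prod (fun i _ => norm_nonneg _) fun i _ => ?_
  rw [norm_pow]
  exact pow_le_pow_left₀ (norm_nonneg _) (hρ i) _

theorem tendsto_degree [Finite σ] : Tendsto (fun d : σ →₀ ℕ => d.degree) cofinite atTop := by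
  rw [tendsto_atTop]
  intro N
  rw [eventually_cofinite]
  refine (Finsupp.finite_of_degree_le (σ := σ) N).subset fun d hd => ?_
  simp only [Set.mem_ofPred_eq, not_le] at hd ⊢
  exact hd.le

theorem tendsto_pow_degree [Finite σ] {ρ : ℝ} (h0 : 0 ≤ ρ) (h1 : ρ < 1) :
    Tendsto (fun d : σ →₀ ℕ => ρ ^ d.degree) cofinite (𝓝 0) :=
  (tendsto_pow_atTop_nhds_zero_of_lt_one h0 h1).comp tendsto_degree

theorem summable_ev [Finite σ] {a : σ → C} (ha : ∀ i, ‖a i‖ < 1) {f : MvPowerSeries σ C}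
    (hf : Bdd f) : Summable fun d : σ →₀ ℕ => coeff d f * d.prod fun i e => a i ^ e := by
  obtain ⟨ρ, h0, h1, hρ⟩ := exists_rho ha
  apply NonarchimedeanAddGroup.summable_of_tendsto_cofinite_zero
  refine squeeze_zero_norm (fun d => ?_) (tendsto_pow_degree (σ := σ) h0.le h1)
  rw [norm_mul]
  calc ‖coeff d f‖ * ‖d.prod fun i e => a i ^ e‖ ≤ 1 * ρ ^ d.degree := by
        gcongr
        · exact hf d
        · exact norm_monomial_le hρ d
    _ = _ := one_mul _

instance instNonarchRing : NonarchimedeanRing C where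
  is_nonarchimedean := NonarchimedeanAddGroup.is_nonarchimedean

theorem ev_zero (a : σ → C) : ev a (0 : MvPowerSeries σ C) = 0 := by
  simp [ev]

theorem ev_coe (a : σ → C) (f : MvPolynomial σ C) :
    ev a (f : MvPowerSeries σ C) = MvPolynomial.eval a f := by
  rw [ev, tsum_eq_sum (s := f.support)]
  · rw [MvPolynomial.eval_eq]
    rfl
  · intro d hd
    rw [MvPolynomial.coeff_coe, MvPolynomial.notMem_support_iff.mp hd, zero_mul]

theorem ev_C (a : σ → C) (c : C) : ev a (MvPowerSeries.C c) = c := by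
  rw [← MvPolynomial.coe_C, ev_coe, MvPolynomial.eval_C]

theorem ev_one (a : σ → C) : ev a (1 : MvPowerSeries σ C) = 1 := by
  rw [← MvPolynomial.coe_one, ev_coe, map_one]

theorem ev_X (a : σ → C) (i : σ) : ev a (X i : MvPowerSeries σ C) = a i := by
  rw [← MvPolynomial.coe_X, ev_coe, MvPolynomial.eval_X]

theorem ev_at_zero (f : MvPowerSeries σ C) : ev (fun _ => 0) f = constantCoeff f := by
  rw [ev, tsum_eq_single 0]
  · simp
  · intro d hd
    have : (d.prod fun _ e => (0 : C) ^ e) = 0 := by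
      obtain ⟨i, hi⟩ : ∃ i, d i ≠ 0 := by
        by_contra hcon
        push Not at hcon
        exact hd (Finsupp.ext hcon)
      exact Finset.prod_eq_zero (Finsupp.mem_support_iff.mpr hi) (zero_pow hi)
    rw [this, mul_zero]

section
variable [Finite σ] {a : σ → C} (ha : ∀ i, ‖a i‖ < 1) {f g : MvPowerSeries σ C}
include ha

theorem ev_add (hf : Bdd f) (hg : Bdd g) : ev a (f + g) = ev a f + ev a g := by
  unfold ev
  rw [← (summable_ev ha hf).tsum_add (summable_ev ha hg)]
  refine tsum_congr fun d => ?_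
  rw [map_add, add_mul]

theorem ev_neg (_ : Bdd f) : ev a (-f) = -ev a f := by
  unfold ev
  rw [← tsum_neg]
  refine tsum_congr fun d => ?_
  rw [map_neg, neg_mul]

theorem ev_sub (hf : Bdd f) (hg : Bdd g) : ev a (f - g) = ev a f - ev a g := by
  rw [sub_eq_add_neg, ev_add ha hf hg.neg, ev_neg ha hg, sub_eq_add_neg]

theorem ev_smul (_ : Bdd f) (c : C) : ev a (c • f) = c * ev a f := by
  unfold ev
  rw [← tsum_mul_left]
  refine tsum_congr fun d => ?_
  rw [map_smul, smul_eq_mul, mul_assoc]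

theorem ev_mul (hf : Bdd f) (hg : Bdd g) : ev a (f * g) = ev a f * ev a g := by
  classical
  obtain ⟨F, hF⟩ : ∃ F : (σ →₀ ℕ) → C, F = fun d => coeff d f * d.prod fun i e => a i ^ e :=
    ⟨_, rfl⟩
  obtain ⟨G, hG⟩ : ∃ G : (σ →₀ ℕ) → C, G = fun d => coeff d g * d.prod fun i e => a i ^ e :=
    ⟨_, rfl⟩
  have sF : Summable F := by rw [hF]; exact summable_ev ha hf
  have sG : Summable G := by rw [hG]; exact summable_ev ha hg
  have sFG : Summable fun x : (σ →₀ ℕ) × (σ →₀ ℕ) => F x.1 * G x.2 := sF.mul_of_nonarchimedean sG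
  have h1 := sF.tsum_mul_tsum_eq_tsum_sum_antidiagonal sG sFG
  have h2 : ev a f = ∑' d, F d := by rw [hF, ev]
  have h3 : ev a g = ∑' d, G d := by rw [hG, ev]
  rw [h2, h3, h1, ev]
  refine tsum_congr fun d => ?_
  rw [coeff_mul, Finset.sum_mul]
  refine Finset.sum_congr rfl fun p hp => ?_
  rw [← Finset.HasAntidiagonal.mem_antidiagonal.mp hp,
    Finsupp.prod_add_index' (fun i => pow_zero _) (fun i m n => pow_add _ _ _), hF, hG]
  simp only
  rw [mul_mul_mul_comm]

theorem ev_pow (hf : Bdd f) (n : ℕ) : ev a (f ^ n) = ev a f ^ n := by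
  induction n with
  | zero => rw [pow_zero, pow_zero, ev_one]
  | succ n ih => rw [pow_succ, ev_mul ha (hf.pow n) hf, ih, pow_succ]

theorem ev_prod {ι : Type*} (s : Finset ι) {F : ι → MvPowerSeries σ C} (hF : ∀ i ∈ s, Bdd (F i)) :
    ev a (∏ i ∈ s, F i) = ∏ i ∈ s, ev a (F i) := by
  classical
  induction s using Finset.induction_on with
  | empty => rw [Finset.prod_empty, Finset.prod_empty, ev_one]
  | insert b s hb ih =>
    rw [Finset.prod_insert hb, Finset.prod_insert hb,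
      ev_mul ha (hF b (Finset.mem_insert_self _ _))
        (Bdd.prod s fun i hi => hF i (Finset.mem_insert_of_mem hi)),
      ih fun i hi => hF i (Finset.mem_insert_of_mem hi)]

theorem ev_sum {ι : Type*} (s : Finset ι) {F : ι → MvPowerSeries σ C} (hF : ∀ i ∈ s, Bdd (F i)) :
    ev a (∑ i ∈ s, F i) = ∑ i ∈ s, ev a (F i) := by
  classical
  induction s using Finset.induction_on with
  | empty => rw [Finset.sum_empty, Finset.sum_empty, ev_zero]
  | insert b s hb ih =>
    rw [Finset.sum_insert hb, Finset.sum_insert hb,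
      ev_add ha (hF b (Finset.mem_insert_self _ _))
        (Bdd.sum s fun i hi => hF i (Finset.mem_insert_of_mem hi)),
      ih fun i hi => hF i (Finset.mem_insert_of_mem hi)]

/-- if `f` only has terms of degree `≥ N` then `‖f(a)‖ ≤ ρ^N` -/
theorem norm_ev_le_pow (hf : Bdd f) {ρ : ℝ} (hρ : ∀ i, ‖a i‖ ≤ ρ) (hρ0 : 0 ≤ ρ) {N : ℕ}
    (hN : ∀ d, d.degree < N → coeff d f = 0) : ‖ev a f‖ ≤ ρ ^ N := by
  obtain ⟨r, hr⟩ : ∃ r, r = min ρ 1 := ⟨_, rfl⟩
  have hr0 : 0 ≤ r := by rw [hr]; exact le_min hρ0 zero_le_one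
  have hr1 : r ≤ 1 := by rw [hr]; exact min_le_right _ _
  have har : ∀ i, ‖a i‖ ≤ r := fun i => by rw [hr]; exact le_min (hρ i) (ha i).le
  refine le_trans ?_ (pow_le_pow_left₀ hr0 (hr ▸ min_le_left _ _ : r ≤ ρ) N)
  refine norm_tsum_le_of_forall (by positivity) fun d => ?_
  rcases lt_or_ge d.degree N with h | h
  · rw [hN d h, zero_mul, norm_zero]
    positivity
  · rw [norm_mul]
    calc ‖coeff d f‖ * ‖d.prod fun i e => a i ^ e‖ ≤ 1 * r ^ d.degree := by
          gcongr
          · exact hf d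
          · exact norm_monomial_le har d
      _ = r ^ d.degree := one_mul _
      _ ≤ r ^ N := pow_le_pow_of_le_one hr0 hr1 h

theorem norm_ev_le_one (hf : Bdd f) : ‖ev a f‖ ≤ 1 := by
  have := norm_ev_le_pow ha hf (ρ := 1) (fun i => (ha i).le) zero_le_one (N := 0)
    (fun d hd => absurd hd (Nat.not_lt_zero _))
  simpa using this

theorem norm_ev_lt_one (hf : Bdd f) (h0 : ‖constantCoeff f‖ < 1) : ‖ev a f‖ < 1 := by
  obtain ⟨ρ, hρ0, hρ1, hρ⟩ := exists_rho ha
  have hc : Bdd (MvPowerSeries.C (σ := σ) (constantCoeff f)) := Bdd.C_iff.mpr h0.le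
  have h1 : ‖ev a (f - MvPowerSeries.C (constantCoeff f))‖ ≤ ρ ^ 1 := by
    refine norm_ev_le_pow ha (hf.sub hc) hρ hρ0.le fun d hd => ?_
    have : d = 0 := Finsupp.degree_eq_zero_iff d |>.mp (by omega)
    rw [this, map_sub]
    simp
  rw [ev_sub ha hf hc, ev_C, pow_one] at h1
  calc ‖ev a f‖ = ‖(ev a f - constantCoeff f) + constantCoeff f‖ := by rw [sub_add_cancel]
    _ ≤ max _ _ := IsUltrametricDist.norm_add_le_max _ _
    _ < 1 := max_lt (h1.trans_lt hρ1) h0

/-- evaluation at a point of a series without constant term -/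
theorem norm_ev_le (hf : Bdd f) (h0 : constantCoeff f = 0) {ρ : ℝ} (hρ0 : 0 ≤ ρ)
    (hρ : ∀ i, ‖a i‖ ≤ ρ) : ‖ev a f‖ ≤ ρ := by
  have := norm_ev_le_pow ha hf hρ hρ0 (N := 1) (fun d hd => by
    have : d = 0 := Finsupp.degree_eq_zero_iff d |>.mp (by omega)
    rw [this]
    simpa using h0)
  simpa using this

end

theorem eq_of_norm_sub_le_pow {x y : C} {ρ : ℝ} (h0 : 0 ≤ ρ) (h1 : ρ < 1)
    (h : ∀ N : ℕ, ‖x - y‖ ≤ ρ ^ N) : x = y := by
  rw [← sub_eq_zero, ← norm_eq_zero]
  refine le_antisymm ?_ (norm_nonneg _)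
  exact ge_of_tendsto' (tendsto_pow_atTop_nhds_zero_of_lt_one h0 h1) h

/-- orders of substitutions -/
theorem coeff_prod_pow_eq_zero {b : σ → MvPowerSeries τ C} (h0 : ∀ i, constantCoeff (b i) = 0)
    (d : σ →₀ ℕ) (e : τ →₀ ℕ) (h : e.degree < d.degree) :
    coeff e (d.prod fun i n => b i ^ n) = 0 := by
  refine coeff_of_lt_order (lt_of_lt_of_le (Nat.cast_lt.mpr h) ?_)
  rw [Finsupp.degree_apply, Finsupp.prod]
  push_cast
  refine le_trans (Finset.sum_le_sum fun i _ => ?_) (le_order_prod _ _)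
  refine le_trans ?_ (le_order_pow _)
  have h1 : (1 : ℕ∞) ≤ (b i).order := by
    exact one_le_order_iff_constCoeff_eq_zero.mpr (h0 i)
  calc ((d i : ℕ) : ℕ∞) = d i • (1 : ℕ∞) := by simp
    _ ≤ _ := nsmul_le_nsmul_right h1 _

theorem coeff_subst_eq_zero [Finite σ] {b : σ → MvPowerSeries τ C}
    (h0 : ∀ i, constantCoeff (b i) = 0) {G : MvPowerSeries σ C} {N : ℕ}
    (hG : ∀ d, d.degree < N → coeff d G = 0) (e : τ →₀ ℕ) (he : e.degree < N) :
    coeff e (G.subst b) = 0 := by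
  rw [coeff_subst (hasSubst_zero h0), finsum_eq_zero_of_forall_eq_zero]
  intro d
  rcases lt_or_ge d.degree N with h | h
  · rw [hG d h, zero_smul]
  · rw [coeff_prod_pow_eq_zero h0 d e (by omega), smul_zero]

theorem coeff_sub_truncTotal [Finite σ] (F : MvPowerSeries σ C) (N : ℕ) (d : σ →₀ ℕ)
    (hd : d.degree < N) : coeff d (F - (F.truncTotal N : MvPowerSeries σ C)) = 0 := by
  rw [map_sub, MvPolynomial.coeff_coe, coeff_truncTotal _ hd, sub_self]

theorem ev_aeval [Finite σ] {a : σ → C} (ha : ∀ i, ‖a i‖ < 1) {b : τ → MvPowerSeries σ C}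
    (hb : ∀ i, Bdd (b i)) (P : MvPolynomial τ C) :
    ev a (MvPolynomial.aeval b P) = MvPolynomial.eval (fun i => ev a (b i)) P := by
  rw [MvPolynomial.aeval_def, MvPolynomial.eval₂_eq, MvPolynomial.eval_eq]
  have h1 : ∀ d : τ →₀ ℕ, algebraMap C (MvPowerSeries σ C) (P.coeff d) * ∏ i ∈ d.support, b i ^ d i =
      (P.coeff d) • ∏ i ∈ d.support, b i ^ d i := fun d => by rw [Algebra.smul_def]
  simp only [h1]
  -- a common bound on the coefficients
  obtain ⟨c, hc0, hc⟩ : ∃ c : C, c ≠ 0 ∧ ∀ d ∈ P.support, ‖c * P.coeff d‖ ≤ 1 := by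
    classical
    obtain ⟨M, hM0, hM⟩ : ∃ M : ℝ, 0 < M ∧ ∀ d ∈ P.support, ‖P.coeff d‖ ≤ M := by
      refine ⟨∑ d ∈ P.support, ‖P.coeff d‖ + 1, by positivity, fun d hd => ?_⟩
      have := Finset.single_le_sum (f := fun d => ‖P.coeff d‖) (fun _ _ => norm_nonneg _) hd
      linarith
    obtain ⟨c, hc0, hc⟩ := NormedField.exists_norm_lt C (inv_pos.mpr hM0)
    refine ⟨c, norm_pos_iff.mp hc0, fun d hd => ?_⟩
    rw [norm_mul]
    calc ‖c‖ * ‖P.coeff d‖ ≤ M⁻¹ * M := by
          gcongr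
          exact hM d hd
      _ = 1 := inv_mul_cancel₀ hM0.ne'
  have hprod : ∀ d : τ →₀ ℕ, Bdd (∏ i ∈ d.support, b i ^ d i) := fun d =>
    Bdd.prod _ fun i _ => (hb i).pow _
  have h2 : c • ∑ d ∈ P.support, P.coeff d • ∏ i ∈ d.support, b i ^ d i =
      ∑ d ∈ P.support, (c * P.coeff d) • ∏ i ∈ d.support, b i ^ d i := by
    rw [Finset.smul_sum]
    exact Finset.sum_congr rfl fun d _ => smul_smul _ _ _
  have h3 : ev a (c • ∑ d ∈ P.support, P.coeff d • ∏ i ∈ d.support, b i ^ d i) =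
      c * ev a (∑ d ∈ P.support, P.coeff d • ∏ i ∈ d.support, b i ^ d i) := by
    unfold ev
    rw [← tsum_mul_left]
    refine tsum_congr fun d => ?_
    rw [map_smul, smul_eq_mul, mul_assoc]
  apply mul_left_cancel₀ hc0
  rw [← h3, h2, ev_sum ha _ fun d hd => (hprod d).smul (hc d hd), Finset.mul_sum]
  refine Finset.sum_congr rfl fun d _ => ?_
  rw [ev_smul ha (hprod d), ev_prod ha _ fun i _ => (hb i).pow _, mul_assoc]
  congr 2
  exact Finset.prod_congr rfl fun i _ => ev_pow ha (hb i) _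

/-- composition -/
theorem ev_subst [Finite σ] {a : σ → C} (ha : ∀ i, ‖a i‖ < 1) {τ : Type*} [Finite τ]
    {b : τ → MvPowerSeries σ C} {F : MvPowerSeries τ C}
    (hF : Bdd F) (hb : ∀ i, Bdd (b i)) (h0 : ∀ i, constantCoeff (b i) = 0) :
    ev a (F.subst b) = ev (fun i => ev a (b i)) F := by
  obtain ⟨ρ, hρ0, hρ1, hρ⟩ := exists_rho ha
  have hc : ∀ i, ‖ev a (b i)‖ ≤ ρ := fun i => norm_ev_le ha (hb i) (h0 i) hρ0.le hρ
  have hc' : ∀ i, ‖ev a (b i)‖ < 1 := fun i => (hc i).trans_lt hρ1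
  refine eq_of_norm_sub_le_pow hρ0.le hρ1 fun N => ?_
  obtain ⟨P, hP⟩ : ∃ P, P = F.truncTotal N := ⟨_, rfl⟩
  obtain ⟨G, hG⟩ : ∃ G, G = F - (P : MvPowerSeries τ C) := ⟨_, rfl⟩
  have bP : Bdd (P : MvPowerSeries τ C) := by rw [hP]; exact hF.truncTotal N
  have bG : Bdd G := by rw [hG]; exact hF.sub bP
  have hF2 : F = P + G := by rw [hG]; abel
  have hG0 : ∀ d, d.degree < N → coeff d G = 0 := by
    intro d hd
    rw [hG, hP]
    exact coeff_sub_truncTotal F N d hd
  have e1 : ev a (F.subst b) = MvPolynomial.eval (fun i => ev a (b i)) P + ev a (G.subst b) := by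
    rw [hF2, subst_add (hasSubst_zero h0), ev_add ha (bP.subst hb h0) (bG.subst hb h0), subst_coe,
      ev_aeval ha hb]
  have e2 : ev (fun i => ev a (b i)) F = MvPolynomial.eval (fun i => ev a (b i)) P +
      ev (fun i => ev a (b i)) G := by
    rw [hF2, ev_add hc' bP bG, ev_coe]
  rw [e1, e2, add_sub_add_left_eq_sub]
  refine (norm_sub_le_max' _ _).trans (max_le ?_ ?_)
  · exact norm_ev_le_pow ha (bG.subst hb h0) hρ hρ0.le (coeff_subst_eq_zero h0 hG0)
  · exact norm_ev_le_pow hc' bG hc hρ0.le hG0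

theorem norm_pow_sub_pow_le {x y : C} {ρ : ℝ} (hx : ‖x‖ ≤ 1) (hy : ‖y‖ ≤ 1) (hρ0 : 0 ≤ ρ)
    (h : ‖x - y‖ ≤ ρ) (n : ℕ) : ‖x ^ n - y ^ n‖ ≤ ρ := by
  induction n with
  | zero => simpa using hρ0
  | succ n ih =>
    have : x ^ (n + 1) - y ^ (n + 1) = x ^ n * (x - y) + (x ^ n - y ^ n) * y := by ring
    rw [this]
    refine (IsUltrametricDist.norm_add_le_max _ _).trans (max_le ?_ ?_)
    · rw [norm_mul, norm_pow]
      calc ‖x‖ ^ n * ‖x - y‖ ≤ 1 * ρ := by
            gcongr
            exact pow_le_one₀ (norm_nonneg _) hx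
        _ = ρ := one_mul _
    · rw [norm_mul]
      calc ‖x ^ n - y ^ n‖ * ‖y‖ ≤ ρ * 1 := by gcongr
        _ = ρ := mul_one _

theorem norm_prod_sub_prod_le {ι : Type*} (s : Finset ι) {x y : ι → C} {ρ : ℝ}
    (hx : ∀ i, ‖x i‖ ≤ 1) (hy : ∀ i, ‖y i‖ ≤ 1) (hρ0 : 0 ≤ ρ) (h : ∀ i, ‖x i - y i‖ ≤ ρ) :
    ‖∏ i ∈ s, x i - ∏ i ∈ s, y i‖ ≤ ρ := by
  classical
  induction s using Finset.induction_on with
  | empty => simpa using hρ0
  | insert b s hb ih =>
    rw [Finset.prod_insert hb, Finset.prod_insert hb]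
    have : x b * ∏ i ∈ s, x i - y b * ∏ i ∈ s, y i =
      x b * (∏ i ∈ s, x i - ∏ i ∈ s, y i) + (x b - y b) * ∏ i ∈ s, y i := by ring
    rw [this]
    refine (IsUltrametricDist.norm_add_le_max _ _).trans (max_le ?_ ?_)
    · rw [norm_mul]
      calc ‖x b‖ * _ ≤ 1 * ρ := by
            gcongr
            exact hx b
        _ = ρ := one_mul _
    · rw [norm_mul, norm_prod]
      calc ‖x b - y b‖ * ∏ i ∈ s, ‖y i‖ ≤ ρ * 1 := by
            gcongr
            · exact h b
            · exact Finset.prod_le_one (fun i _ => norm_nonneg _) fun i _ => hy i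
        _ = ρ := mul_one _

section
variable [Finite σ] {a : σ → C} (ha : ∀ i, ‖a i‖ < 1) {f g : MvPowerSeries σ C}
include ha

/-- Lipschitz in the point -/
theorem norm_ev_sub_le (hf : Bdd f) {b : σ → C} (hb : ∀ i, ‖b i‖ < 1) {ρ : ℝ} (hρ0 : 0 ≤ ρ)
    (hρ : ∀ i, ‖a i - b i‖ ≤ ρ) : ‖ev a f - ev b f‖ ≤ ρ := by
  unfold ev
  rw [← (summable_ev ha hf).tsum_sub (summable_ev hb hf)]
  refine norm_tsum_le_of_forall hρ0 fun d => ?_
  rw [← mul_sub, norm_mul]
  calc ‖coeff d f‖ * _ ≤ 1 * ρ := by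
        gcongr
        · exact hf d
        · exact norm_prod_sub_prod_le d.support
            (fun i => by rw [norm_pow]; exact pow_le_one₀ (norm_nonneg _) (ha i).le)
            (fun i => by rw [norm_pow]; exact pow_le_one₀ (norm_nonneg _) (hb i).le) hρ0
            (fun i => norm_pow_sub_pow_le (ha i).le (hb i).le hρ0 (hρ i) _)
    _ = ρ := one_mul _

/-- Lipschitz in the coefficients -/
theorem norm_ev_sub_le' (hf : Bdd f) (hg : Bdd g) {ρ : ℝ} (hρ0 : 0 ≤ ρ)
    (hρ : ∀ d, ‖coeff d f - coeff d g‖ ≤ ρ) : ‖ev a f - ev a g‖ ≤ ρ := by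
  unfold ev
  rw [← (summable_ev ha hf).tsum_sub (summable_ev ha hg)]
  refine norm_tsum_le_of_forall hρ0 fun d => ?_
  rw [← sub_mul, norm_mul]
  calc ‖coeff d f - coeff d g‖ * ‖d.prod fun i e => a i ^ e‖ ≤ ρ * 1 := by
        gcongr
        · exact hρ d
        · refine (norm_monomial_le (fun i => (ha i).le) d).trans ?_
          simp
    _ = ρ := mul_one _

end

/-- Frobenius: `f(a)^{p^m} = f^{(p^m)}(a^{p^m})` -/
theorem ev_frob [Finite σ] (p : ℕ) [Fact p.Prime] [CharP C p] (m : ℕ) {a : σ → C}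
    (ha : ∀ i, ‖a i‖ < 1) {f : MvPowerSeries σ C} (hf : Bdd f) :
    (ev a f) ^ p ^ m = ev (fun i => a i ^ p ^ m) (f.map (iterateFrobenius C p m)) := by
  have hc : Continuous (iterateFrobenius C p m) := by
    have : (iterateFrobenius C p m : C → C) = fun x => x ^ p ^ m := by
      ext x
      exact iterateFrobenius_def p m x
    rw [this]
    exact continuous_pow _
  have h1 := (summable_ev ha hf).map_tsum (iterateFrobenius C p m) hc
  rw [iterateFrobenius_def] at h1
  unfold ev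
  rw [h1]
  refine tsum_congr fun d => ?_
  rw [map_mul, coeff_map]
  congr 1
  rw [Finsupp.prod, map_prod, Finsupp.prod]
  refine Finset.prod_congr rfl fun i _ => ?_
  rw [map_pow, iterateFrobenius_def]

/-! ### Taylor shift -/

/-- multi-index binomial coefficient `∏ choose (d i + e i) (e i)` -/
def mbin [Fintype σ] (d e : σ →₀ ℕ) : ℕ := ∏ i, (d i + e i).choose (e i)

theorem mbin_zero [Fintype σ] (d : σ →₀ ℕ) : mbin d 0 = 1 := by
  unfold mbin
  simp

theorem mbin_single [Fintype σ] [DecidableEq σ] (d : σ →₀ ℕ) (i : σ) :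
    mbin d (Finsupp.single i 1) = d i + 1 := by
  unfold mbin
  rw [Finset.prod_eq_single i]
  · simp
  · intro j _ hj
    rw [Finsupp.single_eq_of_ne hj]
    simp
  · intro h
    exact absurd (Finset.mem_univ i) h

theorem multi_binomial [Fintype σ] [DecidableEq σ] (m : σ →₀ ℕ) (c z : σ → C) :
    (m.prod fun i e => (c i + z i) ^ e) =
      ∑ p ∈ Finset.HasAntidiagonal.antidiagonal m, (mbin p.2 p.1 : C) *
        (p.2.prod fun i e => c i ^ e) * (p.1.prod fun i e => z i ^ e) := by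
  classical
  rw [Finsupp.prod_fintype _ _ (fun i => pow_zero _)]
  have h1 : ∀ i, (c i + z i) ^ m i = ∑ q ∈ Finset.HasAntidiagonal.antidiagonal (m i),
      ((q.2 + q.1).choose q.1 : C) * c i ^ q.2 * z i ^ q.1 := by
    intro i
    rw [add_comm, (Commute.all (z i) (c i)).add_pow']
    refine Finset.sum_congr rfl fun q hq => ?_
    rw [← Finset.HasAntidiagonal.mem_antidiagonal.mp hq, nsmul_eq_mul, add_comm q.2]
    ring
  simp only [h1]
  rw [Finset.prod_univ_sum]
  refine Finset.sum_bij' (fun p _ => (Finsupp.equivFunOnFinite.symm fun i => (p i).1,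
      Finsupp.equivFunOnFinite.symm fun i => (p i).2)) (fun q _ => fun i => (q.1 i, q.2 i))
      ?_ ?_ ?_ ?_ ?_
  · intro p hp
    rw [Finset.HasAntidiagonal.mem_antidiagonal]
    ext i
    have := Finset.HasAntidiagonal.mem_antidiagonal.mp (Fintype.mem_piFinset.mp hp i)
    simpa using this
  · intro q hq
    rw [Fintype.mem_piFinset]
    intro i
    rw [Finset.HasAntidiagonal.mem_antidiagonal]
    have := Finset.HasAntidiagonal.mem_antidiagonal.mp hq
    rw [← this]
    simp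
  · intro p hp
    rfl
  · intro q hq
    ext i <;> rfl
  · intro p hp
    rw [Finset.prod_mul_distrib, Finset.prod_mul_distrib,
      Finsupp.prod_fintype _ _ (fun i => pow_zero _),
      Finsupp.prod_fintype _ _ (fun i => pow_zero _), mbin]
    push_cast
    rfl

theorem tendsto_degree_prod [Finite σ] [Finite τ] :
    Tendsto (fun p : (σ →₀ ℕ) × (τ →₀ ℕ) => p.1.degree + p.2.degree) cofinite atTop := by
  rw [tendsto_atTop]
  intro N
  rw [eventually_cofinite]
  refine ((Finsupp.finite_of_degree_le (σ := σ) N).prod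
    (Finsupp.finite_of_degree_le (σ := τ) N)).subset fun p hp => ?_
  simp only [Set.mem_ofPred_eq, not_le, Set.mem_prod] at hp ⊢
  omega

theorem summable_prod_of_le [Finite σ] [Finite τ] {F : (σ →₀ ℕ) × (τ →₀ ℕ) → C} {ρ : ℝ}
    (h0 : 0 ≤ ρ) (h1 : ρ < 1) (hF : ∀ p, ‖F p‖ ≤ ρ ^ (p.1.degree + p.2.degree)) : Summable F := by
  apply NonarchimedeanAddGroup.summable_of_tendsto_cofinite_zero
  exact squeeze_zero_norm hF ((tendsto_pow_atTop_nhds_zero_of_lt_one h0 h1).comp
    tendsto_degree_prod)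

theorem tsum_prod_antidiagonal [DecidableEq σ] {F : (σ →₀ ℕ) × (σ →₀ ℕ) → C} (hF : Summable F) :
    ∑' e, ∑' d, F (e, d) = ∑' m, ∑ p ∈ Finset.HasAntidiagonal.antidiagonal m, F p := by
  rw [← hF.tsum_prod]
  rw [← Finset.HasAntidiagonal.sigmaAntidiagonalEquivProd.tsum_eq]
  have h1 : Summable fun s : (Σ n : σ →₀ ℕ, Finset.HasAntidiagonal.antidiagonal n) =>
      F (Finset.HasAntidiagonal.sigmaAntidiagonalEquivProd s) :=
    (Finset.HasAntidiagonal.sigmaAntidiagonalEquivProd.summable_iff).mpr hF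
  rw [h1.tsum_sigma]
  refine tsum_congr fun m => ?_
  rw [tsum_fintype]
  exact Finset.sum_finset_coe _ _

/-- Taylor shift: `f(c + z)` as a power series in `z`; the coefficients of degree `0` and `1` are
`f(c)` and `(∂_i f)(c)`. -/
theorem exists_shift [Fintype σ] [DecidableEq σ] {f : MvPowerSeries σ C} (hf : Bdd f) {c : σ → C}
    (hc : ∀ i, ‖c i‖ < 1) :
    ∃ g : MvPowerSeries σ C, Bdd g ∧
      (∀ z : σ → C, (∀ i, ‖z i‖ < 1) → ev (fun i => c i + z i) f = ev z g) ∧
      constantCoeff g = ev c f ∧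
      (∀ i, coeff (Finsupp.single i 1) g =
        ∑' d : σ →₀ ℕ, coeff (d + Finsupp.single i 1) f * ((d i + 1 : ℕ) : C) *
          d.prod fun i e => c i ^ e) := by
  obtain ⟨g, hg⟩ : ∃ g : MvPowerSeries σ C, g = fun e => ∑' d : σ →₀ ℕ,
      coeff (d + e) f * (mbin d e : C) * d.prod fun i e => c i ^ e := ⟨_, rfl⟩
  have hgc : ∀ e, coeff e g = ∑' d : σ →₀ ℕ,
      coeff (d + e) f * (mbin d e : C) * d.prod fun i e => c i ^ e := fun e => by
    rw [hg]; rfl
  have hterm : ∀ (d e : σ →₀ ℕ), ‖coeff (d + e) f * (mbin d e : C)‖ ≤ 1 := fun d e => by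
    rw [norm_mul]
    exact mul_le_one₀ (hf _) (norm_nonneg _) (IsUltrametricDist.norm_natCast_le_one C _)
  refine ⟨g, ?_, ?_, ?_, ?_⟩
  · intro e
    rw [hgc]
    refine norm_tsum_le_of_forall zero_le_one fun d => ?_
    rw [norm_mul]
    refine mul_le_one₀ (hterm d e) (norm_nonneg _) ?_
    refine (norm_monomial_le (fun i => (hc i).le) d).trans ?_
    simp
  · intro z hz
    obtain ⟨ρ1, hρ10, hρ11, hρ1⟩ := exists_rho hc
    obtain ⟨ρ2, hρ20, hρ21, hρ2⟩ := exists_rho hz
    obtain ⟨ρ, hρ⟩ : ∃ ρ, ρ = max ρ1 ρ2 := ⟨_, rfl⟩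
    have hρ0 : 0 ≤ ρ := by rw [hρ]; exact hρ10.le.trans (le_max_left _ _)
    have hρlt : ρ < 1 := by rw [hρ]; exact max_lt hρ11 hρ21
    have hcρ : ∀ i, ‖c i‖ ≤ ρ := fun i => (hρ1 i).trans (by rw [hρ]; exact le_max_left _ _)
    have hzρ : ∀ i, ‖z i‖ ≤ ρ := fun i => (hρ2 i).trans (by rw [hρ]; exact le_max_right _ _)
    obtain ⟨F, hF⟩ : ∃ F : (σ →₀ ℕ) × (σ →₀ ℕ) → C, F = fun p =>
      coeff (p.2 + p.1) f * (mbin p.2 p.1 : C) * (p.2.prod fun i e => c i ^ e) *
        (p.1.prod fun i e => z i ^ e) := ⟨_, rfl⟩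
    have hFs : Summable F := by
      refine summable_prod_of_le hρ0 hρlt fun p => ?_
      rw [hF]
      simp only
      rw [norm_mul, norm_mul]
      calc ‖coeff (p.2 + p.1) f * (mbin p.2 p.1 : C)‖ * ‖p.2.prod fun i e => c i ^ e‖ *
            ‖p.1.prod fun i e => z i ^ e‖ ≤ 1 * ρ ^ p.2.degree * ρ ^ p.1.degree := by
            gcongr
            · exact hterm _ _
            · exact norm_monomial_le hcρ _
            · exact norm_monomial_le hzρ _
        _ = ρ ^ (p.1.degree + p.2.degree) := by rw [one_mul, pow_add, mul_comm]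
    have h1 : ev z g = ∑' e, ∑' d, F (e, d) := by
      unfold ev
      refine tsum_congr fun e => ?_
      rw [hgc, ← tsum_mul_right, hF]
    rw [h1, tsum_prod_antidiagonal hFs, ev]
    refine tsum_congr fun m => ?_
    rw [multi_binomial, Finset.mul_sum]
    refine Finset.sum_congr rfl fun p hp => ?_
    rw [hF]
    simp only
    rw [add_comm p.2, Finset.HasAntidiagonal.mem_antidiagonal.mp hp]
    ring
  · rw [← coeff_zero_eq_constantCoeff_apply, hgc, ev]
    refine tsum_congr fun d => ?_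
    rw [add_zero, mbin_zero, Nat.cast_one, mul_one]
  · intro i
    rw [hgc]
    refine tsum_congr fun d => ?_
    rw [mbin_single]

/-- partial shift: shift by `c` in the variables `σ`, keep the variables `τ` formal:
`f(c + z, w) = g(z, w)` for `f` in the variables `σ ⊕ τ`. -/
theorem exists_shift_left [Fintype σ] [Fintype τ] {f : MvPowerSeries (σ ⊕ τ) C} (hf : Bdd f)
    {c : σ → C} (hc : ∀ i, ‖c i‖ < 1) :
    ∃ g : MvPowerSeries (σ ⊕ τ) C, Bdd g ∧
      (∀ (z : σ → C) (w : τ → C), (∀ i, ‖z i‖ < 1) → (∀ i, ‖w i‖ < 1) →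
        ev (Sum.elim (fun i => c i + z i) w) f = ev (Sum.elim z w) g) := by
  classical
  obtain ⟨g, hg, h1, -, -⟩ := exists_shift hf (c := Sum.elim c (fun _ => 0)) (by
    rintro (i | i)
    · exact hc i
    · simp)
  refine ⟨g, hg, fun z w hz hw => ?_⟩
  rw [← h1 (Sum.elim z w) (by rintro (i | i); exacts [hz i, hw i])]
  congr 1
  ext (i | i) <;> simp

/-- identity theorem: a bounded series which is `O(‖z‖^N)` near `0` has no terms of degree `< N` -/
theorem coeff_eq_zero_of_norm_ev_le [Fintype σ] {f : MvPowerSeries σ C} (hf : Bdd f) {N : ℕ} {K r : ℝ}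
    (hr : 0 < r) (h : ∀ z : σ → C, ‖z‖ < r → (∀ i, ‖z i‖ < 1) → ‖ev z f‖ ≤ K * ‖z‖ ^ N)
    (d : σ →₀ ℕ) (hd : d.degree < N) : coeff d f = 0 := by
  obtain ⟨k, hk⟩ : ∃ k, k = d.degree := ⟨_, rfl⟩
  induction k using Nat.strong_induction_on generalizing d with
  | _ k ih =>
    obtain ⟨Q, hQ⟩ : ∃ Q, Q = f.truncTotal (k + 1) := ⟨_, rfl⟩
    have hQc : ∀ e : σ →₀ ℕ, e.degree ≠ k → Q.coeff e = 0 := by
      intro e he
      rw [hQ, coeff_truncTotal_eq_ite]
      split_ifs with h1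
      · exact ih e.degree (by omega) e (by omega) rfl
      · rfl
    have bQ : Bdd (Q : MvPowerSeries σ C) := by rw [hQ]; exact hf.truncTotal _
    have hR : ∀ e, e.degree < k + 1 → coeff e (f - (Q : MvPowerSeries σ C)) = 0 := by
      intro e he
      rw [hQ]
      exact coeff_sub_truncTotal f _ e he
    have hhom : ∀ (t : C) (u : σ → C), MvPolynomial.eval (t • u) Q = t ^ k * MvPolynomial.eval u Q := by
      intro t u
      rw [MvPolynomial.eval_eq, MvPolynomial.eval_eq, Finset.mul_sum]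
      refine Finset.sum_congr rfl fun e he => ?_
      have hek : e.degree = k := by
        by_contra hcon
        exact MvPolynomial.mem_support_iff.mp he (hQc e hcon)
      have : ∏ i ∈ e.support, (t • u) i ^ e i = t ^ k * ∏ i ∈ e.support, u i ^ e i := by
        simp only [Pi.smul_apply, smul_eq_mul, mul_pow]
        rw [Finset.prod_mul_distrib, Finset.prod_pow_eq_pow_sum, ← Finsupp.degree_apply, hek]
      rw [this]
      ring
    have hev : ∀ u : σ → C, MvPolynomial.eval u Q = 0 := by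
      intro u
      by_contra hne
      have hpos : 0 < ‖MvPolynomial.eval u Q‖ := norm_pos_iff.mpr hne
      obtain ⟨M, hM⟩ : ∃ M, M = ‖u‖ + 1 := ⟨_, rfl⟩
      have hM1 : 1 ≤ M := by rw [hM]; linarith [norm_nonneg u]
      obtain ⟨A, hA⟩ : ∃ A, A = (|K| + 1) * M ^ (k + 1) := ⟨_, rfl⟩
      have hA0 : 0 < A := by rw [hA]; positivity
      obtain ⟨t, ht0, ht⟩ := NormedField.exists_norm_lt C
        (show 0 < min (min r 1 / M) (‖MvPolynomial.eval u Q‖ / A) by positivity)
      have ht1 : ‖t‖ * M < min r 1 := by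
        have := ht.trans_le (min_le_left _ _)
        rwa [lt_div_iff₀ (by positivity)] at this
      have ht2 : ‖t‖ * A < ‖MvPolynomial.eval u Q‖ := by
        have := ht.trans_le (min_le_right _ _)
        rwa [lt_div_iff₀ hA0] at this
      have hz : ‖t • u‖ ≤ ‖t‖ * M := by
        rw [norm_smul]
        gcongr
        rw [hM]
        linarith
      have hz1 : ∀ i, ‖(t • u) i‖ < 1 := fun i =>
        (norm_le_pi_norm (t • u) i).trans_lt (hz.trans_lt (ht1.trans_le (min_le_right _ _)))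
      have e1 := h (t • u) (hz.trans_lt (ht1.trans_le (min_le_left _ _))) hz1
      have e2 := norm_ev_le_pow hz1 (hf.sub bQ) (norm_le_pi_norm (t • u)) (norm_nonneg _) hR
      rw [ev_sub hz1 hf bQ, ev_coe, hhom] at e2
      have hzle : ‖t • u‖ ≤ 1 := hz.trans (ht1.le.trans (min_le_right _ _))
      have e3 : ‖t ^ k * MvPolynomial.eval u Q‖ ≤ (|K| + 1) * ‖t • u‖ ^ (k + 1) := by
        calc ‖t ^ k * MvPolynomial.eval u Q‖ =
              ‖ev (t • u) f - (ev (t • u) f - t ^ k * MvPolynomial.eval u Q)‖ := by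
              rw [sub_sub_cancel]
          _ ≤ max _ _ := norm_sub_le_max' _ _
          _ ≤ (|K| + 1) * ‖t • u‖ ^ (k + 1) := by
              refine max_le (e1.trans ?_) (e2.trans ?_)
              · exact mul_le_mul (by linarith [le_abs_self K])
                  (pow_le_pow_of_le_one (norm_nonneg _) hzle (by omega)) (by positivity)
                  (by positivity)
              · exact le_mul_of_one_le_left (by positivity) (by linarith [abs_nonneg K])
      have e4 : ‖t‖ ^ k * ‖MvPolynomial.eval u Q‖ ≤ ‖t‖ ^ k * (‖t‖ * A) := by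
        rw [← norm_pow, ← norm_mul]
        refine e3.trans ?_
        calc (|K| + 1) * ‖t • u‖ ^ (k + 1) ≤ (|K| + 1) * (‖t‖ * M) ^ (k + 1) := by gcongr
          _ = ‖t ^ k‖ * (‖t‖ * A) := by rw [hA, norm_pow]; ring
      have e5 := le_of_mul_le_mul_left e4 (by positivity)
      linarith
    have hQ0 : Q = 0 := by
      have : Infinite C := NontriviallyNormedField.infinite C
      exact MvPolynomial.funext fun u => by rw [hev u, map_zero]
    have := coeff_truncTotal f (n := k + 1) (x := d) (by omega)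
    rw [← this, ← hQ, hQ0, MvPolynomial.coeff_zero]

/-! ### one variable -/

theorem ev1_eq_tsum (a : C) (f : PowerSeries C) : ev1 a f = ∑' n, PowerSeries.coeff n f * a ^ n := by
  unfold ev1 ev
  let E : ℕ ≃ (Unit →₀ ℕ) :=
    { toFun := fun n => Finsupp.single () n
      invFun := fun d => d ()
      left_inv := fun n => by simp
      right_inv := fun d => by ext; simp }
  rw [← E.tsum_eq]
  refine tsum_congr fun n => ?_
  change coeff (Finsupp.single () n) f * (Finsupp.single () n).prod (fun _ e => a ^ e) = _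
  rw [Finsupp.prod_single_index (h := fun _ e => a ^ e) (pow_zero a)]
  rfl

theorem ev1_subst {a : C} (ha : ‖a‖ < 1) {f g : PowerSeries C} (hf : Bdd f) (hg : Bdd g)
    (h0 : PowerSeries.constantCoeff g = 0) : ev1 a (f.subst g) = ev1 (ev1 a g) f :=
  ev_subst (fun _ => ha) hf (fun _ => hg) (fun _ => h0)

end Ev

end Chai
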