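import Vale.Agent.Chai.Defs

/-!
# P217 / Fel: Hazewinkel's functional equation lemma (abstract form)

OWNER: helper2

`B →+* K` injective, `p` invertible in `K`, `σ` an endomorphism of `B` (and `K`) lifting
Frobenius mod `p`, `m : ℕ → K` with `m 0 = 1`, `p m_{k+1} = ∑_{j ≤ k} v_{j+1} σ^{j+1}(m_{k-j})`,
`f = ∑ m_k X^{p^k}`.  A series `β` over `K` without constant term comes from `B` iff
`p f(β) - ∑_{j ≥ 1} v_j E^j (f (β))` is divisible by `p` over `B`, `E g = (σ g)(X^p)`.
-/

namespace Chai

namespace Fel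

open MvPowerSeries Finset

/-! ### `p`-typical series -/

/-- the `p`-typical series `∑ m_k X^{p^k}` -/
noncomputable def Lp (p : ℕ) {K : Type*} [Semiring K] (m : ℕ → K) : PowerSeries K :=
  PowerSeries.mk fun i => if i = p ^ Nat.log p i then m (Nat.log p i) else 0

section Lp

variable {p : ℕ} [hp : Fact p.Prime] {K : Type*} [CommRing K]

theorem coeff_Lp_pow (m : ℕ → K) (k : ℕ) : PowerSeries.coeff (p ^ k) (Lp p m) = m k := by
  unfold Lp
  rw [PowerSeries.coeff_mk, Nat.log_pow hp.out.one_lt, if_pos rfl]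

omit hp in
theorem coeff_Lp_of_ne (m : ℕ → K) {i : ℕ} (h : ∀ k, i ≠ p ^ k) :
    PowerSeries.coeff i (Lp p m) = 0 := by
  unfold Lp
  rw [PowerSeries.coeff_mk, if_neg (h _)]

theorem constantCoeff_Lp (m : ℕ → K) : PowerSeries.constantCoeff (Lp p m) = 0 := by
  rw [← PowerSeries.coeff_zero_eq_constantCoeff_apply]
  exact coeff_Lp_of_ne m fun k => (pow_ne_zero k hp.out.ne_zero).symm

theorem coeff_one_Lp (m : ℕ → K) : PowerSeries.coeff 1 (Lp p m) = m 0 := by
  have := coeff_Lp_pow (p := p) m 0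
  rwa [pow_zero] at this

omit hp in
theorem map_Lp {K' : Type*} [CommRing K'] (φ : K →+* K') (m : ℕ → K) :
    (Lp p m).map φ = Lp p (fun k => φ (m k)) := by
  ext i
  unfold Lp
  rw [PowerSeries.coeff_map, PowerSeries.coeff_mk, PowerSeries.coeff_mk, apply_ite φ, map_zero]

variable {τ : Type*}

theorem hasSubst0 {a : MvPowerSeries τ K} (ha : constantCoeff a = 0) : PowerSeries.HasSubst a :=
  PowerSeries.HasSubst.of_constantCoeff_zero ha

theorem coeff_pow_eq_zero {a : MvPowerSeries τ K} (ha : constantCoeff a = 0) {e : τ →₀ ℕ} {n : ℕ}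
    (h : e.degree < n) : coeff e (a ^ n) = 0 :=
  coeff_eq_zero_of_constantCoeff_nilpotent (m := 1) (by rw [ha, pow_one]) (by omega)

theorem coeff_Lp_subst (m : ℕ → K) {a : MvPowerSeries τ K} (ha : constantCoeff a = 0)
    (e : τ →₀ ℕ) (N : ℕ) (hN : e.degree ≤ N) :
    coeff e ((Lp p m).subst a) = ∑ k ∈ range (N + 1), m k * coeff e (a ^ p ^ k) := by
  classical
  rw [PowerSeries.coeff_subst (hasSubst0 ha)]
  have hinj : Function.Injective (fun k : ℕ => p ^ k) := Nat.pow_right_injective hp.out.two_le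
  rw [finsum_eq_sum_of_support_subset (s := (range (N + 1)).image (fun k => p ^ k))]
  · rw [Finset.sum_image fun x _ y _ h => hinj h]
    refine Finset.sum_congr rfl fun k _ => ?_
    rw [coeff_Lp_pow, smul_eq_mul]
  · intro i hi
    rw [Function.mem_support] at hi
    by_cases h : ∃ k, i = p ^ k
    · obtain ⟨k, rfl⟩ := h
      rw [Finset.coe_image]
      refine ⟨k, ?_, rfl⟩
      rw [Finset.mem_coe, Finset.mem_range]
      by_contra hk
      apply hi
      rw [coeff_pow_eq_zero ha, smul_zero]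
      have : k < p ^ k := Nat.lt_pow_self hp.out.one_lt
      omega
    · push Not at h
      exact absurd (by rw [coeff_Lp_of_ne m h, zero_smul]) hi

theorem constantCoeff_Lp_subst (m : ℕ → K) {a : MvPowerSeries τ K} (ha : constantCoeff a = 0) :
    constantCoeff ((Lp p m).subst a) = 0 :=
  PowerSeries.constantCoeff_subst_eq_zero ha _ (constantCoeff_Lp m)

end Lp

/-! ### agreement in low degree -/

section Agree

variable {K : Type*} [CommRing K] {τ : Type*}

/-- `a` and `b` agree in degree `< d` -/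
def Agree (d : ℕ) (a b : MvPowerSeries τ K) : Prop := ∀ e : τ →₀ ℕ, e.degree < d →
  coeff e a = coeff e b

theorem Agree.mono {d d' : ℕ} {a b : MvPowerSeries τ K} (h : Agree d a b) (hd : d' ≤ d) :
    Agree d' a b := fun e he => h e (he.trans_le hd)

theorem Agree.refl (d : ℕ) (a : MvPowerSeries τ K) : Agree d a a := fun _ _ => rfl

theorem Agree.mul {d : ℕ} {a a' b b' : MvPowerSeries τ K} (ha : constantCoeff a = 0)
    (hb : constantCoeff b = 0) (ha' : constantCoeff a' = 0) (hb' : constantCoeff b' = 0)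
    (h : Agree d a a') (h' : Agree d b b') : Agree (d + 1) (a * b) (a' * b') := by
  classical
  intro e he
  rw [coeff_mul, coeff_mul]
  refine Finset.sum_congr rfl fun x hx => ?_
  rw [Finset.HasAntidiagonal.mem_antidiagonal] at hx
  have hdeg : x.1.degree + x.2.degree = e.degree := by rw [← hx, map_add]
  by_cases h1 : x.1 = 0
  · rw [h1, coeff_zero_eq_constantCoeff_apply, coeff_zero_eq_constantCoeff_apply, ha, ha',
      zero_mul, zero_mul]
  by_cases h2 : x.2 = 0
  · rw [h2, coeff_zero_eq_constantCoeff_apply, coeff_zero_eq_constantCoeff_apply, hb, hb',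
      mul_zero, mul_zero]
  have h1' : x.1.degree ≠ 0 := fun h => h1 ((Finsupp.degree_eq_zero_iff _).1 h)
  have h2' : x.2.degree ≠ 0 := fun h => h2 ((Finsupp.degree_eq_zero_iff _).1 h)
  rw [h x.1 (by omega), h' x.2 (by omega)]

theorem constantCoeff_pow0 {a : MvPowerSeries τ K} (ha : constantCoeff a = 0) {n : ℕ}
    (hn : n ≠ 0) : constantCoeff (a ^ n) = 0 := by
  rw [map_pow, ha, zero_pow hn]

theorem Agree.pow_succ {d : ℕ} {a b : MvPowerSeries τ K} (ha : constantCoeff a = 0)
    (hb : constantCoeff b = 0) (h : Agree d a b) (n : ℕ) : Agree d (a ^ (n + 1)) (b ^ (n + 1)) := by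
  induction n with
  | zero => simpa using h
  | succ n ih =>
    rw [_root_.pow_succ, _root_.pow_succ b]
    exact (Agree.mul (constantCoeff_pow0 ha (by omega)) ha (constantCoeff_pow0 hb (by omega)) hb
      ih h).mono (by omega)

theorem Agree.pow {d : ℕ} {a b : MvPowerSeries τ K} (ha : constantCoeff a = 0)
    (hb : constantCoeff b = 0) (h : Agree d a b) {n : ℕ} (hn : 2 ≤ n) :
    Agree (d + 1) (a ^ n) (b ^ n) := by
  obtain ⟨n, rfl⟩ : ∃ k, n = k + 1 + 1 := ⟨n - 2, by omega⟩
  rw [_root_.pow_succ, _root_.pow_succ b]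
  exact Agree.mul (constantCoeff_pow0 ha (by omega)) ha (constantCoeff_pow0 hb (by omega)) hb
    (h.pow_succ ha hb n) h

variable {p : ℕ} [hp : Fact p.Prime]

theorem coeff_Lp_subst_sub {m : ℕ → K} (hm : m 0 = 1) {a b : MvPowerSeries τ K}
    (ha : constantCoeff a = 0) (hb : constantCoeff b = 0) {d : ℕ} (h : Agree d a b)
    {e : τ →₀ ℕ} (he : e.degree ≤ d) :
    coeff e ((Lp p m).subst a) - coeff e ((Lp p m).subst b) = coeff e a - coeff e b := by
  rw [coeff_Lp_subst m ha e _ le_rfl, coeff_Lp_subst m hb e _ le_rfl, Finset.sum_range_succ',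
    Finset.sum_range_succ' (fun k => m k * coeff e (b ^ p ^ k))]
  have : ∑ k ∈ range e.degree, m (k + 1) * coeff e (a ^ p ^ (k + 1)) =
      ∑ k ∈ range e.degree, m (k + 1) * coeff e (b ^ p ^ (k + 1)) := by
    refine Finset.sum_congr rfl fun k _ => ?_
    have h2 : 2 ≤ p ^ (k + 1) := hp.out.two_le.trans (Nat.le_self_pow (by omega) p)
    rw [h.pow ha hb h2 e (by omega)]
  rw [this, pow_zero, pow_one, pow_one, hm]
  ring

theorem Lp_subst_agree {m : ℕ → K} (hm : m 0 = 1) {a b : MvPowerSeries τ K}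
    (ha : constantCoeff a = 0) (hb : constantCoeff b = 0) {d : ℕ} (h : Agree d a b) :
    Agree d ((Lp p m).subst a) ((Lp p m).subst b) := by
  intro e he
  have := coeff_Lp_subst_sub (p := p) hm ha hb h he.le
  rw [h e he, sub_self, sub_eq_zero] at this
  exact this

theorem Lp_subst_injective {m : ℕ → K} (hm : m 0 = 1) {a b : MvPowerSeries τ K}
    (ha : constantCoeff a = 0) (hb : constantCoeff b = 0)
    (h : (Lp p m).subst a = (Lp p m).subst b) : a = b := by
  have key : ∀ d, Agree d a b := by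
    intro d
    induction d with
    | zero => intro e he; exact absurd he (Nat.not_lt_zero _)
    | succ d ih =>
      intro e he
      have := coeff_Lp_subst_sub (p := p) hm ha hb ih (Nat.lt_succ_iff.1 he)
      rw [h, sub_self] at this
      exact (sub_eq_zero.1 this.symm)
  ext e
  exact key _ e (Nat.lt_succ_self _)

end Agree

/-! ### the operator `E` -/

section E

variable (p : ℕ) [hp : Fact p.Prime] {K : Type*} [CommRing K] {τ : Type*}

/-- `E g = (σ g)(X^p)` -/
noncomputable def E (σ : K →+* K) : MvPowerSeries τ K →+* MvPowerSeries τ K :=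
  (expand p hp.out.ne_zero : MvPowerSeries τ K →ₐ[K] MvPowerSeries τ K).toRingHom.comp
    (MvPowerSeries.map σ)

theorem E_apply (σ : K →+* K) (g : MvPowerSeries τ K) :
    E p σ g = expand p hp.out.ne_zero (g.map σ) := rfl

theorem constantCoeff_E (σ : K →+* K) {g : MvPowerSeries τ K} (h : constantCoeff g = 0) :
    constantCoeff (E p σ g) = 0 := by
  rw [E_apply, constantCoeff_expand, constantCoeff_map, h, map_zero]

variable {p}

omit hp in
theorem dvd_cases (e : τ →₀ ℕ) : (∃ e' : τ →₀ ℕ, e = p • e') ∨ ∃ i, ¬ p ∣ e i := by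
  by_cases h : ∀ i, p ∣ e i
  · left
    refine ⟨e.mapRange (fun n => n / p) (Nat.zero_div p), ?_⟩
    ext i
    simp [Nat.mul_div_cancel' (h i)]
  · right
    push Not at h
    exact h

theorem E_agree (σ : K →+* K) {d : ℕ} {a b : MvPowerSeries τ K} (h : Agree d a b) (hd : 1 ≤ d) :
    Agree (d + 1) (E p σ a) (E p σ b) := by
  intro e he
  rw [E_apply, E_apply]
  rcases dvd_cases (p := p) e with ⟨e', rfl⟩ | ⟨i, hi⟩
  · rw [coeff_expand_smul, coeff_expand_smul, coeff_map, coeff_map, h]
    rw [map_nsmul, smul_eq_mul] at he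
    have := hp.out.two_le
    nlinarith
  · rw [coeff_expand_of_not_dvd _ _ _ hi, coeff_expand_of_not_dvd _ _ _ hi]

theorem E_iter_agree (σ : K →+* K) {d : ℕ} {a b : MvPowerSeries τ K} (h : Agree d a b)
    (hd : 1 ≤ d) (j : ℕ) : Agree (d + j) ((E p σ)^[j] a) ((E p σ)^[j] b) := by
  induction j with
  | zero => simpa using h
  | succ j ih =>
    rw [Function.iterate_succ_apply', Function.iterate_succ_apply']
    exact E_agree σ ih (show 1 ≤ d + j by omega)

theorem constantCoeff_E_iter (σ : K →+* K) {g : MvPowerSeries τ K} (h : constantCoeff g = 0)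
    (j : ℕ) : constantCoeff ((E p σ)^[j] g) = 0 := by
  induction j with
  | zero => simpa using h
  | succ j ih => rw [Function.iterate_succ_apply']; exact constantCoeff_E p σ ih

theorem E_Lp_subst (σ : K →+* K) (m : ℕ → K) {a : MvPowerSeries τ K}
    (ha : constantCoeff a = 0) :
    E p σ ((Lp p m).subst a) = (Lp p (fun k => σ (m k))).subst (E p σ a) := by
  rw [E_apply, E_apply, PowerSeries.map_subst (hasSubst0 ha), map_Lp, PowerSeries.subst_def,
    PowerSeries.subst_def, expand_subst]
  refine (PowerSeries.HasSubst.const (hasSubst0 ?_))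
  rw [constantCoeff_map, ha, map_zero]

theorem E_iter_Lp_subst (σ : K →+* K) (m : ℕ → K) {a : MvPowerSeries τ K}
    (ha : constantCoeff a = 0) (j : ℕ) :
    (E p σ)^[j] ((Lp p m).subst a) = (Lp p (fun k => σ^[j] (m k))).subst ((E p σ)^[j] a) := by
  induction j with
  | zero => rfl
  | succ j ih =>
    rw [Function.iterate_succ_apply', ih, E_Lp_subst σ _ (constantCoeff_E_iter σ ha j)]
    simp only [Function.iterate_succ_apply']

theorem map_E {K' : Type*} [CommRing K'] (ι : K →+* K') (σ : K →+* K) (σ' : K' →+* K')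
    (h : ∀ b, σ' (ι b) = ι (σ b)) (g : MvPowerSeries τ K) :
    (E p σ g).map ι = E p σ' (g.map ι) := by
  rw [E_apply, E_apply, map_expand]
  congr 1
  ext e
  simp [h]

theorem map_E_iter {K' : Type*} [CommRing K'] (ι : K →+* K') (σ : K →+* K) (σ' : K' →+* K')
    (h : ∀ b, σ' (ι b) = ι (σ b)) (g : MvPowerSeries τ K) (j : ℕ) :
    ((E p σ)^[j] g).map ι = (E p σ')^[j] (g.map ι) := by
  induction j with
  | zero => rfl
  | succ j ih =>
    rw [Function.iterate_succ_apply', Function.iterate_succ_apply', map_E ι σ σ' h, ih]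

omit hp in
/-- coefficientwise divisibility by `p` -/
theorem dvd_of_coeff {g : MvPowerSeries τ K} (h : ∀ e, (p : K) ∣ coeff e g) :
    (p : MvPowerSeries τ K) ∣ g := by
  choose c hc using h
  let g' : MvPowerSeries τ K := fun e => c e
  refine ⟨g', ?_⟩
  ext e
  have h1 : ((p : MvPowerSeries τ K)) = C (p : K) := by simp
  have h2 : coeff e g' = c e := rfl
  rw [h1, coeff_C_mul, hc e, h2]

theorem coeff_dvd {g : MvPowerSeries τ K} {q : ℕ} (h : (q : MvPowerSeries τ K) ∣ g)
    (e : τ →₀ ℕ) : (q : K) ∣ coeff e g := by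
  obtain ⟨g', rfl⟩ := h
  have : ((q : MvPowerSeries τ K)) = C (q : K) := by simp
  rw [this, coeff_C_mul]
  exact dvd_mul_right _ _

/-- `E β ≡ β^p` -/
theorem E_congr (σ : K →+* K) (hσ : ∀ b, (p : K) ∣ σ b - b ^ p) (β : MvPowerSeries τ K) :
    (p : MvPowerSeries τ K) ∣ E p σ β - β ^ p := by
  by_cases hu : IsUnit (p : K)
  · exact dvd_of_coeff fun e => hu.dvd
  · haveI : CharP (K ⧸ (Ideal.span ({(p : K)} : Set K))) p := CharP.quotient K p hu
    have : ExpChar (K ⧸ (Ideal.span ({(p : K)} : Set K))) p := ExpChar.prime hp.out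
    set π := Ideal.Quotient.mk (Ideal.span ({(p : K)} : Set K)) with hπ
    have h1 : (β.map (π.comp σ)) = (β.map π).map (frobenius _ p) := by
      ext e
      rw [coeff_map, coeff_map, coeff_map, RingHom.comp_apply, frobenius_def, ← map_pow, hπ,
        Ideal.Quotient.eq, Ideal.mem_span_singleton]
      exact hσ _
    have h2 : (E p σ β).map π = (β ^ p).map π := by
      rw [E_apply, map_expand, ← RingHom.comp_apply (MvPowerSeries.map π), ← map_comp, h1,
        ← map_expand, map_frobenius_expand p hp.out.ne_zero, map_pow]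
    apply dvd_of_coeff
    intro e
    rw [← Ideal.mem_span_singleton, ← Ideal.Quotient.eq_zero_iff_mem, ← hπ, ← coeff_map, map_sub,
      h2, sub_self, coeff_zero]

theorem E_iter_congr (σ : K →+* K) (hσ : ∀ b, (p : K) ∣ σ b - b ^ p) (β : MvPowerSeries τ K)
    (j : ℕ) : (p : MvPowerSeries τ K) ∣ (E p σ)^[j] β - β ^ p ^ j := by
  induction j with
  | zero => simp
  | succ j ih =>
    rw [Function.iterate_succ_apply']
    have h1 : (p : MvPowerSeries τ K) ∣ E p σ ((E p σ)^[j] β) - E p σ (β ^ p ^ j) := by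
      rw [← map_sub]
      obtain ⟨c, hc⟩ := ih
      rw [hc, map_mul, map_natCast]
      exact dvd_mul_right _ _
    have h2 : (p : MvPowerSeries τ K) ∣ E p σ (β ^ p ^ j) - β ^ p ^ (j + 1) := by
      have := E_congr σ hσ (β ^ p ^ j)
      rwa [← pow_mul, ← _root_.pow_succ] at this
    have := dvd_add h1 h2
    rwa [sub_add_sub_cancel] at this

end E

end Fel

end Chai
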