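import Vale.Agent.Chai.Fel

/-!
# P217 / Fel2: the functional equation lemma

OWNER: helper2
-/

namespace Chai

namespace Fel

open MvPowerSeries Finset

/-- the data of the functional equation lemma -/
structure Data (p : ℕ) (B K : Type*) [CommRing B] [CommRing K] where
  /-- the embedding -/
  ι : B →+* K
  inj : Function.Injective ι
  /-- the inverse of `p` in `K` -/
  pinv : K
  p_mul_pinv : (p : K) * pinv = 1
  /-- the Frobenius lift on `B` -/
  σB : B →+* B
  /-- the Frobenius lift on `K` -/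
  σ : K →+* K
  comm : ∀ b, σ (ι b) = ι (σB b)
  frob : ∀ b, (p : B) ∣ σB b - b ^ p
  /-- the parameters -/
  v : ℕ → B
  /-- the coefficients of the logarithm -/
  m : ℕ → K
  m_zero : m 0 = 1
  m_succ : ∀ k, (p : K) * m (k + 1) = ∑ j ∈ range (k + 1), ι (v (j + 1)) * σ^[j + 1] (m (k - j))

variable {p : ℕ} [hp : Fact p.Prime] {B K : Type*} [CommRing B] [CommRing K] {τ : Type*}

namespace Data

variable (S : Data p B K)

omit hp in
include S in
theorem p_cancel {x y : K} (h : (p : K) * x = p * y) : x = y := by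
  have : S.pinv * (p * x) = S.pinv * (p * y) := by rw [h]
  rw [← mul_assoc, ← mul_assoc, mul_comm S.pinv, S.p_mul_pinv, one_mul, one_mul] at this
  exact this

omit hp in
theorem σ_iter_ι (b : B) (j : ℕ) : S.σ^[j] (S.ι b) = S.ι (S.σB^[j] b) := by
  induction j with
  | zero => rfl
  | succ j ih => rw [Function.iterate_succ_apply', Function.iterate_succ_apply', ih, S.comm]

omit hp in
theorem σ_iter_mul (x y : K) (j : ℕ) : S.σ^[j] (x * y) = S.σ^[j] x * S.σ^[j] y := by
  induction j with
  | zero => rfl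
  | succ j ih => simp only [Function.iterate_succ_apply', ih, map_mul]

omit hp in
theorem σ_iter_natCast (n : ℕ) (j : ℕ) : S.σ^[j] (n : K) = n := by
  induction j with
  | zero => rfl
  | succ j ih => rw [Function.iterate_succ_apply', ih, map_natCast]

omit hp in
theorem σ_iter_pow (n k j : ℕ) : S.σ^[j] ((n : K) ^ k) = n ^ k := by
  rw [← Nat.cast_pow, S.σ_iter_natCast]

/-- a sequence `m'` with `p^k m'_k` integral -/
def IsInt (m' : ℕ → K) : Prop := ∀ k, ∃ c : B, (p : K) ^ k * m' k = S.ι c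

omit hp in
theorem isInt_iter {m' : ℕ → K} (h : S.IsInt m') (j : ℕ) : S.IsInt (fun k => S.σ^[j] (m' k)) := by
  intro k
  obtain ⟨c, hc⟩ := h k
  refine ⟨S.σB^[j] c, ?_⟩
  rw [← S.σ_iter_ι, ← hc, S.σ_iter_mul, S.σ_iter_pow]

omit hp in
theorem isInt_m : S.IsInt S.m := by
  intro k
  induction k using Nat.strong_induction_on with
  | _ k ih =>
    rcases k with _ | k
    · exact ⟨1, by rw [S.m_zero, map_one, pow_zero, mul_one]⟩
    · have h1 : ∀ j ∈ range (k + 1), ∃ c : B,
          (p : K) ^ k * (S.ι (S.v (j + 1)) * S.σ^[j + 1] (S.m (k - j))) = S.ι c := by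
        intro j hj
        obtain ⟨c, hc⟩ := ih (k - j) (by omega)
        refine ⟨p ^ j * (S.v (j + 1) * S.σB^[j + 1] c), ?_⟩
        have e1 : k = j + (k - j) := by have := Finset.mem_range.1 hj; omega
        have e2 : (p : K) ^ k * S.σ^[j + 1] (S.m (k - j)) =
            (p : K) ^ j * S.ι (S.σB^[j + 1] c) := by
          rw [← S.σ_iter_ι, ← hc, S.σ_iter_mul, S.σ_iter_pow, ← mul_assoc, ← pow_add, ← e1]
        rw [map_mul, map_mul, map_pow, map_natCast]
        linear_combination (S.ι (S.v (j + 1))) * e2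
      choose! c hc using h1
      refine ⟨∑ j ∈ range (k + 1), c j, ?_⟩
      rw [pow_succ, mul_assoc, S.m_succ, Finset.mul_sum, map_sum]
      exact Finset.sum_congr rfl hc

omit hp in
/-- the crucial congruence -/
theorem congr_pow {m' : ℕ → K} (hm : S.IsInt m') {a b : MvPowerSeries τ B}
    (h : (p : MvPowerSeries τ B) ∣ a - b) (k : ℕ) (e : τ →₀ ℕ) :
    ∃ c : B, m' k * S.ι (coeff e (a ^ p ^ k - b ^ p ^ k)) = p * S.ι c := by
  obtain ⟨c, hc⟩ := hm k
  have h1 := dvd_sub_pow_of_dvd_sub h k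
  rw [← Nat.cast_pow] at h1
  obtain ⟨c', hc'⟩ := coeff_dvd h1 e
  refine ⟨c * c', ?_⟩
  rw [hc', map_mul, map_natCast, map_mul, ← hc]
  push_cast
  ring

theorem Lp_congr {m' : ℕ → K} (hm : S.IsInt m') {a b : MvPowerSeries τ B}
    (ha : constantCoeff a = 0) (hb : constantCoeff b = 0)
    (h : (p : MvPowerSeries τ B) ∣ a - b) (e : τ →₀ ℕ) :
    ∃ c : B, coeff e ((Lp p m').subst (a.map S.ι)) - coeff e ((Lp p m').subst (b.map S.ι)) =
      p * S.ι c := by
  choose c hc using fun k => S.congr_pow hm h k e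
  refine ⟨∑ k ∈ range (e.degree + 1), c k, ?_⟩
  have ha' : constantCoeff (a.map S.ι) = 0 := by rw [constantCoeff_map, ha, map_zero]
  have hb' : constantCoeff (b.map S.ι) = 0 := by rw [constantCoeff_map, hb, map_zero]
  rw [coeff_Lp_subst m' ha' e _ le_rfl, coeff_Lp_subst m' hb' e _ le_rfl,
    ← Finset.sum_sub_distrib, map_sum, Finset.mul_sum]
  refine Finset.sum_congr rfl fun k _ => ?_
  rw [← hc k, ← map_pow, ← map_pow, coeff_map, coeff_map, ← mul_sub, ← map_sub, ← map_sub]

/-- the functional equation, coefficientwise -/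
theorem feq {a : MvPowerSeries τ K} (ha : constantCoeff a = 0) (e : τ →₀ ℕ) (N : ℕ)
    (hN : e.degree ≤ N) :
    (p : K) * coeff e ((Lp p S.m).subst a) = p * coeff e a + ∑ j ∈ range N,
      S.ι (S.v (j + 1)) * coeff e
        ((Lp p (fun k => S.σ^[j + 1] (S.m k))).subst (a ^ p ^ (j + 1))) := by
  have hpow : ∀ j, constantCoeff (a ^ p ^ (j + 1)) = 0 := fun j =>
    constantCoeff_pow0 ha (pow_ne_zero _ hp.out.ne_zero)
  rw [coeff_Lp_subst _ ha e N hN, Finset.sum_range_succ', mul_add, pow_zero, pow_one, S.m_zero,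
    one_mul, add_comm, Finset.mul_sum]
  congr 1
  have h1 : ∀ k ∈ range N, (p : K) * (S.m (k + 1) * coeff e (a ^ p ^ (k + 1))) =
      ∑ j ∈ range (k + 1), S.ι (S.v (j + 1)) *
        (S.σ^[j + 1] (S.m (k - j)) * coeff e ((a ^ p ^ (j + 1)) ^ p ^ (k - j))) := by
    intro k _
    rw [← mul_assoc, S.m_succ, Finset.sum_mul]
    refine Finset.sum_congr rfl fun j hj => ?_
    rw [← pow_mul, ← pow_add, mul_assoc]
    have : j + 1 + (k - j) = k + 1 := by have := Finset.mem_range.1 hj; omega
    rw [this]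
  rw [Finset.sum_congr rfl h1]
  have h2 := Finset.sum_range_diag_flip N (fun j l => S.ι (S.v (j + 1)) *
        (S.σ^[j + 1] (S.m l) * coeff e ((a ^ p ^ (j + 1)) ^ p ^ l)))
  rw [h2]
  refine Finset.sum_congr rfl fun j hj => ?_
  rw [coeff_Lp_subst _ (hpow j) e N hN, ← Finset.mul_sum]
  congr 1
  refine Finset.sum_subset (fun l hl => ?_) (fun l hl hl' => ?_)
  · rw [Finset.mem_range] at hl ⊢; omega
  · rw [← pow_mul, ← pow_add, coeff_pow_eq_zero ha, mul_zero]
    have : j + 1 + l < p ^ (j + 1 + l) := Nat.lt_pow_self hp.out.one_lt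
    rw [Finset.mem_range] at hl hl' hj
    omega

/-- `G` satisfies the functional congruence at the exponent `e` -/
def Cong (G : MvPowerSeries τ K) (e : τ →₀ ℕ) (N : ℕ) : Prop :=
  ∃ b : B, (p : K) * coeff e G - ∑ j ∈ range N, S.ι (S.v (j + 1)) *
    coeff e ((E p S.σ)^[j + 1] G) = p * S.ι b

theorem cong_of_int {β : MvPowerSeries τ B} (h0 : constantCoeff β = 0) (e : τ →₀ ℕ) (N : ℕ)
    (hN : e.degree ≤ N) : S.Cong ((Lp p S.m).subst (β.map S.ι)) e N := by
  have h0' : constantCoeff (β.map S.ι) = 0 := by rw [constantCoeff_map, h0, map_zero]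
  have h1 : ∀ j, ∃ c : B, coeff e ((Lp p (fun k => S.σ^[j + 1] (S.m k))).subst
      ((β.map S.ι) ^ p ^ (j + 1))) - coeff e ((E p S.σ)^[j + 1] ((Lp p S.m).subst (β.map S.ι))) =
      p * S.ι c := by
    intro j
    rw [E_iter_Lp_subst S.σ _ h0', ← map_E_iter S.ι S.σB S.σ S.comm, ← map_pow]
    refine S.Lp_congr (S.isInt_iter S.isInt_m (j + 1))
      (constantCoeff_pow0 h0 (pow_ne_zero _ hp.out.ne_zero))
      (constantCoeff_E_iter S.σB h0 (j + 1)) ?_ e
    have := E_iter_congr S.σB S.frob β (j + 1)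
    rw [← neg_sub, dvd_neg]
    exact this
  choose c hc using h1
  refine ⟨coeff e β + ∑ j ∈ range N, S.v (j + 1) * c j, ?_⟩
  rw [S.feq h0' e N hN, coeff_map, map_add, mul_add, add_sub_assoc, ← Finset.sum_sub_distrib,
    map_sum, Finset.mul_sum]
  congr 1
  refine Finset.sum_congr rfl fun j _ => ?_
  rw [← mul_sub, hc, map_mul]
  ring

/-- the functional equation lemma -/
theorem int_of_cong {β : MvPowerSeries τ K} (h0 : constantCoeff β = 0)
    (h : ∀ e : τ →₀ ℕ, ∃ N, e.degree ≤ N ∧ S.Cong ((Lp p S.m).subst β) e N) :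
    ∃ β' : MvPowerSeries τ B, constantCoeff β' = 0 ∧ β'.map S.ι = β := by
  have key : ∀ d, ∀ e : τ →₀ ℕ, e.degree = d → ∃ b : B, coeff e β = S.ι b := by
    intro d
    induction d using Nat.strong_induction_on with
    | _ d ih =>
      intro e he
      rcases Nat.eq_zero_or_pos d with rfl | hd
      · refine ⟨0, ?_⟩
        rw [(Finsupp.degree_eq_zero_iff _).1 he, coeff_zero_eq_constantCoeff_apply, h0, map_zero]
      classical
      have ih' : ∀ e : τ →₀ ℕ, ∃ b : B, e.degree < d → coeff e β = S.ι b := by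
        intro e
        by_cases hlt : e.degree < d
        · obtain ⟨b, hb⟩ := ih _ hlt e rfl
          exact ⟨b, fun _ => hb⟩
        · exact ⟨0, fun h => absurd h hlt⟩
      choose c hc using ih'
      let γ : MvPowerSeries τ B := fun e => if 0 < e.degree ∧ e.degree < d then c e else 0
      have hγc : ∀ e, coeff e γ = if 0 < e.degree ∧ e.degree < d then c e else 0 := fun e => rfl
      have hγ0 : constantCoeff γ = 0 := by
        rw [← coeff_zero_eq_constantCoeff_apply, hγc, if_neg]
        simp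
      have hγ0' : constantCoeff (γ.map S.ι) = 0 := by rw [constantCoeff_map, hγ0, map_zero]
      have hag : Agree d β (γ.map S.ι) := by
        intro e he
        rw [coeff_map, hγc]
        by_cases hpos : 0 < e.degree
        · rw [if_pos ⟨hpos, he⟩, hc e he]
        · rw [if_neg (fun h => hpos h.1), map_zero,
            (Finsupp.degree_eq_zero_iff _).1 (by omega : e.degree = 0),
            coeff_zero_eq_constantCoeff_apply, h0]
      obtain ⟨N, hN, b, hb⟩ := h e
      obtain ⟨b', hb'⟩ := S.cong_of_int hγ0 e N hN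
      have h1 := coeff_Lp_subst_sub (p := p) S.m_zero h0 hγ0' hag (e := e) he.le
      have h2 : coeff e (γ.map S.ι) = 0 := by
        rw [coeff_map, hγc, if_neg (fun h => by omega), map_zero]
      have h3 : ∀ j ∈ range N, S.ι (S.v (j + 1)) *
          coeff e ((E p S.σ)^[j + 1] ((Lp p S.m).subst β)) = S.ι (S.v (j + 1)) *
          coeff e ((E p S.σ)^[j + 1] ((Lp p S.m).subst (γ.map S.ι))) := by
        intro j _
        rw [E_iter_agree S.σ (Lp_subst_agree S.m_zero h0 hγ0' hag) hd (j + 1) e (by omega)]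
      rw [Finset.sum_congr rfl h3] at hb
      refine ⟨b - b', S.p_cancel ?_⟩
      rw [h2, sub_zero] at h1
      rw [map_sub, mul_sub, ← hb, ← hb', ← h1]
      ring
  choose c hc using fun e : τ →₀ ℕ => key _ e rfl
  let β' : MvPowerSeries τ B := fun e => c e
  have hβ' : ∀ e, coeff e β' = c e := fun e => rfl
  have hmap : β'.map S.ι = β := by
    ext e
    rw [coeff_map, hβ', hc]
  refine ⟨β', S.inj ?_, hmap⟩
  rw [← constantCoeff_map, hmap, h0, map_zero]

end Data

end Fel

end Chai
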