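import Vale.Agent.Chai.Fel2

/-!
# P217 / Fel3: Hazewinkel recursions, data attached to Hazewinkel parameters

OWNER: helper2
-/

namespace Chai

namespace Fel

open MvPowerSeries Finset

section Rec

variable {K : Type*} [CommRing K]

/-- the two Hazewinkel recursions are equivalent -/
theorem second_rec {p : ℕ} {pinv : K} (hpinv : (p : K) * pinv = 1) {σ : K →+* K} {v m : ℕ → K}
    (h0 : m 0 = 1) (hv : ∀ j, 1 ≤ j → σ (v j) = v j ^ p)
    (h1 : ∀ k, (p : K) * m (k + 1) = ∑ j ∈ range (k + 1), m j * v (k + 1 - j) ^ p ^ j) (k : ℕ) :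
    (p : K) * m (k + 1) = ∑ j ∈ range (k + 1), v (j + 1) * σ^[j + 1] (m (k - j)) := by
  have cancel : ∀ x y : K, (p : K) * x = p * y → x = y := by
    intro x y h
    have : pinv * (p * x) = pinv * (p * y) := by rw [h]
    rwa [← mul_assoc, ← mul_assoc, mul_comm pinv, hpinv, one_mul, one_mul] at this
  have hσv : ∀ i j, 1 ≤ j → σ^[i] (v j) = v j ^ p ^ i := by
    intro i j hj
    induction i with
    | zero => simp
    | succ i ih =>
      rw [Function.iterate_succ_apply', ih, map_pow, hv j hj, ← pow_mul, pow_succ' p i]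
  have hσm : ∀ (i : ℕ) (x y : K), σ^[i] (x * y) = σ^[i] x * σ^[i] y := by
    intro i x y
    induction i with
    | zero => rfl
    | succ i ih => simp only [Function.iterate_succ_apply', ih, map_mul]
  have hσp : ∀ (i : ℕ) (x : K) (n : ℕ), σ^[i] (x ^ n) = σ^[i] x ^ n := by
    intro i x n
    induction i with
    | zero => rfl
    | succ i ih => simp only [Function.iterate_succ_apply', ih, map_pow]
  have hσn : ∀ (i : ℕ) (n : ℕ), σ^[i] (n : K) = n := by
    intro i n
    induction i with
    | zero => rfl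
    | succ i ih => simp only [Function.iterate_succ_apply', ih, map_natCast]
  have hσ1 : ∀ (i : ℕ), σ^[i] (1 : K) = 1 := by
    intro i
    have := hσn i 1
    rwa [Nat.cast_one] at this
  have hσs : ∀ (i : ℕ) (s : Finset ℕ) (f : ℕ → K), σ^[i] (∑ x ∈ s, f x) = ∑ x ∈ s, σ^[i] (f x) := by
    intro i s f
    induction i with
    | zero => rfl
    | succ i ih => simp only [Function.iterate_succ_apply', ih, map_sum]
  induction k using Nat.strong_induction_on with
  | _ k ih =>
    rw [h1 k]
    apply cancel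
    rw [Finset.sum_range_succ' (fun j => m j * v (k + 1 - j) ^ p ^ j), Finset.sum_range_succ,
      mul_add, mul_add]
    congr 1
    · rw [Finset.mul_sum, Finset.mul_sum]
      have e1 : ∀ j ∈ range k, (p : K) * (m (j + 1) * v (k + 1 - (j + 1)) ^ p ^ (j + 1)) =
          ∑ i ∈ range (j + 1), v (i + 1) * σ^[i + 1] (m (j - i)) *
            v (k - (i + (j - i))) ^ p ^ (i + (j - i) + 1) := by
        intro j hj
        rw [← mul_assoc, ih j (Finset.mem_range.1 hj), Finset.sum_mul]
        refine Finset.sum_congr rfl fun i hi => ?_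
        have : i + (j - i) = j := by have := Finset.mem_range.1 hi; omega
        rw [this, Nat.add_sub_add_right]
      rw [Finset.sum_congr rfl e1, Finset.sum_range_diag_flip k (fun i l =>
        v (i + 1) * σ^[i + 1] (m l) * v (k - (i + l)) ^ p ^ (i + l + 1))]
      refine Finset.sum_congr rfl fun i hi => ?_
      have hik := Finset.mem_range.1 hi
      have e2 : (p : K) * σ^[i + 1] (m (k - i)) =
          ∑ l ∈ range (k - i), σ^[i + 1] (m l) * v (k - (i + l)) ^ p ^ (i + l + 1) := by
        obtain ⟨t, ht⟩ : ∃ t, k - i = t + 1 := ⟨k - i - 1, by omega⟩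
        rw [ht, ← hσn (i + 1) p, ← hσm, h1, hσs]
        refine Finset.sum_congr rfl fun l hl => ?_
        have hl' := Finset.mem_range.1 hl
        rw [hσm, hσp, hσv _ _ (by omega), ← pow_mul, ← pow_add]
        have e3 : t + 1 - l = k - (i + l) := by omega
        have e4 : i + 1 + l = i + l + 1 := by omega
        rw [e3, e4]
      rw [mul_left_comm, e2, Finset.mul_sum]
      refine Finset.sum_congr rfl fun l _ => ?_
      rw [mul_assoc]
    · rw [h0, one_mul, Nat.sub_zero, pow_zero, pow_one, Nat.sub_self, h0, hσ1, mul_one]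

end Rec

section Haz

variable (p : ℕ) [hp : Fact p.Prime]

theorem hazLog_eq : hazLog p = Lp p (hazM p) := rfl

omit hp in
theorem hazM_zero : hazM p 0 = 1 := by
  rw [hazM]

theorem hazM_succ (k : ℕ) : (p : MvPolynomial ℕ ℚ) * hazM p (k + 1) =
    ∑ j ∈ range (k + 1), hazM p j * MvPolynomial.X (k + 1 - j) ^ p ^ j := by
  rw [hazM, ← mul_assoc]
  have h : (p : MvPolynomial ℕ ℚ) * MvPolynomial.C (1 / (p : ℚ)) = 1 := by
    have : (p : MvPolynomial ℕ ℚ) = MvPolynomial.C (p : ℚ) := by simp
    rw [this, ← map_mul, mul_one_div_cancel (Nat.cast_ne_zero.2 hp.out.ne_zero), map_one]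
  rw [h, one_mul, Finset.sum_range]

variable {B K : Type*} [CommRing B] [CommRing K] [Algebra ℚ K]

/-- the coefficients of the Hazewinkel logarithm with parameters `v` -/
noncomputable def hm (v : ℕ → K) (k : ℕ) : K :=
  MvPolynomial.eval₂Hom (algebraMap ℚ K) v (hazM p k)

omit hp in
theorem hm_zero (v : ℕ → K) : hm p v 0 = 1 := by
  rw [hm, hazM_zero, map_one]

theorem hm_succ (v : ℕ → K) (k : ℕ) : (p : K) * hm p v (k + 1) =
    ∑ j ∈ range (k + 1), hm p v j * v (k + 1 - j) ^ p ^ j := by
  have := congrArg (MvPolynomial.eval₂Hom (algebraMap ℚ K) v) (hazM_succ p k)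
  rw [map_mul, map_natCast, map_sum] at this
  rw [hm, this]
  refine Finset.sum_congr rfl fun j _ => ?_
  rw [map_mul, map_pow, MvPolynomial.eval₂Hom_X', hm]

theorem p_mul_inv : (p : K) * algebraMap ℚ K (1 / p) = 1 := by
  rw [← map_natCast (algebraMap ℚ K), ← map_mul,
    mul_one_div_cancel (Nat.cast_ne_zero.2 hp.out.ne_zero), map_one]

omit hp in
theorem map_hm {K' : Type*} [CommRing K'] [Algebra ℚ K'] (φ : K →+* K') (v : ℕ → K) (k : ℕ) :
    φ (hm p v k) = hm p (fun j => φ (v j)) k := by
  rw [hm, hm, ← RingHom.comp_apply, MvPolynomial.comp_eval₂Hom]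
  congr 2
  exact Subsingleton.elim _ _

/-- the logarithm with parameters `v` -/
theorem second_rec_hm (v : ℕ → K) (σ : K →+* K) (hσ : ∀ j, 1 ≤ j → σ (v j) = v j ^ p) (k : ℕ) :
    (p : K) * hm p v (k + 1) =
      ∑ j ∈ range (k + 1), v (j + 1) * σ^[j + 1] (hm p v (k - j)) :=
  second_rec (p_mul_inv p) (hm_zero p v) hσ (hm_succ p v) k

/-- the data attached to parameters `v` with `σ v_j = v_j^p` -/
noncomputable def ofHaz (ι : B →+* K) (inj : Function.Injective ι) (σB : B →+* B) (σ : K →+* K)
    (comm : ∀ b, σ (ι b) = ι (σB b)) (frob : ∀ b, (p : B) ∣ σB b - b ^ p) (v : ℕ → B)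
    (hv : ∀ j, 1 ≤ j → σB (v j) = v j ^ p) : Data p B K where
  ι := ι
  inj := inj
  pinv := algebraMap ℚ K (1 / p)
  p_mul_pinv := p_mul_inv p
  σB := σB
  σ := σ
  comm := comm
  frob := frob
  v := v
  m := hm p (fun j => ι (v j))
  m_zero := hm_zero p _
  m_succ := second_rec_hm p _ σ fun j hj => by rw [comm, hv j hj, map_pow]

end Haz

end Fel

end Chai
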