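import Vale.Agent.Chai.Fel3

/-!
# P217 / Fel4: the formal group attached to functional equation data

OWNER: helper2
-/

namespace Chai

namespace Fel

open MvPowerSeries Finset

section Subst

variable {K : Type*} [CommRing K] {τ υ : Type*}

theorem hasSubst_pair {a b : MvPowerSeries τ K} (ha : constantCoeff a = 0)
    (hb : constantCoeff b = 0) : HasSubst ![a, b] := by
  apply hasSubst_of_constantCoeff_zero
  intro s
  fin_cases s
  · exact ha
  · exact hb

theorem constantCoeff_subst_pair {F : MvPowerSeries (Fin 2) K} (hF : constantCoeff F = 0)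
    {a b : MvPowerSeries τ K} (ha : constantCoeff a = 0)
    (hb : constantCoeff b = 0) : constantCoeff (F.subst ![a, b]) = 0 := by
  refine constantCoeff_subst_eq_zero (hasSubst_pair ha hb) (fun s => ?_) hF
  fin_cases s
  · exact ha
  · exact hb

/-- substituting into the one variable composition -/
theorem ps_subst_mv_subst [Finite υ] {f : PowerSeries K} {F : MvPowerSeries υ K}
    (hF : constantCoeff F = 0)
    {a : υ → MvPowerSeries τ K} (ha : ∀ i, constantCoeff (a i) = 0) :
    f.subst (F.subst a) = (f.subst F).subst a := by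
  rw [PowerSeries.subst, PowerSeries.subst,
    MvPowerSeries.subst_comp_subst_apply (hasSubst0 hF).const (hasSubst_of_constantCoeff_zero ha)]

theorem ps_subst_pair {f : PowerSeries K} {F : MvPowerSeries (Fin 2) K}
    (hF : constantCoeff F = 0) {a b : MvPowerSeries τ K} (ha : constantCoeff a = 0)
    (hb : constantCoeff b = 0)
    (h : f.subst F = f.subst (X 0 : MvPowerSeries (Fin 2) K) +
      f.subst (X 1 : MvPowerSeries (Fin 2) K)) :
    f.subst (F.subst ![a, b]) = f.subst a + f.subst b := by
  have hab : ∀ i, constantCoeff (![a, b] i) = 0 := by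
    intro s
    fin_cases s
    · exact ha
    · exact hb
  have hs := hasSubst_pair ha hb
  rw [ps_subst_mv_subst hF hab, h, subst_add hs, ← ps_subst_mv_subst (constantCoeff_X _) hab,
    ← ps_subst_mv_subst (constantCoeff_X _) hab, subst_X hs, subst_X hs]
  rfl

variable {p : ℕ} [hp : Fact p.Prime]

theorem exists_Lp_subst_eq {m : ℕ → K} (hm : m 0 = 1) {G : MvPowerSeries τ K}
    (hG : constantCoeff G = 0) :
    ∃ β : MvPowerSeries τ K, constantCoeff β = 0 ∧ (Lp p m).subst β = G := by
  have h1 : IsUnit (PowerSeries.coeff 1 (Lp p m)) := by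
    rw [coeff_one_Lp, hm]; exact isUnit_one
  have h0 := constantCoeff_Lp (p := p) m
  refine ⟨((Lp p m).substInvOfIsUnit h1).subst G, ?_, ?_⟩
  · exact PowerSeries.constantCoeff_subst_eq_zero hG _
      (PowerSeries.constantCoeff_substInvOfIsUnit _ h1)
  · rw [← PowerSeries.subst_comp_subst_apply
      (PowerSeries.HasSubst.substInvOfIsUnit _ h1) (hasSubst0 hG),
      PowerSeries.subst_substInvOfIsUnit_right _ h0, PowerSeries.subst_X (hasSubst0 hG)]

end Subst

variable {p : ℕ} [hp : Fact p.Prime] {B K : Type*} [CommRing B] [CommRing K] {τ : Type*}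

theorem map_subst_pair {ι : B →+* K} {F : MvPowerSeries (Fin 2) B} {a b : MvPowerSeries τ B}
    (ha : constantCoeff a = 0) (hb : constantCoeff b = 0) :
    (F.subst ![a, b]).map ι = (F.map ι).subst ![a.map ι, b.map ι] := by
  rw [map_subst (hasSubst_pair ha hb)]
  congr 1
  ext1 s
  fin_cases s <;> rfl

theorem map_injective {ι : B →+* K} (h : Function.Injective ι) {a b : MvPowerSeries τ B}
    (hab : a.map ι = b.map ι) : a = b := by
  ext e
  apply h
  rw [← coeff_map, hab, coeff_map]

namespace Data

variable (S : Data p B K)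

omit hp in
theorem Cong.add {G G' : MvPowerSeries τ K} [hp : Fact p.Prime] {e : τ →₀ ℕ} {N : ℕ}
    (h : S.Cong G e N) (h' : S.Cong G' e N) : S.Cong (G + G') e N := by
  obtain ⟨b, hb⟩ := h
  obtain ⟨b', hb'⟩ := h'
  refine ⟨b + b', ?_⟩
  rw [map_add, map_add, mul_add, mul_add, ← hb, ← hb']
  have : ∀ j ∈ range N, S.ι (S.v (j + 1)) * coeff e ((E p S.σ)^[j + 1] (G + G')) =
      S.ι (S.v (j + 1)) * coeff e ((E p S.σ)^[j + 1] G) +
      S.ι (S.v (j + 1)) * coeff e ((E p S.σ)^[j + 1] G') := by
    intro j _
    rw [iterate_map_add, map_add, mul_add]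
  rw [Finset.sum_congr rfl this, Finset.sum_add_distrib]
  ring

/-- existence of an integral series with prescribed logarithm -/
theorem exists_int {G : MvPowerSeries τ K} (hG : constantCoeff G = 0)
    (h : ∀ e : τ →₀ ℕ, ∃ N, e.degree ≤ N ∧ S.Cong G e N) :
    ∃ β : MvPowerSeries τ B, constantCoeff β = 0 ∧ (Lp p S.m).subst (β.map S.ι) = G := by
  obtain ⟨β, hβ0, hβ⟩ := exists_Lp_subst_eq (p := p) S.m_zero hG
  obtain ⟨β', h0, h1⟩ := S.int_of_cong hβ0 (fun e => by rw [hβ]; exact h e)
  exact ⟨β', h0, by rw [h1, hβ]⟩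

theorem exists_add : ∃ F : MvPowerSeries (Fin 2) B, constantCoeff F = 0 ∧
    (Lp p S.m).subst (F.map S.ι) = (Lp p S.m).subst (X 0 : MvPowerSeries (Fin 2) K) +
      (Lp p S.m).subst (X 1 : MvPowerSeries (Fin 2) K) := by
  have h0 : constantCoeff (X 0 : MvPowerSeries (Fin 2) B) = 0 := constantCoeff_X _
  have h1 : constantCoeff (X 1 : MvPowerSeries (Fin 2) B) = 0 := constantCoeff_X _
  apply S.exists_int
  · rw [map_add, constantCoeff_Lp_subst _ (constantCoeff_X _),
      constantCoeff_Lp_subst _ (constantCoeff_X _), add_zero]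
  · intro e
    refine ⟨e.degree, le_rfl, ?_⟩
    have e0 := S.cong_of_int h0 e e.degree le_rfl
    have e1 := S.cong_of_int h1 e e.degree le_rfl
    rw [map_X] at e0 e1
    exact Cong.add S e0 e1

/-- the logarithm determines integral series -/
theorem int_ext {a b : MvPowerSeries τ B} (ha : constantCoeff a = 0) (hb : constantCoeff b = 0)
    (h : (Lp p S.m).subst (a.map S.ι) = (Lp p S.m).subst (b.map S.ι)) : a = b := by
  apply map_injective S.inj
  exact Lp_subst_injective (p := p) S.m_zero (by rw [constantCoeff_map, ha, map_zero])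
    (by rw [constantCoeff_map, hb, map_zero]) h

/-- logarithm of a formal sum -/
theorem log_pair {F : MvPowerSeries (Fin 2) B} (hF : constantCoeff F = 0)
    (h : (Lp p S.m).subst (F.map S.ι) = (Lp p S.m).subst (X 0 : MvPowerSeries (Fin 2) K) +
      (Lp p S.m).subst (X 1 : MvPowerSeries (Fin 2) K)) {a b : MvPowerSeries τ B}
    (ha : constantCoeff a = 0) (hb : constantCoeff b = 0) :
    (Lp p S.m).subst ((F.subst ![a, b]).map S.ι) = (Lp p S.m).subst (a.map S.ι) +
      (Lp p S.m).subst (b.map S.ι) := by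
  rw [map_subst_pair ha hb]
  exact ps_subst_pair (by rw [constantCoeff_map, hF, map_zero])
    (by rw [constantCoeff_map, ha, map_zero]) (by rw [constantCoeff_map, hb, map_zero]) h

/-- the formal group of functional equation data -/
theorem exists_fg : ∃ F : FormalGroup B, F.IsComm ∧
    (Lp p S.m).subst (F.map S.ι).toPowerSeries =
      (Lp p S.m).subst (X 0 : MvPowerSeries (Fin 2) K) +
      (Lp p S.m).subst (X 1 : MvPowerSeries (Fin 2) K) := by
  obtain ⟨F, hF0, hF⟩ := S.exists_add
  have hX : ∀ {n : ℕ} (i : Fin n), constantCoeff (X i : MvPowerSeries (Fin n) B) = 0 :=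
    fun i => constantCoeff_X _
  have hlin : ∀ s : Fin 2, coeff (Finsupp.single s 1) F = 1 := by
    intro s
    apply S.inj
    have e0 : (Finsupp.single s 1).degree ≤ 1 := by simp
    have key : ∀ a : MvPowerSeries (Fin 2) K, constantCoeff a = 0 →
        coeff (Finsupp.single s 1) ((Lp p S.m).subst a) = coeff (Finsupp.single s 1) a := by
      intro a ha
      have hag : Agree 1 a (0 : MvPowerSeries (Fin 2) K) := by
        intro e he
        rw [(Finsupp.degree_eq_zero_iff _).1 (by omega : e.degree = 0),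
          coeff_zero_eq_constantCoeff_apply, ha, coeff_zero]
      have h1 := coeff_Lp_subst_sub (p := p) S.m_zero ha (map_zero _) hag e0
      have h2 : coeff (Finsupp.single s 1) ((Lp p S.m).subst (0 : MvPowerSeries (Fin 2) K)) = 0 := by
        rw [coeff_Lp_subst _ (map_zero _) _ _ le_rfl]
        apply Finset.sum_eq_zero
        intro k _
        rw [zero_pow (pow_ne_zero k hp.out.ne_zero), coeff_zero, mul_zero]
      rwa [h2, sub_zero, coeff_zero, sub_zero] at h1
    have h1 := congrArg (coeff (Finsupp.single s 1)) hF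
    rw [map_add, key _ (by rw [constantCoeff_map, hF0, map_zero]), key _ (constantCoeff_X _),
      key _ (constantCoeff_X _), coeff_map] at h1
    rw [h1, map_one]
    classical
    fin_cases s <;> simp [coeff_X, Finsupp.single_left_inj]
  have hassoc : F.subst ![F.subst ![(X 0 : MvPowerSeries (Fin 3) B), X 1], X 2] =
      F.subst ![X 0, F.subst ![X 1, X 2]] := by
    have h01 := constantCoeff_subst_pair hF0 (hX (0 : Fin 3)) (hX 1)
    have h12 := constantCoeff_subst_pair hF0 (hX (1 : Fin 3)) (hX 2)
    apply S.int_ext (constantCoeff_subst_pair hF0 h01 (hX _))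
      (constantCoeff_subst_pair hF0 (hX _) h12)
    rw [S.log_pair hF0 hF h01 (hX _), S.log_pair hF0 hF (hX _) (hX _),
      S.log_pair hF0 hF (hX _) h12, S.log_pair hF0 hF (hX _) (hX _), add_assoc]
  refine ⟨⟨F, hF0, hlin 0, hlin 1, hassoc⟩, ⟨?_⟩, hF⟩
  have hcomm : F = F.subst ![X 1, X 0] := by
    apply S.int_ext hF0 (constantCoeff_subst_pair hF0 (hX _) (hX _))
    rw [S.log_pair hF0 hF (hX _) (hX _), hF, map_X, map_X, add_comm]
  exact hcomm

end Data

end Fel

end Chai
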