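import Vale.Agent.Chai.Fel4

/-!
# P217 / Fel5: congruences from logarithms; the polynomial data

OWNER: helper2
-/

namespace Chai

namespace Fel

open MvPowerSeries Finset

variable {p : ℕ} [hp : Fact p.Prime] {B K : Type*} [CommRing B] [CommRing K] {τ : Type*}

namespace Data

variable (S : Data p B K)

/-- integral series with congruent logarithms are congruent -/
theorem dvd_of_log {a b : MvPowerSeries τ B} (ha : constantCoeff a = 0) (hb : constantCoeff b = 0)
    (h : ∀ e : τ →₀ ℕ, ∃ c : B, coeff e ((Lp p S.m).subst (a.map S.ι)) -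
      coeff e ((Lp p S.m).subst (b.map S.ι)) = p * S.ι c) :
    (p : MvPowerSeries τ B) ∣ a - b := by
  apply dvd_of_coeff
  have key : ∀ d, ∀ e : τ →₀ ℕ, e.degree = d → (p : B) ∣ coeff e (a - b) := by
    intro d
    induction d using Nat.strong_induction_on with
    | _ d ih =>
      intro e he
      let c : MvPowerSeries τ B := fun e' => if e'.degree < d then coeff e' a else coeff e' b
      have hc : ∀ e', coeff e' c = if e'.degree < d then coeff e' a else coeff e' b := fun _ => rfl
      have hc0 : constantCoeff c = 0 := by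
        rw [← coeff_zero_eq_constantCoeff_apply, hc, coeff_zero_eq_constantCoeff_apply,
          coeff_zero_eq_constantCoeff_apply, ha, hb, ite_self]
      have hcb : (p : MvPowerSeries τ B) ∣ b - c := by
        apply dvd_of_coeff
        intro e'
        rw [map_sub, hc]
        split_ifs with hlt
        · rw [← neg_sub, dvd_neg, ← map_sub]
          exact ih _ hlt e' rfl
        · rw [sub_self]
          exact dvd_zero _
      have hag : Agree d (a.map S.ι) (c.map S.ι) := by
        intro e' he'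
        rw [coeff_map, coeff_map, hc, if_pos he']
      have ha' : constantCoeff (a.map S.ι) = 0 := by rw [constantCoeff_map, ha, map_zero]
      have hc0' : constantCoeff (c.map S.ι) = 0 := by rw [constantCoeff_map, hc0, map_zero]
      have h1 := coeff_Lp_subst_sub (p := p) S.m_zero ha' hc0' hag (e := e) he.le
      obtain ⟨x, hx⟩ := h e
      obtain ⟨y, hy⟩ := S.Lp_congr S.isInt_m hb hc0 hcb e
      refine ⟨x + y, S.inj ?_⟩
      have h2 : coeff e c = coeff e b := by rw [hc, if_neg (by omega)]
      rw [map_mul, map_natCast, map_add, mul_add, ← hx, ← hy, sub_add_sub_cancel, h1, coeff_map,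
        coeff_map, h2, map_sub, map_sub]
  exact fun e => key _ e rfl

end Data

/-! ### the polynomial data -/

section Poly

variable (p)

theorem expand_frob (b : MvPolynomial ℕ ℤ) :
    (p : MvPolynomial ℕ ℤ) ∣ MvPolynomial.expand p b - b ^ p := by
  have h := (MvPolynomial.C_dvd_iff_zmod p (MvPolynomial.expand p b - b ^ p)).2
  have e : (p : MvPolynomial ℕ ℤ) = MvPolynomial.C (p : ℤ) := by simp
  rw [e]
  apply h
  rw [map_sub, MvPolynomial.map_expand, map_pow, MvPolynomial.expand_zmod, sub_self]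

theorem poly_comm (b : MvPolynomial ℕ ℤ) :
    (MvPolynomial.expand p : MvPolynomial ℕ ℚ →ₐ[ℚ] MvPolynomial ℕ ℚ).toRingHom
      (MvPolynomial.map (Int.castRingHom ℚ) b) =
    MvPolynomial.map (Int.castRingHom ℚ)
      ((MvPolynomial.expand p : MvPolynomial ℕ ℤ →ₐ[ℤ] MvPolynomial ℕ ℤ).toRingHom b) :=
  (MvPolynomial.map_expand _ _ _).symm

/-- functional equation data over `ℤ[v]` -/
noncomputable def polyData (w : ℕ → MvPolynomial ℕ ℤ)
    (hw : ∀ j, 1 ≤ j → MvPolynomial.expand p (w j) = w j ^ p) :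
    Data p (MvPolynomial ℕ ℤ) (MvPolynomial ℕ ℚ) :=
  ofHaz p (MvPolynomial.map (Int.castRingHom ℚ)) (MvPolynomial.map_injective _ Int.cast_injective)
    (MvPolynomial.expand p : MvPolynomial ℕ ℤ →ₐ[ℤ] MvPolynomial ℕ ℤ).toRingHom
    (MvPolynomial.expand p : MvPolynomial ℕ ℚ →ₐ[ℚ] MvPolynomial ℕ ℚ).toRingHom
    (poly_comm p) (expand_frob p) w hw

omit hp in
theorem hm_X : hm p (fun j => MvPolynomial.map (Int.castRingHom ℚ)
    (MvPolynomial.X j : MvPolynomial ℕ ℤ)) = hazM p := by
  funext k
  have h : (MvPolynomial.eval₂Hom (algebraMap ℚ (MvPolynomial ℕ ℚ)) fun j =>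
      MvPolynomial.map (Int.castRingHom ℚ) (MvPolynomial.X j : MvPolynomial ℕ ℤ)) =
      RingHom.id _ := by
    apply MvPolynomial.ringHom_ext
    · intro r
      simp [MvPolynomial.algebraMap_eq]
    · intro i
      simp
  rw [hm, h, RingHom.id_apply]

theorem second_hm {K : Type*} [CommRing K] [Algebra ℚ K] (v : ℕ → K) (k : ℕ) :
    (p : K) * hm p v (k + 1) = ∑ j ∈ range (k + 1), v (j + 1) *
      hm p (fun i => v i ^ p ^ (j + 1)) (k - j) := by
  have h := second_rec_hm p (K := MvPolynomial ℕ ℚ) (fun j => MvPolynomial.X j)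
    (MvPolynomial.expand p : MvPolynomial ℕ ℚ →ₐ[ℚ] MvPolynomial ℕ ℚ).toRingHom
    (fun j _ => MvPolynomial.expand_X _ _) k
  have h2 := congrArg (MvPolynomial.eval₂Hom (algebraMap ℚ K) v) h
  rw [map_mul, map_natCast, map_sum, map_hm] at h2
  simp only [MvPolynomial.eval₂Hom_X'] at h2
  rw [h2]
  refine Finset.sum_congr rfl fun j _ => ?_
  rw [map_mul, MvPolynomial.eval₂Hom_X']
  congr 1
  have h3 : ∀ (i : ℕ) (x : ℕ → MvPolynomial ℕ ℚ) (l : ℕ),
      (MvPolynomial.expand p : MvPolynomial ℕ ℚ →ₐ[ℚ] MvPolynomial ℕ ℚ).toRingHom^[i]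
        (hm p x l) = hm p (fun t =>
          (MvPolynomial.expand p : MvPolynomial ℕ ℚ →ₐ[ℚ] MvPolynomial ℕ ℚ).toRingHom^[i] (x t))
            l := by
    intro i x l
    induction i with
    | zero => rfl
    | succ i ih => simp only [Function.iterate_succ_apply', ih, map_hm]
  have h4 : ∀ (i t : ℕ),
      (MvPolynomial.expand p : MvPolynomial ℕ ℚ →ₐ[ℚ] MvPolynomial ℕ ℚ).toRingHom^[i]
        (MvPolynomial.X t) = MvPolynomial.X t ^ p ^ i := by
    intro i t
    induction i with
    | zero => simp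
    | succ i ih =>
      rw [Function.iterate_succ_apply', ih, map_pow, pow_succ' p i, pow_mul]
      congr 1
      exact MvPolynomial.expand_X _ _
  rw [h3, map_hm]
  congr 1
  funext t
  rw [h4, map_pow, MvPolynomial.eval₂Hom_X']

end Poly

end Fel

end Chai
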