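import Vale.Agent.Chai.Fel5

/-!
# P217 / Fel6: logarithms of monomials
-/

namespace Chai

namespace Fel

open MvPowerSeries Finset

variable {p : ℕ} [hp : Fact p.Prime] {K : Type*} [CommRing K]

/-- a monomial `c X^q` in one variable -/
theorem constantCoeff_CX (c : K) {q : ℕ} (hq : q ≠ 0) :
    MvPowerSeries.constantCoeff (PowerSeries.C c * (PowerSeries.X : PowerSeries K) ^ q) = 0 := by
  change PowerSeries.constantCoeff (PowerSeries.C c * (PowerSeries.X : PowerSeries K) ^ q) = 0
  rw [map_mul, map_pow, PowerSeries.constantCoeff_X, zero_pow hq, mul_zero]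

theorem coeff_Lp_subst_CX (m : ℕ → K) (c : K) {q : ℕ} (hq : q ≠ 0) (i : ℕ) :
    PowerSeries.coeff i ((Lp p m).subst (PowerSeries.C c * (PowerSeries.X : PowerSeries K) ^ q)) =
      ∑ k ∈ range (i + 1), m k * (if i = q * p ^ k then c ^ p ^ k else 0) := by
  have h := coeff_Lp_subst (p := p) m (constantCoeff_CX c hq) (Finsupp.single () i) i (by simp)
  refine h.trans (Finset.sum_congr rfl fun k _ => ?_)
  congr 1
  have e : (PowerSeries.C c * (PowerSeries.X : PowerSeries K) ^ q) ^ p ^ k =
      PowerSeries.C (c ^ p ^ k) * (PowerSeries.X : PowerSeries K) ^ (q * p ^ k) := by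
    rw [mul_pow, ← map_pow, ← pow_mul]
  rw [e]
  exact PowerSeries.coeff_C_mul_X_pow _ _ _

theorem coeff_Lp_subst_CX_ne (m : ℕ → K) (c : K) (j : ℕ) {i : ℕ} (h : ∀ t, i ≠ p ^ t) :
    PowerSeries.coeff i ((Lp p m).subst
      (PowerSeries.C c * (PowerSeries.X : PowerSeries K) ^ p ^ j)) = 0 := by
  rw [coeff_Lp_subst_CX m c (pow_ne_zero j hp.out.ne_zero)]
  apply Finset.sum_eq_zero
  intro k _
  rw [if_neg (by rw [← pow_add]; exact h _), mul_zero]

theorem coeff_Lp_subst_CX_pow (m : ℕ → K) (c : K) (j t : ℕ) :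
    PowerSeries.coeff (p ^ t) ((Lp p m).subst
      (PowerSeries.C c * (PowerSeries.X : PowerSeries K) ^ p ^ j)) =
      if j ≤ t then m (t - j) * c ^ p ^ (t - j) else 0 := by
  rw [coeff_Lp_subst_CX m c (pow_ne_zero j hp.out.ne_zero)]
  have hinj : Function.Injective (fun k : ℕ => p ^ k) := Nat.pow_right_injective hp.out.two_le
  split_ifs with hjt
  · rw [Finset.sum_eq_single (t - j)]
    · rw [← pow_add, if_pos (by rw [show j + (t - j) = t by omega])]
    · intro k _ hk
      rw [if_neg, mul_zero]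
      rw [← pow_add]
      intro h
      have := hinj h
      omega
    · intro h
      exfalso
      apply h
      rw [Finset.mem_range]
      have : t < p ^ t := Nat.lt_pow_self hp.out.one_lt
      omega
  · apply Finset.sum_eq_zero
    intro k _
    rw [if_neg, mul_zero]
    rw [← pow_add]
    intro h
    have := hinj h
    omega

theorem X_pow_eq (q : ℕ) : (PowerSeries.X : PowerSeries K) ^ q =
    PowerSeries.C 1 * (PowerSeries.X : PowerSeries K) ^ q := by
  rw [map_one, one_mul]

theorem coeff_X_ne {i : ℕ} (h : ∀ t, i ≠ p ^ t) :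
    PowerSeries.coeff i (PowerSeries.X : PowerSeries K) = 0 := by
  rw [PowerSeries.coeff_X, if_neg]
  have := h 0
  rwa [pow_zero] at this

theorem coeff_X_pow_succ (t : ℕ) :
    PowerSeries.coeff (p ^ (t + 1)) (PowerSeries.X : PowerSeries K) = 0 := by
  rw [PowerSeries.coeff_X, if_neg]
  have : 1 < p ^ (t + 1) := Nat.one_lt_pow (by omega) hp.out.one_lt
  omega

/-- reindexing -/
theorem sum_aux {M : Type*} [AddCommMonoid M] (n t : ℕ) (g : ℕ → M)
    (hg : ∀ j, n < j → g j = 0) :
    ∑ j ∈ Finset.range n, (if j + 1 ≤ t + 1 then g (j + 1) else 0) =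
      ∑ j ∈ Finset.range (t + 1), g (j + 1) := by
  have h1 : ∑ j ∈ Finset.range n, (if j + 1 ≤ t + 1 then g (j + 1) else 0) =
      ∑ j ∈ Finset.range (n + t + 1), (if j + 1 ≤ t + 1 then g (j + 1) else 0) := by
    apply Finset.sum_subset
    · intro x hx; rw [Finset.mem_range] at hx ⊢; omega
    · intro x _ hx
      rw [Finset.mem_range] at hx
      rw [hg (x + 1) (by omega), ite_self]
  have h2 : ∑ j ∈ Finset.range (t + 1), g (j + 1) =
      ∑ j ∈ Finset.range (n + t + 1), (if j + 1 ≤ t + 1 then g (j + 1) else 0) := by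
    rw [← Finset.sum_subset (s₁ := Finset.range (t + 1)) (s₂ := Finset.range (n + t + 1))]
    · refine Finset.sum_congr rfl fun j hj => ?_
      rw [Finset.mem_range] at hj
      rw [if_pos (by omega)]
    · intro x hx; rw [Finset.mem_range] at hx ⊢; omega
    · intro x _ hx
      rw [Finset.mem_range] at hx
      rw [if_neg (by omega)]
  rw [h1, h2]

/-- first form of the functional equation -/
theorem first_feq [Algebra ℚ K] (n : ℕ) (v : ℕ → K) (hv : ∀ j, n < j → v j = 0) :
    (p : K) • Lp p (hm p v) = (p : K) • (PowerSeries.X : PowerSeries K) +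
      ∑ j ∈ Finset.range n, (Lp p (hm p v)).subst
        (PowerSeries.C (v (j + 1)) * (PowerSeries.X : PowerSeries K) ^ p ^ (j + 1)) := by
  ext i
  rw [map_add, map_sum, PowerSeries.coeff_smul, PowerSeries.coeff_smul]
  by_cases h : ∃ t, i = p ^ t
  · obtain ⟨t, rfl⟩ := h
    rw [coeff_Lp_pow, Finset.sum_congr rfl fun j _ => coeff_Lp_subst_CX_pow _ _ (j + 1) t]
    rcases t with _ | t
    · rw [hm_zero, pow_zero, PowerSeries.coeff_one_X, Finset.sum_eq_zero, add_zero]
      intro j _
      rw [if_neg (by omega)]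
    · have h2 := sum_aux n t (fun j => hm p v (t + 1 - j) * v j ^ p ^ (t + 1 - j)) (by
        intro j hj
        rw [hv j hj, zero_pow (pow_ne_zero _ hp.out.ne_zero), mul_zero])
      rw [coeff_X_pow_succ, h2, smul_zero, zero_add, smul_eq_mul, hm_succ,
        ← Finset.sum_range_reflect]
      refine Finset.sum_congr rfl fun j hj => ?_
      rw [Finset.mem_range] at hj
      have e1 : t + 1 - 1 - j = t + 1 - (j + 1) := by omega
      have e2 : t + 1 - (t + 1 - (j + 1)) = j + 1 := by omega
      rw [e1, e2]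
  · push Not at h
    rw [coeff_Lp_of_ne _ h, coeff_X_ne h, Finset.sum_eq_zero, add_zero]
    intro j _
    exact coeff_Lp_subst_CX_ne _ _ _ h

/-- second form of the functional equation -/
theorem second_feq [Algebra ℚ K] (n : ℕ) (v : ℕ → K) (hv : ∀ j, n < j → v j = 0) :
    (p : K) • Lp p (hm p v) = (p : K) • (PowerSeries.X : PowerSeries K) +
      ∑ j ∈ Finset.range n, v (j + 1) • (Lp p (hm p (fun i => v i ^ p ^ (j + 1)))).subst
        ((PowerSeries.X : PowerSeries K) ^ p ^ (j + 1)) := by
  ext i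
  rw [map_add, map_sum, PowerSeries.coeff_smul, PowerSeries.coeff_smul]
  have e0 : ∀ j, PowerSeries.coeff i (v (j + 1) • (Lp p (hm p (fun i => v i ^ p ^ (j + 1)))).subst
        ((PowerSeries.X : PowerSeries K) ^ p ^ (j + 1))) =
      v (j + 1) * PowerSeries.coeff i ((Lp p (hm p (fun i => v i ^ p ^ (j + 1)))).subst
        (PowerSeries.C 1 * (PowerSeries.X : PowerSeries K) ^ p ^ (j + 1))) := by
    intro j
    rw [← X_pow_eq, PowerSeries.coeff_smul, smul_eq_mul]
  rw [Finset.sum_congr rfl fun j _ => e0 j]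
  by_cases h : ∃ t, i = p ^ t
  · obtain ⟨t, rfl⟩ := h
    rw [coeff_Lp_pow, Finset.sum_congr rfl fun j _ => by rw [coeff_Lp_subst_CX_pow _ _ (j + 1) t]]
    rcases t with _ | t
    · rw [hm_zero, pow_zero, PowerSeries.coeff_one_X, Finset.sum_eq_zero, add_zero]
      intro j _
      rw [if_neg (by omega), mul_zero]
    · have h2 := sum_aux n t (fun j => v j * (hm p (fun i => v i ^ p ^ j) (t + 1 - j) *
          1 ^ p ^ (t + 1 - j))) (by
        intro j hj
        rw [hv j hj, zero_mul])
      simp only [mul_ite, mul_zero]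
      rw [coeff_X_pow_succ, h2, smul_zero, zero_add, smul_eq_mul, second_hm]
      refine Finset.sum_congr rfl fun j hj => ?_
      rw [one_pow, mul_one, Nat.add_sub_add_right]
  · push Not at h
    rw [coeff_Lp_of_ne _ h, coeff_X_ne h, Finset.sum_eq_zero, add_zero]
    intro j _
    rw [coeff_Lp_subst_CX_ne _ _ _ h, mul_zero]

end Fel

end Chai
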