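import Vale.Agent.Chai.Density

/-!
# P217 / FinalA: invariant radical ideals containing `p` are height ideals
-/

namespace Chai

open MvPowerSeries

variable {p : ℕ} [Fact p.Prime] {n : ℕ}

theorem heightIdeal_succ_le {h : ℕ} (h1 : 1 ≤ h) {I : Ideal (E0 p n)} (hI : heightIdeal p n h ≤ I)
    (hu : uE p n h ∈ I) : heightIdeal p n (h + 1) ≤ I := by
  unfold heightIdeal
  rw [if_neg (by omega), Ideal.span_le]
  rintro a (ha | ⟨j, hj, hjh, rfl⟩)
  · rw [Set.mem_singleton_iff.1 ha]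
    exact hI (p_mem_heightIdeal h1)
  · rcases Nat.lt_or_ge j h with hlt | hge
    · exact hI (uE_mem_heightIdeal hj hlt)
    · have : j = h := by omega
      rw [this]
      exact hu

theorem heightIdeal_one_le {I : Ideal (E0 p n)} (hp : (p : E0 p n) ∈ I) : heightIdeal p n 1 ≤ I := by
  unfold heightIdeal
  rw [if_neg (by omega), Ideal.span_le]
  rintro a (ha | ⟨j, hj, hjh, rfl⟩)
  · rw [Set.mem_singleton_iff.1 ha]
    exact hp
  · omega

theorem eq_heightIdeal_of_p_mem (hn : 1 ≤ n) {I : Ideal (E0 p n)} (hrad : I.IsRadical)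
    (hinv : ∀ (φ : E0 p n ≃+* E0 p n) (ψ : PowerSeries (E0 p n)),
      IsIsoFG ψ ((univF p n).map (φ : E0 p n →+* E0 p n)) (univF p n) →
      (∀ w, φ (MvPowerSeries.C w) = MvPowerSeries.C w) → ∀ f ∈ I, φ f ∈ I)
    (hp : (p : E0 p n) ∈ I) (htop : I ≠ ⊤) : ∃ h, 1 ≤ h ∧ h ≤ n ∧ I = heightIdeal p n h := by
  classical
  let h := Nat.findGreatest (fun h => heightIdeal p n h ≤ I) n
  have hle : h ≤ n := Nat.findGreatest_le n
  have h1 : 1 ≤ h := Nat.le_findGreatest hn (heightIdeal_one_le hp)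
  have hI : heightIdeal p n h ≤ I :=
    Nat.findGreatest_spec (P := fun h => heightIdeal p n h ≤ I) hn (heightIdeal_one_le hp)
  refine ⟨h, h1, hle, ?_⟩
  rcases Nat.lt_or_ge h n with hlt | hge
  · have hu : uE p n h ∉ I := by
      intro hu
      have h2 : h + 1 ≤ h := Nat.le_findGreatest (P := fun h => heightIdeal p n h ≤ I)
        (by omega) (heightIdeal_succ_le h1 hI hu)
      omega
    refine le_antisymm ?_ hI
    intro f hf
    obtain ⟨C, i1, i2, i3, i4, i5, χ, hχ, hχI, hχu⟩ := exists_point_charP p n hn I hrad hp _ hu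
    refine density hn hχ h1 hlt (fun j hj hjh => hχI _ (hI (uE_mem_heightIdeal hj hjh))) hχu ?_
    intro φ ψ hiso hC
    exact hχI _ (hinv φ ψ hiso hC f hf)
  · have hhn : h = n := le_antisymm hle hge
    rw [hhn] at hI ⊢
    rw [heightIdeal_n hn] at hI ⊢
    exact ((mE_isMaximal hn).eq_of_le htop hI).symm

end Chai
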