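import Vale.Agent.Chai.LTDefs

/-!
# P217: definitions of the final statement (together with `Defs.lean` and `LTDefs.lean`)

* `IsHazewinkel p H`: `H` over `ℤ[v_1, v_2, …]` is Hazewinkel's universal `p`-typical formal group law.
* `moravaF p n H` over `E_0 = W(𝔽_{p^n})[[u_1, …, u_{n-1}]]`: `v_j = u_j` (`j < n`), `v_n = 1`, `v_j = 0` (`j > n`);
  this is the standard universal deformation of the Honda formal group `Γ_n` = `honda p n H`.
* `Acts F Γ σ γ φ`: the automorphism `φ` of `E_0` is the action of `(γ, σ) ∈ Aut(Γ_n) ⋊ Gal(𝔽_{p^n}/𝔽_p)`.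
-/

namespace Chai

open MvPowerSeries

/-- Hazewinkel's universal `p`-typical formal group law over `ℤ[v_1, v_2, …]`: its logarithm is
`hazLog p = ∑ m_k X^{p^k}`, `p m_k = ∑_{j<k} m_j v_{k-j}^{p^j}` -/
def IsHazewinkel (p : ℕ) (H : FormalGroup (MvPolynomial ℕ ℤ)) : Prop :=
  (hazLog p).subst (H.map (MvPolynomial.map (Int.castRingHom ℚ))).toPowerSeries =
    (hazLog p).subst (X 0 : MvPowerSeries (Fin 2) (MvPolynomial ℕ ℚ)) +
    (hazLog p).subst (X 1 : MvPowerSeries (Fin 2) (MvPolynomial ℕ ℚ))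

section
variable (p : ℕ) [Fact p.Prime] (n : ℕ)

/-- the universal deformation over `E_0`: `v_j = u_j` (`1 ≤ j < n`), `v_n = 1`, `v_j = 0` (`j > n`) -/
noncomputable def moravaF (H : FormalGroup (MvPolynomial ℕ ℤ)) : FormalGroup (E0 p n) :=
  H.map (MvPolynomial.eval₂Hom (Int.castRingHom (E0 p n)) (prm n (uE p n)))

/-- the Honda formal group `Γ_n` of height `n` over `𝔽_{p^n}`: `v_n = 1`, `v_j = 0` for `j ≠ n` -/
noncomputable def honda (H : FormalGroup (MvPolynomial ℕ ℤ)) : FormalGroup (GaloisField p n) :=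
  H.map (MvPolynomial.eval₂Hom (Int.castRingHom (GaloisField p n)) (prm n 0))

variable {p n}

/-- The ring automorphism `φ` of `E_0` is the action of the element `(γ, σ)` of the extended Morava
stabilizer group `Aut(Γ_n) ⋊ Gal(𝔽_{p^n}/𝔽_p)`: `φ` induces `σ` on the residue field, and `γ` lifts to an
isomorphism `ψ : φ_* F ≅ F`. -/
def Acts (F : FormalGroup (E0 p n)) (σ : GaloisField p n ≃+* GaloisField p n)
    (γ : PowerSeries (GaloisField p n)) (φ : E0 p n ≃+* E0 p n) : Prop :=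
  (∀ a, resE p n (φ a) = σ (resE p n a)) ∧
    ∃ ψ : PowerSeries (E0 p n), IsIsoFG ψ (F.map (φ : E0 p n →+* E0 p n)) F ∧
      ψ.map (resE p n) = γ

/-- invariance under the subgroup `Aut(Γ_n)` (`σ = 1`) -/
def AutInvariant (F : FormalGroup (E0 p n)) (Γ : FormalGroup (GaloisField p n))
    (I : Ideal (E0 p n)) : Prop :=
  ∀ γ : PowerSeries (GaloisField p n), IsIsoFG γ Γ Γ → ∀ φ : E0 p n ≃+* E0 p n,
    Acts F (RingEquiv.refl _) γ φ → I.map (φ : E0 p n →+* E0 p n) = I

/-- invariance under the extended Morava stabilizer group `G_n = Aut(Γ_n) ⋊ Gal(𝔽_{p^n}/𝔽_p)` -/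
def GnInvariant (F : FormalGroup (E0 p n)) (Γ : FormalGroup (GaloisField p n))
    (I : Ideal (E0 p n)) : Prop :=
  ∀ (σ : GaloisField p n ≃+* GaloisField p n) (γ : PowerSeries (GaloisField p n)), IsIsoFG γ Γ Γ →
    ∀ φ : E0 p n ≃+* E0 p n, Acts F σ γ φ → I.map (φ : E0 p n →+* E0 p n) = I

end

end Chai
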