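import Vale.Agent.Chai.FinalDefs

/-!
# P217 / LTact1: `IsHazewinkel` pins down a unique formal group, and `haz p` is one
-/

namespace Chai

open MvPowerSeries

variable {p : ℕ} [Fact p.Prime]

theorem isHazewinkel_haz : IsHazewinkel p (haz p) :=
  (Classical.choose_spec (exists_haz p)).2

theorem haz_unique {H H' : FormalGroup (MvPolynomial ℕ ℤ)} (h : IsHazewinkel p H)
    (h' : IsHazewinkel p H') : H = H' := by
  unfold IsHazewinkel at h h'
  rw [Fel.hazLog_eq] at h h'
  have h2 := Fel.Lp_subst_injective (p := p) (Fel.hazM_zero p)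
    (FormalGroup.zero_constantCoeff _) (FormalGroup.zero_constantCoeff _) (h.trans h'.symm)
  apply FormalGroup.ext
  have hinj : Function.Injective (MvPolynomial.map (σ := ℕ) (Int.castRingHom ℚ)) :=
    MvPolynomial.map_injective _ Int.cast_injective
  ext1 e
  apply hinj
  have h3 := congrArg (coeff e) h2
  rw [FormalGroup.map_toPowerSeries, FormalGroup.map_toPowerSeries] at h3
  rw [coeff_map, coeff_map] at h3
  exact h3

end Chai
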