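import Vale.Agent.Chai.FinalA
import Vale.Agent.Chai.Char0G
import Vale.Agent.Chai.FinalDefs
import Vale.Agent.Chai.LTact1

/-!
# P217 / FinalB: the classification of invariant radical ideals
-/

namespace Chai

open MvPowerSeries

variable {p : ℕ} [Fact p.Prime] {n : ℕ}

theorem map_mem_mE (hn : 1 ≤ n) (φ : E0 p n ≃+* E0 p n) {a : E0 p n} (ha : a ∈ mE p n) :
    φ a ∈ mE p n := by
  have hm : mE p n = IsLocalRing.maximalIdeal (E0 p n) :=
    IsLocalRing.eq_maximalIdeal (mE_isMaximal hn)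
  rw [hm, IsLocalRing.mem_maximalIdeal, mem_nonunits_iff] at ha ⊢
  intro hu
  apply ha
  have := hu.map (φ.symm : E0 p n →+* E0 p n)
  simpa using this

theorem resE_of_fix (hn : 1 ≤ n) {φ : E0 p n ≃+* E0 p n}
    (hC : ∀ w, φ (MvPowerSeries.C w) = MvPowerSeries.C w) (a : E0 p n) :
    resE p n (φ a) = resE p n a := by
  have h1 : a - MvPowerSeries.C (MvPowerSeries.constantCoeff a) ∈ mE p n := by
    show resE p n _ = 0
    unfold resE
    simp
  have h2 := map_mem_mE hn φ h1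
  have h3 : resE p n (φ (a - MvPowerSeries.C (MvPowerSeries.constantCoeff a))) = 0 := h2
  rw [map_sub, map_sub, hC, sub_eq_zero] at h3
  rw [h3]
  unfold resE
  simp

/-- every automorphism over `W(k)` with an isomorphism `φ_* F ≅ F` is the action of an element of
`Aut(Γ_n)` -/
theorem acts_of_fix (hn : 1 ≤ n) {φ : E0 p n ≃+* E0 p n} {ψ : PowerSeries (E0 p n)}
    (hψ : IsIsoFG ψ ((univF p n).map (φ : E0 p n →+* E0 p n)) (univF p n))
    (hC : ∀ w, φ (MvPowerSeries.C w) = MvPowerSeries.C w) :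
    IsIsoFG (ψ.map (resE p n)) (hazF p (prm n 0)) (hazF p (prm n 0)) ∧
      Acts (univF p n) (RingEquiv.refl _) (ψ.map (resE p n)) φ := by
  have hφ : ∀ a, φ a - a ∈ mE p n := by
    intro a
    show resE p n (φ a - a) = 0
    rw [map_sub, resE_of_fix hn hC, sub_self]
  refine ⟨⟨isHom_res hφ hψ.1, ?_⟩, ?_, ψ, hψ, rfl⟩
  · rw [PowerSeries.coeff_map]
    exact hψ.2.map (resE p n)
  · intro a
    rw [resE_of_fix hn hC]
    rfl

theorem eq_heightIdeal_of_autInvariant (hn : 1 ≤ n) {I : Ideal (E0 p n)} (hrad : I.IsRadical)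
    (hinv : AutInvariant (univF p n) (hazF p (prm n 0)) I) :
    I = ⊤ ∨ ∃ h ≤ n, I = heightIdeal p n h := by
  have hinv' : ∀ (φ : E0 p n ≃+* E0 p n) (ψ : PowerSeries (E0 p n)),
      IsIsoFG ψ ((univF p n).map (φ : E0 p n →+* E0 p n)) (univF p n) →
      (∀ w, φ (MvPowerSeries.C w) = MvPowerSeries.C w) → ∀ f ∈ I, φ f ∈ I := by
    intro φ ψ hψ hC f hf
    obtain ⟨h1, h2⟩ := acts_of_fix hn hψ hC
    have h3 := hinv _ h1 φ h2
    have h4 := Ideal.mem_map_of_mem (φ : E0 p n →+* E0 p n) hf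
    rw [h3] at h4
    exact h4
  by_cases hp : (p : E0 p n) ∈ I
  · by_cases htop : I = ⊤
    · exact Or.inl htop
    · obtain ⟨h, _, hh, hI⟩ := eq_heightIdeal_of_p_mem hn hrad hinv' hp htop
      exact Or.inr ⟨h, hh, hI⟩
  · right
    refine ⟨0, Nat.zero_le _, ?_⟩
    have h0 : heightIdeal p n 0 = ⊥ := by
      unfold heightIdeal
      rw [if_pos rfl]
    rw [h0, eq_bot_iff]
    intro f hf
    obtain ⟨C, i1, i2, i3, i4, i5, χ, hχ, hχI⟩ := exists_point_char0 p n hn I hrad hp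
    rw [Ideal.mem_bot]
    exact density0 hn hχ fun φ ψ hψ hC => hχI _ (hinv' φ ψ hψ hC f hf)

theorem heightIdeal_gnInvariant (hn : 1 ≤ n) {h : ℕ} (hh : h ≤ n) :
    GnInvariant (univF p n) (hazF p (prm n 0)) (heightIdeal p n h) := by
  intro σ γ _ φ hφ
  obtain ⟨_, ψ, hψ, _⟩ := hφ
  exact heightIdeal_invariant hn hh φ ψ hψ

theorem GnInvariant.autInvariant {F : FormalGroup (E0 p n)} {Γ : FormalGroup (GaloisField p n)}
    {I : Ideal (E0 p n)} (h : GnInvariant F Γ I) : AutInvariant F Γ I :=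
  fun γ hγ φ hφ => h (RingEquiv.refl _) γ hγ φ hφ

theorem moravaF_haz : moravaF p n (haz p) = univF p n := rfl

theorem honda_haz : honda p n (haz p) = hazF p (prm n 0) := rfl

end Chai
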