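import Vale.Agent.Chai.Fel6

/-!
# P217 / Haz: Hazewinkel's universal p-typical formal group law

OWNER: helper2

`haz p : FormalGroup (MvPolynomial ℕ ℤ)` has logarithm `hazLog p`; `hazF p v` is its image under
`v_j ↦ v j` in any ring.

PROOFS.  Functional equation lemma.  Setting: `B` a ring, `K ⊇ B` a `ℚ`-algebra, `σ : B → B`
with `σ b ≡ b^p mod p` (extended to `K`), `v j ∈ B` (`j ≥ 1`),
`f = ∑ m_k X^{p^k} ∈ K[[X]]`, `m_0 = 1`, `p m_k = ∑_{1≤j≤k} v_j σ^j(m_{k-j})`
(for `B = ℤ[v]`, `σ v_j = v_j^p` this follows from the other recursion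
`p m_k = ∑ m_{k-j} v_j^{p^{k-j}}`: both are `m_k = ∑_{j_1+..+j_r=k} v_{j_1} v_{j_2}^{p^{j_1}} ⋯ / p^r`).
Facts used again and again:
 (0) `a ≡ b mod p B[[τ]]` implies `a^{p^i} ≡ b^{p^i} mod p^{i+1}`, hence (as `p^i m_i ∈ B`)
     `f(a) ≡ f(b) mod p`  (constant terms zero), and `σ_*g(X^p) ≡ g^p mod p` for `g ∈ B[[τ]]`.
 (1) if `G ∈ K[[τ]]`, `G(0)=0` and `p G - ∑_j v_j σ^j_* G (τ^{p^j}) ∈ p B[[τ]]`, then the series
     `β` with `f(β) = G` lies in `B[[τ]]`: `β = η + ∑_j (v_j/p) [σ^j f(σ^j β(τ^{p^j})) - σ^j f(β^{p^j})]`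
     where `G = η + ∑ (v_j/p) σ^j G(τ^{p^j})`, and coefficients of degree `d` on the right only
     involve coefficients of degree `< d` of `β`; each bracket is `≡ 0 mod p` by (0).
 Existence of `haz`: (1) with `τ = {X,Y}` and `G = f(X) + f(Y)`.
 p-series: `p f(X) = p X + ∑_j f(v_j X^{p^j})`, so `[p](X) = f^{-1}(pX) +_F ∑^F_j v_j X^{p^j}` and
 `f^{-1}(pX) ∈ p ℤ[v][[X]]`; reduce mod p.
-/

namespace Chai

open MvPowerSeries

theorem exists_haz (p : ℕ) [Fact p.Prime] : ∃ F : FormalGroup (MvPolynomial ℕ ℤ), F.IsComm ∧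
    (hazLog p).subst (F.map (MvPolynomial.map (Int.castRingHom ℚ))).toPowerSeries =
      (hazLog p).subst (X 0 : MvPowerSeries (Fin 2) (MvPolynomial ℕ ℚ)) +
      (hazLog p).subst (X 1 : MvPowerSeries (Fin 2) (MvPolynomial ℕ ℚ)) := by
  obtain ⟨F, h1, h2⟩ := (Fel.polyData p (fun j => MvPolynomial.X j)
    (fun j _ => MvPolynomial.expand_X _ _)).exists_fg
  refine ⟨F, h1, ?_⟩
  have h : Fel.Lp p (Fel.polyData p (fun j => MvPolynomial.X j)
    (fun j _ => MvPolynomial.expand_X _ _)).m = hazLog p := by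
    rw [Fel.hazLog_eq]
    exact congrArg _ (Fel.hm_X p)
  rw [h] at h2
  exact h2

/-- the universal p-typical formal group law (Hazewinkel generators) -/
noncomputable def haz (p : ℕ) [Fact p.Prime] : FormalGroup (MvPolynomial ℕ ℤ) :=
  Classical.choose (exists_haz p)

/-- its specialisation at `v : ℕ → R` -/
noncomputable def hazF (p : ℕ) [Fact p.Prime] {R : Type*} [CommRing R] (v : ℕ → R) :
    FormalGroup R := (haz p).map (MvPolynomial.eval₂Hom (Int.castRingHom R) v)

theorem fg_map_map {R S T : Type*} [CommRing R] [CommRing S] [CommRing T] (F : FormalGroup R)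
    (φ : R →+* S) (ψ : S →+* T) : (F.map φ).map ψ = F.map (ψ.comp φ) := by
  apply FormalGroup.ext
  rw [FormalGroup.map_toPowerSeries, FormalGroup.map_toPowerSeries,
    FormalGroup.map_toPowerSeries, MvPowerSeries.map_comp]
  rfl

theorem fg_map_isComm {R S : Type*} [CommRing R] [CommRing S] (F : FormalGroup R) (h : F.IsComm)
    (φ : R →+* S) : (F.map φ).IsComm := by
  refine ⟨?_⟩
  have h1 := congrArg (MvPowerSeries.map φ) h.comm
  rw [Fel.map_subst_pair (constantCoeff_X _) (constantCoeff_X _), map_X, map_X] at h1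
  exact h1

section
variable (p : ℕ) [Fact p.Prime] {R S : Type*} [CommRing R] [CommRing S]

theorem hazF_map (φ : R →+* S) (v : ℕ → R) : (hazF p v).map φ = hazF p (fun j => φ (v j)) := by
  rw [hazF, hazF, fg_map_map, MvPolynomial.comp_eval₂Hom]
  congr 2
  exact Subsingleton.elim _ _

theorem hazF_comm (v : ℕ → R) : (hazF p v).IsComm :=
  fg_map_isComm _ (Classical.choose_spec (exists_haz p)).1 _

/-- the logarithm of `hazF p v` over a `ℚ`-algebra -/
noncomputable def hlog {K : Type*} [CommRing K] [Algebra ℚ K] (v : ℕ → K) : PowerSeries K :=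
  (hazLog p).map (MvPolynomial.eval₂Hom (algebraMap ℚ K) v)

theorem hlog_eq {K : Type*} [CommRing K] [Algebra ℚ K] (v : ℕ → K) :
    hlog p v = Fel.Lp p (Fel.hm p v) := by
  rw [hlog, Fel.hazLog_eq, Fel.map_Lp]
  rfl

theorem hlog_hazF {K : Type*} [CommRing K] [Algebra ℚ K] (v : ℕ → K) :
    (hlog p v).subst (hazF p v).toPowerSeries =
      (hlog p v).subst (X 0 : MvPowerSeries (Fin 2) K) +
      (hlog p v).subst (X 1 : MvPowerSeries (Fin 2) K) := by
  have h := congrArg (MvPowerSeries.map (MvPolynomial.eval₂Hom (algebraMap ℚ K) v))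
    (Classical.choose_spec (exists_haz p)).2
  rw [map_add, PowerSeries.map_subst (Fel.hasSubst0 (FormalGroup.zero_constantCoeff _)),
    PowerSeries.map_subst (Fel.hasSubst0 (constantCoeff_X _)),
    PowerSeries.map_subst (Fel.hasSubst0 (constantCoeff_X _)), map_X, map_X] at h
  have h2 : hazF p v = ((haz p).map (MvPolynomial.map (Int.castRingHom ℚ))).map
      (MvPolynomial.eval₂Hom (algebraMap ℚ K) v) := by
    rw [hazF, fg_map_map]
    congr 1
    apply MvPolynomial.ringHom_ext
    · intro r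
      simp
    · intro i
      simp
  rw [h2]
  exact h

/-- functional equation (second form), `v_j = 0` for `j > n` -/
theorem hlog_feq {K : Type*} [CommRing K] [Algebra ℚ K] (n : ℕ) (v : ℕ → K)
    (hv : ∀ j, n < j → v j = 0) :
    (p : K) • hlog p v = (p : K) • (PowerSeries.X : PowerSeries K) +
      ∑ j ∈ Finset.Icc 1 n, v j • (hlog p (fun i => v i ^ p ^ j)).subst
        ((PowerSeries.X : PowerSeries K) ^ p ^ j) := by
  simp only [hlog_eq]
  rw [Fel.second_feq n v hv]
  congr 1
  rw [Finset.range_eq_Ico]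
  exact Finset.sum_Ico_add' (fun j => v j • (Fel.Lp p (Fel.hm p (fun i => v i ^ p ^ j))).subst
    ((PowerSeries.X : PowerSeries K) ^ p ^ j)) 0 n 1

/-- formal sum `a_1 +_F (a_2 +_F (⋯ +_F 0))` of a list -/
noncomputable def fsum {τ : Type*} (F : FormalGroup R) : List (MvPowerSeries τ R) →
    MvPowerSeries τ R
  | [] => 0
  | a :: l => F.toPowerSeries.subst ![a, fsum F l]

theorem haz_constantCoeff_fsum {τ : Type*} (F : FormalGroup R) {l : List (MvPowerSeries τ R)}
    (hl : ∀ a ∈ l, constantCoeff a = 0) : constantCoeff (fsum F l) = 0 := by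
  induction l with
  | nil => exact map_zero _
  | cons a l ih =>
    exact Fel.constantCoeff_subst_pair F.zero_constantCoeff (hl a (by simp))
      (ih fun b hb => hl b (by simp [hb]))

theorem map_fsum {τ : Type*} (F : FormalGroup R) (φ : R →+* S) {l : List (MvPowerSeries τ R)}
    (hl : ∀ a ∈ l, constantCoeff a = 0) :
    (fsum F l).map φ = fsum (F.map φ) (l.map (MvPowerSeries.map φ)) := by
  induction l with
  | nil => exact map_zero _
  | cons a l ih =>
    have h := ih fun b hb => hl b (by simp [hb])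
    rw [fsum, Fel.map_subst_pair (hl a (by simp))
      (haz_constantCoeff_fsum F fun b hb => hl b (by simp [hb])), h]
    rfl

theorem constantCoeff_mulPS' (F : FormalGroup R) (m : ℕ) :
    MvPowerSeries.constantCoeff (mulPS F m) = 0 := by
  induction m with
  | zero => exact map_zero _
  | succ m ih =>
    exact Fel.constantCoeff_subst_pair F.zero_constantCoeff ih PowerSeries.constantCoeff_X

theorem map_mulPS (F : FormalGroup R) (φ : R →+* S) (m : ℕ) :
    (mulPS F m).map φ = mulPS (F.map φ) m := by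
  induction m with
  | zero => exact map_zero _
  | succ m ih =>
    have h := Fel.map_subst_pair (ι := φ) (F := F.toPowerSeries) (a := mulPS F m)
      (b := (PowerSeries.X : PowerSeries R)) (constantCoeff_mulPS' F m) PowerSeries.constantCoeff_X
    have h2 : MvPowerSeries.map φ (PowerSeries.X : PowerSeries R) =
      (PowerSeries.X : PowerSeries S) := PowerSeries.map_X φ
    rw [h2] at h
    rw [mulPS, mulPS, ← ih]
    exact h

section
variable {p}
variable {B K : Type*} [CommRing B] [CommRing K] (D : Fel.Data p B K) (F : FormalGroup B)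
  (hF : (Fel.Lp p D.m).subst (F.toPowerSeries.map D.ι) =
    (Fel.Lp p D.m).subst (X 0 : MvPowerSeries (Fin 2) K) +
      (Fel.Lp p D.m).subst (X 1 : MvPowerSeries (Fin 2) K))
include hF

theorem log_fsum {τ : Type*} {l : List (MvPowerSeries τ B)}
    (hl : ∀ a ∈ l, constantCoeff a = 0) :
    (Fel.Lp p D.m).subst ((fsum F l).map D.ι) =
      (l.map fun a => (Fel.Lp p D.m).subst (a.map D.ι)).sum := by
  induction l with
  | nil =>
    rw [List.map_nil, List.sum_nil, fsum, map_zero]
    ext e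
    rw [Fel.coeff_Lp_subst _ (map_zero _) _ _ le_rfl, coeff_zero]
    apply Finset.sum_eq_zero
    intro k _
    rw [zero_pow (pow_ne_zero k (Fact.out : p.Prime).ne_zero), coeff_zero, mul_zero]
  | cons a l ih =>
    have h := ih fun b hb => hl b (by simp [hb])
    rw [fsum, D.log_pair F.zero_constantCoeff hF (hl a (by simp))
      (haz_constantCoeff_fsum F fun b hb => hl b (by simp [hb])), h, List.map_cons, List.sum_cons]

theorem log_mulPS (m : ℕ) :
    (Fel.Lp p D.m).subst (MvPowerSeries.map (σ := Unit) D.ι (mulPS F m)) =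
    (m : K) • (Fel.Lp p D.m) := by
  induction m with
  | zero =>
    rw [mulPS, map_zero, Nat.cast_zero, zero_smul]
    ext e
    have h := Fel.coeff_Lp_subst (p := p) (τ := Unit) D.m (a := 0) (map_zero _)
      (Finsupp.single () e) _ le_rfl
    refine h.trans (Eq.trans ?_ (map_zero _).symm)
    apply Finset.sum_eq_zero
    intro k _
    rw [zero_pow (pow_ne_zero k (Fact.out : p.Prime).ne_zero), coeff_zero, mul_zero]
  | succ m ih =>
    have h := D.log_pair F.zero_constantCoeff hF (a := mulPS F m)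
      (b := (PowerSeries.X : PowerSeries B)) (constantCoeff_mulPS' F m) PowerSeries.constantCoeff_X
    have h2 : MvPowerSeries.map D.ι (PowerSeries.X : PowerSeries B) =
      (PowerSeries.X : PowerSeries K) := PowerSeries.map_X D.ι
    have h3 : (Fel.Lp p D.m).subst (PowerSeries.X : PowerSeries K) = Fel.Lp p D.m := by
      have := MvPowerSeries.subst_self (R := K) (σ := Unit)
      exact congrFun this _
    rw [h2, h3] at h
    rw [mulPS]
    refine h.trans ?_
    rw [Nat.cast_succ, add_smul, one_smul, ← ih]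

end

theorem haz_sum_map_range {M : Type*} [AddCommMonoid M] (n : ℕ) (g : ℕ → M) :
    ((List.range n).map g).sum = ∑ j ∈ Finset.range n, g j := by
  induction n with
  | zero => rfl
  | succ n ih => rw [List.range_succ, List.map_append, List.sum_append, ih, Finset.sum_range_succ,
      List.map_singleton, List.sum_singleton]

theorem haz_map_CX (φ : R →+* S) (c : R) (q : ℕ) :
    MvPowerSeries.map φ (PowerSeries.C c * (PowerSeries.X : PowerSeries R) ^ q) =
      PowerSeries.C (φ c) * (PowerSeries.X : PowerSeries S) ^ q := by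
  change PowerSeries.map φ (PowerSeries.C c * (PowerSeries.X : PowerSeries R) ^ q) = _
  rw [map_mul, map_pow, PowerSeries.map_C, PowerSeries.map_X]

/-- in characteristic `p`: `[p](X) = v_1 X^p +_F v_2 X^{p^2} +_F ⋯ +_F v_n X^{p^n}` -/
theorem mulPS_hazF [CharP R p] (n : ℕ) (v : ℕ → R) (hv : ∀ j, n < j → v j = 0) :
    mulPS (hazF p v) p = fsum (hazF p v)
      ((List.range n).map fun j => PowerSeries.C (v (j + 1)) * (PowerSeries.X : PowerSeries R) ^ p ^ (j + 1)) := by
  have hp : p.Prime := Fact.out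
  -- universal case
  let w : ℕ → MvPolynomial ℕ ℤ := fun j => if j ≤ n then MvPolynomial.X j else 0
  have hw : ∀ j, 1 ≤ j → MvPolynomial.expand p (w j) = w j ^ p := by
    intro j _
    change MvPolynomial.expand p (if j ≤ n then MvPolynomial.X j else 0) =
      (if j ≤ n then MvPolynomial.X j else 0) ^ p
    split_ifs
    · exact MvPolynomial.expand_X _ _
    · rw [map_zero, zero_pow hp.ne_zero]
  let D := Fel.polyData p w hw
  let ι : MvPolynomial ℕ ℤ →+* MvPolynomial ℕ ℚ := MvPolynomial.map (Int.castRingHom ℚ)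
  have hι : D.ι = ι := rfl
  have hm : Fel.Lp p D.m = hlog p (fun j => ι (w j)) := by rw [hlog_eq]; rfl
  have hF : (Fel.Lp p D.m).subst ((hazF p w).toPowerSeries.map D.ι) =
      (Fel.Lp p D.m).subst (X 0 : MvPowerSeries (Fin 2) (MvPolynomial ℕ ℚ)) +
      (Fel.Lp p D.m).subst (X 1 : MvPowerSeries (Fin 2) (MvPolynomial ℕ ℚ)) := by
    have h := hlog_hazF p (fun j => ι (w j))
    rw [← hazF_map] at h
    rw [hm]
    exact h
  let l : List (PowerSeries (MvPolynomial ℕ ℤ)) := (List.range n).map fun j =>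
    PowerSeries.C (w (j + 1)) * (PowerSeries.X : PowerSeries (MvPolynomial ℕ ℤ)) ^ p ^ (j + 1)
  have hl : ∀ a ∈ l, MvPowerSeries.constantCoeff a = 0 := by
    intro a ha
    obtain ⟨j, _, rfl⟩ := List.mem_map.1 ha
    exact Fel.constantCoeff_CX _ (pow_ne_zero _ hp.ne_zero)
  have hlog1 := log_mulPS D (hazF p w) hF p
  have hlog2 := log_fsum D (hazF p w) hF hl
  have hdvd : ((p : ℕ) : PowerSeries (MvPolynomial ℕ ℤ)) ∣
      mulPS (hazF p w) p - fsum (hazF p w) l := by
    apply D.dvd_of_log (constantCoeff_mulPS' _ _) (haz_constantCoeff_fsum _ hl)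
    intro e
    refine ⟨MvPowerSeries.coeff e (PowerSeries.X : PowerSeries (MvPolynomial ℕ ℤ)), ?_⟩
    have h1 := Fel.first_feq (p := p) n (fun j => ι (w j)) (by
      intro j hj
      change ι (if j ≤ n then MvPolynomial.X j else 0) = 0
      rw [if_neg (by omega), map_zero])
    have h2 : (l.map fun a => (Fel.Lp p D.m).subst (MvPowerSeries.map D.ι a)).sum =
        ∑ j ∈ Finset.range n, (Fel.Lp p D.m).subst (PowerSeries.C (ι (w (j + 1))) *
          (PowerSeries.X : PowerSeries (MvPolynomial ℕ ℚ)) ^ p ^ (j + 1)) := by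
      rw [List.map_map, haz_sum_map_range]
      refine Finset.sum_congr rfl fun j _ => ?_
      exact congrArg (fun z => (Fel.Lp p D.m).subst z) (haz_map_CX D.ι _ _)
    have h3 : (p : MvPolynomial ℕ ℚ) • Fel.Lp p D.m =
        (p : MvPolynomial ℕ ℚ) • (PowerSeries.X : PowerSeries (MvPolynomial ℕ ℚ)) +
        ∑ j ∈ Finset.range n, (Fel.Lp p D.m).subst (PowerSeries.C (ι (w (j + 1))) *
          (PowerSeries.X : PowerSeries (MvPolynomial ℕ ℚ)) ^ p ^ (j + 1)) := h1
    rw [hlog1, hlog2, h2, h3, ← map_sub, add_sub_cancel_right]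
    have h4 : D.ι (MvPowerSeries.coeff e (PowerSeries.X : PowerSeries (MvPolynomial ℕ ℤ))) =
        MvPowerSeries.coeff e (PowerSeries.X : PowerSeries (MvPolynomial ℕ ℚ)) := by
      rw [← MvPowerSeries.coeff_map]
      exact congrArg _ (PowerSeries.map_X D.ι)
    rw [h4]
    exact MvPowerSeries.coeff_smul _ _ _
  -- specialise
  let φ : MvPolynomial ℕ ℤ →+* R := MvPolynomial.eval₂Hom (Int.castRingHom R) v
  have hφw : ∀ j, φ (w j) = v j := by
    intro j
    change φ (if j ≤ n then MvPolynomial.X j else 0) = v j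
    split_ifs with hj
    · exact MvPolynomial.eval₂Hom_X' _ _ _
    · rw [map_zero, hv j (by omega)]
  obtain ⟨g, hg⟩ := hdvd
  have hg2 := congrArg (MvPowerSeries.map φ) hg
  have hF2 : (hazF p w).map φ = hazF p v := by
    rw [hazF_map]
    congr 1
    funext j
    exact hφw j
  have e1 : MvPowerSeries.map φ (mulPS (hazF p w) p) = mulPS (hazF p v) p := by
    rw [← hF2]
    exact map_mulPS _ _ _
  have e2 : MvPowerSeries.map φ (fsum (hazF p w) l) = fsum (hazF p v)
      ((List.range n).map fun j => PowerSeries.C (v (j + 1)) *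
        (PowerSeries.X : PowerSeries R) ^ p ^ (j + 1)) := by
    rw [map_fsum _ _ hl, hF2, List.map_map]
    congr 1
    apply List.map_congr_left
    intro j _
    rw [← hφw]
    exact haz_map_CX φ _ _
  have e3 : MvPowerSeries.map φ ((p : PowerSeries (MvPolynomial ℕ ℤ)) * g) = 0 := by
    have : MvPowerSeries.map φ ((p : MvPowerSeries Unit (MvPolynomial ℕ ℤ)) * g) =
        (p : MvPowerSeries Unit R) * MvPowerSeries.map φ g := by
      rw [map_mul, map_natCast]
    refine this.trans ?_
    have hp0 : (p : MvPowerSeries Unit R) = 0 := by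
      have : (p : MvPowerSeries Unit R) = MvPowerSeries.C (p : R) :=
        (map_natCast MvPowerSeries.C p).symm
      rw [this, CharP.cast_eq_zero, map_zero]
    rw [hp0, zero_mul]
  rw [e3] at hg2
  have e4 : MvPowerSeries.map φ (mulPS (hazF p w) p - fsum (hazF p w) l) =
      MvPowerSeries.map φ (mulPS (hazF p w) p) - MvPowerSeries.map φ (fsum (hazF p w) l) :=
    map_sub _ _ _
  rw [e4, e1, e2] at hg2
  exact sub_eq_zero.1 hg2

theorem map_prm (φ : R →+* S) (n : ℕ) :
    (fun j => φ (prm n (0 : ℕ → R) j)) = prm n (0 : ℕ → S) := by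
  funext j
  simp only [prm]
  split_ifs
  · exact map_zero _
  · exact map_one _
  · exact map_zero _

theorem coeff_honda (n : ℕ) (e : Fin 2 →₀ ℕ) :
    coeff e (hazF p (prm n (0 : ℕ → R))).toPowerSeries =
      ((coeff e (hazF p (prm n (0 : ℕ → ℤ))).toPowerSeries : ℤ) : R) := by
  have h := hazF_map p (Int.castRingHom R) (prm n (0 : ℕ → ℤ))
  rw [map_prm] at h
  rw [← h]
  exact coeff_map _ _ _

theorem haz_subst_CX {τ : Type*} (c : R) {a : MvPowerSeries τ R} (ha : constantCoeff a = 0) :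
    (PowerSeries.C c * PowerSeries.X : PowerSeries R).subst a = C c * a := by
  have hs := Fel.hasSubst0 ha
  rw [PowerSeries.subst_mul hs, PowerSeries.subst_C, PowerSeries.subst_X hs]

theorem haz_subst_rescale (c : R) (F : MvPowerSeries (Fin 2) R) :
    F.subst ![C c * X 0, C c * X 1] = rescale (fun _ => c) F := by
  rw [rescale_eq_subst]
  congr 1
  funext i
  fin_cases i
  · simp [Pi.smul_apply', smul_eq_C_mul]
  · simp [Pi.smul_apply', smul_eq_C_mul]

theorem coeff_rescale' (c : R) (F : MvPowerSeries (Fin 2) R) (e : Fin 2 →₀ ℕ) :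
    coeff e (rescale (fun _ => c) F) = c ^ e.degree * coeff e F := by
  rw [coeff_rescale]
  congr 1
  rw [Finsupp.prod, Finsupp.degree, Finset.prod_pow_eq_pow_sum]
  rfl

theorem hm_honda {K : Type*} [CommRing K] [Algebra ℚ K] (n : ℕ) (ζ : K) (hζ : ζ ^ p ^ n = ζ)
    (k : ℕ) : Fel.hm p (prm n (0 : ℕ → K)) k * ζ ^ p ^ k =
      ζ * Fel.hm p (prm n (0 : ℕ → K)) k := by
  have hp : p.Prime := Fact.out
  induction k using Nat.strong_induction_on with
  | _ k ih =>
    rcases k with _ | k
    · rw [Fel.hm_zero, pow_zero, pow_one, one_mul, mul_one]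
    · have hinv := Fel.p_mul_inv p (K := K)
      have key : (p : K) * (Fel.hm p (prm n (0 : ℕ → K)) (k + 1) * ζ ^ p ^ (k + 1)) =
          p * (ζ * Fel.hm p (prm n (0 : ℕ → K)) (k + 1)) := by
        rw [mul_left_comm (p : K) ζ, ← mul_assoc, Fel.hm_succ, Finset.sum_mul, Finset.mul_sum]
        refine Finset.sum_congr rfl fun j hj => ?_
        rw [Finset.mem_range] at hj
        by_cases hjn : k + 1 - j = n
        · have h1 : prm n (0 : ℕ → K) (k + 1 - j) = 1 := by
            rw [hjn, prm, if_neg (by omega), if_pos rfl]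
          have h2 : p ^ (k + 1) = p ^ n * p ^ j := by
            rw [← pow_add]; congr 1; omega
          rw [h1, one_pow, mul_one, h2, pow_mul, hζ, ih j hj]
        · have h1 : prm n (0 : ℕ → K) (k + 1 - j) = 0 := by
            simp only [prm]
            split_ifs
            · rfl
            · rfl
          rw [h1, zero_pow (pow_ne_zero _ hp.ne_zero), mul_zero, zero_mul, mul_zero]
      have h2 := congrArg (fun z => algebraMap ℚ K (1 / p) * z) key
      simp only [← mul_assoc] at h2
      rw [mul_comm (algebraMap ℚ K (1 / p)), hinv, one_mul, one_mul] at h2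
      exact h2

theorem honda_smul_rat {K : Type*} [CommRing K] [Algebra ℚ K] (n : ℕ) (ζ : K)
    (hζ : ζ ^ p ^ n = ζ) : C ζ * (hazF p (prm n (0 : ℕ → K))).toPowerSeries =
      rescale (fun _ => ζ) (hazF p (prm n (0 : ℕ → K))).toPowerSeries := by
  set F := hazF p (prm n (0 : ℕ → K)) with hF
  have hsc : ∀ a : MvPowerSeries (Fin 2) K, constantCoeff a = 0 →
      constantCoeff (C ζ * a) = 0 := fun a ha => by rw [map_mul, ha, mul_zero]
  have key : ∀ a : MvPowerSeries (Fin 2) K, constantCoeff a = 0 →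
      (Fel.Lp p (Fel.hm p (prm n (0 : ℕ → K)))).subst (C ζ * a) =
        C ζ * (Fel.Lp p (Fel.hm p (prm n (0 : ℕ → K)))).subst a := by
    intro a ha
    ext e
    rw [coeff_C_mul, Fel.coeff_Lp_subst _ (hsc a ha) e _ le_rfl,
      Fel.coeff_Lp_subst _ ha e _ le_rfl, Finset.mul_sum]
    refine Finset.sum_congr rfl fun k _ => ?_
    rw [mul_pow, ← map_pow, coeff_C_mul, ← mul_assoc, hm_honda p n ζ hζ k, mul_assoc]
  have h := hlog_hazF p (prm n (0 : ℕ → K))
  rw [hlog_eq] at h
  have hX0 : constantCoeff (X 0 : MvPowerSeries (Fin 2) K) = 0 := constantCoeff_X _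
  have hX1 : constantCoeff (X 1 : MvPowerSeries (Fin 2) K) = 0 := constantCoeff_X _
  rw [← haz_subst_rescale]
  apply Fel.Lp_subst_injective (p := p) (Fel.hm_zero p (prm n (0 : ℕ → K)))
    (hsc _ F.zero_constantCoeff)
    (Fel.constantCoeff_subst_pair F.zero_constantCoeff (hsc _ hX0) (hsc _ hX1))
  rw [key _ F.zero_constantCoeff, Fel.ps_subst_pair F.zero_constantCoeff (hsc _ hX0) (hsc _ hX1) h,
    key _ hX0, key _ hX1, ← mul_add, ← h]

/-- an exponent fact tested over `ℂ` -/
theorem haz_exp_of_complex {q s : ℕ} (hq : 1 ≤ q) (hs : 1 ≤ s)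
    (h : ∀ ζ : ℂ, ζ ^ q = ζ → ζ ^ s = ζ) (ζ : R) (hζ : ζ ^ q = ζ) : ζ ^ s = ζ := by
  rcases Nat.lt_or_ge q 2 with h2 | h2
  · have hq1 : q = 1 := by omega
    have h3 := h 2 (by rw [hq1, pow_one])
    have h4 : (2 : ℕ) ^ s = 2 ^ 1 := by
      have : ((2 ^ s : ℕ) : ℂ) = ((2 ^ 1 : ℕ) : ℂ) := by push_cast; rw [h3]
      exact_mod_cast this
    have h5 : s = 1 := Nat.pow_right_injective le_rfl h4
    rw [h5, pow_one]
  · have hq1 : q - 1 ≠ 0 := by omega
    have hprim := Complex.isPrimitiveRoot_exp (q - 1) hq1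
    set ξ := Complex.exp (2 * Real.pi * Complex.I / ((q - 1 : ℕ) : ℂ)) with hξ
    have hξ0 : ξ ≠ 0 := Complex.exp_ne_zero _
    have h3 : ξ ^ q = ξ := by
      have : q = (q - 1) + 1 := by omega
      rw [this, pow_succ, hprim.pow_eq_one, one_mul]
    have h4 := h ξ h3
    have h5 : ξ ^ (s - 1) = 1 := by
      have e : s = (s - 1) + 1 := by omega
      rw [e, pow_succ] at h4
      exact mul_right_cancel₀ hξ0 (by rw [h4, one_mul])
    obtain ⟨t, ht⟩ := hprim.dvd_of_pow_eq_one _ h5
    have h6 : ∀ t : ℕ, ζ ^ ((q - 1) * t + 1) = ζ := by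
      intro t
      induction t with
      | zero => simp
      | succ t ih =>
        have e : (q - 1) * (t + 1) + 1 = ((q - 1) * t + 1) + (q - 1) := by ring
        have e2 : q = 1 + (q - 1) := by omega
        rw [e, pow_add, ih]
        nth_rw 1 [← pow_one ζ]
        rw [← pow_add, ← e2, hζ]
    have e : s = (q - 1) * t + 1 := by omega
    rw [e, h6]

/-- the Honda formal group `v_j = δ_{jn}` commutes with `X ↦ ζ X` for `ζ^{p^n} = ζ` -/
theorem honda_smul (n : ℕ) (ζ : R) (hζ : ζ ^ p ^ n = ζ) :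
    IsHom (PowerSeries.C ζ * PowerSeries.X : PowerSeries R) (hazF p (prm n 0)) (hazF p (prm n 0)) := by
  have hp : p.Prime := Fact.out
  refine ⟨by rw [map_mul, PowerSeries.constantCoeff_X, mul_zero], ?_⟩
  rw [haz_subst_CX ζ (FormalGroup.zero_constantCoeff _), haz_subst_CX ζ (constantCoeff_X _),
    haz_subst_CX ζ (constantCoeff_X _), haz_subst_rescale]
  ext e
  rw [coeff_C_mul, coeff_rescale', coeff_honda]
  by_cases hA : coeff e (hazF p (prm n (0 : ℕ → ℤ))).toPowerSeries = 0
  · rw [hA, Int.cast_zero, mul_zero, mul_zero]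
  · have he : 1 ≤ e.degree := by
      by_contra hcon
      have h0 : e = 0 := (Finsupp.degree_eq_zero_iff _).1 (by omega)
      apply hA
      rw [h0, coeff_zero_eq_constantCoeff_apply, FormalGroup.zero_constantCoeff]
    have key : ∀ ξ : ℂ, ξ ^ p ^ n = ξ → ξ ^ e.degree = ξ := by
      intro ξ hξ
      have h1 := congrArg (coeff e) (honda_smul_rat p n ξ hξ)
      rw [coeff_C_mul, coeff_rescale', coeff_honda] at h1
      exact (mul_right_cancel₀ (Int.cast_ne_zero.2 hA) h1).symm
    rw [haz_exp_of_complex (Nat.one_le_iff_ne_zero.2 (pow_ne_zero _ hp.ne_zero)) he key ζ hζ]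

/-- and, in characteristic `p`, with `X ↦ X^{p^l}` -/
theorem honda_frob [CharP R p] (n l : ℕ) :
    IsHom ((PowerSeries.X : PowerSeries R) ^ p ^ l) (hazF p (prm n 0)) (hazF p (prm n 0)) := by
  have hp : p.Prime := Fact.out
  have hExp : ExpChar R p := ExpChar.prime hp
  have hpl : p ^ l ≠ 0 := pow_ne_zero _ hp.ne_zero
  have hs : ∀ {a : MvPowerSeries (Fin 2) R}, constantCoeff a = 0 →
      ((PowerSeries.X : PowerSeries R) ^ p ^ l).subst a = a ^ p ^ l := by
    intro a ha
    rw [PowerSeries.subst_pow (Fel.hasSubst0 ha), PowerSeries.subst_X (Fel.hasSubst0 ha)]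
  refine ⟨by rw [map_pow, PowerSeries.constantCoeff_X, zero_pow hpl], ?_⟩
  rw [hs (FormalGroup.zero_constantCoeff _), hs (constantCoeff_X _), hs (constantCoeff_X _),
    ← map_iterateFrobenius_expand p hp.ne_zero, map_expand]
  have h1 : map (iterateFrobenius R p l) (hazF p (prm n (0 : ℕ → R))).toPowerSeries =
      (hazF p (prm n (0 : ℕ → R))).toPowerSeries := by
    ext e
    rw [coeff_map, coeff_honda, map_intCast]
  rw [h1, expand, coe_substAlgHom]
  congr 1
  funext i
  fin_cases i <;> rfl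

/-- in characteristic `p`: `[p](X) = X^{p^n}` on the Honda formal group -/
theorem mulPS_honda [CharP R p] (n : ℕ) (hn : 1 ≤ n) :
    mulPS (hazF p (prm n (0 : ℕ → R))) p = (PowerSeries.X : PowerSeries R) ^ p ^ n := by
  have hp : p.Prime := Fact.out
  rw [mulPS_hazF p n (prm n (0 : ℕ → R)) (by
    intro j hj
    rw [prm, if_neg (by omega), if_neg (by omega)])]
  have key : ∀ (k : ℕ) (g : ℕ → MvPowerSeries Unit R), (∀ j < k, g j = 0) →
      constantCoeff (g k) = 0 →
      fsum (hazF p (prm n (0 : ℕ → R))) ((List.range (k + 1)).map g) = g k := by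
    intro k
    induction k with
    | zero =>
      intro g _ h0
      exact FormalGroup.add_zero _ (Fel.hasSubst0 h0)
    | succ k ih =>
      intro g hg h0
      rw [List.range_succ_eq_map, List.map_cons, List.map_map, fsum,
        ih (g ∘ Nat.succ) (fun j hj => hg _ (by omega)) h0, hg 0 (by omega)]
      exact FormalGroup.zero_add _ (Fel.hasSubst0 h0)
  obtain ⟨k, rfl⟩ : ∃ k, n = k + 1 := ⟨n - 1, by omega⟩
  refine (key k _ ?_ ?_).trans ?_
  · intro j hj
    have : prm (k + 1) (0 : ℕ → R) (j + 1) = 0 := by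
      rw [prm, if_pos (by omega)]; rfl
    rw [this, map_zero, zero_mul]
  · exact Fel.constantCoeff_CX _ (pow_ne_zero _ hp.ne_zero)
  · have : prm (k + 1) (0 : ℕ → R) (k + 1) = 1 := by
      rw [prm, if_neg (by omega), if_pos rfl]
    rw [this, map_one, one_mul]

end

end Chai
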