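import Vale.Agent.Chai.Setup
import Vale.Agent.Chai.Descent

/-!
# P217 / JModA: series over the finite field `𝔽`, partial evaluation, derivatives (for JMod)

OWNER: helper16
-/

namespace Chai.JM

open MvPowerSeries Filter Topology

set_option linter.unusedSectionVars false

section basics

variable {C : Type*} [NontriviallyNormedField C] [IsUltrametricDist C] [CompleteSpace C]
variable {𝔽 : Type*} [Field 𝔽] [Fintype 𝔽] [Algebra 𝔽 C]
variable {σ τ : Type*}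

variable (C) in
theorem norm_algebraMap_le (x : 𝔽) : ‖algebraMap 𝔽 C x‖ ≤ 1 := by
  have h1 : algebraMap 𝔽 C x ^ Fintype.card 𝔽 = algebraMap 𝔽 C x := by
    rw [← map_pow, FiniteField.pow_card]
  by_contra h
  rw [not_le] at h
  have h2 : ‖algebraMap 𝔽 C x‖ ^ Fintype.card 𝔽 = ‖algebraMap 𝔽 C x‖ := by rw [← norm_pow, h1]
  have h3 : ‖algebraMap 𝔽 C x‖ ^ 1 < ‖algebraMap 𝔽 C x‖ ^ Fintype.card 𝔽 :=
    pow_lt_pow_right₀ h Fintype.one_lt_card
  rw [pow_one, h2] at h3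
  exact lt_irrefl _ h3

variable (C) in
theorem bdd_map (G : MvPowerSeries σ 𝔽) : Bdd (G.map (algebraMap 𝔽 C)) := fun d => by
  rw [coeff_map]
  exact norm_algebraMap_le C _

/-- evaluation of a series over `𝔽` -/
noncomputable def evF (a : σ → C) (G : MvPowerSeries σ 𝔽) : C := ev a (G.map (algebraMap 𝔽 C))

theorem evF_zero (a : σ → C) : evF a (0 : MvPowerSeries σ 𝔽) = 0 := by
  unfold evF; rw [map_zero, ev_zero]

theorem evF_X (a : σ → C) (i : σ) : evF a (X i : MvPowerSeries σ 𝔽) = a i := by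
  unfold evF; rw [MvPowerSeries.map_X, ev_X]

theorem evF_one (a : σ → C) : evF a (1 : MvPowerSeries σ 𝔽) = 1 := by
  unfold evF; rw [map_one, ev_one]

theorem evF_at_zero (G : MvPowerSeries σ 𝔽) :
    evF (fun _ => (0 : C)) G = algebraMap 𝔽 C (constantCoeff G) := by
  unfold evF
  rw [ev_at_zero, ← coeff_zero_eq_constantCoeff_apply, coeff_map, coeff_zero_eq_constantCoeff_apply]

section
variable [Finite σ] {a : σ → C} (ha : ∀ i, ‖a i‖ < 1)
include ha

theorem evF_add (G H : MvPowerSeries σ 𝔽) : evF a (G + H) = evF a G + evF a H := by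
  unfold evF; rw [map_add, ev_add ha (bdd_map C G) (bdd_map C H)]

theorem evF_sub (G H : MvPowerSeries σ 𝔽) : evF a (G - H) = evF a G - evF a H := by
  unfold evF; rw [map_sub, ev_sub ha (bdd_map C G) (bdd_map C H)]

theorem evF_neg (G : MvPowerSeries σ 𝔽) : evF a (-G) = -evF a G := by
  unfold evF; rw [map_neg, ev_neg ha (bdd_map C G)]

theorem evF_mul (G H : MvPowerSeries σ 𝔽) : evF a (G * H) = evF a G * evF a H := by
  unfold evF; rw [map_mul, ev_mul ha (bdd_map C G) (bdd_map C H)]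

theorem evF_pow (G : MvPowerSeries σ 𝔽) (n : ℕ) : evF a (G ^ n) = evF a G ^ n := by
  unfold evF; rw [map_pow, ev_pow ha (bdd_map C G)]

theorem evF_sum {ι : Type*} (s : Finset ι) (G : ι → MvPowerSeries σ 𝔽) :
    evF a (∑ i ∈ s, G i) = ∑ i ∈ s, evF a (G i) := by
  unfold evF; rw [map_sum, ev_sum ha s fun i _ => bdd_map C (G i)]

theorem evF_subst [Finite τ] {b : τ → MvPowerSeries σ 𝔽} (hb : ∀ i, constantCoeff (b i) = 0)
    (F : MvPowerSeries τ 𝔽) : evF a (F.subst b) = evF (fun i => evF a (b i)) F := by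
  unfold evF
  rw [MvPowerSeries.map_subst (hasSubst_of_constantCoeff_zero hb)]
  refine ev_subst ha (bdd_map C F) (fun i => bdd_map C (b i)) fun i => ?_
  rw [← coeff_zero_eq_constantCoeff_apply, coeff_map, coeff_zero_eq_constantCoeff_apply, hb,
    map_zero]

theorem norm_evF_le {G : MvPowerSeries σ 𝔽} (h0 : constantCoeff G = 0) {ρ : ℝ} (hρ0 : 0 ≤ ρ)
    (hρ : ∀ i, ‖a i‖ ≤ ρ) : ‖evF a G‖ ≤ ρ := by
  refine norm_ev_le ha (bdd_map C G) ?_ hρ0 hρ
  rw [← coeff_zero_eq_constantCoeff_apply, coeff_map, coeff_zero_eq_constantCoeff_apply, h0,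
    map_zero]

theorem norm_evF_le_one (G : MvPowerSeries σ 𝔽) : ‖evF a G‖ ≤ 1 := norm_ev_le_one ha (bdd_map C G)

theorem norm_evF_le_pow {G : MvPowerSeries σ 𝔽} {ρ : ℝ} (hρ : ∀ i, ‖a i‖ ≤ ρ) (hρ0 : 0 ≤ ρ)
    {N : ℕ} (hN : ∀ d, d.degree < N → coeff d G = 0) : ‖evF a G‖ ≤ ρ ^ N := by
  refine norm_ev_le_pow ha (bdd_map C G) hρ hρ0 fun d hd => ?_
  rw [coeff_map, hN d hd, map_zero]

end

/-- elements of `C` are separated by linear forms -/
theorem eq_zero_of_lin {c : C} (h : ∀ l : C →ₗ[𝔽] 𝔽, l c = 0) : c = 0 :=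
  (Module.forall_dual_apply_eq_zero_iff 𝔽 c).1 h

theorem coeff_mapLin [Finite σ] (l : C →ₗ[𝔽] 𝔽) (f : MvPowerSeries σ C) (d : σ →₀ ℕ) :
    coeff d (mapLin l f) = l (coeff d f) := rfl

end basics

/-! ### partial evaluation -/

section partial_ev

variable {C : Type*} [NontriviallyNormedField C] [IsUltrametricDist C] [CompleteSpace C]
variable {𝔽 : Type*} [Field 𝔽] [Fintype 𝔽] [Algebra 𝔽 C]
variable {σ τ : Type*}

/-- the coefficient of `w'^d` in a series in the variables `w, w'` -/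
noncomputable def rc (d : τ →₀ ℕ) (K : MvPowerSeries (σ ⊕ τ) 𝔽) : MvPowerSeries σ 𝔽 :=
  fun e => coeff (Finsupp.sumElim e d) K

theorem coeff_rc (d : τ →₀ ℕ) (K : MvPowerSeries (σ ⊕ τ) 𝔽) (e : σ →₀ ℕ) :
    coeff e (rc d K) = coeff (Finsupp.sumElim e d) K := rfl

/-- partial evaluation `K(c, w')` -/
noncomputable def pev (c : σ → C) (K : MvPowerSeries (σ ⊕ τ) 𝔽) : MvPowerSeries τ C :=
  fun d => evF c (rc d K)

theorem coeff_pev (c : σ → C) (K : MvPowerSeries (σ ⊕ τ) 𝔽) (d : τ →₀ ℕ) :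
    coeff d (pev c K) = evF c (rc d K) := rfl

theorem bdd_pev [Finite σ] {c : σ → C} (hc : ∀ i, ‖c i‖ < 1) (K : MvPowerSeries (σ ⊕ τ) 𝔽) :
    Bdd (pev c K) := fun d => by
  rw [coeff_pev]
  exact norm_evF_le_one hc _

theorem ev_pev [Fintype σ] [Fintype τ] {c : σ → C} (hc : ∀ i, ‖c i‖ < 1) {y : τ → C}
    (hy : ∀ i, ‖y i‖ < 1) (K : MvPowerSeries (σ ⊕ τ) 𝔽) :
    ev y (pev c K) = evF (Sum.elim c y) K := by
  obtain ⟨ρ1, hρ10, hρ11, hρ1⟩ := exists_rho hc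
  obtain ⟨ρ2, hρ20, hρ21, hρ2⟩ := exists_rho hy
  obtain ⟨ρ, hρ⟩ : ∃ ρ, ρ = max ρ1 ρ2 := ⟨_, rfl⟩
  have hρ0 : 0 ≤ ρ := by rw [hρ]; exact hρ10.le.trans (le_max_left _ _)
  have hρlt : ρ < 1 := by rw [hρ]; exact max_lt hρ11 hρ21
  have hcρ : ∀ i, ‖c i‖ ≤ ρ := fun i => (hρ1 i).trans (by rw [hρ]; exact le_max_left _ _)
  have hyρ : ∀ i, ‖y i‖ ≤ ρ := fun i => (hρ2 i).trans (by rw [hρ]; exact le_max_right _ _)
  obtain ⟨F, hF⟩ : ∃ F : (τ →₀ ℕ) × (σ →₀ ℕ) → C, F = fun p =>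
    algebraMap 𝔽 C (coeff (Finsupp.sumElim p.2 p.1) K) * (p.2.prod fun i e => c i ^ e) *
      (p.1.prod fun i e => y i ^ e) := ⟨_, rfl⟩
  have hFs : Summable F := by
    refine summable_prod_of_le hρ0 hρlt fun p => ?_
    rw [hF]
    simp only
    rw [norm_mul, norm_mul]
    calc ‖algebraMap 𝔽 C (coeff (Finsupp.sumElim p.2 p.1) K)‖ * ‖p.2.prod fun i e => c i ^ e‖ *
          ‖p.1.prod fun i e => y i ^ e‖ ≤ 1 * ρ ^ p.2.degree * ρ ^ p.1.degree := by
          gcongr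
          · exact norm_algebraMap_le C _
          · exact norm_monomial_le hcρ _
          · exact norm_monomial_le hyρ _
      _ = ρ ^ (p.1.degree + p.2.degree) := by rw [one_mul, pow_add, mul_comm]
  have h1 : ev y (pev c K) = ∑' e, ∑' d, F (e, d) := by
    unfold ev
    refine tsum_congr fun e => ?_
    rw [coeff_pev, evF, ev, ← tsum_mul_right, hF]
    rfl
  rw [h1, ← hFs.tsum_prod, evF, ev, ← Finsupp.sumFinsuppEquivProdFinsupp.symm.tsum_eq,
    ← (Equiv.prodComm (τ →₀ ℕ) (σ →₀ ℕ)).tsum_eq]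
  refine tsum_congr fun p => ?_
  have h2 : Finsupp.sumFinsuppEquivProdFinsupp.symm ((Equiv.prodComm (τ →₀ ℕ) (σ →₀ ℕ)) p) =
      Finsupp.sumElim p.2 p.1 := rfl
  rw [hF, h2, Finsupp.prod_sumElim, coeff_map]
  exact mul_assoc _ _ _

theorem eq_zero_of_rc {K : MvPowerSeries (σ ⊕ τ) 𝔽} (h : ∀ d, rc d K = 0) : K = 0 := by
  ext m
  have h1 := congrArg (coeff (Finsupp.sumFinsuppEquivProdFinsupp m).1)
    (h (Finsupp.sumFinsuppEquivProdFinsupp m).2)
  rw [coeff_rc] at h1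
  have h2 : Finsupp.sumElim (Finsupp.sumFinsuppEquivProdFinsupp m).1
      (Finsupp.sumFinsuppEquivProdFinsupp m).2 = m :=
    Finsupp.sumFinsuppEquivProdFinsupp.symm_apply_apply m
  rw [h2] at h1
  rw [h1]
  rfl

end partial_ev

/-! ### the Honda group -/

section honda

variable (p : ℕ) [Fact p.Prime]
variable {C : Type*} [NontriviallyNormedField C] [IsUltrametricDist C] [CompleteSpace C]
variable [CharP C p]
variable {𝔽 : Type*} [Field 𝔽] [Fintype 𝔽] [Algebra 𝔽 C]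

theorem nsmul_pow_val {h : ℕ} (h1 : 1 ≤ h) (m : ℕ) (y : (FC p h (0 : Ball C)).Pt) :
    (p ^ m • y).1 = y.1 ^ (p ^ h) ^ m := by
  induction m with
  | zero => simp
  | succ m ih =>
    rw [pow_succ, mul_comm, mul_smul, nsmul_p_honda p h1, ih, ← pow_mul, ← pow_succ]

theorem prm_map {R S : Type*} [CommRing R] [CommRing S] (φ : R →+* S) (h : ℕ) :
    (fun j => φ (prm h (0 : ℕ → R) j)) = prm h (0 : ℕ → S) := by
  funext j
  unfold prm
  split_ifs
  · exact map_zero φ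
  · exact map_one φ
  · exact map_zero φ

/-- the Honda group law over `𝔽`, as a power series -/
noncomputable abbrev Γ𝔽 (𝔽 : Type*) [Field 𝔽] (h : ℕ) : FormalGroup 𝔽 := hazF p (prm h 0)

theorem Γ_map (h : ℕ) : (Γ𝔽 p 𝔽 h).map (algebraMap 𝔽 C) = (FC p h (0 : Ball C)).toFormalGroup := by
  unfold Γ𝔽
  rw [hazF_map, prm_map]
  rfl

theorem evF_Γ (h : ℕ) (a b : (FC p h (0 : Ball C)).Pt) :
    evF ![a.1, b.1] (Γ𝔽 p 𝔽 h).toPowerSeries = (a + b).1 := by
  rw [CFG.add_val, evF, ← Γ_map p (𝔽 := 𝔽) (C := C), FormalGroup.map_toPowerSeries]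

end honda

end Chai.JM
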