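import Vale.Agent.Chai.JModA

/-!
# P217 / JModB: the vanishing ideal: translation, derivatives, `p`-th roots (for JMod)

OWNER: helper16
-/

namespace Chai.JM

open MvPowerSeries Filter Topology

set_option linter.unusedSectionVars false

/-! ### one direction estimates -/

section dir

variable {C : Type*} [NontriviallyNormedField C] [IsUltrametricDist C] [CompleteSpace C]
variable {ι : Type*} [Fintype ι] [DecidableEq ι]

theorem norm_ev_single_le {f : MvPowerSeries ι C} (hf : Bdd f) (i : ι) {s : C} (hs : ‖s‖ < 1)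
    (h0 : coeff 0 f = 0) (h1 : coeff (Finsupp.single i 1) f = 0) :
    ‖ev (Pi.single i s) f‖ ≤ ‖s‖ ^ 2 := by
  refine norm_tsum_le_of_forall (by positivity) fun d => ?_
  by_cases hd : ∃ j, j ≠ i ∧ d j ≠ 0
  · obtain ⟨j, hj, hdj⟩ := hd
    have : (d.prod fun i_1 e => (Pi.single i s : ι → C) i_1 ^ e) = 0 := by
      rw [Finsupp.prod]
      refine Finset.prod_eq_zero (Finsupp.mem_support_iff.2 hdj) ?_
      rw [Pi.single_eq_of_ne hj, zero_pow hdj]
    rw [this, mul_zero, norm_zero]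
    positivity
  · push Not at hd
    have hd' : d = Finsupp.single i (d i) := by
      ext j
      by_cases hj : j = i
      · subst hj; simp
      · rw [hd j hj, Finsupp.single_eq_of_ne hj]
    obtain ⟨k, hk⟩ : ∃ k, k = d i := ⟨_, rfl⟩
    rw [← hk] at hd'
    rw [hd']
    rcases k with _ | _ | k
    · rw [Finsupp.single_zero, h0, zero_mul, norm_zero]
      positivity
    · rw [zero_add, h1, zero_mul, norm_zero]
      positivity
    · rw [norm_mul, Finsupp.prod_single_index (h := fun i_1 e => (Pi.single i s : ι → C) i_1 ^ e)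
        (pow_zero _), Pi.single_eq_same, norm_pow]
      calc ‖coeff (Finsupp.single i (k + 1 + 1)) f‖ * ‖s‖ ^ (k + 1 + 1) ≤ 1 * ‖s‖ ^ (k + 1 + 1) := by
            gcongr
            exact hf _
        _ ≤ ‖s‖ ^ 2 := by
            rw [one_mul]
            exact pow_le_pow_of_le_one (norm_nonneg _) hs.le (by omega)

theorem norm_single_lt (i : ι) {s : C} (hs : ‖s‖ < 1) (j : ι) :
    ‖(Pi.single i s : ι → C) j‖ < 1 := by
  by_cases hj : j = i
  · subst hj; rwa [Pi.single_eq_same]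
  · rw [Pi.single_eq_of_ne hj, norm_zero]; exact one_pos

theorem norm_ev_single_sub_le {f : MvPowerSeries ι C} (hf : Bdd f) (i : ι) {s : C} (hs : ‖s‖ < 1)
    (h0 : coeff 0 f = 0) :
    ‖ev (Pi.single i s) f - coeff (Finsupp.single i 1) f * s‖ ≤ ‖s‖ ^ 2 := by
  have hb : Bdd (coeff (Finsupp.single i 1) f • (X i : MvPowerSeries ι C)) :=
    (Bdd.X i).smul (hf _)
  have h2 := norm_ev_single_le (hf.sub hb) i hs (by
      rw [coeff_zero_eq_constantCoeff_apply] at *
      simp [h0]) (by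
    rw [map_sub, coeff_smul, coeff_X, if_pos rfl, mul_one, sub_self])
  rwa [ev_sub (norm_single_lt i hs) hf hb, ev_smul (norm_single_lt i hs) (Bdd.X i), ev_X,
    Pi.single_eq_same] at h2

end dir

section ideal

variable (p : ℕ) [Fact p.Prime]
variable {C : Type*} [NontriviallyNormedField C] [IsUltrametricDist C] [CompleteSpace C]
variable [CharP C p]
variable {𝔽 : Type*} [Field 𝔽] [Fintype 𝔽] [Algebra 𝔽 C]
variable {h : ℕ} {ι κ : Type*} [Fintype ι] [DecidableEq ι] [Fintype κ] [DecidableEq κ]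
variable {A : Type*} [AddCommMonoid A]

/-- the point `w(a)` -/
noncomputable def pt (w : ι → A →+ (FC p h (0 : Ball C)).Pt) (a : A) : ι → C := fun i => (w i a).1

theorem pt_lt (w : ι → A →+ (FC p h (0 : Ball C)).Pt) (a : A) (i : ι) : ‖pt p w a i‖ < 1 :=
  (w i a).2

/-- the vanishing ideal -/
def JJ (𝔽 : Type*) [Field 𝔽] [Fintype 𝔽] [Algebra 𝔽 C] (w : ι → A →+ (FC p h (0 : Ball C)).Pt) :
    Set (MvPowerSeries ι 𝔽) := {G | ∀ a, evF (pt p w a) G = 0}

variable {p}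

theorem JJ.sub {w : ι → A →+ (FC p h (0 : Ball C)).Pt} {G H : MvPowerSeries ι 𝔽}
    (hG : G ∈ JJ p 𝔽 w) (hH : H ∈ JJ p 𝔽 w) : G - H ∈ JJ p 𝔽 w := fun a => by
  rw [evF_sub (pt_lt p w a), hG a, hH a, sub_zero]

theorem JJ.mul {w : ι → A →+ (FC p h (0 : Ball C)).Pt} {G : MvPowerSeries ι 𝔽}
    (hG : G ∈ JJ p 𝔽 w) (H : MvPowerSeries ι 𝔽) : H * G ∈ JJ p 𝔽 w := fun a => by
  rw [evF_mul (pt_lt p w a), hG a, mul_zero]

theorem JJ.constantCoeff {w : ι → A →+ (FC p h (0 : Ball C)).Pt} {G : MvPowerSeries ι 𝔽}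
    (hG : G ∈ JJ p 𝔽 w) : constantCoeff G = 0 := by
  have h1 := hG 0
  have h2 : pt p w (0 : A) = fun _ => 0 := by
    funext i
    unfold pt
    rw [map_zero, CFG.zero_val]
  rw [h2, evF_at_zero] at h1
  exact (map_eq_zero_iff _ (algebraMap 𝔽 C).injective).1 h1

/-- descent -/
theorem vanish (h1 : 1 ≤ h) (hcard : Fintype.card 𝔽 = p ^ h)
    (w : κ → A →+ (FC p h (0 : Ball C)).Pt) {c : ι → C} (hc : ∀ i, ‖c i‖ < 1)
    {K : MvPowerSeries (ι ⊕ κ) 𝔽} (hK : ∀ a, evF (Sum.elim c (pt p w a)) K = 0)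
    (l : C →ₗ[𝔽] 𝔽) : mapLin l (pev c K) ∈ JJ p 𝔽 w := by
  intro a
  refine descent_bdd hcard (bdd_pev hc K) (pt_lt p w a) (Eventually.of_forall fun m => ?_) l
  have h2 : (fun i => pt p w a i ^ (p ^ h) ^ m) = pt p w (p ^ m • a) := by
    funext i
    unfold pt
    rw [map_nsmul, nsmul_pow_val p h1]
  rw [h2, ev_pev hc (pt_lt p w _), hK]

/-- comultiplication -/
noncomputable def Δ (p : ℕ) [Fact p.Prime] (h : ℕ) (G : MvPowerSeries ι 𝔽) :
    MvPowerSeries (ι ⊕ ι) 𝔽 :=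
  G.subst fun i => (Γ𝔽 p 𝔽 h).toPowerSeries.subst
    ![(X (Sum.inl i) : MvPowerSeries (ι ⊕ ι) 𝔽), X (Sum.inr i)]

theorem constantCoeff_Δarg (i : ι) : MvPowerSeries.constantCoeff ((Γ𝔽 p 𝔽 h).toPowerSeries.subst
    ![(X (Sum.inl i) : MvPowerSeries (ι ⊕ ι) 𝔽), X (Sum.inr i)]) = 0 :=
  constantCoeff_pair (constantCoeff_X _) (constantCoeff_X _) (FormalGroup.zero_constantCoeff _)

theorem evF_Δarg (x y : ι → (FC p h (0 : Ball C)).Pt) (i : ι) :
    evF (Sum.elim (fun i => (x i).1) (fun i => (y i).1)) ((Γ𝔽 p 𝔽 h).toPowerSeries.subst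
    ![(X (Sum.inl i) : MvPowerSeries (ι ⊕ ι) 𝔽), X (Sum.inr i)]) = (x i + y i).1 := by
  have hlt : ∀ j, ‖Sum.elim (fun i => (x i).1) (fun i => (y i).1) j‖ < 1 := by
    rintro (j | j)
    · exact (x j).2
    · exact (y j).2
  rw [evF_subst hlt (fun j => by fin_cases j <;> exact constantCoeff_X _), ← evF_Γ p (𝔽 := 𝔽)]
  congr 1
  funext j
  fin_cases j
  · exact evF_X _ _
  · exact evF_X _ _

theorem evF_Δ (G : MvPowerSeries ι 𝔽) (x y : ι → (FC p h (0 : Ball C)).Pt) :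
    evF (Sum.elim (fun i => (x i).1) (fun i => (y i).1)) (Δ p h G) =
      evF (fun i => (x i + y i).1) G := by
  have hlt : ∀ j, ‖Sum.elim (fun i => (x i).1) (fun i => (y i).1) j‖ < 1 := by
    rintro (j | j)
    · exact (x j).2
    · exact (y j).2
  rw [Δ, evF_subst hlt constantCoeff_Δarg]
  congr 1
  funext i
  exact evF_Δarg x y i

theorem mapLin_Δ_mem (h1 : 1 ≤ h) (hcard : Fintype.card 𝔽 = p ^ h)
    {w : ι → A →+ (FC p h (0 : Ball C)).Pt} {G : MvPowerSeries ι 𝔽} (hG : G ∈ JJ p 𝔽 w) (a : A)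
    (l : C →ₗ[𝔽] 𝔽) : mapLin l (pev (pt p w a) (Δ p h G)) ∈ JJ p 𝔽 w := by
  refine vanish h1 hcard w (pt_lt p w a) (fun a' => ?_) l
  have := evF_Δ G (fun i => w i a) (fun i => w i a')
  refine this.trans ?_
  have h2 := hG (a + a')
  unfold pt at h2
  simpa only [map_add] using h2

/-- partial derivative -/
noncomputable def pd (i : ι) (G : MvPowerSeries ι 𝔽) : MvPowerSeries ι 𝔽 :=
  fun d => ((d i + 1 : ℕ) : 𝔽) * coeff (d + Finsupp.single i 1) G

theorem coeff_pd (i : ι) (G : MvPowerSeries ι 𝔽) (d : ι →₀ ℕ) :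
    coeff d (pd i G) = ((d i + 1 : ℕ) : 𝔽) * coeff (d + Finsupp.single i 1) G := rfl

theorem pd_mem (h1 : 1 ≤ h) (hcard : Fintype.card 𝔽 = p ^ h)
    {w : ι → A →+ (FC p h (0 : Ball C)).Pt} {i : ι}
    (hlin : ∀ G ∈ JJ p 𝔽 w, coeff (Finsupp.single i 1) G = 0)
    {G : MvPowerSeries ι 𝔽} (hG : G ∈ JJ p 𝔽 w) : pd i G ∈ JJ p 𝔽 w := by
  intro a
  obtain ⟨Ga, hGa⟩ : ∃ Ga, Ga = pev (pt p w a) (Δ p h G) := ⟨_, rfl⟩
  have hGab : Bdd Ga := by rw [hGa]; exact bdd_pev (pt_lt p w a) _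
  have hGa1 : coeff (Finsupp.single i 1) Ga = 0 := by
    refine eq_zero_of_lin (𝔽 := 𝔽) fun l => ?_
    have h2 := hlin _ (mapLin_Δ_mem h1 hcard hG a l)
    rw [coeff_mapLin, ← hGa] at h2
    exact h2
  have hGaev : ∀ y : ι → (FC p h (0 : Ball C)).Pt,
      ev (fun i => (y i).1) Ga = evF (fun i => (w i a + y i).1) G := by
    intro y
    rw [hGa, ev_pev (pt_lt p w a) (fun i => (y i).2)]
    exact evF_Δ G (fun i => w i a) y
  have hGa0 : coeff 0 Ga = 0 := by
    have h2 := hGaev 0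
    have h3 : (fun i => ((0 : ι → (FC p h (0 : Ball C)).Pt) i).1) = fun _ => (0 : C) := by
      funext i
      exact CFG.zero_val (FC p h (0 : Ball C))
    rw [h3, ev_at_zero] at h2
    rw [coeff_zero_eq_constantCoeff_apply, h2]
    simp only [Pi.zero_apply, add_zero]
    exact hG a
  obtain ⟨g, hgb, hg1, hg2, hg3⟩ := exists_shift (bdd_map C G) (pt_lt p w a)
  have hg0 : coeff 0 g = 0 := by
    rw [coeff_zero_eq_constantCoeff_apply, hg2]
    exact hG a
  have hlam : coeff (Finsupp.single i 1) g = evF (pt p w a) (pd i G) := by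
    rw [hg3, evF, ev]
    refine tsum_congr fun d => ?_
    rw [coeff_map, coeff_map, coeff_pd, map_mul, map_natCast, mul_comm (algebraMap 𝔽 C _)]
  rw [← hlam]
  obtain ⟨lam, hl⟩ : ∃ lam, lam = coeff (Finsupp.single i 1) g := ⟨_, rfl⟩
  rw [← hl]
  have key : ∀ t : C, t ≠ 0 → ‖t‖ < 1 → ‖lam‖ ≤ ‖t‖ := by
    intro t ht0 ht
    let ty : (FC p h (0 : Ball C)).Pt := ⟨t, ht⟩
    obtain ⟨s, hs⟩ : ∃ s, s = (w i a + ty).1 - (w i a).1 := ⟨_, rfl⟩
    have hst : ‖s‖ = ‖t‖ := by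
      rw [hs, ← CFG.norm_sub_val, add_sub_cancel_left]
    have e1 : ‖ev (Pi.single i t) Ga‖ ≤ ‖t‖ ^ 2 := norm_ev_single_le hGab i ht hGa0 hGa1
    have e2 : ev (Pi.single i t) Ga = ev (Pi.single i s) g := by
      have h3 := hGaev (Pi.single i ty)
      have h4 : (fun j => ((Pi.single i ty : ι → (FC p h (0 : Ball C)).Pt) j).1) =
          Pi.single i t := by
        funext j
        by_cases hj : j = i
        · subst hj; rw [Pi.single_eq_same, Pi.single_eq_same]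
        · rw [Pi.single_eq_of_ne hj, Pi.single_eq_of_ne hj]; exact CFG.zero_val (FC p h (0 : Ball C))
      rw [h4] at h3
      rw [h3, ← hg1 _ (norm_single_lt i (by rw [hst]; exact ht)), evF]
      congr 1
      funext j
      by_cases hj : j = i
      · subst hj
        rw [Pi.single_eq_same, Pi.single_eq_same, hs]
        unfold pt
        rw [add_sub_cancel]
      · rw [Pi.single_eq_of_ne hj, Pi.single_eq_of_ne hj, add_zero, add_zero]
        rfl
    have e3 := norm_ev_single_sub_le hgb i (by rw [hst]; exact ht) hg0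
    rw [← hl, ← e2, hst] at e3
    have e4 : ‖lam * s‖ ≤ ‖t‖ ^ 2 := by
      have : lam * s = ev (Pi.single i t) Ga - (ev (Pi.single i t) Ga - lam * s) := by ring
      rw [this]
      exact (norm_sub_le_max' _ _).trans (max_le e1 e3)
    rw [norm_mul, hst, sq] at e4
    exact le_of_mul_le_mul_right e4 (norm_pos_iff.2 ht0)
  by_contra hne
  have hpos : 0 < ‖lam‖ := norm_pos_iff.2 hne
  obtain ⟨t, ht0, ht⟩ := NormedField.exists_norm_lt C (lt_min hpos one_pos)
  have := key t (norm_pos_iff.1 ht0) (ht.trans_le (min_le_right _ _))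
  exact absurd (ht.trans_le (min_le_left _ _)) (not_lt.2 this)

end ideal

end Chai.JM
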