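import Vale.Agent.Chai.JModB

/-!
# P217 / JModC: an element of the vanishing ideal with a nonzero linear part (for JMod)

OWNER: helper16
-/

namespace Chai.JM

open MvPowerSeries Filter Topology

set_option linter.unusedSectionVars false

section

variable {p : ℕ} [Fact p.Prime]
variable {C : Type*} [NontriviallyNormedField C] [IsUltrametricDist C] [CompleteSpace C]
variable [CharP C p]
variable {𝔽 : Type*} [Field 𝔽] [Fintype 𝔽] [Algebra 𝔽 C]
variable {h : ℕ} {ι κ : Type*} [Fintype ι] [DecidableEq ι] [Fintype κ] [DecidableEq κ]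
variable {A : Type*} [AddCommMonoid A]

theorem charP_F (p : ℕ) (C : Type*) [Field C] [hC : CharP C p] (𝔽 : Type*) [Field 𝔽]
    [Algebra 𝔽 C] : CharP 𝔽 p :=
  ((algebraMap 𝔽 C).charP_iff (algebraMap 𝔽 C).injective p).2 hC

/-- `X_i ∂_i` -/
noncomputable def eul (i : ι) (G : MvPowerSeries ι 𝔽) : MvPowerSeries ι 𝔽 := X i * pd i G

theorem coeff_eul (i : ι) (G : MvPowerSeries ι 𝔽) (d : ι →₀ ℕ) :
    coeff d (eul i G) = (d i : 𝔽) * coeff d G := by
  unfold eul
  by_cases hd : d i = 0
  · rw [(X_dvd_iff (s := i)).1 (dvd_mul_right _ _) d hd, hd, Nat.cast_zero, zero_mul]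
  · have h1 : d = Finsupp.single i 1 + (d - Finsupp.single i 1) := by
      ext j
      by_cases hj : j = i
      · subst hj
        simp only [Finsupp.coe_add, Finsupp.coe_tsub, Pi.add_apply, Pi.sub_apply,
          Finsupp.single_eq_same]
        omega
      · simp [Finsupp.single_eq_of_ne hj]
    have h2 : (d - Finsupp.single i 1 : ι →₀ ℕ) i + 1 = d i := by
      simp only [Finsupp.coe_tsub, Pi.sub_apply, Finsupp.single_eq_same]
      omega
    have h3 := coeff_add_monomial_mul (R := 𝔽) (Finsupp.single i 1) (d - Finsupp.single i 1)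
      (pd i G) 1
    rw [← h1, one_mul, coeff_pd, h2, add_comm (d - _), ← h1] at h3
    exact h3

theorem coeff_eul_iter (i : ι) (G : MvPowerSeries ι 𝔽) (d : ι →₀ ℕ) (k : ℕ) :
    coeff d ((eul i)^[k] G) = (d i : 𝔽) ^ k * coeff d G := by
  induction k with
  | zero => simp
  | succ k ih =>
    rw [Function.iterate_succ_apply', coeff_eul, ih, pow_succ]
    ring

theorem proj_aux (hp : CharP 𝔽 p) (n : ℕ) :
    (1 : 𝔽) - (n : 𝔽) ^ (p - 1) = if p ∣ n then 1 else 0 := by
  have hp1 : p - 1 ≠ 0 := by have := (Fact.out : p.Prime).one_lt; omega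
  split_ifs with h1
  · rw [(CharP.cast_eq_zero_iff 𝔽 p n).2 h1, zero_pow hp1, sub_zero]
  · have h2 : (n : 𝔽) ≠ 0 := fun h3 => h1 ((CharP.cast_eq_zero_iff 𝔽 p n).1 h3)
    have h3 : (n : 𝔽) ^ p = n := by
      have h4 : (n : 𝔽) = ZMod.castHom (dvd_refl p) 𝔽 (n : ZMod p) := by rw [map_natCast]
      rw [h4, ← map_pow, ZMod.pow_card]
    have h5 : (n : 𝔽) ^ (p - 1) = 1 := by
      have h6 : (n : 𝔽) * (n : 𝔽) ^ (p - 1) = n * 1 := by
        rw [← pow_succ', Nat.sub_add_cancel (Fact.out : p.Prime).one_le, h3, mul_one]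
      exact mul_left_cancel₀ h2 h6
    rw [h5, sub_self]

/-- keep the exponents divisible by `p` in the variables of `s` -/
noncomputable def proj (p : ℕ) (s : Finset ι) (G : MvPowerSeries ι 𝔽) : MvPowerSeries ι 𝔽 :=
  fun d => if ∀ i ∈ s, p ∣ d i then coeff d G else 0

theorem proj_mem {w : ι → A →+ (FC p h (0 : Ball C)).Pt}
    (hpd : ∀ G ∈ JJ p 𝔽 w, ∀ i, pd i G ∈ JJ p 𝔽 w) (s : Finset ι)
    {G : MvPowerSeries ι 𝔽} (hG : G ∈ JJ p 𝔽 w) : proj p s G ∈ JJ p 𝔽 w := by
  have hp := charP_F p C 𝔽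
  induction s using Finset.induction_on with
  | empty =>
    have : proj p ∅ G = G := by
      ext d
      change (if ∀ i ∈ (∅ : Finset ι), p ∣ d i then coeff d G else 0) = coeff d G
      simp
    rw [this]; exact hG
  | insert i s his ih =>
    have h1 : ∀ k, (eul i)^[k] (proj p s G) ∈ JJ p 𝔽 w := by
      intro k
      induction k with
      | zero => exact ih
      | succ k ihk =>
        rw [Function.iterate_succ_apply']
        exact JJ.mul (hpd _ ihk i) _
    have h2 : proj p (insert i s) G = proj p s G - (eul i)^[p - 1] (proj p s G) := by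
      ext d
      rw [map_sub, coeff_eul_iter]
      have h3 := proj_aux hp (d i)
      change (if ∀ j ∈ insert i s, p ∣ d j then coeff d G else 0) =
        (if ∀ j ∈ s, p ∣ d j then coeff d G else 0) -
        (d i : 𝔽) ^ (p - 1) * (if ∀ j ∈ s, p ∣ d j then coeff d G else 0)
      rw [← one_sub_mul, h3]
      by_cases h4 : p ∣ d i
      · simp [h4]
      · simp [h4]
    rw [h2]
    exact JJ.sub ih (h1 _)

theorem exists_root_pth (x : 𝔽) (hp : CharP 𝔽 p) : ∃ y : 𝔽, y ^ p = x := by
  have h1 : Function.Injective (frobenius 𝔽 p) := frobenius_inj 𝔽 p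
  obtain ⟨y, hy⟩ := (Finite.injective_iff_surjective.1 h1) x
  exact ⟨y, hy⟩

/-- `p`-th roots -/
theorem root_mem {w : ι → A →+ (FC p h (0 : Ball C)).Pt} {G : MvPowerSeries ι 𝔽}
    (hG : G ∈ JJ p 𝔽 w) (hGp : ∀ d, coeff d G ≠ 0 → ∀ i, p ∣ d i) :
    ∃ H ∈ JJ p 𝔽 w, ∀ d, coeff d H ^ p = coeff (p • d) G := by
  have hp := charP_F p C 𝔽
  choose r hr using fun x : 𝔽 => exists_root_pth (p := p) x hp
  obtain ⟨H, hH⟩ : ∃ H : MvPowerSeries ι 𝔽, ∀ d, coeff d H = r (coeff (p • d) G) :=
    ⟨fun d => r (coeff (p • d) G), fun d => rfl⟩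
  refine ⟨H, fun a => ?_, fun d => by rw [hH, hr]⟩
  have hp0 : p ≠ 0 := (Fact.out : p.Prime).ne_zero
  have h1 := ev_frob p 1 (pt_lt p w a) (bdd_map C H)
  have h2 : ev (fun i => pt p w a i ^ p ^ 1) ((H.map (algebraMap 𝔽 C)).map (iterateFrobenius C p 1))
      = evF (pt p w a) G := by
    unfold evF ev
    have hinj : Function.Injective (fun d : ι →₀ ℕ => p • d) := by
      intro d e hde
      ext i
      have := DFunLike.congr_fun hde i
      simp only [Finsupp.coe_smul, Pi.smul_apply, smul_eq_mul] at this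
      exact Nat.eq_of_mul_eq_mul_left (Nat.pos_of_ne_zero hp0) this
    obtain ⟨f, hf⟩ : ∃ f : (ι →₀ ℕ) → C, f = fun m => coeff m (G.map (algebraMap 𝔽 C)) *
      m.prod fun i e => pt p w a i ^ e := ⟨_, rfl⟩
    have hsupp : Function.support f ⊆ Set.range (fun d : ι →₀ ℕ => p • d) := by
      intro m hm
      rw [Function.mem_support] at hm
      have hm1 : coeff m G ≠ 0 := by
        intro h3
        apply hm
        rw [hf]
        simp only
        rw [coeff_map, h3, map_zero, zero_mul]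
      have hm2 := hGp m hm1
      choose e he using hm2
      refine ⟨Finsupp.equivFunOnFinite.symm e, ?_⟩
      ext i
      simp [he i]
    have h4 := hinj.tsum_eq hsupp
    rw [← hf, ← h4]
    refine tsum_congr fun d => ?_
    rw [hf]
    simp only
    rw [coeff_map, coeff_map, coeff_map, iterateFrobenius_def, pow_one, ← map_pow, hH, hr]
    congr 1
    rw [Finsupp.prod_fintype _ _ (fun i => pow_zero _),
      Finsupp.prod_fintype _ _ (fun i => pow_zero _)]
    refine Finset.prod_congr rfl fun i _ => ?_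
    rw [Finsupp.coe_smul, Pi.smul_apply, smul_eq_mul, pow_mul]
  rw [h2, hG a, pow_one] at h1
  exact pow_eq_zero_iff hp0 |>.1 h1

/-- existence of an element with nonzero linear part -/
theorem exists_linear (h1 : 1 ≤ h) (hcard : Fintype.card 𝔽 = p ^ h)
    {w : ι → A →+ (FC p h (0 : Ball C)).Pt} (hJ : ∃ G ∈ JJ p 𝔽 w, G ≠ 0) :
    ∃ G ∈ JJ p 𝔽 w, ∃ i, coeff (Finsupp.single i 1) G ≠ 0 := by
  by_contra hcon
  push Not at hcon
  have hpd : ∀ G ∈ JJ p 𝔽 w, ∀ i, pd i G ∈ JJ p 𝔽 w := fun G hG i =>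
    pd_mem h1 hcard (fun G' hG' => hcon G' hG' i) hG
  have hp := charP_F p C 𝔽
  have hex : ∃ N : ℕ, ∃ G ∈ JJ p 𝔽 w, ∃ d : ι →₀ ℕ, d.degree = N ∧ coeff d G ≠ 0 := by
    obtain ⟨G, hG, hne⟩ := hJ
    obtain ⟨d, hd⟩ : ∃ d, coeff d G ≠ 0 := by
      by_contra h3
      push Not at h3
      exact hne (MvPowerSeries.ext fun d => by rw [h3 d]; rfl)
    exact ⟨_, G, hG, d, rfl, hd⟩
  classical
  obtain ⟨G, hG, d, hdN, hdne⟩ := Nat.find_spec hex
  have hmin : ∀ G' ∈ JJ p 𝔽 w, ∀ e : ι →₀ ℕ, e.degree < d.degree → coeff e G' = 0 := by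
    intro G' hG' e he
    by_contra hne
    rw [hdN] at he
    exact Nat.find_min hex he ⟨G', hG', e, rfl, hne⟩
  -- the degree is positive
  have hd0 : d ≠ 0 := by
    rintro rfl
    exact hdne (JJ.constantCoeff hG)
  -- p divides all the exponents of d
  have hdp : ∀ i, p ∣ d i := by
    intro i
    by_cases hdi : d i = 0
    · rw [hdi]; exact dvd_zero _
    have h3 : d = (d - Finsupp.single i 1) + Finsupp.single i 1 := by
      ext j
      by_cases hj : j = i
      · subst hj
        simp only [Finsupp.coe_add, Finsupp.coe_tsub, Pi.add_apply, Pi.sub_apply,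
          Finsupp.single_eq_same]
        omega
      · simp [Finsupp.single_eq_of_ne hj]
    have h4 : (d - Finsupp.single i 1).degree < d.degree := by
      conv_rhs => rw [h3]
      rw [map_add, Finsupp.degree_single]
      omega
    have h5 := hmin _ (hpd G hG i) _ h4
    rw [coeff_pd, ← h3] at h5
    have h6 : (d - Finsupp.single i 1 : ι →₀ ℕ) i + 1 = d i := by
      simp only [Finsupp.coe_tsub, Pi.sub_apply, Finsupp.single_eq_same]
      omega
    rw [h6] at h5
    rcases mul_eq_zero.1 h5 with h7 | h7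
    · exact (CharP.cast_eq_zero_iff 𝔽 p _).1 h7
    · exact absurd h7 hdne
  obtain ⟨G', hG'⟩ : ∃ G', G' = proj p Finset.univ G := ⟨_, rfl⟩
  have hG'mem : G' ∈ JJ p 𝔽 w := by rw [hG']; exact proj_mem hpd _ hG
  have hG'c : ∀ e, coeff e G' = if ∀ i ∈ (Finset.univ : Finset ι), p ∣ e i then coeff e G else 0 :=
    fun e => by rw [hG']; rfl
  obtain ⟨H, hH, hHc⟩ := root_mem hG'mem (by
    intro e he i
    by_contra hne
    apply he
    rw [hG'c, if_neg]
    exact fun h8 => hne (h8 i (Finset.mem_univ i)))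
  choose e he using hdp
  obtain ⟨e', he'⟩ : ∃ e' : ι →₀ ℕ, p • e' = d := ⟨Finsupp.equivFunOnFinite.symm e, by
    ext i; simp [he i]⟩
  have h9 : coeff e' H ≠ 0 := by
    intro h10
    have h11 := hHc e'
    rw [h10, zero_pow (Fact.out : p.Prime).ne_zero, he', hG'c, if_pos fun i _ => ⟨e i, he i⟩] at h11
    exact hdne h11.symm
  have h12 : e'.degree < d.degree := by
    have h13 : d.degree = p * e'.degree := by rw [← he', map_nsmul, smul_eq_mul]
    have h14 : e'.degree ≠ 0 := by
      intro h15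
      apply hd0
      rw [← he', (Finsupp.degree_eq_zero_iff _).1 h15, smul_zero]
    rw [h13]
    have := (Fact.out : p.Prime).two_le
    nlinarith [Nat.pos_of_ne_zero h14]
  exact h9 (hmin H hH e' h12)

end

end Chai.JM
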