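import Vale.Agent.Chai.JModC

/-!
# P217 / JModD: elimination of a variable, identity theorem (for JMod)

OWNER: helper16
-/

namespace Chai.JM

open MvPowerSeries Filter Topology

set_option linter.unusedSectionVars false

section elim

variable {C : Type*} [NontriviallyNormedField C] [IsUltrametricDist C] [CompleteSpace C]
variable {𝔽 : Type*} [Field 𝔽] [Fintype 𝔽] [Algebra 𝔽 C]
variable {ι κ σ : Type*} [Fintype ι] [DecidableEq ι] [Fintype κ] [DecidableEq κ] [Fintype σ]

/-- identity theorem -/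
theorem eq_of_evF {G H : MvPowerSeries σ 𝔽}
    (h : ∀ x : σ → C, (∀ i, ‖x i‖ < 1) → evF x G = evF x H) : G = H := by
  rw [← sub_eq_zero]
  ext d
  have h1 : coeff d ((G - H).map (algebraMap 𝔽 C)) = 0 := by
    refine coeff_eq_zero_of_norm_ev_le (bdd_map C (G - H)) (N := d.degree + 1) (K := 0) one_pos
      (fun z _ hz => ?_) d (Nat.lt_succ_self _)
    have h2 : ev z ((G - H).map (algebraMap 𝔽 C)) = 0 := by
      have h3 := evF_sub hz G H
      rw [h z hz, sub_self] at h3
      exact h3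
    rw [h2, norm_zero, zero_mul]
  rw [coeff_map] at h1
  rw [(map_eq_zero_iff _ (algebraMap 𝔽 C).injective).1 h1]
  rfl

theorem evF_rename (e : κ ↪ ι) {x : ι → C} (hx : ∀ i, ‖x i‖ < 1) (G : MvPowerSeries κ 𝔽) :
    evF x (rename e G) = evF (fun j => x (e j)) G := by
  rw [rename_eq_subst, evF_subst hx (b := X ∘ e) (fun i => constantCoeff_X _)]
  congr 1
  funext i
  exact evF_X _ _

/-- splitting off a variable -/
theorem exists_split (i₀ : ι) (G : MvPowerSeries ι 𝔽) :
    ∃ G₁, G = rename (Function.Embedding.subtype (· ≠ i₀))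
      (killCompl (Function.Embedding.subtype (· ≠ i₀)) G) + X i₀ * G₁ := by
  obtain ⟨e, he⟩ : ∃ e, e = Function.Embedding.subtype (· ≠ i₀) := ⟨_, rfl⟩
  rw [← he]
  have h1 : (X i₀ : MvPowerSeries ι 𝔽) ∣ G - rename e (killCompl e G) := by
    rw [X_dvd_iff]
    intro m hm
    have h2 : m ∈ Set.range (Finsupp.embDomain e) := by
      rw [Finsupp.mem_range_embDomain_iff]
      intro j hj
      rw [Finset.mem_coe, Finsupp.mem_support_iff] at hj
      rw [he]
      refine ⟨⟨j, ?_⟩, rfl⟩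
      rintro rfl
      exact hj hm
    obtain ⟨m', rfl⟩ := h2
    rw [map_sub, coeff_embDomain_rename, coeff_killCompl, sub_self]
  obtain ⟨G₁, hG₁⟩ := h1
  exact ⟨G₁, by rw [← hG₁]; abel⟩

/-- implicit function theorem: solving for the variable `i₀` -/
theorem exists_implicit (i₀ : ι) {G : MvPowerSeries ι 𝔽} (h0 : constantCoeff G = 0)
    (hG : coeff (Finsupp.single i₀ 1) G ≠ 0) :
    ∃ g : MvPowerSeries {j // j ≠ i₀} 𝔽, ∀ x : ι → C, (∀ i, ‖x i‖ < 1) → evF x G = 0 →
      x i₀ = evF (fun j : {j // j ≠ i₀} => x j.1) g := by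
  obtain ⟨e, he⟩ : ∃ e, e = Function.Embedding.subtype (· ≠ i₀) := ⟨_, rfl⟩
  choose F1 hF1 using fun G : MvPowerSeries ι 𝔽 => exists_split i₀ G
  rw [← he] at hF1
  -- `U = F1 G` is a unit
  have hU : constantCoeff (F1 G) ≠ 0 := by
    have h1 := hF1 G
    have h2 : coeff (Finsupp.single i₀ 1) (rename e (killCompl e G)) = 0 := by
      apply coeff_rename_eq_zero
      rintro ⟨m, hm⟩
      have h3 := DFunLike.congr_fun hm i₀
      rw [Finsupp.single_eq_same, Finsupp.mapDomain_of_notMem_range] at h3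
      · exact one_ne_zero h3.symm
      · rintro ⟨j, hj⟩
        rw [he] at hj
        exact j.2 hj
    have h4 : coeff (Finsupp.single i₀ 1) (X i₀ * F1 G) = constantCoeff (F1 G) := by
      have := coeff_add_monomial_mul (R := 𝔽) (Finsupp.single i₀ 1) 0 (F1 G) 1
      rw [add_zero, one_mul] at this
      exact this
    rw [← h4]
    rw [h1, map_add, h2, zero_add] at hG
    exact hG
  obtain ⟨V, hV⟩ := (isUnit_iff_constantCoeff.2 (isUnit_iff_ne_zero.2 hU)).exists_left_inv
  obtain ⟨R, hR⟩ : ∃ R, R = killCompl e G := ⟨_, rfl⟩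
  have hR0 : constantCoeff R = 0 := by
    rw [hR, ← coeff_zero_eq_constantCoeff_apply, coeff_killCompl, Finsupp.embDomain_zero,
      coeff_zero_eq_constantCoeff_apply, h0]
  let T : MvPowerSeries ι 𝔽 → MvPowerSeries ι 𝔽 := fun F => -(V * F1 F)
  let f : ℕ → MvPowerSeries {j // j ≠ i₀} 𝔽 := fun k => killCompl e (T^[k] (X i₀))
  have hord : ∀ k, ∀ d : {j // j ≠ i₀} →₀ ℕ, d.degree < k → coeff d (R ^ k * f k) = 0 := by
    intro k d hd
    refine coeff_of_lt_order (lt_of_lt_of_le (Nat.cast_lt.mpr hd) ?_)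
    exact (le_order_pow_of_constantCoeff_eq_zero k hR0).trans
      ((le_add_right le_rfl).trans le_order_mul)
  obtain ⟨g, hg⟩ : ∃ g : MvPowerSeries {j // j ≠ i₀} 𝔽, ∀ d, coeff d g =
      ∑ k ∈ Finset.range (d.degree + 1), coeff d (R ^ k * f k) := ⟨fun d =>
        ∑ k ∈ Finset.range (d.degree + 1), coeff d (R ^ k * f k), fun d => rfl⟩
  have hgn : ∀ n, ∀ d : {j // j ≠ i₀} →₀ ℕ, d.degree < n →
      coeff d (g - ∑ k ∈ Finset.range n, R ^ k * f k) = 0 := by
    intro n d hd
    rw [map_sub, map_sum, hg, sub_eq_zero]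
    refine Finset.sum_subset (Finset.range_mono (by omega)) fun k _ hk => ?_
    rw [Finset.mem_range, not_lt] at hk
    exact hord k d (by omega)
  refine ⟨g, fun x hx hxG => ?_⟩
  obtain ⟨ρ, hρ0, hρ1, hρ⟩ := exists_rho hx
  obtain ⟨x', hx'⟩ : ∃ x' : {j // j ≠ i₀} → C, x' = fun j => x j.1 := ⟨_, rfl⟩
  have hx'1 : ∀ j, ‖x' j‖ < 1 := fun j => by rw [hx']; exact hx _
  have hx'ρ : ∀ j, ‖x' j‖ ≤ ρ := fun j => by rw [hx']; exact hρ _
  have hren : ∀ H : MvPowerSeries {j // j ≠ i₀} 𝔽, evF x (rename e H) = evF x' H := by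
    intro H
    rw [evF_rename e hx, hx']
    congr 1
    funext j
    rw [he]
    rfl
  have hstep : ∀ F : MvPowerSeries ι 𝔽, evF x F = evF x' (killCompl e F) + x i₀ * evF x (F1 F) := by
    intro F
    conv_lhs => rw [hF1 F]
    rw [evF_add hx, evF_mul hx, hren, evF_X]
  have hVU : evF x V * evF x (F1 G) = 1 := by rw [← evF_mul hx, hV, evF_one]
  have hxi : x i₀ = -(evF x' R * evF x V) := by
    have h1 := hstep G
    rw [hxG, ← hR] at h1
    have h2 : x i₀ * evF x (F1 G) = -evF x' R := by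
      have := h1.symm
      linear_combination this
    calc x i₀ = x i₀ * evF x (F1 G) * evF x V := by
          rw [mul_assoc, mul_comm (evF x (F1 G)), hVU, mul_one]
      _ = _ := by rw [h2]; ring
  have hstep2 : ∀ F : MvPowerSeries ι 𝔽, evF x F = evF x' (killCompl e F) +
      evF x' R * evF x (T F) := by
    intro F
    rw [hstep F, evF_neg hx, evF_mul hx, hxi]
    ring
  have hiter : ∀ n, x i₀ = evF x' (∑ k ∈ Finset.range n, R ^ k * f k) +
      evF x' R ^ n * evF x (T^[n] (X i₀)) := by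
    intro n
    induction n with
    | zero => simp [evF_X, evF_zero]
    | succ n ih =>
      rw [Finset.sum_range_succ, evF_add hx'1, evF_mul hx'1, evF_pow hx'1,
        Function.iterate_succ_apply', ih, hstep2 (T^[n] (X i₀))]
      ring
  have hRρ : ‖evF x' R‖ ≤ ρ := norm_evF_le hx'1 hR0 hρ0.le hx'ρ
  refine eq_of_norm_sub_le_pow hρ0.le hρ1 fun n => ?_
  have h1 : x i₀ - evF x' g = evF x' R ^ n * evF x (T^[n] (X i₀)) -
      evF x' (g - ∑ k ∈ Finset.range n, R ^ k * f k) := by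
    rw [evF_sub hx'1]
    linear_combination hiter n
  rw [← hx', h1]
  refine (norm_sub_le_max' _ _).trans (max_le ?_ (norm_evF_le_pow hx'1 hx'ρ hρ0.le (hgn n)))
  rw [norm_mul, norm_pow]
  calc ‖evF x' R‖ ^ n * ‖evF x (T^[n] (X i₀))‖ ≤ ρ ^ n * 1 := by
        gcongr
        exact norm_evF_le_one hx _
    _ = ρ ^ n := mul_one _

end elim

end Chai.JM
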