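import Vale.Agent.Chai.Setup
import Vale.Agent.Chai.Roots
import Vale.Agent.Chai.AsymA

/-!
# P217 / KSa: the series `V` over an arbitrary ring, its reduction and first variation
-/

namespace Chai

open MvPowerSeries Filter Topology

section VR

variable (p : ℕ) [Fact p.Prime] {R S : Type*} [CommRing R] [CommRing S]

/-- `V_x` over any ring -/
noncomputable def VR (h n : ℕ) (x : ℕ → R) : PowerSeries R :=
  fsum (hazF p (prm n x)) ((List.range (n - h + 1)).map fun j =>
    PowerSeries.C (prm n x (h + j)) * (PowerSeries.X : PowerSeries R) ^ p ^ j)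

theorem ks_prm_map (φ : R →+* S) (n : ℕ) (x : ℕ → R) (j : ℕ) :
    prm n (fun j => φ (x j)) j = φ (prm n x j) := by
  unfold prm
  split_ifs
  · rfl
  · exact (map_one φ).symm
  · exact (map_zero φ).symm

theorem cc_term (c : R) (j : ℕ) :
    constantCoeff (PowerSeries.C c * (PowerSeries.X : PowerSeries R) ^ p ^ j) = 0 := by
  have hp : p ≠ 0 := (Fact.out : p.Prime).ne_zero
  show PowerSeries.constantCoeff _ = 0
  rw [map_mul, map_pow, PowerSeries.constantCoeff_X, zero_pow (pow_ne_zero _ hp), mul_zero]

theorem VR_map (φ : R →+* S) (h n : ℕ) (x : ℕ → R) :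
    (VR p h n x).map φ = VR p h n (fun j => φ (x j)) := by
  have h1 : (VR p h n x).map φ = MvPowerSeries.map φ (VR p h n x) := rfl
  rw [h1, VR, map_fsum]
  · unfold VR
    have e1 : (hazF p (prm n x)).map φ = hazF p (prm n fun j => φ (x j)) := by
      rw [hazF_map]
      congr 1
      funext j
      exact (ks_prm_map φ n x j).symm
    rw [e1, List.map_map]
    congr 1
    apply List.map_congr_left
    intro j _
    simp only [Function.comp_apply]
    rw [ks_prm_map]
    show PowerSeries.map φ _ = _
    rw [map_mul, map_pow, PowerSeries.map_X, PowerSeries.map_C]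
  · intro a ha
    obtain ⟨j, _, rfl⟩ := List.mem_map.1 ha
    exact cc_term p _ j

/-- `F(a,b) = a + b + (order ≥ k + l)` -/
theorem ord_pair_sub {τ : Type*} (F : FormalGroup R) {a b : MvPowerSeries τ R} {k l : ℕ}
    (ha0 : constantCoeff a = 0) (hb0 : constantCoeff b = 0)
    (ha : (k : ℕ∞) ≤ a.order) (hb : (l : ℕ∞) ≤ b.order) :
    ((k + l : ℕ) : ℕ∞) ≤ (F.toPowerSeries.subst ![a, b] - (a + b)).order := by
  have hs : HasSubst ![a, b] := hasSubst_pair ha0 hb0
  have h1 : F.toPowerSeries.subst ![a, b] - (a + b) =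
      a * b * (FormalGroup.kk F).subst ![a, b] := by
    conv_lhs => rw [FormalGroup.eq_kk F]
    rw [subst_add hs, subst_add hs, subst_mul hs, subst_mul hs, subst_X hs, subst_X hs]
    simp
  rw [h1]
  exact ord_mul_right _ (ord_mul ha hb)

theorem ord_of_cc {τ : Type*} {a : MvPowerSeries τ R} (ha0 : constantCoeff a = 0) :
    ((1 : ℕ) : ℕ∞) ≤ a.order := by
  rw [← one_le_order_iff_constCoeff_eq_zero] at ha0
  exact_mod_cast ha0

theorem ps_coeff_eq_of_ord {k : ℕ} {f g : PowerSeries R}
    (hf : (k : ℕ∞) ≤ MvPowerSeries.order (f - g)) {i : ℕ} (hi : i < k) :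
    PowerSeries.coeff i f = PowerSeries.coeff i g := by
  apply coeff_eq_of_ord hf
  simpa using hi

theorem ord_X_pow (k : ℕ) : (k : ℕ∞) ≤ MvPowerSeries.order ((PowerSeries.X : PowerSeries R) ^ k) := by
  have := ord_pow (R := R) (ι := Unit) (k := 1) (f := (PowerSeries.X : PowerSeries R))
    (ord_of_cc PowerSeries.constantCoeff_X) k
  simpa using this

theorem coeff_one_fsum (F : FormalGroup R) (l : List (PowerSeries R))
    (hl : ∀ a ∈ l, MvPowerSeries.constantCoeff a = 0) :
    PowerSeries.coeff 1 (fsum F l : PowerSeries R) = (l.map (PowerSeries.coeff 1)).sum := by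
  induction l with
  | nil => exact map_zero _
  | cons a l ih =>
    have h1 := hl a (List.mem_cons_self ..)
    have h2 := constantCoeff_fsum F l (fun b hb => hl b (List.mem_cons_of_mem _ hb))
    rw [List.map_cons, List.sum_cons, ← ih (fun b hb => hl b (List.mem_cons_of_mem _ hb)), ← map_add]
    exact ps_coeff_eq_of_ord (ord_pair_sub F h1 h2 (ord_of_cc h1) (ord_of_cc h2)) (by norm_num)

theorem coeff_one_VR {h n : ℕ} (x : ℕ → R) : PowerSeries.coeff 1 (VR p h n x) = prm n x h := by
  rw [VR, coeff_one_fsum]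
  · rw [List.range_succ_eq_map, List.map_cons, List.map_cons, List.sum_cons]
    have h1 : (List.map (PowerSeries.coeff (R := R) 1) (List.map (fun j =>
        PowerSeries.C (prm n x (h + j)) * (PowerSeries.X : PowerSeries R) ^ p ^ j)
        (List.map Nat.succ (List.range (n - h))))).sum = 0 := by
      apply List.sum_eq_zero
      intro a ha
      rw [List.mem_map] at ha
      obtain ⟨f, hf, rfl⟩ := ha
      rw [List.mem_map] at hf
      obtain ⟨j, hj, rfl⟩ := hf
      rw [List.mem_map] at hj
      obtain ⟨i, -, rfl⟩ := hj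
      rw [PowerSeries.coeff_C_mul, PowerSeries.coeff_X_pow, if_neg, mul_zero]
      have : 1 < p ^ (i + 1) := Nat.one_lt_pow (by omega) (Fact.out : p.Prime).one_lt
      exact this.ne
    rw [h1, add_zero, pow_zero, pow_one, PowerSeries.coeff_C_mul, PowerSeries.coeff_one_X, mul_one,
      add_zero]
  · intro a ha
    obtain ⟨j, _, rfl⟩ := List.mem_map.1 ha
    exact cc_term p _ j

theorem fsum_skip (F : FormalGroup R) (f : ℕ → PowerSeries R) (a m : ℕ)
    (hf : ∀ i, MvPowerSeries.constantCoeff (f i) = 0) (ha : ∀ i < a, f i = 0) (ham : a ≤ m) :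
    (fsum F ((List.range m).map f) : PowerSeries R) =
      fsum F ((List.range (m - a)).map fun i => f (a + i)) := by
  obtain ⟨b, rfl⟩ := Nat.exists_eq_add_of_le ham
  rw [List.range_add, List.map_append, List.map_map, Nat.add_sub_cancel_left]
  have h1 : List.map f (List.range a) = List.replicate a 0 := by
    rw [List.eq_replicate_iff]
    refine ⟨by simp, fun b hb => ?_⟩
    obtain ⟨j, hj, rfl⟩ := List.mem_map.1 hb
    exact ha j (List.mem_range.1 hj)
  rw [h1, fsum_append_zero]
  · rfl
  · intro g hg
    obtain ⟨j, _, rfl⟩ := List.mem_map.1 hg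
    exact hf _

theorem fsum_range_succ (F : FormalGroup R) (f : ℕ → PowerSeries R) (m : ℕ) :
    (fsum F ((List.range (m + 1)).map f) : PowerSeries R) =
      F.toPowerSeries.subst ![f 0, (fsum F ((List.range m).map fun i => f (i + 1)) : PowerSeries R)] := by
  rw [List.range_succ_eq_map, List.map_cons, List.map_map]
  rfl

theorem VR_zero {h n : ℕ} (h1 : 1 ≤ h) (hn : h ≤ n) :
    VR p h n (fun _ => (0 : R)) = (PowerSeries.X : PowerSeries R) ^ p ^ (n - h) := by
  have hp : p ≠ 0 := (Fact.out : p.Prime).ne_zero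
  rw [VR, fsum_skip _ _ (n - h) _ (fun i => cc_term p _ i) _ (Nat.le_succ _)]
  · have e : n - h + 1 - (n - h) = 0 + 1 := by omega
    rw [e, fsum_range_succ]
    have h2 : prm n (fun _ => (0 : R)) (h + (n - h + 0)) = 1 := by
      unfold prm
      rw [if_neg (by omega), if_pos (by omega)]
    simp only [h2, map_one, one_mul, List.range_zero, List.map_nil]
    have h3 : PowerSeries.HasSubst ((PowerSeries.X : PowerSeries R) ^ p ^ (n - h) : MvPowerSeries Unit R) :=
      PowerSeries.HasSubst.X_pow (pow_ne_zero _ hp)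
    exact FormalGroup.add_zero _ h3
  · intro i hi
    have h2 : prm n (fun _ => (0 : R)) (h + i) = 0 := by
      unfold prm
      rw [if_pos (by omega)]
    rw [h2, map_zero, zero_mul]

/-- the low coefficients of `V` when only `v_j = s` and `v_n = 1` are nonzero -/
theorem VR_single {h n j : ℕ} (h1 : 1 ≤ h) (hj : h ≤ j) (hn : j < n) (s : R) {k : ℕ}
    (hk : k ≤ p ^ (j - h)) :
    PowerSeries.coeff k (VR p h n (fun i => if i = j then s else 0)) =
      if k = p ^ (j - h) then s else 0 := by
  have hp : p ≠ 0 := (Fact.out : p.Prime).ne_zero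
  obtain ⟨v, hv⟩ : ∃ v : ℕ → R, v = prm n (fun i => if i = j then s else 0) := ⟨_, rfl⟩
  obtain ⟨F, hF⟩ : ∃ F : FormalGroup R, F = hazF p v := ⟨_, rfl⟩
  have hvj : v j = s := by rw [hv]; unfold prm; rw [if_pos (by omega)]; exact if_pos rfl
  have hvn : v n = 1 := by rw [hv]; unfold prm; rw [if_neg (by omega), if_pos rfl]
  have hv0 : ∀ i, h ≤ i → i < n → i ≠ j → v i = 0 := by
    intro i hi1 hi2 hi3
    rw [hv]; unfold prm; rw [if_pos (by omega)]; exact if_neg hi3
  have key : VR p h n (fun i => if i = j then s else 0) =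
      F.toPowerSeries.subst ![(PowerSeries.C s * (PowerSeries.X : PowerSeries R) ^ p ^ (j - h) :
        MvPowerSeries Unit R), ((PowerSeries.X : PowerSeries R) ^ p ^ (n - h) : MvPowerSeries Unit R)] := by
    rw [VR, ← hv, ← hF, fsum_skip F _ (j - h) _ (fun i => cc_term p _ i) _ (by omega)]
    · have e : n - h + 1 - (j - h) = (n - j) + 1 := by omega
      rw [e, fsum_range_succ]
      have e2 : h + (j - h + 0) = j := by omega
      rw [e2, hvj]
      congr 1
      have h3 : (fsum F (List.map (fun i => PowerSeries.C (v (h + (j - h + (i + 1)))) *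
          (PowerSeries.X : PowerSeries R) ^ p ^ (j - h + (i + 1))) (List.range (n - j))) : PowerSeries R) =
          (PowerSeries.X : PowerSeries R) ^ p ^ (n - h) := by
        rw [fsum_skip F _ (n - j - 1) _ (fun i => cc_term p _ _) _ (by omega)]
        · have e3 : n - j - (n - j - 1) = 0 + 1 := by omega
          rw [e3, fsum_range_succ]
          have e4 : h + (j - h + (n - j - 1 + 0 + 1)) = n := by omega
          have e5 : j - h + (n - j - 1 + 0 + 1) = n - h := by omega
          rw [e4, hvn, e5]
          simp only [map_one, one_mul, List.range_zero, List.map_nil]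
          have h3 : PowerSeries.HasSubst
              ((PowerSeries.X : PowerSeries R) ^ p ^ (n - h) : MvPowerSeries Unit R) :=
            PowerSeries.HasSubst.X_pow (pow_ne_zero _ hp)
          exact FormalGroup.add_zero _ h3
        · intro i hi
          rw [hv0 _ (by omega) (by omega) (by omega), map_zero, zero_mul]
      rw [h3]
      rfl
    · intro i hi
      rw [hv0 _ (by omega) (by omega) (by omega), map_zero, zero_mul]
  have hlt : p ^ (j - h) < p ^ (n - h) := Nat.pow_lt_pow_right (Fact.out : p.Prime).one_lt (by omega)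
  have hA0 : MvPowerSeries.constantCoeff (PowerSeries.C s * (PowerSeries.X : PowerSeries R) ^ p ^ (j - h)) = 0 :=
    cc_term p _ _
  have hB0 : MvPowerSeries.constantCoeff ((PowerSeries.X : PowerSeries R) ^ p ^ (n - h)) = 0 := by
    have := cc_term p (1 : R) (n - h)
    rwa [map_one, one_mul] at this
  have h4 := ord_pair_sub F hA0 hB0 (k := p ^ (j - h)) (l := p ^ (n - h))
    (ord_mul_left _ (ord_X_pow _)) (ord_X_pow _)
  rw [key, ps_coeff_eq_of_ord h4 (by omega), map_add, PowerSeries.coeff_C_mul, PowerSeries.coeff_X_pow,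
    PowerSeries.coeff_X_pow, if_neg (by omega : ¬ k = p ^ (n - h)), add_zero]
  split_ifs
  · rw [mul_one]
  · rw [mul_zero]

end VR

end Chai
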