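import Vale.Agent.Chai.KSa

/-!
# P217 / KSb: zeros of `V_x` and the variations `G_j`
-/

namespace Chai

open MvPowerSeries Filter Topology

section

variable {C : Type*} [NontriviallyNormedField C] [IsUltrametricDist C]

variable (C) in
/-- the maximal ideal of the closed unit ball -/
def mI : Ideal (RootsAux.O C) where
  carrier := {x | ‖(x : C)‖ < 1}
  add_mem' {a b} ha hb := (IsUltrametricDist.norm_add_le_max (a : C) b).trans_lt (max_lt ha hb)
  zero_mem' := by simp
  smul_mem' c x hx := by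
    have h1 : ‖((c • x : RootsAux.O C) : C)‖ = ‖(c : C)‖ * ‖(x : C)‖ := by
      rw [smul_eq_mul, Subring.coe_mul, norm_mul]
    have h2 : ‖(x : C)‖ < 1 := hx
    show ‖((c • x : RootsAux.O C) : C)‖ < 1
    rw [h1]
    calc ‖(c : C)‖ * ‖(x : C)‖ ≤ 1 * ‖(x : C)‖ :=
          mul_le_mul_of_nonneg_right (RootsAux.norm_le c) (norm_nonneg _)
      _ < 1 := by rwa [one_mul]

theorem mk_eq_zero_iff (a : RootsAux.O C) : Ideal.Quotient.mk (mI C) a = 0 ↔ ‖(a : C)‖ < 1 :=
  Ideal.Quotient.eq_zero_iff_mem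

variable [CompleteSpace C]

theorem norm_of_mk_eq_one {a : RootsAux.O C} (h : Ideal.Quotient.mk (mI C) a = 1) : ‖(a : C)‖ = 1 := by
  have h1 : Ideal.Quotient.mk (mI C) (a - 1) = 0 := by rw [map_sub, h, map_one, sub_self]
  rw [mk_eq_zero_iff] at h1
  have h2 : ‖(1 : C) + ((a : C) - 1)‖ = 1 := norm_one_add_eq (by simpa using h1)
  rwa [add_sub_cancel] at h2

variable (p : ℕ) [Fact p.Prime]

/-- lift of a point to the unit ball -/
def liftO (x : Ball C) (j : ℕ) : RootsAux.O C := ⟨x.1 j, (x.2 j).le⟩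

theorem VPS_eq_map (h n : ℕ) (x : Ball C) :
    VPS p h n x = PowerSeries.map (RootsAux.O C).subtype (VR p h n (liftO x)) :=
  (VR_map p (RootsAux.O C).subtype h n (liftO x)).symm

theorem coeff_VPS (h n : ℕ) (x : Ball C) (i : ℕ) :
    PowerSeries.coeff i (VPS p h n x) =
      ((PowerSeries.coeff i (VR p h n (liftO x)) : RootsAux.O C) : C) := by
  rw [VPS_eq_map, PowerSeries.coeff_map]
  rfl

theorem WDeg_VPS {h n : ℕ} (h1 : 1 ≤ h) (hn : h ≤ n) (x : Ball C) :
    WDeg (VPS p h n x) (p ^ (n - h)) := by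
  have h2 : PowerSeries.map (Ideal.Quotient.mk (mI C)) (VR p h n (liftO x)) =
      (PowerSeries.X : PowerSeries (RootsAux.O C ⧸ mI C)) ^ p ^ (n - h) := by
    refine (VR_map p (Ideal.Quotient.mk (mI C)) h n (liftO x)).trans ?_
    rw [← VR_zero p h1 hn]
    congr 1
    funext j
    exact (mk_eq_zero_iff (liftO x j)).2 (x.2 j)
  refine ⟨bdd_VPS p h n x, ?_, ?_⟩
  · intro i hi
    rw [coeff_VPS, ← mk_eq_zero_iff (C := C), ← PowerSeries.coeff_map, h2, PowerSeries.coeff_X_pow,
      if_neg hi.ne]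
  · rw [coeff_VPS]
    apply norm_of_mk_eq_one
    rw [← PowerSeries.coeff_map, h2, PowerSeries.coeff_X_pow, if_pos rfl]

/-- the parameters `x + s e_j` over `O[s]` -/
noncomputable def polyPrm (x : Ball C) (j : ℕ) (i : ℕ) : Polynomial (RootsAux.O C) :=
  if i = j then Polynomial.C (liftO x i) + Polynomial.X else Polynomial.C (liftO x i)

/-- the variation of `V_x` in the direction `j` -/
noncomputable def Gj (h n : ℕ) (x : Ball C) (j : ℕ) : PowerSeries C :=
  PowerSeries.mk fun k => ((PowerSeries.coeff k (VR p h n (polyPrm x j))).coeff 1 : C)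

theorem bdd_Gj (h n : ℕ) (x : Ball C) (j : ℕ) : Bdd (Gj p h n x j) := by
  rw [RootsAux.bdd_iff_coeff]
  intro i
  rw [Gj, PowerSeries.coeff_mk]
  exact RootsAux.norm_le _

theorem Gj_coeff {h n j : ℕ} (h1 : 1 ≤ h) (hj : h ≤ j) (hn : j < n) (x : Ball C) {k : ℕ}
    (hk : k ≤ p ^ (j - h)) :
    (k < p ^ (j - h) → ‖PowerSeries.coeff k (Gj p h n x j)‖ < 1) ∧
    (k = p ^ (j - h) → ‖PowerSeries.coeff k (Gj p h n x j)‖ = 1) := by
  have h2 : PowerSeries.map (Polynomial.mapRingHom (Ideal.Quotient.mk (mI C)))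
      (VR p h n (polyPrm x j)) = VR p h n (fun i => if i = j then Polynomial.X else 0) := by
    refine (VR_map (S := Polynomial (RootsAux.O C ⧸ mI C)) p
      (Polynomial.mapRingHom (Ideal.Quotient.mk (mI C))) h n (polyPrm x j)).trans ?_
    congr 1
    funext i
    have h3 : Ideal.Quotient.mk (mI C) (liftO x i) = 0 := by
      rw [mk_eq_zero_iff]; exact x.2 i
    unfold polyPrm
    split_ifs
    · rw [map_add, Polynomial.coe_mapRingHom, Polynomial.map_C, h3, Polynomial.map_X, map_zero, zero_add]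
    · rw [Polynomial.coe_mapRingHom, Polynomial.map_C, h3, map_zero]
  have h4 := VR_single p h1 hj hn (Polynomial.X : Polynomial (RootsAux.O C ⧸ mI C)) hk
  have h5 : Ideal.Quotient.mk (mI C) ((PowerSeries.coeff k (VR p h n (polyPrm x j))).coeff 1) =
      if k = p ^ (j - h) then 1 else 0 := by
    have h6 : Ideal.Quotient.mk (mI C) ((PowerSeries.coeff k (VR p h n (polyPrm x j))).coeff 1) =
        (PowerSeries.coeff k (PowerSeries.map
          (Polynomial.mapRingHom (Ideal.Quotient.mk (mI C))) (VR p h n (polyPrm x j)))).coeff 1 := by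
      rw [PowerSeries.coeff_map, Polynomial.coe_mapRingHom, Polynomial.coeff_map]
    rw [h6, h2, h4]
    split_ifs
    · exact Polynomial.coeff_X_one
    · exact Polynomial.coeff_zero 1
  rw [Gj, PowerSeries.coeff_mk]
  constructor
  · intro hlt
    rw [← mk_eq_zero_iff, h5, if_neg hlt.ne]
  · intro heq
    apply norm_of_mk_eq_one
    rw [h5, if_pos heq]

/-- the point `x + s e_j` -/
theorem VPS_shift_sub {h n : ℕ} {j : Idx h n} (x : Ball C) {s : C} (hs : ‖s‖ < 1)
    (hδ : ∀ i, ‖(Pi.single j s : Idx h n → C) i‖ < 1) {y : C} (hy : ‖y‖ < 1) :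
    ‖ev1 y (VPS p h n (shiftB x (Pi.single j s) hδ)) -
      (ev1 y (VPS p h n x) + s * ev1 y (Gj p h n x j.1))‖ ≤ ‖s‖ ^ 2 := by
  obtain ⟨s', hs'⟩ : ∃ s' : RootsAux.O C, (s' : C) = s := ⟨⟨s, hs.le⟩, rfl⟩
  have hev : ∀ r : RootsAux.O C, PowerSeries.map (Polynomial.evalRingHom r) (VR p h n (polyPrm x j.1)) =
      VR p h n (fun i => if i = j.1 then liftO x i + r else liftO x i) := by
    intro r
    refine (VR_map p (Polynomial.evalRingHom r) h n (polyPrm x j.1)).trans ?_
    congr 1
    funext i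
    unfold polyPrm
    split_ifs <;> simp
  have h1 : ∀ k, PowerSeries.coeff k (VPS p h n (shiftB x (Pi.single j s) hδ)) =
      (((PowerSeries.coeff k (VR p h n (polyPrm x j.1))).eval s' : RootsAux.O C) : C) := by
    intro k
    have h2 := congrArg (PowerSeries.coeff k) (hev s')
    rw [PowerSeries.coeff_map, Polynomial.coe_evalRingHom] at h2
    rw [h2, coeff_VPS]
    congr 3
    funext i
    apply Subtype.ext
    show (shiftB x (Pi.single j s) hδ).1 i = _
    simp only [shiftB]
    by_cases hi : i = j.1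
    · subst hi
      rw [dif_pos j.2, if_pos rfl]
      simp [liftO, hs']
    · rw [if_neg hi]
      split_ifs with hi2
      · rw [Pi.single_eq_of_ne]
        · simp [liftO]
        · intro hcon
          exact hi (congrArg Subtype.val hcon)
      · rfl
  have h3 : ∀ k, PowerSeries.coeff k (VPS p h n x) =
      (((PowerSeries.coeff k (VR p h n (polyPrm x j.1))).eval 0 : RootsAux.O C) : C) := by
    intro k
    have h2 := congrArg (PowerSeries.coeff k) (hev 0)
    rw [PowerSeries.coeff_map, Polynomial.coe_evalRingHom] at h2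
    rw [h2, coeff_VPS]
    congr 3
    funext i
    split_ifs <;> simp
  have hb1 := bdd_VPS p h n (shiftB x (Pi.single j s) hδ)
  have hb2 := bdd_VPS p h n x
  have hb3 := bdd_Gj p h n x j.1
  have hbs : Bdd (PowerSeries.C s) := Bdd.C_iff.2 hs.le
  have h4 : ev1 y (VPS p h n x) + s * ev1 y (Gj p h n x j.1) =
      ev1 y (VPS p h n x + PowerSeries.C s * Gj p h n x j.1) := by
    rw [RootsAux.ev1_add hy hb2 (hbs.mul hb3), RootsAux.ev1_mul hy hbs hb3, RootsAux.ev1_C]
  rw [h4]
  refine norm_ev_sub_le' (fun _ => hy) hb1 (hb2.add (hbs.mul hb3)) (by positivity) ?_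
  intro d
  have h5 : ∀ k, ‖PowerSeries.coeff k (VPS p h n (shiftB x (Pi.single j s) hδ)) -
      PowerSeries.coeff k (VPS p h n x + PowerSeries.C s * Gj p h n x j.1)‖ ≤ ‖s‖ ^ 2 := by
    intro k
    rw [map_add, PowerSeries.coeff_C_mul, h1, h3, Gj, PowerSeries.coeff_mk]
    obtain ⟨P, hP⟩ : ∃ P : Polynomial (RootsAux.O C), P = PowerSeries.coeff k (VR p h n (polyPrm x j.1)) :=
      ⟨_, rfl⟩
    rw [← hP]
    have h6 : P = P.divX.divX * Polynomial.X ^ 2 + Polynomial.C (P.coeff 1) * Polynomial.X +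
        Polynomial.C (P.coeff 0) := by
      have e1 := P.divX_mul_X_add
      have e2 := P.divX.divX_mul_X_add
      rw [Polynomial.coeff_divX] at e2
      conv_lhs => rw [← e1, ← e2]
      ring
    have h7 : P.eval s' = P.divX.divX.eval s' * s' ^ 2 + P.coeff 1 * s' + P.coeff 0 := by
      conv_lhs => rw [h6]
      simp
    have h8 : ((P.eval s' : RootsAux.O C) : C) - ((P.eval 0 : RootsAux.O C) + s * (P.coeff 1 : C)) =
        ((P.divX.divX.eval s' : RootsAux.O C) : C) * s ^ 2 := by
      rw [h7, ← Polynomial.coeff_zero_eq_eval_zero]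
      push_cast
      rw [hs']
      ring
    rw [h8, norm_mul, norm_pow]
    exact mul_le_of_le_one_left (by positivity) (RootsAux.norm_le _)
  have hd : d = Finsupp.single () (d ()) := Finsupp.unique_single d
  rw [hd]
  exact h5 _

end

end Chai
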