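import Vale.Agent.Chai.Haz

/-!
# P217 / LTDefs: the Lubin-Tate ring `E_0`, the universal deformation, height ideals
-/

namespace Chai

open MvPowerSeries

section
variable (p : ℕ) [Fact p.Prime] (n : ℕ)

/-- `E_0 = W(𝔽_{p^n})[[u_1, …, u_{n-1}]]` -/
abbrev E0 : Type := MvPowerSeries (Fin (n - 1)) (WittVector p (GaloisField p n))

/-- `u_j` for `1 ≤ j ≤ n-1` (and `0` for other `j`) -/
noncomputable def uE (j : ℕ) : E0 p n :=
  if hj : 1 ≤ j ∧ j < n then X ⟨j - 1, by omega⟩ else 0

/-- the universal deformation: Hazewinkel parameters `v_j = u_j` (`j < n`), `v_n = 1`, `v_j = 0` (`j > n`) -/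
noncomputable def univF : FormalGroup (E0 p n) := hazF p (prm n (uE p n))

/-- reduction `E_0 → 𝔽_{p^n}` -/
noncomputable def resE : E0 p n →+* GaloisField p n :=
  (WittVector.constantCoeff).comp (MvPowerSeries.constantCoeff)

/-- the maximal ideal `(p, u_1, …, u_{n-1})` -/
noncomputable def mE : Ideal (E0 p n) := RingHom.ker (resE p n)

/-- the height ideals `I_0 = 0`, `I_h = (p, u_1, …, u_{h-1})` -/
noncomputable def heightIdeal (h : ℕ) : Ideal (E0 p n) :=
  if h = 0 then ⊥ else Ideal.span ({(p : E0 p n)} ∪ {a | ∃ j, 1 ≤ j ∧ j < h ∧ a = uE p n j})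

/-- invariance under the extended Morava stabilizer group: `φ(I) = I` for every ring automorphism `φ`
of `E_0` for which there is an isomorphism of formal groups `φ_* F ≅ F` -/
def GInvariant (F : FormalGroup (E0 p n)) (I : Ideal (E0 p n)) : Prop :=
  ∀ (φ : E0 p n ≃+* E0 p n) (ψ : PowerSeries (E0 p n)),
    IsIsoFG ψ (F.map (φ : E0 p n →+* E0 p n)) F → I.map (φ : E0 p n →+* E0 p n) = I

end

end Chai
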