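import Vale.Agent.Chai.LTlam

/-!
# P217 / LTU: the `p`-series of `hazF p w` over an arbitrary ring

OWNER: helper10 (done)

`[p](X) = L +_F p R(X)`, `L = ∑^F w_j X^{p^j}`, with `R` natural in `w`.
PROOF.  `B = MvPolynomial ℕ ℤ`, `v j = if j ≤ n then X j else 0`, `H = hazF p v`,
`z = pt H (mulPS H p) - pt H (fsum H (list)) : H.Point Unit` (group structure: LTgrp; `pt`, `pmap`: LTlam).
Under `φ = MvPolynomial.map (Int.castRingHom (ZMod p)) : B → MvPolynomial ℕ (ZMod p)` (char `p`) `pmap H φ z = 0` by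
`mulPS_hazF` (`map_mulPS`, `map_fsum`), so all coefficients of `z.val` are divisible by `C p`
(`MvPolynomial.C_dvd_iff_zmod`): `z.val = C p * R`.  Then map to `A` by `eval₂Hom (Int.castRingHom A) w`
(`hazF_map`: `H ↦ hazF p (fun j => if j ≤ n then w j else 0) = hazF p w`).
-/

namespace Chai

open MvPowerSeries

theorem LTU_map_list {B A : Type*} [CommRing B] [CommRing A] (φ : B →+* A) (p n : ℕ) (v : ℕ → B) :
    ((List.range n).map fun j =>
      (PowerSeries.C (v (j + 1)) * (PowerSeries.X : PowerSeries B) ^ p ^ (j + 1) :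
        PowerSeries B)).map (MvPowerSeries.map φ) =
    (List.range n).map fun j =>
      PowerSeries.C (φ (v (j + 1))) * (PowerSeries.X : PowerSeries A) ^ p ^ (j + 1) := by
  rw [List.map_map]
  refine List.map_congr_left fun j _ => ?_
  exact haz_map_CX φ _ _

theorem exists_R (p : ℕ) [Fact p.Prime] (n : ℕ) : ∃ R : PowerSeries (MvPolynomial ℕ ℤ),
    PowerSeries.constantCoeff R = 0 ∧
    ∀ {A : Type} [CommRing A] (w : ℕ → A), (∀ j, n < j → w j = 0) →
      mulPS (hazF p w) p = (hazF p w).toPowerSeries.subst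
        ![fsum (hazF p w) ((List.range n).map fun j =>
            PowerSeries.C (w (j + 1)) * (PowerSeries.X : PowerSeries A) ^ p ^ (j + 1)),
          (PowerSeries.C (p : A) * R.map (MvPolynomial.eval₂Hom (Int.castRingHom A) w) :
            PowerSeries A)] := by
  have hp : p.Prime := Fact.out
  obtain ⟨v, hv⟩ : ∃ v : ℕ → MvPolynomial ℕ ℤ,
    v = fun j => if j ≤ n then MvPolynomial.X j else 0 := ⟨_, rfl⟩
  obtain ⟨H, hH⟩ : ∃ H : FormalGroup (MvPolynomial ℕ ℤ), H = hazF p v := ⟨_, rfl⟩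
  have : H.IsComm := hH ▸ hazF_comm p v
  obtain ⟨l, hl⟩ : ∃ l : List (PowerSeries (MvPolynomial ℕ ℤ)), l = (List.range n).map fun j =>
    PowerSeries.C (v (j + 1)) * (PowerSeries.X : PowerSeries (MvPolynomial ℕ ℤ)) ^ p ^ (j + 1) :=
    ⟨_, rfl⟩
  have hl0 : ∀ a ∈ l, MvPowerSeries.constantCoeff a = 0 := by
    intro a ha
    rw [hl] at ha
    obtain ⟨j, _, rfl⟩ := List.mem_map.1 ha
    exact Fel.constantCoeff_CX _ (pow_ne_zero _ hp.ne_zero)
  have hf0 : MvPowerSeries.constantCoeff (fsum H l) = 0 := haz_constantCoeff_fsum H hl0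
  -- reduction mod `p`
  obtain ⟨φ, hφ⟩ : ∃ φ : MvPolynomial ℕ ℤ →+* MvPolynomial ℕ (ZMod p),
    φ = MvPolynomial.map (Int.castRingHom (ZMod p)) := ⟨_, rfl⟩
  have h1 : MvPowerSeries.map φ (mulPS H p) = MvPowerSeries.map φ (fsum H l) := by
    have e1 : MvPowerSeries.map φ (mulPS H p) = mulPS (H.map φ) p := map_mulPS _ _ _
    rw [e1, map_fsum H φ hl0, hl, LTU_map_list, hH, hazF_map]
    refine mulPS_hazF p n _ fun j hj => ?_
    rw [hv]
    dsimp only
    rw [if_neg (by omega), map_zero]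
  obtain ⟨I, hI⟩ : ∃ I : Ideal (MvPolynomial ℕ ℤ), I = Ideal.span {(p : MvPolynomial ℕ ℤ)} :=
    ⟨_, rfl⟩
  have h2 : JV I ((mulPS H p : MvPowerSeries Unit (MvPolynomial ℕ ℤ)) - fsum H l) := by
    intro d
    have h3 : φ (MvPowerSeries.coeff d
        ((mulPS H p : MvPowerSeries Unit (MvPolynomial ℕ ℤ)) - fsum H l)) = 0 := by
      rw [← MvPowerSeries.coeff_map, map_sub, h1, sub_self, map_zero]
    rw [hφ] at h3
    rw [hI, Ideal.mem_span_singleton]
    have h4 := (MvPolynomial.C_dvd_iff_zmod p (MvPowerSeries.coeff d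
        ((mulPS H p : MvPowerSeries Unit (MvPolynomial ℕ ℤ)) - fsum H l))).2 h3
    have h5 : (MvPolynomial.C (p : ℤ) : MvPolynomial ℕ ℤ) = (p : MvPolynomial ℕ ℤ) := by simp
    rw [← h5]
    exact h4
  obtain ⟨z, hz⟩ : ∃ z : H.Point Unit,
    z = p • pt H (PowerSeries.X : PowerSeries (MvPolynomial ℕ ℤ)) - pt H (fsum H l) := ⟨_, rfl⟩
  have h6 : JV I z.val := by
    rw [hz, JV.psub_iff, nsmul_val, pt_val hf0]
    exact h2
  have h7 : mulPS H p = H.toPowerSeries.subst ![fsum H l, z.val] := by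
    have h8 : p • pt H (PowerSeries.X : PowerSeries (MvPolynomial ℕ ℤ)) = pt H (fsum H l) + z := by
      rw [hz, add_sub_cancel]
    have h9 := congrArg Subtype.val h8
    have h10 := nsmul_val H p
    rw [← h10]
    refine h9.trans ?_
    have h11 := val_add (pt H (fsum H l)) z
    rw [pt_val hf0] at h11
    exact h11
  have h12 : ∀ i : ℕ, ∃ c : MvPolynomial ℕ ℤ,
      PowerSeries.coeff i (z.val : PowerSeries (MvPolynomial ℕ ℤ)) = (p : MvPolynomial ℕ ℤ) * c := by
    intro i
    have h13 := h6 (Finsupp.single () i)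
    rw [hI, Ideal.mem_span_singleton] at h13
    exact h13
  choose c hc using h12
  obtain ⟨R, hR⟩ : ∃ R : PowerSeries (MvPolynomial ℕ ℤ), R = PowerSeries.mk c := ⟨_, rfl⟩
  have hzR : (z.val : PowerSeries (MvPolynomial ℕ ℤ)) =
      PowerSeries.C (p : MvPolynomial ℕ ℤ) * R := by
    ext1 i
    rw [PowerSeries.coeff_C_mul, hR, PowerSeries.coeff_mk, hc]
  have hz0 : PowerSeries.constantCoeff (z.val : PowerSeries (MvPolynomial ℕ ℤ)) = 0 :=
    IsNilpotent.eq_zero z.2
  refine ⟨R, ?_, ?_⟩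
  · rw [hzR, map_mul, PowerSeries.constantCoeff_C] at hz0
    rcases mul_eq_zero.1 hz0 with h | h
    · exact absurd h (Nat.cast_ne_zero.2 hp.ne_zero)
    · exact h
  · intro A _ w hw
    obtain ⟨ψ, hψ⟩ : ∃ ψ : MvPolynomial ℕ ℤ →+* A,
      ψ = MvPolynomial.eval₂Hom (Int.castRingHom A) w := ⟨_, rfl⟩
    have hψv : ∀ j, ψ (v j) = w j := by
      intro j
      rw [hv]
      dsimp only
      split_ifs with hj
      · rw [hψ]; exact MvPolynomial.eval₂Hom_X' _ _ _
      · rw [map_zero, hw j (by omega)]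
    have hHw : H.map ψ = hazF p w := by
      rw [hH, hazF_map]
      congr 1
      funext j
      exact hψv j
    have e1 : MvPowerSeries.map ψ (mulPS H p) = mulPS (H.map ψ) p := map_mulPS _ _ _
    have e2 : MvPowerSeries.map ψ (fsum H l) = fsum (H.map ψ) ((List.range n).map fun j =>
        PowerSeries.C (w (j + 1)) * (PowerSeries.X : PowerSeries A) ^ p ^ (j + 1)) := by
      rw [map_fsum H ψ hl0, hl, LTU_map_list]
      congr 1
      refine List.map_congr_left fun j _ => ?_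
      rw [hψv]
    have e3 : MvPowerSeries.map ψ (z.val : PowerSeries (MvPolynomial ℕ ℤ)) =
        (PowerSeries.C (p : A) * R.map ψ : PowerSeries A) := by
      rw [hzR]
      have : PowerSeries.map ψ (PowerSeries.C (p : MvPolynomial ℕ ℤ) * R) =
          PowerSeries.C (p : A) * PowerSeries.map ψ R := by
        rw [map_mul, PowerSeries.map_C, map_natCast]
      exact this
    rw [← hψ, ← hHw, ← e1, ← e2, ← e3]
    have h14 := congrArg (MvPowerSeries.map ψ) h7
    refine h14.trans ?_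
    rw [Fel.map_subst_pair (F := H.toPowerSeries) (ι := ψ) hf0 hz0]
    rfl

end Chai
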