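import Vale.Agent.Chai.LTdef

/-!
# P217 / LTchg: change of the source group and of the series

OWNER: helper9
-/

namespace Chai

open MvPowerSeries Finsupp

section tau

variable {A : Type*} [CommRing A] {F F' G : FormalGroup A}

/-- the difference of two group laws as a point -/
noncomputable def tau (F F' : FormalGroup A) [F.IsComm] : F.Point (Fin 2) :=
  pt F F'.toPowerSeries - pt F F.toPowerSeries

theorem cc_tau [F.IsComm] : constantCoeff (tau F F').val = 0 :=
  cc_sub (cc_pt F'.zero_constantCoeff) (cc_pt F.zero_constantCoeff)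

theorem JV_tau [F.IsComm] {I : Ideal A} (h : JV I (F'.toPowerSeries - F.toPowerSeries)) :
    JV I (tau F F').val := by
  unfold tau
  rw [JV.psub_iff, pt_val F'.zero_constantCoeff, pt_val F.zero_constantCoeff]
  exact h

theorem tau_eq [F.IsComm] :
    F.toPowerSeries.subst ![F.toPowerSeries, (tau F F').val] = F'.toPowerSeries := by
  have h : pt F F.toPowerSeries + tau F F' = pt F F'.toPowerSeries := by
    unfold tau
    abel
  have h2 := congrArg Subtype.val h
  rw [val_add, pt_val F.zero_constantCoeff, pt_val F'.zero_constantCoeff] at h2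
  exact h2

end tau

section change

variable {A : Type*} [CommRing A] {k : Type} [Field k] (s : Sx A k)
  {F F' G : FormalGroup A} [F.IsComm] [G.IsComm] {h : PowerSeries A}

theorem map_res_eq (hFF : JV s.I (F'.toPowerSeries - F.toPowerSeries)) :
    F'.map s.res = F.map s.res := by
  apply FormalGroup.ext
  show F'.toPowerSeries.map s.res = F.toPowerSeries.map s.res
  have := s.map_res_JV hFF
  rwa [map_sub, sub_eq_zero] at this

theorem L_subst1 {υ : Type*} {S : PowerSeries A} (hS : JV s.I S) {a : MvPowerSeries υ A}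
    (ha : constantCoeff a = 0) :
    JV s.I (S.subst a) ∧ s.L (S.subst a) = PowerSeries.subst (a.map s.res) (s.L S) := by
  have hs : HasSubst (fun _ : Unit => a) :=
    PowerSeries.HasSubst.const (PowerSeries.HasSubst.of_constantCoeff_zero ha)
  exact ⟨hS.subst hs, s.L_subst hS hs⟩

theorem defU_change [F'.IsComm] (h0 : PowerSeries.constantCoeff h = 0)
    (h1 : s.res (PowerSeries.coeff 1 h) = 1)
    (hD : JV s.I (defU F G h).val) (hFF : JV s.I (F'.toPowerSeries - F.toPowerSeries))
    (hres : Function.Surjective s.res)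
    {S : PowerSeries A} (hS0 : PowerSeries.constantCoeff S = 0) (hS : JV s.I S) :
    JV s.I (defU F' G (G.toPowerSeries.subst ![h, S])).val ∧
    s.L (defU F' G (G.toPowerSeries.subst ![h, S])).val =
      s.L (defU F G h).val - s.L (tau F F').val +
        (PowerSeries.subst (X 0 : MvPowerSeries (Fin 2) k) (s.L S) +
          PowerSeries.subst (X 1 : MvPowerSeries (Fin 2) k) (s.L S) -
          PowerSeries.subst (F.map s.res).toPowerSeries (s.L S)) := by
  set T := (tau F F').val with hT
  have hT0 : constantCoeff T = 0 := cc_tau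
  have hTJ : JV s.I T := JV_tau hFF
  have hF0 := F.zero_constantCoeff
  have hF0' := F'.zero_constantCoeff
  have hX : ∀ i : Fin 2, constantCoeff (X i : MvPowerSeries (Fin 2) A) = 0 := constantCoeff_X
  -- values of the new series
  have e1 : ∀ a : MvPowerSeries (Fin 2) A, constantCoeff a = 0 →
      pt G (PowerSeries.subst a (G.toPowerSeries.subst ![h, S] : PowerSeries A))
        = pt G (h.subst a) + pt G (S.subst a) := by
    intro a ha
    have hs : HasSubst (fun _ : Unit => a) :=
      PowerSeries.HasSubst.const (PowerSeries.HasSubst.of_constantCoeff_zero ha)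
    rw [← pt_add (ccs1 ha h0) (ccs1 ha hS0)]
    congr 1
    exact subst_pair_subst h0 hS0 (fun _ => ha) _
  have e2 : defU F' G (G.toPowerSeries.subst ![h, S])
      = (defU F G h + defect F G h F.toPowerSeries T - pt G (h.subst T))
        + (pt G (S.subst (X 0 : MvPowerSeries (Fin 2) A))
          + pt G (S.subst (X 1 : MvPowerSeries (Fin 2) A)) - pt G (S.subst F'.toPowerSeries)) := by
    have hFX : F.toPowerSeries.subst ![(X 0 : MvPowerSeries (Fin 2) A), X 1] = F.toPowerSeries := by
      have : (![(X 0 : MvPowerSeries (Fin 2) A), X 1] : Fin 2 → MvPowerSeries (Fin 2) A) = X := by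
        funext i; fin_cases i <;> rfl
      rw [this, subst_self]; rfl
    have hFX' : F'.toPowerSeries.subst ![(X 0 : MvPowerSeries (Fin 2) A), X 1]
        = F'.toPowerSeries := by
      have : (![(X 0 : MvPowerSeries (Fin 2) A), X 1] : Fin 2 → MvPowerSeries (Fin 2) A) = X := by
        funext i; fin_cases i <;> rfl
      rw [this, subst_self]; rfl
    unfold defU defect
    rw [hFX, hFX', e1 _ (hX 0), e1 _ (hX 1), e1 _ hF0', hT, tau_eq]
    abel
  have j1 : JV s.I (defect F G h F.toPowerSeries T).val := JV_defect h0 hD hF0 hT0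
  obtain ⟨j2, l2⟩ := s.L_subst_right h0 hT0 hTJ
  have j2' : JV s.I (pt G (h.subst T)).val := by rw [pt_val (ccs1 hT0 h0)]; exact j2
  obtain ⟨j3, l3⟩ := L_subst1 s hS (hX 0)
  obtain ⟨j4, l4⟩ := L_subst1 s hS (hX 1)
  obtain ⟨j5, l5⟩ := L_subst1 s hS hF0'
  have j3' : JV s.I (pt G (S.subst (X 0 : MvPowerSeries (Fin 2) A))).val := by
    rw [pt_val (ccs1 (hX 0) hS0)]; exact j3
  have j4' : JV s.I (pt G (S.subst (X 1 : MvPowerSeries (Fin 2) A))).val := by
    rw [pt_val (ccs1 (hX 1) hS0)]; exact j4
  have j5' : JV s.I (pt G (S.subst F'.toPowerSeries)).val := by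
    rw [pt_val (ccs1 hF0' hS0)]; exact j5
  have l1 : s.L (defect F G h F.toPowerSeries T).val = 0 := by
    rw [L_defect s h0 hD hF0 hT0, s.map_res_JV hTJ]
    exact (coc_defect s h0 hD hres).zero _ (by
      rw [constantCoeff_map, hF0, map_zero])
  rw [e2]
  refine ⟨JV.padd (JV.psub (JV.padd hD j1) j2') (JV.psub (JV.padd j3' j4') j5'), ?_⟩
  rw [s.L_padd (JV.psub (JV.padd hD j1) j2') (JV.psub (JV.padd j3' j4') j5'),
    s.L_psub (JV.padd hD j1) j2', s.L_padd hD j1, s.L_psub (JV.padd j3' j4') j5',
    s.L_padd j3' j4', l1, pt_val (ccs1 hT0 h0), pt_val (ccs1 (hX 0) hS0),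
    pt_val (ccs1 (hX 1) hS0), pt_val (ccs1 hF0' hS0), l2, l3, l4, l5, h1, map_one, one_mul,
    add_zero, MvPowerSeries.map_X, MvPowerSeries.map_X]
  have e3 : F'.toPowerSeries.map s.res = (F.map s.res).toPowerSeries :=
    congrArg FormalGroup.toPowerSeries (map_res_eq s hFF)
  rw [e3]

/-- `tau` as a defect -/
theorem tau_eq_neg [F'.IsComm] :
    tau F F' = -defU F' F (PowerSeries.X : PowerSeries A) := by
  have hX : ∀ a : MvPowerSeries (Fin 2) A, constantCoeff a = 0 →
      (PowerSeries.X : PowerSeries A).subst a = a := fun a ha =>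
    PowerSeries.subst_X (PowerSeries.HasSubst.of_constantCoeff_zero ha)
  have hFX : ∀ F : FormalGroup A,
      F.toPowerSeries.subst ![(X 0 : MvPowerSeries (Fin 2) A), X 1] = F.toPowerSeries := by
    intro F
    have : (![(X 0 : MvPowerSeries (Fin 2) A), X 1] : Fin 2 → MvPowerSeries (Fin 2) A) = X := by
      funext i; fin_cases i <;> rfl
    rw [this, subst_self]; rfl
  unfold tau defU defect
  rw [hFX F', hX _ (constantCoeff_X 0), hX _ (constantCoeff_X 1), hX _ F'.zero_constantCoeff,
    ← pt_add (constantCoeff_X 0) (constantCoeff_X 1), hFX F]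
  abel

theorem JV_defU_X [F'.IsComm] {I : Ideal A} (hFF : JV I (F'.toPowerSeries - F.toPowerSeries)) :
    JV I (defU F' F (PowerSeries.X : PowerSeries A)).val := by
  have h := JV_tau hFF
  rw [tau_eq_neg] at h
  have := h.pneg
  rwa [neg_neg] at this

theorem Coc.neg {Γ : FormalGroup k} {τ : MvPowerSeries (Fin 2) k} (h : Coc Γ τ) : Coc Γ (-τ) where
  symm {υ} a b ha hb := by
    have hs := hasSubst_pair ha hb
    have hs' := hasSubst_pair hb ha
    rw [← coe_substAlgHom hs, ← coe_substAlgHom hs', map_neg, map_neg, coe_substAlgHom,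
      coe_substAlgHom, h.symm a b ha hb]
  zero {υ} a ha := by
    have hs := hasSubst_pair ha (map_zero (constantCoeff (σ := υ) (R := k)))
    rw [← coe_substAlgHom hs, map_neg, coe_substAlgHom, h.zero a ha, neg_zero]
  assoc {υ} a b c ha hb hc := by
    have hab := constantCoeff_pair ha hb Γ.zero_constantCoeff
    have hbc := constantCoeff_pair hb hc Γ.zero_constantCoeff
    have := h.assoc a b c ha hb hc
    rw [← coe_substAlgHom (hasSubst_pair ha hb), ← coe_substAlgHom (hasSubst_pair hab hc),
      ← coe_substAlgHom (hasSubst_pair hb hc), ← coe_substAlgHom (hasSubst_pair ha hbc)] at *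
    rw [map_neg, map_neg, map_neg, map_neg, ← neg_add, ← neg_add, this]

theorem Coc.add {Γ : FormalGroup k} {τ τ' : MvPowerSeries (Fin 2) k} (h : Coc Γ τ)
    (h' : Coc Γ τ') : Coc Γ (τ + τ') where
  symm {υ} a b ha hb := by
    have hs := hasSubst_pair ha hb
    have hs' := hasSubst_pair hb ha
    rw [← coe_substAlgHom hs, ← coe_substAlgHom hs', map_add, map_add, coe_substAlgHom,
      coe_substAlgHom, h.symm a b ha hb, h'.symm a b ha hb]
  zero {υ} a ha := by
    have hs := hasSubst_pair ha (map_zero (constantCoeff (σ := υ) (R := k)))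
    rw [← coe_substAlgHom hs, map_add, coe_substAlgHom, h.zero a ha, h'.zero a ha, add_zero]
  assoc {υ} a b c ha hb hc := by
    have hab := constantCoeff_pair ha hb Γ.zero_constantCoeff
    have hbc := constantCoeff_pair hb hc Γ.zero_constantCoeff
    have h1 := h.assoc a b c ha hb hc
    have h2 := h'.assoc a b c ha hb hc
    rw [← coe_substAlgHom (hasSubst_pair ha hb), ← coe_substAlgHom (hasSubst_pair hab hc),
      ← coe_substAlgHom (hasSubst_pair hb hc), ← coe_substAlgHom (hasSubst_pair ha hbc)] at *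
    rw [map_add, map_add, map_add, map_add]
    linear_combination h1 + h2

theorem cocN_add (Γ : FormalGroup k) (τ τ' : MvPowerSeries (Fin 2) k) (m : ℕ) :
    cocN Γ (τ + τ') m = cocN Γ τ m + cocN Γ τ' m := by
  unfold cocN
  rw [← Finset.sum_add_distrib]
  refine Finset.sum_congr rfl (fun i _ => ?_)
  have hs : HasSubst (![mulPS Γ i, (PowerSeries.X : PowerSeries k)] :
      Fin 2 → MvPowerSeries Unit k) :=
    hasSubst_pair (constantCoeff_mulPS Γ i) PowerSeries.constantCoeff_X
  rw [← coe_substAlgHom hs, map_add]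

theorem cocN_neg (Γ : FormalGroup k) (τ : MvPowerSeries (Fin 2) k) (m : ℕ) :
    cocN Γ (-τ) m = -cocN Γ τ m := by
  unfold cocN
  rw [← Finset.sum_neg_distrib]
  refine Finset.sum_congr rfl (fun i _ => ?_)
  have hs : HasSubst (![mulPS Γ i, (PowerSeries.X : PowerSeries k)] :
      Fin 2 → MvPowerSeries Unit k) :=
    hasSubst_pair (constantCoeff_mulPS Γ i) PowerSeries.constantCoeff_X
  rw [← coe_substAlgHom hs, map_neg]

theorem coc_tau [F'.IsComm] (hFF : JV s.I (F'.toPowerSeries - F.toPowerSeries))
    (hres : Function.Surjective s.res) : Coc (F.map s.res) (s.L (tau F F').val) := by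
  have h := coc_defect s (F := F') (G := F) PowerSeries.constantCoeff_X (JV_defU_X hFF) hres
  rw [map_res_eq s hFF] at h
  rw [tau_eq_neg, s.L_pneg (JV_defU_X hFF)]
  exact h.neg

/-- the norm of the cocycle `tau` -/
theorem cocN_tau [F'.IsComm] (hFF : JV s.I (F'.toPowerSeries - F.toPowerSeries)) (m : ℕ) :
    cocN (F.map s.res) (s.L (tau F F').val) m =
      s.L (pt F (mulPS F' m) - pt F (mulPS F m) : F.Point Unit).val := by
  have h := cocN_defect s (F := F') (G := F) PowerSeries.constantCoeff_X (JV_defU_X hFF) m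
  have hX : (PowerSeries.X : PowerSeries A).subst (mulPS F' m) = mulPS F' m :=
    PowerSeries.subst_X (PowerSeries.HasSubst.of_constantCoeff_zero' (constantCoeff_mulPS F' m))
  have e : m • pt F (PowerSeries.X : PowerSeries A) = pt F (mulPS F m) := by
    rw [← nsmul_val, pt_val']
  rw [map_res_eq s hFF, hX, e] at h
  rw [tau_eq_neg, s.L_pneg (JV_defU_X hFF), cocN_neg, h.2, ← s.L_pneg h.1, neg_sub]

end change

end Chai
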