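import Vale.Agent.Chai.Core

/-!
# P217 / LTcoc: symmetric 2-cocycles of a formal group of height `n` in characteristic `p`

OWNER: helper22 (done)

THEOREM `coc_exact`.  `k` a field of characteristic `p`, `Γ` a commutative formal group with `[p](X) = X^q`,
`q = p^n`, `τ ∈ k[[X,Y]]` a symmetric 2-cocycle (`Coc`), `P := N_p(τ) = ∑_{s<p} τ([s]X, X)`.  If the
coefficients of `X^{p^j}` (`1 ≤ j < n`) in `P` vanish, then `τ = δθ`, i.e.
`τ(a,b) = θ(a +_Γ b) - θ(a) - θ(b)`.

PROOF.  (1) `N_m(a +_Γ b) - N_m(a) - N_m(b) = τ([m]a,[m]b) - m τ(a,b)` by induction on `m`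
(`coc_abs`, `coc_pt`).
(2) With `m = p`, `[p]a = a^q`, `p = 0`: `P(X +_Γ Y) - P(X) - P(Y) = τ(X^q, Y^q)`.
(3) `P = A(X^q) + B(X)` (`B`: exponents not divisible by `q`), `θ := A`,
`τ₁ := τ - δθ`, `τ₁(X^q,Y^q) = B(X +_Γ Y) - B(X) - B(Y)`.  If `B ≠ 0` let `c X^d` be its first term:
`q ∤ d`, `d ≥ 2`.  Comparison of the parts of degree `d` gives `p ∣ C(d,i)` for `0 < i < d`, so `d = p^j`,
`1 ≤ j < n`, contradiction to the hypothesis.  So `B = 0`, `τ₁ = 0`.
-/

namespace Chai

open MvPowerSeries

section abs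

variable {M B : Type*} [AddCommMonoid M] [CommRing B]

theorem coc_abs (T : M → M → B) (hs : ∀ a b, T a b = T b a) (h0 : ∀ a, T a 0 = 0)
    (hc : ∀ a b c, T a b + T (a + b) c = T b c + T a (b + c)) (m : ℕ) (a b : M) :
    ∑ s ∈ Finset.range m, T (s • (a + b)) (a + b) - ∑ s ∈ Finset.range m, T (s • a) a
      - ∑ s ∈ Finset.range m, T (s • b) b = T (m • a) (m • b) - m • T a b := by
  induction m with
  | zero => simp [h0]
  | succ m ih =>
    rw [Finset.sum_range_succ, Finset.sum_range_succ, Finset.sum_range_succ]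
    have h1 := hc (m • a + m • b) a b
    have h2 := hc (m • a + a) (m • b) b
    have h3 := hc (m • a) (m • b) a
    have h4 := hc (m • a) a (m • b)
    have h5 := hs a (m • b)
    have h6 : m • a + m • b + a = m • a + a + m • b := by abel
    have h7 : a + m • b = m • b + a := add_comm _ _
    rw [h6] at h1
    rw [h7] at h4
    rw [succ_nsmul, succ_nsmul, smul_add, succ_nsmul]
    linear_combination ih - h1 + h2 + h3 - h4 - h5
end abs

theorem coc_order_pow_sub {k σ : Type*} [CommRing k] {S L : MvPowerSeries σ k}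
    (hS : 1 ≤ S.order) (hL : 1 ≤ L.order) (hSL : 2 ≤ (S - L).order) (d : ℕ) :
    ((d + 1 : ℕ) : ℕ∞) ≤ (S ^ d - L ^ d).order := by
  induction d with
  | zero => simp
  | succ d ih =>
    have e : S ^ (d + 1) - L ^ (d + 1) = S ^ d * (S - L) + (S ^ d - L ^ d) * L := by ring
    rw [e]
    refine le_trans (le_min ?_ ?_) min_order_le_add
    · refine le_trans ?_ le_order_mul
      have h1 : (d : ℕ∞) ≤ (S ^ d).order := by
        refine le_trans ?_ (le_order_pow d)
        rw [nsmul_eq_mul]
        calc (d : ℕ∞) = d * 1 := (mul_one _).symm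
          _ ≤ d * S.order := by gcongr
      calc ((d + 1 + 1 : ℕ) : ℕ∞) = d + 2 := by push_cast; ring
        _ ≤ _ := add_le_add h1 hSL
    · refine le_trans ?_ le_order_mul
      calc ((d + 1 + 1 : ℕ) : ℕ∞) = ((d + 1 : ℕ) : ℕ∞) + 1 := by push_cast; ring
        _ ≤ _ := add_le_add ih hL

theorem coc_coeff_subst_lead {k σ : Type*} [CommRing k] {S L : MvPowerSeries σ k}
    (hS : constantCoeff S = 0) (hL : constantCoeff L = 0) (hSL : 2 ≤ (S - L).order)
    (B : PowerSeries k) (e : σ →₀ ℕ) (hB : ∀ j, j < e.degree → PowerSeries.coeff j B = 0) :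
    coeff e (B.subst S) = coeff e (B.subst L) := by
  have hS' : 1 ≤ S.order := one_le_order_iff_constCoeff_eq_zero.2 hS
  have hL' : 1 ≤ L.order := one_le_order_iff_constCoeff_eq_zero.2 hL
  rw [PowerSeries.coeff_subst (PowerSeries.HasSubst.of_constantCoeff_zero hS),
    PowerSeries.coeff_subst (PowerSeries.HasSubst.of_constantCoeff_zero hL)]
  refine finsum_congr fun j => ?_
  rcases lt_trichotomy j e.degree with h | h | h
  · rw [hB j h, zero_smul, zero_smul]
  · congr 1
    have h1 := coc_order_pow_sub hS' hL' hSL j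
    have h2 : coeff e (S ^ j - L ^ j) = 0 := by
      refine coeff_of_lt_order (lt_of_lt_of_le ?_ h1)
      rw [h]
      exact_mod_cast Nat.lt_succ_self _
    rwa [map_sub, sub_eq_zero] at h2
  · rw [coeff_of_lt_order (f := S ^ j), coeff_of_lt_order (f := L ^ j)]
    · refine lt_of_lt_of_le ?_ (le_order_pow_of_constantCoeff_eq_zero j hL)
      exact_mod_cast h
    · refine lt_of_lt_of_le ?_ (le_order_pow_of_constantCoeff_eq_zero j hS)
      exact_mod_cast h

theorem coc_choose_pow_mul (p : ℕ) [Fact p.Prime] (v e : ℕ) :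
    (p ^ v * e).choose (p ^ v) ≡ e [MOD p] := by
  have hp : 0 < p := (Fact.out : p.Prime).pos
  induction v with
  | zero => simp; rfl
  | succ v ih =>
    refine (Choose.choose_modEq_choose_mod_mul_choose_div_nat).trans ?_
    have e1 : p ^ (v + 1) * e % p = 0 := by
      rw [pow_succ, mul_assoc, mul_comm, mul_assoc, Nat.mul_mod_right]
    have e2 : p ^ (v + 1) % p = 0 := by
      rw [pow_succ, Nat.mul_mod_left]
    have e3 : p ^ (v + 1) * e / p = p ^ v * e := by
      rw [show p ^ (v + 1) * e = p * (p ^ v * e) by ring, Nat.mul_div_cancel_left _ hp]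
    have e4 : p ^ (v + 1) / p = p ^ v := by
      rw [show p ^ (v + 1) = p * p ^ v by ring, Nat.mul_div_cancel_left _ hp]
    rw [e1, e2, e3, e4, Nat.choose_self, one_mul]
    exact ih

theorem coc_exists_choose (p : ℕ) [Fact p.Prime] {d : ℕ} (hd : 2 ≤ d) (h : ∀ j, 1 ≤ j → d ≠ p ^ j) :
    ∃ i, 0 < i ∧ i < d ∧ ¬ p ∣ d.choose i := by
  have hp := (Fact.out : p.Prime)
  obtain ⟨v, e, he, hde⟩ := Nat.exists_eq_pow_mul_and_not_dvd (n := d) (by omega) p hp.ne_one
  have hpv : 0 < p ^ v := pow_pos hp.pos v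
  refine ⟨p ^ v, hpv, ?_, ?_⟩
  · have he0 : e ≠ 0 := by rintro rfl; exact he (dvd_zero _)
    have he1 : e ≠ 1 := by
      rintro rfl
      rcases Nat.eq_zero_or_pos v with rfl | hv
      · simp at hde; omega
      · exact h v hv (by rw [hde, mul_one])
    calc p ^ v = p ^ v * 1 := (mul_one _).symm
      _ < p ^ v * e := by
        apply Nat.mul_lt_mul_of_pos_left _ hpv
        omega
      _ = d := hde.symm
  · rw [hde]
    intro h1
    apply he
    have := coc_choose_pow_mul p v e
    exact (this.dvd_iff dvd_rfl).1 h1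


section

variable {k : Type} [Field k]

/-- symmetric 2-cocycles -/
structure Coc (Γ : FormalGroup k) (τ : MvPowerSeries (Fin 2) k) : Prop where
  symm : ∀ {υ : Type} (a b : MvPowerSeries υ k), constantCoeff a = 0 → constantCoeff b = 0 →
    τ.subst ![a, b] = τ.subst ![b, a]
  zero : ∀ {υ : Type} (a : MvPowerSeries υ k), constantCoeff a = 0 → τ.subst ![a, 0] = 0
  assoc : ∀ {υ : Type} (a b c : MvPowerSeries υ k), constantCoeff a = 0 → constantCoeff b = 0 →
    constantCoeff c = 0 →
    τ.subst ![a, b] + τ.subst ![Γ.toPowerSeries.subst ![a, b], c] =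
      τ.subst ![b, c] + τ.subst ![a, Γ.toPowerSeries.subst ![b, c]]

/-- `N_m(τ) = ∑_{s<m} τ([s]X, X)` -/
noncomputable def cocN (Γ : FormalGroup k) (τ : MvPowerSeries (Fin 2) k) (m : ℕ) : PowerSeries k :=
  ∑ s ∈ Finset.range m, τ.subst ![mulPS Γ s, (PowerSeries.X : PowerSeries k)]

theorem coc_pt_cc {Γ : FormalGroup k} {υ : Type} (x : Γ.Point υ) : constantCoeff x.val = 0 :=
  IsNilpotent.eq_zero x.prop

theorem coc_pt_nsmul {Γ : FormalGroup k} {υ : Type} (x : Γ.Point υ) (m : ℕ) :
    (m • x).val = (mulPS Γ m).subst x.val := by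
  have hx : PowerSeries.HasSubst x.val := x.prop
  induction m with
  | zero =>
    rw [zero_smul]
    show (0 : MvPowerSeries υ k) = PowerSeries.subst x.val (0 : PowerSeries k)
    rw [← PowerSeries.coe_substAlgHom hx, map_zero]
  | succ m ih =>
    rw [succ_nsmul]
    show Γ.toPowerSeries.subst ![(m • x).val, x.val] =
      MvPowerSeries.subst (fun _ => x.val) (Γ.toPowerSeries.subst ![mulPS Γ m, (PowerSeries.X : PowerSeries k)])
    rw [subst_pair_subst (constantCoeff_mulPS Γ m) PowerSeries.constantCoeff_X (fun _ => coc_pt_cc x)]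
    rw [ih]
    congr 2
    rw [← PowerSeries.subst_def, PowerSeries.subst_X hx]

theorem coc_pt_cocN {Γ : FormalGroup k} {υ : Type} (τ : MvPowerSeries (Fin 2) k) (x : Γ.Point υ) (m : ℕ) :
    (cocN Γ τ m).subst x.val = ∑ s ∈ Finset.range m, τ.subst ![(s • x).val, x.val] := by
  have hx : PowerSeries.HasSubst x.val := x.prop
  unfold cocN
  rw [← PowerSeries.coe_substAlgHom hx, map_sum]
  refine Finset.sum_congr rfl fun s _ => ?_
  rw [PowerSeries.coe_substAlgHom hx]
  show MvPowerSeries.subst (fun _ => x.val) (τ.subst ![mulPS Γ s, (PowerSeries.X : PowerSeries k)]) = _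
  rw [subst_pair_subst (constantCoeff_mulPS Γ s) PowerSeries.constantCoeff_X (fun _ => coc_pt_cc x),
    coc_pt_nsmul]
  congr 2
  rw [← PowerSeries.subst_def, PowerSeries.subst_X hx]

theorem coc_pt {Γ : FormalGroup k} [Γ.IsComm] {τ : MvPowerSeries (Fin 2) k} (hτ : Coc Γ τ)
    {υ : Type} (a b : Γ.Point υ) (m : ℕ) :
    (cocN Γ τ m).subst (a + b).val - (cocN Γ τ m).subst a.val - (cocN Γ τ m).subst b.val =
      τ.subst ![(m • a).val, (m • b).val] - m • τ.subst ![a.val, b.val] := by
  rw [coc_pt_cocN, coc_pt_cocN, coc_pt_cocN]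
  exact coc_abs (fun x y : Γ.Point υ => τ.subst ![x.val, y.val])
    (fun x y => hτ.symm _ _ (coc_pt_cc x) (coc_pt_cc y)) (fun x => hτ.zero _ (coc_pt_cc x))
    (fun x y z => hτ.assoc _ _ _ (coc_pt_cc x) (coc_pt_cc y) (coc_pt_cc z)) m a b


theorem coc_coeff_right (τ : MvPowerSeries (Fin 2) k) (n : ℕ) :
    coeff (Finsupp.single 0 n) τ = PowerSeries.coeff n (τ.subst ![(PowerSeries.X : PowerSeries k), 0]) := by
  have hs : HasSubst (![PowerSeries.X, 0] : Fin 2 → MvPowerSeries Unit k) :=
    hasSubst_pair PowerSeries.constantCoeff_X (map_zero _)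
  symm
  rw [PowerSeries.coeff, coeff_subst hs, finsum_eq_single _ (Finsupp.single 0 n)]
  · rw [Finsupp.prod_fintype _ _ (fun i => pow_zero _), Fin.prod_univ_two]
    have := PowerSeries.coeff_X_pow_self (R := k) n
    rw [PowerSeries.coeff] at this
    simp [this]
  · intro d hd
    rw [Finsupp.prod_fintype _ _ (fun i => pow_zero _), Fin.prod_univ_two]
    by_cases hd1 : d 1 = 0
    · have hd0 : n ≠ d 0 := by
        intro h0
        apply hd
        rw [fin2_finsupp_eq d, hd1, h0]
        simp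
      have := PowerSeries.coeff_X_pow (R := k) n (d 0)
      rw [if_neg hd0, PowerSeries.coeff] at this
      simp [hd1, this]
    · simp [hd1]

theorem coc_coeff_left (τ : MvPowerSeries (Fin 2) k) (n : ℕ) :
    coeff (Finsupp.single 1 n) τ = PowerSeries.coeff n (τ.subst ![0, (PowerSeries.X : PowerSeries k)]) := by
  have hs : HasSubst (![0, PowerSeries.X] : Fin 2 → MvPowerSeries Unit k) :=
    hasSubst_pair (map_zero _) PowerSeries.constantCoeff_X
  symm
  rw [PowerSeries.coeff, coeff_subst hs, finsum_eq_single _ (Finsupp.single 1 n)]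
  · rw [Finsupp.prod_fintype _ _ (fun i => pow_zero _), Fin.prod_univ_two]
    have := PowerSeries.coeff_X_pow_self (R := k) n
    rw [PowerSeries.coeff] at this
    simp [this]
  · intro d hd
    rw [Finsupp.prod_fintype _ _ (fun i => pow_zero _), Fin.prod_univ_two]
    by_cases hd1 : d 0 = 0
    · have hd0 : n ≠ d 1 := by
        intro h0
        apply hd
        rw [fin2_finsupp_eq d, hd1, h0]
        simp
      have := PowerSeries.coeff_X_pow (R := k) n (d 1)
      rw [if_neg hd0, PowerSeries.coeff] at this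
      simp [hd1, this]
    · simp [hd1]

/-- a 2-cocycle has no terms of degree at most one -/
theorem coc_order {Γ : FormalGroup k} {τ : MvPowerSeries (Fin 2) k} (hτ : Coc Γ τ) :
    2 ≤ τ.order := by
  have h0 : ∀ n, coeff (Finsupp.single 0 n) τ = 0 := by
    intro n
    rw [coc_coeff_right, hτ.zero _ PowerSeries.constantCoeff_X, map_zero]
  have h1 : ∀ n, coeff (Finsupp.single 1 n) τ = 0 := by
    intro n
    rw [coc_coeff_left, hτ.symm _ _ (map_zero _) PowerSeries.constantCoeff_X,
      hτ.zero _ PowerSeries.constantCoeff_X, map_zero]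
  refine nat_le_order (n := 2) fun d hd => ?_
  have h2 : d 0 + d 1 < 2 := by
    have : d.degree = d 0 + d 1 := by
      rw [Finsupp.degree_eq_sum, Fin.sum_univ_two]
    omega
  by_cases h3 : d 1 = 0
  · have : d = Finsupp.single 0 (d 0) := by
      conv_lhs => rw [fin2_finsupp_eq d, h3]
      simp
    rw [this]; exact h0 _
  · have h4 : d 0 = 0 := by omega
    have : d = Finsupp.single 1 (d 1) := by
      conv_lhs => rw [fin2_finsupp_eq d, h4]
      simp
    rw [this]; exact h1 _

theorem cocN_order {Γ : FormalGroup k} {τ : MvPowerSeries (Fin 2) k} (hτ : Coc Γ τ) (m : ℕ) (j : ℕ)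
    (hj : j < 2) : PowerSeries.coeff j (cocN Γ τ m) = 0 := by
  unfold cocN
  rw [map_sum]
  refine Finset.sum_eq_zero fun s _ => ?_
  rw [PowerSeries.coeff]
  refine coeff_of_lt_order ?_
  have h1 : (Finsupp.single () j).degree = j := by simp
  rw [h1]
  refine lt_of_lt_of_le (by exact_mod_cast hj : (j : ℕ∞) < 2) ?_
  have hs : HasSubst ![mulPS Γ s, (PowerSeries.X : PowerSeries k)] :=
    hasSubst_pair (constantCoeff_mulPS Γ s) PowerSeries.constantCoeff_X
  have h2 := le_order_subst hs τ
  refine le_trans ?_ h2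
  calc (2 : ℕ∞) ≤ τ.order := coc_order hτ
    _ = 1 * τ.order := (one_mul _).symm
    _ ≤ _ := by
      refine mul_le_mul_left ?_ _
      refine le_iInf fun i => ?_
      refine one_le_order_iff_constCoeff_eq_zero.2 ?_
      fin_cases i
      · exact constantCoeff_mulPS Γ s
      · exact PowerSeries.constantCoeff_X

theorem coc_subst_ps_pair {τ : PowerSeries k} {υ : Type} {S : MvPowerSeries (Fin 2) k}
    (hS : constantCoeff S = 0) {a b : MvPowerSeries υ k} (ha : constantCoeff a = 0)
    (hb : constantCoeff b = 0) :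
    ((τ.subst S : MvPowerSeries (Fin 2) k)).subst ![a, b] = τ.subst (S.subst ![a, b]) :=
  subst_comp_subst_apply (R := k)
    (PowerSeries.HasSubst.const (PowerSeries.HasSubst.of_constantCoeff_zero hS))
    (hasSubst_pair ha hb) τ

theorem coc_exact (p : ℕ) [Fact p.Prime] [CharP k p] (n : ℕ) (hn : 1 ≤ n) (Γ : FormalGroup k)
    [Γ.IsComm] (hΓ : mulPS Γ p = (PowerSeries.X : PowerSeries k) ^ p ^ n)
    (τ : MvPowerSeries (Fin 2) k) (hτ : Coc Γ τ)
    (hN : ∀ j, 1 ≤ j → j < n → PowerSeries.coeff (p ^ j) (cocN Γ τ p) = 0) :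
    ∃ θ : PowerSeries k, PowerSeries.constantCoeff θ = 0 ∧
      ∀ {υ : Type} (a b : MvPowerSeries υ k), constantCoeff a = 0 → constantCoeff b = 0 →
        τ.subst ![a, b] = θ.subst (Γ.toPowerSeries.subst ![a, b]) - θ.subst a - θ.subst b := by
  have hp := (Fact.out : p.Prime)
  have hq : p ^ n ≠ 0 := pow_ne_zero _ hp.ne_zero
  have hq2 : 2 ≤ p ^ n := (hp.two_le).trans (Nat.le_self_pow (by omega) p)
  set P := cocN Γ τ p with hP
  set S := Γ.toPowerSeries with hSdef
  have hS : constantCoeff S = 0 := Γ.zero_constantCoeff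
  let a0 : Γ.Point (Fin 2) := ⟨X 0, PowerSeries.HasSubst.X 0⟩
  let a1 : Γ.Point (Fin 2) := ⟨X 1, PowerSeries.HasSubst.X 1⟩
  have hab : (a0 + a1).val = S := by
    show Γ.toPowerSeries.subst ![X 0, X 1] = S
    have : (![X 0, X 1] : Fin 2 → MvPowerSeries (Fin 2) k) = X := by
      funext i; fin_cases i <;> rfl
    rw [this, subst_self]; rfl
  have hpx : ∀ {υ : Type} (x : Γ.Point υ), (p • x).val = x.val ^ p ^ n := by
    intro υ x
    have hx : PowerSeries.HasSubst x.val := x.prop
    rw [coc_pt_nsmul, hΓ, PowerSeries.subst_pow hx, PowerSeries.subst_X hx]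
  have hpt : ∀ x : MvPowerSeries (Fin 2) k, constantCoeff x = 0 → constantCoeff (x ^ p ^ n) = 0 := by
    intro x hx
    rw [map_pow, hx, zero_pow hq]
  -- (d)
  have hd : S.subst ![X 0 ^ p ^ n, X 1 ^ p ^ n] = S ^ p ^ n := by
    have h1 : (p • (a0 + a1)).val = (p • a0 + p • a1).val := by rw [smul_add]
    rw [hpx, hab] at h1
    rw [h1]
    show _ = Γ.toPowerSeries.subst ![(p • a0).val, (p • a1).val]
    rw [hpx, hpx]
  -- E1
  have hE1 : P.subst S - P.subst (X 0) - P.subst (X 1) = τ.subst ![X 0 ^ p ^ n, X 1 ^ p ^ n] := by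
    have h1 := coc_pt hτ a0 a1 p
    rw [hab, hpx, hpx] at h1
    rw [← hP] at h1
    refine h1.trans ?_
    have h2 : p • (τ.subst ![a0.val, a1.val] : MvPowerSeries (Fin 2) k) = 0 := by
      rw [nsmul_eq_mul]
      have : ((p : ℕ) : MvPowerSeries (Fin 2) k) = 0 := by
        have h3 : ((p : ℕ) : MvPowerSeries (Fin 2) k) = MvPowerSeries.C ((p : ℕ) : k) :=
          (map_natCast (MvPowerSeries.C (σ := Fin 2) (R := k)) p).symm
        rw [h3, CharP.cast_eq_zero, map_zero]
      rw [this, zero_mul]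
    rw [h2, sub_zero]
  let A : PowerSeries k := PowerSeries.mk fun i => PowerSeries.coeff (p ^ n * i) P
  let B : PowerSeries k := PowerSeries.mk fun i => if p ^ n ∣ i then 0 else PowerSeries.coeff i P
  have hPAB : P = A.expand (p ^ n) hq + B := by
    ext i
    have hBi : PowerSeries.coeff i B = if p ^ n ∣ i then 0 else PowerSeries.coeff i P :=
      PowerSeries.coeff_mk _ _
    rw [map_add, PowerSeries.coeff_expand, hBi]
    by_cases h : p ^ n ∣ i
    · rw [if_pos h, if_pos h, PowerSeries.coeff_mk, Nat.mul_div_cancel' h, add_zero]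
    · rw [if_neg h, if_neg h, zero_add]
  have hA0 : PowerSeries.constantCoeff A = 0 := by
    rw [← PowerSeries.coeff_zero_eq_constantCoeff_apply, PowerSeries.coeff_mk, mul_zero]
    exact cocN_order hτ p 0 (by norm_num)
  have hPs : ∀ x : MvPowerSeries (Fin 2) k, constantCoeff x = 0 →
      P.subst x = A.subst (x ^ p ^ n) + B.subst x := by
    intro x hx
    have hx' := PowerSeries.HasSubst.of_constantCoeff_zero hx
    rw [hPAB, PowerSeries.subst_add hx', PowerSeries.expand_apply]
    congr 1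
    rw [PowerSeries.subst_comp_subst_apply (PowerSeries.HasSubst.X_pow hq) hx',
      PowerSeries.subst_pow hx', PowerSeries.subst_X hx']
  set τ₁ : MvPowerSeries (Fin 2) k := τ - (A.subst S - A.subst (X 0) - A.subst (X 1)) with hτ₁
  have hexp : ∀ f : MvPowerSeries (Fin 2) k, f.expand (p ^ n) hq = f.subst ![X 0 ^ p ^ n, X 1 ^ p ^ n] := by
    intro f
    rw [MvPowerSeries.expand, substAlgHom_apply]
    congr 1
    funext i
    fin_cases i <;> rfl
  have hE2 : τ₁.expand (p ^ n) hq = B.subst S - B.subst (X 0) - B.subst (X 1) := by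
    rw [hτ₁, map_sub, map_sub, map_sub, hexp τ, ← hE1, hPs S hS, hPs _ (constantCoeff_X _),
      hPs _ (constantCoeff_X _),
      PowerSeries.expand_subst _ _ (PowerSeries.HasSubst.of_constantCoeff_zero hS),
      PowerSeries.expand_subst _ _ (PowerSeries.HasSubst.X _),
      PowerSeries.expand_subst _ _ (PowerSeries.HasSubst.X _), expand_X, expand_X, hexp S, hd]
    ring
  have hB : B = 0 := by
    by_contra hB
    have hfin : B.order ≠ ⊤ := fun h => hB (PowerSeries.order_eq_top.1 h)
    set d := B.order.toNat with hdd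
    have hcd : PowerSeries.coeff d B ≠ 0 := PowerSeries.coeff_order hB
    have hlt : ∀ j, j < d → PowerSeries.coeff j B = 0 := by
      intro j hj
      exact PowerSeries.coeff_of_lt_order_toNat j hj
    have hBd : PowerSeries.coeff d B = if p ^ n ∣ d then 0 else PowerSeries.coeff d P :=
      PowerSeries.coeff_mk _ _
    have hqd : ¬ p ^ n ∣ d := by
      intro h
      rw [if_pos h] at hBd
      exact hcd hBd
    rw [if_neg hqd] at hBd
    have hd2 : 2 ≤ d := by
      by_contra h
      exact hcd (hBd.trans (cocN_order hτ p d (by omega)))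
    have hdp : ∀ j, 1 ≤ j → d ≠ p ^ j := by
      intro j hj hdj
      have hjn : j < n := by
        by_contra h
        exact hqd (hdj ▸ pow_dvd_pow p (by omega))
      exact hcd (hBd.trans (hdj ▸ hN j hj hjn))
    obtain ⟨i, hi0, hid, hpi⟩ := coc_exists_choose p hd2 hdp
    let e : Fin 2 →₀ ℕ := Finsupp.single 0 i + Finsupp.single 1 (d - i)
    have he0 : e 0 = i := by simp [e]
    have he1 : e 1 = d - i := by simp [e]
    have hedeg : e.degree = d := by
      rw [Finsupp.degree_eq_sum, Fin.sum_univ_two, he0, he1]; omega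
    have h1 := congrArg (coeff e) hE2
    have hL : coeff e (τ₁.expand (p ^ n) hq) = 0 := by
      by_cases h : p ^ n ∣ i
      · refine coeff_expand_of_not_dvd _ _ _ (i := 1) ?_
        rw [he1]
        intro h'
        apply hqd
        have := dvd_add h h'
        rwa [Nat.add_sub_cancel' hid.le] at this
      · exact coeff_expand_of_not_dvd _ _ _ (i := 0) (by rwa [he0])
    have hSL : 2 ≤ (S - (X 0 + X 1)).order := by
      have h2 : S - (X 0 + X 1) = X 0 * X 1 * FormalGroup.kk Γ := by
        rw [hSdef, FormalGroup.eq_kk Γ]; ring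
      rw [h2]
      refine le_trans ?_ le_order_mul
      refine le_trans ?_ (le_self_add)
      refine le_trans ?_ le_order_mul
      have hx : ∀ i : Fin 2, 1 ≤ (X i : MvPowerSeries (Fin 2) k).order := fun i =>
        one_le_order_iff_constCoeff_eq_zero.2 (constantCoeff_X _)
      calc (2 : ℕ∞) = 1 + 1 := by norm_num
        _ ≤ _ := add_le_add (hx 0) (hx 1)
    have h3 : coeff e (B.subst S) = (d.choose i : k) * PowerSeries.coeff d B := by
      rw [coc_coeff_subst_lead hS (by simp) hSL B e (by rw [hedeg]; exact hlt)]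
      rw [PowerSeries.coeff_subst_X_zero_add_X_one, he0, he1, Nat.add_sub_cancel' hid.le]
    have h4 : coeff e (B.subst (X 0 : MvPowerSeries (Fin 2) k)) = 0 := by
      rw [PowerSeries.coeff_subst_single, if_neg]
      intro h
      have := DFunLike.congr_fun h 1
      rw [he1] at this
      simp at this
      omega
    have h5 : coeff e (B.subst (X 1 : MvPowerSeries (Fin 2) k)) = 0 := by
      rw [PowerSeries.coeff_subst_single, if_neg]
      intro h
      have := DFunLike.congr_fun h 0
      rw [he0] at this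
      simp at this
      omega
    rw [hL, map_sub, map_sub, h3, h4, h5, sub_zero, sub_zero] at h1
    rcases mul_eq_zero.1 h1.symm with h6 | h6
    · exact hpi ((CharP.cast_eq_zero_iff k p _).1 h6)
    · exact hcd h6
  have hτ0 : τ₁ = 0 := by
    have h1 : ∀ x : MvPowerSeries (Fin 2) k, constantCoeff x = 0 →
        (0 : PowerSeries k).subst x = 0 := by
      intro x hx
      rw [← PowerSeries.coe_substAlgHom (PowerSeries.HasSubst.of_constantCoeff_zero hx), map_zero]
    rw [hB, h1 _ hS, h1 _ (constantCoeff_X _), h1 _ (constantCoeff_X _)] at hE2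
    ext m
    have h2 := congrArg (coeff (p ^ n • m)) hE2
    rw [coeff_expand_smul] at h2
    rw [h2]
    simp
  refine ⟨A, hA0, ?_⟩
  intro υ a b ha hb
  have h1 : τ = A.subst S - A.subst (X 0) - A.subst (X 1) := by
    rw [hτ₁, sub_eq_zero] at hτ0
    exact hτ0
  have hs := hasSubst_pair ha hb
  rw [h1, subst_sub hs, subst_sub hs, coc_subst_ps_pair hS ha hb, coc_subst_ps_pair (constantCoeff_X _) ha hb,
    coc_subst_ps_pair (constantCoeff_X _) ha hb, subst_X hs, subst_X hs]
  rfl

end

end Chai
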