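import Vale.Agent.Chai.LTlam
import Vale.Agent.Chai.LTcoc

/-!
# P217 / LTdef: the defect `h(a) +_G h(b) -_G h(a +_F b)` of a power series `h`

OWNER: helper9
-/

namespace Chai

open MvPowerSeries Finsupp

section cc

variable {R : Type*} [CommRing R] {σ : Type*} {G : FormalGroup R}

theorem cc_add {x y : G.Point σ} (hx : constantCoeff x.val = 0) (hy : constantCoeff y.val = 0) :
    constantCoeff (x + y).val = 0 :=
  constantCoeff_pair hx hy G.zero_constantCoeff

theorem cc_neg {x : G.Point σ} (hx : constantCoeff x.val = 0) :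
    constantCoeff (-x).val = 0 :=
  ccs1 hx (constantCoeff_invPS G)

theorem cc_sub [G.IsComm] {x y : G.Point σ} (hx : constantCoeff x.val = 0)
    (hy : constantCoeff y.val = 0) : constantCoeff (x - y).val = 0 := by
  rw [sub_eq_add_neg]
  exact cc_add hx (cc_neg hy)

theorem cc_pt {a : MvPowerSeries σ R} (ha : constantCoeff a = 0) :
    constantCoeff (pt G a).val = 0 := by rw [pt_val ha]; exact ha

end cc

section defect

variable {A : Type*} [CommRing A] (F G : FormalGroup A) [F.IsComm] [G.IsComm] {υ τ : Type*}

/-- `h(a) +_G h(b) -_G h(a +_F b)` -/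
noncomputable def defect (h : PowerSeries A) (a b : MvPowerSeries υ A) : G.Point υ :=
  pt G (h.subst a) + pt G (h.subst b) - pt G (h.subst (F.toPowerSeries.subst ![a, b]))

variable {F G} {h : PowerSeries A} (h0 : PowerSeries.constantCoeff h = 0)

theorem subst1_subst {a : MvPowerSeries υ A} (ha : constantCoeff a = 0)
    {c : υ → MvPowerSeries τ A} (hc : HasSubst c) (f : PowerSeries A) :
    (f.subst a).subst c = f.subst (a.subst c) := by
  have := subst_comp_subst_apply (R := A)
    (PowerSeries.HasSubst.const (PowerSeries.HasSubst.of_constantCoeff_zero ha)) hc f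
  exact this

theorem cc_subst {a : MvPowerSeries υ A} (ha : constantCoeff a = 0)
    {c : υ → MvPowerSeries τ A} (hc : HasSubst c) (hc0 : ∀ i, constantCoeff (c i) = 0) :
    constantCoeff (a.subst c) = 0 := constantCoeff_subst_eq_zero hc hc0 ha

include h0 in
theorem defect_subst {a b : MvPowerSeries υ A} (ha : constantCoeff a = 0)
    (hb : constantCoeff b = 0) {c : υ → MvPowerSeries τ A} (hc : HasSubst c)
    (hc0 : ∀ i, constantCoeff (c i) = 0) :
    psub G c hc (defect F G h a b) = defect F G h (a.subst c) (b.subst c) := by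
  have hF := constantCoeff_pair ha hb F.zero_constantCoeff
  unfold defect
  rw [map_sub, map_add, psub_pt hc (ccs1 ha h0) (cc_subst (ccs1 ha h0) hc hc0),
    psub_pt hc (ccs1 hb h0) (cc_subst (ccs1 hb h0) hc hc0),
    psub_pt hc (ccs1 hF h0) (cc_subst (ccs1 hF h0) hc hc0),
    subst1_subst ha hc, subst1_subst hb hc, subst1_subst hF hc]
  congr 3
  rw [subst_comp_subst_apply (hasSubst_pair ha hb) hc]
  congr 1
  funext i
  fin_cases i <;> rfl

theorem defect_symm {a b : MvPowerSeries υ A} (ha : constantCoeff a = 0)
    (hb : constantCoeff b = 0) : defect F G h a b = defect F G h b a := by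
  unfold defect
  rw [F.comm' (PowerSeries.HasSubst.of_constantCoeff_zero ha)
    (PowerSeries.HasSubst.of_constantCoeff_zero hb), add_comm]

include h0 in
theorem subst_zero_eq : (h.subst (0 : MvPowerSeries υ A)) = 0 := by
  obtain ⟨g, hg⟩ := PowerSeries.X_dvd_iff.2 h0
  have hs : PowerSeries.HasSubst (0 : MvPowerSeries υ A) :=
    PowerSeries.HasSubst.of_constantCoeff_zero (map_zero _)
  rw [hg, PowerSeries.subst_mul hs, PowerSeries.subst_X hs, zero_mul]

include h0 in
theorem defect_zero {a : MvPowerSeries υ A} (ha : constantCoeff a = 0) :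
    defect F G h a 0 = 0 := by
  unfold defect
  rw [F.add_zero (PowerSeries.HasSubst.of_constantCoeff_zero ha), subst_zero_eq h0, pt_zero,
    add_zero, sub_self]

theorem defect_assoc {a b c : MvPowerSeries υ A} (ha : constantCoeff a = 0)
    (hb : constantCoeff b = 0) (hc : constantCoeff c = 0) :
    defect F G h a b + defect F G h (F.toPowerSeries.subst ![a, b]) c =
      defect F G h b c + defect F G h a (F.toPowerSeries.subst ![b, c]) := by
  unfold defect
  rw [F.assoc' (PowerSeries.HasSubst.of_constantCoeff_zero ha)
    (PowerSeries.HasSubst.of_constantCoeff_zero hb)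
    (PowerSeries.HasSubst.of_constantCoeff_zero hc)]
  abel

variable (F G h) in
/-- the universal defect -/
noncomputable def defU : G.Point (Fin 2) := defect F G h (X 0) (X 1)

include h0 in
theorem defect_eq {a b : MvPowerSeries υ A} (ha : constantCoeff a = 0)
    (hb : constantCoeff b = 0) :
    defect F G h a b = psub G ![a, b] (hasSubst_pair ha hb) (defU F G h) := by
  have hs := hasSubst_pair ha hb
  unfold defU
  rw [defect_subst h0 (constantCoeff_X _) (constantCoeff_X _) hs
    (fun i => by fin_cases i <;> simpa), subst_X hs, subst_X hs]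
  rfl

include h0 in
theorem defect_val {a b : MvPowerSeries υ A} (ha : constantCoeff a = 0)
    (hb : constantCoeff b = 0) :
    (defect F G h a b).val = (defU F G h).val.subst ![a, b] := by
  rw [defect_eq h0 ha hb, psub_val]

include h0 in
theorem JV_defect {I : Ideal A} (hD : JV I (defU F G h).val) {a b : MvPowerSeries υ A}
    (ha : constantCoeff a = 0) (hb : constantCoeff b = 0) : JV I (defect F G h a b).val := by
  rw [defect_val h0 ha hb]
  exact hD.subst (hasSubst_pair ha hb)

end defect

section coc

variable {A : Type*} [CommRing A] {k : Type} [Field k] (s : Sx A k)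
  {F G : FormalGroup A} [F.IsComm] [G.IsComm] {h : PowerSeries A}
  (h0 : PowerSeries.constantCoeff h = 0) (hD : JV s.I (defU F G h).val)

theorem exists_lift_cc (hres : Function.Surjective s.res) {υ : Type*} (a : MvPowerSeries υ k)
    (ha : constantCoeff a = 0) :
    ∃ b : MvPowerSeries υ A, b.map s.res = a ∧ constantCoeff b = 0 := by
  classical
  choose f hf using hres
  obtain ⟨b, hb⟩ : ∃ b : MvPowerSeries υ A, ∀ d, coeff d b = if d = 0 then 0 else f (coeff d a) :=
    ⟨fun d => if d = 0 then 0 else f (coeff d a), fun _ => rfl⟩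
  refine ⟨b, ?_, ?_⟩
  · ext d
    rw [coeff_map, hb]
    split_ifs with h
    · rw [h, coeff_zero_eq_constantCoeff_apply, ha, map_zero]
    · exact hf _
  · rw [← coeff_zero_eq_constantCoeff_apply, hb, if_pos rfl]

include h0 hD in
theorem L_defect {υ : Type*} {a b : MvPowerSeries υ A} (ha : constantCoeff a = 0)
    (hb : constantCoeff b = 0) :
    s.L (defect F G h a b).val = (s.L (defU F G h).val).subst ![a.map s.res, b.map s.res] := by
  rw [defect_val h0 ha hb, s.L_subst hD (hasSubst_pair ha hb)]
  congr 1
  funext i
  fin_cases i <;> rfl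

theorem map_subst_pair {υ : Type*} (f : MvPowerSeries (Fin 2) A) {a b : MvPowerSeries υ A}
    (ha : constantCoeff a = 0) (hb : constantCoeff b = 0) :
    (f.subst ![a, b]).map s.res = (f.map s.res).subst ![a.map s.res, b.map s.res] := by
  rw [MvPowerSeries.map_subst (hasSubst_pair ha hb)]
  congr 1
  funext i
  fin_cases i <;> rfl

include h0 hD in
theorem coc_defect (hres : Function.Surjective s.res) :
    Coc (F.map s.res) (s.L (defU F G h).val) where
  symm {υ} a b ha hb := by
    obtain ⟨a', rfl, ha'⟩ := exists_lift_cc s hres a ha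
    obtain ⟨b', rfl, hb'⟩ := exists_lift_cc s hres b hb
    rw [← L_defect s h0 hD ha' hb', ← L_defect s h0 hD hb' ha', defect_symm ha' hb']
  zero {υ} a ha := by
    obtain ⟨a', rfl, ha'⟩ := exists_lift_cc s hres a ha
    have := L_defect s h0 hD ha' (map_zero _)
    rw [defect_zero h0 ha', map_zero] at this
    rw [← this]
    exact s.L_zero
  assoc {υ} a b c ha hb hc := by
    obtain ⟨a', rfl, ha'⟩ := exists_lift_cc s hres a ha
    obtain ⟨b', rfl, hb'⟩ := exists_lift_cc s hres b hb
    obtain ⟨c', rfl, hc'⟩ := exists_lift_cc s hres c hc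
    have hab := constantCoeff_pair ha' hb' F.zero_constantCoeff
    have hbc := constantCoeff_pair hb' hc' F.zero_constantCoeff
    have e1 : (F.map s.res).toPowerSeries.subst ![a'.map s.res, b'.map s.res]
        = (F.toPowerSeries.subst ![a', b']).map s.res := (map_subst_pair s _ ha' hb').symm
    have e2 : (F.map s.res).toPowerSeries.subst ![b'.map s.res, c'.map s.res]
        = (F.toPowerSeries.subst ![b', c']).map s.res := (map_subst_pair s _ hb' hc').symm
    rw [e1, e2, ← L_defect s h0 hD ha' hb', ← L_defect s h0 hD hab hc',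
      ← L_defect s h0 hD hb' hc', ← L_defect s h0 hD ha' hbc,
      ← s.L_padd (JV_defect h0 hD ha' hb') (JV_defect h0 hD hab hc'),
      ← s.L_padd (JV_defect h0 hD hb' hc') (JV_defect h0 hD ha' hbc),
      defect_assoc ha' hb' hc']

include h0 hD in
/-- the norm of the cocycle of a defect -/
theorem cocN_defect (m : ℕ) :
    JV s.I (m • pt G h - pt G (h.subst (mulPS F m)) : G.Point Unit).val ∧
    cocN (F.map s.res) (s.L (defU F G h).val) m =
      s.L (m • pt G h - pt G (h.subst (mulPS F m)) : G.Point Unit).val := by
  induction m with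
  | zero =>
    have e : (0 • pt G h - pt G (h.subst (mulPS F 0)) : G.Point Unit) = 0 := by
      rw [zero_smul]
      show (0 : G.Point Unit) - pt G (h.subst (0 : PowerSeries A)) = 0
      rw [subst_zero_eq h0, pt_zero, sub_zero]
    rw [e]
    refine ⟨JV.zero, ?_⟩
    unfold cocN
    rw [Finset.range_zero, Finset.sum_empty]
    exact s.L_zero.symm
  | succ m ih =>
    have e : ((m + 1) • pt G h - pt G (h.subst (mulPS F (m + 1))) : G.Point Unit)
        = (m • pt G h - pt G (h.subst (mulPS F m)))
          + defect F G h (mulPS F m) (PowerSeries.X : PowerSeries A) := by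
      unfold defect
      have h1 : h.subst (PowerSeries.X : PowerSeries A) = h := by
        exact congrFun (MvPowerSeries.subst_self (R := A) (σ := Unit)) h
      rw [h1]
      show _ - pt G (h.subst (F.toPowerSeries.subst ![mulPS F m, (PowerSeries.X : PowerSeries A)]))
        = _
      rw [succ_nsmul]
      abel
    have hj := JV_defect h0 hD (constantCoeff_mulPS F m) (PowerSeries.constantCoeff_X (R := A))
    rw [e]
    refine ⟨JV.padd ih.1 hj, ?_⟩
    rw [s.L_padd ih.1 hj, ← ih.2]
    unfold cocN
    rw [Finset.sum_range_succ]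
    congr 1
    rw [L_defect s h0 hD (constantCoeff_mulPS F m) (PowerSeries.constantCoeff_X (R := A))]
    congr 1
    funext i
    fin_cases i
    · exact (map_mulPS F s.res m).symm
    · exact (PowerSeries.map_X s.res).symm

end coc

end Chai
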