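import Vale.Agent.Chai.LTgrp
import Vale.Agent.Chai.Haz

/-!
# P217 / LTlam: points, ideal valued series, the calculus of a graded coefficient

OWNER: helper9
-/

namespace Chai

open MvPowerSeries Finsupp

section points

variable {R S : Type*} [CommRing R] [CommRing S] {σ τ : Type*}

/-- a series as a point -/
def mkPt (G : FormalGroup R) (a : MvPowerSeries σ R) (h : PowerSeries.HasSubst a) : G.Point σ :=
  ⟨a, h⟩

open Classical in
/-- a series as a point (junk value `0`) -/
noncomputable def pt (G : FormalGroup R) (a : MvPowerSeries σ R) : G.Point σ :=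
  if h : PowerSeries.HasSubst a then mkPt G a h else 0

theorem pt_val {G : FormalGroup R} {a : MvPowerSeries σ R} (ha : constantCoeff a = 0) :
    (pt G a).val = a := by
  unfold pt
  rw [dif_pos (PowerSeries.HasSubst.of_constantCoeff_zero ha)]
  rfl

theorem pt_val' {G : FormalGroup R} (x : G.Point σ) : pt G x.val = x := by
  have h : PowerSeries.HasSubst x.val := x.2
  unfold pt
  rw [dif_pos h]
  rfl

theorem val_add {G : FormalGroup R} (x y : G.Point σ) :
    (x + y).val = G.toPowerSeries.subst ![x.val, y.val] := rfl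

theorem pt_zero (G : FormalGroup R) : pt G (0 : MvPowerSeries σ R) = 0 :=
  Subtype.ext (pt_val (map_zero _))

theorem pt_add {G : FormalGroup R} {a b : MvPowerSeries σ R} (ha : constantCoeff a = 0)
    (hb : constantCoeff b = 0) : pt G (G.toPowerSeries.subst ![a, b]) = pt G a + pt G b := by
  apply Subtype.ext
  rw [pt_val (constantCoeff_pair ha hb G.zero_constantCoeff), val_add, pt_val ha, pt_val hb]

theorem hasSubst_pt {G : FormalGroup R} (x y : G.Point σ) : HasSubst ![x.val, y.val] :=
  hasSubst_of_constantCoeff_nilpotent (fun i => by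
    fin_cases i
    · exact x.2
    · exact y.2)

/-- substitution as a homomorphism -/
noncomputable def psub (G : FormalGroup R) (b : σ → MvPowerSeries τ R) (hb : HasSubst b) :
    G.Point σ →+ G.Point τ where
  toFun x := ⟨x.val.subst b, IsNilpotent_subst hb x.2⟩
  map_zero' := by
    apply Subtype.ext
    show (0 : MvPowerSeries σ R).subst b = 0
    rw [← coe_substAlgHom hb, map_zero]
  map_add' x y := by
    apply Subtype.ext
    show (G.toPowerSeries.subst ![x.val, y.val]).subst b
      = G.toPowerSeries.subst ![x.val.subst b, y.val.subst b]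
    rw [subst_comp_subst_apply (hasSubst_pt x y) hb]
    congr 1
    funext i
    fin_cases i <;> rfl

theorem psub_val {G : FormalGroup R} {b : σ → MvPowerSeries τ R} (hb : HasSubst b)
    (x : G.Point σ) : (psub G b hb x).val = x.val.subst b := rfl

theorem psub_pt {G : FormalGroup R} {b : σ → MvPowerSeries τ R} (hb : HasSubst b)
    {a : MvPowerSeries σ R} (ha : constantCoeff a = 0) (hab : constantCoeff (a.subst b) = 0) :
    psub G b hb (pt G a) = pt G (a.subst b) :=
  Subtype.ext (by rw [psub_val, pt_val ha, pt_val hab])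

theorem isNilpotent_cc_map (φ : R →+* S) {a : MvPowerSeries σ R}
    (ha : IsNilpotent (constantCoeff a)) : IsNilpotent (constantCoeff (a.map φ)) := by
  rw [constantCoeff_map]
  exact ha.map φ

instance isComm_map (G : FormalGroup R) [h : G.IsComm] (φ : R →+* S) : (G.map φ).IsComm :=
  fg_map_isComm G h φ

/-- change of coefficients as a homomorphism -/
noncomputable def pmap (G : FormalGroup R) (φ : R →+* S) :
    G.Point σ →+ (G.map φ).Point σ where
  toFun x := ⟨x.val.map φ, isNilpotent_cc_map φ x.2⟩
  map_zero' := by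
    apply Subtype.ext
    show (0 : MvPowerSeries σ R).map φ = 0
    rw [map_zero]
  map_add' x y := by
    apply Subtype.ext
    show (G.toPowerSeries.subst ![x.val, y.val]).map φ
      = (G.toPowerSeries.map φ).subst ![x.val.map φ, y.val.map φ]
    rw [MvPowerSeries.map_subst (hasSubst_pt x y)]
    congr 1
    funext i
    fin_cases i <;> rfl

theorem pmap_val {G : FormalGroup R} (φ : R →+* S) (x : G.Point σ) :
    (pmap G φ x).val = x.val.map φ := rfl

theorem nsmul_val (G : FormalGroup R) (m : ℕ) :
    (m • (pt G (PowerSeries.X : PowerSeries R))).val = mulPS G m := by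
  induction m with
  | zero => rw [zero_smul]; rfl
  | succ m ih =>
    rw [succ_nsmul, val_add, ih, pt_val PowerSeries.constantCoeff_X]
    rfl

end points

/-! ### ideal valued series -/

section JV

variable {A : Type*} [CommRing A] {σ τ : Type*}

/-- all coefficients in `I` -/
def JV (I : Ideal A) (f : MvPowerSeries σ A) : Prop := ∀ d, coeff d f ∈ I

variable {I : Ideal A} {f g : MvPowerSeries σ A}

theorem JV_iff : JV I f ↔ f.map (Ideal.Quotient.mk I) = 0 := by
  unfold JV
  constructor
  · intro h
    ext d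
    rw [coeff_map, map_zero]
    exact Ideal.Quotient.eq_zero_iff_mem.2 (h d)
  · intro h d
    have := congrArg (coeff d) h
    rw [coeff_map, map_zero] at this
    exact Ideal.Quotient.eq_zero_iff_mem.1 this

theorem JV_sub_iff : JV I (f - g) ↔ f.map (Ideal.Quotient.mk I) = g.map (Ideal.Quotient.mk I) := by
  rw [JV_iff, map_sub, sub_eq_zero]

theorem JV.zero : JV I (0 : MvPowerSeries σ A) := fun d => by simp
theorem JV.add (hf : JV I f) (hg : JV I g) : JV I (f + g) := fun d => by
  rw [map_add]; exact I.add_mem (hf d) (hg d)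
theorem JV.neg (hf : JV I f) : JV I (-f) := fun d => by
  rw [map_neg]; exact I.neg_mem (hf d)
theorem JV.sub (hf : JV I f) (hg : JV I g) : JV I (f - g) := fun d => by
  rw [map_sub]; exact I.sub_mem (hf d) (hg d)
theorem JV.mul_left (c : MvPowerSeries σ A) (hf : JV I f) : JV I (c * f) := by
  rw [JV_iff] at *
  rw [map_mul, hf, mul_zero]
theorem JV.mul_right (c : MvPowerSeries σ A) (hf : JV I f) : JV I (f * c) := by
  rw [mul_comm]; exact hf.mul_left c
theorem JV.mono {J : Ideal A} (h : I ≤ J) (hf : JV I f) : JV J f := fun d => h (hf d)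

theorem JV.subst (hf : JV I f) {b : σ → MvPowerSeries τ A} (hb : HasSubst b) :
    JV I (f.subst b) := by
  rw [JV_iff] at *
  rw [MvPowerSeries.map_subst hb, hf]
  have hb' : HasSubst (fun i => (b i).map (Ideal.Quotient.mk I)) := hb.map (Ideal.Quotient.mk I)
  rw [← coe_substAlgHom hb', map_zero]

theorem JV_point {G : FormalGroup A} {x : G.Point σ} :
    JV I x.val ↔ pmap G (Ideal.Quotient.mk I) x = 0 := by
  rw [JV_iff]
  exact ⟨fun h => Subtype.ext h, fun h => congrArg Subtype.val h⟩

theorem JV.padd {G : FormalGroup A} {x y : G.Point σ} (hx : JV I x.val) (hy : JV I y.val) :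
    JV I (x + y).val := by
  rw [JV_point] at *
  rw [map_add, hx, hy, add_zero]

theorem JV.pneg {G : FormalGroup A} [G.IsComm] {x : G.Point σ} (hx : JV I x.val) :
    JV I (-x).val := by
  rw [JV_point] at *
  rw [map_neg, hx, neg_zero]

theorem JV.psub {G : FormalGroup A} [G.IsComm] {x y : G.Point σ} (hx : JV I x.val)
    (hy : JV I y.val) : JV I (x - y).val := by
  rw [JV_point] at *
  rw [map_sub, hx, hy, sub_zero]

theorem JV.psub_iff {G : FormalGroup A} [G.IsComm] {x y : G.Point σ} :
    JV I (x - y).val ↔ JV I (x.val - y.val) := by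
  rw [JV_point, map_sub, sub_eq_zero, JV_sub_iff]
  exact ⟨fun h => congrArg Subtype.val h, fun h => Subtype.ext h⟩

end JV

/-! ### graded coefficients -/

/-- an additive function `lam` on an ideal `I` with values in `k`, semilinear over `res` -/
structure Sx (A k : Type*) [CommRing A] [CommRing k] where
  res : A →+* k
  I : Ideal A
  lam : A → k
  res_I : ∀ a ∈ I, res a = 0
  add : ∀ a ∈ I, ∀ b ∈ I, lam (a + b) = lam a + lam b
  mul : ∀ a, ∀ b ∈ I, lam (a * b) = res a * lam b

namespace Sx

variable {A k : Type*} [CommRing A] [CommRing k] (s : Sx A k) {σ τ : Type*}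

theorem lam_zero : s.lam 0 = 0 := by
  have := s.add 0 s.I.zero_mem 0 s.I.zero_mem
  rw [add_zero] at this
  exact left_eq_add.1 this

theorem lam_neg {a : A} (ha : a ∈ s.I) : s.lam (-a) = -s.lam a := by
  have := s.mul (-1) a ha
  rw [neg_one_mul, map_neg, map_one, neg_one_mul] at this
  exact this

theorem lam_sum {ι : Type*} (t : Finset ι) (f : ι → A) (hf : ∀ i ∈ t, f i ∈ s.I) :
    s.lam (∑ i ∈ t, f i) = ∑ i ∈ t, s.lam (f i) := by
  classical
  induction t using Finset.induction_on with
  | empty => simp [lam_zero]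
  | insert a t ha ih =>
    rw [Finset.sum_insert ha, Finset.sum_insert ha, s.add _ (hf a (Finset.mem_insert_self a t)) _
      (s.I.sum_mem fun i hi => hf i (Finset.mem_insert_of_mem hi)),
      ih fun i hi => hf i (Finset.mem_insert_of_mem hi)]

/-- coefficientwise -/
noncomputable def L (f : MvPowerSeries σ A) : MvPowerSeries σ k := fun d => s.lam (coeff d f)

theorem coeff_L (f : MvPowerSeries σ A) (d : σ →₀ ℕ) : coeff d (s.L f) = s.lam (coeff d f) := rfl

variable {f g : MvPowerSeries σ A}

theorem L_zero : s.L (0 : MvPowerSeries σ A) = 0 := by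
  ext d
  rw [coeff_L, map_zero, map_zero, s.lam_zero]

theorem L_add (hf : JV s.I f) (hg : JV s.I g) : s.L (f + g) = s.L f + s.L g := by
  ext d
  rw [coeff_L, map_add, map_add, s.add _ (hf d) _ (hg d)]
  rfl

theorem L_neg (hf : JV s.I f) : s.L (-f) = -s.L f := by
  ext d
  rw [coeff_L, map_neg, map_neg, s.lam_neg (hf d)]
  rfl

theorem L_sub (hf : JV s.I f) (hg : JV s.I g) : s.L (f - g) = s.L f - s.L g := by
  rw [sub_eq_add_neg, s.L_add hf hg.neg, s.L_neg hg, sub_eq_add_neg]

theorem L_mul (c : MvPowerSeries σ A) (hf : JV s.I f) : s.L (c * f) = c.map s.res * s.L f := by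
  classical
  ext d
  rw [coeff_L, coeff_mul, coeff_mul, s.lam_sum _ _ (fun x _ => s.I.mul_mem_left _ (hf _))]
  refine Finset.sum_congr rfl (fun x _ => ?_)
  rw [s.mul _ _ (hf _), coeff_map, coeff_L]

theorem map_res_JV (hf : JV s.I f) : f.map s.res = 0 := by
  ext d
  rw [coeff_map, map_zero]
  exact s.res_I _ (hf d)

theorem L_subst (hf : JV s.I f) {b : σ → MvPowerSeries τ A} (hb : HasSubst b) :
    s.L (f.subst b) = (s.L f).subst (fun i => (b i).map s.res) := by
  classical
  have hb' : HasSubst (fun i => (b i).map s.res) := hb.map s.res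
  ext e
  rw [coeff_L, coeff_subst hb, coeff_subst hb']
  have hfin := coeff_subst_finite hb f e
  have hfin' := coeff_subst_finite hb' (s.L f) e
  rw [finsum_eq_sum_of_support_subset (s := hfin.toFinset ∪ hfin'.toFinset) _ (by
      intro d hd; rw [Finset.coe_union]
      left; exact Finset.mem_coe.2 (hfin.mem_toFinset.2 hd)),
    finsum_eq_sum_of_support_subset (s := hfin.toFinset ∪ hfin'.toFinset) _ (by
      intro d hd; rw [Finset.coe_union]
      right; exact Finset.mem_coe.2 (hfin'.mem_toFinset.2 hd)),
    s.lam_sum _ _ (fun d _ => by rw [smul_eq_mul]; exact s.I.mul_mem_right _ (hf d))]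
  refine Finset.sum_congr rfl (fun d _ => ?_)
  rw [smul_eq_mul, mul_comm, s.mul _ _ (hf d), smul_eq_mul, mul_comm, coeff_L]
  congr 1
  rw [← coeff_map, Finsupp.prod, Finsupp.prod, map_prod]
  simp only [map_pow]

/-- `L` of a sum of points -/
theorem L_padd {G : FormalGroup A} {x y : G.Point σ} (hx : JV s.I x.val) (hy : JV s.I y.val) :
    s.L (x + y).val = s.L x.val + s.L y.val := by
  obtain ⟨K, hK⟩ := exists_K G
  rw [val_add, subst_eq_K_of hK (hasSubst_pt x y),
    s.L_add (hx.add hy) (hy.mul_left _ |>.mul_right _), s.L_add hx hy]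
  have : s.L (x.val * y.val * K.subst ![x.val, y.val]) = 0 := by
    rw [show x.val * y.val * K.subst ![x.val, y.val] = (x.val * K.subst ![x.val, y.val]) * y.val by
      ring, s.L_mul _ hy, map_mul, s.map_res_JV hx, zero_mul, zero_mul]
  rw [this, add_zero]

theorem L_pneg {G : FormalGroup A} [G.IsComm] {x : G.Point σ} (hx : JV s.I x.val) :
    s.L (-x).val = -s.L x.val := by
  have h := s.L_padd hx hx.pneg
  rw [add_neg_cancel] at h
  have h0 : s.L (0 : G.Point σ).val = 0 := s.L_zero
  rw [h0] at h
  exact (neg_eq_of_add_eq_zero_right h.symm).symm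

theorem L_psub {G : FormalGroup A} [G.IsComm] {x y : G.Point σ} (hx : JV s.I x.val)
    (hy : JV s.I y.val) : s.L (x - y).val = s.L x.val - s.L y.val := by
  rw [sub_eq_add_neg, s.L_padd hx hy.pneg, s.L_pneg hy, sub_eq_add_neg]

/-- `h(x)` for `x` with values in `I` -/
theorem L_subst_right {h : PowerSeries A} (h0 : PowerSeries.constantCoeff h = 0)
    {x : MvPowerSeries σ A} (hx0 : constantCoeff x = 0) (hx : JV s.I x) :
    JV s.I (h.subst x) ∧
      s.L (h.subst x) = MvPowerSeries.C (s.res (PowerSeries.coeff 1 h)) * s.L x := by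
  have hs := PowerSeries.HasSubst.of_constantCoeff_zero hx0
  obtain ⟨g, hg⟩ := PowerSeries.X_dvd_iff.2 h0
  obtain ⟨g', hg'⟩ : ∃ g', g = PowerSeries.C (PowerSeries.coeff 1 h) + PowerSeries.X * g' := by
    obtain ⟨g', hg'⟩ : PowerSeries.X ∣ g - PowerSeries.C (PowerSeries.coeff 1 h) := by
      rw [PowerSeries.X_dvd_iff, map_sub, PowerSeries.constantCoeff_C, sub_eq_zero]
      have := PowerSeries.coeff_succ_X_mul 0 g
      rw [← hg, PowerSeries.coeff_zero_eq_constantCoeff_apply] at this
      exact this.symm
    exact ⟨g', by rw [← hg']; ring⟩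
  have e : h.subst x = MvPowerSeries.C (PowerSeries.coeff 1 h) * x + x * g'.subst x * x := by
    conv_lhs => rw [hg, hg']
    rw [PowerSeries.subst_mul hs, PowerSeries.subst_X hs, PowerSeries.subst_add hs,
      PowerSeries.subst_mul hs, PowerSeries.subst_X hs, PowerSeries.subst_C]
    ring
  have j1 : JV s.I (MvPowerSeries.C (PowerSeries.coeff 1 h) * x) := hx.mul_left _
  have j2 : JV s.I (x * g'.subst x * x) := hx.mul_left _
  rw [e]
  refine ⟨j1.add j2, ?_⟩
  rw [s.L_add j1 j2, s.L_mul _ hx, s.L_mul _ hx, map_mul, s.map_res_JV hx, MvPowerSeries.map_C]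
  ring

end Sx

end Chai
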