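import Vale.Agent.Chai.LTstep

/-!
# P217 / LTlim: the limit of the approximation

OWNER: helper9
-/

namespace Chai

open MvPowerSeries Finsupp

section congr

variable {A B : Type*} [CommRing A] [CommRing B]

theorem pmap_pt {G : FormalGroup A} (φ : A →+* B) {σ : Type*} {a : MvPowerSeries σ A}
    (ha : constantCoeff a = 0) : pmap G φ (pt G a) = pt (G.map φ) (a.map φ) := by
  apply Subtype.ext
  have h2 : constantCoeff (a.map φ) = 0 := by rw [constantCoeff_map, ha, map_zero]
  rw [pmap_val, pt_val ha, pt_val h2]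

theorem map_subst1 (φ : A →+* B) {υ : Type*} (h : PowerSeries A) {a : MvPowerSeries υ A}
    (ha : constantCoeff a = 0) :
    MvPowerSeries.map φ (h.subst a) = PowerSeries.subst (a.map φ) (h.map φ) := by
  have hs : HasSubst (fun _ : Unit => a) :=
    PowerSeries.HasSubst.const (PowerSeries.HasSubst.of_constantCoeff_zero ha)
  have := MvPowerSeries.map_subst hs (f := h) (h := φ)
  exact this

theorem map_defU {F G : FormalGroup A} [F.IsComm] [G.IsComm] {h : PowerSeries A}
    (h0 : PowerSeries.constantCoeff h = 0) (φ : A →+* B) :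
    pmap G φ (defU F G h) = defU (F.map φ) (G.map φ) (h.map φ) := by
  have e0 := constantCoeff_X (R := A) (0 : Fin 2)
  have e1 := constantCoeff_X (R := A) (1 : Fin 2)
  have eF := constantCoeff_pair e0 e1 F.zero_constantCoeff
  unfold defU defect
  rw [map_sub, map_add, pmap_pt φ (ccs1 e0 h0), pmap_pt φ (ccs1 e1 h0), pmap_pt φ (ccs1 eF h0),
    map_subst1 φ h e0, map_subst1 φ h e1, map_subst1 φ h eF, MvPowerSeries.map_X,
    MvPowerSeries.map_X, MvPowerSeries.map_subst (hasSubst_pair e0 e1)]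
  have : (fun i => (![X 0, X 1] : Fin 2 → MvPowerSeries (Fin 2) A) i |>.map φ)
      = ![X 0, X 1] := by
    funext i
    fin_cases i
    · exact MvPowerSeries.map_X φ 0
    · exact MvPowerSeries.map_X φ 1
  rw [this]
  rfl

theorem defU_congr {I : Ideal A} {F F' G : FormalGroup A} [F.IsComm] [F'.IsComm] [G.IsComm]
    {h h' : PowerSeries A} (h0 : PowerSeries.constantCoeff h = 0)
    (h0' : PowerSeries.constantCoeff h' = 0)
    (hFF : JV I (F'.toPowerSeries - F.toPowerSeries)) (hh : JV I (h' - h))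
    (hD : JV I (defU F G h).val) : JV I (defU F' G h').val := by
  rw [JV_point, map_defU h0] at hD
  rw [JV_point, map_defU h0']
  have e1 : F'.map (Ideal.Quotient.mk I) = F.map (Ideal.Quotient.mk I) :=
    FormalGroup.ext (JV_sub_iff.1 hFF)
  have e2 : h'.map (Ideal.Quotient.mk I) = h.map (Ideal.Quotient.mk I) := JV_sub_iff.1 hh
  simp only [e1, e2]
  exact hD

end congr

variable {p : ℕ} [Fact p.Prime] {n : ℕ}

theorem IE_complete' (i0 : ℕ) (a : ℕ → E0 p n) (h : ∀ t, a (t + 1) - a t ∈ IE p n (i0 + t)) :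
    ∃ b, ∀ t, b - a t ∈ IE p n (i0 + t) := by
  have h1 : ∀ t k, a (t + k) - a t ∈ IE p n (i0 + t) := by
    intro t k
    induction k with
    | zero => rw [add_zero, sub_self]; exact (IE p n (i0 + t)).zero_mem
    | succ k ih =>
      have h2 := IE_anti p n (by omega : i0 + t ≤ i0 + (t + k)) (h (t + k))
      have h3 := (IE p n (i0 + t)).add_mem h2 ih
      rwa [sub_add_sub_cancel] at h3
  obtain ⟨b, hb⟩ := IE_complete p n a (fun t => IE_anti p n (by omega) (h t))
  refine ⟨b, fun t => ?_⟩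
  have h2 := IE_anti p n (by omega : i0 + t ≤ t + i0) (hb (t + i0))
  have h3 := (IE p n (i0 + t)).add_mem h2 (h1 t i0)
  rwa [sub_add_sub_cancel] at h3

/-- a state of the approximation -/
structure LTSt (G : FormalGroup (E0 p n)) [G.IsComm] (i : ℕ) where
  x : ℕ → E0 p n
  h : PowerSeries (E0 p n)
  hx : ∀ j, x j ∈ IE p n 1
  h0 : PowerSeries.constantCoeff h = 0
  h1 : resE p n (PowerSeries.coeff 1 h) = 1
  hD : JV (IE p n i) (defU (hazF p (prm n x)) G h).val

theorem res_of_IE {a b : E0 p n} {i : ℕ} (hi : 1 ≤ i) (h : a - b ∈ IE p n i) :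
    resE p n a = resE p n b := by
  have h2 := IE_anti p n hi h
  rw [IE_one] at h2
  have h3 : resE p n (a - b) = 0 := h2
  rwa [map_sub, sub_eq_zero] at h3

theorem LTSt.next (hn : 1 ≤ n) {G : FormalGroup (E0 p n)} [G.IsComm] {i : ℕ} (hi : 1 ≤ i)
    (s : LTSt G i) : ∃ s' : LTSt G (i + 1), (∀ j, s'.x j - s.x j ∈ IE p n i) ∧
      JV (IE p n i) (s'.h - s.h) := by
  obtain ⟨x', h', a1, a2, a3, a4⟩ := step hn G hi s.x s.h s.hx s.h0 s.h1 s.hD
  refine ⟨⟨x', h', fun j => ?_, a2, ?_, a4⟩, a1, a3⟩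
  · have := (IE p n 1).add_mem (IE_anti p n hi (a1 j)) (s.hx j)
    rwa [sub_add_cancel] at this
  · rw [← s.h1]
    apply res_of_IE hi
    rw [← map_sub]
    exact a3 _

open Classical in
/-- the sequence of states -/
noncomputable def ltSeq (hn : 1 ≤ n) {G : FormalGroup (E0 p n)} [G.IsComm] {i : ℕ} (hi : 1 ≤ i)
    (s : LTSt G i) : (t : ℕ) → LTSt G (i + t)
  | 0 => s
  | t + 1 => (LTSt.next hn (Nat.le_add_right_of_le hi) (ltSeq hn hi s t)).choose

theorem exists_limit (hn : 1 ≤ n) (G : FormalGroup (E0 p n)) [G.IsComm] {i : ℕ} (hi : 1 ≤ i)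
    (x : ℕ → E0 p n) (h : PowerSeries (E0 p n)) (hx : ∀ j, x j ∈ IE p n 1)
    (h0 : PowerSeries.constantCoeff h = 0) (h1 : resE p n (PowerSeries.coeff 1 h) = 1)
    (hD : JV (IE p n i) (defU (hazF p (prm n x)) G h).val) :
    ∃ (x' : ℕ → E0 p n) (h' : PowerSeries (E0 p n)),
      (∀ j, x' j - x j ∈ IE p n i) ∧ PowerSeries.constantCoeff h' = 0 ∧
      JV (IE p n i) (h' - h) ∧ defU (hazF p (prm n x')) G h' = 0 := by
  set s : (t : ℕ) → LTSt G (i + t) := ltSeq hn hi ⟨x, h, hx, h0, h1, hD⟩ with hs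
  have hs1 : ∀ t, (∀ j, (s (t + 1)).x j - (s t).x j ∈ IE p n (i + t)) ∧
      JV (IE p n (i + t)) ((s (t + 1)).h - (s t).h) := fun t =>
    (LTSt.next hn (Nat.le_add_right_of_le hi) (s t)).choose_spec
  have hX : ∀ j, ∃ b, ∀ t, b - (s t).x j ∈ IE p n (i + t) := fun j =>
    IE_complete' i _ (fun t => (hs1 t).1 j)
  choose x' hx' using hX
  have hH : ∀ e : Unit →₀ ℕ, ∃ b, ∀ t, b - coeff e (s t).h ∈ IE p n (i + t) := fun e =>
    IE_complete' i _ (fun t => by
      have := (hs1 t).2 e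
      rwa [map_sub] at this)
  choose H hH' using hH
  obtain ⟨h', hh'⟩ : ∃ h' : PowerSeries (E0 p n), ∀ e, coeff e h' = H e := ⟨fun e => H e, fun _ => rfl⟩
  have hJ : ∀ t, JV (IE p n (i + t)) (h' - (s t).h) := fun t e => by
    rw [map_sub, hh']
    exact hH' e t
  have h0' : PowerSeries.constantCoeff h' = 0 := by
    apply IE_inf p n
    intro t
    have h2 := hJ t 0
    rw [map_sub] at h2
    have h3 : coeff 0 (s t).h = 0 := (s t).h0
    rw [h3, sub_zero] at h2
    exact IE_anti p n (by omega) h2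
  refine ⟨x', h', fun j => hx' j 0, h0', hJ 0, ?_⟩
  have hD' : ∀ t, JV (IE p n (i + t)) (defU (hazF p (prm n x')) G h').val := fun t =>
    defU_congr (s t).h0 h0' (hazF_sub_JV p _ (prm_sub_mem _ n fun j _ _ => hx' j t)) (hJ t) (s t).hD
  apply Subtype.ext
  show (defU (hazF p (prm n x')) G h').val = (0 : MvPowerSeries (Fin 2) (E0 p n))
  ext1 e
  rw [map_zero]
  exact IE_inf p n fun t => IE_anti p n (by omega) (hD' t e)

/-- `defU = 0` is the identity `h(F(X,Y)) = G(h X, h Y)` -/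
theorem isHom_of_defU {A : Type*} [CommRing A] {F G : FormalGroup A} [F.IsComm] [G.IsComm]
    {h : PowerSeries A} (h0 : PowerSeries.constantCoeff h = 0) (hD : defU F G h = 0) :
    IsHom h F G := by
  have e0 := constantCoeff_X (R := A) (0 : Fin 2)
  have e1 := constantCoeff_X (R := A) (1 : Fin 2)
  have eF := constantCoeff_pair e0 e1 F.zero_constantCoeff
  refine ⟨h0, ?_⟩
  unfold defU defect at hD
  rw [sub_eq_zero, ← pt_add (ccs1 e0 h0) (ccs1 e1 h0)] at hD
  have h2 := congrArg Subtype.val hD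
  rw [pt_val (constantCoeff_pair (ccs1 e0 h0) (ccs1 e1 h0) G.zero_constantCoeff),
    pt_val (ccs1 eF h0)] at h2
  have hXX : (![(X 0 : MvPowerSeries (Fin 2) A), X 1] : Fin 2 → MvPowerSeries (Fin 2) A) = X := by
    funext i; fin_cases i <;> rfl
  rw [hXX, subst_self] at h2
  exact h2.symm

end Chai
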