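import Vale.Agent.Chai.LTchg
import Vale.Agent.Chai.LTU

/-!
# P217 / LTnorm: the norm of the cocycle of a change of parameters

OWNER: helper9
-/

namespace Chai

open MvPowerSeries Finsupp

section psub

variable {A : Type} [CommRing A] {k : Type} [Field k] (s : Sx A k)
  {F : FormalGroup A} [F.IsComm] {υ : Type}

/-- formal difference and ordinary difference agree if `b` reduces to `0` -/
theorem L_pt_sub {a b : MvPowerSeries υ A} (ha : constantCoeff a = 0) (hb : constantCoeff b = 0)
    (hab : JV s.I (a - b)) (hb1 : b.map s.res = 0) :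
    JV s.I (pt F a - pt F b).val ∧ s.L (pt F a - pt F b).val = s.L (a - b) := by
  have hz : JV s.I (pt F a - pt F b).val := by
    rw [JV.psub_iff, pt_val ha, pt_val hb]
    exact hab
  refine ⟨hz, ?_⟩
  obtain ⟨K, hK⟩ := exists_K F
  set z := (pt F a - pt F b).val with hzdef
  have h1 : pt F b + (pt F a - pt F b) = pt F a := by abel
  have h2 := congrArg Subtype.val h1
  have hs : HasSubst ![b, z] := hasSubst_pair hb (cc_sub (cc_pt ha) (cc_pt hb))
  rw [val_add, pt_val hb, pt_val ha, ← hzdef, subst_eq_K_of hK hs] at h2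
  have h3 : a - b = z + b * K.subst ![b, z] * z := by rw [← h2]; ring
  rw [h3, s.L_add hz (hz.mul_left _), s.L_mul _ hz, map_mul, hb1, zero_mul, zero_mul, add_zero]

/-- `F'(a,b)` in the group `F` -/
theorem pt_F' {F' : FormalGroup A} [F'.IsComm] {a b : MvPowerSeries υ A}
    (ha : constantCoeff a = 0) (hb : constantCoeff b = 0) :
    pt F (F'.toPowerSeries.subst ![a, b]) = pt F a + pt F b - defect F' F PowerSeries.X a b := by
  unfold defect
  rw [PowerSeries.subst_X (PowerSeries.HasSubst.of_constantCoeff_zero ha),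
    PowerSeries.subst_X (PowerSeries.HasSubst.of_constantCoeff_zero hb),
    PowerSeries.subst_X (PowerSeries.HasSubst.of_constantCoeff_zero
      (constantCoeff_pair ha hb F'.zero_constantCoeff))]
  abel

theorem L_defect_right {F' : FormalGroup A} [F'.IsComm]
    (hFF : JV s.I (F'.toPowerSeries - F.toPowerSeries)) (hres : Function.Surjective s.res)
    {a b : MvPowerSeries υ A}
    (ha : constantCoeff a = 0) (hb : constantCoeff b = 0) (hb1 : b.map s.res = 0) :
    JV s.I (defect F' F PowerSeries.X a b).val ∧ s.L (defect F' F PowerSeries.X a b).val = 0 := by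
  have hX := PowerSeries.constantCoeff_X (R := A)
  refine ⟨JV_defect hX (JV_defU_X hFF) ha hb, ?_⟩
  rw [L_defect s hX (JV_defU_X hFF) ha hb, hb1]
  exact (coc_defect s hX (JV_defU_X hFF) hres).zero _ (by rw [constantCoeff_map, ha, map_zero])

theorem L_defect_left {F' : FormalGroup A} [F'.IsComm]
    (hFF : JV s.I (F'.toPowerSeries - F.toPowerSeries)) (hres : Function.Surjective s.res)
    {a b : MvPowerSeries υ A}
    (ha : constantCoeff a = 0) (hb : constantCoeff b = 0) (ha1 : a.map s.res = 0) :
    JV s.I (defect F' F PowerSeries.X a b).val ∧ s.L (defect F' F PowerSeries.X a b).val = 0 := by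
  rw [defect_symm ha hb]
  exact L_defect_right s hFF hres hb ha ha1

theorem fsum_diff {F' : FormalGroup A} [F'.IsComm]
    (hFF : JV s.I (F'.toPowerSeries - F.toPowerSeries)) (hres : Function.Surjective s.res)
    (c : PowerSeries A) (hc : PowerSeries.constantCoeff c = 0)
    (l : List (PowerSeries A × PowerSeries A))
    (hl : ∀ x ∈ l, PowerSeries.constantCoeff x.1 = 0 ∧ PowerSeries.constantCoeff x.2 = 0 ∧
      x.2.map s.res = 0 ∧ JV s.I (x.1 - x.2)) :
    JV s.I (pt F (fsum F' (l.map Prod.fst ++ [c])) - pt F (fsum F (l.map Prod.snd ++ [c])) :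
      F.Point Unit).val ∧
    s.L (pt F (fsum F' (l.map Prod.fst ++ [c])) - pt F (fsum F (l.map Prod.snd ++ [c])) :
      F.Point Unit).val = (l.map fun x => s.L (x.1 - x.2)).sum := by
  induction l with
  | nil =>
    have e1 : ∀ F : FormalGroup A, fsum F ([] ++ [c]) = c := by
      intro F
      show F.toPowerSeries.subst ![c, 0] = c
      exact F.add_zero (PowerSeries.HasSubst.of_constantCoeff_zero hc)
    simp only [List.map_nil]
    rw [e1, e1, sub_self]
    exact ⟨JV.zero, s.L_zero⟩
  | cons x l ih =>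
    have ih := ih (fun y hy => hl y (List.mem_cons_of_mem _ hy))
    obtain ⟨h1, h2, h3, h4⟩ := hl x (List.mem_cons_self ..)
    have hcc : ∀ (F : FormalGroup A) (g : PowerSeries A × PowerSeries A → PowerSeries A),
        (∀ y ∈ l, PowerSeries.constantCoeff (g y) = 0) →
        constantCoeff (fsum F (l.map g ++ [c])) = 0 := by
      intro F g hg
      refine haz_constantCoeff_fsum F (fun a ha => ?_)
      rcases List.mem_append.1 ha with ha | ha
      · obtain ⟨y, hy, rfl⟩ := List.mem_map.1 ha
        exact hg y hy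
      · rw [List.mem_singleton.1 ha]; exact hc
    have c1 := hcc F' Prod.fst (fun y hy => (hl y (List.mem_cons_of_mem _ hy)).1)
    have c2 := hcc F Prod.snd (fun y hy => (hl y (List.mem_cons_of_mem _ hy)).2.1)
    have h5 : x.1.map s.res = 0 := by
      have := s.map_res_JV h4
      rw [map_sub, sub_eq_zero] at this
      exact this.trans h3
    obtain ⟨j1, l1⟩ := L_pt_sub s (F := F) (a := x.1) (b := x.2) h1 h2 h4 h3
    obtain ⟨j2, l2⟩ := L_defect_left s (F := F) hFF hres (a := x.1)
      (b := fsum F' (l.map Prod.fst ++ [c])) h1 c1 h5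
    have e : (pt F (fsum F' ((x :: l).map Prod.fst ++ [c]))
        - pt F (fsum F ((x :: l).map Prod.snd ++ [c])) : F.Point Unit)
        = (pt F x.1 - pt F x.2) + (pt F (fsum F' (l.map Prod.fst ++ [c]))
          - pt F (fsum F (l.map Prod.snd ++ [c])))
          - defect F' F PowerSeries.X x.1 (fsum F' (l.map Prod.fst ++ [c])) := by
      have e1 : (pt F (fsum F' ((x :: l).map Prod.fst ++ [c])) : F.Point Unit)
          = pt F x.1 + pt F (fsum F' (l.map Prod.fst ++ [c]))
            - defect F' F PowerSeries.X x.1 (fsum F' (l.map Prod.fst ++ [c])) := pt_F' h1 c1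
      have e2 : (pt F (fsum F ((x :: l).map Prod.snd ++ [c])) : F.Point Unit)
          = pt F x.2 + pt F (fsum F (l.map Prod.snd ++ [c])) := pt_add h2 c2
      rw [e1, e2]
      abel
    rw [e]
    refine ⟨JV.psub (JV.padd j1 ih.1) j2, ?_⟩
    rw [s.L_psub (JV.padd j1 ih.1) j2, s.L_padd j1 ih.1, l1, ih.2, l2, sub_zero, List.map_cons,
      List.sum_cons]

theorem L_C_mul {c : A} (hc : c ∈ s.I) (m : ℕ) :
    JV s.I (PowerSeries.C c * (PowerSeries.X : PowerSeries A) ^ m : PowerSeries A) ∧
    s.L (PowerSeries.C c * (PowerSeries.X : PowerSeries A) ^ m : PowerSeries A)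
      = (PowerSeries.C (s.lam c) * (PowerSeries.X : PowerSeries k) ^ m : PowerSeries k) := by
  have h1 : JV s.I (PowerSeries.C c : PowerSeries A) := by
    classical
    intro d
    show coeff d (MvPowerSeries.C c) ∈ s.I
    rw [MvPowerSeries.coeff_C]
    split_ifs
    · exact hc
    · exact s.I.zero_mem
  have h2 : s.L (PowerSeries.C c : PowerSeries A) = (PowerSeries.C (s.lam c) : PowerSeries k) := by
    classical
    refine MvPowerSeries.ext (fun d => ?_)
    rw [s.coeff_L]
    show s.lam (coeff d (MvPowerSeries.C c)) = coeff d (MvPowerSeries.C (s.lam c))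
    rw [MvPowerSeries.coeff_C, MvPowerSeries.coeff_C]
    split_ifs
    · rfl
    · exact s.lam_zero
  refine ⟨h1.mul_right _, ?_⟩
  have h3 := s.L_mul ((PowerSeries.X : PowerSeries A) ^ m) h1
  rw [mul_comm (PowerSeries.C c)]
  refine h3.trans ?_
  rw [h2, map_pow]
  have h4 : (MvPowerSeries.map s.res) (PowerSeries.X : PowerSeries A) = (PowerSeries.X : PowerSeries k) :=
    PowerSeries.map_X s.res
  rw [h4, mul_comm]

end psub

/-! ### the norm of the cocycle of a change of parameters -/

section haz

variable (p : ℕ) [Fact p.Prime] {A : Type} [CommRing A] {k : Type} [Field k] (s : Sx A k)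

theorem eval_sub_mem (I : Ideal A) {w w' : ℕ → A} (h : ∀ j, w' j - w j ∈ I)
    (P : MvPolynomial ℕ ℤ) :
    MvPolynomial.eval₂Hom (Int.castRingHom A) w' P - MvPolynomial.eval₂Hom (Int.castRingHom A) w P
      ∈ I := by
  rw [← Ideal.Quotient.eq]
  have h1 : ∀ w : ℕ → A, (Ideal.Quotient.mk I) (MvPolynomial.eval₂Hom (Int.castRingHom A) w P)
      = MvPolynomial.eval₂Hom (Int.castRingHom (A ⧸ I)) (fun j => Ideal.Quotient.mk I (w j)) P := by
    intro w
    have : (Ideal.Quotient.mk I).comp (MvPolynomial.eval₂Hom (Int.castRingHom A) w)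
        = MvPolynomial.eval₂Hom (Int.castRingHom (A ⧸ I)) (fun j => Ideal.Quotient.mk I (w j)) := by
      apply MvPolynomial.ringHom_ext
      · intro r; simp
      · intro i; simp
    exact congrArg (fun f => f P) this
  rw [h1, h1]
  congr 2
  funext j
  exact Ideal.Quotient.eq.2 (h j)

theorem hazF_sub_JV (I : Ideal A) {w w' : ℕ → A} (h : ∀ j, w' j - w j ∈ I) :
    JV I ((hazF p w').toPowerSeries - (hazF p w).toPowerSeries) := by
  intro d
  rw [map_sub]
  unfold hazF
  rw [FormalGroup.map_toPowerSeries, FormalGroup.map_toPowerSeries, coeff_map, coeff_map]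
  exact eval_sub_mem I h _

theorem prm_sub_mem (I : Ideal A) (n : ℕ) {x x' : ℕ → A}
    (h : ∀ j, 1 ≤ j → j < n → x' j - x j ∈ I) (j : ℕ) : prm n x' j - prm n x j ∈ I := by
  unfold prm
  split_ifs with h1 h2
  · exact h j h1.1 h1.2
  · rw [sub_self]; exact I.zero_mem
  · rw [sub_self]; exact I.zero_mem

instance hazF_isComm {R : Type*} [CommRing R] (v : ℕ → R) : (hazF p v).IsComm := hazF_comm p v

theorem cocN_haz [CharP k p] (hres : Function.Surjective s.res) {n : ℕ} (hn : 1 ≤ n)
    {x x' : ℕ → A} (hx : ∀ j, 1 ≤ j → j < n → s.res (x j) = 0)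
    (hxx : ∀ j, 1 ≤ j → j < n → x' j - x j ∈ s.I) :
    cocN ((hazF p (prm n x)).map s.res)
      (s.L (tau (hazF p (prm n x)) (hazF p (prm n x'))).val) p
    = ∑ j ∈ Finset.Ico 1 n, PowerSeries.C (s.lam (x' j - x j)) *
        (PowerSeries.X : PowerSeries k) ^ p ^ j := by
  obtain ⟨m, rfl⟩ : ∃ m, n = m + 1 := ⟨n - 1, by omega⟩
  have hp : p ≠ 0 := (Fact.out : p.Prime).ne_zero
  have hFF : JV s.I ((hazF p (prm (m + 1) x')).toPowerSeries -
      (hazF p (prm (m + 1) x)).toPowerSeries) := hazF_sub_JV p s.I (prm_sub_mem s.I (m + 1) hxx)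
  rw [cocN_tau s hFF p]
  obtain ⟨R, hR0, hR⟩ := exists_R p (m + 1)
  have hvan : ∀ (y : ℕ → A) (j : ℕ), m + 1 < j → prm (m + 1) y j = 0 := by
    intro y j hj
    unfold prm
    rw [if_neg (by omega), if_neg (by omega)]
  have e' := hR (prm (m + 1) x') (hvan x')
  have e := hR (prm (m + 1) x) (hvan x)
  set F := hazF p (prm (m + 1) x) with hF
  set F' := hazF p (prm (m + 1) x') with hF'
  set ev' := MvPolynomial.eval₂Hom (Int.castRingHom A) (prm (m + 1) x') with hev'
  set ev := MvPolynomial.eval₂Hom (Int.castRingHom A) (prm (m + 1) x) with hev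
  let l : List (PowerSeries A × PowerSeries A) := (List.range m).map fun j =>
    (PowerSeries.C (x' (j + 1)) * (PowerSeries.X : PowerSeries A) ^ p ^ (j + 1),
      PowerSeries.C (x (j + 1)) * (PowerSeries.X : PowerSeries A) ^ p ^ (j + 1))
  have hlist : ∀ (y : ℕ → A), (List.range (m + 1)).map (fun j =>
      PowerSeries.C (prm (m + 1) y (j + 1)) * (PowerSeries.X : PowerSeries A) ^ p ^ (j + 1))
      = (List.range m).map (fun j =>
        PowerSeries.C (y (j + 1)) * (PowerSeries.X : PowerSeries A) ^ p ^ (j + 1))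
        ++ [(PowerSeries.X : PowerSeries A) ^ p ^ (m + 1)] := by
    intro y
    rw [List.range_succ, List.map_append]
    congr 1
    · refine List.map_congr_left (fun j hj => ?_)
      have hj' := List.mem_range.1 hj
      have : prm (m + 1) y (j + 1) = y (j + 1) := by
        unfold prm
        rw [if_pos (by omega)]
      rw [this]
    · have : prm (m + 1) y (m + 1) = 1 := by
        unfold prm
        rw [if_neg (by omega), if_pos rfl]
      simp only [List.map_cons, List.map_nil, this, map_one, one_mul]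
  have hl1 : l.map Prod.fst ++ [(PowerSeries.X : PowerSeries A) ^ p ^ (m + 1)]
      = (List.range (m + 1)).map (fun j => PowerSeries.C (prm (m + 1) x' (j + 1)) *
        (PowerSeries.X : PowerSeries A) ^ p ^ (j + 1)) := by
    rw [hlist, List.map_map]; rfl
  have hl2 : l.map Prod.snd ++ [(PowerSeries.X : PowerSeries A) ^ p ^ (m + 1)]
      = (List.range (m + 1)).map (fun j => PowerSeries.C (prm (m + 1) x (j + 1)) *
        (PowerSeries.X : PowerSeries A) ^ p ^ (j + 1)) := by
    rw [hlist, List.map_map]; rfl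
  have hcX : ∀ (c : A) (j : ℕ), PowerSeries.constantCoeff
      (PowerSeries.C c * (PowerSeries.X : PowerSeries A) ^ p ^ j) = 0 := by
    intro c j
    rw [map_mul, map_pow, PowerSeries.constantCoeff_X, zero_pow (pow_ne_zero _ hp), mul_zero]
  have hdiff : ∀ (c c' : A) (j : ℕ),
      (PowerSeries.C c' * (PowerSeries.X : PowerSeries A) ^ j : PowerSeries A)
        - PowerSeries.C c * (PowerSeries.X : PowerSeries A) ^ j
      = PowerSeries.C (c' - c) * (PowerSeries.X : PowerSeries A) ^ j := by
    intro c c' j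
    rw [map_sub]; ring
  have hl : ∀ y ∈ l, PowerSeries.constantCoeff y.1 = 0 ∧ PowerSeries.constantCoeff y.2 = 0 ∧
      y.2.map s.res = 0 ∧ JV s.I (y.1 - y.2) := by
    intro y hy
    obtain ⟨j, hj, rfl⟩ := List.mem_map.1 hy
    have hj' := List.mem_range.1 hj
    refine ⟨hcX _ _, hcX _ _, ?_, ?_⟩
    · show (PowerSeries.map s.res) (PowerSeries.C (x (j + 1)) *
        (PowerSeries.X : PowerSeries A) ^ p ^ (j + 1)) = 0
      rw [map_mul, PowerSeries.map_C, hx (j + 1) (by omega) (by omega), map_zero, zero_mul]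
    · show JV s.I ((PowerSeries.C (x' (j + 1)) * (PowerSeries.X : PowerSeries A) ^ p ^ (j + 1)
        : PowerSeries A) - PowerSeries.C (x (j + 1)) * (PowerSeries.X : PowerSeries A) ^ p ^ (j + 1))
      rw [hdiff]
      exact (L_C_mul s (hxx (j + 1) (by omega) (by omega)) _).1
  have hXn : PowerSeries.constantCoeff ((PowerSeries.X : PowerSeries A) ^ p ^ (m + 1)) = 0 := by
    rw [map_pow, PowerSeries.constantCoeff_X, zero_pow (pow_ne_zero _ hp)]
  obtain ⟨j1, l1⟩ := fsum_diff s (F := F) hFF hres _ hXn l hl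
  rw [hl1, hl2] at j1 l1
  -- the `p R` part
  have hpk : s.res (p : A) = 0 := by rw [map_natCast, CharP.cast_eq_zero]
  have hcR : ∀ ev : MvPolynomial ℕ ℤ →+* A,
      PowerSeries.constantCoeff (PowerSeries.C (p : A) * R.map ev : PowerSeries A) = 0 := by
    intro ev
    have : PowerSeries.constantCoeff (R.map ev) = ev (PowerSeries.constantCoeff R) :=
      MvPowerSeries.constantCoeff_map ev R
    rw [map_mul, this, hR0, map_zero, mul_zero]
  have hmR : ∀ ev : MvPolynomial ℕ ℤ →+* A,
      (PowerSeries.C (p : A) * R.map ev : PowerSeries A).map s.res = 0 := by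
    intro ev
    rw [map_mul, PowerSeries.map_C, hpk, map_zero, zero_mul]
  have hRJ : JV s.I (R.map ev' - R.map ev : PowerSeries A) := by
    intro d
    show coeff d (MvPowerSeries.map ev' R - MvPowerSeries.map ev R) ∈ s.I
    rw [map_sub, coeff_map, coeff_map]
    exact eval_sub_mem s.I (prm_sub_mem s.I (m + 1) hxx) _
  have hsub : (PowerSeries.C (p : A) * R.map ev' : PowerSeries A) - PowerSeries.C (p : A) * R.map ev
      = PowerSeries.C (p : A) * (R.map ev' - R.map ev) := by ring
  have hJR : JV s.I ((PowerSeries.C (p : A) * R.map ev' : PowerSeries A)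
      - PowerSeries.C (p : A) * R.map ev) := by
    rw [hsub]; exact hRJ.mul_left _
  have hLR : s.L ((PowerSeries.C (p : A) * R.map ev' : PowerSeries A)
      - PowerSeries.C (p : A) * R.map ev) = 0 := by
    rw [hsub]
    refine (s.L_mul _ hRJ).trans ?_
    have : MvPowerSeries.map s.res (PowerSeries.C (p : A)) = 0 := by
      have h : PowerSeries.map s.res (PowerSeries.C (p : A)) = 0 := by
        rw [PowerSeries.map_C, hpk, map_zero]
      exact h
    rw [this, zero_mul]
  obtain ⟨j2, l2⟩ := L_pt_sub s (F := F) (hcR ev') (hcR ev) hJR (hmR ev)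
  rw [hLR] at l2
  -- the correction term
  have hcL : ∀ (F : FormalGroup A) (y : ℕ → A), constantCoeff (fsum F
      ((List.range (m + 1)).map (fun j => PowerSeries.C (prm (m + 1) y (j + 1)) *
        (PowerSeries.X : PowerSeries A) ^ p ^ (j + 1)))) = 0 := by
    intro F y
    refine haz_constantCoeff_fsum F (fun a ha => ?_)
    obtain ⟨j, _, rfl⟩ := List.mem_map.1 ha
    exact hcX _ _
  obtain ⟨j3, l3⟩ := L_defect_right s (F := F) (F' := F') hFF hres (hcL F' x') (hcR ev') (hmR ev')
  have e3 : (pt F (mulPS F' p) - pt F (mulPS F p) : F.Point Unit)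
      = (pt F (fsum F' ((List.range (m + 1)).map (fun j => PowerSeries.C (prm (m + 1) x' (j + 1)) *
          (PowerSeries.X : PowerSeries A) ^ p ^ (j + 1))))
        - pt F (fsum F ((List.range (m + 1)).map (fun j => PowerSeries.C (prm (m + 1) x (j + 1)) *
          (PowerSeries.X : PowerSeries A) ^ p ^ (j + 1)))))
        + (pt F (PowerSeries.C (p : A) * R.map ev' : PowerSeries A)
          - pt F (PowerSeries.C (p : A) * R.map ev : PowerSeries A))
        - defect F' F PowerSeries.X (fsum F' ((List.range (m + 1)).map (fun j =>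
            PowerSeries.C (prm (m + 1) x' (j + 1)) * (PowerSeries.X : PowerSeries A) ^ p ^ (j + 1))))
          (PowerSeries.C (p : A) * R.map ev' : PowerSeries A) := by
    rw [e', e]
    rw [pt_F' (F := F) (F' := F') (hcL F' x') (hcR ev'), pt_add (hcL F x) (hcR ev)]
    abel
  rw [e3, s.L_psub (JV.padd j1 j2) j3, s.L_padd j1 j2, l1, l2, l3, sub_zero, add_zero]
  -- the sum
  have e4 : (l.map fun x => s.L (x.1 - x.2)) = (List.range m).map (fun j =>
      (PowerSeries.C (s.lam (x' (j + 1) - x (j + 1))) *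
        (PowerSeries.X : PowerSeries k) ^ p ^ (j + 1) : PowerSeries k)) := by
    show List.map _ (List.map _ _) = _
    rw [List.map_map]
    refine List.map_congr_left (fun j hj => ?_)
    have hj' := List.mem_range.1 hj
    show s.L ((PowerSeries.C (x' (j + 1)) * (PowerSeries.X : PowerSeries A) ^ p ^ (j + 1)
        : PowerSeries A) - PowerSeries.C (x (j + 1)) * (PowerSeries.X : PowerSeries A) ^ p ^ (j + 1))
        = _
    rw [hdiff]
    exact (L_C_mul s (hxx (j + 1) (by omega) (by omega)) _).2
  have e5 : ∀ g : ℕ → PowerSeries k, ((List.range m).map g).sum = ∑ j ∈ Finset.range m, g j := by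
    intro g
    generalize m = m'
    induction m' with
    | zero => rfl
    | succ i ih =>
      rw [List.range_succ, List.map_append, List.sum_append, ih, Finset.sum_range_succ]
      simp
  rw [e4, Finset.sum_Ico_eq_sum_range, Nat.add_sub_cancel]
  refine (e5 _).trans (Finset.sum_congr rfl (fun j _ => ?_))
  rw [Nat.add_comm 1 j]

end haz

end Chai
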