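import Vale.Agent.Chai.LTnorm
import Vale.Agent.Chai.LTfilt

/-!
# P217 / LTstep: one step of the approximation

OWNER: helper9
-/

namespace Chai

open MvPowerSeries Finsupp

variable (p : ℕ) [Fact p.Prime] (n : ℕ)

/-- graded coefficients of `E_0` as an `Sx` -/
noncomputable def sE {i : ℕ} (hi : 1 ≤ i) (d : Fin (n - 1) →₀ ℕ) (hd : d.degree ≤ i) :
    Sx (E0 p n) (GaloisField p n) where
  res := resE p n
  I := IE p n i
  lam := lam p n i d
  res_I a ha := by
    have h := IE_anti p n hi ha
    rw [IE_one] at h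
    exact h
  add a ha b hb := lam_add ha hb
  mul a b hb := lam_mul hd hb

variable {p n}

theorem JV_succ {i : ℕ} {σ : Type*} {f : MvPowerSeries σ (E0 p n)} (hf : JV (IE p n i) f)
    (h : ∀ d : Fin (n - 1) →₀ ℕ, d.degree ≤ i → ∀ e, lam p n i d (coeff e f) = 0) :
    JV (IE p n (i + 1)) f := fun e => mem_IE_succ.2 ⟨hf e, fun d hd => h d hd e⟩

/-- one step -/
theorem step (hn : 1 ≤ n) (G : FormalGroup (E0 p n)) [G.IsComm] {i : ℕ} (hi : 1 ≤ i)
    (x : ℕ → E0 p n) (h : PowerSeries (E0 p n)) (hx : ∀ j, x j ∈ IE p n 1)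
    (h0 : PowerSeries.constantCoeff h = 0) (h1 : resE p n (PowerSeries.coeff 1 h) = 1)
    (hD : JV (IE p n i) (defU (hazF p (prm n x)) G h).val) :
    ∃ (x' : ℕ → E0 p n) (h' : PowerSeries (E0 p n)),
      (∀ j, x' j - x j ∈ IE p n i) ∧ PowerSeries.constantCoeff h' = 0 ∧
      JV (IE p n i) (h' - h) ∧ JV (IE p n (i + 1)) (defU (hazF p (prm n x')) G h').val := by
  classical
  have hres : Function.Surjective (resE p n) := resE_surjective p n
  set F := hazF p (prm n x) with hF
  set Γ := F.map (resE p n) with hΓ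
  have hres0 : ∀ j, resE p n (x j) = 0 := by
    intro j
    have := hx j
    rw [IE_one] at this
    exact this
  have hΓ' : Γ = hazF p (prm n (0 : ℕ → GaloisField p n)) := by
    rw [hΓ, hF, hazF_map]
    congr 1
    funext j
    unfold prm
    split_ifs
    · rw [hres0]; rfl
    · rw [map_one]
    · rw [map_zero]
  have hΓp : mulPS Γ p = (PowerSeries.X : PowerSeries (GaloisField p n)) ^ p ^ n := by
    rw [hΓ']
    exact mulPS_honda p n hn
  -- cocycles of the defect
  let τ : (Fin (n - 1) →₀ ℕ) → MvPowerSeries (Fin 2) (GaloisField p n) := fun d e =>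
    lam p n i d (coeff e (defU F G h).val)
  have hτ : ∀ d, d.degree ≤ i → Coc Γ (τ d) := fun d hd =>
    coc_defect (sE p n hi d hd) h0 hD hres
  -- new parameters
  have hmk : ∀ j, ∃ y ∈ IE p n i, ∀ d : Fin (n - 1) →₀ ℕ, d.degree ≤ i →
      lam p n i d y = PowerSeries.coeff (p ^ j) (cocN Γ (τ d) p) := fun j =>
    exists_mkI i (fun d => PowerSeries.coeff (p ^ j) (cocN Γ (τ d) p))
  choose y hyI hy using hmk
  set x' : ℕ → E0 p n := fun j => x j + y j with hx'
  have hxx : ∀ j, x' j - x j = y j := fun j => by rw [hx']; ring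
  set F' := hazF p (prm n x') with hF'
  have hFF : JV (IE p n i) (F'.toPowerSeries - F.toPowerSeries) :=
    hazF_sub_JV p _ (prm_sub_mem _ n (fun j _ _ => by rw [hxx]; exact hyI j))
  -- the corrected cocycle
  let τ' : (Fin (n - 1) →₀ ℕ) → MvPowerSeries (Fin 2) (GaloisField p n) := fun d e =>
    lam p n i d (coeff e (tau F F').val)
  have hτ' : ∀ d, d.degree ≤ i → Coc Γ (τ' d) := fun d hd =>
    coc_tau (sE p n hi d hd) hFF hres
  have hN' : ∀ d, d.degree ≤ i → cocN Γ (τ' d) p = ∑ j ∈ Finset.Ico 1 n,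
      PowerSeries.C (lam p n i d (x' j - x j)) *
        (PowerSeries.X : PowerSeries (GaloisField p n)) ^ p ^ j := fun d hd =>
    cocN_haz p (sE p n hi d hd) hres hn (fun j _ _ => hres0 j)
      (fun j _ _ => by rw [hxx]; exact hyI j)
  have hexact : ∀ d : Fin (n - 1) →₀ ℕ, ∃ θ : PowerSeries (GaloisField p n),
      PowerSeries.constantCoeff θ = 0 ∧ (d.degree ≤ i →
        τ d - τ' d = PowerSeries.subst Γ.toPowerSeries θ
          - PowerSeries.subst (X 0 : MvPowerSeries (Fin 2) (GaloisField p n)) θ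
          - PowerSeries.subst (X 1 : MvPowerSeries (Fin 2) (GaloisField p n)) θ) := by
    intro d
    by_cases hd : d.degree ≤ i
    · obtain ⟨θ, hθ0, hθ⟩ := coc_exact p n hn Γ hΓp (τ d + -τ' d) ((hτ d hd).add (hτ' d hd).neg)
        (by
          intro j hj1 hjn
          rw [cocN_add, cocN_neg, hN' d hd, map_add, map_neg, map_sum, Finset.sum_eq_single j]
          · rw [PowerSeries.coeff_C_mul, PowerSeries.coeff_X_pow, if_pos rfl, mul_one, hxx,
              hy j d hd, add_neg_cancel]
          · intro l _ hlj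
            rw [PowerSeries.coeff_C_mul, PowerSeries.coeff_X_pow, if_neg, mul_zero]
            intro h
            exact hlj (Nat.pow_right_injective (Fact.out : p.Prime).two_le h).symm
          · intro hj
            exact absurd (Finset.mem_Ico.2 ⟨hj1, hjn⟩) hj)
      refine ⟨θ, hθ0, fun _ => ?_⟩
      have h2 := hθ (X 0 : MvPowerSeries (Fin 2) (GaloisField p n)) (X 1) (constantCoeff_X 0)
        (constantCoeff_X 1)
      have hXX : (![(X 0 : MvPowerSeries (Fin 2) (GaloisField p n)), X 1] :
          Fin 2 → MvPowerSeries (Fin 2) (GaloisField p n)) = X := by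
        funext i; fin_cases i <;> rfl
      rw [hXX, subst_self] at h2
      rw [sub_eq_add_neg]
      exact h2
    · exact ⟨0, map_zero _, fun h => absurd h hd⟩
  choose θ hθ0 hθ using hexact
  -- the new series
  have hmkS : ∀ l : ℕ, ∃ y ∈ IE p n i, ∀ d : Fin (n - 1) →₀ ℕ, d.degree ≤ i →
      lam p n i d y = PowerSeries.coeff l (θ d) := fun l =>
    exists_mkI i (fun d => PowerSeries.coeff l (θ d))
  choose z hzI hz using hmkS
  let S : PowerSeries (E0 p n) := PowerSeries.mk fun l => if l = 0 then 0 else z l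
  have hS0 : PowerSeries.constantCoeff S = 0 := by
    rw [← PowerSeries.coeff_zero_eq_constantCoeff_apply, PowerSeries.coeff_mk, if_pos rfl]
  have hcS : ∀ e : Unit →₀ ℕ, coeff e S = if e () = 0 then 0 else z (e ()) := by
    intro e
    have he : e = single () (e ()) := by ext; simp
    conv_lhs => rw [he]
    exact PowerSeries.coeff_mk _ _
  have hSJ : JV (IE p n i) S := by
    intro e
    rw [hcS]
    split_ifs
    · exact (IE p n i).zero_mem
    · exact hzI _
  have hLS : ∀ d (hd : d.degree ≤ i), (sE p n hi d hd).L S = θ d := by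
    intro d hd
    refine MvPowerSeries.ext (fun e => ?_)
    rw [Sx.coeff_L, hcS]
    have he : e = single () (e ()) := by ext; simp
    have h3 : coeff e (θ d) = PowerSeries.coeff (e ()) (θ d) := by
      conv_lhs => rw [he]
      rfl
    rw [h3]
    split_ifs with h4
    · rw [Sx.lam_zero, h4, PowerSeries.coeff_zero_eq_constantCoeff_apply, hθ0]
    · exact hz _ d hd
  refine ⟨x', G.toPowerSeries.subst ![h, S], fun j => by rw [hxx]; exact hyI j,
    constantCoeff_pair h0 hS0 G.zero_constantCoeff, ?_, ?_⟩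
  · have h5 : JV (IE p n i) (pt G (G.toPowerSeries.subst ![h, S]) - pt G h : G.Point Unit).val := by
      have : (pt G (G.toPowerSeries.subst ![h, S]) - pt G h : G.Point Unit) = pt G S := by
        rw [pt_add h0 hS0]; abel
      rw [this, pt_val hS0]
      exact hSJ
    rw [JV.psub_iff, pt_val (constantCoeff_pair h0 hS0 G.zero_constantCoeff), pt_val h0] at h5
    exact h5
  · have hd0 : (0 : Fin (n - 1) →₀ ℕ).degree ≤ i := by simp
    have h6 := defU_change (sE p n hi 0 hd0) (F := F) (F' := F') (G := G) h0 h1 hD hFF hres hS0 hSJ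
    refine JV_succ h6.1 (fun d hd e => ?_)
    have h7 := (defU_change (sE p n hi d hd) (F := F) (F' := F') (G := G) h0 h1 hD hFF hres hS0
      hSJ).2
    rw [hLS d hd] at h7
    have h8 : (sE p n hi d hd).L (defU F' G (G.toPowerSeries.subst ![h, S])).val = 0 := by
      rw [h7]
      have h9 : (sE p n hi d hd).L (defU F G h).val - (sE p n hi d hd).L (tau F F').val
          = τ d - τ' d := rfl
      rw [h9, hθ d hd]
      show _ + (_ + _ - PowerSeries.subst Γ.toPowerSeries (θ d)) = 0
      ring
    have h10 := congrArg (coeff e) h8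
    rw [map_zero] at h10
    exact h10

end Chai
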