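import Vale.Agent.Chai.Haz
import Vale.Agent.Chai.Fel

/-!
# P217 / QLAux: auxiliary lemmas for QuasiLog (helper29)
-/

namespace Chai

namespace QL

open MvPowerSeries Finset

/-! ### the coefficients of the Honda logarithm -/

section coeffs

variable (p : ℕ) [hp : Fact p.Prime] {K : Type*} [CommRing K] [Algebra ℚ K]

/-- the inverse of `p` -/
noncomputable def pinv (K : Type*) [CommRing K] [Algebra ℚ K] : K := algebraMap ℚ K (1 / (p : ℚ))

theorem p_mul_pinv : (p : K) * pinv p K = 1 := by
  have h : (p : K) = algebraMap ℚ K (p : ℚ) := by simp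
  have hp0 : (p : ℚ) ≠ 0 := by exact_mod_cast hp.out.ne_zero
  rw [h, pinv, ← map_mul, mul_one_div_cancel hp0, map_one]

theorem pow_mul_pinv (i : ℕ) : (p : K) ^ i * pinv p K ^ i = 1 := by
  rw [← mul_pow, p_mul_pinv, one_pow]

/-- coefficients of the Honda logarithm -/
noncomputable def hm (n k : ℕ) : K := if n ∣ k then pinv p K ^ (k / n) else 0

theorem eval_hazM {n : ℕ} (hn : 1 ≤ n) (k : ℕ) :
    MvPolynomial.eval₂Hom (algebraMap ℚ K) (prm n (0 : ℕ → K)) (hazM p k) = hm p n k := by
  induction k using Nat.strong_induction_on with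
  | _ k ih =>
    cases k with
    | zero => rw [hazM, map_one, hm, if_pos (dvd_zero _), Nat.zero_div, pow_zero]
    | succ k =>
      rw [hazM, map_mul, map_sum]
      have h1 : MvPolynomial.eval₂Hom (algebraMap ℚ K) (prm n (0 : ℕ → K))
          (MvPolynomial.C (1 / (p : ℚ))) = pinv p K := by
        simp [pinv]
      rw [h1]
      have h2 : ∀ j : Fin (k + 1), MvPolynomial.eval₂Hom (algebraMap ℚ K) (prm n (0 : ℕ → K))
          (hazM p j * MvPolynomial.X (k + 1 - j) ^ (p ^ (j : ℕ)))
          = (fun j : ℕ => if k + 1 - j = n then (hm p n j : K) else 0) j := by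
        intro j
        rw [map_mul, ih j (by omega), map_pow, MvPolynomial.eval₂Hom_X']
        have h3 : prm n (0 : ℕ → K) (k + 1 - j) = if k + 1 - (j : ℕ) = n then 1 else 0 := by
          unfold prm
          by_cases h4 : k + 1 - (j : ℕ) = n
          · rw [if_neg (by omega), if_pos h4]
          · rw [if_neg h4]
            simp
        rw [h3]
        by_cases h4 : k + 1 - (j : ℕ) = n
        · simp [h4]
        · have : p ^ (j : ℕ) ≠ 0 := pow_ne_zero _ hp.out.ne_zero
          rw [if_neg h4]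
          simp only [if_neg h4]
          rw [zero_pow this, mul_zero]
      rw [Finset.sum_congr rfl fun j _ => h2 j, Fin.sum_univ_eq_sum_range
        (fun j : ℕ => if k + 1 - j = n then (hm p n j : K) else 0)]
      by_cases hk : n ≤ k + 1
      · rw [Finset.sum_eq_single (k + 1 - n)]
        · rw [if_pos (by omega)]
          unfold hm
          by_cases hd : n ∣ k + 1
          · have hd' : n ∣ k + 1 - n := Nat.dvd_sub hd dvd_rfl
            rw [if_pos hd, if_pos hd', ← pow_succ']
            congr 1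
            have : (k + 1) / n = (k + 1 - n) / n + 1 := Nat.div_eq_sub_div hn hk
            omega
          · have hd' : ¬ n ∣ k + 1 - n := fun h => hd (by
              have := Nat.dvd_add h (dvd_refl n)
              rwa [Nat.sub_add_cancel hk] at this)
            rw [if_neg hd, if_neg hd', mul_zero]
        · intro j hj hne
          rw [Finset.mem_range] at hj
          rw [if_neg (by omega)]
        · intro h
          exact absurd (Finset.mem_range.2 (by omega)) h
      · rw [Finset.sum_eq_zero, mul_zero]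
        · unfold hm
          rw [if_neg fun h => hk (Nat.le_of_dvd (Nat.succ_pos k) h)]
        · intro j hj
          rw [Finset.mem_range] at hj
          rw [if_neg (by omega)]

theorem hlog_eq {n : ℕ} (hn : 1 ≤ n) :
    hlog p (prm n (0 : ℕ → K)) = Fel.Lp p (fun k => (hm p n k : K)) := by
  unfold hlog
  change (Fel.Lp p (hazM p)).map _ = _
  rw [Fel.map_Lp]
  congr 1
  funext k
  exact eval_hazM p hn k

/-- `L_a = log_n (X^{p^a})` -/
noncomputable def LL (K : Type*) [CommRing K] [Algebra ℚ K] (n a : ℕ) : PowerSeries K :=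
  (hlog p (prm n (0 : ℕ → K))).subst ((PowerSeries.X : PowerSeries K) ^ p ^ a)

theorem coeff_LL_pow {n : ℕ} (hn : 1 ≤ n) (a i : ℕ) :
    PowerSeries.coeff (p ^ (a + n * i)) (LL p K n a) = pinv p K ^ i := by
  have hpa : p ^ a ≠ 0 := pow_ne_zero _ hp.out.ne_zero
  unfold LL
  rw [PowerSeries.coeff_subst_X_pow hpa, if_pos (pow_dvd_pow p (by omega)), pow_add,
    Nat.mul_div_cancel_left _ (Nat.pos_of_ne_zero hpa), hlog_eq p hn, Fel.coeff_Lp_pow, hm,
    if_pos (dvd_mul_right _ _), Nat.mul_div_cancel_left _ hn]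
  rfl

theorem coeff_LL_of_ne {n : ℕ} (hn : 1 ≤ n) (a : ℕ) {m : ℕ} (h : ∀ i, m ≠ p ^ (a + n * i)) :
    PowerSeries.coeff m (LL p K n a) = 0 := by
  have hpa : p ^ a ≠ 0 := pow_ne_zero _ hp.out.ne_zero
  unfold LL
  rw [PowerSeries.coeff_subst_X_pow hpa]
  split_ifs with hd
  · obtain ⟨t, rfl⟩ := hd
    rw [Nat.mul_div_cancel_left _ (Nat.pos_of_ne_zero hpa), hlog_eq p hn]
    by_cases ht : ∃ k, t = p ^ k
    · obtain ⟨k, rfl⟩ := ht
      rw [Fel.coeff_Lp_pow, hm, if_neg, map_zero]
      rintro ⟨i, rfl⟩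
      exact h i (pow_add p a (n * i)).symm
    · push Not at ht
      rw [Fel.coeff_Lp_of_ne _ ht, map_zero]
  · rfl

theorem coeff_LL_lt {n : ℕ} (hn : 1 ≤ n) (a : ℕ) {m : ℕ} (h : m < p ^ a) :
    PowerSeries.coeff m (LL p K n a) = 0 := by
  refine coeff_LL_of_ne p hn a fun i hi => ?_
  have : p ^ a ≤ p ^ (a + n * i) := Nat.pow_le_pow_right hp.out.pos (by omega)
  omega

theorem coeff_LL_self {n : ℕ} (hn : 1 ≤ n) (a : ℕ) :
    PowerSeries.coeff (p ^ a) (LL p K n a) = 1 := by
  have := coeff_LL_pow (K := K) p hn a 0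
  simpa using this

end coeffs

/-! ### integrality -/

section integral

variable (p : ℕ) [hp : Fact p.Prime] {B K : Type*} [CommRing B] [CommRing K] [Algebra B K]

/-- integral elements -/
def II (B : Type*) {K : Type*} [CommRing B] [CommRing K] [Algebra B K] : Subring K :=
  (algebraMap B K).range

theorem mem_II {x : K} : x ∈ II B ↔ ∃ b : B, algebraMap B K b = x := Iff.rfl

theorem algebraMap_mem (b : B) : algebraMap B K b ∈ II (K := K) B := ⟨b, rfl⟩

omit hp in
theorem p_mem : (p : K) ∈ II (K := K) B := ⟨p, by simp⟩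

/-- integral series -/
def Int' (B : Type*) {K τ : Type*} [CommRing B] [CommRing K] [Algebra B K]
    (D : MvPowerSeries τ K) : Prop := ∀ e, coeff e D ∈ II B

theorem int_iff {τ : Type*} {D : MvPowerSeries τ K} :
    Int' B D ↔ ∃ D' : MvPowerSeries τ B, D = D'.map (algebraMap B K) := by
  constructor
  · intro h
    choose c hc using h
    let D' : MvPowerSeries τ B := fun e => c e
    refine ⟨D', ?_⟩
    ext e
    rw [coeff_map]
    exact (hc e).symm
  · rintro ⟨D', rfl⟩ e
    rw [coeff_map]
    exact algebraMap_mem _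

theorem Int'.sub {τ : Type*} {D D' : MvPowerSeries τ K} (h : Int' B D) (h' : Int' B D') :
    Int' B (D - D') := fun e => by
  rw [map_sub]
  exact Subring.sub_mem _ (h e) (h' e)

theorem Int'.add {τ : Type*} {D D' : MvPowerSeries τ K} (h : Int' B D) (h' : Int' B D') :
    Int' B (D + D') := fun e => by
  rw [map_add]
  exact Subring.add_mem _ (h e) (h' e)

variable (N : ℕ)

omit hp in
/-- integers prime to `p` are units of a `p`-adically complete ring -/
theorem isUnit_of_coprime [IsAdicComplete (Ideal.span {(p : B)}) B] {N : ℕ} (h : Nat.Coprime N p) :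
    IsUnit (N : B) := by
  have hj : Ideal.span {(p : B)} ≤ Ideal.jacobson (⊥ : Ideal B) := IsAdicComplete.le_jacobson_bot _
  have hg := Nat.gcd_eq_gcd_ab N p
  rw [h] at hg
  have h1 : (N : B) * ((Nat.gcdA N p : ℤ) : B) = (p : B) * (-((Nat.gcdB N p : ℤ) : B)) + 1 := by
    have := congrArg (Int.cast : ℤ → B) hg
    push_cast at this
    linear_combination -this
  have h2 : IsUnit ((p : B) * (-((Nat.gcdB N p : ℤ) : B)) + 1) :=
    Ideal.mem_jacobson_bot.1 (hj (Ideal.mem_span_singleton_self _)) _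
  rw [← h1] at h2
  exact isUnit_of_mul_isUnit_left h2

omit hp in
theorem mem_of_coprime_mul [IsAdicComplete (Ideal.span {(p : B)}) B] {N : ℕ}
    (h : Nat.Coprime N p) {x : K} (hx : (N : K) * x ∈ II B) : x ∈ II B := by
  obtain ⟨u, hu⟩ := isUnit_of_coprime (B := B) p h
  obtain ⟨b, hb⟩ := hx
  refine ⟨(u⁻¹ : Bˣ) * b, ?_⟩
  rw [map_mul, hb, ← mul_assoc]
  have : (N : K) = algebraMap B K (u : B) := by rw [hu]; simp
  rw [this, ← map_mul, Units.inv_mul, map_one, one_mul]

end integral

/-! ### number theory -/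

theorem exists_choose_not_dvd {p : ℕ} [hp : Fact p.Prime] {m : ℕ} (h1 : 1 ≤ m)
    (hm : ∀ k, m ≠ p ^ k) : ∃ i, 0 < i ∧ i < m ∧ ¬ p ∣ m.choose i := by
  induction m using Nat.strong_induction_on with
  | _ m ih =>
    by_cases hd : p ∣ m
    · obtain ⟨t, rfl⟩ := hd
      have ht1 : 1 ≤ t := Nat.pos_of_ne_zero (by rintro rfl; omega)
      have htm : t < p * t := by nlinarith [hp.out.two_le]
      obtain ⟨i, hi0, hit, hi⟩ := ih t htm ht1 (fun k hk => hm (k + 1) (by rw [hk, pow_succ']))
      refine ⟨p * i, Nat.mul_pos hp.out.pos hi0, Nat.mul_lt_mul_of_pos_left hit hp.out.pos, ?_⟩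
      have h2 := Choose.choose_modEq_choose_mod_mul_choose_div_nat (n := p * t) (k := p * i) (p := p)
      rw [Nat.mul_mod_right, Nat.mul_mod_right, Nat.mul_div_cancel_left _ hp.out.pos,
        Nat.mul_div_cancel_left _ hp.out.pos, Nat.choose_self, one_mul] at h2
      intro h3
      exact hi ((Nat.ModEq.dvd_iff h2 dvd_rfl).1 h3)
    · refine ⟨1, one_pos, ?_, ?_⟩
      · have : m ≠ 1 := fun h => hm 0 (by rw [h, pow_zero])
        omega
      · rwa [Nat.choose_one_right]

theorem choose_pow {p : ℕ} [hp : Fact p.Prime] {a : ℕ} (ha : 1 ≤ a) :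
    ∃ N, Nat.Coprime N p ∧ (p ^ a).choose (p ^ (a - 1)) = N * p := by
  have h1 := Nat.factorization_choose_prime_pow (p := p) (n := a) (k := p ^ (a - 1)) hp.out
    (Nat.pow_le_pow_right hp.out.pos (by omega)) (pow_ne_zero _ hp.out.ne_zero)
  rw [hp.out.factorization_pow, Finsupp.single_eq_same] at h1
  set c := (p ^ a).choose (p ^ (a - 1)) with hc
  have hc0 : c ≠ 0 := (Nat.choose_pos (Nat.pow_le_pow_right hp.out.pos (by omega))).ne'
  have h2 : c.factorization p = 1 := by omega
  refine ⟨c / p, ?_, ?_⟩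
  · have h3 : ¬ p ∣ c / p ^ c.factorization p := Nat.not_dvd_ordCompl hp.out hc0
    rw [h2, pow_one] at h3
    exact (Nat.coprime_comm.1 ((Nat.Prime.coprime_iff_not_dvd hp.out).2 h3))
  · have h3 : p ∣ c := by
      have := Nat.ordProj_dvd c p
      rwa [h2, pow_one] at this
    rw [Nat.div_mul_cancel h3]

end QL

end Chai
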