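import Vale.Agent.Chai.Haz
import Vale.Agent.Chai.QLAux

/-!
# P217 / QuasiLog: quasi-logarithms of the Honda formal group (claim Q' of Theta.lean)

OWNER: helper29

`B` `p`-torsion free, `p`-adically complete, `K ⊇ B` a `ℚ`-algebra.  `log_n = hlog p (prm n 0)`
`= ∑ X^{p^{ni}}/p^i`, Honda group `hazF p (prm n 0)`.  If `g ∈ K[[X]]`, `g(0) = 0` and
`g(Γ(X,Y)) - g(X) - g(Y)` has coefficients in `B` then `g = ∑_{k<n} c_k log_n(X^{p^k}) + g_0`,
`g_0 ∈ B[[X]]`.

PROOF.  Put `L_a = log_n(X^{p^a})`.  `δL_a := L_a(Γ(X,Y)) - L_a(X) - L_a(Y) ∈ p B[[X,Y]]` for `a ≥ 1`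
(`Γ(X,Y)^{p^a} ≡ Γ(X^{p^a},Y^{p^a}) mod p` and `u ≡ v mod p ⇒ log_n u ≡ log_n v mod p`), `δL_0 = 0`.
Inductively construct `γ_a ∈ K` (`p γ_a ∈ B` for `a ≥ 1`) such that all coefficients of
`g - ∑_a γ_a L_a` of degree `< m` are in `B`: if `g^{(m)} := g - (finite combination) - (integral
polynomial)` has lowest degree `m`, the degree `m` part of `δ g^{(m)}` is `g_m((X+Y)^m - X^m - Y^m)`, so
`g_m C(m,i) ∈ B` for `0<i<m`.  `m` not a power of `p`: some `C(m,i)` is prime to `p` (and integers prime
to `p` are units of `B`), `g_m ∈ B`.  `m = p^a`, `a ≥ 1`: `p g_m ∈ B`, take `γ_a = g_m`; `m = 1`: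
`γ_0 = g_1` arbitrary in `K`.  Finally `L_{a+n} = p L_a - p X^{p^a}`, so
`γ L_{k+nj} = p^j γ L_k - γ ∑_{i<j} p^{j-i} X^{p^{k+ni}}`, and for `k < n`:
`∑_j γ_{k+nj} L_{k+nj} = (∑_j p^j γ_{k+nj}) L_k - (integral series)` (`p γ ∈ B`, completeness).
-/

namespace Chai

open MvPowerSeries

namespace QL

open Finset

section

variable (p : ℕ) [hp : Fact p.Prime] {B K : Type*} [CommRing B] [CommRing K] [Algebra B K]

/-- the Honda group -/
noncomputable def GG (R : Type*) [CommRing R] (n : ℕ) : MvPowerSeries (Fin 2) R :=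
  (hazF p (prm n (0 : ℕ → R))).toPowerSeries

theorem GG_map {R S : Type*} [CommRing R] [CommRing S] (φ : R →+* S) (n : ℕ) :
    (GG p R n).map φ = GG p S n := by
  have h := hazF_map p φ (prm n (0 : ℕ → R))
  have h2 : (fun j => φ (prm n (0 : ℕ → R) j)) = prm n (0 : ℕ → S) := by
    funext j
    unfold prm
    split_ifs <;> simp
  rw [h2] at h
  unfold GG
  rw [← h]
  rfl

theorem constantCoeff_GG (R : Type*) [CommRing R] (n : ℕ) : constantCoeff (GG p R n) = 0 :=
  (hazF p (prm n (0 : ℕ → R))).zero_constantCoeff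

theorem hasSubst_GG (R : Type*) [CommRing R] (n : ℕ) : PowerSeries.HasSubst (GG p R n) :=
  PowerSeries.HasSubst.of_constantCoeff_zero (constantCoeff_GG p R n)

/-- `δ h = h(Γ(X,Y)) - h(X) - h(Y)` -/
noncomputable def dd {R : Type*} [CommRing R] (n : ℕ) (h : PowerSeries R) :
    MvPowerSeries (Fin 2) R :=
  h.subst (GG p R n) - h.subst (X 0 : MvPowerSeries (Fin 2) R) -
    h.subst (X 1 : MvPowerSeries (Fin 2) R)

theorem dd_sub {R : Type*} [CommRing R] (n : ℕ) (h h' : PowerSeries R) :
    dd p n (h - h') = dd p n h - dd p n h' := by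
  unfold dd
  rw [PowerSeries.subst_sub (hasSubst_GG p R n), PowerSeries.subst_sub (PowerSeries.HasSubst.X _),
    PowerSeries.subst_sub (PowerSeries.HasSubst.X _)]
  ring

theorem dd_smul {R : Type*} [CommRing R] (n : ℕ) (c : R) (h : PowerSeries R) :
    dd p n (c • h) = c • dd p n h := by
  unfold dd
  rw [PowerSeries.subst_smul (hasSubst_GG p R n), PowerSeries.subst_smul (PowerSeries.HasSubst.X _),
    PowerSeries.subst_smul (PowerSeries.HasSubst.X _), smul_sub, smul_sub]

theorem dd_map (n : ℕ) (h : PowerSeries B) :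
    dd p n (h.map (algebraMap B K)) = (dd p n h).map (algebraMap B K) := by
  unfold dd
  rw [map_sub, map_sub, PowerSeries.map_subst (hasSubst_GG p B n),
    PowerSeries.map_subst (PowerSeries.HasSubst.X _),
    PowerSeries.map_subst (PowerSeries.HasSubst.X _), GG_map, map_X, map_X]

theorem int_dd_map (n : ℕ) (h : PowerSeries B) : Int' B (dd p n (h.map (algebraMap B K))) :=
  int_iff.2 ⟨_, dd_map p n h⟩

/-- lowest degree part of powers of the group law -/
theorem coeff_GG_pow (R : Type*) [CommRing R] (n m : ℕ) (e : Fin 2 →₀ ℕ) (he : e.degree ≤ m) :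
    coeff e (GG p R n ^ m) = coeff e ((X 0 + X 1 : MvPowerSeries (Fin 2) R) ^ m) := by
  classical
  have hS : constantCoeff (X 0 + X 1 : MvPowerSeries (Fin 2) R) = 0 := by simp
  induction m generalizing e with
  | zero => rw [pow_zero, pow_zero]
  | succ m ih =>
    rw [pow_succ, pow_succ, coeff_mul, coeff_mul]
    refine Finset.sum_congr rfl fun x hx => ?_
    rw [Finset.HasAntidiagonal.mem_antidiagonal] at hx
    have hdeg : x.1.degree + x.2.degree = e.degree := by rw [← hx, map_add]
    by_cases h1 : x.1.degree < m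
    · rw [Fel.coeff_pow_eq_zero (constantCoeff_GG p R n) h1, Fel.coeff_pow_eq_zero hS h1,
        zero_mul, zero_mul]
    by_cases h2 : x.2 = 0
    · rw [h2, coeff_zero_eq_constantCoeff_apply, coeff_zero_eq_constantCoeff_apply,
        constantCoeff_GG, hS, mul_zero, mul_zero]
    have h2' : x.2.degree ≠ 0 := fun h => h2 ((Finsupp.degree_eq_zero_iff _).1 h)
    have h3 : x.1.degree ≤ m := by omega
    have h4 : x.2.degree = 1 := by omega
    rw [ih x.1 h3]
    congr 1
    have h5 : x.2 = Finsupp.single 0 1 ∨ x.2 = Finsupp.single 1 1 := by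
      rw [Finsupp.degree_eq_sum, Fin.sum_univ_two] at h4
      have h6 : (x.2 0 = 1 ∧ x.2 1 = 0) ∨ (x.2 0 = 0 ∧ x.2 1 = 1) := by omega
      rcases h6 with ⟨h, h'⟩ | ⟨h, h'⟩
      · left
        ext i
        fin_cases i
        · simpa using h
        · simpa using h'
      · right
        ext i
        fin_cases i
        · simpa using h
        · simpa using h'
    have hne : (Finsupp.single 1 1 : Fin 2 →₀ ℕ) ≠ Finsupp.single 0 1 := by
      intro h
      have := DFunLike.congr_fun h 0
      simp at this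
    rcases h5 with h | h
    · rw [h, map_add, coeff_X, coeff_X, if_pos rfl, if_neg hne.symm, add_zero]
      exact (hazF p (prm n (0 : ℕ → R))).lin_coeff_X
    · rw [h, map_add, coeff_X, coeff_X, if_neg hne, if_pos rfl, zero_add]
      exact (hazF p (prm n (0 : ℕ → R))).lin_coeff_Y

/-- the pair of exponents `(i, j)` -/
noncomputable def ex (i j : ℕ) : Fin 2 →₀ ℕ := Finsupp.single 0 i + Finsupp.single 1 j

theorem ex_zero (i j : ℕ) : ex i j 0 = i := by simp [ex]

theorem ex_one (i j : ℕ) : ex i j 1 = j := by simp [ex]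

theorem degree_ex (i j : ℕ) : (ex i j).degree = i + j := by
  rw [Finsupp.degree_eq_sum, Fin.sum_univ_two, ex_zero, ex_one]

theorem coeff_dd {R : Type*} [CommRing R] (n : ℕ) (h : PowerSeries R) {i j : ℕ} (hi : 0 < i)
    (hj : 0 < j) (hlow : ∀ d < i + j, PowerSeries.coeff d h = 0) :
    coeff (ex i j) (dd p n h) = ((i + j).choose i : R) * PowerSeries.coeff (i + j) h := by
  classical
  unfold dd
  rw [map_sub, map_sub, PowerSeries.coeff_subst_single, PowerSeries.coeff_subst_single]
  have h0 : ex i j ≠ Finsupp.single 0 (ex i j 0) := by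
    intro h
    have := DFunLike.congr_fun h 1
    rw [ex_one] at this
    simp at this
    omega
  have h1 : ex i j ≠ Finsupp.single 1 (ex i j 1) := by
    intro h
    have := DFunLike.congr_fun h 0
    rw [ex_zero] at this
    simp at this
    omega
  rw [if_neg h0, if_neg h1, sub_zero, sub_zero, PowerSeries.coeff_subst (hasSubst_GG p R n),
    finsum_eq_single _ (i + j)]
  · rw [coeff_GG_pow p R n (i + j) (ex i j) (degree_ex i j).le]
    have h2 := PowerSeries.coeff_subst_X_zero_add_X_one (R := R) (PowerSeries.X ^ (i + j)) (ex i j)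
    rw [ex_zero, ex_one, PowerSeries.coeff_X_pow_self, mul_one, PowerSeries.subst_pow,
      PowerSeries.subst_X] at h2
    · rw [h2, smul_eq_mul, mul_comm]
    · exact PowerSeries.HasSubst.of_constantCoeff_zero (by simp)
    · exact PowerSeries.HasSubst.of_constantCoeff_zero (by simp)
  · intro d hd
    rcases lt_or_gt_of_ne hd with h | h
    · rw [hlow d h, zero_smul]
    · rw [Fel.coeff_pow_eq_zero (constantCoeff_GG p R n) (by rw [degree_ex]; exact h), smul_zero]

/-- Claim A. -/
theorem claimA (n : ℕ) {h : PowerSeries K} (hint : Int' B (dd p n h)) {m : ℕ}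
    (hlow : ∀ d < m, PowerSeries.coeff d h ∈ II B) {i : ℕ} (hi : 0 < i) (him : i < m) :
    (m.choose i : K) * PowerSeries.coeff m h ∈ II B := by
  classical
  have hlow' : ∀ d : ℕ, ∃ b : B, d < m → algebraMap B K b = PowerSeries.coeff d h := by
    intro d
    by_cases hd : d < m
    · obtain ⟨b, hb⟩ := hlow d hd
      exact ⟨b, fun _ => hb⟩
    · exact ⟨0, fun h => absurd h hd⟩
  choose b hb using hlow'
  set h0 : PowerSeries B := PowerSeries.mk fun d => if d < m then b d else 0 with hh0
  set h' := h - h0.map (algebraMap B K) with hh'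
  have c1 : ∀ d < m, PowerSeries.coeff d h' = 0 := by
    intro d hd
    rw [hh', map_sub, PowerSeries.coeff_map, hh0, PowerSeries.coeff_mk, if_pos hd, hb d hd, sub_self]
  have c2 : PowerSeries.coeff m h' = PowerSeries.coeff m h := by
    rw [hh', map_sub, PowerSeries.coeff_map, hh0, PowerSeries.coeff_mk, if_neg (lt_irrefl m),
      map_zero, sub_zero]
  have hint' : Int' B (dd p n h') := by
    rw [hh', dd_sub]
    exact hint.sub (int_dd_map p n h0)
  obtain ⟨j, rfl⟩ : ∃ j, m = i + j := ⟨m - i, by omega⟩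
  have h3 := coeff_dd p n h' hi (show 0 < j by omega) c1
  rw [c2] at h3
  rw [← h3]
  exact hint' _

theorem E_iter_X {R : Type*} [CommRing R] (i : Fin 2) (a : ℕ) :
    (Fel.E p (RingHom.id R))^[a] (X i : MvPowerSeries (Fin 2) R) = X i ^ p ^ a := by
  induction a with
  | zero => simp
  | succ a ih =>
    rw [Function.iterate_succ_apply', ih, map_pow, Fel.E_apply, map_X, expand_X, ← pow_mul,
      ← pow_succ']

theorem E_iter_add {R : Type*} [CommRing R] (a : ℕ) (x y : MvPowerSeries (Fin 2) R) :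
    (Fel.E p (RingHom.id R))^[a] (x + y) =
      (Fel.E p (RingHom.id R))^[a] x + (Fel.E p (RingHom.id R))^[a] y := by
  induction a with
  | zero => rfl
  | succ a ih => simp only [Function.iterate_succ_apply', ih, map_add]

/-- `E^a Γ ≡ Γ^{p^a}` -/
theorem GG_congr (R : Type*) [CommRing R] (n a : ℕ) :
    (p : MvPowerSeries (Fin 2) R) ∣
      (Fel.E p (RingHom.id R))^[a] (GG p R n) - GG p R n ^ p ^ a := by
  have h1 : (p : MvPowerSeries (Fin 2) ℤ) ∣
      (Fel.E p (RingHom.id ℤ))^[a] (GG p ℤ n) - GG p ℤ n ^ p ^ a := by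
    refine Fel.E_iter_congr (RingHom.id ℤ) (fun b => ?_) _ a
    rw [RingHom.id_apply]
    have h2 : (b : ZMod p) ^ p = b := ZMod.pow_card _
    refine (ZMod.intCast_zmod_eq_zero_iff_dvd _ _).1 ?_
    rw [Int.cast_sub, Int.cast_pow, h2, sub_self]
  obtain ⟨c, hc⟩ := h1
  refine ⟨c.map (Int.castRingHom R), ?_⟩
  have h3 := congrArg (MvPowerSeries.map (Int.castRingHom R)) hc
  rw [map_sub, Fel.map_E_iter (Int.castRingHom R) (RingHom.id ℤ) (RingHom.id R) (fun b => rfl),
    map_pow, GG_map, map_mul, map_natCast] at h3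
  exact h3

section withQ

variable [Algebra ℚ K]

theorem dd_LL_zero (n : ℕ) : dd p n (LL p K n 0) = 0 := by
  unfold LL dd
  rw [pow_zero, pow_one, PowerSeries.X_subst]
  have := hlog_hazF p (prm n (0 : ℕ → K))
  unfold GG
  rw [this]
  ring

theorem LL_subst (n a : ℕ) {τ : Type*} {u : MvPowerSeries τ K} (hu : constantCoeff u = 0) :
    (LL p K n a).subst u = (hlog p (prm n (0 : ℕ → K))).subst (u ^ p ^ a) := by
  have hpa : p ^ a ≠ 0 := pow_ne_zero _ hp.out.ne_zero
  have hu' : PowerSeries.HasSubst u := PowerSeries.HasSubst.of_constantCoeff_zero hu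
  unfold LL
  rw [PowerSeries.subst_comp_subst_apply (PowerSeries.HasSubst.X_pow hpa) hu',
    PowerSeries.subst_pow hu', PowerSeries.subst_X hu']

/-- `δ L_a ∈ p B[[X,Y]]` -/
theorem dd_LL {n : ℕ} (hn : 1 ≤ n) (a : ℕ) (e : Fin 2 →₀ ℕ) :
    ∃ b : B, coeff e (dd p n (LL p K n a)) = (p : K) * algebraMap B K b := by
  have hpa : p ^ a ≠ 0 := pow_ne_zero _ hp.out.ne_zero
  set u : MvPowerSeries (Fin 2) B := GG p B n ^ p ^ a with hu
  set v : MvPowerSeries (Fin 2) B := (Fel.E p (RingHom.id B))^[a] (GG p B n) with hv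
  have huc : constantCoeff u = 0 := by rw [hu, map_pow, constantCoeff_GG, zero_pow hpa]
  have hvc : constantCoeff v = 0 := Fel.constantCoeff_E_iter _ (constantCoeff_GG p B n) a
  have huv : (p : MvPowerSeries (Fin 2) B) ∣ u - v := by
    rw [← neg_sub, dvd_neg]
    exact GG_congr p B n a
  set m : ℕ → K := fun k => hm p n k with hm'
  have hlog' : hlog p (prm n (0 : ℕ → K)) = Fel.Lp p m := hlog_eq p hn
  have huK : u.map (algebraMap B K) = GG p K n ^ p ^ a := by rw [hu, map_pow, GG_map]
  have hvK : v.map (algebraMap B K) = (Fel.E p (RingHom.id K))^[a] (GG p K n) := by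
    rw [hv, Fel.map_E_iter (algebraMap B K) (RingHom.id B) (RingHom.id K) (fun b => rfl), GG_map]
  -- the value at `v`
  have h1 : (Fel.Lp p m).subst (v.map (algebraMap B K)) =
      (Fel.Lp p m).subst ((X 0 : MvPowerSeries (Fin 2) K) ^ p ^ a) +
      (Fel.Lp p m).subst ((X 1 : MvPowerSeries (Fin 2) K) ^ p ^ a) := by
    have hid : (fun k => (RingHom.id K : K →+* K)^[a] (m k)) = m := by
      funext k
      have : ((RingHom.id K : K →+* K) : K → K)^[a] = id := by
        rw [RingHom.coe_id]; exact Function.iterate_id a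
      rw [this]; rfl
    have h2 := Fel.E_iter_Lp_subst (p := p) (RingHom.id K) m (constantCoeff_GG p K n) a
    rw [hid] at h2
    rw [hvK, ← h2]
    have h3 := hlog_hazF p (prm n (0 : ℕ → K))
    rw [hlog'] at h3
    change (Fel.Lp p m).subst (GG p K n) = _ at h3
    rw [h3, E_iter_add]
    have h4 := Fel.E_iter_Lp_subst (p := p) (RingHom.id K) m
      (a := (X 0 : MvPowerSeries (Fin 2) K)) (by simp) a
    have h5 := Fel.E_iter_Lp_subst (p := p) (RingHom.id K) m
      (a := (X 1 : MvPowerSeries (Fin 2) K)) (by simp) a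
    rw [hid, E_iter_X] at h4 h5
    rw [h4, h5]
  have h6 : dd p n (LL p K n a) = (Fel.Lp p m).subst (u.map (algebraMap B K)) -
      (Fel.Lp p m).subst (v.map (algebraMap B K)) := by
    unfold dd
    rw [LL_subst p n a (constantCoeff_GG p K n), LL_subst p n a (by simp),
      LL_subst p n a (by simp), h1, huK, hlog']
    ring
  have huKc : constantCoeff (u.map (algebraMap B K)) = 0 := by
    rw [constantCoeff_map, huc, map_zero]
  have hvKc : constantCoeff (v.map (algebraMap B K)) = 0 := by
    rw [constantCoeff_map, hvc, map_zero]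
  rw [h6, map_sub, Fel.coeff_Lp_subst m huKc e _ le_rfl, Fel.coeff_Lp_subst m hvKc e _ le_rfl,
    ← Finset.sum_sub_distrib]
  have h7 : ∀ k : ℕ, ∃ b : B, m k * coeff e ((u.map (algebraMap B K)) ^ p ^ k) -
      m k * coeff e ((v.map (algebraMap B K)) ^ p ^ k) = (p : K) * algebraMap B K b := by
    intro k
    obtain ⟨c, hc⟩ := Fel.coeff_dvd (q := p ^ (k + 1)) (by
      have := dvd_sub_pow_of_dvd_sub huv k
      exact_mod_cast this) e
    rw [← mul_sub, ← map_pow, ← map_pow, ← map_sub, ← map_sub, coeff_map, hc]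
    rw [hm']
    simp only [hm]
    split_ifs with hd
    · refine ⟨(p : B) ^ (k - k / n) * c, ?_⟩
      have hk : k / n ≤ k := Nat.div_le_self k n
      have h8 : k + 1 = k / n + (k - k / n) + 1 := by omega
      rw [h8]
      simp only [map_mul, map_pow, map_natCast, Nat.cast_pow]
      have h9 := pow_mul_pinv (K := K) p (k / n)
      rw [pow_succ, pow_add]
      linear_combination ((p : K) ^ (k - k / n) * p * algebraMap B K c) * h9
    · exact ⟨0, by simp⟩
  choose b hb using h7
  refine ⟨∑ k ∈ range (e.degree + 1), b k, ?_⟩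
  rw [map_sum, Finset.mul_sum]
  exact Finset.sum_congr rfl fun k _ => hb k

/-- the successive approximations of `g` -/
noncomputable def TT (n : ℕ) (g : PowerSeries K) : ℕ → PowerSeries K
  | 0 => 0
  | N + 1 => TT n g N + PowerSeries.coeff (p ^ N) (g - TT n g N) • LL p K n N

/-- the coefficients -/
noncomputable def gam (n : ℕ) (g : PowerSeries K) (N : ℕ) : K :=
  PowerSeries.coeff (p ^ N) (g - TT p n g N)

omit hp in
theorem TT_succ (n : ℕ) (g : PowerSeries K) (N : ℕ) :
    TT p n g (N + 1) = TT p n g N + gam p n g N • LL p K n N := rfl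

theorem TT_eq_sum (n : ℕ) (g : PowerSeries K) (N : ℕ) :
    TT p n g N = ∑ a ∈ range N, gam p n g a • LL p K n a := by
  induction N with
  | zero => rfl
  | succ N ih => rw [Finset.sum_range_succ, ← ih, TT_succ]

variable [IsAdicComplete (Ideal.span {(p : B)}) B]

theorem step_c (n : ℕ) {g : PowerSeries K} {N : ℕ} (hN : 1 ≤ N)
    (ha : ∀ m < p ^ N, PowerSeries.coeff m (g - TT p n g N) ∈ II B)
    (hb : Int' B (dd p n (g - TT p n g N))) : (p : K) * gam p n g N ∈ II B := by
  obtain ⟨c, hc, hch⟩ := choose_pow (p := p) hN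
  have h1 := claimA (B := B) p n hb ha (i := p ^ (N - 1)) (pow_pos hp.out.pos _)
    (Nat.pow_lt_pow_right hp.out.one_lt (by omega))
  rw [hch] at h1
  refine mem_of_coprime_mul (B := B) p hc ?_
  rw [Nat.cast_mul, mul_assoc] at h1
  exact h1

theorem invariant {n : ℕ} (hn : 1 ≤ n) {g : PowerSeries K} (h0 : PowerSeries.constantCoeff g = 0)
    (hg : Int' B (dd p n g)) (N : ℕ) :
    (∀ m < p ^ N, PowerSeries.coeff m (g - TT p n g N) ∈ II B) ∧
      Int' B (dd p n (g - TT p n g N)) := by
  induction N with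
  | zero =>
    constructor
    · intro m hm
      rw [pow_zero, Nat.lt_one_iff] at hm
      subst hm
      change PowerSeries.coeff 0 (g - 0) ∈ II B
      rw [sub_zero, PowerSeries.coeff_zero_eq_constantCoeff_apply, h0]
      exact Subring.zero_mem _
    · change Int' B (dd p n (g - 0))
      rwa [sub_zero]
  | succ N ih =>
    obtain ⟨ha, hb⟩ := ih
    have e1 : g - TT p n g (N + 1) = (g - TT p n g N) - gam p n g N • LL p K n N := by
      rw [TT_succ]; ring
    have hb' : Int' B (dd p n (g - TT p n g (N + 1))) := by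
      rw [e1, dd_sub, dd_smul]
      refine hb.sub ?_
      intro e
      rcases Nat.eq_zero_or_pos N with h | h
      · subst h
        rw [dd_LL_zero, smul_zero, map_zero]
        exact Subring.zero_mem _
      · obtain ⟨b, hb'⟩ := dd_LL (B := B) (K := K) p hn N e
        rw [coeff_smul, hb', ← mul_assoc, mul_comm (gam p n g N)]
        exact Subring.mul_mem _ (step_c p n h ha hb) (algebraMap_mem b)
    refine ⟨?_, hb'⟩
    intro m
    induction m using Nat.strong_induction_on with
    | _ m ih2 =>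
      intro hm
      rcases lt_trichotomy m (p ^ N) with h | h | h
      · rw [e1, map_sub, PowerSeries.coeff_smul, coeff_LL_lt p hn N h, smul_zero, sub_zero]
        exact ha m h
      · subst h
        rw [e1, map_sub, PowerSeries.coeff_smul, coeff_LL_self p hn, smul_eq_mul, mul_one]
        change gam p n g N - gam p n g N ∈ _
        rw [sub_self]
        exact Subring.zero_mem _
      · have hne : ∀ k, m ≠ p ^ k := by
          rintro k rfl
          have h1 := (Nat.pow_lt_pow_iff_right hp.out.one_lt).1 h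
          have h2 := (Nat.pow_lt_pow_iff_right hp.out.one_lt).1 hm
          omega
        have hm1 : 1 ≤ m := by omega
        obtain ⟨i, hi0, him, hi⟩ := exists_choose_not_dvd (p := p) hm1 hne
        refine mem_of_coprime_mul (B := B) p
          (Nat.coprime_comm.1 ((Nat.Prime.coprime_iff_not_dvd hp.out).2 hi)) ?_
        exact claimA (B := B) p n hb' (fun d hd => ih2 d hd (hd.trans hm)) hi0 him

/-- `p^j γ L_k - γ L_{k+nj}` is integral -/
theorem shift_int {n : ℕ} (hn : 1 ≤ n) {γ : K} {j : ℕ} (hγ : 1 ≤ j → (p : K) * γ ∈ II B) (k m : ℕ) :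
    (p : K) ^ j * γ * PowerSeries.coeff m (LL p K n k) -
      γ * PowerSeries.coeff m (LL p K n (k + n * j)) ∈ II B := by
  by_cases h : ∃ i, m = p ^ (k + n * i)
  · obtain ⟨i, rfl⟩ := h
    rw [coeff_LL_pow p hn]
    rcases le_or_gt j i with hji | hji
    · obtain ⟨t, rfl⟩ : ∃ t, i = j + t := ⟨i - j, by omega⟩
      have e1 : k + n * (j + t) = (k + n * j) + n * t := by ring
      rw [e1, coeff_LL_pow p hn]
      have h9 := pow_mul_pinv (K := K) p j
      have e2 : (p : K) ^ j * γ * pinv p K ^ (j + t) - γ * pinv p K ^ t = 0 := by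
        rw [pow_add]
        linear_combination (γ * pinv p K ^ t) * h9
      rw [e2]
      exact Subring.zero_mem _
    · rw [coeff_LL_lt p hn (k + n * j), mul_zero, sub_zero]
      · obtain ⟨t, rfl⟩ : ∃ t, j = i + (t + 1) := ⟨j - i - 1, by omega⟩
        have h9 := pow_mul_pinv (K := K) p i
        have e2 : (p : K) ^ (i + (t + 1)) * γ * pinv p K ^ i = (p : K) ^ t * ((p : K) * γ) := by
          rw [pow_add, pow_succ]
          linear_combination ((p : K) ^ t * p * γ) * h9
        rw [e2]
        exact Subring.mul_mem _ (Subring.pow_mem _ (p_mem p) _) (hγ (by omega))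
      · refine Nat.pow_lt_pow_right hp.out.one_lt ?_
        have : n * i < n * j := Nat.mul_lt_mul_of_pos_left hji hn
        omega
  · push Not at h
    have h' : ∀ i, m ≠ p ^ (k + n * j + n * i) := by
      intro i
      have := h (j + i)
      rwa [mul_add, ← add_assoc] at this
    rw [coeff_LL_of_ne p hn k h, coeff_LL_of_ne p hn _ h', mul_zero, mul_zero, sub_zero]
    exact Subring.zero_mem _

/-- `p^{J} L_k` is integral in degrees `< p^{n(J+1)}` -/
theorem tail_int {n : ℕ} (hn : 1 ≤ n) (k J m : ℕ) (hm : m < p ^ (n * (J + 1))) :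
    (p : K) ^ J * PowerSeries.coeff m (LL p K n k) ∈ II B := by
  by_cases h : ∃ i, m = p ^ (k + n * i)
  · obtain ⟨i, rfl⟩ := h
    have h1 := (Nat.pow_lt_pow_iff_right hp.out.one_lt).1 hm
    have h2 : n * i < n * (J + 1) := by omega
    have h3 : i < J + 1 := Nat.lt_of_mul_lt_mul_left h2
    obtain ⟨t, rfl⟩ : ∃ t, J = i + t := ⟨J - i, by omega⟩
    rw [coeff_LL_pow p hn, pow_add]
    have h9 := pow_mul_pinv (K := K) p i
    have e2 : (p : K) ^ i * (p : K) ^ t * pinv p K ^ i = (p : K) ^ t := by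
      linear_combination ((p : K) ^ t) * h9
    rw [e2]
    exact Subring.pow_mem _ (p_mem p) _
  · push Not at h
    rw [coeff_LL_of_ne p hn k h, mul_zero]
    exact Subring.zero_mem _

omit [Algebra ℚ K] hp in
/-- the limits -/
theorem exists_limit (γ : ℕ → K) (hγ : ∀ j, 1 ≤ j → (p : K) * γ j ∈ II B) :
    ∃ c : K, ∀ J, ∃ b : B, c - ∑ j ∈ range (J + 1), (p : K) ^ j * γ j =
      (p : K) ^ J * algebraMap B K b := by
  have h1 : ∀ j, ∃ b : B, algebraMap B K b = (p : K) * γ (j + 1) := fun j => hγ (j + 1) (by omega)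
  choose β hβ using h1
  set f : ℕ → B := fun J => ∑ j ∈ range J, (p : B) ^ j * β j with hf
  have hcau : ∀ {m n : ℕ}, m ≤ n → f m ≡ f n [SMOD (Ideal.span {(p : B)} ^ m • ⊤ : Submodule B B)] := by
    intro m n hmn
    rw [SModEq.sub_mem, Ideal.span_singleton_pow, smul_eq_mul, Ideal.mul_top,
      Ideal.mem_span_singleton, hf]
    simp only
    rw [← Finset.sum_range_add_sum_Ico _ hmn, sub_add_cancel_left, dvd_neg]
    refine Finset.dvd_sum fun j hj => ?_
    rw [Finset.mem_Ico] at hj
    exact (pow_dvd_pow _ hj.1).mul_right _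
  obtain ⟨L, hL⟩ := IsPrecomplete.prec' f hcau
  refine ⟨γ 0 + algebraMap B K L, fun J => ?_⟩
  have h2 := hL J
  rw [SModEq.sub_mem, Ideal.span_singleton_pow, smul_eq_mul, Ideal.mul_top,
    Ideal.mem_span_singleton] at h2
  obtain ⟨b, hb⟩ := h2
  refine ⟨-b, ?_⟩
  rw [Finset.sum_range_succ']
  have h3 : algebraMap B K (f J) = ∑ j ∈ range J, (p : K) ^ (j + 1) * γ (j + 1) := by
    rw [hf]
    simp only
    rw [map_sum]
    refine Finset.sum_congr rfl fun j _ => ?_
    rw [map_mul, map_pow, map_natCast, hβ, pow_succ]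
    ring
  have h4 := congrArg (algebraMap B K) hb
  rw [map_sub, map_mul, map_pow, map_natCast, h3] at h4
  rw [map_neg]
  linear_combination -h4

omit [Algebra ℚ K] [IsAdicComplete (Ideal.span {(p : B)}) B] hp in
theorem sum_range_mul (f : ℕ → K) (n J : ℕ) :
    ∑ a ∈ range (n * J), f a = ∑ k ∈ range n, ∑ j ∈ range J, f (k + n * j) := by
  induction J with
  | zero => simp
  | succ J ih =>
    rw [mul_add, mul_one, Finset.sum_range_add, ih, ← Finset.sum_add_distrib]
    refine Finset.sum_congr rfl fun k _ => ?_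
    rw [Finset.sum_range_succ, add_comm (n * J) k]

end withQ

end

end QL

open QL in
theorem quasilog (p : ℕ) [Fact p.Prime] {n : ℕ} (hn : 1 ≤ n) {B K : Type*} [CommRing B] [CommRing K]
    [Algebra B K] [Algebra ℚ K] (hinj : Function.Injective (algebraMap B K))
    [IsAdicComplete (Ideal.span {(p : B)}) B] (g : PowerSeries K)
    (h0 : PowerSeries.constantCoeff g = 0)
    (H : ∃ D : MvPowerSeries (Fin 2) B, g.subst (hazF p (prm n (0 : ℕ → K))).toPowerSeries -
      g.subst (X 0 : MvPowerSeries (Fin 2) K) - g.subst (X 1 : MvPowerSeries (Fin 2) K) =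
        D.map (algebraMap B K)) :
    ∃ (c : Fin n → K) (g0 : PowerSeries B), PowerSeries.constantCoeff g0 = 0 ∧
      g = ∑ k : Fin n, c k • (hlog p (prm n (0 : ℕ → K))).subst
        ((PowerSeries.X : PowerSeries K) ^ p ^ (k : ℕ)) + g0.map (algebraMap B K) := by
  classical
  have hp : Fact p.Prime := inferInstance
  have hg : Int' B (dd p n g) := int_iff.2 H
  have hinv := invariant (B := B) p hn h0 hg
  have hγ : ∀ N, 1 ≤ N → (p : K) * gam p n g N ∈ II B := fun N hN =>
    step_c p n hN (hinv N).1 (hinv N).2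
  have hlim : ∀ k : ℕ, ∃ c : K, ∀ J, ∃ b : B,
      c - ∑ j ∈ Finset.range (J + 1), (p : K) ^ j * gam p n g (k + n * j) =
        (p : K) ^ J * algebraMap B K b := fun k =>
    exists_limit (B := B) p (fun j => gam p n g (k + n * j)) fun j hj => hγ _ (by
      have : 1 ≤ n * j := Nat.mul_pos hn hj
      omega)
  choose c hc using hlim
  have key : ∀ m, PowerSeries.coeff m (g - ∑ k ∈ Finset.range n, c k • LL p K n k) ∈ II B := by
    intro m
    have hm : m < p ^ (n * (m + 1)) := by
      have h1 : m < p ^ m := Nat.lt_pow_self hp.out.one_lt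
      have h2 : p ^ m ≤ p ^ (n * (m + 1)) := Nat.pow_le_pow_right hp.out.pos (by nlinarith)
      omega
    have e1 : PowerSeries.coeff m (g - ∑ k ∈ Finset.range n, c k • LL p K n k) =
        PowerSeries.coeff m (g - TT p n g (n * (m + 1))) -
        ∑ k ∈ Finset.range n, ((c k - ∑ j ∈ Finset.range (m + 1), (p : K) ^ j *
          gam p n g (k + n * j)) * PowerSeries.coeff m (LL p K n k) +
          ∑ j ∈ Finset.range (m + 1), ((p : K) ^ j * gam p n g (k + n * j) *
            PowerSeries.coeff m (LL p K n k) -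
            gam p n g (k + n * j) * PowerSeries.coeff m (LL p K n (k + n * j)))) := by
      rw [map_sub, map_sub, map_sum, TT_eq_sum, map_sum]
      simp only [PowerSeries.coeff_smul, smul_eq_mul]
      rw [sum_range_mul (fun a => gam p n g a * PowerSeries.coeff m (LL p K n a)),
        sub_sub, sub_right_inj, ← Finset.sum_add_distrib]
      refine Finset.sum_congr rfl fun k _ => ?_
      rw [Finset.sum_sub_distrib, sub_mul, Finset.sum_mul]
      ring
    rw [e1]
    refine Subring.sub_mem _ ((hinv _).1 m hm) (Subring.sum_mem _ fun k _ => ?_)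
    refine Subring.add_mem _ ?_ (Subring.sum_mem _ fun j _ => ?_)
    · obtain ⟨b, hb⟩ := hc k m
      rw [hb]
      have h5 := tail_int (B := B) (K := K) p hn k m m hm
      have h6 := Subring.mul_mem _ (algebraMap_mem (K := K) b) h5
      convert h6 using 1
      ring
    · refine shift_int (B := B) p hn (fun hj => hγ _ ?_) k m
      have : 1 ≤ n * j := Nat.mul_pos hn hj
      omega
  choose b hb using key
  refine ⟨fun k => c k, PowerSeries.mk b, ?_, ?_⟩
  · apply hinj
    rw [← PowerSeries.coeff_zero_eq_constantCoeff_apply, PowerSeries.coeff_mk, hb, map_zero, map_sub,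
      PowerSeries.coeff_zero_eq_constantCoeff_apply, h0, map_sum, zero_sub, neg_eq_zero]
    refine Finset.sum_eq_zero fun k _ => ?_
    rw [PowerSeries.coeff_smul, coeff_LL_lt p hn k (pow_pos hp.out.pos _), smul_zero]
  · have h7 : (PowerSeries.mk b).map (algebraMap B K) =
        g - ∑ k ∈ Finset.range n, c k • LL p K n k := by
      ext m
      rw [PowerSeries.coeff_map, PowerSeries.coeff_mk, hb]
    rw [h7, ← Fin.sum_univ_eq_sum_range (fun k => c k • LL p K n k)]
    change g = ∑ k : Fin n, c k • LL p K n k + _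
    ring

end Chai
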