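import Vale.Agent.Chai.Core
import Vale.Agent.Chai.Haz

/-!
# P217 / Setup: the formal groups `F_x` over `O_C`, `x` a point of the open unit ball

OWNER: helper9 (done)

`FC p n x` is `hazF p (v)` with `v_j = x_j (1 ≤ j < n)`, `v_n = 1`, `v_j = 0 (j > n)`.
`FC p n 0` is the Honda formal group `Γ_n` (`[p](X) = X^{p^n}`).
-/

namespace Chai

open MvPowerSeries Filter Topology

variable (p : ℕ) [Fact p.Prime]
variable {C : Type*} [NontriviallyNormedField C] [IsUltrametricDist C] [CompleteSpace C]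

variable (C) in
/-- parameter points -/
def Ball : Type _ := {x : ℕ → C // ∀ j, ‖x j‖ < 1}

instance : Zero (Ball C) := ⟨⟨fun _ => 0, by simp⟩⟩

omit [IsUltrametricDist C] [CompleteSpace C] in
@[simp] theorem Ball.zero_val (j : ℕ) : (0 : Ball C).1 j = 0 := rfl

theorem bdd_hazF (v : ℕ → C) (hv : ∀ j, ‖v j‖ ≤ 1) : Bdd (hazF p v).toPowerSeries := by
  intro d
  have h : ∀ f : MvPolynomial ℕ ℤ, ‖MvPolynomial.eval₂Hom (Int.castRingHom C) v f‖ ≤ 1 := by
    intro f
    induction f using MvPolynomial.induction_on with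
    | C a => simpa using IsUltrametricDist.norm_intCast_le_one C a
    | add f g hf hg =>
      rw [map_add]
      exact (IsUltrametricDist.norm_add_le_max _ _).trans (max_le hf hg)
    | mul_X f i hf =>
      rw [map_mul, norm_mul, MvPolynomial.eval₂Hom_X']
      exact mul_le_one₀ hf (norm_nonneg _) (hv i)
  unfold hazF
  rw [FormalGroup.map_toPowerSeries, coeff_map]
  exact h _

/-! ### formal sums -/

section fsum

variable {R : Type*} [CommRing R] {τ υ : Type*}

theorem constantCoeff_fsum (F : FormalGroup R) (l : List (MvPowerSeries τ R))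
    (hl : ∀ a ∈ l, constantCoeff a = 0) : constantCoeff (fsum F l) = 0 := by
  induction l with
  | nil => simp [fsum]
  | cons a l ih =>
    have h1 := hl a (List.mem_cons_self ..)
    have h2 := ih (fun b hb => hl b (List.mem_cons_of_mem _ hb))
    have h3 : ∀ i, constantCoeff (![a, fsum F l] i) = 0 := by
      intro i; fin_cases i
      · exact h1
      · exact h2
    exact constantCoeff_subst_eq_zero (hasSubst_of_constantCoeff_zero h3) h3 F.zero_constantCoeff

theorem fsum_cons_zero (F : FormalGroup R) (l : List (MvPowerSeries τ R))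
    (hl : ∀ a ∈ l, constantCoeff a = 0) : fsum F (0 :: l) = fsum F l := by
  show F.toPowerSeries.subst ![0, fsum F l] = fsum F l
  exact F.zero_add (PowerSeries.HasSubst.of_constantCoeff_zero (constantCoeff_fsum F l hl))

theorem fsum_append_zero (F : FormalGroup R) (k : ℕ) (l : List (MvPowerSeries τ R))
    (hl : ∀ a ∈ l, constantCoeff a = 0) : fsum F (List.replicate k 0 ++ l) = fsum F l := by
  induction k with
  | zero => rfl
  | succ k ih =>
    rw [List.replicate_succ, List.cons_append, fsum_cons_zero, ih]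
    intro a ha
    rcases List.mem_append.1 ha with ha | ha
    · rw [List.eq_of_mem_replicate ha, map_zero]
    · exact hl a ha

theorem subst_fsum [Finite τ] (F : FormalGroup R) (l : List (MvPowerSeries τ R))
    (hl : ∀ a ∈ l, constantCoeff a = 0) {b : τ → MvPowerSeries υ R}
    (hb : ∀ i, constantCoeff (b i) = 0) :
    (fsum F l).subst b = fsum F (l.map fun a => a.subst b) := by
  have hsb : HasSubst b := hasSubst_of_constantCoeff_zero hb
  induction l with
  | nil =>
    show (0 : MvPowerSeries τ R).subst b = 0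
    rw [← coe_substAlgHom hsb, map_zero]
  | cons a l ih =>
    have h1 := hl a (List.mem_cons_self ..)
    have h2 := constantCoeff_fsum F l (fun b hb => hl b (List.mem_cons_of_mem _ hb))
    have h3 : ∀ i, constantCoeff (![a, fsum F l] i) = 0 := by
      intro i; fin_cases i
      · exact h1
      · exact h2
    show (F.toPowerSeries.subst ![a, fsum F l]).subst b
      = F.toPowerSeries.subst ![a.subst b, fsum F (l.map fun a => a.subst b)]
    rw [subst_comp_subst_apply (hasSubst_of_constantCoeff_zero h3) hsb,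
      ← ih (fun b hb => hl b (List.mem_cons_of_mem _ hb))]
    congr 1
    funext i
    fin_cases i <;> rfl

end fsum

theorem bdd_fsum {τ : Type*} {F : FormalGroup C} (hF : Bdd F.toPowerSeries)
    (l : List (MvPowerSeries τ C)) (hl : ∀ a ∈ l, constantCoeff a = 0) (hb : ∀ a ∈ l, Bdd a) :
    Bdd (fsum F l) := by
  induction l with
  | nil => exact Bdd.zero
  | cons a l ih =>
    have h1 := hl a (List.mem_cons_self ..)
    have h2 := constantCoeff_fsum F l (fun b hb => hl b (List.mem_cons_of_mem _ hb))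
    refine Bdd.subst hF (fun i => ?_) (fun i => ?_)
    · fin_cases i
      · exact hb a (List.mem_cons_self ..)
      · exact ih (fun b hb => hl b (List.mem_cons_of_mem _ hb))
          (fun c hc => hb c (List.mem_cons_of_mem _ hc))
    · fin_cases i
      · exact h1
      · exact h2

/-- `F_x` -/
noncomputable def FC (n : ℕ) (x : Ball C) : CFG C where
  toFormalGroup := hazF p (prm n x.1)
  bdd := bdd_hazF p _ fun j => by
    unfold prm
    split_ifs
    · exact (x.2 j).le
    · simp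
    · simp
  comm := hazF_comm p _

/-- index set `{h, …, n-1}` of the free coordinates -/
abbrev Idx (h n : ℕ) : Type := {j : ℕ // j ∈ Finset.Ico h n}

/-- `x + δ`, `δ` in the coordinates `h ≤ j < n` -/
noncomputable def shiftB {h n : ℕ} (x : Ball C) (δ : Idx h n → C) (hδ : ∀ i, ‖δ i‖ < 1) : Ball C :=
  ⟨fun j => if hj : j ∈ Finset.Ico h n then x.1 j + δ ⟨j, hj⟩ else x.1 j, by
    intro j
    dsimp only
    split_ifs with hj
    · exact (IsUltrametricDist.norm_add_le_max _ _).trans_lt (max_lt (x.2 j) (hδ _))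
    · exact x.2 j⟩

/-- `F_x` has height exactly `h` -/
structure HasHeight (h n : ℕ) (x : Ball C) : Prop where
  one_le : 1 ≤ h
  lt : h < n
  zero : ∀ j, 1 ≤ j → j < h → x.1 j = 0
  ne : x.1 h ≠ 0

/-- size of `x`: `‖x_j‖ ≤ ρ` for `1 ≤ j < n` -/
def SizeLE (n : ℕ) (x : Ball C) (ρ : ℝ) : Prop := ∀ j, 1 ≤ j → j < n → ‖x.1 j‖ ≤ ρ

/-- `V_x`: `[p]_{F_x}(X) = V_x(X^{p^h})` when `F_x` has height `≥ h` -/
noncomputable def VPS (h n : ℕ) (x : Ball C) : PowerSeries C :=
  fsum (FC p n x).toFormalGroup ((List.range (n - h + 1)).map fun j =>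
    PowerSeries.C (prm n x.1 (h + j)) * (PowerSeries.X : PowerSeries C) ^ p ^ j)

omit [IsUltrametricDist C] [CompleteSpace C] in
theorem norm_prm_le (n : ℕ) (x : Ball C) (j : ℕ) : ‖prm n x.1 j‖ ≤ 1 := by
  unfold prm
  split_ifs
  · exact (x.2 j).le
  · simp
  · simp

theorem bdd_VPS (h n : ℕ) (x : Ball C) : Bdd (VPS p h n x) := by
  have hp : p ≠ 0 := (Fact.out : p.Prime).ne_zero
  refine bdd_fsum (FC p n x).bdd _ (fun a ha => ?_) (fun a ha => ?_)
  · obtain ⟨j, _, rfl⟩ := List.mem_map.1 ha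
    show PowerSeries.constantCoeff _ = 0
    rw [map_mul, map_pow, PowerSeries.constantCoeff_X, zero_pow (pow_ne_zero _ hp), mul_zero]
  · obtain ⟨j, _, rfl⟩ := List.mem_map.1 ha
    exact Bdd.mul (Bdd.C_iff.2 (norm_prm_le n x _)) ((Bdd.X _).pow _)

theorem mulPS_eq_VPS [CharP C p] {h n : ℕ} (h1 : 1 ≤ h) (hn : h ≤ n) {x : Ball C}
    (hx : ∀ j, 1 ≤ j → j < h → x.1 j = 0) :
    mulPS (FC p n x).toFormalGroup p = (VPS p h n x).subst ((PowerSeries.X : PowerSeries C) ^ p ^ h) := by
  have hp : p ≠ 0 := (Fact.out : p.Prime).ne_zero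
  have hv : ∀ j, n < j → prm n x.1 j = 0 := by
    intro j hj
    unfold prm
    rw [if_neg (by omega), if_neg (by omega)]
  have hcc : ∀ j, constantCoeff (PowerSeries.C (prm n x.1 (h + j)) *
      (PowerSeries.X : PowerSeries C) ^ p ^ j) = 0 := by
    intro j
    show PowerSeries.constantCoeff _ = 0
    rw [map_mul, map_pow, PowerSeries.constantCoeff_X, zero_pow (pow_ne_zero _ hp), mul_zero]
  have hXh : PowerSeries.HasSubst ((PowerSeries.X : PowerSeries C) ^ p ^ h) :=
    PowerSeries.HasSubst.X_pow (pow_ne_zero _ hp)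
  have hXc : PowerSeries.constantCoeff ((PowerSeries.X : PowerSeries C) ^ p ^ h) = 0 := by
    rw [map_pow, PowerSeries.constantCoeff_X, zero_pow (pow_ne_zero _ hp)]
  have h1' := mulPS_hazF p n (prm n x.1) hv
  have e1 : (VPS p h n x).subst ((PowerSeries.X : PowerSeries C) ^ p ^ h)
      = fsum (FC p n x).toFormalGroup (((List.range (n - h + 1)).map fun j =>
        PowerSeries.C (prm n x.1 (h + j)) * (PowerSeries.X : PowerSeries C) ^ p ^ j).map
          fun a => PowerSeries.subst ((PowerSeries.X : PowerSeries C) ^ p ^ h) a) := by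
    refine subst_fsum _ _ (fun a ha => ?_) (fun _ => hXc)
    obtain ⟨j, _, rfl⟩ := List.mem_map.1 ha
    exact hcc j
  have e2 : ∀ j, PowerSeries.subst ((PowerSeries.X : PowerSeries C) ^ p ^ h)
      (PowerSeries.C (prm n x.1 (h + j)) * (PowerSeries.X : PowerSeries C) ^ p ^ j)
      = PowerSeries.C (prm n x.1 (h + j)) * (PowerSeries.X : PowerSeries C) ^ p ^ (h + j) := by
    intro j
    rw [PowerSeries.subst_mul hXh, PowerSeries.subst_pow hXh, PowerSeries.subst_X hXh, ← pow_mul,
      ← pow_add, PowerSeries.subst_C]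
    rfl
  have e3 : (List.range n).map (fun j => PowerSeries.C (prm n x.1 (j + 1)) *
      (PowerSeries.X : PowerSeries C) ^ p ^ (j + 1))
      = List.replicate (h - 1) 0 ++ (List.range (n - h + 1)).map fun j =>
        PowerSeries.C (prm n x.1 (h + j)) * (PowerSeries.X : PowerSeries C) ^ p ^ (h + j) := by
    have hr : List.range n = List.range (h - 1) ++ (List.range (n - h + 1)).map (h - 1 + ·) := by
      rw [← List.range_add]
      congr 1
      omega
    rw [hr, List.map_append]
    congr 1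
    · rw [List.eq_replicate_iff]
      refine ⟨by simp, fun b hb => ?_⟩
      obtain ⟨j, hj, rfl⟩ := List.mem_map.1 hb
      have hj' := List.mem_range.1 hj
      have : prm n x.1 (j + 1) = 0 := by
        unfold prm
        rw [if_pos (by omega), hx (j + 1) (by omega) (by omega)]
      rw [this, map_zero, zero_mul]
    · rw [List.map_map]
      refine List.map_congr_left (fun j _ => ?_)
      have : h - 1 + j + 1 = h + j := by omega
      simp only [Function.comp_apply, this]
  rw [e1, List.map_map]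
  have e4 : ((fun a => PowerSeries.subst ((PowerSeries.X : PowerSeries C) ^ p ^ h) a) ∘ fun j =>
      PowerSeries.C (prm n x.1 (h + j)) * (PowerSeries.X : PowerSeries C) ^ p ^ j)
      = fun j => PowerSeries.C (prm n x.1 (h + j)) *
        (PowerSeries.X : PowerSeries C) ^ p ^ (h + j) := by
    funext j
    exact e2 j
  rw [e4]
  have h5 : mulPS (FC p n x).toFormalGroup p = fsum (FC p n x).toFormalGroup
      ((List.range n).map (fun j => PowerSeries.C (prm n x.1 (j + 1)) *
      (PowerSeries.X : PowerSeries C) ^ p ^ (j + 1))) := h1'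
  rw [h5, e3]
  refine fsum_append_zero _ _ _ (fun a ha => ?_)
  obtain ⟨j, _, rfl⟩ := List.mem_map.1 ha
  show PowerSeries.constantCoeff _ = 0
  rw [map_mul, map_pow, PowerSeries.constantCoeff_X, zero_pow (pow_ne_zero _ hp), mul_zero]

/-- `p • y = V_x(y^{p^h})` -/
theorem nsmul_p_val [CharP C p] {h n : ℕ} (h1 : 1 ≤ h) (hn : h ≤ n) {x : Ball C}
    (hx : ∀ j, 1 ≤ j → j < h → x.1 j = 0) (y : (FC p n x).Pt) :
    (p • y).1 = ev1 (y.1 ^ p ^ h) (VPS p h n x) := by
  have hp : p ≠ 0 := (Fact.out : p.Prime).ne_zero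
  have hXc : PowerSeries.constantCoeff ((PowerSeries.X : PowerSeries C) ^ p ^ h) = 0 := by
    rw [map_pow, PowerSeries.constantCoeff_X, zero_pow (pow_ne_zero _ hp)]
  have hXb : Bdd ((PowerSeries.X : PowerSeries C) ^ p ^ h) := (Bdd.X _).pow _
  rw [CFG.nsmul_val, mulPS_eq_VPS p h1 hn hx, ev1_subst y.2 (bdd_VPS p h n x) hXb hXc]
  congr 1
  unfold ev1
  exact (ev_pow (fun _ => y.2) (Bdd.X _) _).trans (by rw [ev_X])

/-- on the Honda group `Γ_n`: `p • y = y^{p^n}` -/
theorem nsmul_p_honda [CharP C p] {n : ℕ} (hn : 1 ≤ n) (y : (FC p n (0 : Ball C)).Pt) :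
    (p • y).1 = y.1 ^ p ^ n := by
  rw [CFG.nsmul_val]
  have : mulPS (FC p n (0 : Ball C)).toFormalGroup p = (PowerSeries.X : PowerSeries C) ^ p ^ n :=
    mulPS_honda p n hn
  rw [this]
  unfold ev1
  exact (ev_pow (fun _ => y.2) (Bdd.X _) _).trans (by rw [ev_X])

omit [IsUltrametricDist C] [CompleteSpace C] in
theorem norm_le_one_of_pow_eq {n : ℕ} (hn : 1 ≤ n) {ζ : C} (hζ : ζ ^ p ^ n = ζ) : ‖ζ‖ ≤ 1 := by
  by_contra h
  rw [not_le] at h
  have h1 : ‖ζ‖ ^ p ^ n = ‖ζ‖ := by rw [← norm_pow, hζ]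
  have h2 : 1 < p ^ n := Nat.one_lt_pow (by omega) (Fact.out : p.Prime).one_lt
  have h3 : ‖ζ‖ ^ 1 < ‖ζ‖ ^ p ^ n := pow_lt_pow_right₀ h h2
  rw [pow_one, h1] at h3
  exact lt_irrefl _ h3

/-- the endomorphism `z ↦ ζ z^{p^l}` as a power series -/
noncomputable def hendoHom [CharP C p] (n : ℕ) (hn : 1 ≤ n) (ζ : C) (hζ : ζ ^ p ^ n = ζ) (l : ℕ) :
    CHom (FC p n (0 : Ball C)) (FC p n (0 : Ball C)) where
  ps := (PowerSeries.C ζ * PowerSeries.X : PowerSeries C).subst
    ((PowerSeries.X : PowerSeries C) ^ p ^ l)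
  bdd := Bdd.subst (Bdd.mul (Bdd.C_iff.2 (norm_le_one_of_pow_eq p hn hζ)) (Bdd.X _))
    (fun _ => (Bdd.X _).pow _) (fun _ => by
      show PowerSeries.constantCoeff _ = 0
      rw [map_pow, PowerSeries.constantCoeff_X,
        zero_pow (pow_ne_zero _ (Fact.out : p.Prime).ne_zero)])
  isHom := IsHom.comp (honda_smul p n ζ hζ) (honda_frob p n l)

open Classical in
/-- the endomorphism `z ↦ ζ z^{p^l}` of the Honda group, `ζ^{p^n} = ζ` (`n ≥ 1`) -/
noncomputable def hendo [CharP C p] (n : ℕ) (ζ : C) (hζ : ζ ^ p ^ n = ζ) (l : ℕ) :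
    (FC p n (0 : Ball C)).Pt →+ (FC p n (0 : Ball C)).Pt :=
  if hn : 1 ≤ n then (hendoHom p n hn ζ hζ l).map else 0

theorem hendo_val [CharP C p] (n : ℕ) (hn : 1 ≤ n) (ζ : C) (hζ : ζ ^ p ^ n = ζ) (l : ℕ)
    (z : (FC p n (0 : Ball C)).Pt) : (hendo p n ζ hζ l z).1 = ζ * z.1 ^ p ^ l := by
  have hXh : PowerSeries.HasSubst ((PowerSeries.X : PowerSeries C) ^ p ^ l) :=
    PowerSeries.HasSubst.X_pow (pow_ne_zero _ (Fact.out : p.Prime).ne_zero)
  unfold hendo
  rw [dif_pos hn, CHom.map_val]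
  unfold hendoHom
  simp only
  rw [PowerSeries.subst_mul hXh, PowerSeries.subst_X hXh, PowerSeries.subst_C]
  have hb1 : Bdd (MvPowerSeries.C (σ := Unit) ζ) := Bdd.C_iff.2 (norm_le_one_of_pow_eq p hn hζ)
  have hb2 : Bdd ((PowerSeries.X : PowerSeries C) ^ p ^ l) := (Bdd.X _).pow _
  unfold ev1
  refine (ev_mul (fun _ => z.2) hb1 hb2).trans ?_
  rw [ev_C]
  congr 1
  exact (ev_pow (fun _ => z.2) (Bdd.X _) _).trans (by rw [ev_X])

end Chai
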