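import Vale.Agent.Chai.UntiltData
import Vale.Agent.Chai.QuasiLog
import Vale.Agent.Chai.Setup

/-!
# P217 / ThetaDefs: the functions `Θ_n`, definitions (part of Theta)

OWNER: helper23
-/

namespace Chai

open MvPowerSeries Filter Topology

universe u

variable (p : ℕ) [Fact p.Prime]
variable {C : Type u} [NontriviallyNormedField C] [IsUltrametricDist C] [CompleteSpace C]
variable [CharP C p] [IsAlgClosed C]
variable {τ : OC C} {L : Type u} [NontriviallyNormedField L] [IsUltrametricDist L]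

variable (C) in
/-- the Frobenius automorphism of `C` -/
noncomputable def frob : RingAut C := frobeniusEquiv C p

/-- `Θ_n(z) = ∑_{i ∈ ℤ} p^{-i} T(z^{p^{ni}})` -/
noncomputable def theta (U : UntiltData p C τ L) (n : ℕ) (z : C) : L :=
  ∑' i : ℤ, (p : L) ^ (-i) * U.T ((frob p C ^ ((n : ℤ) * i)) z)

variable {𝔽 : Type*} [Field 𝔽] [Fintype 𝔽] [CharP 𝔽 p] [Algebra 𝔽 C]

omit [Fact p.Prime] [IsUltrametricDist C] [CompleteSpace C] [CharP C p] [IsAlgClosed C] [CharP 𝔽 p] in
theorem norm_algebraMap_le (a : 𝔽) : ‖algebraMap 𝔽 C a‖ ≤ 1 := by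
  by_cases ha : a = 0
  · simp [ha]
  · have h1 : (algebraMap 𝔽 C a) ^ (Fintype.card 𝔽 - 1) = 1 := by
      rw [← map_pow, FiniteField.pow_card_sub_one_eq_one a ha, map_one]
    have h2 : ‖algebraMap 𝔽 C a‖ ^ (Fintype.card 𝔽 - 1) = 1 := by rw [← norm_pow, h1, norm_one]
    have h3 : Fintype.card 𝔽 - 1 ≠ 0 := by
      have := Fintype.one_lt_card (α := 𝔽)
      omega
    exact ((pow_eq_one_iff_of_nonneg (norm_nonneg _) h3).mp h2).le

variable (𝔽 C) in
/-- the inclusion of `𝔽` in the closed unit ball -/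
noncomputable def incF : 𝔽 →+* OC C :=
  (algebraMap 𝔽 C).codRestrict (OC C) fun a => norm_algebraMap_le a

variable [CharZero L]

/-- `w ↦ ρ(F^k w)`, `W(𝔽) → L`; sends `[ζ]` to `T(ζ)^{p^k}` -/
noncomputable def rhoW (U : UntiltData p C τ L) (k : ℕ) : WittVector p 𝔽 →+* L :=
  (OC L).subtype.comp (U.ρ.comp ((WittVector.map (incF (C := C) 𝔽)).comp
    ((WittVector.frobenius (p := p) (R := 𝔽)) ^ k)))

end Chai
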