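import Vale.Agent.Chai.ThetaDefs

/-!
# P217 / ThetaFrob: powers of the Frobenius automorphism of `C` (part of Theta)

OWNER: helper23
-/

namespace Chai

open MvPowerSeries Filter Topology

set_option linter.unusedSectionVars false

universe u

variable (p : ℕ) [Fact p.Prime]
variable {C : Type u} [NontriviallyNormedField C] [IsUltrametricDist C] [CompleteSpace C]
variable [CharP C p] [IsAlgClosed C]

theorem frob_apply (z : C) : frob p C z = z ^ p := rfl

theorem frob_pow_apply (m : ℕ) (z : C) : (frob p C ^ m) z = z ^ p ^ m := by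
  induction m with
  | zero => simp
  | succ m ih =>
    rw [pow_succ', RingAut.mul_apply, ih, frob_apply, ← pow_mul, pow_succ]

theorem frob_zpow_natCast (m : ℕ) (z : C) : (frob p C ^ (m : ℤ)) z = z ^ p ^ m := by
  rw [zpow_natCast, frob_pow_apply]

theorem frob_zpow_add (a b : ℤ) (z : C) :
    (frob p C ^ (a + b)) z = (frob p C ^ a) ((frob p C ^ b) z) := by
  rw [zpow_add, RingAut.mul_apply]

theorem frob_zpow_zero (z : C) : (frob p C ^ (0 : ℤ)) z = z := by simp

theorem frob_zpow_neg_pow (m : ℕ) (z : C) : ((frob p C ^ (-(m : ℤ))) z) ^ p ^ m = z := by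
  rw [← frob_zpow_natCast, ← frob_zpow_add]
  simp

/-- `φ^{-m} z = y` if `y^{p^m} = z` -/
theorem frob_zpow_neg_eq {m : ℕ} {y z : C} (h : y ^ p ^ m = z) :
    (frob p C ^ (-(m : ℤ))) z = y := by
  rw [← h, ← frob_zpow_natCast, ← frob_zpow_add]
  simp

theorem norm_frob_zpow_lt_one {z : C} (hz : ‖z‖ < 1) (m : ℤ) : ‖(frob p C ^ m) z‖ < 1 := by
  obtain ⟨k, rfl | rfl⟩ := m.eq_nat_or_neg
  · rw [frob_zpow_natCast, norm_pow]
    exact pow_lt_one₀ (norm_nonneg _) hz (pow_ne_zero _ (Fact.out : p.Prime).ne_zero)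
  · have h := frob_zpow_neg_pow p k z
    by_contra hcon
    rw [not_lt] at hcon
    have h1 : 1 ≤ ‖((frob p C ^ (-(k : ℤ))) z) ^ p ^ k‖ := by
      rw [norm_pow]
      exact one_le_pow₀ hcon
    rw [h] at h1
    exact absurd hz (not_lt.2 h1)

theorem frob_zpow_pow (m : ℤ) (k : ℕ) (z : C) :
    (frob p C ^ m) (z ^ p ^ k) = ((frob p C ^ m) z) ^ p ^ k := map_pow _ _ _

/-- elements of `F_{p^n}` are fixed by `φ^{ni}` -/
theorem frob_zpow_fixed {n : ℕ} {ζ : C} (hζ : ζ ^ p ^ n = ζ) (i : ℤ) :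
    (frob p C ^ ((n : ℤ) * i)) ζ = ζ := by
  have h1 : (frob p C ^ (n : ℤ)) ζ = ζ := by rw [frob_zpow_natCast, hζ]
  have hnat : ∀ m : ℕ, (frob p C ^ ((n : ℤ) * m)) ζ = ζ := by
    intro m
    induction m with
    | zero => simp
    | succ m ih =>
      have : (n : ℤ) * ((m + 1 : ℕ) : ℤ) = (n : ℤ) + n * m := by push_cast; ring
      rw [this, frob_zpow_add, ih, h1]
  obtain ⟨k, rfl | rfl⟩ := i.eq_nat_or_neg
  · exact hnat k
  · have h2 := hnat k
    have h3 : (frob p C ^ ((n : ℤ) * -(k : ℤ))) ((frob p C ^ ((n : ℤ) * k)) ζ) = ζ := by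
      rw [← frob_zpow_add]
      simp
    rwa [h2] at h3

end Chai
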