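import Vale.Agent.Chai.ThetaDefs

/-!
# P217 / ThetaLow: lower bounds for `Θ_n`, independence of characters (part of Theta)

OWNER: helper27

The terms `N_i = ‖p‖^{-i} ‖φ^{ni} z‖` of `Θ_n(z) = ∑_{i ∈ ℤ} p^{-i} T(φ^{ni} z)` (`φ = frob p C`) satisfy
`N_{i+1}/N_i = ‖φ^{ni} z‖^{p^n - 1}/‖p‖`, strictly decreasing in `i` (`0 < ‖z‖ < 1`), `→ 0` for `i → ∞` and
`→ 1/‖p‖ > 1` for `i → -∞`.

PROOFS.
* `summable_theta`: `N_i → 0` for `i → ±∞`.
* `tlow_norm_frob_zpow`: `‖φ z‖ = ‖z‖^p`; `φ^m z = z^{p^m}` for `m ∈ ℕ`; strictly antitone in `m ∈ ℤ`.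
* `norm_theta_ge`: if no ratio is `1` there is exactly one maximal term, so `‖Θ_n z‖ = max N_i ≥ N_0 = ‖z‖`.
* `norm_theta_ge'`: if some ratio of `z` is `1` (`‖φ^{ni} z‖^{p^n-1} = ‖p‖`) then no ratio of `z^p` is
  `1`: `‖φ^{nj+1} z‖ = ‖φ^{ni} z‖` would give `nj + 1 = ni`, impossible for `n ≥ 2`.
* `exists_noncorner`: `w = τ^{1+pM}`, `M` large, `‖τ‖ = ‖p‖`: `‖φ^j w‖^{p^h-1} = ‖τ‖` means
  `(1+pM) p^j (p^h - 1) = 1`, impossible (`1 + pM > 1` is prime to `p`).
* `char_indep`: the `p^m` elements `T(ζ)`, `ζ^{p^m} = ζ`, are distinct roots of the polynomial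
  `∑_{k<m} A_k X^{p^k}` of degree `< p^m` (distinct: `T(ζ) = T(ζ')`, `ζ' ≠ 0`, gives `T(ζ/ζ') = 1`, so
  `‖ζ/ζ' - 1‖ ≤ ‖τ‖ < 1` by `U.π_T`, and `ξ = ζ/ζ' - 1` satisfies `ξ^{p^m} = ξ`, so `ξ = 0`).
-/

namespace Chai

open MvPowerSeries Filter Topology

universe u

section Aux

/-- in a sum with one term larger than all others the norm is the norm of this term -/
theorem tlow_norm_tsum_eq_of_lt {ι : Type*} {L : Type*} [NontriviallyNormedField L] [IsUltrametricDist L]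
    [CompleteSpace L] {f : ι → L} (hf : Tendsto f cofinite (𝓝 0)) (i0 : ι)
    (h : ∀ i, i ≠ i0 → ‖f i‖ < ‖f i0‖) : ‖∑' i, f i‖ = ‖f i0‖ := by
  classical
  by_cases h0 : ‖f i0‖ = 0
  · have h1 : ∀ i, f i = 0 := by
      intro i
      by_cases hi : i = i0
      · rw [hi]; exact norm_eq_zero.1 h0
      · have := h i hi
        rw [h0] at this
        exact absurd this (not_lt.2 (norm_nonneg _))
    simp [h1]
  have hpos : 0 < ‖f i0‖ := lt_of_le_of_ne (norm_nonneg _) (Ne.symm h0)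
  have hs : Summable f := NonarchimedeanAddGroup.summable_of_tendsto_cofinite_zero hf
  -- a uniform bound for the other terms
  have hfin : {i | ¬ ‖f i‖ < ‖f i0‖ / 2}.Finite := by
    have h2 : Tendsto (fun i => ‖f i‖) cofinite (𝓝 0) := by
      simpa using hf.norm
    exact h2.eventually (gt_mem_nhds (by positivity : (0 : ℝ) < ‖f i0‖ / 2))
  obtain ⟨ε, hε0, hε1, hε⟩ : ∃ ε : ℝ, 0 ≤ ε ∧ ε < ‖f i0‖ ∧ ∀ i, i ≠ i0 → ‖f i‖ ≤ ε := by
    let F := (hfin.toFinset.erase i0)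
    let ε := (insert (‖f i0‖ / 2) (F.image fun i => ‖f i‖)).max' (Finset.insert_nonempty _ _)
    have hle : ∀ x ∈ insert (‖f i0‖ / 2) (F.image fun i => ‖f i‖), x ≤ ε := fun x hx =>
      Finset.le_max' _ x hx
    refine ⟨ε, (by positivity : (0 : ℝ) ≤ ‖f i0‖ / 2).trans
      (hle _ (Finset.mem_insert_self _ _)), ?_, ?_⟩
    · rw [Finset.max'_lt_iff]
      intro y hy
      rw [Finset.mem_insert, Finset.mem_image] at hy
      rcases hy with rfl | ⟨i, hi, rfl⟩
      · linarith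
      · exact h i (Finset.mem_erase.1 hi).1
    · intro i hi
      by_cases h3 : ‖f i‖ < ‖f i0‖ / 2
      · exact h3.le.trans (hle _ (Finset.mem_insert_self _ _))
      · refine hle _ (Finset.mem_insert_of_mem (Finset.mem_image_of_mem _ ?_))
        exact Finset.mem_erase.2 ⟨hi, by rw [Set.Finite.mem_toFinset]; exact h3⟩
  rw [hs.tsum_eq_add_tsum_ite i0]
  have h4 : ‖∑' i, ite (i = i0) 0 (f i)‖ < ‖f i0‖ := by
    refine lt_of_le_of_lt (norm_tsum_le_of_forall hε0 fun i => ?_) hε1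
    split_ifs with hi
    · simpa using hε0
    · exact hε i hi
  exact IsUltrametricDist.norm_add_eq_max_of_norm_ne_norm h4.ne' |>.trans (max_eq_left h4.le)

/-- `s^{-i} r^{q^i} → 0` for `i → ±∞` -/
theorem tlow_tendsto_weight {s r : ℝ} (hs0 : 0 < s) (hs1 : s < 1) (hr0 : 0 < r) (hr1 : r < 1) {q : ℝ}
    (hq : 1 < q) : Tendsto (fun i : ℤ => s ^ (-i) * r ^ (q ^ i)) cofinite (𝓝 0) := by
  rw [Int.cofinite_eq, tendsto_sup]
  constructor
  · -- `i → -∞`
    have h1 : Tendsto (fun i : ℤ => s ^ i * r ^ (q ^ (-i))) atTop (𝓝 0) := by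
      rw [← Nat.map_cast_int_atTop, tendsto_map'_iff]
      have h2 : Tendsto (fun n : ℕ => s ^ n) atTop (𝓝 0) :=
        tendsto_pow_atTop_nhds_zero_of_lt_one hs0.le hs1
      refine squeeze_zero (fun i => ?_) (fun i => ?_) h2
      · simp only [Function.comp]
        positivity
      · simp only [Function.comp, zpow_natCast]
        calc s ^ i * r ^ (q ^ (-(i : ℤ))) ≤ s ^ i * 1 := by
              gcongr
              exact Real.rpow_le_one hr0.le hr1.le (by positivity)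
          _ = s ^ i := mul_one _
    have h3 := h1.comp (tendsto_neg_atBot_atTop (G := ℤ))
    refine h3.congr fun i => ?_
    simp only [Function.comp, neg_neg]
  · -- `i → ∞`
    rw [← Nat.map_cast_int_atTop, tendsto_map'_iff]
    set a := Real.log s with ha
    set b := Real.log r with hb
    have ha0 : a < 0 := Real.log_neg hs0 hs1
    have hb0 : b < 0 := Real.log_neg hr0 hr1
    have h1 : Tendsto (fun n : ℕ => (n : ℝ) ^ 1 / q ^ n) atTop (𝓝 0) :=
      tendsto_pow_const_div_const_pow_of_one_lt 1 hq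
    have h2 : Tendsto (fun n : ℕ => b + (-a) * ((n : ℝ) ^ 1 / q ^ n)) atTop (𝓝 b) := by
      simpa using (h1.const_mul (-a)).const_add b
    have h3 : Tendsto (fun n : ℕ => q ^ n * (b + (-a) * ((n : ℝ) ^ 1 / q ^ n))) atTop atBot :=
      (tendsto_pow_atTop_atTop_of_one_lt hq).atTop_mul_neg hb0 h2
    have h4 := Real.tendsto_exp_atBot.comp h3
    refine h4.congr fun n => ?_
    simp only [Function.comp]
    have hqn : (q : ℝ) ^ n ≠ 0 := by positivity
    have h5 : q ^ n * (b + (-a) * ((n : ℝ) ^ 1 / q ^ n)) = (-(n : ℝ)) * a + b * q ^ n := by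
      field_simp
      ring
    rw [h5, Real.exp_add, zpow_natCast, Real.rpow_def_of_pos hr0, ← hb, zpow_neg, zpow_natCast]
    congr 1
    rw [neg_mul, Real.exp_neg, ← Real.log_pow, Real.exp_log (by positivity)]

end Aux

variable (p : ℕ) [Fact p.Prime]
variable {C : Type u} [NontriviallyNormedField C] [IsUltrametricDist C] [CompleteSpace C]
variable [CharP C p] [IsAlgClosed C]
variable {τ : OC C} {L : Type u} [NontriviallyNormedField L] [IsUltrametricDist L]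
variable [CompleteSpace L] [CharZero L]
variable (U : UntiltData p C τ L) (h0 : (τ : C) ≠ 0) (h1 : ‖(τ : C)‖ < 1)

omit [IsUltrametricDist C] [CompleteSpace C] in
theorem tlow_frob_apply (z : C) : frob p C z = z ^ p := rfl

omit [IsUltrametricDist C] [CompleteSpace C] in
theorem tlow_frob_zpow_add_one (m : ℤ) (z : C) : (frob p C ^ (m + 1)) z = ((frob p C ^ m) z) ^ p := by
  rw [add_comm, zpow_add, zpow_one, RingAut.mul_apply, tlow_frob_apply]

omit [IsUltrametricDist C] [CompleteSpace C] in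
theorem tlow_frob_zpow_apply_pow (m : ℤ) (z : C) : (frob p C ^ m) (z ^ p) = (frob p C ^ (m + 1)) z := by
  rw [zpow_add, zpow_one, RingAut.mul_apply, tlow_frob_apply]

omit [IsUltrametricDist C] [CompleteSpace C] in
theorem tlow_frob_zpow_apply_pow_pow (m : ℤ) (z : C) (k : ℕ) :
    (frob p C ^ m) (z ^ p ^ k) = (frob p C ^ (m + k)) z := by
  induction k generalizing m with
  | zero => simp
  | succ k ih =>
    rw [pow_succ, pow_mul, tlow_frob_zpow_apply_pow, ih]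
    congr 2
    push_cast
    ring

omit [IsUltrametricDist C] [CompleteSpace C] in
theorem tlow_norm_frob_zpow (m : ℤ) {z : C} (hz : z ≠ 0) :
    ‖(frob p C ^ m) z‖ = ‖z‖ ^ ((p : ℝ) ^ m) := by
  have hp0 : (p : ℝ) ≠ 0 := by exact_mod_cast (Fact.out : p.Prime).ne_zero
  have hz' : 0 < ‖z‖ := norm_pos_iff.2 hz
  have hstep : ∀ k : ℤ, ‖(frob p C ^ (k + 1)) z‖ = ‖(frob p C ^ k) z‖ ^ (p : ℝ) := by
    intro k
    rw [tlow_frob_zpow_add_one, norm_pow, Real.rpow_natCast]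
  induction m using Int.induction_on with
  | zero => simp
  | succ i ih => rw [hstep, ih, ← Real.rpow_mul hz'.le, zpow_add_one₀ hp0]
  | pred i ih =>
    have h2 := hstep (-(i : ℤ) - 1)
    rw [sub_add_cancel, ih] at h2
    have h3 : ‖(frob p C ^ (-(i : ℤ) - 1)) z‖
        = (‖(frob p C ^ (-(i : ℤ) - 1)) z‖ ^ (p : ℝ)) ^ (p : ℝ)⁻¹ := by
      rw [← Real.rpow_mul (norm_nonneg _), mul_inv_cancel₀ hp0, Real.rpow_one]
    rw [h3, ← h2, ← Real.rpow_mul hz'.le, zpow_sub_one₀ hp0]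

include U h1 in
omit [CompleteSpace C] [CompleteSpace L] [CharZero L] [CharP C p] [IsAlgClosed C] in
theorem tlow_norm_p_lt : ‖(p : L)‖ < 1 := by
  rw [← U.T_tau, U.norm_T]
  exact h1

include U h0 in
omit [CompleteSpace C] [CompleteSpace L] [CharZero L] [CharP C p] [IsAlgClosed C] in
theorem tlow_norm_p_pos : 0 < ‖(p : L)‖ := by
  rw [← U.T_tau, U.norm_T]
  exact norm_pos_iff.2 h0

omit [CompleteSpace C] [CompleteSpace L] [CharZero L] in
theorem tlow_norm_theta_term {n : ℕ} (i : ℤ) {z : C} (hz : z ≠ 0) :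
    ‖(p : L) ^ (-i) * U.T ((frob p C ^ ((n : ℤ) * i)) z)‖ =
      ‖(p : L)‖ ^ (-i) * ‖z‖ ^ (((p : ℝ) ^ n) ^ i) := by
  rw [norm_mul, norm_zpow, U.norm_T, tlow_norm_frob_zpow p _ hz, zpow_mul, zpow_natCast]

include h0 h1

theorem tlow_tendsto_theta {n : ℕ} (hn : 1 ≤ n) {z : C} (hz : ‖z‖ < 1) :
    Tendsto (fun i : ℤ => (p : L) ^ (-i) * U.T ((frob p C ^ ((n : ℤ) * i)) z)) cofinite (𝓝 0) := by
  by_cases hz0 : z = 0
  · subst hz0
    simp
  rw [tendsto_zero_iff_norm_tendsto_zero]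
  simp only [tlow_norm_theta_term p U _ hz0]
  refine tlow_tendsto_weight (tlow_norm_p_pos p U h0) (tlow_norm_p_lt p U h1) (norm_pos_iff.2 hz0) hz ?_
  exact one_lt_pow₀ (by exact_mod_cast (Fact.out : p.Prime).one_lt) (by omega)

theorem summable_theta {n : ℕ} (hn : 1 ≤ n) {z : C} (hz : ‖z‖ < 1) :
    Summable fun i : ℤ => (p : L) ^ (-i) * U.T ((frob p C ^ ((n : ℤ) * i)) z) :=
  NonarchimedeanAddGroup.summable_of_tendsto_cofinite_zero (tlow_tendsto_theta p U h0 h1 hn hz)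

/-- a bound which only depends on `‖z‖` -/
theorem norm_theta_le {n : ℕ} (hn : 1 ≤ n) {r : ℝ} (hr0 : 0 ≤ r) (hr : r < 1) :
    ∃ B : ℝ, 0 ≤ B ∧ ∀ z : C, ‖z‖ ≤ r → ‖theta p U n z‖ ≤ B := by
  have hq : (1 : ℝ) < (p : ℝ) ^ n :=
    one_lt_pow₀ (by exact_mod_cast (Fact.out : p.Prime).one_lt) (by omega)
  set r' := max r (1 / 2) with hr'
  have hr'0 : 0 < r' := lt_max_of_lt_right (by norm_num)
  have hr'1 : r' < 1 := max_lt hr (by norm_num)
  have hs := tlow_norm_p_pos p U h0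
  have ht := tlow_tendsto_weight hs (tlow_norm_p_lt p U h1) hr'0 hr'1 hq
  have hb : ∃ B : ℝ, ∀ i : ℤ, ‖(p : L)‖ ^ (-i) * r' ^ (((p : ℝ) ^ n) ^ i) ≤ B := by
    have h2 : {i : ℤ | ¬ ‖(p : L)‖ ^ (-i) * r' ^ (((p : ℝ) ^ n) ^ i) < 1}.Finite :=
      ht.eventually (gt_mem_nhds one_pos)
    obtain ⟨B, hB⟩ := (h2.image fun i => ‖(p : L)‖ ^ (-i) * r' ^ (((p : ℝ) ^ n) ^ i)).bddAbove
    refine ⟨max 1 B, fun i => ?_⟩
    by_cases h3 : ‖(p : L)‖ ^ (-i) * r' ^ (((p : ℝ) ^ n) ^ i) < 1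
    · exact h3.le.trans (le_max_left _ _)
    · exact (hB ⟨i, h3, rfl⟩).trans (le_max_right _ _)
  obtain ⟨B, hB⟩ := hb
  refine ⟨max B 0, le_max_right _ _, fun z hz => ?_⟩
  refine norm_tsum_le_of_forall (le_max_right _ _) fun i => ?_
  by_cases hz0 : z = 0
  · subst hz0
    simp
  · rw [tlow_norm_theta_term p U i hz0]
    refine le_trans ?_ ((hB i).trans (le_max_left _ _))
    gcongr
    exact hz.trans (le_max_left _ _)

theorem norm_theta_ge {n : ℕ} (hn : 1 ≤ n) {z : C} (hz0 : z ≠ 0) (hz : ‖z‖ < 1)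
    (hc : ∀ i : ℤ, ‖(frob p C ^ ((n : ℤ) * i)) z‖ ^ (p ^ n - 1) ≠ ‖(p : L)‖) :
    ‖z‖ ≤ ‖theta p U n z‖ := by
  have hp1 : (1 : ℝ) < p := by exact_mod_cast (Fact.out : p.Prime).one_lt
  have hq : (1 : ℝ) < (p : ℝ) ^ n := one_lt_pow₀ hp1 (by omega)
  have hs := tlow_norm_p_pos p U h0
  have hs1 := tlow_norm_p_lt p U h1
  set s := ‖(p : L)‖ with hsdef
  set f : ℤ → L := fun i => (p : L) ^ (-i) * U.T ((frob p C ^ ((n : ℤ) * i)) z) with hf
  have ht : Tendsto f cofinite (𝓝 0) := tlow_tendsto_theta p U h0 h1 hn hz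
  have hzpos : 0 < ‖z‖ := norm_pos_iff.2 hz0
  have hpos : ∀ i, 0 < ‖f i‖ := by
    intro i
    rw [hf]
    simp only
    rw [tlow_norm_theta_term p U i hz0]
    positivity
  -- ratios
  have hratio : ∀ i, ‖f (i + 1)‖ = ‖f i‖ * (‖(frob p C ^ ((n : ℤ) * i)) z‖ ^ (p ^ n - 1) / s) := by
    intro i
    simp only [hf]
    rw [norm_mul, norm_mul, norm_zpow, norm_zpow, U.norm_T, U.norm_T, ← hsdef]
    have h2 : (frob p C ^ ((n : ℤ) * (i + 1))) z = ((frob p C ^ ((n : ℤ) * i)) z) ^ (p ^ n) := by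
      rw [mul_add, mul_one]
      have := tlow_frob_zpow_apply_pow_pow p ((n : ℤ) * i) z n
      rw [← this, map_pow]
    rw [h2, norm_pow, neg_add, zpow_add₀ hs.ne', zpow_neg_one]
    have h3 : p ^ n = (p ^ n - 1) + 1 := by
      have : 1 ≤ p ^ n := Nat.one_le_pow _ _ (Fact.out : p.Prime).pos
      omega
    conv_lhs => rw [h3, pow_succ]
    field_simp
  set ρ : ℤ → ℝ := fun i => ‖(frob p C ^ ((n : ℤ) * i)) z‖ ^ (p ^ n - 1) / s with hρ
  have hρanti : StrictAnti ρ := by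
    refine strictAnti_int_of_succ_lt fun i => ?_
    simp only [hρ]
    have h3 : p ^ n - 1 ≠ 0 := by
      have : 1 < p ^ n := Nat.one_lt_pow (by omega) (Fact.out : p.Prime).one_lt
      omega
    have h4 : ‖(frob p C ^ ((n : ℤ) * (i + 1))) z‖ < ‖(frob p C ^ ((n : ℤ) * i)) z‖ := by
      rw [tlow_norm_frob_zpow p _ hz0, tlow_norm_frob_zpow p _ hz0]
      refine Real.rpow_lt_rpow_of_exponent_gt hzpos hz ?_
      refine zpow_lt_zpow_right₀ hp1 ?_
      have : (0 : ℤ) < n := by exact_mod_cast hn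
      nlinarith
    gcongr
  -- a maximal term
  obtain ⟨i0, hi0⟩ : ∃ i0, ∀ i, ‖f i‖ ≤ ‖f i0‖ := by
    have h2 : {i : ℤ | ¬ ‖f i‖ < ‖f 0‖}.Finite := by
      have h3 : Tendsto (fun i => ‖f i‖) cofinite (𝓝 0) := by simpa using ht.norm
      exact h3.eventually (gt_mem_nhds (hpos 0))
    have h3 : (0 : ℤ) ∈ h2.toFinset := by
      rw [Set.Finite.mem_toFinset]
      exact lt_irrefl _
    obtain ⟨i0, hi0, hmax⟩ := Finset.exists_max_image h2.toFinset (fun i => ‖f i‖) ⟨0, h3⟩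
    refine ⟨i0, fun i => ?_⟩
    by_cases h4 : ‖f i‖ < ‖f 0‖
    · exact h4.le.trans (hmax 0 h3)
    · exact hmax i (by rw [Set.Finite.mem_toFinset]; exact h4)
  have hρne : ∀ i, ρ i ≠ 1 := by
    intro i h2
    exact hc i ((div_eq_one_iff_eq hs.ne').1 h2)
  have hup : ρ i0 < 1 := by
    refine lt_of_le_of_ne ?_ (hρne i0)
    have h2 := hi0 (i0 + 1)
    rw [hratio] at h2
    exact (mul_le_iff_le_one_right (hpos i0)).1 h2
  have hdown : 1 < ρ (i0 - 1) := by
    refine lt_of_le_of_ne ?_ (hρne _).symm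
    have h2 := hi0 (i0 - 1)
    have h3 := hratio (i0 - 1)
    rw [sub_add_cancel] at h3
    rw [h3] at h2
    exact (le_mul_iff_one_le_right (hpos _)).1 h2
  have hgt : ∀ k : ℕ, ‖f (i0 + k + 1)‖ < ‖f i0‖ := by
    intro k
    induction k with
    | zero =>
      rw [Nat.cast_zero, add_zero, hratio]
      exact mul_lt_of_lt_one_right (hpos _) hup
    | succ k ih =>
      have h2 : i0 + ((k + 1 : ℕ) : ℤ) + 1 = (i0 + k + 1) + 1 := by push_cast; ring
      rw [h2, hratio]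
      refine lt_trans (mul_lt_of_lt_one_right (hpos _) ?_) ih
      exact lt_trans (hρanti (by omega)) hup
  have hlt : ∀ k : ℕ, ‖f (i0 - 1 - k)‖ < ‖f i0‖ := by
    intro k
    induction k with
    | zero =>
      have h3 := hratio (i0 - 1)
      rw [sub_add_cancel] at h3
      rw [Nat.cast_zero, sub_zero, h3]
      exact lt_mul_of_one_lt_right (hpos _) hdown
    | succ k ih =>
      have h2 : i0 - 1 - ((k + 1 : ℕ) : ℤ) + 1 = i0 - 1 - k := by push_cast; ring
      have h3 := hratio (i0 - 1 - ((k + 1 : ℕ) : ℤ))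
      rw [h2] at h3
      refine lt_trans ?_ ih
      rw [h3]
      refine lt_mul_of_one_lt_right (hpos _) (lt_trans hdown (hρanti ?_))
      push_cast
      omega
  have hne : ∀ i, i ≠ i0 → ‖f i‖ < ‖f i0‖ := by
    intro i hi
    rcases lt_or_gt_of_ne hi with h2 | h2
    · have := hlt (i0 - 1 - i).toNat
      rwa [Int.toNat_of_nonneg (by omega), sub_sub_cancel] at this
    · have := hgt (i - i0 - 1).toNat
      rw [Int.toNat_of_nonneg (by omega)] at this
      rwa [show i0 + (i - i0 - 1) + 1 = i by ring] at this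
  have hfin : ‖theta p U n z‖ = ‖f i0‖ := tlow_norm_tsum_eq_of_lt ht i0 hne
  rw [hfin]
  have h4 : ‖f 0‖ = ‖z‖ := by
    simp only [hf]
    rw [norm_mul, U.norm_T]
    simp
  rw [← h4]
  exact hi0 0

theorem norm_theta_ge' {n : ℕ} (hn : 2 ≤ n) {z : C} (hz : ‖z‖ < 1) :
    ‖z‖ ^ p ≤ max ‖theta p U n z‖ ‖theta p U n (z ^ p)‖ := by
  have hp : p.Prime := Fact.out
  have hp1 : (1 : ℝ) < p := by exact_mod_cast hp.one_lt
  by_cases hz0 : z = 0
  · subst hz0
    rw [norm_zero, zero_pow hp.ne_zero]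
    exact le_max_of_le_left (norm_nonneg _)
  have hzpos : 0 < ‖z‖ := norm_pos_iff.2 hz0
  by_cases hc : ∀ i : ℤ, ‖(frob p C ^ ((n : ℤ) * i)) z‖ ^ (p ^ n - 1) ≠ ‖(p : L)‖
  · refine le_max_of_le_left (le_trans ?_ (norm_theta_ge p U h0 h1 (by omega) hz0 hz hc))
    exact pow_le_of_le_one (norm_nonneg _) hz.le hp.ne_zero
  · push Not at hc
    obtain ⟨i, hi⟩ := hc
    refine le_max_of_le_right ?_
    rw [← norm_pow]
    refine norm_theta_ge p U h0 h1 (by omega) (pow_ne_zero _ hz0) ?_ ?_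
    · rw [norm_pow]
      exact pow_lt_one₀ (norm_nonneg _) hz hp.ne_zero
    · intro j hj
      rw [tlow_frob_zpow_apply_pow, ← hi] at hj
      have h3 : p ^ n - 1 ≠ 0 := by
        have : 1 < p ^ n := Nat.one_lt_pow (by omega) hp.one_lt
        omega
      have h4 := (pow_left_inj₀ (norm_nonneg _) (norm_nonneg _) h3).1 hj
      rw [tlow_norm_frob_zpow p _ hz0, tlow_norm_frob_zpow p _ hz0] at h4
      have h5 : (p : ℝ) ^ ((n : ℤ) * j + 1) = (p : ℝ) ^ ((n : ℤ) * i) := by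
        by_contra hne
        rcases lt_or_gt_of_ne hne with h6 | h6
        · exact absurd h4 (Real.rpow_lt_rpow_of_exponent_gt hzpos hz h6).ne'
        · exact absurd h4 (Real.rpow_lt_rpow_of_exponent_gt hzpos hz h6).ne
      have h6 : (n : ℤ) * j + 1 = n * i := zpow_right_injective₀ (by linarith) hp1.ne' h5
      have h7 : (n : ℤ) ∣ 1 := ⟨i - j, by linarith⟩
      have h8 : (n : ℤ) ≤ 1 := Int.le_of_dvd one_pos h7
      omega

theorem exists_noncorner {h : ℕ} (hh : 1 ≤ h) {ε : ℝ} (hε : 0 < ε) :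
    ∃ w : C, ‖w‖ < ε ∧ ∀ k : ℕ, theta p U h (w ^ p ^ k) ≠ 0 := by
  have hp : p.Prime := Fact.out
  have hp1 : (1 : ℝ) < p := by exact_mod_cast hp.one_lt
  have hs : ‖(p : L)‖ = ‖(τ : C)‖ := by rw [← U.T_tau, U.norm_T]
  have hτ : 0 < ‖(τ : C)‖ := norm_pos_iff.2 h0
  obtain ⟨M, hM⟩ := exists_pow_lt_of_lt_one hε h1
  set K := 1 + p * (M + 1) with hK
  have hK1 : 1 < K := by
    have := hp.pos
    have : 0 < p * (M + 1) := by positivity
    omega
  have hKM : M ≤ K := by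
    have := hp.pos
    have : M + 1 ≤ p * (M + 1) := Nat.le_mul_of_pos_left _ hp.pos
    omega
  have hKp : Nat.Coprime K p := by
    rw [hK]
    simp
  refine ⟨(τ : C) ^ K, ?_, fun k => ?_⟩
  · rw [norm_pow]
    exact lt_of_le_of_lt (pow_le_pow_of_le_one (norm_nonneg _) h1.le hKM) hM
  have hw0 : (τ : C) ^ K ≠ 0 := pow_ne_zero _ h0
  have hw1 : ‖(τ : C) ^ K‖ < 1 := by
    rw [norm_pow]
    exact pow_lt_one₀ (norm_nonneg _) h1 (by omega)
  have hwk0 : ((τ : C) ^ K) ^ p ^ k ≠ 0 := pow_ne_zero _ hw0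
  have hwk1 : ‖((τ : C) ^ K) ^ p ^ k‖ < 1 := by
    rw [norm_pow]
    exact pow_lt_one₀ (norm_nonneg _) hw1 (pow_ne_zero _ hp.ne_zero)
  have hge := norm_theta_ge p U h0 h1 hh hwk0 hwk1 ?_
  · intro h2
    rw [h2, norm_zero] at hge
    exact absurd (norm_pos_iff.2 hwk0) (not_lt.2 hge)
  · intro i hi
    rw [tlow_frob_zpow_apply_pow_pow, tlow_norm_frob_zpow p _ hw0, hs, norm_pow, ← Real.rpow_natCast,
      ← Real.rpow_natCast, ← Real.rpow_mul hτ.le, ← Real.rpow_mul hτ.le] at hi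
    set j : ℤ := (h : ℤ) * i + k with hj
    have h3 : (K : ℝ) * (p : ℝ) ^ j * ((p ^ h - 1 : ℕ) : ℝ) = 1 := by
      have h4 : ‖(τ : C)‖ ^ ((K : ℝ) * (p : ℝ) ^ j * ((p ^ h - 1 : ℕ) : ℝ)) = ‖(τ : C)‖ ^ (1 : ℝ) := by
        rw [Real.rpow_one]; exact hi
      by_contra hne
      rcases lt_or_gt_of_ne hne with h6 | h6
      · exact absurd h4 (Real.rpow_lt_rpow_of_exponent_gt hτ h1 h6).ne'
      · exact absurd h4 (Real.rpow_lt_rpow_of_exponent_gt hτ h1 h6).ne
    have hq : 1 ≤ p ^ h - 1 := by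
      have : 1 < p ^ h := Nat.one_lt_pow (by omega) hp.one_lt
      omega
    rcases le_or_gt 0 j with hj0 | hj0
    · have h4 : (1 : ℝ) ≤ (p : ℝ) ^ j := one_le_zpow₀ hp1.le hj0
      have h5 : (1 : ℝ) ≤ ((p ^ h - 1 : ℕ) : ℝ) := by exact_mod_cast hq
      have h6 : (1 : ℝ) < K := by exact_mod_cast hK1
      have h7 : (K : ℝ) * 1 * 1 ≤ (K : ℝ) * (p : ℝ) ^ j * ((p ^ h - 1 : ℕ) : ℝ) := by gcongr
      rw [h3] at h7
      linarith
    · obtain ⟨l, hl⟩ : ∃ l : ℕ, j = -((l : ℤ) + 1) := ⟨(-j - 1).toNat, by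
        rw [Int.toNat_of_nonneg (by omega)]; ring⟩
      rw [hl, zpow_neg] at h3
      have hpl : ((p : ℝ) ^ ((l : ℤ) + 1)) ≠ 0 := by positivity
      have h4 : (K : ℝ) * ((p ^ h - 1 : ℕ) : ℝ) = (p : ℝ) ^ (l + 1) := by
        have h5 : (p : ℝ) ^ ((l : ℤ) + 1) = (p : ℝ) ^ (l + 1) := by
          rw [← zpow_natCast]; push_cast; rfl
        rw [h5] at h3 hpl
        field_simp at h3
        linarith
      have h5 : K * (p ^ h - 1) = p ^ (l + 1) := by exact_mod_cast h4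
      have h6 : p ∣ K * (p ^ h - 1) := by
        rw [h5]; exact dvd_pow_self p (Nat.succ_ne_zero l)
      have h7 : p ∣ p ^ h - 1 := (hKp.symm).dvd_of_dvd_mul_left h6
      have h8 : p ∣ 1 := by
        have h9 : p ∣ p ^ h := dvd_pow_self p (by omega)
        have h10 : p ^ h - (p ^ h - 1) = 1 := by omega
        rw [← h10]
        exact Nat.dvd_sub h9 h7
      exact hp.one_lt.ne' (Nat.dvd_one.1 h8)

theorem char_indep {m : ℕ} (hm : 1 ≤ m) (A : ℕ → L)
    (hA : ∀ ζ : C, ζ ^ p ^ m = ζ → ∑ k ∈ Finset.range m, A k * U.T ζ ^ p ^ k = 0) :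
    ∀ k < m, A k = 0 := by
  classical
  have hp : p.Prime := Fact.out
  have hpm : 1 < p ^ m := Nat.one_lt_pow (by omega) hp.one_lt
  -- the roots
  let Q : Polynomial C := Polynomial.X ^ p ^ m - Polynomial.X
  have hQsep : Q.Separable := galois_poly_separable p (p ^ m) (dvd_pow_self p (by omega))
  have hQ0 : Q ≠ 0 := FiniteField.X_pow_card_pow_sub_X_ne_zero C (by omega) hp.one_lt
  have hQcard : Q.roots.toFinset.card = p ^ m := by
    rw [Multiset.toFinset_card_of_nodup (Polynomial.nodup_roots hQsep),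
      ← (IsAlgClosed.splits Q).natDegree_eq_card_roots]
    exact FiniteField.X_pow_card_pow_sub_X_natDegree_eq C (by omega) hp.one_lt
  have hroot : ∀ ζ, ζ ∈ Q.roots.toFinset ↔ ζ ^ p ^ m = ζ := by
    intro ζ
    rw [Multiset.mem_toFinset, Polynomial.mem_roots hQ0]
    simp [Q, Polynomial.IsRoot, sub_eq_zero]
  have hinj : Set.InjOn (fun ζ => U.T ζ) (Q.roots.toFinset : Set C) := by
    intro ζ hζ ζ' hζ' heq
    rw [Finset.mem_coe, hroot] at hζ hζ'
    simp only at heq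
    by_cases hz : ζ' = 0
    · subst hz
      rw [map_zero] at heq
      have h2 := U.norm_T ζ
      rw [heq, norm_zero] at h2
      exact norm_eq_zero.1 h2.symm
    set δ := ζ / ζ' with hδ
    have hTδ : U.T δ = 1 := by
      have hT0 : U.T ζ' ≠ 0 := (map_ne_zero U.T).2 hz
      rw [hδ, map_div₀, heq, div_self hT0]
    have hδn : ‖δ‖ = 1 := by rw [← U.norm_T, hTδ, norm_one]
    have hδr : δ ^ p ^ m = δ := by rw [hδ, div_pow, hζ, hζ']
    let δ' : OC C := ⟨δ, hδn.le⟩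
    have hπ := U.π_T δ' 1 (by rw [OneMemClass.coe_one]; exact hTδ.symm)
    rw [map_one, eq_comm, ← map_one (Ideal.Quotient.mk (Ideal.span {τ})), Ideal.Quotient.eq,
      Ideal.mem_span_singleton'] at hπ
    obtain ⟨a, ha⟩ := hπ
    have h3 : ‖δ - 1‖ < 1 := by
      have h4 : (a : C) * (τ : C) = δ - 1 := congrArg Subtype.val ha
      rw [← h4, norm_mul]
      calc ‖(a : C)‖ * ‖(τ : C)‖ ≤ 1 * ‖(τ : C)‖ := by
            gcongr
            exact a.2
        _ < 1 := by rw [one_mul]; exact h1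
    have h5 : (δ - 1) ^ p ^ m = δ - 1 := by rw [sub_pow_char_pow, hδr, one_pow]
    have h6 : δ - 1 = 0 := by
      by_contra hne
      have h7 : ‖δ - 1‖ ^ p ^ m = ‖δ - 1‖ := by rw [← norm_pow, h5]
      have h8 : ‖δ - 1‖ ^ p ^ m < ‖δ - 1‖ := by
        have h9 : 0 < ‖δ - 1‖ := norm_pos_iff.2 hne
        calc ‖δ - 1‖ ^ p ^ m < ‖δ - 1‖ ^ 1 := pow_lt_pow_right_of_lt_one₀ h9 h3 hpm
          _ = ‖δ - 1‖ := pow_one _
      exact absurd h7 h8.ne
    rw [sub_eq_zero, hδ, div_eq_one_iff_eq hz] at h6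
    exact h6
  let P : Polynomial L := ∑ k ∈ Finset.range m, Polynomial.C (A k) * Polynomial.X ^ p ^ k
  have hPdeg : P.natDegree < p ^ m := by
    refine lt_of_le_of_lt (Polynomial.natDegree_sum_le_of_forall_le (n := p ^ (m - 1)) _ _ ?_) ?_
    · intro k hk
      refine (Polynomial.natDegree_C_mul_X_pow_le _ _).trans ?_
      have := Finset.mem_range.1 hk
      exact Nat.pow_le_pow_right hp.pos (by omega)
    · exact Nat.pow_lt_pow_right hp.one_lt (by omega)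
  have hP0 : P = 0 := by
    refine Polynomial.eq_zero_of_natDegree_lt_card_of_eval_eq_zero' P
      (Q.roots.toFinset.image fun ζ => U.T ζ) ?_ ?_
    · intro y hy
      obtain ⟨ζ, hζ, rfl⟩ := Finset.mem_image.1 hy
      rw [hroot] at hζ
      have := hA ζ hζ
      rw [← this]
      simp [P, Polynomial.eval_finsetSum]
    · rw [Finset.card_image_of_injOn hinj, hQcard]
      exact hPdeg
  intro k hk
  have h2 : P.coeff (p ^ k) = A k := by
    simp only [P, Polynomial.finsetSum_coeff, Polynomial.coeff_C_mul, Polynomial.coeff_X_pow]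
    rw [Finset.sum_eq_single k]
    · simp
    · intro j _ hj
      rw [if_neg, mul_zero]
      intro h3
      exact hj (Nat.pow_right_injective hp.two_le h3.symm)
    · intro h3
      exact absurd (Finset.mem_range.2 hk) h3
  rw [← h2, hP0, Polynomial.coeff_zero]

end Chai
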