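import Vale.Agent.Chai.ThetaDefs

/-!
# P217 / ThetaRel: congruences between `C` and its untilt `L` (part of Theta)

OWNER: helper29

`Rel U y a`: `‖y‖ ≤ 1` and `a ≡ T(y) mod p` in `O_L`.  Stable under ring operations and limits.

PROOFS.
* `norm_p`: `T τ = p`, `norm_T`.
* `T_add`: `π(T(y+y')) = y + y' = π(T y + T y')`, so `π` of the difference is `0` (`π_eq_zero`, `π_T`).
* `add`, `mul`: algebra with the ultrametric inequality; `natCast`, `intCast` from `T 1 = 1`, `add`, `neg`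
  (`T(-y) ≡ -T(y)` by the same argument as `T_add`).
* `congr`: `‖y - y'‖ ≤ ‖τ‖`: `T(y') ≡ T(y) + T(y' - y)`, `‖T(y' - y)‖ ≤ ‖τ‖ = ‖p‖`.
* `tsum`: both series have a common finite set of indices with both tails of norm `≤ ‖τ‖` (`HasSum` is a
  limit along `atTop`, take an element of the intersection of the two eventual sets), then `congr`.
* `ev`: `tsum` applied to the defining series (`ev a f = ∑' d, …`, `summable_ev`).
* `complete`: `(p)^k = {‖a‖ ≤ ‖p‖^k}`.
-/

namespace Chai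

open MvPowerSeries Filter Topology

universe u

section complete

variable (p : ℕ) [Fact p.Prime]
variable {L : Type*} [NontriviallyNormedField L] [IsUltrametricDist L] [CompleteSpace L]
variable [CharZero L]

theorem rel_norm_sub_le {L : Type*} [NontriviallyNormedField L] [IsUltrametricDist L] (x y : L) :
    ‖x - y‖ ≤ max ‖x‖ ‖y‖ := by
  rw [sub_eq_add_neg, ← norm_neg y]
  exact IsUltrametricDist.norm_add_le_max x (-y)

omit [CompleteSpace L] [CharZero L] in
theorem OC_dvd_iff {a b : OC L} : a ∣ b ↔ ‖(b : L)‖ ≤ ‖(a : L)‖ := by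
  constructor
  · rintro ⟨c, rfl⟩
    rw [Subring.coe_mul, norm_mul]
    exact mul_le_of_le_one_right (norm_nonneg _) c.2
  · intro h
    by_cases ha : (a : L) = 0
    · rw [ha, norm_zero] at h
      have hb : (b : L) = 0 := norm_le_zero_iff.mp h
      have hb' : b = 0 := Subtype.ext hb
      rw [hb']
      exact dvd_zero a
    · have hc : ‖(b : L) / a‖ ≤ 1 := by
        rw [norm_div]
        exact div_le_one_of_le₀ h (norm_nonneg _)
      refine ⟨⟨(b : L) / a, hc⟩, Subtype.ext ?_⟩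
      rw [Subring.coe_mul]
      change (b : L) = a * ((b : L) / a)
      field_simp

omit [CompleteSpace L] [CharZero L] [Fact p.Prime] in
theorem OC_mem_pow_iff {a : OC L} {k : ℕ} :
    a ∈ (Ideal.span {(p : OC L)}) ^ k • (⊤ : Submodule (OC L) (OC L)) ↔
      ‖(a : L)‖ ≤ ‖(p : L)‖ ^ k := by
  rw [Ideal.span_singleton_pow, smul_eq_mul, Ideal.mul_top, Ideal.mem_span_singleton, OC_dvd_iff,
    Subring.coe_pow, norm_pow]
  rfl

/-- `O_L` is `p`-adically complete -/
theorem OC_adicComplete (hp : ‖(p : L)‖ < 1) : IsAdicComplete (Ideal.span {(p : OC L)}) (OC L) where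
  haus' := by
    intro x hx
    have h1 : ∀ k : ℕ, ‖(x : L)‖ ≤ ‖(p : L)‖ ^ k := by
      intro k
      have := hx k
      rw [SModEq.zero] at this
      exact (OC_mem_pow_iff p).mp this
    have h2 : ‖(x : L)‖ ≤ 0 :=
      ge_of_tendsto' (tendsto_pow_atTop_nhds_zero_of_lt_one (norm_nonneg _) hp) h1
    exact Subtype.ext (norm_le_zero_iff.mp h2)
  prec' := by
    intro f hf
    have h1 : ∀ {m n : ℕ}, m ≤ n → ‖(f m : L) - f n‖ ≤ ‖(p : L)‖ ^ m := by
      intro m n hmn
      have := hf hmn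
      rw [SModEq.sub_mem] at this
      exact (OC_mem_pow_iff p).mp this
    have hlim := tendsto_pow_atTop_nhds_zero_of_lt_one (norm_nonneg (p : L)) hp
    have hc : CauchySeq (fun n => (f n : L)) := by
      refine cauchySeq_of_le_tendsto_0' (fun n => ‖(p : L)‖ ^ n) ?_ hlim
      intro m n hmn
      rw [dist_eq_norm]
      exact h1 hmn
    obtain ⟨l, hl⟩ := cauchySeq_tendsto_of_complete hc
    have h2 : ∀ m, ‖(f m : L) - l‖ ≤ ‖(p : L)‖ ^ m := by
      intro m
      have h3 : Tendsto (fun n => ‖(f m : L) - f n‖) atTop (𝓝 ‖(f m : L) - l‖) :=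
        (tendsto_const_nhds.sub hl).norm
      exact le_of_tendsto h3 (eventually_atTop.mpr ⟨m, fun n hn => h1 hn⟩)
    have h3 : ‖l‖ ≤ 1 :=
      le_of_tendsto hl.norm (Eventually.of_forall fun n => (f n).2)
    refine ⟨⟨l, h3⟩, fun n => ?_⟩
    rw [SModEq.sub_mem]
    exact (OC_mem_pow_iff p).mpr (h2 n)

end complete

variable (p : ℕ) [Fact p.Prime]
variable {C : Type u} [NontriviallyNormedField C] [IsUltrametricDist C] [CompleteSpace C]
variable [CharP C p] [IsAlgClosed C]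
variable {τ : OC C} {L : Type u} [NontriviallyNormedField L] [IsUltrametricDist L]
variable (U : UntiltData p C τ L)

set_option linter.unusedSectionVars false

/-- `a ≡ T(y) mod p` -/
def Rel (y : C) (a : L) : Prop := ‖y‖ ≤ 1 ∧ ‖a - U.T y‖ ≤ ‖(p : L)‖

include U in
theorem UntiltData.norm_p : ‖(p : L)‖ = ‖(τ : C)‖ := by
  rw [← U.T_tau, U.norm_T]

theorem UntiltData.T_add {y z : C} (hy : ‖y‖ ≤ 1) (hz : ‖z‖ ≤ 1) :
    ‖U.T (y + z) - (U.T y + U.T z)‖ ≤ ‖(p : L)‖ := by
  have hyz : ‖y + z‖ ≤ 1 := (IsUltrametricDist.norm_add_le_max y z).trans (max_le hy hz)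
  let y' : OC C := ⟨y, hy⟩
  let z' : OC C := ⟨z, hz⟩
  let a : OC L := ⟨U.T y, by change ‖U.T y‖ ≤ 1; rw [U.norm_T]; exact hy⟩
  let b : OC L := ⟨U.T z, by change ‖U.T z‖ ≤ 1; rw [U.norm_T]; exact hz⟩
  let c : OC L := ⟨U.T (y + z), by change ‖U.T (y + z)‖ ≤ 1; rw [U.norm_T]; exact hyz⟩
  have h1 : U.π (c - (a + b)) = 0 := by
    rw [map_sub, map_add, U.π_T y' a rfl, U.π_T z' b rfl, U.π_T (y' + z') c rfl, map_add, sub_self]
  have h2 := (U.π_eq_zero _).mp h1
  rw [U.norm_p]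
  exact h2

variable {p U}

theorem Rel.of {y : C} (hy : ‖y‖ ≤ 1) : Rel p U y (U.T y) := ⟨hy, by simp⟩

theorem Rel.norm_le {y : C} {a : L} (h : Rel p U y a) (h1 : ‖(τ : C)‖ ≤ 1) : ‖a‖ ≤ 1 := by
  have h2 : a = (a - U.T y) + U.T y := by ring
  rw [h2]
  refine (IsUltrametricDist.norm_add_le_max _ _).trans (max_le (h.2.trans ?_) ?_)
  · rw [U.norm_p]; exact h1
  · rw [U.norm_T]; exact h.1

theorem Rel.zero : Rel p U 0 0 := by
  have := Rel.of (p := p) (U := U) (y := 0) (by simp)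
  rwa [map_zero] at this

theorem Rel.one : Rel p U 1 1 := by
  have := Rel.of (p := p) (U := U) (y := 1) (by simp)
  rwa [map_one] at this

theorem Rel.add {y z : C} {a b : L} (h : Rel p U y a) (h' : Rel p U z b) :
    Rel p U (y + z) (a + b) := by
  refine ⟨(IsUltrametricDist.norm_add_le_max y z).trans (max_le h.1 h'.1), ?_⟩
  have h2 : a + b - U.T (y + z) =
      (a - U.T y) + (b - U.T z) - (U.T (y + z) - (U.T y + U.T z)) := by ring
  rw [h2]
  refine (rel_norm_sub_le _ _).trans (max_le ?_ (U.T_add p h.1 h'.1))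
  exact (IsUltrametricDist.norm_add_le_max _ _).trans (max_le h.2 h'.2)

theorem Rel.neg {y : C} {a : L} (h : Rel p U y a) : Rel p U (-y) (-a) := by
  have hy : ‖-y‖ ≤ 1 := by rw [norm_neg]; exact h.1
  refine ⟨hy, ?_⟩
  have h3 := U.T_add p h.1 hy
  rw [add_neg_cancel, map_zero, zero_sub, norm_neg] at h3
  have h2 : -a - U.T (-y) = -(a - U.T y) - (U.T y + U.T (-y)) := by ring
  rw [h2]
  refine (rel_norm_sub_le _ _).trans (max_le ?_ h3)
  rw [norm_neg]
  exact h.2

theorem Rel.mul (h1 : ‖(τ : C)‖ ≤ 1) {y z : C} {a b : L} (h : Rel p U y a) (h' : Rel p U z b) :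
    Rel p U (y * z) (a * b) := by
  refine ⟨by rw [norm_mul]; exact mul_le_one₀ h.1 (norm_nonneg _) h'.1, ?_⟩
  have h2 : a * b - U.T (y * z) = a * (b - U.T z) + (a - U.T y) * U.T z := by
    rw [map_mul]; ring
  rw [h2]
  refine (IsUltrametricDist.norm_add_le_max _ _).trans (max_le ?_ ?_)
  · rw [norm_mul]
    exact (mul_le_of_le_one_left (norm_nonneg _) (h.norm_le h1)).trans h'.2
  · rw [norm_mul]
    refine (mul_le_of_le_one_right (norm_nonneg _) ?_).trans h.2
    rw [U.norm_T]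
    exact h'.1

theorem Rel.pow (h1 : ‖(τ : C)‖ ≤ 1) {y : C} {a : L} (h : Rel p U y a) (m : ℕ) :
    Rel p U (y ^ m) (a ^ m) := by
  induction m with
  | zero => simpa using Rel.one
  | succ m ih =>
    rw [pow_succ, pow_succ]
    exact ih.mul h1 h

theorem Rel.natCast (m : ℕ) : Rel p U (m : C) (m : L) := by
  induction m with
  | zero => simpa using Rel.zero
  | succ m ih =>
    rw [Nat.cast_succ, Nat.cast_succ]
    exact ih.add Rel.one

theorem Rel.intCast (h1 : ‖(τ : C)‖ ≤ 1) (m : ℤ) : Rel p U (m : C) (m : L) := by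
  obtain ⟨n, rfl | rfl⟩ := m.eq_nat_or_neg
  · simpa using Rel.natCast n
  · simpa using (Rel.natCast n).neg

theorem Rel.sum {ι : Type*} (s : Finset ι) {f : ι → C} {g : ι → L}
    (h : ∀ i ∈ s, Rel p U (f i) (g i)) : Rel p U (∑ i ∈ s, f i) (∑ i ∈ s, g i) := by
  classical
  induction s using Finset.induction_on with
  | empty => simpa using Rel.zero
  | insert i s hi ih =>
    rw [Finset.sum_insert hi, Finset.sum_insert hi]
    exact (h i (Finset.mem_insert_self i s)).add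
      (ih fun j hj => h j (Finset.mem_insert_of_mem hj))

theorem Rel.prod (h1 : ‖(τ : C)‖ ≤ 1) {ι : Type*} (s : Finset ι) {f : ι → C} {g : ι → L}
    (h : ∀ i ∈ s, Rel p U (f i) (g i)) : Rel p U (∏ i ∈ s, f i) (∏ i ∈ s, g i) := by
  classical
  induction s using Finset.induction_on with
  | empty => simpa using Rel.one
  | insert i s hi ih =>
    rw [Finset.prod_insert hi, Finset.prod_insert hi]
    exact (h i (Finset.mem_insert_self i s)).mul h1
      (ih fun j hj => h j (Finset.mem_insert_of_mem hj))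

theorem Rel.congr (h1 : ‖(τ : C)‖ ≤ 1) {y y' : C} {a a' : L} (h : Rel p U y a)
    (hy : ‖y - y'‖ ≤ ‖(τ : C)‖) (ha : ‖a - a'‖ ≤ ‖(p : L)‖) : Rel p U y' a' := by
  have hd : ‖y' - y‖ ≤ ‖(τ : C)‖ := by rw [norm_sub_rev]; exact hy
  have h2 := U.T_add p h.1 (hd.trans h1)
  rw [add_sub_cancel] at h2
  have h3 : y' = y + (y' - y) := by ring
  refine ⟨?_, ?_⟩
  · rw [h3]
    exact (IsUltrametricDist.norm_add_le_max _ _).trans (max_le h.1 (hd.trans h1))
  · have h4 : a' - U.T y' = ((a - U.T y) - (a - a')) -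
        ((U.T y' - (U.T y + U.T (y' - y))) + U.T (y' - y)) := by ring
    rw [h4]
    refine (rel_norm_sub_le _ _).trans (max_le ?_ ?_)
    · exact (rel_norm_sub_le _ _).trans (max_le h.2 ha)
    · refine (IsUltrametricDist.norm_add_le_max _ _).trans (max_le h2 ?_)
      rw [U.norm_T, U.norm_p]
      exact hd

theorem Rel.tsum (h0 : (τ : C) ≠ 0) (h1 : ‖(τ : C)‖ ≤ 1) {ι : Type*} {f : ι → C} {g : ι → L}
    (hf : Summable f) (hg : Summable g) (h : ∀ i, Rel p U (f i) (g i)) :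
    Rel p U (∑' i, f i) (∑' i, g i) := by
  have hτ : 0 < ‖(τ : C)‖ := norm_pos_iff.mpr h0
  have e1 := Metric.tendsto_nhds.mp hf.hasSum ‖(τ : C)‖ hτ
  have e2 := Metric.tendsto_nhds.mp hg.hasSum ‖(τ : C)‖ hτ
  obtain ⟨s, hs1, hs2⟩ := (e1.and e2).exists
  rw [dist_eq_norm] at hs1 hs2
  refine (Rel.sum s fun i _ => h i).congr h1 hs1.le ?_
  rw [U.norm_p]
  exact hs2.le

theorem Rel.ev [CompleteSpace L] (h0 : (τ : C) ≠ 0) (h1 : ‖(τ : C)‖ < 1) {σ : Type*} [Finite σ]
    {a : σ → C} {b : σ → L} (ha : ∀ i, ‖a i‖ < 1) (hb : ∀ i, ‖b i‖ < 1)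
    (hab : ∀ i, Rel p U (a i) (b i)) {f : MvPowerSeries σ C} {g : MvPowerSeries σ L}
    (hf : Bdd f) (hg : Bdd g) (hfg : ∀ d, Rel p U (coeff d f) (coeff d g)) :
    Rel p U (ev a f) (ev b g) := by
  unfold Chai.ev
  refine Rel.tsum h0 h1.le (summable_ev ha hf) (summable_ev hb hg) fun d => ?_
  refine (hfg d).mul h1.le ?_
  unfold Finsupp.prod
  exact Rel.prod h1.le _ fun i _ => (hab i).pow h1.le _

end Chai
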