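import Vale.Agent.Chai.ThetaLog
import Vale.Agent.Chai.ThetaFrob
import Vale.Agent.Chai.ThetaRel
import Vale.Agent.Chai.ThetaLow
import Vale.Agent.Chai.Exp

/-!
# P217 / ThetaFun: functional equations of `Θ_n` (part of Theta)

OWNER: helper23
-/

namespace Chai

open MvPowerSeries Filter Topology

set_option linter.unusedSectionVars false

universe u

/-- a bounded function with `D(s x) = p D(x)`, `s` surjective, vanishes -/
theorem bootstrap {p : ℕ} [Fact p.Prime] {L : Type*} [NontriviallyNormedField L]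
    (hp1 : ‖(p : L)‖ < 1) {X : Type*} (s : X → X) (hs : Function.Surjective s) (D : X → L)
    (hD : ∀ x, D (s x) = p * D x) (B : ℝ) (hB : ∀ x, ‖D x‖ ≤ B) (x : X) : D x = 0 := by
  have h1 : ∀ (K : ℕ) (x : X), ‖D x‖ ≤ ‖(p : L)‖ ^ K * B := by
    intro K
    induction K with
    | zero => intro x; simpa using hB x
    | succ K ih =>
      intro x
      obtain ⟨y, rfl⟩ := hs x
      rw [hD, norm_mul, pow_succ', mul_assoc]
      exact mul_le_mul_of_nonneg_left (ih y) (norm_nonneg _)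
  have h2 : Tendsto (fun K : ℕ => ‖(p : L)‖ ^ K * B) atTop (𝓝 (0 * B)) :=
    (tendsto_pow_atTop_nhds_zero_of_lt_one (norm_nonneg _) hp1).mul_const B
  rw [zero_mul] at h2
  rw [← norm_eq_zero]
  exact le_antisymm (ge_of_tendsto' h2 fun K => h1 K x) (norm_nonneg _)

section cl

variable {L : Type*} [NontriviallyNormedField L] [IsUltrametricDist L]

theorem cl_trans {x y z : L} {r : ℝ} (h1 : ‖x - y‖ ≤ r) (h2 : ‖y - z‖ ≤ r) : ‖x - z‖ ≤ r := by
  have : x - z = (x - y) + (y - z) := by ring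
  rw [this]
  exact (IsUltrametricDist.norm_add_le_max _ _).trans (max_le h1 h2)

theorem cl_symm {x y : L} {r : ℝ} (h1 : ‖x - y‖ ≤ r) : ‖y - x‖ ≤ r := by
  rwa [norm_sub_rev]

theorem cl_add {x y x' y' : L} {r : ℝ} (h1 : ‖x - y‖ ≤ r) (h2 : ‖x' - y'‖ ≤ r) :
    ‖(x + x') - (y + y')‖ ≤ r := by
  have : (x + x') - (y + y') = (x - y) + (x' - y') := by ring
  rw [this]
  exact (IsUltrametricDist.norm_add_le_max _ _).trans (max_le h1 h2)

end cl

theorem bdd_honda (p : ℕ) [Fact p.Prime] (K : Type*) [NontriviallyNormedField K]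
    [IsUltrametricDist K] [CompleteSpace K] (n : ℕ) :
    Bdd (hazF p (prm n (0 : ℕ → K))).toPowerSeries := bdd_hazF p _ fun j => by
  unfold prm
  split_ifs <;> simp

variable (p : ℕ) [hp : Fact p.Prime]
variable {C : Type u} [NontriviallyNormedField C] [IsUltrametricDist C] [CompleteSpace C]
variable [CharP C p] [IsAlgClosed C]
variable {τ : OC C} {L : Type u} [NontriviallyNormedField L] [IsUltrametricDist L]
variable [CompleteSpace L] [CharZero L]
variable (U : UntiltData p C τ L)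

theorem theta_zero (n : ℕ) : theta p U n 0 = 0 := by
  unfold theta
  simp

/-- `Θ_n(z^{p^n}) = p Θ_n(z)` -/
theorem theta_pow (n : ℕ) (z : C) : theta p U n (z ^ p ^ n) = p * theta p U n z := by
  have hp0 : (p : L) ≠ 0 := Nat.cast_ne_zero.2 hp.out.ne_zero
  unfold theta
  rw [← tsum_mul_left, ← (Equiv.addRight (1 : ℤ)).tsum_eq (fun i : ℤ =>
    (p : L) * ((p : L) ^ (-i) * U.T ((frob p C ^ ((n : ℤ) * i)) z)))]
  refine tsum_congr fun i => ?_
  rw [Equiv.coe_addRight, ← frob_zpow_natCast, ← frob_zpow_add, mul_add, mul_one, neg_add,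
    zpow_add₀ hp0, zpow_neg_one]
  field_simp

/-- `Θ_n(ζ z) = T(ζ) Θ_n(z)` if `ζ^{p^n} = ζ` -/
theorem theta_smul {n : ℕ} {ζ : C} (hζ : ζ ^ p ^ n = ζ) (z : C) :
    theta p U n (ζ * z) = U.T ζ * theta p U n z := by
  unfold theta
  rw [← tsum_mul_left]
  refine tsum_congr fun i => ?_
  rw [map_mul, frob_zpow_fixed p hζ, map_mul]
  ring

variable (h0 : (τ : C) ≠ 0) (h1 : ‖(τ : C)‖ < 1)
include h0 h1

include U in
theorem norm_p_lt_one : ‖(p : L)‖ < 1 := by
  rw [U.norm_p]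
  exact h1

include U in
/-- the value group of `L` is dense -/
theorem dense_L (r : ℝ) (hr : r < 1) : ∃ c : L, r < ‖c‖ ∧ ‖c‖ < 1 := by
  have hpos : 0 < ‖(τ : C)‖ := norm_pos_iff.2 h0
  have hroot : ∀ m : ℕ, ‖(frob p C ^ (-(m : ℤ))) (τ : C)‖ < 1 := fun m =>
    norm_frob_zpow_lt_one p h1 _
  by_contra hcon
  push Not at hcon
  have h2 : ∀ m : ℕ, ‖(frob p C ^ (-(m : ℤ))) (τ : C)‖ ≤ max r 0 := by
    intro m
    by_contra h3
    rw [not_le] at h3
    have h4 := hcon (U.T ((frob p C ^ (-(m : ℤ))) (τ : C)))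
    rw [U.norm_T] at h4
    exact absurd (h4 ((le_max_left _ _).trans_lt h3)) (not_le.2 (hroot m))
  have h3 : ∀ m : ℕ, ‖(τ : C)‖ ≤ (max r 0) ^ p ^ m := by
    intro m
    rw [← frob_zpow_neg_pow p m (τ : C), norm_pow]
    exact pow_le_pow_left₀ (norm_nonneg _) (h2 m) _
  have h4 := tendsto_pow_pow p (r := max r 0) (le_max_right _ _) (max_lt hr one_pos)
  exact absurd (ge_of_tendsto' h4 h3) (not_le.2 hpos)

/-- `Θ_n(z) ≡ log_n(T z) mod p` -/
theorem theta_sub_log_le {n : ℕ} (hn : 1 ≤ n) {z : C} (hz : ‖z‖ < 1) :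
    ‖theta p U n z - logL p n (U.T z)‖ ≤ ‖(p : L)‖ := by
  have hp1 := norm_p_lt_one p U h0 h1
  have hT : ‖U.T z‖ < 1 := by rwa [U.norm_T]
  obtain ⟨f, hf⟩ : ∃ f : ℤ → L, f = fun i : ℤ =>
    (p : L) ^ (-i) * U.T ((frob p C ^ ((n : ℤ) * i)) z) := ⟨_, rfl⟩
  have hs : Summable f := by
    rw [hf]
    exact summable_theta p U h0 h1 hn hz
  have hs1 : Summable fun i : ℕ => f (i : ℤ) := hs.comp_injective Nat.cast_injective
  have hs2 : Summable fun i : ℕ => f (-((i : ℤ) + 1)) :=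
    hs.comp_injective (i := fun i : ℕ => -((i : ℤ) + 1)) fun i j hij => by
      simp only at hij
      omega
  have h4 : theta p U n z = ∑' i : ℕ, f (i : ℤ) + ∑' i : ℕ, f (-((i : ℤ) + 1)) := by
    rw [← HasSum.tsum_eq (HasSum.of_nat_of_neg_add_one hs1.hasSum hs2.hasSum), hf]
    rfl
  have h5 : ∑' i : ℕ, f (i : ℤ) = logL p n (U.T z) := by
    rw [(hasSum_logL p (dense_L p U h0 h1) hn hT).2]
    refine tsum_congr fun i => ?_
    have e1 : (n : ℤ) * (i : ℤ) = ((n * i : ℕ) : ℤ) := by push_cast; ring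
    rw [hf]
    simp only
    rw [e1, frob_zpow_natCast, map_pow, zpow_neg, zpow_natCast, inv_pow]
  rw [h4, h5, add_sub_cancel_left]
  refine norm_tsum_le_of_forall (norm_nonneg _) fun i => ?_
  have e2 : -(-((i : ℤ) + 1)) = ((i + 1 : ℕ) : ℤ) := by push_cast; ring
  rw [hf]
  simp only
  rw [e2, zpow_natCast, norm_mul, norm_pow, U.norm_T, pow_succ]
  calc ‖(p : L)‖ ^ i * ‖(p : L)‖ * ‖(frob p C ^ ((n : ℤ) * (-((i : ℤ) + 1)))) z‖ ≤
      1 * ‖(p : L)‖ * 1 := by
        gcongr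
        · exact pow_le_one₀ (norm_nonneg _) hp1.le
        · exact (norm_frob_zpow_lt_one p hz _).le
    _ = ‖(p : L)‖ := by ring

/-- coefficients of the Honda group over `C` and `L` correspond -/
theorem rel_honda (n : ℕ) (d : Fin 2 →₀ ℕ) :
    Rel p U (coeff d (hazF p (prm n (0 : ℕ → C))).toPowerSeries)
      (coeff d (hazF p (prm n (0 : ℕ → L))).toPowerSeries) := by
  have e1 := coeff_honda p (R := C) n d
  have e2 := coeff_honda p (R := L) n d
  rw [e1, e2]
  exact Rel.intCast (U := U) h1.le _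

/-- additivity -/
theorem theta_add {n : ℕ} (hn : 1 ≤ n) (z w : (FC p n (0 : Ball C)).Pt) :
    theta p U n (z + w).1 = theta p U n z.1 + theta p U n w.1 := by
  have hp1 := norm_p_lt_one p U h0 h1
  have hd := dense_L p U h0 h1
  obtain ⟨D, hD⟩ : ∃ D : (FC p n (0 : Ball C)).Pt × (FC p n (0 : Ball C)).Pt → L,
    D = fun x => theta p U n (x.1 + x.2).1 - (theta p U n x.1.1 + theta p U n x.2.1) := ⟨_, rfl⟩
  have key : D (z, w) = 0 := by
    refine bootstrap hp1 (fun x => (p • x.1, p • x.2)) ?_ D ?_ ‖(p : L)‖ ?_ (z, w)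
    · rintro ⟨x, y⟩
      obtain ⟨x', hx'⟩ := exists_p_root p hn 1 x
      obtain ⟨y', hy'⟩ := exists_p_root p hn 1 y
      rw [pow_one] at hx' hy'
      exact ⟨(x', y'), by simp only [hx', hy']⟩
    · rintro ⟨x, y⟩
      rw [hD]
      simp only
      rw [← smul_add, nsmul_p_honda p hn, nsmul_p_honda p hn, nsmul_p_honda p hn, theta_pow,
        theta_pow, theta_pow]
      ring
    · rintro ⟨x, y⟩
      rw [hD]
      simp only
      have hTx : ‖U.T x.1‖ < 1 := by rw [U.norm_T]; exact x.2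
      have hTy : ‖U.T y.1‖ < 1 := by rw [U.norm_T]; exact y.2
      have hTxy : ‖U.T (x + y).1‖ < 1 := by rw [U.norm_T]; exact (x + y).2
      have hrel : Rel p U (x + y).1
          (ev ![U.T x.1, U.T y.1] (hazF p (prm n (0 : ℕ → L))).toPowerSeries) := by
        rw [CFG.add_val]
        refine Rel.ev h0 h1 (pair_lt x.2 y.2) (pair_lt hTx hTy) ?_ (FC p n 0).bdd
          (bdd_honda p L n) (rel_honda p U h0 h1 n)
        intro i
        fin_cases i
        · exact Rel.of x.2.le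
        · exact Rel.of y.2.le
      have hev : ‖ev ![U.T x.1, U.T y.1] (hazF p (prm n (0 : ℕ → L))).toPowerSeries‖ < 1 :=
        norm_ev_lt_one (pair_lt hTx hTy) (bdd_honda p L n) (by
          rw [FormalGroup.zero_constantCoeff]
          simp)
      have e1 := theta_sub_log_le p U h0 h1 hn (x + y).2
      have e2 := theta_sub_log_le p U h0 h1 hn x.2
      have e3 := theta_sub_log_le p U h0 h1 hn y.2
      have e4 := logL_congr p hd hn hev hTxy hrel.2 hp1.le
      have e5 := logL_add p hd hn hTx hTy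
      rw [e5] at e4
      exact cl_trans (cl_trans e1 (cl_symm e4)) (cl_symm (cl_add e2 e3))
  rw [hD] at key
  exact sub_eq_zero.1 key

/-- a quasi-logarithm identity gives a relation between `Θ_h` and `Θ_n` -/
theorem theta_quasi {n h : ℕ} (hn : 1 ≤ n) (hh : 1 ≤ h) {ψ g0 : PowerSeries L} (hψ : Bdd ψ)
    (hψ0 : PowerSeries.constantCoeff ψ = 0) (hg0 : Bdd g0) {c : Fin n → L}
    (H : (logS p L h).subst ψ = ∑ k : Fin n, c k • (logS p L n).subst
      ((PowerSeries.X : PowerSeries L) ^ p ^ (k : ℕ)) + g0)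
    (lam : C → C) (hl1 : ∀ z, ‖z‖ < 1 → ‖lam z‖ < 1)
    (hl2 : ∀ z, ‖z‖ < 1 → lam (z ^ p ^ n) = lam z ^ p ^ h)
    (hl3 : ∀ z, ‖z‖ < 1 → Rel p U (lam z) (ev1 (U.T z) ψ)) {z : C} (hz : ‖z‖ < 1) :
    theta p U h (lam z) = ∑ k : Fin n, c k * theta p U n (z ^ p ^ (k : ℕ)) := by
  have hp1 := norm_p_lt_one p U h0 h1
  have hd := dense_L p U h0 h1
  have hpow : ∀ (z : C), ‖z‖ < 1 → ∀ m : ℕ, ‖z ^ p ^ m‖ < 1 := by
    intro z hz m
    rw [norm_pow]
    exact pow_lt_one₀ (norm_nonneg _) hz (pow_ne_zero _ hp.out.ne_zero)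
  obtain ⟨D, hD⟩ : ∃ D : {z : C // ‖z‖ < 1} → L, D = fun z => theta p U h (lam z.1) -
    ∑ k : Fin n, c k * theta p U n (z.1 ^ p ^ (k : ℕ)) := ⟨_, rfl⟩
  have key : D ⟨z, hz⟩ = 0 := by
    refine bootstrap hp1 (fun z : {z : C // ‖z‖ < 1} => ⟨z.1 ^ p ^ n, hpow z.1 z.2 n⟩) ?_ D ?_
      (‖(p : L)‖ + ‖(p : L)‖ + (∑ k : Fin n, ‖c k‖ * ‖(p : L)‖ + 1)) ?_ ⟨z, hz⟩
    · rintro ⟨y, hy⟩
      exact ⟨⟨(frob p C ^ (-(n : ℤ))) y, norm_frob_zpow_lt_one p hy _⟩,
        Subtype.ext (frob_zpow_neg_pow p n y)⟩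
    · rintro ⟨y, hy⟩
      rw [hD]
      simp only
      rw [hl2 y hy, theta_pow, mul_sub, Finset.mul_sum]
      congr 1
      refine Finset.sum_congr rfl fun k _ => ?_
      rw [← pow_mul, mul_comm (p ^ n), pow_mul, theta_pow]
      ring
    · rintro ⟨y, hy⟩
      have hTy : ‖U.T y‖ < 1 := by rwa [U.norm_T]
      have e0 := logL_quasi p hd hn hh hψ hψ0 hg0 H hTy
      have hev : ‖ev1 (U.T y) ψ‖ < 1 := norm_ev_lt_one (fun _ => hTy) hψ (by
        have : MvPowerSeries.constantCoeff ψ = 0 := hψ0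
        rw [this]
        simp)
      have hTl : ‖U.T (lam y)‖ < 1 := by
        rw [U.norm_T]
        exact hl1 y hy
      have e1 := theta_sub_log_le p U h0 h1 hh (hl1 y hy)
      have e2 := logL_congr p hd hh hev hTl (hl3 y hy).2 hp1.le
      have e3 : ∀ k : Fin n, ‖theta p U n (y ^ p ^ (k : ℕ)) -
          logL p n (U.T y ^ p ^ (k : ℕ))‖ ≤ ‖(p : L)‖ := fun k => by
        rw [← map_pow]
        exact theta_sub_log_le p U h0 h1 hn (hpow y hy k)
      have e4 : ‖ev1 (U.T y) g0‖ ≤ 1 := norm_ev_le_one (fun _ => hTy) hg0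
      have e5 : D ⟨y, hy⟩ = (theta p U h (lam y) - logL p h (U.T (lam y))) -
          (logL p h (ev1 (U.T y) ψ) - logL p h (U.T (lam y))) -
          (∑ k : Fin n, c k * (theta p U n (y ^ p ^ (k : ℕ)) - logL p n (U.T y ^ p ^ (k : ℕ))) -
            ev1 (U.T y) g0) := by
        rw [hD]
        simp only [mul_sub, Finset.sum_sub_distrib]
        linear_combination e0
      rw [e5]
      refine (norm_sub_le _ _).trans (add_le_add ((norm_sub_le _ _).trans (add_le_add e1 e2)) ?_)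
      refine (norm_sub_le _ _).trans (add_le_add ((norm_sum_le _ _).trans ?_) e4)
      refine Finset.sum_le_sum fun k _ => ?_
      rw [norm_mul]
      exact mul_le_mul_of_nonneg_left (e3 k) (norm_nonneg _)
  rw [hD] at key
  exact sub_eq_zero.1 key

end Chai
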