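import Vale.Agent.Chai.QuasiLog
import Vale.Agent.Chai.CoreB

/-!
# P217 / ThetaHom: homomorphisms modulo `p` have a quasi-logarithm (part of Theta)

OWNER: helper29

`B` `p`-adically complete, `K ⊇ B` a `ℚ`-algebra, `π : B → R` with kernel in `(p)`.  If `ψ ∈ B[[X]]`
is modulo `p` a homomorphism `Γ_n → Γ_h` of Honda groups then `log_h ∘ ψ = ∑_{k<n} c_k log_n(X^{p^k}) + g_0`.

PROOF.  Apply `quasilog` to `g = (hlog h).subst ψ`.  `g.subst Γ̂_n = Λ.subst u`,
`u = ψ.subst Γ̂_n`; `g.subst X_0 + g.subst X_1 = Λ.subst v`, `v = Γ̂_h.subst ![ψ.subst X_0, ψ.subst X_1]`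
(`hlog_hazF` substituted, all groups over `B`; `hazF_map`, `map_prm`); `u ≡ v mod p` by `hψ` (`IsHom` is the
equality after `π`, `MvPowerSeries.map_subst`, `hπ` coefficientwise); then
`Λ.subst u - Λ.subst v` has coefficients in `p B` as in the proof of `QL.dd_LL`.
-/

namespace Chai

open MvPowerSeries

section

variable {R S : Type*} [CommRing R] [CommRing S]

theorem map_subst_hom {φ : R →+* S} {ψ : PowerSeries R} {F : FormalGroup R} :
    (ψ.subst F.toPowerSeries : MvPowerSeries (Fin 2) R).map φ =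
      (ψ.map φ).subst (F.map φ).toPowerSeries :=
  PowerSeries.map_subst (PowerSeries.HasSubst.of_constantCoeff_zero F.zero_constantCoeff) ψ

theorem map_subst_X {φ : R →+* S} {ψ : PowerSeries R} (i : Fin 2) :
    (ψ.subst (X i : MvPowerSeries (Fin 2) R) : MvPowerSeries (Fin 2) R).map φ =
      (ψ.map φ).subst (X i : MvPowerSeries (Fin 2) S) := by
  rw [PowerSeries.map_subst (PowerSeries.HasSubst.X i), map_X]

theorem map_subst_hom2 {φ : R →+* S} {ψ : PowerSeries R} (h0 : PowerSeries.constantCoeff ψ = 0)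
    {G : FormalGroup R} :
    (G.toPowerSeries.subst ![ψ.subst (X 0 : MvPowerSeries (Fin 2) R),
        ψ.subst (X 1 : MvPowerSeries (Fin 2) R)]).map φ =
      (G.map φ).toPowerSeries.subst ![(ψ.map φ).subst (X 0 : MvPowerSeries (Fin 2) S),
        (ψ.map φ).subst (X 1 : MvPowerSeries (Fin 2) S)] := by
  rw [Fel.map_subst_pair (ccs1 (constantCoeff_X _) h0) (ccs1 (constantCoeff_X _) h0),
    map_subst_X, map_subst_X]
  rfl

/-- being a homomorphism descends along injective ring homomorphisms -/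
theorem IsHom.of_map {φ : R →+* S} (hφ : Function.Injective φ) {ψ : PowerSeries R}
    {F G : FormalGroup R} (h : IsHom (ψ.map φ) (F.map φ) (G.map φ)) : IsHom ψ F G := by
  have h0 : PowerSeries.constantCoeff ψ = 0 := by
    apply hφ
    have := h.1
    rw [map_zero]
    exact this
  refine ⟨h0, ?_⟩
  apply Fel.map_injective hφ
  rw [map_subst_hom, map_subst_hom2 h0]
  exact h.2

end

namespace QL

variable (p : ℕ) [hp : Fact p.Prime] {B K : Type*} [CommRing B] [CommRing K] [Algebra B K]
  [Algebra ℚ K]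

/-- the Honda logarithm maps congruences modulo `p` to congruences modulo `p` -/
theorem hlog_congr {h : ℕ} (hh : 1 ≤ h) {τ : Type*} {u v : MvPowerSeries τ B}
    (huc : constantCoeff u = 0) (hvc : constantCoeff v = 0) (huv : (p : MvPowerSeries τ B) ∣ u - v)
    (e : τ →₀ ℕ) :
    ∃ b : B, coeff e ((hlog p (prm h (0 : ℕ → K))).subst (u.map (algebraMap B K)) -
      (hlog p (prm h (0 : ℕ → K))).subst (v.map (algebraMap B K))) =
        (p : K) * algebraMap B K b := by
  set m : ℕ → K := fun k => hm p h k with hm'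
  have hlog' : hlog p (prm h (0 : ℕ → K)) = Fel.Lp p m := hlog_eq p hh
  have huKc : constantCoeff (u.map (algebraMap B K)) = 0 := by
    rw [constantCoeff_map, huc, map_zero]
  have hvKc : constantCoeff (v.map (algebraMap B K)) = 0 := by
    rw [constantCoeff_map, hvc, map_zero]
  rw [hlog', map_sub, Fel.coeff_Lp_subst m huKc e _ le_rfl, Fel.coeff_Lp_subst m hvKc e _ le_rfl,
    ← Finset.sum_sub_distrib]
  have h7 : ∀ k : ℕ, ∃ b : B, m k * coeff e ((u.map (algebraMap B K)) ^ p ^ k) -
      m k * coeff e ((v.map (algebraMap B K)) ^ p ^ k) = (p : K) * algebraMap B K b := by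
    intro k
    obtain ⟨c, hc⟩ := Fel.coeff_dvd (q := p ^ (k + 1)) (by
      have := dvd_sub_pow_of_dvd_sub huv k
      exact_mod_cast this) e
    rw [← mul_sub, ← map_pow, ← map_pow, ← map_sub, ← map_sub, coeff_map, hc]
    rw [hm']
    simp only [hm]
    split_ifs with hd
    · refine ⟨(p : B) ^ (k - k / h) * c, ?_⟩
      have hk : k / h ≤ k := Nat.div_le_self k h
      have h8 : k + 1 = k / h + (k - k / h) + 1 := by omega
      rw [h8]
      simp only [map_mul, map_pow, map_natCast, Nat.cast_pow]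
      have h9 := pow_mul_pinv (K := K) p (k / h)
      rw [pow_succ, pow_add]
      linear_combination ((p : K) ^ (k - k / h) * p * algebraMap B K c) * h9
    · exact ⟨0, by simp⟩
  choose b hb using h7
  refine ⟨∑ k ∈ Finset.range (e.degree + 1), b k, ?_⟩
  rw [map_sum, Finset.mul_sum]
  exact Finset.sum_congr rfl fun k _ => hb k

end QL

theorem honda_map (p : ℕ) [Fact p.Prime] {B S : Type*} [CommRing B] [CommRing S] (φ : B →+* S)
    (k : ℕ) : (hazF p (prm k (0 : ℕ → B))).map φ = hazF p (prm k (0 : ℕ → S)) := by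
  rw [hazF_map, map_prm]

theorem quasi_of_hom (p : ℕ) [Fact p.Prime] {n h : ℕ} (hn : 1 ≤ n) (hh : 1 ≤ h)
    {B K R : Type*} [CommRing B] [CommRing K] [CommRing R] [Algebra B K] [Algebra ℚ K]
    (hinj : Function.Injective (algebraMap B K)) [IsAdicComplete (Ideal.span {(p : B)}) B]
    (π : B →+* R) (hπ : ∀ b, π b = 0 → (p : B) ∣ b)
    (ψ : PowerSeries B) (h0 : PowerSeries.constantCoeff ψ = 0)
    (hψ : IsHom (ψ.map π) (hazF p (prm n (0 : ℕ → R))) (hazF p (prm h (0 : ℕ → R)))) :
    ∃ (c : Fin n → K) (g0 : PowerSeries B), PowerSeries.constantCoeff g0 = 0 ∧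
      (hlog p (prm h (0 : ℕ → K))).subst (ψ.map (algebraMap B K)) =
        ∑ k : Fin n, c k • (hlog p (prm n (0 : ℕ → K))).subst
          ((PowerSeries.X : PowerSeries K) ^ p ^ (k : ℕ)) + g0.map (algebraMap B K) := by
  set Fn : FormalGroup B := hazF p (prm n (0 : ℕ → B)) with hFn
  set Fh : FormalGroup B := hazF p (prm h (0 : ℕ → B)) with hFh
  have hFnc : constantCoeff Fn.toPowerSeries = 0 := Fn.zero_constantCoeff
  have hFhc : constantCoeff Fh.toPowerSeries = 0 := Fh.zero_constantCoeff
  -- the two series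
  set u : MvPowerSeries (Fin 2) B := ψ.subst Fn.toPowerSeries with hu
  set v : MvPowerSeries (Fin 2) B := Fh.toPowerSeries.subst
    ![ψ.subst (X 0 : MvPowerSeries (Fin 2) B), ψ.subst (X 1 : MvPowerSeries (Fin 2) B)] with hv
  have huc : constantCoeff u = 0 := ccs1 hFnc h0
  have hX : ∀ i : Fin 2, constantCoeff (ψ.subst (X i : MvPowerSeries (Fin 2) B)) = 0 :=
    fun i => ccs1 (constantCoeff_X _) h0
  have hvc : constantCoeff v = 0 := Fel.constantCoeff_subst_pair hFhc (hX 0) (hX 1)
  have huv : (p : MvPowerSeries (Fin 2) B) ∣ u - v := by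
    apply Fel.dvd_of_coeff
    intro e
    apply hπ
    rw [← coeff_map, map_sub]
    have h1 : u.map π = v.map π := by
      rw [hu, hv, map_subst_hom, map_subst_hom2 h0, hFn, hFh, honda_map p π n, honda_map p π h]
      exact hψ.2
    rw [h1, sub_self, coeff_zero]
  set ψK : PowerSeries K := ψ.map (algebraMap B K) with hψK
  have hψKc : PowerSeries.constantCoeff ψK = 0 := by
    have : PowerSeries.constantCoeff (ψ.map (algebraMap B K)) =
      algebraMap B K (PowerSeries.constantCoeff ψ) := rfl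
    rw [hψK, this, h0, map_zero]
  set Λ : PowerSeries K := hlog p (prm h (0 : ℕ → K)) with hΛ
  have hΛc : PowerSeries.constantCoeff Λ = 0 := by
    rw [hΛ, QL.hlog_eq p hh]; exact Fel.constantCoeff_Lp _
  have hgc : PowerSeries.constantCoeff (Λ.subst ψK) = 0 := by
    have : constantCoeff (Λ.subst (ψK : MvPowerSeries Unit K)) = 0 :=
      ccs1 hψKc hΛc
    exact this
  have hsub : ∀ {w : MvPowerSeries (Fin 2) K}, constantCoeff w = 0 →
      PowerSeries.subst w (Λ.subst ψK : PowerSeries K) = Λ.subst (ψK.subst w) := by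
    intro w hw
    exact PowerSeries.subst_comp_subst_apply
      (PowerSeries.HasSubst.of_constantCoeff_zero' hψKc)
      (PowerSeries.HasSubst.of_constantCoeff_zero hw) Λ
  refine quasilog p hn hinj (Λ.subst ψK) hgc ?_
  have h1 : PowerSeries.subst (hazF p (prm n (0 : ℕ → K))).toPowerSeries
      (Λ.subst ψK : PowerSeries K) = Λ.subst (u.map (algebraMap B K)) := by
    rw [hsub (hazF p (prm n (0 : ℕ → K))).zero_constantCoeff, hu, map_subst_hom, hFn, honda_map]
  have hXK : ∀ i : Fin 2, constantCoeff (ψK.subst (X i : MvPowerSeries (Fin 2) K)) = 0 :=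
    fun i => ccs1 (constantCoeff_X _) hψKc
  have h2 : PowerSeries.subst (X 0 : MvPowerSeries (Fin 2) K) (Λ.subst ψK : PowerSeries K) +
      PowerSeries.subst (X 1 : MvPowerSeries (Fin 2) K) (Λ.subst ψK : PowerSeries K) =
      Λ.subst (v.map (algebraMap B K)) := by
    rw [hsub (constantCoeff_X _), hsub (constantCoeff_X _), hv, map_subst_hom2 h0, hFh, honda_map]
    rw [Fel.ps_subst_pair (hazF p (prm h (0 : ℕ → K))).zero_constantCoeff (hXK 0) (hXK 1)
      (hlog_hazF p (prm h (0 : ℕ → K)))]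
  choose b hb using fun e => QL.hlog_congr p (K := K) hh huc hvc huv e
  let D : MvPowerSeries (Fin 2) B := fun e => p * b e
  refine ⟨D, ?_⟩
  rw [sub_sub, h2, h1]
  ext e
  rw [hb e, coeff_map]
  change (p : K) * algebraMap B K (b e) = algebraMap B K (p * b e)
  rw [map_mul, map_natCast]

end Chai
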