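import Vale.Agent.Chai.UntiltRing

/-!
# P217 / Untilt: the ring `A = W(O_C)/(p - [τ])`

OWNER: helper6 (done)

`C` a perfect complete ultrametric field of char `p` (alg. closed here), `O = OC C` its closed unit ball
(a perfect valuation ring), `τ ∈ O`, `0 < ‖τ‖ < 1`.

PROOFS.  `W = W(O)` is `p`-torsion free, `p`-adically complete (Mathlib: `WittVector`, perfect rings),
`W/p = O`, every `w ∈ W` is `w ≡ [w_0] + p [w_1'] + ⋯`.  `ξ = p - [τ]`.
* `p` is a nonzerodivisor mod `ξ`: `p a = ξ b ⇒` (mod p) `τ b_0 = 0 ⇒ p ∣ b`.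
* `p`-adically separated: `p^M ∣ ξ y ⇒ p^M ∣ y`; if `a = p^M b_M + ξ c_M` for all `M` then
  `ξ(c_M - c_{M+1}) ∈ p^M W`, so `c_M` converges and `a = ξ lim c_M`.  Complete: quotient of complete.
* `A/p = W/(p,[τ]) = O/τ`.
* Every nonzero `a ∈ A` is `T(y) u`, `y ≠ 0`, `u` a unit: write a lift as `[a_0] + p w`.
  If `‖a_0‖ > ‖τ‖`: `p w = [τ] w = [a_0][τ/a_0] w` in `A` and `1 + [τ/a_0] w` is a unit (it is a unit
  mod the topologically nilpotent `[τ/a_0]`: some power of `[τ/a_0]` is divisible by `p`).  If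
  `‖a_0‖ ≤ ‖τ‖` then `a = p a'`; this stops by separatedness; `p = T(τ)`.
* Domain: `T(y) T(y') = T(yy')` and `T(y) ≠ 0` for `y ≠ 0` because `T(y) ∣ T(τ^M) = p^M ≠ 0`.
-/

namespace Chai

section inst

variable (p : ℕ) [Fact p.Prime]
variable {C : Type*} [NontriviallyNormedField C] [IsUltrametricDist C]
variable [CharP C p]

theorem OC.charP : CharP (OC C) p :=
  (RingHom.charP_iff (OC C).subtype Subtype.val_injective p).2 inferInstance

omit [CharP C p] in
theorem OC.perfect [IsAlgClosed C] [CharP (OC C) p] : PerfectRing (OC C) p := by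
  refine PerfectRing.ofSurjective (OC C) p fun x => ?_
  obtain ⟨y, hy⟩ := IsAlgClosed.exists_pow_nat_eq (x : C) (Fact.out : p.Prime).pos
  have hy1 : ‖y‖ ≤ 1 := by
    by_contra hcon
    rw [not_le] at hcon
    have h1 : ‖y‖ ^ p ≤ 1 := by
      rw [← norm_pow, hy]
      exact OC.norm_le x
    have h2 : 1 < ‖y‖ ^ p := one_lt_pow₀ hcon (Fact.out : p.Prime).ne_zero
    linarith
  refine ⟨⟨y, hy1⟩, ?_⟩
  apply Subtype.ext
  rw [frobenius_def, Subring.coe_pow]
  exact hy

end inst

namespace WittAux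

variable {p : ℕ} [Fact p.Prime] {O : Type*} [CommRing O] [IsDomain O] [CharP O p] [PerfectRing O p]
variable (τ : O)


/-- `ξ = p - [τ]` -/
noncomputable def xi : (WittVector p O) := (p : (WittVector p O)) - WittVector.teichmuller p τ

theorem p_dvd_iff (w : (WittVector p O)) : (p : (WittVector p O)) ∣ w ↔ w.coeff 0 = 0 := by
  rw [← Ideal.mem_span_singleton, WittVector.mem_span_p_iff_coeff_zero_eq_zero]

theorem p_ne_zero : (p : (WittVector p O)) ≠ 0 := by
  intro h
  have := WittVector.eq_zero_of_p_mul_eq_zero (1 : (WittVector p O)) (by rw [h, mul_zero])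
  exact one_ne_zero this

theorem coeff_zero_mul (a b : (WittVector p O)) : (a * b).coeff 0 = a.coeff 0 * b.coeff 0 :=
  map_mul (WittVector.constantCoeff : (WittVector p O) →+* O) a b

theorem coeff_zero_p : (p : (WittVector p O)).coeff 0 = 0 := (p_dvd_iff _).1 dvd_rfl

theorem coeff_zero_xi : (xi (p := p) τ).coeff 0 = -τ := by
  have h : (xi (p := p) τ).coeff 0 = (p : (WittVector p O)).coeff 0 - (WittVector.teichmuller p τ).coeff 0 :=
    map_sub (WittVector.constantCoeff : (WittVector p O) →+* O) _ _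
  rw [h, coeff_zero_p, WittVector.teichmuller_coeff_zero, zero_sub]

/-- `p^m ∣ ξ y → p^m ∣ y` -/
theorem dvd_of_dvd_xi_mul (h0 : τ ≠ 0) (m : ℕ) (y : (WittVector p O)) (h : (p : (WittVector p O)) ^ m ∣ xi τ * y) : (p : (WittVector p O)) ^ m ∣ y := by
  induction m generalizing y with
  | zero => simp
  | succ m ih =>
    have h1 : (p : (WittVector p O)) ∣ xi τ * y := (dvd_pow_self _ (Nat.succ_ne_zero m)).trans h
    have h2 : (p : (WittVector p O)) ∣ y := by
      rw [p_dvd_iff] at h1 ⊢
      rw [coeff_zero_mul, coeff_zero_xi, neg_mul, neg_eq_zero] at h1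
      exact (mul_eq_zero.1 h1).resolve_left h0
    obtain ⟨z, rfl⟩ := h2
    rw [pow_succ'] at h ⊢
    have h3 : xi τ * ((p : (WittVector p O)) * z) = (p : (WittVector p O)) * (xi τ * z) := by ring
    rw [h3] at h
    exact mul_dvd_mul_left _ (ih z ((mul_dvd_mul_iff_left p_ne_zero).1 h))

/-- the quotient -/
abbrev UQ : Type _ := (WittVector p O) ⧸ Ideal.span {xi (p := p) τ}

theorem smod_iff {A : Type*} [CommRing A] (a b c : A) (n : ℕ) :
    (a ≡ b [SMOD ((Ideal.span {c}) ^ n • ⊤ : Submodule A A)]) ↔ c ^ n ∣ a - b := by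
  rw [SModEq.sub_mem, smul_eq_mul, Ideal.mul_top, Ideal.span_singleton_pow, Ideal.mem_span_singleton]

theorem quot_dvd_iff (w : (WittVector p O)) (n : ℕ) : (p : UQ (p := p) τ) ^ n ∣ Ideal.Quotient.mk _ w ↔
    ∃ b c : (WittVector p O), w = (p : (WittVector p O)) ^ n * b + xi τ * c := by
  constructor
  · rintro ⟨x, hx⟩
    obtain ⟨b, rfl⟩ := Ideal.Quotient.mk_surjective x
    rw [← map_natCast (Ideal.Quotient.mk (Ideal.span {xi (p := p) τ})), ← map_pow, ← map_mul,
      Ideal.Quotient.eq, Ideal.mem_span_singleton] at hx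
    obtain ⟨c, hc⟩ := hx
    exact ⟨b, c, by rw [← hc]; ring⟩
  · rintro ⟨b, c, rfl⟩
    refine ⟨Ideal.Quotient.mk _ b, ?_⟩
    rw [map_add, map_mul, map_mul, map_pow, map_natCast]
    have : (Ideal.Quotient.mk (Ideal.span {xi (p := p) τ})) (xi τ) = 0 :=
      Ideal.Quotient.eq_zero_iff_mem.2 (Ideal.mem_span_singleton_self _)
    rw [this, zero_mul, add_zero]

theorem quot_complete (h0 : τ ≠ 0) : IsAdicComplete (Ideal.span {(p : UQ (p := p) τ)}) (UQ (p := p) τ) := by
  have hW : IsAdicComplete (Ideal.span {(p : (WittVector p O))}) (WittVector p O) := inferInstance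
  have hlim : ∀ c : ℕ → (WittVector p O), (∀ n, (p : (WittVector p O)) ^ n ∣ c (n + 1) - c n) → ∃ l, ∀ n, (p : (WittVector p O)) ^ n ∣ c n - l := by
    intro c hc
    have h1 : ∀ {m n : ℕ}, m ≤ n → c m ≡ c n [SMOD ((Ideal.span {(p : (WittVector p O))}) ^ m • ⊤ : Submodule (WittVector p O) (WittVector p O))] := by
      intro m n hmn
      rw [smod_iff]
      induction n, hmn using Nat.le_induction with
      | base => rw [sub_self]; exact dvd_zero _
      | succ n hmn ih =>
        have h2 : c m - c (n + 1) = (c m - c n) - (c (n + 1) - c n) := by ring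
        rw [h2]
        exact dvd_sub ih ((pow_dvd_pow _ hmn).trans (hc n))
    obtain ⟨l, hl⟩ := hW.toIsPrecomplete.prec h1
    exact ⟨l, fun n => (smod_iff _ _ _ _).1 (hl n)⟩
  have hH : IsHausdorff (Ideal.span {(p : UQ (p := p) τ)}) (UQ (p := p) τ) := by
    refine ⟨fun x hx => ?_⟩
    obtain ⟨w, rfl⟩ := Ideal.Quotient.mk_surjective x
    have h1 : ∀ n, ∃ b c : (WittVector p O), w = (p : (WittVector p O)) ^ n * b + xi τ * c := by
      intro n
      have := hx n
      rw [smod_iff, sub_zero] at this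
      exact (quot_dvd_iff τ w n).1 this
    choose b c hbc using h1
    obtain ⟨l, hl⟩ := hlim c (fun n => by
      refine dvd_of_dvd_xi_mul τ h0 n _ ⟨b n - p * b (n + 1), ?_⟩
      have h2 := hbc n
      have h3 := hbc (n + 1)
      have h4 : xi τ * (c (n + 1) - c n) = (w - (p : (WittVector p O)) ^ (n + 1) * b (n + 1)) - (w - (p : (WittVector p O)) ^ n * b n) := by
        nth_rewrite 1 [h3]
        nth_rewrite 1 [h2]
        ring
      rw [h4]
      ring)
    have h5 : w - xi τ * l = 0 := by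
      refine IsHausdorff.haus (I := Ideal.span {(p : (WittVector p O))}) inferInstance _ fun n => ?_
      rw [smod_iff, sub_zero]
      have h6 : w - xi τ * l = (p : (WittVector p O)) ^ n * b n + xi τ * (c n - l) := by
        nth_rewrite 1 [hbc n]
        ring
      rw [h6]
      exact dvd_add (dvd_mul_right _ _) ((hl n).mul_left _)
    rw [Ideal.Quotient.eq_zero_iff_mem, Ideal.mem_span_singleton]
    exact ⟨l, sub_eq_zero.1 h5⟩
  have hP : IsPrecomplete (Ideal.span {(p : UQ (p := p) τ)}) (UQ (p := p) τ) := by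
    refine ⟨fun f hf => ?_⟩
    have h1 : ∀ n, ∃ d : (WittVector p O), f (n + 1) - f n = Ideal.Quotient.mk _ ((p : (WittVector p O)) ^ n * d) := by
      intro n
      have h2 := hf (Nat.le_succ n)
      rw [smod_iff] at h2
      obtain ⟨e, he⟩ := h2
      obtain ⟨d, rfl⟩ := Ideal.Quotient.mk_surjective e
      refine ⟨-d, ?_⟩
      rw [map_mul, map_neg, map_pow, map_natCast, mul_neg, ← he]
      ring
    choose d hd using h1
    obtain ⟨g0, hg0⟩ := Ideal.Quotient.mk_surjective (f 0)
    set G : ℕ → (WittVector p O) := fun n => g0 + ∑ k ∈ Finset.range n, (p : (WittVector p O)) ^ k * d k with hG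
    have hGf : ∀ n, Ideal.Quotient.mk _ (G n) = f n := by
      intro n
      induction n with
      | zero => simp [hG, hg0]
      | succ n ih =>
        have h3 : G (n + 1) = G n + (p : (WittVector p O)) ^ n * d n := by
          rw [hG]
          simp only [Finset.sum_range_succ]
          ring
        rw [h3, map_add, ih, ← hd n]
        ring
    obtain ⟨l, hl⟩ := hlim G (fun n => by
      have h3 : G (n + 1) - G n = (p : (WittVector p O)) ^ n * d n := by
        rw [hG]
        simp only [Finset.sum_range_succ]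
        ring
      rw [h3]
      exact dvd_mul_right _ _)
    refine ⟨Ideal.Quotient.mk _ l, fun n => ?_⟩
    rw [smod_iff, ← hGf, ← map_sub]
    obtain ⟨e, he⟩ := hl n
    exact (quot_dvd_iff τ _ n).2 ⟨e, 0, by rw [he, mul_zero, add_zero]⟩
  exact { hH, hP with }

theorem mk_eq_zero_iff (w : (WittVector p O)) : Ideal.Quotient.mk (Ideal.span {xi (p := p) τ}) w = 0 ↔ xi τ ∣ w := by
  rw [Ideal.Quotient.eq_zero_iff_mem, Ideal.mem_span_singleton]

theorem quot_reg (h0 : τ ≠ 0) (a : UQ (p := p) τ) (h : (p : UQ (p := p) τ) * a = 0) : a = 0 := by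
  obtain ⟨w, rfl⟩ := Ideal.Quotient.mk_surjective a
  rw [← map_natCast (Ideal.Quotient.mk (Ideal.span {xi (p := p) τ})), ← map_mul, mk_eq_zero_iff] at h
  obtain ⟨b, hb⟩ := h
  have h1 : (p : (WittVector p O)) ^ 1 ∣ b := dvd_of_dvd_xi_mul τ h0 1 b (by rw [pow_one, ← hb]; exact dvd_mul_right _ _)
  rw [pow_one] at h1
  obtain ⟨c, rfl⟩ := h1
  rw [mk_eq_zero_iff]
  refine ⟨c, ?_⟩
  have h2 : (p : (WittVector p O)) * w = (p : (WittVector p O)) * (xi τ * c) := by rw [hb]; ring
  exact mul_left_cancel₀ p_ne_zero h2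

/-- the reduction -/
noncomputable def quotRed : UQ (p := p) τ →+* O ⧸ Ideal.span {τ} :=
  Ideal.Quotient.lift _ ((Ideal.Quotient.mk (Ideal.span {τ})).comp WittVector.constantCoeff) fun a ha => by
    rw [Ideal.mem_span_singleton] at ha
    obtain ⟨b, rfl⟩ := ha
    rw [RingHom.comp_apply, Ideal.Quotient.eq_zero_iff_mem, Ideal.mem_span_singleton]
    show τ ∣ (xi τ * b).coeff 0
    rw [coeff_zero_mul, coeff_zero_xi]
    exact ⟨-b.coeff 0, by ring⟩

theorem quotRed_mk (w : (WittVector p O)) : quotRed τ (Ideal.Quotient.mk _ w) = Ideal.Quotient.mk _ (w.coeff 0) := rfl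

theorem quotRed_zero (a : UQ (p := p) τ) : quotRed τ a = 0 ↔ (p : UQ (p := p) τ) ∣ a := by
  obtain ⟨w, rfl⟩ := Ideal.Quotient.mk_surjective a
  have h1 := quot_dvd_iff τ w 1
  rw [pow_one] at h1
  rw [h1, quotRed_mk, Ideal.Quotient.eq_zero_iff_mem, Ideal.mem_span_singleton]
  constructor
  · rintro ⟨y, hy⟩
    have h2 : (p : (WittVector p O)) ∣ w + xi τ * WittVector.teichmuller p y := by
      rw [p_dvd_iff]
      have h3 : (w + xi τ * WittVector.teichmuller p y).coeff 0 =
          w.coeff 0 + (xi τ * WittVector.teichmuller p y).coeff 0 :=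
        map_add (WittVector.constantCoeff : (WittVector p O) →+* O) _ _
      rw [h3, coeff_zero_mul, coeff_zero_xi, WittVector.teichmuller_coeff_zero, hy]
      ring
    obtain ⟨b, hb⟩ := h2
    exact ⟨b, -WittVector.teichmuller p y, by rw [pow_one, ← hb]; ring⟩
  · rintro ⟨b, c, rfl⟩
    have h3 : ((p : (WittVector p O)) ^ 1 * b + xi τ * c).coeff 0 = ((p : (WittVector p O)) ^ 1 * b).coeff 0 + (xi τ * c).coeff 0 :=
      map_add (WittVector.constantCoeff : (WittVector p O) →+* O) _ _
    rw [h3, pow_one, coeff_zero_mul, coeff_zero_mul, coeff_zero_p, coeff_zero_xi]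
    exact ⟨-c.coeff 0, by ring⟩

end WittAux

open WittAux in
/-- the untilt ring -/
theorem exists_UR (p : ℕ) [Fact p.Prime] {C : Type*} [NontriviallyNormedField C]
    [IsUltrametricDist C] [CharP C p] [IsAlgClosed C] (τ : OC C) (h0 : (τ : C) ≠ 0) :
    ∃ D : UR p τ (UQ (p := p) τ), ∀ y, Ideal.Quotient.mk _ (WittVector.teichmuller p y) = D.T y := by
  have := OC.charP p (C := C)
  have := OC.perfect p (C := C)
  have h0' : τ ≠ 0 := fun h => h0 (by rw [h]; rfl)
  refine ⟨{ T := (Ideal.Quotient.mk (Ideal.span {xi (p := p) τ}) :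
              WittVector p (OC C) →* UQ (p := p) τ).comp (WittVector.teichmuller p)
            T_tau := ?_
            red := quotRed τ
            red_zero := quotRed_zero τ
            red_T := ?_
            reg := quot_reg τ h0'
            complete := quot_complete τ h0' }, fun y => rfl⟩
  · show Ideal.Quotient.mk _ (WittVector.teichmuller p τ) = (p : UQ (p := p) τ)
    rw [← map_natCast (Ideal.Quotient.mk (Ideal.span {xi (p := p) τ})), Ideal.Quotient.eq,
      Ideal.mem_span_singleton]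
    exact ⟨-1, by unfold xi; ring⟩
  · intro y
    show quotRed τ (Ideal.Quotient.mk _ (WittVector.teichmuller p y)) = _
    rw [quotRed_mk, WittVector.teichmuller_coeff_zero]

end Chai
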