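import Vale.Agent.Chai.Setup
import Vale.Agent.Chai.QLAux
import Vale.Agent.Chai.Untilt

/-!
# P217 / ThetaLog: the Honda logarithm on the open unit disc of `L` (part of Theta)

OWNER: helper23
-/

namespace Chai

open MvPowerSeries Filter Topology

set_option linter.unusedSectionVars false

/-! ### real sequences -/

theorem exists_growth_bound {p : ℕ} (hp : 1 < p) {r s : ℝ} (hr0 : 0 ≤ r) (hr1 : r < 1) (hs : 0 < s)
    {n : ℕ} (hn : 1 ≤ n) : Tendsto (fun i : ℕ => r ^ p ^ (n * i) / s ^ i) atTop (𝓝 0) := by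
  have hev : ∀ᶠ i : ℕ in atTop, r ^ i / s ≤ 1 / 2 := by
    have h1 : Tendsto (fun i : ℕ => r ^ i / s) atTop (𝓝 (0 / s)) :=
      (tendsto_pow_atTop_nhds_zero_of_lt_one hr0 hr1).div_const s
    rw [zero_div] at h1
    exact h1.eventually_le_const (by norm_num)
  have hs : Summable (fun i : ℕ => r ^ p ^ (n * i) / s ^ i) := by
    refine summable_of_ratio_norm_eventually_le (r := 1 / 2) (by norm_num) ?_
    filter_upwards [hev] with i hi
    have e1 : p ^ (n * i) + i ≤ p ^ (n * (i + 1)) := by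
      have h2 : i < p ^ (n * i) := by
        calc i < p ^ i := Nat.lt_pow_self hp
          _ ≤ p ^ (n * i) := Nat.pow_le_pow_right (by omega) (Nat.le_mul_of_pos_left i (by omega))
      have h3 : 2 * p ^ (n * i) ≤ p ^ (n * (i + 1)) := by
        rw [mul_add, mul_one, pow_add, mul_comm]
        gcongr
        calc 2 ≤ p := hp
          _ ≤ p ^ n := Nat.le_self_pow (by omega) p
      omega
    have e2 : r ^ p ^ (n * (i + 1)) ≤ r ^ p ^ (n * i) * r ^ i := by
      rw [← pow_add]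
      exact pow_le_pow_of_le_one hr0 hr1.le e1
    rw [Real.norm_of_nonneg (by positivity), Real.norm_of_nonneg (by positivity)]
    calc r ^ p ^ (n * (i + 1)) / s ^ (i + 1) ≤ (r ^ p ^ (n * i) * r ^ i) / s ^ (i + 1) := by gcongr
      _ = (r ^ i / s) * (r ^ p ^ (n * i) / s ^ i) := by
          rw [pow_succ]
          field_simp
      _ ≤ 1 / 2 * (r ^ p ^ (n * i) / s ^ i) := by gcongr
  exact hs.tendsto_atTop_zero

theorem exists_growth_const {p : ℕ} (hp : 1 < p) {r s : ℝ} (hr0 : 0 ≤ r) (hr1 : r < 1) (hs : 0 < s)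
    {n : ℕ} (hn : 1 ≤ n) : ∃ D : ℝ, 0 < D ∧ ∀ i : ℕ, r ^ p ^ (n * i) ≤ D * s ^ i := by
  obtain ⟨D, hD⟩ := (exists_growth_bound hp hr0 hr1 hs hn).bddAbove_range
  refine ⟨max D 1, by positivity, fun i => ?_⟩
  have h1 : r ^ p ^ (n * i) / s ^ i ≤ D := hD ⟨i, rfl⟩
  rw [div_le_iff₀ (by positivity)] at h1
  exact h1.trans (by gcongr; exact le_max_left _ _)

section SumAt

variable {L : Type*} [NontriviallyNormedField L] [IsUltrametricDist L] [CompleteSpace L]
variable {σ : Type*}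

/-- the defining series of `ev a f` converges -/
def SumAt (a : σ → L) (f : MvPowerSeries σ L) : Prop :=
  Summable fun d : σ →₀ ℕ => coeff d f * d.prod fun i e => a i ^ e

theorem SumAt.add {a : σ → L} {f g : MvPowerSeries σ L} (hf : SumAt a f) (hg : SumAt a g) :
    SumAt a (f + g) := by
  refine (Summable.add hf hg).congr fun d => ?_
  rw [map_add, add_mul]

theorem ev_add' {a : σ → L} {f g : MvPowerSeries σ L} (hf : SumAt a f) (hg : SumAt a g) :
    ev a (f + g) = ev a f + ev a g := by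
  unfold ev
  rw [← Summable.tsum_add hf hg]
  refine tsum_congr fun d => ?_
  rw [map_add, add_mul]

theorem SumAt.smul {a : σ → L} {f : MvPowerSeries σ L} (hf : SumAt a f) (c : L) :
    SumAt a (c • f) := by
  refine (Summable.mul_left c hf).congr fun d => ?_
  rw [map_smul, smul_eq_mul, mul_assoc]

theorem ev_smul' (a : σ → L) (f : MvPowerSeries σ L) (c : L) : ev a (c • f) = c * ev a f := by
  unfold ev
  rw [← tsum_mul_left]
  refine tsum_congr fun d => ?_
  rw [map_smul, smul_eq_mul, mul_assoc]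

theorem SumAt.zero (a : σ → L) : SumAt a (0 : MvPowerSeries σ L) := by
  refine summable_zero.congr fun d => ?_
  simp

theorem SumAt.sum {ι : Type*} {a : σ → L} (s : Finset ι) {f : ι → MvPowerSeries σ L}
    (hf : ∀ i ∈ s, SumAt a (f i)) : SumAt a (∑ i ∈ s, f i) := by
  classical
  induction s using Finset.induction_on with
  | empty => simpa using SumAt.zero a
  | insert i s hi ih =>
    rw [Finset.sum_insert hi]
    exact (hf i (Finset.mem_insert_self _ _)).add
      (ih fun j hj => hf j (Finset.mem_insert_of_mem hj))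

theorem ev_sum' {ι : Type*} {a : σ → L} (s : Finset ι) {f : ι → MvPowerSeries σ L}
    (hf : ∀ i ∈ s, SumAt a (f i)) : ev a (∑ i ∈ s, f i) = ∑ i ∈ s, ev a (f i) := by
  classical
  induction s using Finset.induction_on with
  | empty => simp [ev_zero]
  | insert i s hi ih =>
    rw [Finset.sum_insert hi, Finset.sum_insert hi, ev_add' (hf i (Finset.mem_insert_self _ _))
      (SumAt.sum s fun j hj => hf j (Finset.mem_insert_of_mem hj)),
      ih fun j hj => hf j (Finset.mem_insert_of_mem hj)]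

/-- rescaling -/
noncomputable def scl (c : L) (f : MvPowerSeries σ L) : MvPowerSeries σ L :=
  rescale (fun _ => c) f

theorem coeff_scl (c : L) (f : MvPowerSeries σ L) (d : σ →₀ ℕ) :
    coeff d (scl c f) = c ^ d.degree * coeff d f := by
  unfold scl
  rw [coeff_rescale]
  congr 1
  rw [Finsupp.prod, Finsupp.degree, Finset.prod_pow_eq_pow_sum]
  rfl

theorem scl_pow (c : L) (f : MvPowerSeries σ L) (m : ℕ) : scl c (f ^ m) = scl c f ^ m := by
  unfold scl
  rw [map_pow]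

theorem scl_term (c : L) (a : σ → L) (f : MvPowerSeries σ L) (d : σ →₀ ℕ) :
    (coeff d (scl c f) * d.prod fun i e => a i ^ e) =
      coeff d f * d.prod fun i e => (c * a i) ^ e := by
  rw [coeff_scl]
  have hdeg : d.degree = ∑ i ∈ d.support, d i := rfl
  have : (d.prod fun i e => (c * a i) ^ e) = c ^ d.degree * d.prod fun i e => a i ^ e := by
    rw [Finsupp.prod, Finsupp.prod, hdeg, ← Finset.prod_pow_eq_pow_sum,
      ← Finset.prod_mul_distrib]
    exact Finset.prod_congr rfl fun i _ => mul_pow _ _ _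
  rw [this]
  ring

theorem ev_scl (c : L) (a : σ → L) (f : MvPowerSeries σ L) :
    ev a (scl c f) = ev (fun i => c * a i) f := by
  unfold ev
  exact tsum_congr fun d => scl_term c a f d

theorem sumAt_scl {c : L} {a : σ → L} {f : MvPowerSeries σ L} :
    SumAt a (scl c f) ↔ SumAt (fun i => c * a i) f := by
  unfold SumAt
  exact summable_congr fun d => scl_term c a f d

/-- a bounded series without constant term is divisible by `c` after rescaling by `c` -/
theorem exists_scl {c : L} (hc1 : ‖c‖ ≤ 1) {F : MvPowerSeries σ L} (hF : Bdd F)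
    (h0 : constantCoeff F = 0) :
    ∃ F' : MvPowerSeries σ L, Bdd F' ∧ constantCoeff F' = 0 ∧ scl c F = c • F' := by
  obtain ⟨F', hF'⟩ : ∃ F' : MvPowerSeries σ L, ∀ d, coeff d F' = c ^ (d.degree - 1) * coeff d F :=
    ⟨(fun d => c ^ (d.degree - 1) * coeff d F : (σ →₀ ℕ) → L), fun d => rfl⟩
  refine ⟨F', fun d => ?_, ?_, ?_⟩
  · rw [hF', norm_mul, norm_pow]
    exact mul_le_one₀ (pow_le_one₀ (norm_nonneg _) hc1) (norm_nonneg _) (hF d)
  · rw [← coeff_zero_eq_constantCoeff_apply, hF', coeff_zero_eq_constantCoeff_apply, h0, mul_zero]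
  · ext d
    rw [coeff_scl, coeff_smul, hF']
    by_cases hd : d = 0
    · subst hd
      have : coeff 0 F = 0 := h0
      rw [this, mul_zero, mul_zero, mul_zero]
    · have : d.degree ≠ 0 := by
        rwa [ne_eq, Finsupp.degree_eq_zero_iff]
      rw [← mul_assoc, ← pow_succ']
      congr 2
      omega

end SumAt

section log

variable (p : ℕ) [hp : Fact p.Prime]
variable {L : Type*} [NontriviallyNormedField L] [IsUltrametricDist L] [CompleteSpace L]
variable {σ : Type*}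

theorem bdd_Lp {m : ℕ → L} (hm : ∀ k, ‖m k‖ ≤ 1) : Bdd (Fel.Lp p m) := by
  intro d
  have e1 : coeff d (Fel.Lp p m) = PowerSeries.coeff (d ()) (Fel.Lp p m) := by
    rw [PowerSeries.coeff]
    congr 2
    ext
    simp
  rw [e1]
  by_cases h : ∃ k, d () = p ^ k
  · obtain ⟨k, hk⟩ := h
    rw [hk, Fel.coeff_Lp_pow]
    exact hm k
  · push Not at h
    rw [Fel.coeff_Lp_of_ne _ h, norm_zero]
    exact zero_le_one

theorem Lp_smul (e : L) (m : ℕ → L) : Fel.Lp p (fun k => e * m k) = e • Fel.Lp p m := by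
  ext i
  rw [PowerSeries.coeff_smul, smul_eq_mul]
  by_cases h : ∃ k, i = p ^ k
  · obtain ⟨k, rfl⟩ := h
    rw [Fel.coeff_Lp_pow, Fel.coeff_Lp_pow]
  · push Not at h
    rw [Fel.coeff_Lp_of_ne _ h, Fel.coeff_Lp_of_ne _ h, mul_zero]

theorem scl_Lp (c : L) (m : ℕ → L) :
    scl c (Fel.Lp p m : PowerSeries L) = Fel.Lp p (fun k => c ^ p ^ k * m k) := by
  refine MvPowerSeries.ext fun d => ?_
  rw [coeff_scl]
  have e1 : ∀ m : ℕ → L, coeff d (Fel.Lp p m) = PowerSeries.coeff (d ()) (Fel.Lp p m) := by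
    intro m
    rw [PowerSeries.coeff]
    congr 2
    ext
    simp
  have e2 : d.degree = d () := by
    rw [Finsupp.degree_eq_sum]
    simp
  rw [e1, e1, e2]
  by_cases h : ∃ k, d () = p ^ k
  · obtain ⟨k, hk⟩ := h
    rw [hk, Fel.coeff_Lp_pow, Fel.coeff_Lp_pow]
  · push Not at h
    rw [Fel.coeff_Lp_of_ne _ h, Fel.coeff_Lp_of_ne _ h, mul_zero]

theorem scl_Lp_subst (c : L) (m : ℕ → L) {F F' : MvPowerSeries σ L} (h0 : constantCoeff F = 0)
    (h0' : constantCoeff F' = 0) (hF : scl c F = c • F') :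
    scl c ((Fel.Lp p m).subst F) = (Fel.Lp p (fun k => c ^ p ^ k * m k)).subst F' := by
  ext d
  rw [coeff_scl, Fel.coeff_Lp_subst m h0 d _ le_rfl, Fel.coeff_Lp_subst _ h0' d _ le_rfl,
    Finset.mul_sum]
  refine Finset.sum_congr rfl fun k _ => ?_
  have h1 : scl c (F ^ p ^ k) = c ^ p ^ k • F' ^ p ^ k := by
    rw [scl_pow, hF, smul_pow]
  have h2 := congrArg (coeff d) h1
  rw [coeff_scl, coeff_smul] at h2
  linear_combination m k * h2

/-- evaluation of `Λ(F)`, `Λ = ∑ m_k X^{p^k}` with moderate growth -/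
theorem ev_Lp_subst [Finite σ] (m : ℕ → L) (hd : ∀ r : ℝ, r < 1 → ∃ c : L, r < ‖c‖ ∧ ‖c‖ < 1)
    (hm : ∀ c : L, ‖c‖ < 1 → ∃ e : L, e ≠ 0 ∧ ∀ k, ‖e * (c ^ p ^ k * m k)‖ ≤ 1)
    {a : σ → L} (ha : ∀ i, ‖a i‖ < 1) {F : MvPowerSeries σ L} (hF : Bdd F)
    (h0 : constantCoeff F = 0) :
    SumAt a ((Fel.Lp p m).subst F) ∧ ev a ((Fel.Lp p m).subst F) = ev1 (ev a F) (Fel.Lp p m) := by
  obtain ⟨ρ, hρ0, hρ1, hρ⟩ := exists_rho ha
  obtain ⟨c, hc0, hc1⟩ := hd ρ hρ1
  have hcne : c ≠ 0 := by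
    rintro rfl
    rw [norm_zero] at hc0
    exact absurd hc0 (not_lt.2 hρ0.le)
  obtain ⟨e, he0, he⟩ := hm c hc1
  obtain ⟨F', hF', h0', hFF⟩ := exists_scl hc1.le hF h0
  obtain ⟨a', ha'⟩ : ∃ a' : σ → L, a' = fun i => a i / c := ⟨_, rfl⟩
  have ha1 : ∀ i, ‖a' i‖ < 1 := by
    intro i
    rw [ha', norm_div, div_lt_one (norm_pos_iff.2 hcne)]
    exact (hρ i).trans_lt hc0
  have haa : (fun i => c * a' i) = a := by
    funext i
    rw [ha']
    exact mul_div_cancel₀ _ hcne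
  have hb : Bdd (Fel.Lp p fun k => e * (c ^ p ^ k * m k)) := bdd_Lp p he
  have hs1 : Bdd ((Fel.Lp p fun k => e * (c ^ p ^ k * m k)).subst F') :=
    Bdd.subst (σ := Unit) hb (fun _ => hF') (fun _ => h0')
  have key : (Fel.Lp p fun k => e * (c ^ p ^ k * m k)).subst F' =
      e • scl c ((Fel.Lp p m).subst F) := by
    rw [scl_Lp_subst p c m h0 h0' hFF, Lp_smul,
      PowerSeries.subst_smul (PowerSeries.HasSubst.of_constantCoeff_zero h0')]
  have hsum : SumAt a' (scl c ((Fel.Lp p m).subst F)) := by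
    have h1 : SumAt a' ((Fel.Lp p fun k => e * (c ^ p ^ k * m k)).subst F') := summable_ev ha1 hs1
    rw [key] at h1
    have h2 := h1.smul e⁻¹
    rwa [smul_smul, inv_mul_cancel₀ he0, one_smul] at h2
  constructor
  · have h2 := sumAt_scl.1 hsum
    rwa [haa] at h2
  · have h1 : ev a' ((Fel.Lp p fun k => e * (c ^ p ^ k * m k)).subst F') =
        ev1 (ev a' F') (Fel.Lp p fun k => e * (c ^ p ^ k * m k)) :=
      ev_subst ha1 (τ := Unit) hb (fun _ => hF') (fun _ => h0')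
    rw [key, ev_smul', ev_scl, haa, Lp_smul] at h1
    have h2 : ev1 (ev a' F') (e • Fel.Lp p fun k => c ^ p ^ k * m k) =
        e * ev1 (ev a' F') (Fel.Lp p fun k => c ^ p ^ k * m k) := ev_smul' _ _ _
    rw [h2] at h1
    have h3 := mul_left_cancel₀ he0 h1
    rw [h3, ← scl_Lp]
    have h4 : ev1 (ev a' F') (scl c (Fel.Lp p m : PowerSeries L)) =
        ev (fun _ : Unit => c * ev a' F') (Fel.Lp p m) := ev_scl _ _ _
    rw [h4]
    have h5 : c * ev a' F' = ev a F := by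
      rw [← ev_smul', ← hFF, ev_scl, haa]
    rw [h5]
    rfl

variable [CharZero L]

/-- the Honda logarithm -/
noncomputable def logS (L : Type*) [Field L] [CharZero L] (n : ℕ) : PowerSeries L :=
  hlog p (prm n (0 : ℕ → L))

/-- its value -/
noncomputable def logL (n : ℕ) (a : L) : L := ev1 a (logS p L n)

theorem logS_eq {n : ℕ} (hn : 1 ≤ n) : logS p L n = Fel.Lp p (fun k => (QL.hm p n k : L)) :=
  QL.hlog_eq p hn

theorem pinv_eq : QL.pinv p L = (p : L)⁻¹ := by
  have h := QL.p_mul_pinv (K := L) p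
  have h0 : (p : L) ≠ 0 := Nat.cast_ne_zero.2 hp.out.ne_zero
  exact eq_inv_of_mul_eq_one_right h

/-- `a ≡ b mod p` implies `a^{p^k} ≡ b^{p^k} mod p^{k+1}` -/
theorem norm_pow_sub_pow_le_p {a b : L} (ha : ‖a‖ ≤ 1) (hb : ‖b‖ ≤ 1)
    (hab : ‖a - b‖ ≤ ‖(p : L)‖) (k : ℕ) : ‖a ^ p ^ k - b ^ p ^ k‖ ≤ ‖(p : L)‖ ^ (k + 1) := by
  have hp0 : (p : L) ≠ 0 := Nat.cast_ne_zero.2 hp.out.ne_zero
  have h1 : ((p : ℕ) : OC L) ∣ (⟨a, ha⟩ : OC L) - ⟨b, hb⟩ := by
    refine ⟨⟨(a - b) / p, ?_⟩, Subtype.ext ?_⟩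
    · change ‖(a - b) / p‖ ≤ 1
      rw [norm_div]
      exact div_le_one_of_le₀ hab (norm_nonneg _)
    · change a - b = (((p : ℕ) : OC L) : L) * ((a - b) / p)
      have : (((p : ℕ) : OC L) : L) = p := by simp
      rw [this]
      field_simp
  obtain ⟨⟨t, ht⟩, h2⟩ := dvd_sub_pow_of_dvd_sub h1 k
  have h3 := congrArg (fun x : OC L => (x : L)) h2
  have h4 : a ^ p ^ k - b ^ p ^ k = (p : L) ^ (k + 1) * t := by
    have h5 : (((((p : ℕ) : OC L) ^ (k + 1) * ⟨t, ht⟩ : OC L)) : L) = (p : L) ^ (k + 1) * t := by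
      push_cast
      rfl
    rw [← h5, ← h3]
    rfl
  rw [h4, norm_mul, norm_pow]
  exact mul_le_of_le_one_right (by positivity) ht

theorem norm_p_pos : 0 < ‖(p : L)‖ := norm_pos_iff.2 (Nat.cast_ne_zero.2 hp.out.ne_zero)

theorem hm_growth {n : ℕ} (hn : 1 ≤ n) (c : L) (hc : ‖c‖ < 1) :
    ∃ e : L, e ≠ 0 ∧ ∀ k, ‖e * (c ^ p ^ k * (QL.hm p n k : L))‖ ≤ 1 := by
  obtain ⟨D, hD0, hD⟩ := exists_growth_const hp.out.one_lt (norm_nonneg c) hc (norm_p_pos p (L := L)) hn
  obtain ⟨e, he0, he⟩ := NormedField.exists_norm_lt L (inv_pos.2 hD0)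
  refine ⟨e, norm_pos_iff.1 he0, fun k => ?_⟩
  unfold QL.hm
  split_ifs with h
  · obtain ⟨i, rfl⟩ := h
    rw [Nat.mul_div_cancel_left _ hn, pinv_eq, norm_mul, norm_mul, norm_pow, norm_pow, norm_inv]
    have h1 := hD i
    have hpos : 0 < ‖(p : L)‖ ^ i := pow_pos (norm_p_pos p) i
    calc ‖e‖ * (‖c‖ ^ p ^ (n * i) * ‖(p : L)‖⁻¹ ^ i) ≤
        D⁻¹ * ((D * ‖(p : L)‖ ^ i) * ‖(p : L)‖⁻¹ ^ i) := by gcongr
      _ = 1 := by
          rw [inv_pow]
          field_simp
  · simp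

section

variable (hd : ∀ r : ℝ, r < 1 → ∃ c : L, r < ‖c‖ ∧ ‖c‖ < 1) {n : ℕ} (hn : 1 ≤ n)
include hd hn

theorem sumAt_logS_subst [Finite σ] {a : σ → L} (ha : ∀ i, ‖a i‖ < 1) {F : MvPowerSeries σ L}
    (hF : Bdd F) (h0 : constantCoeff F = 0) : SumAt a ((logS p L n).subst F) := by
  rw [logS_eq p hn]
  exact (ev_Lp_subst p _ hd (hm_growth p hn) ha hF h0).1

theorem ev_logS_subst [Finite σ] {a : σ → L} (ha : ∀ i, ‖a i‖ < 1) {F : MvPowerSeries σ L}
    (hF : Bdd F) (h0 : constantCoeff F = 0) :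
    ev a ((logS p L n).subst F) = logL p n (ev a F) := by
  unfold logL
  rw [logS_eq p hn]
  exact (ev_Lp_subst p _ hd (hm_growth p hn) ha hF h0).2

/-- `log_n` as a sum -/
theorem hasSum_logL {a : L} (ha : ‖a‖ < 1) :
    Summable (fun i : ℕ => (p : L)⁻¹ ^ i * a ^ p ^ (n * i)) ∧
      logL p n a = ∑' i : ℕ, (p : L)⁻¹ ^ i * a ^ p ^ (n * i) := by
  have hinj : Function.Injective (fun i : ℕ => p ^ (n * i)) := by
    intro i j hij
    have := Nat.pow_right_injective hp.out.two_le hij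
    exact Nat.eq_of_mul_eq_mul_left hn this
  have hc : ∀ i : ℕ, PowerSeries.coeff (p ^ (n * i)) (logS p L n) = (p : L)⁻¹ ^ i := by
    intro i
    rw [logS_eq p hn, Fel.coeff_Lp_pow, QL.hm, if_pos (dvd_mul_right _ _),
      Nat.mul_div_cancel_left _ hn, pinv_eq]
  have hsupp : Function.support (fun m : ℕ => PowerSeries.coeff m (logS p L n) * a ^ m) ⊆
      Set.range (fun i : ℕ => p ^ (n * i)) := by
    intro m hm
    rw [Function.mem_support] at hm
    by_contra hcon
    apply hm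
    rw [logS_eq p hn]
    by_cases h : ∃ k, m = p ^ k
    · obtain ⟨k, rfl⟩ := h
      rw [Fel.coeff_Lp_pow, QL.hm, if_neg, zero_mul]
      rintro ⟨i, rfl⟩
      exact hcon ⟨i, rfl⟩
    · push Not at h
      rw [Fel.coeff_Lp_of_ne _ h, zero_mul]
  have hs : Summable (fun m : ℕ => PowerSeries.coeff m (logS p L n) * a ^ m) := by
    have h1 := sumAt_logS_subst p hd hn (a := fun _ : Unit => a) (fun _ => ha) (Bdd.X ())
      (constantCoeff_X ())
    have h2 : (logS p L n).subst (MvPowerSeries.X () : MvPowerSeries Unit L) = logS p L n :=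
      congrFun (MvPowerSeries.subst_self (R := L) (σ := Unit)) _
    rw [h2] at h1
    have h3 := h1.comp_injective (i := fun m : ℕ => (Finsupp.single () m : Unit →₀ ℕ))
      (Finsupp.single_injective ())
    refine h3.congr fun m => ?_
    simp only [Function.comp_apply]
    rw [Finsupp.prod_single_index (h := fun _ e => a ^ e) (pow_zero a)]
    rfl
  constructor
  · refine (hs.comp_injective hinj).congr fun i => ?_
    simp only [Function.comp_apply, hc]
  · unfold logL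
    rw [ev1_eq_tsum, ← hinj.tsum_eq hsupp]
    exact tsum_congr fun i => by rw [hc]

/-- congruent arguments have congruent logarithms -/
theorem logL_congr {a b : L} (ha : ‖a‖ < 1) (hb : ‖b‖ < 1) (hab : ‖a - b‖ ≤ ‖(p : L)‖)
    (hp1 : ‖(p : L)‖ ≤ 1) : ‖logL p n a - logL p n b‖ ≤ ‖(p : L)‖ := by
  obtain ⟨h1, h2⟩ := hasSum_logL p hd hn ha
  obtain ⟨h3, h4⟩ := hasSum_logL p hd hn hb
  rw [h2, h4, ← h1.tsum_sub h3]
  refine norm_tsum_le_of_forall (norm_nonneg _) fun i => ?_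
  rw [← mul_sub, norm_mul, norm_pow, norm_inv]
  have h5 := norm_pow_sub_pow_le_p p ha.le hb.le hab (n * i)
  have hpos := norm_p_pos p (L := L)
  calc ‖(p : L)‖⁻¹ ^ i * ‖a ^ p ^ (n * i) - b ^ p ^ (n * i)‖ ≤
      ‖(p : L)‖⁻¹ ^ i * ‖(p : L)‖ ^ (n * i + 1) := by gcongr
    _ ≤ ‖(p : L)‖⁻¹ ^ i * ‖(p : L)‖ ^ (i + 1) := by
        gcongr ?_ * ?_
        refine pow_le_pow_of_le_one (norm_nonneg _) hp1 ?_
        have : i ≤ n * i := Nat.le_mul_of_pos_left i (by omega)
        omega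
    _ = ‖(p : L)‖ := by
        rw [pow_succ, inv_pow]
        field_simp

/-- the logarithm is additive on the Honda group -/
theorem logL_add {a b : L} (ha : ‖a‖ < 1) (hb : ‖b‖ < 1) :
    logL p n (ev ![a, b] (hazF p (prm n (0 : ℕ → L))).toPowerSeries) =
      logL p n a + logL p n b := by
  have hab := pair_lt ha hb
  have hF : Bdd (hazF p (prm n (0 : ℕ → L))).toPowerSeries := bdd_hazF p _ fun j => by
    unfold prm
    split_ifs <;> simp
  have hX : ∀ i : Fin 2, ev ![a, b] ((logS p L n).subst (X i : MvPowerSeries (Fin 2) L)) =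
      logL p n ((![a, b] : Fin 2 → L) i) := fun i => by
    rw [ev_logS_subst p hd hn hab (Bdd.X i) (constantCoeff_X i), ev_X]
  have h := congrArg (ev ![a, b]) (hlog_hazF p (prm n (0 : ℕ → L)))
  change ev ![a, b] ((logS p L n).subst _) = ev ![a, b] ((logS p L n).subst _ +
    (logS p L n).subst _) at h
  rw [ev_logS_subst p hd hn hab hF (FormalGroup.zero_constantCoeff _),
    ev_add' (sumAt_logS_subst p hd hn hab (Bdd.X 0) (constantCoeff_X 0))
      (sumAt_logS_subst p hd hn hab (Bdd.X 1) (constantCoeff_X 1)), hX, hX] at h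
  exact h

/-- evaluation of a quasi-logarithm identity -/
theorem logL_quasi {h : ℕ} (hh : 1 ≤ h) {ψ g0 : PowerSeries L} (hψ : Bdd ψ)
    (hψ0 : PowerSeries.constantCoeff ψ = 0) (hg0 : Bdd g0) {c : Fin n → L}
    (H : (logS p L h).subst ψ = ∑ k : Fin n, c k • (logS p L n).subst
      ((PowerSeries.X : PowerSeries L) ^ p ^ (k : ℕ)) + g0) {a : L} (ha : ‖a‖ < 1) :
    logL p h (ev1 a ψ) = ∑ k : Fin n, c k * logL p n (a ^ p ^ (k : ℕ)) + ev1 a g0 := by
  have hXb : ∀ k : Fin n, Bdd ((PowerSeries.X : PowerSeries L) ^ p ^ (k : ℕ)) := fun k =>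
    (Bdd.X ()).pow _
  have hX0 : ∀ k : Fin n, MvPowerSeries.constantCoeff
      ((PowerSeries.X : PowerSeries L) ^ p ^ (k : ℕ)) = 0 := fun k => by
    change PowerSeries.constantCoeff _ = 0
    rw [map_pow, PowerSeries.constantCoeff_X, zero_pow (pow_ne_zero _ hp.out.ne_zero)]
  have h1 := congrArg (ev fun _ : Unit => a) H
  have h2 : ev (fun _ : Unit => a) ((logS p L h).subst ψ) = logL p h (ev1 a ψ) :=
    ev_logS_subst p hd hh (fun _ => ha) hψ hψ0
  have hs : ∀ k ∈ Finset.univ (α := Fin n), SumAt (fun _ : Unit => a) (c k •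
      ((logS p L n).subst ((PowerSeries.X : PowerSeries L) ^ p ^ (k : ℕ)))) := fun k _ =>
    SumAt.smul (sumAt_logS_subst p hd hn (fun _ => ha) (hXb k) (hX0 k)) _
  rw [h2] at h1
  rw [h1]
  refine (ev_add' (SumAt.sum _ hs) (summable_ev (fun _ => ha) hg0)).trans ?_
  rw [ev_sum' _ hs]
  congr 1
  refine Finset.sum_congr rfl fun k _ => ?_
  rw [ev_smul']
  congr 1
  refine (ev_logS_subst p hd hn (fun _ => ha) (hXb k) (hX0 k)).trans ?_
  congr 1
  exact (ev_pow (fun _ => ha) (Bdd.X ()) _).trans (by rw [ev_X])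

end

end log

end Chai
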