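import Vale.Agent.Chai.ThetaDefs

/-!
# P217 / ThetaW: the Witt vectors of the finite field `𝔽 = F_{p^h}` inside `L` (part of Theta)

OWNER: helper29

`B = W(𝔽)`: domain, `p`-adically complete (Mathlib), char `0`; `rhoW k : B → L`, `[ζ] ↦ T(ζ)^{p^k}`.

PROOFS.
* `rhoW_teichmuller`: from `U.ρ_T`, `WittVector.map_teichmuller`, `frobenius [ζ] = [ζ^p]`.
* Injective: `w ≠ 0` is `p^m u`, `u` a unit of `B`, and `p ≠ 0` in `L`.
* `descent`.  Clear denominators: `b_j = b'_j / d`, `b'_j ∈ B`, `d ∈ B` nonzero.  Hence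
  `∑_j rhoW k (b'_j) θ_j = 0` for `θ ∈ S`, `k < h`.  For `c ∈ B` put `α_j = ∑_{k<h} F^k(c b'_j)`; `F^h = id`
  on `B` (`ζ^{p^h} = ζ`), so `F α_j = α_j`, and
  `∑_j rhoW 0 (α_j) θ_j = ∑_k rhoW k (c) ∑_j rhoW k (b'_j) θ_j = 0`.
  Choose `c` with `α_{i₀} ≠ 0`: `b'_{i₀} = p^m u`, `c = [ζ] u⁻¹` with
  `∑_{k<h} ζ^{p^k} ≠ 0` in `𝔽` (a polynomial of degree `p^{h-1} < p^h` does not vanish on `𝔽`).
  `F α = α` means that all Witt coefficients of `α` satisfy `a^p = a`, so they are in the image of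
  `ZMod p`, and `α_j = map(equiv.symm α'_j)` with `α'_j ∈ ℤ_[p]`, not all zero.  Divide by the largest
  power `p^e` dividing all `α'_j`: `α''_j`.  Then `∑_j r(α''_j) θ_j = 0`, where
  `r : ℤ_[p] → L` is the ring hom `rhoW 0 ∘ map ∘ equiv.symm`, `‖r(x)‖ ≤ 1`, so
  `∑ c_j θ_j = ∑ (c_j - r(α''_j)) θ_j` has norm `≤ ‖p‖^K B`.
-/

namespace Chai

open MvPowerSeries Filter Topology

universe u

section Witt

variable (p : ℕ) [Fact p.Prime] {𝔽 : Type*} [Field 𝔽] [Fintype 𝔽] [CharP 𝔽 p]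

omit [Fintype 𝔽] in
theorem frobenius_iter_teichmuller (k : ℕ) (ζ : 𝔽) :
    ((WittVector.frobenius (p := p) (R := 𝔽)) ^ k) (WittVector.teichmuller p ζ) =
      WittVector.teichmuller p (ζ ^ p ^ k) := by
  induction k with
  | zero => simp
  | succ k ih =>
    rw [pow_succ', RingHom.mul_def, RingHom.comp_apply, ih, WittVector.frobenius_eq_map_frobenius,
      WittVector.map_teichmuller, frobenius_def, ← pow_mul, ← pow_succ]

omit [Fintype 𝔽] in
theorem frobenius_iter_coeff (k : ℕ) (x : WittVector p 𝔽) (n : ℕ) :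
    (((WittVector.frobenius (p := p) (R := 𝔽)) ^ k) x).coeff n = x.coeff n ^ p ^ k := by
  induction k with
  | zero => simp
  | succ k ih =>
    rw [pow_succ', RingHom.mul_def, RingHom.comp_apply, WittVector.coeff_frobenius_charP, ih,
      ← pow_mul, ← pow_succ]

theorem frobenius_iter_card {h : ℕ} (hcard : Fintype.card 𝔽 = p ^ h) (x : WittVector p 𝔽) :
    ((WittVector.frobenius (p := p) (R := 𝔽)) ^ h) x = x := by
  ext n
  rw [frobenius_iter_coeff, ← hcard, FiniteField.pow_card]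

/-- a Witt vector fixed by Frobenius comes from `ZMod p` -/
theorem exists_of_frobenius_fixed (x : WittVector p 𝔽)
    (hx : WittVector.frobenius x = x) :
    ∃ y : WittVector p (ZMod p), WittVector.map (ZMod.castHom (dvd_refl p) 𝔽) y = x := by
  have h1 : ∀ n, ∃ a : ZMod p, ZMod.castHom (dvd_refl p) 𝔽 a = x.coeff n := by
    intro n
    have h2 : x.coeff n ^ p = x.coeff n := by
      rw [← WittVector.coeff_frobenius_charP, hx]
    rw [← Subfield.mem_bot_iff_pow_eq_self (F := 𝔽) (p := p),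
      ← ZMod.fieldRange_castHom_eq_bot (K := 𝔽) p] at h2
    exact h2
  choose a ha using h1
  refine ⟨WittVector.mk p a, ?_⟩
  ext n
  rw [WittVector.map_coeff, WittVector.coeff_mk, ha]

omit [CharP 𝔽 p] in
/-- there is `ζ` with nonzero trace -/
theorem exists_trace_ne_zero {h : ℕ} (hcard : Fintype.card 𝔽 = p ^ h) :
    ∃ ζ : 𝔽, ∑ k ∈ Finset.range h, ζ ^ p ^ k ≠ 0 := by
  classical
  have hp : 1 < p := (Fact.out : p.Prime).one_lt
  have hh : h ≠ 0 := by
    rintro rfl
    have := Fintype.one_lt_card (α := 𝔽)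
    simp only [pow_zero] at hcard
    omega
  by_contra! hcon
  let P : Polynomial 𝔽 := ∑ k ∈ Finset.range h, (Polynomial.X : Polynomial 𝔽) ^ p ^ k
  have hdeg : P.natDegree < Fintype.card 𝔽 := by
    rw [hcard]
    refine lt_of_le_of_lt (Polynomial.natDegree_sum_le_of_forall_le (n := p ^ (h - 1)) _ _ ?_) ?_
    · intro k hk
      rw [Finset.mem_range] at hk
      rw [Polynomial.natDegree_X_pow]
      exact Nat.pow_le_pow_right (by omega) (by omega)
    · exact Nat.pow_lt_pow_right hp (by omega)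
  have hP : P = 0 := by
    refine Polynomial.eq_zero_of_natDegree_lt_card_of_eval_eq_zero P Function.injective_id ?_ hdeg
    intro ζ
    simpa [P, Polynomial.eval_finsetSum] using hcon ζ
  have h1 : P.coeff 1 = 1 := by
    simp only [P, Polynomial.finsetSum_coeff, Polynomial.coeff_X_pow]
    rw [Finset.sum_eq_single 0]
    · simp
    · intro k _ hk
      rw [if_neg]
      intro h2
      exact absurd h2.symm (Nat.one_lt_pow hk hp).ne'
    · intro h3
      exact absurd (Finset.mem_range.mpr (Nat.pos_of_ne_zero hh)) h3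
  rw [hP, Polynomial.coeff_zero] at h1
  exact zero_ne_one h1

end Witt

variable (p : ℕ) [Fact p.Prime]
variable {C : Type u} [NontriviallyNormedField C] [IsUltrametricDist C] [CompleteSpace C]
variable [CharP C p] [IsAlgClosed C]
variable {τ : OC C} {L : Type u} [NontriviallyNormedField L] [IsUltrametricDist L]
variable {𝔽 : Type*} [Field 𝔽] [Fintype 𝔽] [CharP 𝔽 p] [Algebra 𝔽 C] [CharZero L]

omit [CompleteSpace C] [CharP C p] [IsAlgClosed C] [CharZero L] in
theorem rhoW_teichmuller (U : UntiltData p C τ L) (k : ℕ) (ζ : 𝔽) :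
    rhoW p U k (WittVector.teichmuller p ζ) = U.T (algebraMap 𝔽 C ζ) ^ p ^ k := by
  unfold rhoW
  rw [RingHom.comp_apply, RingHom.comp_apply, RingHom.comp_apply, frobenius_iter_teichmuller,
    WittVector.map_teichmuller]
  have h := U.ρ_T (incF C 𝔽 (ζ ^ p ^ k))
  rw [Subring.subtype_apply, h, map_pow]
  have h2 : ((incF C 𝔽 ζ ^ p ^ k : OC C) : C) = (algebraMap 𝔽 C ζ) ^ p ^ k := by
    rw [Subring.coe_pow]; rfl
  rw [h2, map_pow]

theorem norm_rhoW_le (U : UntiltData p C τ L) (k : ℕ) (w : WittVector p 𝔽) :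
    ‖rhoW p U k w‖ ≤ 1 := by
  unfold rhoW
  rw [RingHom.comp_apply]
  exact Subtype.property ((U.ρ.comp ((WittVector.map (incF C 𝔽)).comp
    ((WittVector.frobenius (p := p) (R := 𝔽)) ^ k))) w)

theorem rhoW_injective (h1 : ‖(τ : C)‖ < 1) (U : UntiltData p C τ L) (k : ℕ) :
    Function.Injective (rhoW p (𝔽 := 𝔽) U k) := by
  rw [injective_iff_map_eq_zero]
  intro w hw
  by_contra hne
  obtain ⟨m, u, rfl⟩ := WittVector.exists_eq_pow_p_mul' w hne
  rw [map_mul, map_pow, map_natCast, mul_eq_zero] at hw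
  rcases hw with hw | hw
  · exact (Nat.cast_ne_zero.mpr (Fact.out : p.Prime).ne_zero) (eq_zero_of_pow_eq_zero hw)
  · have := (u.isUnit.map (rhoW p (𝔽 := 𝔽) U k)).ne_zero
    exact this hw

instance : CharZero (WittVector p 𝔽) := by
  obtain ⟨c, hc⟩ := CharP.exists (WittVector p 𝔽)
  rcases CharP.char_is_prime_or_zero (WittVector p 𝔽) c with hc' | hc'
  · exfalso
    have h1 : ((c : WittVector p 𝔽)) = 0 := CharP.cast_eq_zero _ c
    have h2 : (c : 𝔽) = 0 := by
      have := congrArg (WittVector.constantCoeff (p := p) (R := 𝔽)) h1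
      rwa [map_natCast, map_zero] at this
    have h3 : p ∣ c := (CharP.cast_eq_zero_iff 𝔽 p c).mp h2
    have h4 : p = c := (Nat.prime_dvd_prime_iff_eq Fact.out hc').mp h3
    subst h4
    exact WittVector.p_nonzero p 𝔽 h1
  · subst hc'
    exact CharP.charP_to_charZero _

/-- `rhoW` extended to the fraction field -/
noncomputable def rhoK (h1 : ‖(τ : C)‖ < 1) (U : UntiltData p C τ L) (k : ℕ) :
    FractionRing (WittVector p 𝔽) →+* L :=
  IsFractionRing.lift (rhoW_injective (𝔽 := 𝔽) p h1 U k)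

theorem rhoK_algebraMap (h1 : ‖(τ : C)‖ < 1) (U : UntiltData p C τ L) (k : ℕ)
    (w : WittVector p 𝔽) :
    rhoK p h1 U k (algebraMap (WittVector p 𝔽) (FractionRing (WittVector p 𝔽)) w) =
      rhoW p U k w :=
  IsFractionRing.lift_algebraMap (rhoW_injective (𝔽 := 𝔽) p h1 U k) w

omit [CompleteSpace C] [CharP C p] [IsAlgClosed C] [CharP 𝔽 p] [CharZero L] in
theorem rhoW_eq_zero_comp (U : UntiltData p C τ L) (k : ℕ) (w : WittVector p 𝔽) :
    rhoW p U k w = rhoW p U 0 (((WittVector.frobenius (p := p) (R := 𝔽)) ^ k) w) := by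
  simp [rhoW]

theorem descent_Zp {h : ℕ} (hcard : Fintype.card 𝔽 = p ^ h) (h0 : (τ : C) ≠ 0) (h1 : ‖(τ : C)‖ < 1)
    (U : UntiltData p C τ L) {ι : Type*} [Fintype ι]
    (b : ι → FractionRing (WittVector p 𝔽)) (i₀ : ι) (hb : b i₀ ≠ 0) (S : Set (ι → L))
    (hS : ∀ θ ∈ S, ∀ k < h, ∑ j, rhoK p h1 U k (b j) * θ j = 0) :
    ∃ α : ι → ℤ_[p], (∃ j, ¬ (p : ℤ_[p]) ∣ α j) ∧
      ∀ θ ∈ S, ∀ (K : ℕ) (c : ι → ℤ), (∀ j, (p : ℤ_[p]) ^ K ∣ α j - c j) →
        ∀ B : ℝ, 0 ≤ B → (∀ j, ‖θ j‖ ≤ B) → ‖∑ j, (c j : L) * θ j‖ ≤ ‖(p : L)‖ ^ K * B := by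
  classical
  -- clear denominators
  obtain ⟨d, hd⟩ := IsLocalization.exist_integer_multiples (nonZeroDivisors (WittVector p 𝔽))
    Finset.univ b
  choose b' hb' using fun j => hd j (Finset.mem_univ j)
  have hd0 : algebraMap (WittVector p 𝔽) (FractionRing (WittVector p 𝔽)) d ≠ 0 := by
    rw [Ne, FaithfulSMul.algebraMap_eq_zero_iff]
    exact nonZeroDivisors.ne_zero d.2
  have hb'2 : ∀ j, algebraMap (WittVector p 𝔽) (FractionRing (WittVector p 𝔽)) (b' j) =
      algebraMap (WittVector p 𝔽) (FractionRing (WittVector p 𝔽)) d * b j := by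
    intro j
    rw [hb' j, Algebra.smul_def]
  have hS' : ∀ θ ∈ S, ∀ k < h, ∑ j, rhoW p U k (b' j) * θ j = 0 := by
    intro θ hθ k hk
    have h2 := hS θ hθ k hk
    have h3 : ∀ j, rhoW p U k (b' j) * θ j =
        rhoK p h1 U k (algebraMap (WittVector p 𝔽) (FractionRing (WittVector p 𝔽)) d) *
          (rhoK p h1 U k (b j) * θ j) := by
      intro j
      rw [← rhoK_algebraMap p h1, hb'2, map_mul, mul_assoc]
    simp_rw [h3]
    rw [← Finset.mul_sum, h2, mul_zero]
  -- choose the multiplier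
  have hne : b' i₀ ≠ 0 := by
    intro h2
    have h3 := hb'2 i₀
    rw [h2, map_zero] at h3
    rcases mul_eq_zero.mp h3.symm with h4 | h4
    · exact hd0 h4
    · exact hb h4
  obtain ⟨m, u, hu⟩ := WittVector.exists_eq_pow_p_mul' (b' i₀) hne
  obtain ⟨ζ, hζ⟩ := exists_trace_ne_zero p hcard
  let F := WittVector.frobenius (p := p) (R := 𝔽)
  let c₀ : WittVector p 𝔽 := WittVector.teichmuller p ζ * ((u⁻¹ : Units (WittVector p 𝔽)) : WittVector p 𝔽)
  let A : ι → WittVector p 𝔽 := fun j => ∑ k ∈ Finset.range h, (F ^ k) (c₀ * b' j)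
  have hAF : ∀ j, F (A j) = A j := by
    intro j
    have h2 : F (A j) = ∑ k ∈ Finset.range h, (F ^ (k + 1)) (c₀ * b' j) := by
      simp only [A]
      rw [map_sum]
      refine Finset.sum_congr rfl fun k _ => ?_
      rw [pow_succ', RingHom.mul_def, RingHom.comp_apply]
    have h3 := Finset.sum_range_succ (fun k => (F ^ k) (c₀ * b' j)) h
    have h4 := Finset.sum_range_succ' (fun k => (F ^ k) (c₀ * b' j)) h
    have h5 : (F ^ h) (c₀ * b' j) = (F ^ 0) (c₀ * b' j) := by
      rw [frobenius_iter_card p hcard, pow_zero]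
      rfl
    rw [h3, h5] at h4
    rw [h2]
    exact (add_right_cancel h4).symm
  have hA0 : A i₀ ≠ 0 := by
    have h2 : c₀ * b' i₀ = (p : WittVector p 𝔽) ^ m * WittVector.teichmuller p ζ := by
      rw [hu]
      simp only [c₀]
      have := u.inv_mul
      calc WittVector.teichmuller p ζ * ((u⁻¹ : Units (WittVector p 𝔽)) : WittVector p 𝔽) *
          ((p : WittVector p 𝔽) ^ m * (u : WittVector p 𝔽))
          = (p : WittVector p 𝔽) ^ m * WittVector.teichmuller p ζ *
            (((u⁻¹ : Units (WittVector p 𝔽)) : WittVector p 𝔽) * (u : WittVector p 𝔽)) := by ring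
        _ = _ := by rw [this, mul_one]
    have h3 : A i₀ = (p : WittVector p 𝔽) ^ m *
        ∑ k ∈ Finset.range h, WittVector.teichmuller p (ζ ^ p ^ k) := by
      simp only [A]
      rw [Finset.mul_sum]
      refine Finset.sum_congr rfl fun k _ => ?_
      rw [h2, map_mul, map_pow, map_natCast]
      congr 1
      exact frobenius_iter_teichmuller p k ζ
    rw [h3]
    refine mul_ne_zero (pow_ne_zero _ (WittVector.p_nonzero p 𝔽)) ?_
    intro h4
    apply hζ
    have h5 := congrArg (WittVector.constantCoeff (p := p) (R := 𝔽)) h4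
    rw [map_sum, map_zero] at h5
    exact h5
  -- descend to `ZMod p`
  have hF' : ∀ j, ∃ y : WittVector p (ZMod p),
      WittVector.map (ZMod.castHom (dvd_refl p) 𝔽) y = A j :=
    fun j => exists_of_frobenius_fixed p (A j) (hAF j)
  choose y hy using hF'
  let r : ℤ_[p] →+* L := (rhoW p (𝔽 := 𝔽) U 0).comp
    ((WittVector.map (ZMod.castHom (dvd_refl p) 𝔽)).comp
      ((WittVector.equiv p).symm : ℤ_[p] →+* WittVector p (ZMod p)))
  have hr1 : ∀ x, ‖r x‖ ≤ 1 := fun x => norm_rhoW_le p U 0 _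
  let β : ι → ℤ_[p] := fun j => WittVector.equiv p (y j)
  have hrβ : ∀ j, r (β j) = rhoW p U 0 (A j) := by
    intro j
    simp only [r, β, RingHom.comp_apply]
    rw [← hy j]
    congr 2
    exact (WittVector.equiv p).symm_apply_apply (y j)
  have hβ0 : β i₀ ≠ 0 := by
    intro h2
    have h3 : y i₀ = 0 := (map_eq_zero_iff _ (WittVector.equiv p).injective).mp h2
    apply hA0
    rw [← hy i₀, h3, map_zero]
  have hsum : ∀ θ ∈ S, ∑ j, r (β j) * θ j = 0 := by
    intro θ hθ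
    have h2 : ∀ j, r (β j) * θ j =
        ∑ k ∈ Finset.range h, rhoW p U k c₀ * (rhoW p U k (b' j) * θ j) := by
      intro j
      rw [hrβ]
      simp only [A]
      rw [map_sum, Finset.sum_mul]
      refine Finset.sum_congr rfl fun k _ => ?_
      rw [← rhoW_eq_zero_comp, map_mul, mul_assoc]
    simp_rw [h2]
    rw [Finset.sum_comm]
    refine Finset.sum_eq_zero fun k hk => ?_
    rw [← Finset.mul_sum, hS' θ hθ k (Finset.mem_range.mp hk), mul_zero]
  -- divide by a power of `p`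
  have hp0 : (p : ℤ_[p]) ≠ 0 := Nat.cast_ne_zero.mpr (Fact.out : p.Prime).ne_zero
  have hex : ∃ e : ℕ, ¬ ∀ j, (p : ℤ_[p]) ^ e ∣ β j := by
    have h2 : FiniteMultiplicity (p : ℤ_[p]) (β i₀) :=
      FiniteMultiplicity.of_prime_left (PadicInt.prime_p) hβ0
    obtain ⟨e, he⟩ := h2
    exact ⟨e + 1, fun h3 => he (h3 i₀)⟩
  let e := Nat.find hex
  have he : ¬ ∀ j, (p : ℤ_[p]) ^ e ∣ β j := Nat.find_spec hex
  have he0 : e ≠ 0 := by
    intro h2
    apply he
    intro j
    rw [h2, pow_zero]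
    exact one_dvd _
  have he1 : ∀ j, (p : ℤ_[p]) ^ (e - 1) ∣ β j := by
    have := Nat.find_min hex (m := e - 1) (by simp only [e]; exact Nat.sub_lt (Nat.pos_of_ne_zero he0) one_pos)
    exact not_not.mp this
  choose α hα using he1
  refine ⟨α, ?_, ?_⟩
  · by_contra! h2
    apply he
    intro j
    obtain ⟨t, ht⟩ := h2 j
    refine ⟨t, ?_⟩
    rw [hα j, ht, ← mul_assoc, ← pow_succ]
    congr 2
    omega
  · intro θ hθ K c hc B hB hθB
    have hpL : (p : L) ≠ 0 := Nat.cast_ne_zero.mpr (Fact.out : p.Prime).ne_zero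
    have h2 : ∑ j, r (α j) * θ j = 0 := by
      have h3 := hsum θ hθ
      simp_rw [hα, map_mul, map_pow, map_natCast, mul_assoc] at h3
      rw [← Finset.mul_sum] at h3
      rcases mul_eq_zero.mp h3 with h4 | h4
      · exact absurd h4 (pow_ne_zero _ hpL)
      · exact h4
    have h3 : ∑ j, (c j : L) * θ j = ∑ j, r (c j - α j) * θ j := by
      simp_rw [map_sub, map_intCast, sub_mul, Finset.sum_sub_distrib]
      rw [h2, sub_zero]
    rw [h3]
    refine IsUltrametricDist.norm_sum_le_of_forall_le_of_nonneg (by positivity) ?_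
    intro j _
    obtain ⟨δ, hδ⟩ := hc j
    have h4 : (c j : ℤ_[p]) - α j = (p : ℤ_[p]) ^ K * (-δ) := by
      rw [mul_neg, ← hδ]; ring
    rw [h4, map_mul, map_pow, map_natCast, norm_mul, norm_mul, norm_pow]
    have h5 : ‖(p : L)‖ ^ K * ‖r (-δ)‖ ≤ ‖(p : L)‖ ^ K :=
      mul_le_of_le_one_right (by positivity) (hr1 _)
    exact mul_le_mul h5 (hθB j) (norm_nonneg _) (by positivity)

end Chai
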