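import Vale.Agent.Chai.ThetaFun
import Vale.Agent.Chai.ThetaHom
import Vale.Agent.Chai.ThetaW

/-!
# P217 / ThetaQ: `Θ_h ∘ ℓ` and `Θ_h ∘ g` in terms of `Θ_n` resp. `Θ_h` (part of Theta)

OWNER: helper23
-/

namespace Chai

open MvPowerSeries Filter Topology

set_option linter.unusedSectionVars false

universe u

section general

variable {R S : Type*} [CommRing R] [CommRing S]

theorem prm_map (φ : R →+* S) (n : ℕ) (x : ℕ → R) :
    (fun j => φ (prm n x j)) = prm n (fun j => φ (x j)) := by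
  funext j
  unfold prm
  split_ifs
  · rfl
  · exact map_one φ
  · exact map_zero φ

theorem prm_congr {n : ℕ} {x y : ℕ → R} (h : ∀ j, 1 ≤ j → j < n → x j = y j) :
    prm n x = prm n y := by
  funext j
  unfold prm
  split_ifs with h1
  · exact h j h1.1 h1.2
  · rfl
  · rfl

theorem hlog_map (p : ℕ) [Fact p.Prime] {K K' : Type*} [CommRing K] [CommRing K'] [Algebra ℚ K]
    [Algebra ℚ K'] (φ : K →+* K') (v : ℕ → K) :
    (hlog p v).map φ = hlog p (fun j => φ (v j)) := by
  rw [hlog_eq, hlog_eq, Fel.map_Lp]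
  congr 1
  funext k
  exact Fel.map_hm p φ v k

end general

variable (p : ℕ) [hp : Fact p.Prime]
variable {C : Type u} [NontriviallyNormedField C] [IsUltrametricDist C] [CompleteSpace C]
variable [CharP C p] [IsAlgClosed C]
variable {τ : OC C} {L : Type u} [NontriviallyNormedField L] [IsUltrametricDist L]
variable [CompleteSpace L] [CharZero L]
variable (U : UntiltData p C τ L)

/-- the series with coefficients `T(f_d)` -/
noncomputable def hatS {σ : Type*} (f : MvPowerSeries σ C) (hf : Bdd f) : MvPowerSeries σ (OC L) :=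
  fun d => ⟨U.T (coeff d f), by
    change ‖_‖ ≤ 1
    rw [U.norm_T]
    exact hf d⟩

theorem coeff_hatS {σ : Type*} (f : MvPowerSeries σ C) (hf : Bdd f) (d : σ →₀ ℕ) :
    ((coeff d (hatS p U f hf) : OC L) : L) = U.T (coeff d f) := rfl

/-- a bounded series as a series over `O_C` -/
def toO {σ : Type*} {K : Type*} [NontriviallyNormedField K] [IsUltrametricDist K]
    (f : MvPowerSeries σ K) (hf : Bdd f) : MvPowerSeries σ (OC K) :=
  fun d => ⟨coeff d f, hf d⟩

theorem toO_map {σ : Type*} {K : Type*} [NontriviallyNormedField K] [IsUltrametricDist K]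
    (f : MvPowerSeries σ K) (hf : Bdd f) : (toO f hf).map (OC K).subtype = f := by
  ext d
  rw [coeff_map]
  rfl

theorem hatS_map_pi {σ : Type*} (f : MvPowerSeries σ C) (hf : Bdd f) :
    (hatS p U f hf).map U.π = (toO f hf).map (Ideal.Quotient.mk (Ideal.span {τ})) := by
  ext d
  rw [coeff_map, coeff_map]
  exact U.π_T ⟨coeff d f, hf d⟩ _ (coeff_hatS p U f hf d)

theorem bdd_map_sub {σ : Type*} (f : MvPowerSeries σ (OC L)) :
    Bdd (f.map (algebraMap (OC L) L)) := fun d => by
  rw [coeff_map]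
  exact (coeff d f).2

variable (h0 : (τ : C) ≠ 0) (h1 : ‖(τ : C)‖ < 1)
include h0 h1

theorem exists_ell {n h : ℕ} (hn : 1 ≤ n) (hh : 1 ≤ h) {x : Ball C} (hx : SizeLE n x ‖(τ : C)‖)
    (ψ : CHom (FC p n x) (FC p h 0)) : ∃ c : Fin n → L, ∀ z : (FC p n (0 : Ball C)).Pt,
      theta p U h (ψ.map (expm p hn x z)).1 =
        ∑ m : Fin n, c m * theta p U n (z.1 ^ p ^ (m : ℕ)) := by
  have hp1 := norm_p_lt_one p U h0 h1
  obtain ⟨ψh, hψh⟩ : ∃ ψh : PowerSeries (OC L), ψh = hatS p U (σ := Unit) ψ.ps ψ.bdd := ⟨_, rfl⟩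
  have hψ0 : MvPowerSeries.constantCoeff ψ.ps = 0 := ψ.isHom.1
  have hψh0 : PowerSeries.constantCoeff ψh = 0 := by
    rw [hψh]
    apply Subtype.ext
    change U.T (MvPowerSeries.constantCoeff ψ.ps) = _
    rw [hψ0, map_zero]
    rfl
  have hred : IsHom (ψh.map U.π) (hazF p (prm n 0)) (hazF p (prm h 0)) := by
    obtain ⟨xO, hxO⟩ : ∃ xO : ℕ → OC C, xO = fun j => ⟨x.1 j, (x.2 j).le⟩ := ⟨_, rfl⟩
    have e1 : (hazF p (prm n xO)).map (OC C).subtype = (FC p n x).toFormalGroup := by
      rw [hazF_map, prm_map, hxO]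
      rfl
    have e2 : (hazF p (prm h (0 : ℕ → OC C))).map (OC C).subtype =
        (FC p h (0 : Ball C)).toFormalGroup := by
      rw [hazF_map, prm_map]
      rfl
    have e3 : IsHom (toO (σ := Unit) ψ.ps ψ.bdd) (hazF p (prm n xO)) (hazF p (prm h 0)) := by
      refine IsHom.of_map (φ := (OC C).subtype) Subtype.val_injective ?_
      rw [e1, e2]
      have e4 : PowerSeries.map (OC C).subtype (toO (σ := Unit) ψ.ps ψ.bdd) = ψ.ps :=
        toO_map (σ := Unit) ψ.ps ψ.bdd
      rw [e4]
      exact ψ.isHom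
    have e5 := e3.map (Ideal.Quotient.mk (Ideal.span {τ}))
    rw [hazF_map, hazF_map, prm_map, prm_map] at e5
    have e6 : prm n (fun j => Ideal.Quotient.mk (Ideal.span {τ}) (xO j)) = prm n 0 := by
      refine prm_congr fun j hj1 hj2 => ?_
      change Ideal.Quotient.mk (Ideal.span {τ}) (xO j) = 0
      rw [Ideal.Quotient.eq_zero_iff_mem, Ideal.mem_span_singleton]
      have h2 : ‖((xO j : OC C) : C)‖ ≤ ‖(τ : C)‖ := by
        rw [hxO]
        exact hx j hj1 hj2
      obtain ⟨w, hw, -⟩ := OC.exists_mul h0 h2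
      exact ⟨w, hw⟩
    have e7 : prm h (fun j => Ideal.Quotient.mk (Ideal.span {τ}) ((0 : ℕ → OC C) j)) = prm h 0 :=
      prm_congr fun j _ _ => map_zero _
    rw [e6, e7] at e5
    have e8 : ψh.map U.π = PowerSeries.map (Ideal.Quotient.mk (Ideal.span {τ}))
        (toO (σ := Unit) ψ.ps ψ.bdd) := by
      rw [hψh]
      exact hatS_map_pi p U (σ := Unit) ψ.ps ψ.bdd
    rw [e8]
    exact e5
  have hcomp : IsAdicComplete (Ideal.span {(p : OC L)}) (OC L) := OC_adicComplete p hp1
  obtain ⟨c, g0, hg0, hH⟩ := quasi_of_hom p hn hh (B := OC L) (K := L)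
    (FaithfulSMul.algebraMap_injective (OC L) L) U.π (fun b hb => by
      rw [OC_dvd_iff]
      rw [U.π_eq_zero] at hb
      have : (((p : ℕ) : OC L) : L) = (p : L) := by simp
      rw [this, U.norm_p]
      exact hb) ψh hψh0 hred
  refine ⟨c, fun z => ?_⟩
  obtain ⟨lam, hlam⟩ : ∃ lam : C → C, ∀ z : (FC p n (0 : Ball C)).Pt,
      lam z.1 = (ψ.map (expm p hn x z)).1 := by
    classical
    refine ⟨fun y => if hy : ‖y‖ < 1 then (ψ.map (expm p hn x ⟨y, hy⟩)).1 else 0, fun z => ?_⟩
    exact dif_pos z.2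
  rw [← hlam z]
  refine theta_quasi p U h0 h1 hn hh (ψ := ψh.map (algebraMap (OC L) L))
    (g0 := g0.map (algebraMap (OC L) L)) (bdd_map_sub (σ := Unit) ψh) ?_
    (bdd_map_sub (σ := Unit) g0) hH lam ?_ ?_ ?_ z.2
  · have h2 : PowerSeries.constantCoeff (ψh.map (algebraMap (OC L) L)) =
      algebraMap (OC L) L (PowerSeries.constantCoeff ψh) := rfl
    rw [h2, hψh0, map_zero]
  · intro y hy
    rw [hlam ⟨y, hy⟩]
    exact (ψ.map (expm p hn x ⟨y, hy⟩)).2
  · intro y hy
    obtain ⟨Y, hY⟩ : ∃ Y : (FC p n (0 : Ball C)).Pt, Y.1 = y := ⟨⟨y, hy⟩, rfl⟩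
    have h2 : (p • Y).1 = y ^ p ^ n := by rw [nsmul_p_honda p hn, hY]
    rw [← h2, hlam, ← hY, hlam, map_nsmul, map_nsmul, nsmul_p_honda p hh]
  · intro y hy
    rw [hlam ⟨y, hy⟩]
    have hTy : ‖U.T y‖ < 1 := by rwa [U.norm_T]
    have h2 : Rel p U (ev1 y ψ.ps) (ev1 (U.T y) (ψh.map (algebraMap (OC L) L))) := by
      refine Rel.ev h0 h1 (σ := Unit) (fun _ => hy) (fun _ => hTy) (fun _ => Rel.of hy.le) ψ.bdd
        (bdd_map_sub (σ := Unit) ψh) fun d => ?_
      have h3 : MvPowerSeries.coeff d (ψh.map (algebraMap (OC L) L)) =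
          U.T (MvPowerSeries.coeff d ψ.ps) := by
        rw [hψh]
        rfl
      rw [h3]
      exact Rel.of (ψ.bdd d)
    refine h2.congr h1.le ?_ (by simp)
    rw [CHom.map_val]
    refine norm_ev_sub_le (σ := Unit) (fun _ => hy) ψ.bdd (fun _ => (expm p hn x ⟨y, hy⟩).2)
      (norm_nonneg _) fun _ => ?_
    rw [norm_sub_rev]
    exact expm_sub_le p hn (norm_nonneg _) hx ⟨y, hy⟩

include h0 in
/-- `Θ_h(g(w)^{p^{k'}})` for an endomorphism `g` of the Honda group over `𝔽` -/
theorem exists_endo {h : ℕ} (hh : 1 ≤ h) {𝔽 : Type*} [Field 𝔽] [Fintype 𝔽] [CharP 𝔽 p]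
    [Algebra 𝔽 C] (hcard : Fintype.card 𝔽 = p ^ h) (g : PowerSeries 𝔽)
    (hg : IsHom g (hazF p (prm h 0)) (hazF p (prm h 0))) :
    ∃ a : Fin h → FractionRing (WittVector p 𝔽), ∀ (k' : ℕ) (w : C), ‖w‖ < 1 →
      theta p U h (ev1 w (g.map (algebraMap 𝔽 C)) ^ p ^ k') =
        ∑ k : Fin h, rhoK p h1 U k' (a k) * theta p U h (w ^ p ^ (k' + (k : ℕ))) := by
  have hp1 := norm_p_lt_one p U h0 h1
  have hg0 : PowerSeries.constantCoeff g = 0 := hg.1
  obtain ⟨gh, hgh⟩ : ∃ gh : PowerSeries (WittVector p 𝔽),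
    gh = PowerSeries.mk fun i => WittVector.teichmuller p (PowerSeries.coeff i g) := ⟨_, rfl⟩
  have hgh0 : PowerSeries.constantCoeff gh = 0 := by
    rw [hgh, ← PowerSeries.coeff_zero_eq_constantCoeff_apply, PowerSeries.coeff_mk,
      PowerSeries.coeff_zero_eq_constantCoeff_apply, hg0, WittVector.teichmuller_zero]
  have hred : gh.map WittVector.constantCoeff = g := by
    ext i
    rw [PowerSeries.coeff_map, hgh, PowerSeries.coeff_mk]
    exact WittVector.teichmuller_coeff_zero p _
  obtain ⟨a, g0, hg00, hH⟩ := quasi_of_hom p hh hh (B := WittVector p 𝔽)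
    (K := FractionRing (WittVector p 𝔽)) (IsFractionRing.injective _ _)
    (WittVector.constantCoeff : WittVector p 𝔽 →+* 𝔽) (fun b hb => by
      rw [← Ideal.mem_span_singleton]
      exact (WittVector.mem_span_p_iff_coeff_zero_eq_zero b).2 hb) gh hgh0 (by
      rw [hred]
      exact hg)
  refine ⟨a, fun k' w hw => ?_⟩
  obtain ⟨ψ, hψ⟩ : ∃ ψ : PowerSeries L, ψ = gh.map (rhoW p U k') := ⟨_, rfl⟩
  obtain ⟨G, hG⟩ : ∃ G : PowerSeries C, G = g.map (algebraMap 𝔽 C) := ⟨_, rfl⟩
  obtain ⟨G', hG'⟩ : ∃ G' : PowerSeries C, G' = G.map (iterateFrobenius C p k') := ⟨_, rfl⟩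
  have hGb : Bdd G := fun d => by
    rw [hG]
    exact norm_algebraMap_le (C := C) _
  have hGc : ∀ d : Unit →₀ ℕ, coeff d G' = algebraMap 𝔽 C (coeff d g) ^ p ^ k' := fun d => by
    rw [hG', hG]
    exact iterateFrobenius_def p k' _
  have hGb' : Bdd G' := fun d => by
    rw [hGc, norm_pow]
    exact pow_le_one₀ (norm_nonneg _) (norm_algebraMap_le (C := C) _)
  have hψb : Bdd ψ := fun d => by
    rw [hψ]
    exact norm_rhoW_le p U k' _
  have hmap : ∀ F : PowerSeries (FractionRing (WittVector p 𝔽)),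
      PowerSeries.constantCoeff F = 0 → PowerSeries.map (rhoK p h1 U k')
        ((hlog p (prm h (0 : ℕ → FractionRing (WittVector p 𝔽)))).subst F) =
        (logS p L h).subst (PowerSeries.map (rhoK p h1 U k') F) := by
    intro F hF
    have h3 := PowerSeries.map_subst (h := rhoK p h1 U k')
      (PowerSeries.HasSubst.of_constantCoeff_zero' hF)
      (hlog p (prm h (0 : ℕ → FractionRing (WittVector p 𝔽))))
    refine h3.trans ?_
    rw [hlog_map, map_prm (rhoK p h1 U k') h]
    rfl
  have hH' : (logS p L h).subst ψ = ∑ k : Fin h, rhoK p h1 U k' (a k) • (logS p L h).subst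
      ((PowerSeries.X : PowerSeries L) ^ p ^ (k : ℕ)) + g0.map (rhoW p U k') := by
    have h2 := congrArg (PowerSeries.map (rhoK p h1 U k')) hH
    have hmm : ∀ F : PowerSeries (WittVector p 𝔽), PowerSeries.map (rhoK p h1 U k')
        (F.map (algebraMap (WittVector p 𝔽) (FractionRing (WittVector p 𝔽)))) =
        F.map (rhoW p U k') := by
      intro F
      ext i
      rw [PowerSeries.coeff_map, PowerSeries.coeff_map, PowerSeries.coeff_map, rhoK_algebraMap]
    rw [map_add, map_sum, hmm, hmap, hmm, ← hψ] at h2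
    · rw [h2]
      congr 1
      refine Finset.sum_congr rfl fun k _ => ?_
      have h4 : ∀ (r : FractionRing (WittVector p 𝔽))
          (F : PowerSeries (FractionRing (WittVector p 𝔽))),
          PowerSeries.map (rhoK p h1 U k') (r • F) =
            rhoK p h1 U k' r • PowerSeries.map (rhoK p h1 U k') F := by
        intro r F
        ext i
        rw [PowerSeries.coeff_map, PowerSeries.coeff_smul, PowerSeries.coeff_smul,
          PowerSeries.coeff_map, smul_eq_mul, smul_eq_mul, map_mul]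
      rw [h4, hmap, map_pow, PowerSeries.map_X]
      rw [map_pow, PowerSeries.constantCoeff_X, zero_pow (pow_ne_zero _ hp.out.ne_zero)]
    · have h3 : PowerSeries.constantCoeff
        (gh.map (algebraMap (WittVector p 𝔽) (FractionRing (WittVector p 𝔽)))) =
        algebraMap _ _ (PowerSeries.constantCoeff gh) := rfl
      rw [h3, hgh0, map_zero]
  have hkey := theta_quasi p U h0 h1 hh hh (ψ := ψ) (g0 := g0.map (rhoW p U k')) hψb (by
    have h3 : PowerSeries.constantCoeff (gh.map (rhoW p U k')) =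
      rhoW p U k' (PowerSeries.constantCoeff gh) := rfl
    rw [hψ, h3, hgh0, map_zero]) (fun d => norm_rhoW_le p U k' _) hH' (fun z => ev1 z G')
    (fun z hz => norm_ev_lt_one (fun _ => hz) hGb' (by
      have h3 : MvPowerSeries.constantCoeff G' = algebraMap 𝔽 C (MvPowerSeries.constantCoeff g) ^
        p ^ k' := hGc 0
      have h4 : MvPowerSeries.constantCoeff g = 0 := hg0
      rw [h3, h4, map_zero, zero_pow (pow_ne_zero _ hp.out.ne_zero), norm_zero]
      exact one_pos))
    (fun z hz => by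
      have h3 := ev_frob (σ := Unit) p h (a := fun _ => z) (fun _ => hz) hGb'
      have h4 : MvPowerSeries.map (iterateFrobenius C p h) G' = G' := by
        refine MvPowerSeries.ext fun d => ?_
        rw [coeff_map, hGc, iterateFrobenius_def, ← pow_mul, mul_comm, pow_mul, ← map_pow,
          ← hcard, FiniteField.pow_card]
      rw [h4] at h3
      exact h3.symm)
    (fun z hz => by
      have hTz : ‖U.T z‖ < 1 := by rwa [U.norm_T]
      refine Rel.ev h0 h1 (σ := Unit) (fun _ => hz) (fun _ => hTz) (fun _ => Rel.of hz.le) hGb'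
        hψb fun d => ?_
      have h3 : MvPowerSeries.coeff d ψ = U.T (algebraMap 𝔽 C (MvPowerSeries.coeff d g)) ^ p ^ k' := by
        rw [← rhoW_teichmuller, hψ, hgh]
        have h5 : MvPowerSeries.coeff d (PowerSeries.mk fun i =>
            WittVector.teichmuller p (PowerSeries.coeff i g)) =
            WittVector.teichmuller p (MvPowerSeries.coeff d g) := by
          have h6 : ∀ {R : Type _} [CommRing R] (f : PowerSeries R), MvPowerSeries.coeff d f =
              PowerSeries.coeff (d ()) f := by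
            intro R _ f
            rw [PowerSeries.coeff]
            congr 2
            ext
            simp
          rw [h6 g]
          exact (h6 _).trans (PowerSeries.coeff_mk _ _)
        rw [← h5]
        rfl
      have h7 : U.T (algebraMap 𝔽 C (MvPowerSeries.coeff d g)) ^ p ^ k' =
        U.T (algebraMap 𝔽 C (MvPowerSeries.coeff d g) ^ p ^ k') := (map_pow U.T _ _).symm
      rw [h3, hGc, h7]
      refine Rel.of ?_
      rw [norm_pow]
      exact pow_le_one₀ (norm_nonneg _) (norm_algebraMap_le (C := C) _))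
    (z := w ^ p ^ k') (by
      rw [norm_pow]
      exact pow_lt_one₀ (norm_nonneg _) hw (pow_ne_zero _ hp.out.ne_zero))
  have hlast : ev1 (w ^ p ^ k') G' = ev1 w G ^ p ^ k' := by
    rw [hG']
    exact (ev_frob (σ := Unit) p k' (a := fun _ => w) (fun _ => hw) hGb).symm
  rw [hlast, hG] at hkey
  rw [hkey]
  refine Finset.sum_congr rfl fun k _ => ?_
  rw [← pow_mul, ← pow_add]

end Chai
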