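import Vale.Agent.Chai.Untilt

/-!
# P217 / UntiltData: the untilt of `C` as a complete normed field (part of Theta)

OWNER: helper6 (done)

`L = Frac A`, `A = UA p τ = W(O_C)/(p - [τ])`, with the norm `‖T(y) u / (T(y') u')‖ = ‖y‖/‖y'‖`
(`u, u'` units of `A`).  PROOF.  Norm on `A`: `a = T(y) u` (`UA_factor`), `‖a‖ := ‖y‖`, independent of
choices: if `T(y) u = T(y') u'` and `‖y‖ < ‖y'‖` then `T(y/y') u = u'`, so `T(y/y')` is a unit, but a
power of it is divisible by `p` (`UT_dvd`) and `p` is not a unit (`UA_red`, `‖τ‖ < 1`).  Multiplicative;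
ultrametric: `T(y) u + T(y') u' = T(y) (u + T(y'/y) u')` if `‖y'‖ ≤ ‖y‖`, and every element of `A` has
norm `≤ 1`.  So it is a valuation `A → ℝ≥0` (or an absolute value); extend it to `L`
(`Valuation.extendToLocalization`).  `x = a/b` has norm `≤ 1` iff `x ∈ A`: `b = T(y') u'`,
`a = T(y) u`, `‖y‖ ≤ ‖y'‖`, so `a/b = T(y/y') u/u'`.  `p^k A` is the ball of radius `‖τ‖^k`, so `L` is
complete by `UA_complete`.  `T` on `C`: `T(y/y') = T(y)/T(y')`.  `π`: `UA_red`.  `ρ`: the quotient map.
-/

namespace Chai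

universe u

open NNReal

namespace UR

variable {p : ℕ} {C : Type*} [NontriviallyNormedField C] [IsUltrametricDist C] {τ : OC C}

theorem exists_field {A : Type u} [CommRing A] (D : UR p τ A) (h0 : (τ : C) ≠ 0) (h1 : ‖(τ : C)‖ < 1) :
    ∃ (L : Type u) (_ : NontriviallyNormedField L) (_ : IsUltrametricDist L) (i : A →+* L),
      Function.Injective i ∧ (∀ a, ‖i a‖ = D.val h0 a) ∧ (∀ x : L, ‖x‖ ≤ 1 → ∃ a, i a = x) := by
  have := D.isDomain h0 h1
  let v : Valuation A ℝ≥0 := D.valuation h0 h1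
  have hv : ∀ a, v a = D.val h0 a := fun a => rfl
  have hS : nonZeroDivisors A ≤ v.supp.primeCompl := by
    intro a ha h
    have ha0 : a ≠ 0 := nonZeroDivisors.ne_zero ha
    exact ha0 ((D.val_eq_zero h0 h1).1 h)
  let w : Valuation (FractionRing A) ℝ≥0 := v.extendToLocalization hS (FractionRing A)
  have hw : ∀ a, w (algebraMap A (FractionRing A) a) = v a := fun a =>
    v.extendToLocalization_apply_map_apply hS (FractionRing A) a
  let abv : AbsoluteValue (FractionRing A) ℝ :=
    { toFun := fun x => (w x : ℝ)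
      map_mul' := fun x y => by rw [map_mul]; push_cast; rfl
      nonneg' := fun x => (w x).2
      eq_zero' := fun x => by
        rw [NNReal.coe_eq_zero]
        exact w.zero_iff
      add_le' := fun x y => by
        have h2 := w.map_add x y
        have h3 : (w (x + y) : ℝ) ≤ max (w x : ℝ) (w y : ℝ) := by exact_mod_cast h2
        refine h3.trans (max_le ?_ ?_)
        · have := (w y).2
          linarith
        · have := (w x).2
          linarith }
  let N : NormedField (FractionRing A) := abv.toNormedField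
  have hN : ∀ x : FractionRing A, ‖x‖ = (w x : ℝ) := fun x => rfl
  have hne : ∃ x : FractionRing A, x ≠ 0 ∧ ‖x‖ ≠ 1 := by
    refine ⟨algebraMap A (FractionRing A) (D.T τ), ?_, ?_⟩
    · have : D.T τ ≠ 0 := by
        intro h
        have h2 := D.T_mul_ne_zero h0 h1 (y := τ) h0 isUnit_one
        rw [mul_one] at h2
        exact h2 h
      exact (map_ne_zero_iff _ (IsFractionRing.injective A (FractionRing A))).2 this
    · rw [hN, hw, hv, D.val_T h0 h1]
      exact h1.ne
  let NN : NontriviallyNormedField (FractionRing A) := NontriviallyNormedField.ofNormNeOne hne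
  refine ⟨FractionRing A, NN, ?_, algebraMap A (FractionRing A),
    IsFractionRing.injective A (FractionRing A), ?_, ?_⟩
  · refine IsUltrametricDist.isUltrametricDist_of_forall_norm_add_le_max_norm fun x y => ?_
    have h2 := w.map_add x y
    exact_mod_cast h2
  · intro a
    show (w _ : ℝ) = _
    rw [hw, hv]
  · intro x hx
    obtain ⟨a, b, hb, rfl⟩ := IsFractionRing.div_surjective (A := A) x
    have hb0 : b ≠ 0 := nonZeroDivisors.ne_zero hb
    by_cases ha : a = 0
    · refine ⟨0, ?_⟩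
      rw [ha, map_zero, zero_div]
    obtain ⟨y, s, hy, hs, rfl⟩ := D.factor h0 ha
    obtain ⟨z, t, hz, ht, rfl⟩ := D.factor h0 hb0
    have hx' : (w (algebraMap A (FractionRing A) (D.T y * s) / algebraMap A (FractionRing A) (D.T z * t)) : ℝ) ≤ 1 := hx
    rw [map_div₀, hw, hw, hv, hv, D.val_eq h0 h1 hy hs, D.val_eq h0 h1 hz ht, NNReal.coe_div,
      coe_nnnorm, coe_nnnorm, div_le_one (norm_pos_iff.2 hz)] at hx'
    obtain ⟨r, hr, -⟩ := OC.exists_mul (x := y) hz hx'
    obtain ⟨t', ht'⟩ := ht.exists_right_inv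
    refine ⟨D.T r * s * t', ?_⟩
    have hbne : algebraMap A (FractionRing A) (D.T z * t) ≠ 0 :=
      (map_ne_zero_iff _ (IsFractionRing.injective A (FractionRing A))).2 hb0
    rw [eq_div_iff hbne, ← map_mul]
    congr 1
    rw [hr, map_mul]
    calc D.T r * s * t' * (D.T z * t) = D.T z * D.T r * s * (t * t') := by ring
      _ = D.T z * D.T r * s := by rw [ht', mul_one]

theorem complete_of {A L : Type*} [CommRing A] (D : UR p τ A) (h0 : (τ : C) ≠ 0) (h1 : ‖(τ : C)‖ < 1)
    [NontriviallyNormedField L] (i : A →+* L) (hn : ∀ a, ‖i a‖ = D.val h0 a)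
    (hs : ∀ x : L, ‖x‖ ≤ 1 → ∃ a, i a = x) : CompleteSpace L := by
  have hτ : 0 < ‖(τ : C)‖ := norm_pos_iff.2 h0
  refine Metric.complete_of_convergent_controlled_sequences (fun n => ‖(τ : C)‖ ^ n)
    (fun n => pow_pos hτ n) fun u hu => ?_
  have h2 : ∀ n, ∃ a, i a = u n - u 0 := by
    intro n
    apply hs
    have := hu 0 n 0 (Nat.zero_le _) le_rfl
    rw [dist_eq_norm, pow_zero] at this
    exact this.le
  choose a ha using h2
  have h3 : ∀ {m n : ℕ}, m ≤ n → a m ≡ a n [SMOD ((Ideal.span {(p : A)}) ^ m • ⊤ : Submodule A A)] := by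
    intro m n hmn
    rw [SModEq.sub_mem, smul_eq_mul, Ideal.mul_top, Ideal.span_singleton_pow,
      Ideal.mem_span_singleton, D.pow_dvd_iff h0 h1, ← hn, map_sub, ha, ha]
    have h4 := hu m m n le_rfl hmn
    rw [dist_eq_norm] at h4
    refine le_trans (le_of_eq ?_) h4.le
    congr 1
    ring
  have hc := D.complete
  obtain ⟨l, hl⟩ := hc.toIsPrecomplete.prec h3
  refine ⟨u 0 + i l, ?_⟩
  rw [tendsto_iff_norm_sub_tendsto_zero]
  have h5 : ∀ n, ‖u n - (u 0 + i l)‖ ≤ ‖(τ : C)‖ ^ n := by
    intro n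
    have h6 := hl n
    rw [SModEq.sub_mem, smul_eq_mul, Ideal.mul_top, Ideal.span_singleton_pow,
      Ideal.mem_span_singleton, D.pow_dvd_iff h0 h1, ← hn, map_sub, ha] at h6
    refine le_trans (le_of_eq ?_) h6
    congr 1
    ring
  exact squeeze_zero (fun n => norm_nonneg _) h5
    (tendsto_pow_atTop_nhds_zero_of_lt_one (norm_nonneg _) h1)

theorem charZero_of {A L : Type*} [CommRing A] (D : UR p τ A) (hp : p.Prime) (h0 : (τ : C) ≠ 0)
    (h1 : ‖(τ : C)‖ < 1) [NontriviallyNormedField L] (i : A →+* L) (hi : Function.Injective i)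
    : CharZero L := by
  obtain ⟨ℓ, hℓ⟩ := CharP.exists L
  rcases CharP.char_is_prime_or_zero L ℓ with h | h
  · exfalso
    have h2 : ((ℓ : ℕ) : L) = 0 := CharP.cast_eq_zero L ℓ
    have h3 : ((ℓ : ℕ) : A) = 0 := hi (by rw [map_natCast, h2, map_zero])
    by_cases hpl : ℓ = p
    · rw [hpl, ← D.T_tau] at h3
      have h4 := D.T_mul_ne_zero h0 h1 (y := τ) h0 isUnit_one
      rw [mul_one] at h4
      exact h4 h3
    · have hcop : Nat.Coprime ℓ p := (Nat.coprime_primes h hp).2 hpl
      have h5 : IsUnit (p : A) := by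
        have h6 := Nat.isCoprime_iff_coprime.2 hcop
        obtain ⟨a, b, hab⟩ := h6
        have h7 := congrArg (fun z : ℤ => (z : A)) hab
        simp only [Int.cast_add, Int.cast_mul, Int.cast_natCast, Int.cast_one] at h7
        rw [h3, mul_zero, zero_add] at h7
        exact IsUnit.of_mul_eq_one _ ((mul_comm _ _).trans h7)
      exact D.not_isUnit_p h1 h5
  · subst h
    exact CharP.charP_to_charZero L

/-- the two multiplicative maps -/
theorem exists_mulMap {A L : Type*} [CommRing A] (D : UR p τ A) (h0 : (τ : C) ≠ 0)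
    (h1 : ‖(τ : C)‖ < 1)
    [NontriviallyNormedField L] (i : A →+* L) (hn : ∀ a, ‖i a‖ = D.val h0 a) :
    ∃ T : C →*₀ L, (∀ y, ‖T y‖ = ‖y‖) ∧ ∀ y : OC C, T y = i (D.T y) := by
  have hex : ∀ c : C, ∃ y z : OC C, (y : C) ≠ 0 ∧ (z : C) = y * c := by
    intro c
    rcases le_or_gt ‖c‖ 1 with h | h
    · exact ⟨1, ⟨c, h⟩, by simp, by simp⟩
    · have hc : c ≠ 0 := norm_pos_iff.1 (one_pos.trans h)
      have hc' : ‖c⁻¹‖ ≤ 1 := by
        rw [norm_inv]
        exact inv_le_one_of_one_le₀ h.le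
      refine ⟨⟨c⁻¹, hc'⟩, 1, inv_ne_zero hc, ?_⟩
      show (1 : C) = c⁻¹ * c
      rw [inv_mul_cancel₀ hc]
  choose y z hy hz using hex
  have hTne : ∀ w : OC C, (w : C) ≠ 0 → i (D.T w) ≠ 0 := by
    intro w hw
    rw [← norm_pos_iff, hn, D.val_T h0 h1]
    exact_mod_cast norm_pos_iff.2 hw
  have hT : ∀ (c : C) (y' z' : OC C), (y' : C) ≠ 0 → (z' : C) = y' * c →
      i (D.T (z c)) / i (D.T (y c)) = i (D.T z') / i (D.T y') := by
    intro c y' z' hy' hz'
    rw [div_eq_div_iff (hTne _ (hy c)) (hTne _ hy'), ← map_mul, ← map_mul, ← map_mul, ← map_mul]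
    congr 2
    apply Subtype.ext
    rw [Subring.coe_mul, Subring.coe_mul, hz c, hz']
    ring
  refine ⟨{ toFun := fun c => i (D.T (z c)) / i (D.T (y c))
            map_zero' := ?_
            map_one' := ?_
            map_mul' := ?_ }, ?_, ?_⟩
  · rw [hT 0 1 0 (by simp) (by simp), D.T_zero h0, map_zero, zero_div]
  · rw [hT 1 1 1 (by simp) (by simp), map_one, map_one, div_one]
  · intro c d
    rw [hT (c * d) (y c * y d) (z c * z d) ?_ ?_, map_mul, map_mul, map_mul, map_mul, div_mul_div_comm]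
    · rw [Subring.coe_mul]
      exact mul_ne_zero (hy c) (hy d)
    · rw [Subring.coe_mul, Subring.coe_mul, hz, hz]
      ring
  · intro c
    show ‖i (D.T (z c)) / i (D.T (y c))‖ = ‖c‖
    rw [norm_div, hn, hn, D.val_T h0 h1, D.val_T h0 h1, coe_nnnorm, coe_nnnorm, hz, norm_mul,
      mul_div_cancel_left₀ _ (norm_ne_zero_iff.2 (hy c))]
  · intro w
    show i (D.T (z w)) / i (D.T (y w)) = i (D.T w)
    rw [hT (w : C) 1 w (by simp) (by simp), map_one, map_one, div_one]

end UR

section
variable (p : ℕ) [Fact p.Prime]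
variable (C : Type u) [NontriviallyNormedField C] [IsUltrametricDist C]

/-- an untilt of `C`: `L` of characteristic `0` with `O_L/p = O_C/τ` -/
structure UntiltData (τ : OC C) (L : Type u) [NontriviallyNormedField L] [IsUltrametricDist L] where
  /-- the multiplicative lift -/
  T : C →*₀ L
  norm_T : ∀ y, ‖T y‖ = ‖y‖
  T_tau : T τ = (p : L)
  /-- reduction modulo `p` -/
  π : OC L →+* OC C ⧸ Ideal.span {τ}
  π_surj : Function.Surjective π
  π_eq_zero : ∀ a : OC L, π a = 0 ↔ ‖(a : L)‖ ≤ ‖(τ : C)‖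
  π_T : ∀ (y : OC C) (a : OC L), (a : L) = T y → π a = Ideal.Quotient.mk _ y
  /-- the map from the Witt vectors -/
  ρ : WittVector p (OC C) →+* OC L
  ρ_T : ∀ y : OC C, ((ρ (WittVector.teichmuller p y) : OC L) : L) = T y

end

theorem UR.exists_data {p : ℕ} [Fact p.Prime] {C : Type u} [NontriviallyNormedField C]
    [IsUltrametricDist C] {τ : OC C} {A : Type u} [CommRing A] (D : UR p τ A) (h0 : (τ : C) ≠ 0)
    (h1 : ‖(τ : C)‖ < 1) (σ : WittVector p (OC C) →+* A)
    (hσ : ∀ y, σ (WittVector.teichmuller p y) = D.T y) :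
    ∃ (L : Type u) (_ : NontriviallyNormedField L) (_ : IsUltrametricDist L) (_ : CompleteSpace L)
      (_ : CharZero L), Nonempty (UntiltData p C τ L) := by
  obtain ⟨L, iN, iU, i, hi, hn, hs⟩ := D.exists_field h0 h1
  have iC := D.complete_of h0 h1 i hn hs
  have iZ := D.charZero_of Fact.out h0 h1 i hi
  obtain ⟨T, hT1, hT2⟩ := D.exists_mulMap h0 h1 i hn
  refine ⟨L, iN, iU, iC, iZ, ?_⟩
  have hle : ∀ a, i a ∈ OC L := by
    intro a
    show ‖i a‖ ≤ 1
    rw [hn]
    exact_mod_cast D.val_le_one h0 h1 a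
  let j : A →+* OC L := i.codRestrict (OC L) hle
  have hj : ∀ a, ((j a : OC L) : L) = i a := fun a => rfl
  have hjb : Function.Bijective j := by
    constructor
    · intro a b hab
      apply hi
      rw [← hj, ← hj, hab]
    · intro x
      obtain ⟨a, ha⟩ := hs x x.2
      exact ⟨a, Subtype.ext ha⟩
  let E : A ≃+* OC L := RingEquiv.ofBijective j hjb
  have hE : ∀ a, E a = j a := fun a => rfl
  have hred : Function.Surjective D.red := by
    intro x
    obtain ⟨y, rfl⟩ := Ideal.Quotient.mk_surjective x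
    exact ⟨D.T y, D.red_T y⟩
  refine ⟨{ T := T
            norm_T := hT1
            T_tau := ?_
            π := D.red.comp E.symm.toRingHom
            π_surj := hred.comp E.symm.surjective
            π_eq_zero := ?_
            π_T := ?_
            ρ := j.comp σ
            ρ_T := ?_ }⟩
  · rw [hT2, D.T_tau, map_natCast]
  · intro a
    obtain ⟨b, rfl⟩ := E.surjective a
    show D.red (E.symm (E b)) = 0 ↔ _
    rw [E.symm_apply_apply, D.red_zero, hE, hj, hn]
    have := D.pow_dvd_iff h0 h1 1 b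
    rwa [pow_one, pow_one] at this
  · intro y a ha
    have h2 : a = E (D.T y) := by
      apply Subtype.ext
      rw [ha, hT2, hE, hj]
    show D.red (E.symm a) = _
    rw [h2, E.symm_apply_apply, D.red_T]
  · intro y
    show ((j (σ (WittVector.teichmuller p y)) : OC L) : L) = T y
    rw [hj, hσ, hT2]

variable (p : ℕ) [Fact p.Prime]
variable {C : Type u} [NontriviallyNormedField C] [IsUltrametricDist C] [CompleteSpace C]
variable [CharP C p] [IsAlgClosed C]

theorem exists_untilt (τ : OC C) (h0 : (τ : C) ≠ 0) (h1 : ‖(τ : C)‖ < 1) :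
    ∃ (L : Type u) (_ : NontriviallyNormedField L) (_ : IsUltrametricDist L) (_ : CompleteSpace L)
      (_ : CharZero L), Nonempty (UntiltData p C τ L) := by
  obtain ⟨D, hD⟩ := exists_UR p τ h0
  exact D.exists_data h0 h1 (Ideal.Quotient.mk _) hD

end Chai
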