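import Vale.Agent.Chai.Core

/-!
# P217 / UntiltRing: the closed unit ball `OC C` and abstract untilt rings (helper6, done)

`UR p τ A`: a `p`-adically complete, `p`-torsion free ring `A` with a multiplicative map `T : O_C → A`,
`T τ = p`, and a ring homomorphism `red : A → O_C/τ` with kernel `pA` and `red (T y) = y`.  Every
nonzero element is `T(y) u`, `u` a unit, and `a = T(y) u ↦ ‖y‖` is a valuation.
-/

namespace Chai

universe u

section
variable (C : Type*) [NontriviallyNormedField C] [IsUltrametricDist C]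

/-- the closed unit ball -/
def OC : Subring C where
  carrier := {x | ‖x‖ ≤ 1}
  mul_mem' {a b} ha hb := by
    simp only [Set.mem_ofPred_eq, norm_mul] at *
    exact mul_le_one₀ ha (norm_nonneg _) hb
  one_mem' := by simp
  add_mem' {a b} ha hb := (IsUltrametricDist.norm_add_le_max a b).trans (max_le ha hb)
  zero_mem' := by simp
  neg_mem' {a} ha := by simpa using ha

variable {C}

theorem OC.norm_le (x : OC C) : ‖(x : C)‖ ≤ 1 := x.2

theorem OC.exists_mul {x y : OC C} (hy : (y : C) ≠ 0) (h : ‖(x : C)‖ ≤ ‖(y : C)‖) :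
    ∃ z : OC C, x = y * z ∧ (z : C) = (x : C) / y := by
  have h2 : ‖(x : C) / y‖ ≤ 1 := by
    rw [norm_div]
    exact div_le_one_of_le₀ h (norm_nonneg _)
  refine ⟨⟨(x : C) / y, h2⟩, ?_, rfl⟩
  apply Subtype.ext
  rw [Subring.coe_mul]
  change (x : C) = y * ((x : C) / y)
  field_simp

end

/-- abstract untilt ring -/
structure UR (p : ℕ) {C : Type*} [NontriviallyNormedField C] [IsUltrametricDist C] (τ : OC C)
    (A : Type*) [CommRing A] where
  T : OC C →* A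
  T_tau : T τ = (p : A)
  red : A →+* OC C ⧸ Ideal.span {τ}
  red_zero : ∀ a, red a = 0 ↔ (p : A) ∣ a
  red_T : ∀ y, red (T y) = Ideal.Quotient.mk _ y
  reg : ∀ a : A, (p : A) * a = 0 → a = 0
  complete : IsAdicComplete (Ideal.span {(p : A)}) A

namespace UR

open NNReal

variable {p : ℕ} {C : Type*} [NontriviallyNormedField C] [IsUltrametricDist C] {τ : OC C}
variable {A : Type*} [CommRing A] (D : UR p τ A)
include D

theorem dvd_of_norm_le (h0 : (τ : C) ≠ 0) {y : OC C} (hy : ‖(y : C)‖ ≤ ‖(τ : C)‖) : (p : A) ∣ D.T y := by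
  obtain ⟨z, hz, -⟩ := OC.exists_mul h0 hy
  rw [hz, map_mul, D.T_tau]
  exact dvd_mul_right _ _

theorem norm_le_of_dvd {y : OC C} (hy : (p : A) ∣ D.T y) : ‖(y : C)‖ ≤ ‖(τ : C)‖ := by
  have h1 := (D.red_zero _).2 hy
  rw [D.red_T, Ideal.Quotient.eq_zero_iff_mem, Ideal.mem_span_singleton] at h1
  obtain ⟨z, rfl⟩ := h1
  rw [Subring.coe_mul, norm_mul]
  exact mul_le_of_le_one_right (norm_nonneg _) (OC.norm_le z)

theorem not_isUnit_p (h1 : ‖(τ : C)‖ < 1) : ¬ IsUnit (p : A) := by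
  intro h
  have h2 : (p : A) ∣ D.T 1 := by
    rw [map_one]
    exact h.dvd
  have h3 := D.norm_le_of_dvd h2
  rw [Subring.coe_one, norm_one] at h3
  linarith

theorem nontrivial (h1 : ‖(τ : C)‖ < 1) : Nontrivial A := by
  by_contra h
  rw [not_nontrivial_iff_subsingleton] at h
  exact D.not_isUnit_p h1 (isUnit_of_subsingleton _)

omit D in
theorem exists_pow_le (h1 : ‖(τ : C)‖ < 1) {y : OC C} (hy : (y : C) ≠ 0) : ∃ M : ℕ, ‖(τ : C)‖ ^ M ≤ ‖(y : C)‖ := by
  have h2 : Filter.Tendsto (fun n : ℕ => ‖(τ : C)‖ ^ n) Filter.atTop (nhds 0) :=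
    tendsto_pow_atTop_nhds_zero_of_lt_one (norm_nonneg _) h1
  obtain ⟨M, hM⟩ := (h2.eventually (gt_mem_nhds (norm_pos_iff.2 hy))).exists
  exact ⟨M, hM.le⟩

theorem reg_pow (M : ℕ) (a : A) (h : (p : A) ^ M * a = 0) : a = 0 := by
  induction M with
  | zero => simpa using h
  | succ M ih =>
    rw [pow_succ', mul_assoc] at h
    exact ih (D.reg _ h)

theorem T_reg (h1 : ‖(τ : C)‖ < 1) {y : OC C} (hy : (y : C) ≠ 0) (a : A)
    (h : D.T y * a = 0) : a = 0 := by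
  obtain ⟨M, hM⟩ := exists_pow_le (τ := τ) h1 hy
  obtain ⟨z, hz, -⟩ := OC.exists_mul (x := τ ^ M) hy (by rw [Subring.coe_pow, norm_pow]; exact hM)
  refine D.reg_pow M a ?_
  rw [← D.T_tau, ← map_pow, hz, map_mul, mul_comm (D.T y), mul_assoc, h, mul_zero]

theorem T_mem_jacobson (h0 : (τ : C) ≠ 0) {z : OC C} (hz : ‖(z : C)‖ < 1) :
    D.T z ∈ (⊥ : Ideal A).jacobson := by
  have h2 : Filter.Tendsto (fun n : ℕ => ‖(z : C)‖ ^ n) Filter.atTop (nhds 0) :=
    tendsto_pow_atTop_nhds_zero_of_lt_one (norm_nonneg _) hz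
  obtain ⟨M, hM⟩ := (h2.eventually (gt_mem_nhds (norm_pos_iff.2 h0))).exists
  have h3 : (p : A) ∣ D.T (z ^ M) := D.dvd_of_norm_le h0 (by rw [Subring.coe_pow, norm_pow]; exact hM.le)
  have h4 : D.T (z ^ M) ∈ (⊥ : Ideal A).jacobson := by
    have := D.complete
    exact (IsAdicComplete.le_jacobson_bot (Ideal.span {(p : A)})) (Ideal.mem_span_singleton.2 h3)
  rw [map_pow] at h4
  exact (Ideal.isRadical_jacobson ⊥) ⟨M, h4⟩

theorem not_isUnit_T (h1 : ‖(τ : C)‖ < 1) (h0 : (τ : C) ≠ 0) {z : OC C} (hz : ‖(z : C)‖ < 1) :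
    ¬ IsUnit (D.T z) := by
  intro h
  have h2 := D.T_mem_jacobson h0 hz
  have := D.nontrivial h1
  have h3 : (⊥ : Ideal A).jacobson = ⊤ := Ideal.eq_top_of_isUnit_mem _ h2 h
  rw [Ideal.jacobson_eq_top_iff] at h3
  exact bot_ne_top h3

theorem isUnit_one_add (h0 : (τ : C) ≠ 0) {z : OC C} (hz : ‖(z : C)‖ < 1) (a : A) :
    IsUnit (1 + D.T z * a) := by
  have h2 := D.T_mem_jacobson h0 hz
  rw [Ideal.mem_jacobson_bot] at h2
  rw [add_comm]
  exact h2 a

theorem T_zero (h0 : (τ : C) ≠ 0) : D.T 0 = 0 := by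
  have := D.complete
  refine IsHausdorff.haus (I := Ideal.span {(p : A)}) inferInstance _ fun n => ?_
  rw [SModEq.zero, smul_eq_mul, Ideal.mul_top, Ideal.span_singleton_pow, Ideal.mem_span_singleton]
  have h : D.T 0 = D.T (τ ^ n * 0) := by rw [mul_zero]
  rw [h, map_mul, map_pow, D.T_tau]
  exact dvd_mul_right _ _

theorem exists_T_add (a : A) : ∃ (y : OC C) (b : A), a = D.T y + p * b := by
  obtain ⟨y, hy⟩ := Ideal.Quotient.mk_surjective (D.red a)
  have h1 : D.red (a - D.T y) = 0 := by rw [map_sub, D.red_T, hy, sub_self]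
  obtain ⟨b, hb⟩ := (D.red_zero _).1 h1
  exact ⟨y, b, by rw [← hb]; ring⟩

theorem factor_of_not_dvd (h0 : (τ : C) ≠ 0) {a : A} (ha : ¬ (p : A) ∣ a) :
    ∃ (y : OC C) (u : A), (y : C) ≠ 0 ∧ IsUnit u ∧ a = D.T y * u := by
  obtain ⟨y, b, rfl⟩ := D.exists_T_add a
  have hy : ‖(τ : C)‖ < ‖(y : C)‖ := by
    by_contra hcon
    rw [not_lt] at hcon
    exact ha (dvd_add (D.dvd_of_norm_le h0 hcon) (dvd_mul_right _ _))
  have hy0 : (y : C) ≠ 0 := norm_pos_iff.1 ((norm_nonneg _).trans_lt hy)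
  obtain ⟨z, hz, hz'⟩ := OC.exists_mul hy0 hy.le
  have hz1 : ‖(z : C)‖ < 1 := by
    rw [hz', norm_div]
    exact (div_lt_one (norm_pos_iff.2 hy0)).2 hy
  refine ⟨y, 1 + D.T z * b, hy0, D.isUnit_one_add h0 hz1 b, ?_⟩
  have hp : (p : A) = D.T y * D.T z := by rw [← map_mul, ← hz, D.T_tau]
  rw [hp]
  ring

theorem factor (h0 : (τ : C) ≠ 0) {a : A} (ha : a ≠ 0) :
    ∃ (y : OC C) (u : A), (y : C) ≠ 0 ∧ IsUnit u ∧ a = D.T y * u := by
  have hex : ∃ k, ¬ (p : A) ^ k ∣ a := by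
    by_contra hcon
    push Not at hcon
    apply ha
    have := D.complete
    refine IsHausdorff.haus (I := Ideal.span {(p : A)}) inferInstance _ fun n => ?_
    rw [SModEq.zero, smul_eq_mul, Ideal.mul_top, Ideal.span_singleton_pow, Ideal.mem_span_singleton]
    exact hcon n
  classical
  set k := Nat.find hex with hk
  have hk1 := Nat.find_spec hex
  rw [← hk] at hk1
  have hk0 : k ≠ 0 := by
    intro h
    rw [h, pow_zero] at hk1
    exact hk1 (one_dvd _)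
  obtain ⟨m, hm⟩ := Nat.exists_eq_succ_of_ne_zero hk0
  have hm1 : (p : A) ^ m ∣ a := by
    by_contra h
    exact Nat.find_min hex (by rw [← hk, hm]; exact Nat.lt_succ_self m) h
  obtain ⟨b, rfl⟩ := hm1
  have hb : ¬ (p : A) ∣ b := by
    rintro ⟨c, rfl⟩
    apply hk1
    rw [hm, Nat.succ_eq_add_one, pow_succ]
    exact mul_dvd_mul_left _ (dvd_mul_right _ _)
  obtain ⟨y, u, hy, hu, hyu⟩ := D.factor_of_not_dvd h0 hb
  refine ⟨τ ^ m * y, u, ?_, hu, ?_⟩
  · rw [Subring.coe_mul, Subring.coe_pow]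
    exact mul_ne_zero (pow_ne_zero _ h0) hy
  · rw [map_mul, map_pow, D.T_tau, hyu]
    ring

theorem norm_le_of_eq (h0 : (τ : C) ≠ 0) (h1 : ‖(τ : C)‖ < 1) {y y' : OC C} {u u' : A}
    (hy' : (y' : C) ≠ 0) (hu' : IsUnit u')
    (h : D.T y * u = D.T y' * u') : ‖(y' : C)‖ ≤ ‖(y : C)‖ := by
  by_contra hcon
  rw [not_le] at hcon
  obtain ⟨z, hz, hz'⟩ := OC.exists_mul hy' hcon.le
  have hz1 : ‖(z : C)‖ < 1 := by
    rw [hz', norm_div]
    exact (div_lt_one (norm_pos_iff.2 hy')).2 hcon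
  have h2 : D.T y' * (D.T z * u - u') = 0 := by
    rw [mul_sub, ← h, hz, map_mul]
    ring
  have h3 := D.T_reg h1 hy' _ h2
  have h4 : IsUnit (D.T z * u) := by
    rw [sub_eq_zero.1 h3]
    exact hu'
  exact D.not_isUnit_T h1 h0 hz1 (isUnit_of_mul_isUnit_left h4)

open Classical in
/-- the valuation -/
noncomputable def val (h0 : (τ : C) ≠ 0) (a : A) : ℝ≥0 :=
  if ha : a ≠ 0 then ‖((D.factor h0 ha).choose : C)‖₊ else 0

theorem val_zero (h0 : (τ : C) ≠ 0) : D.val h0 0 = 0 := by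
  unfold val
  rw [dif_neg (not_not.2 rfl)]

theorem T_mul_ne_zero (h0 : (τ : C) ≠ 0) (h1 : ‖(τ : C)‖ < 1) {y : OC C} {u : A}
    (hy : (y : C) ≠ 0) (hu : IsUnit u) : D.T y * u ≠ 0 := by
  intro h
  have h2 := D.T_reg h1 hy _ h
  have := D.nontrivial h1
  exact hu.ne_zero h2

theorem val_eq (h0 : (τ : C) ≠ 0) (h1 : ‖(τ : C)‖ < 1) {y : OC C} {u : A}
    (hy : (y : C) ≠ 0) (hu : IsUnit u) : D.val h0 (D.T y * u) = ‖(y : C)‖₊ := by
  have ha := D.T_mul_ne_zero h0 h1 hy hu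
  unfold val
  rw [dif_pos ha]
  obtain ⟨u', hy', hu', h⟩ := (D.factor h0 ha).choose_spec
  apply NNReal.eq
  exact le_antisymm (D.norm_le_of_eq h0 h1 hy' hu' h) (D.norm_le_of_eq h0 h1 hy hu h.symm)

theorem val_T (h0 : (τ : C) ≠ 0) (h1 : ‖(τ : C)‖ < 1) (y : OC C) : D.val h0 (D.T y) = ‖(y : C)‖₊ := by
  by_cases hy : (y : C) = 0
  · have : y = 0 := Subtype.ext hy
    rw [this, D.T_zero h0, D.val_zero h0]
    simp
  · have := D.val_eq h0 h1 hy isUnit_one
    rwa [mul_one] at this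

theorem val_eq_zero (h0 : (τ : C) ≠ 0) (h1 : ‖(τ : C)‖ < 1) {a : A} : D.val h0 a = 0 ↔ a = 0 := by
  constructor
  · intro h
    by_contra ha
    obtain ⟨y, u, hy, hu, rfl⟩ := D.factor h0 ha
    rw [D.val_eq h0 h1 hy hu, nnnorm_eq_zero] at h
    exact hy h
  · rintro rfl
    exact D.val_zero h0

theorem val_le_one (h0 : (τ : C) ≠ 0) (h1 : ‖(τ : C)‖ < 1) (a : A) : D.val h0 a ≤ 1 := by
  by_cases ha : a = 0
  · rw [ha, D.val_zero]
    exact zero_le_one
  · obtain ⟨y, u, hy, hu, rfl⟩ := D.factor h0 ha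
    rw [D.val_eq h0 h1 hy hu]
    exact OC.norm_le y

theorem val_mul (h0 : (τ : C) ≠ 0) (h1 : ‖(τ : C)‖ < 1) (a b : A) :
    D.val h0 (a * b) = D.val h0 a * D.val h0 b := by
  by_cases ha : a = 0
  · rw [ha, zero_mul, D.val_zero, zero_mul]
  by_cases hb : b = 0
  · rw [hb, mul_zero, D.val_zero, mul_zero]
  obtain ⟨y, u, hy, hu, rfl⟩ := D.factor h0 ha
  obtain ⟨z, v, hz, hv, rfl⟩ := D.factor h0 hb
  rw [D.val_eq h0 h1 hy hu, D.val_eq h0 h1 hz hv]
  have h2 : D.T y * u * (D.T z * v) = D.T (y * z) * (u * v) := by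
    rw [map_mul]
    ring
  rw [h2, D.val_eq h0 h1 _ (hu.mul hv), Subring.coe_mul, nnnorm_mul]
  rw [Subring.coe_mul]
  exact mul_ne_zero hy hz

theorem val_add (h0 : (τ : C) ≠ 0) (h1 : ‖(τ : C)‖ < 1) (a b : A) :
    D.val h0 (a + b) ≤ max (D.val h0 a) (D.val h0 b) := by
  wlog h : D.val h0 b ≤ D.val h0 a generalizing a b
  · rw [add_comm, max_comm]
    exact this b a (le_of_lt (not_le.1 h))
  by_cases ha : a = 0
  · rw [ha, D.val_zero] at h
    rw [ha, zero_add]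
    exact le_max_right _ _
  by_cases hb : b = 0
  · rw [hb, add_zero]
    exact le_max_left _ _
  obtain ⟨y, u, hy, hu, rfl⟩ := D.factor h0 ha
  obtain ⟨z, v, hz, hv, rfl⟩ := D.factor h0 hb
  rw [D.val_eq h0 h1 hy hu, D.val_eq h0 h1 hz hv] at h
  obtain ⟨t, ht, -⟩ := OC.exists_mul (x := z) hy h
  refine le_trans ?_ (le_max_left _ _)
  have h2 : D.T y * u + D.T z * v = (D.T y * u) * 1 + D.T y * (D.T t * v) := by
    rw [ht, map_mul]
    ring
  have h3 : D.T y * u + D.T z * v = D.T y * (u + D.T t * v) := by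
    rw [ht, map_mul]
    ring
  rw [h3, D.val_mul h0 h1, D.val_eq h0 h1 hy hu, D.val_T h0 h1]
  exact mul_le_of_le_one_right' (D.val_le_one h0 h1 _)

/-- the valuation -/
noncomputable def valuation (h0 : (τ : C) ≠ 0) (h1 : ‖(τ : C)‖ < 1) : Valuation A ℝ≥0 where
  toFun := D.val h0
  map_zero' := D.val_zero h0
  map_one' := by
    have := D.val_T h0 h1 1
    rw [map_one] at this
    rw [this]
    simp
  map_mul' := D.val_mul h0 h1
  map_add_le_max' := D.val_add h0 h1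

theorem isDomain (h0 : (τ : C) ≠ 0) (h1 : ‖(τ : C)‖ < 1) : IsDomain A := by
  have := D.nontrivial h1
  have : NoZeroDivisors A := by
    refine ⟨fun {a b} hab => ?_⟩
    have h2 := D.val_mul h0 h1 a b
    rw [hab, D.val_zero] at h2
    rcases mul_eq_zero.1 h2.symm with h | h
    · exact Or.inl ((D.val_eq_zero h0 h1).1 h)
    · exact Or.inr ((D.val_eq_zero h0 h1).1 h)
  exact NoZeroDivisors.to_isDomain A

theorem pow_dvd_iff (h0 : (τ : C) ≠ 0) (h1 : ‖(τ : C)‖ < 1) (k : ℕ) (a : A) :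
    (p : A) ^ k ∣ a ↔ (D.val h0 a : ℝ) ≤ ‖(τ : C)‖ ^ k := by
  constructor
  · rintro ⟨b, rfl⟩
    rw [← D.T_tau, ← map_pow, D.val_mul h0 h1, D.val_T h0 h1, NNReal.coe_mul]
    have h2 := D.val_le_one h0 h1 b
    have h3 : (D.val h0 b : ℝ) ≤ 1 := by exact_mod_cast h2
    rw [coe_nnnorm, Subring.coe_pow, norm_pow]
    exact mul_le_of_le_one_right (by positivity) h3
  · intro h
    by_cases ha : a = 0
    · rw [ha]
      exact dvd_zero _
    obtain ⟨y, u, hy, hu, rfl⟩ := D.factor h0 ha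
    rw [D.val_eq h0 h1 hy hu, coe_nnnorm] at h
    obtain ⟨z, hz, -⟩ := OC.exists_mul (x := y) (y := τ ^ k)
      (by rw [Subring.coe_pow]; exact pow_ne_zero _ h0) (by rw [Subring.coe_pow, norm_pow]; exact h)
    rw [hz, map_mul, map_pow, D.T_tau, mul_assoc]
    exact dvd_mul_right _ _

end UR

end Chai
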